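import Crest.Agent.R242.Wug8

/-! Row 242, I-b, Wug10: limits, lower semicontinuity, gluing, density (aux names `w10_*`). -/

set_option autoImplicit false
set_option linter.unusedSectionVars false
open MeasureTheory Filter Set Topology
open scoped ENNReal NNReal
open Crest.GeometryTopology.SyntheticRicci

namespace Crest.Agent.R242

/-- Convex combinations of a bounded sequence in a Hilbert space converge: let `a n` be the infimum of `‖y‖²`
over the convex hull of `{x k | n ≤ k}` (increasing, bounded), `y n` an almost minimiser; parallelogram. -/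
theorem exists_convex_tendsto {H : Type*} [NormedAddCommGroup H] [InnerProductSpace ℝ H] [CompleteSpace H]
    (x : ℕ → H) {C : ℝ} (hx : ∀ n, ‖x n‖ ≤ C) :
    ∃ (s : ℕ → Finset ℕ) (c : ℕ → ℕ → ℝ) (y : H), (∀ n, ∀ k ∈ s n, n ≤ k ∧ 0 ≤ c n k) ∧
      (∀ n, ∑ k ∈ s n, c n k = 1) ∧ Tendsto (fun n => ∑ k ∈ s n, c n k • x k) atTop (𝓝 y) := by
  classical
  let T : (ℕ →₀ ℝ) →ₗ[ℝ] H := Finsupp.linearCombination ℝ x
  let S : (ℕ →₀ ℝ) →ₗ[ℝ] ℝ := Finsupp.linearCombination ℝ fun _ => (1 : ℝ)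
  let K : ℕ → Set (ℕ →₀ ℝ) := fun n => {c | (∀ k, k < n → c k = 0) ∧ (∀ k, 0 ≤ c k) ∧ S c = 1}
  have hK1 : ∀ n, Finsupp.single n (1 : ℝ) ∈ K n := fun n =>
    ⟨fun k hk => Finsupp.single_eq_of_ne hk.ne, fun k => by
      rw [Finsupp.single_apply]; split_ifs <;> norm_num, by simp [S]⟩
  have hKm : ∀ n k, n ≤ k → K k ⊆ K n := fun n k h c hc =>
    ⟨fun j hj => hc.1 j (hj.trans_le h), hc.2⟩
  have hKmid : ∀ n, ∀ c ∈ K n, ∀ d ∈ K n, (1 / 2 : ℝ) • (c + d) ∈ K n := fun n c hc d hd =>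
    ⟨fun k hk => by simp [hc.1 k hk, hd.1 k hk], fun k => by
      have := hc.2.1 k; have := hd.2.1 k; simp only [Finsupp.smul_apply, Finsupp.add_apply, smul_eq_mul]
      positivity, by rw [map_smul, map_add, hc.2.2, hd.2.2]; norm_num⟩
  let A : ℕ → Set ℝ := fun n => (fun c => ‖T c‖ ^ 2) '' K n
  have hAb : ∀ n, BddBelow (A n) := fun n => ⟨0, by rintro _ ⟨c, -, rfl⟩; positivity⟩
  have hAn : ∀ n, (A n).Nonempty := fun n => ⟨_, _, hK1 n, rfl⟩
  let a : ℕ → ℝ := fun n => sInf (A n)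
  have ham : Monotone a := fun n k h => csInf_le_csInf (hAb n) (hAn k) (image_mono (hKm n k h))
  have hab : BddAbove (range a) := ⟨C ^ 2, by
    rintro _ ⟨n, rfl⟩
    refine (csInf_le (hAb n) ⟨_, hK1 n, rfl⟩).trans ?_
    simp only [T, Finsupp.linearCombination_single, one_smul]
    exact pow_le_pow_left₀ (norm_nonneg _) (hx n) 2⟩
  have hat := tendsto_atTop_ciSup ham hab
  have hex : ∀ n : ℕ, ∃ c ∈ K n, ‖T c‖ ^ 2 < a n + 1 / ((n : ℝ) + 1) := fun n => by
    obtain ⟨_, ⟨c, hc, rfl⟩, h⟩ := exists_lt_of_csInf_lt (hAn n)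
      (show sInf (A n) < a n + 1 / ((n : ℝ) + 1) from lt_add_of_pos_right _ (by positivity))
    exact ⟨c, hc, h⟩
  choose c hc hc' using hex
  let b : ℕ → ℝ := fun n => 4 * (iSup a - a n) + 4 * (1 / ((n : ℝ) + 1))
  have hb : Tendsto b atTop (𝓝 0) := by
    have h1 := ((tendsto_const_nhds (x := iSup a)).sub hat).const_mul 4
    have h2 := (tendsto_one_div_add_atTop_nhds_zero_nat (𝕜 := ℝ)).const_mul 4
    simpa [b] using h1.add h2
  have hcs : CauchySeq fun n => T (c n) := by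
    refine cauchySeq_of_le_tendsto_0 (fun n => Real.sqrt (b n)) (fun n k N hn hk => ?_)
      (by simpa using hb.sqrt)
    rw [dist_eq_norm]
    refine Real.le_sqrt_of_sq_le ?_
    have h1 : a N ≤ ‖T ((1 / 2 : ℝ) • (c n + c k))‖ ^ 2 :=
      csInf_le (hAb N) ⟨_, hKmid N _ (hKm N n hn (hc n)) _ (hKm N k hk (hc k)), rfl⟩
    rw [map_smul, map_add, norm_smul] at h1
    have h2 := parallelogram_law_with_norm ℝ (T (c n)) (T (c k))
    have h3 := hc' n
    have h4 := hc' k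
    have h5 := le_ciSup hab n
    have h6 := le_ciSup hab k
    have h7 : 1 / ((n : ℝ) + 1) ≤ 1 / ((N : ℝ) + 1) := Nat.one_div_le_one_div hn
    have h8 : 1 / ((k : ℝ) + 1) ≤ 1 / ((N : ℝ) + 1) := Nat.one_div_le_one_div hk
    simp only [Real.norm_eq_abs, abs_of_pos (show (0 : ℝ) < 1 / 2 by norm_num)] at h1
    simp only [b]
    nlinarith
  obtain ⟨y, hy⟩ := cauchySeq_tendsto_of_complete hcs
  refine ⟨fun n => (c n).support, fun n => c n, y, fun n k hk => ⟨?_, (hc n).2.1 k⟩, fun n => ?_, ?_⟩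
  · by_contra h
    exact Finsupp.mem_support_iff.1 hk ((hc n).1 k (not_le.1 h))
  · have := (hc n).2.2
    simpa [S, Finsupp.linearCombination_apply, Finsupp.sum] using this
  · simpa [T, Finsupp.linearCombination_apply, Finsupp.sum] using hy

variable {X : Type*} [MetricSpace X] [MeasurableSpace X] [BorelSpace X] {m : Measure X} {f g u v D : X → ℝ}
  [Fact (IsFiniteOnBalls m)]

/-- `eLpNorm _ 2` as a `lintegral` -/
theorem w10_eLp {α : Type*} [MeasurableSpace α] (μ : Measure α) (h : α → ℝ) :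
    eLpNorm h 2 μ = (∫⁻ x, ENNReal.ofReal (h x ^ 2) ∂μ) ^ (1 / 2 : ℝ) := by
  rw [eLpNorm_eq_lintegral_rpow_enorm_toReal two_ne_zero ENNReal.ofNat_ne_top]
  simp only [ENNReal.toReal_ofNat]
  congr 1
  refine lintegral_congr fun x => ?_
  rw [Real.enorm_eq_ofReal_abs, ← sq_abs, ENNReal.ofReal_pow (abs_nonneg _)]
  simp

theorem w10_at {P : Measure (UCurve X)} (hP : Plan m P) (hf : AEMeasurable f m) (t : unitInterval) :
    AEMeasurable (fun γ : UCurve X => f (γ.toMap t)) P := by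
  refine ⟨fun γ => hf.mk f (γ.toMap t), hf.measurable_mk.comp (measurable_at t), ?_⟩
  filter_upwards [hP.ae_at hf.ae_eq_mk t] with γ h
  rwa [ext_coe] at h

/-- Fatou on the left (`Plan.ae_at`), `Plan.exists_cs` on the right -/
theorem wug_of_tendsto {F G : ℕ → X → ℝ} (hF : ∀ n, AEMeasurable (F n) m) (h : ∀ n, IsWUGLoc m (F n) (G n))
    (hf : ∀ᵐ x ∂m, Tendsto (fun n => F n x) atTop (𝓝 (f x))) (hD : IsL2OnBalls m D) (h0 : ∀ᵐ x ∂m, 0 ≤ D x)
    (hG : ∀ (o : X) (R : ℝ),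
      Tendsto (fun n => eLpNorm (fun x => G n x - D x) 2 (m.restrict (Metric.ball o R))) atTop (𝓝 0)) :
    IsWUGLoc m f D := by
  refine ⟨hD, h0, fun P h1 h2 => ?_⟩
  have hP : Plan m P := ⟨h1, h2⟩
  obtain ⟨K, o, R, hK⟩ := hP.exists_cs
  set B := ∫⁻ γ, (∫⁻ t in Set.Icc (0 : ℝ) 1, ENNReal.ofReal (D (γ.ext t)) * upperSpeed γ t) ∂P with hB
  have key : ∀ n, ∫⁻ γ, ENNReal.ofReal |F n (γ.toMap 1) - F n (γ.toMap 0)| ∂P ≤
      B + K * eLpNorm (fun x => G n x - D x) 2 (m.restrict (Metric.ball o R)) := by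
    intro n
    have hm : AEMeasurable (fun x => G n x - D x) m := (l2b_aemeasurable (h n).1).sub (l2b_aemeasurable hD)
    set E := hm.mk _ with hE
    have hEm : Measurable E := hm.measurable_mk
    have hZ : Measurable fun z : UCurve X × ℝ => ENNReal.ofReal |E (ev z)| * upperSpeed z.1 z.2 :=
      ((hEm.comp measurable_ev).abs.ennreal_ofReal).mul measurable_upperSpeed
    refine ((h n).2.2 P h1 h2).trans ?_
    calc _ ≤ ∫⁻ γ, ((∫⁻ t in Set.Icc (0 : ℝ) 1, ENNReal.ofReal (D (γ.ext t)) * upperSpeed γ t) +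
          ∫⁻ t in Set.Icc (0 : ℝ) 1, ENNReal.ofReal |E (γ.ext t)| * upperSpeed γ t) ∂P := by
          refine lintegral_mono_ae ?_
          filter_upwards [hP.ae_ae hm.ae_eq_mk] with γ hγ
          have hZ' : Measurable fun t : ℝ => ENNReal.ofReal |E (γ.ext t)| * upperSpeed γ t :=
            hZ.comp (measurable_prodMk_left (x := γ))
          rw [← lintegral_add_right _ hZ']
          refine lintegral_mono_ae ?_
          filter_upwards [hγ] with t ht
          rw [← add_mul]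
          refine mul_le_mul_left ((ENNReal.ofReal_le_ofReal ?_).trans ENNReal.ofReal_add_le) _
          have := le_abs_self (E (γ.ext t))
          change G n (γ.ext t) - D (γ.ext t) = E (γ.ext t) at ht
          linarith
      _ = B + ∫⁻ γ, (∫⁻ t in Set.Icc (0 : ℝ) 1, ENNReal.ofReal |E (γ.ext t)| * upperSpeed γ t) ∂P :=
          lintegral_add_right _ hZ.lintegral_prod_right'
      _ ≤ _ := by
          refine add_le_add le_rfl ((hK (fun x => ENNReal.ofReal |E x|)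
            hEm.abs.ennreal_ofReal.aemeasurable).trans (le_of_eq ?_))
          rw [eLpNorm_congr_ae (ae_restrict_of_ae hm.ae_eq_mk), w10_eLp]
          congr 2
          refine lintegral_congr fun x => ?_
          rw [← ENNReal.ofReal_pow (abs_nonneg _), sq_abs]
  have hlim : Tendsto (fun n => B + K * eLpNorm (fun x => G n x - D x) 2 (m.restrict (Metric.ball o R)))
      atTop (𝓝 B) := by
    simpa using (tendsto_const_nhds (x := B)).add
      (ENNReal.Tendsto.const_mul (a := (K : ℝ≥0∞)) (hG o R) (Or.inr ENNReal.coe_ne_top))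
  calc _ = ∫⁻ γ, liminf (fun n => ENNReal.ofReal |F n (γ.toMap 1) - F n (γ.toMap 0)|) atTop ∂P := by
        refine lintegral_congr_ae ?_
        filter_upwards [hP.ae_at hf 0, hP.ae_at hf 1] with γ a0 a1
        rw [ext_zero] at a0; rw [ext_one] at a1
        exact ((ENNReal.continuous_ofReal.tendsto _).comp (a1.sub a0).abs).liminf_eq.symm
    _ ≤ liminf (fun n => ∫⁻ γ, ENNReal.ofReal |F n (γ.toMap 1) - F n (γ.toMap 0)| ∂P) atTop :=
        lintegral_liminf_le' fun n => ((w10_at hP (hF n) 1).sub (w10_at hP (hF n) 0)).abs.ennreal_ofReal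
    _ ≤ B := (liminf_le_liminf (Eventually.of_forall key)).trans hlim.liminf_eq.le

/-- one bound for all -/
theorem wug_of_tendsto_le {F : ℕ → X → ℝ} (hF : ∀ n, IsSobolevLoc m (F n))
    (hf : ∀ᵐ x ∂m, Tendsto (fun n => F n x) atTop (𝓝 (f x))) (hD : IsL2OnBalls m D)
    (h : ∀ n, ∀ᵐ x ∂m, minWeakGrad m (F n) x ≤ D x) : IsWUGLoc m f D :=
  wug_of_tendsto (G := fun _ => D) (fun n => sl_aemeasurable (hF n))
    (fun n => wug_mono (sl_wug (hF n)) hD (h n)) hf hD
    (by filter_upwards [h 0, gr_nonneg m (F 0)] with x h1 h2 using h2.trans h1)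
    (fun o R => by simp)

theorem w10_sum {ι : Type*} (s : Finset ι) {F : ι → X → ℝ} {c : ι → ℝ} (h : ∀ i ∈ s, IsSobolevLoc m (F i))
    (hc : ∀ i ∈ s, 0 ≤ c i) : ∀ᵐ x ∂m,
    minWeakGrad m (fun y => ∑ i ∈ s, c i * F i y) x ≤ ∑ i ∈ s, c i * minWeakGrad m (F i) x := by
  classical
  induction s using Finset.induction_on with
  | empty => simpa using (gr_const (m := m) 0).mono fun x hx => hx.le
  | insert a s ha ih =>
    have h1 := h a (Finset.mem_insert_self _ _)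
    have h2 : ∀ i ∈ s, IsSobolevLoc m (F i) := fun i hi => h i (Finset.mem_insert_of_mem hi)
    simp only [Finset.sum_insert ha]
    filter_upwards [ih h2 fun i hi => hc i (Finset.mem_insert_of_mem hi),
      gr_add_le (sl_const_mul (c a) h1) (sl_sum s fun i hi => sl_const_mul (c i) (h2 i hi)),
      gr_const_mul (c a) h1] with x a1 a2 a3
    rw [abs_of_nonneg (hc a (Finset.mem_insert_self _ _))] at a3
    linarith

/-- convex combinations of the tails of a convergent sequence -/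
theorem w10_conv {s : ℕ → Finset ℕ} {c : ℕ → ℕ → ℝ} (h1 : ∀ n, ∀ k ∈ s n, n ≤ k ∧ 0 ≤ c n k)
    (h2 : ∀ n, ∑ k ∈ s n, c n k = 1) {a : ℕ → ℝ} {l : ℝ} (h : Tendsto a atTop (𝓝 l)) :
    Tendsto (fun n => ∑ k ∈ s n, c n k * a k) atTop (𝓝 l) := by
  rw [Metric.tendsto_atTop] at h ⊢
  intro ε hε
  obtain ⟨N, hN⟩ := h (ε / 2) (by positivity)
  refine ⟨N, fun n hn => ?_⟩
  have e : ∑ k ∈ s n, c n k * a k - l = ∑ k ∈ s n, c n k * (a k - l) := by
    simp only [mul_sub, Finset.sum_sub_distrib, ← Finset.sum_mul, h2 n, one_mul]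
  rw [Real.dist_eq, e]
  refine ((Finset.abs_sum_le_sum_abs _ _).trans (?_ : _ ≤ ∑ k ∈ s n, c n k * (ε / 2))).trans_lt ?_
  · refine Finset.sum_le_sum fun k hk => ?_
    rw [abs_mul, abs_of_nonneg (h1 n k hk).2]
    exact mul_le_mul_of_nonneg_left (hN k (hn.trans (h1 n k hk).1)).le (h1 n k hk).2
  · rw [← Finset.sum_mul, h2 n]; linarith

theorem w10_meas (w : X → ℝ≥0∞) (hw : AEMeasurable w m) (hg : AEMeasurable g m) :
    AEMeasurable (fun x => w x * ENNReal.ofReal (g x ^ 2)) m := hw.mul (hg.pow_const 2).ennreal_ofReal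

theorem w10_norm {α : Type*} [MeasurableSpace α] {μ : Measure α} {h : α → ℝ} (hh : MemLp h 2 μ) {C : ℝ}
    (hC : ∫ x, h x ^ 2 ∂μ ≤ C) : eLpNorm h 2 μ ≤ ENNReal.ofReal (Real.sqrt C) := by
  have hC0 : 0 ≤ C := (integral_nonneg fun x => sq_nonneg _).trans hC
  rw [w10_eLp, ← ofReal_integral_eq_lintegral_ofReal hh.integrable_sq (ae_of_all _ fun x => sq_nonneg _),
    Real.sqrt_eq_rpow, ← ENNReal.ofReal_rpow_of_nonneg hC0 (by norm_num)]
  exact ENNReal.rpow_le_rpow (ENNReal.ofReal_le_ofReal hC) (by norm_num)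

/-- LOWER SEMICONTINUITY.  `exists_convex_tendsto` in `Lp ℝ 2 m` for the gradients; the same convex
combinations of the `F k` converge a.e. to `f`; `wug_of_tendsto`; an a.e. convergent subsequence
(`tendstoInMeasure_of_tendsto_Lp`), convexity of the square and Fatou for the weighted bound. -/
theorem sl_lsc {F : ℕ → X → ℝ} (hF : ∀ n, IsSobolev m (F n)) (hf2 : IsL2OnBalls m f)
    (hf : ∀ᵐ x ∂m, Tendsto (fun n => F n x) atTop (𝓝 (f x))) {C : ℝ}
    (hC : ∀ n, ∫ x, minWeakGrad m (F n) x ^ 2 ∂m ≤ C) :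
    IsSobolevLoc m f ∧ ∀ (w : X → ℝ≥0∞) (c : ℝ≥0∞), AEMeasurable w m →
      (∀ᶠ n in atTop, ∫⁻ x, w x * ENNReal.ofReal (minWeakGrad m (F n) x ^ 2) ∂m ≤ c) →
      ∫⁻ x, w x * ENNReal.ofReal (minWeakGrad m f x ^ 2) ∂m ≤ c := by
  obtain ⟨s, c, y, h1, h2, h3⟩ := exists_convex_tendsto (fun n => (hF n).2.2.toLp _) (C := Real.sqrt C)
    fun n => by
      rw [Lp.norm_toLp]
      exact ENNReal.toReal_le_of_le_ofReal (Real.sqrt_nonneg _) (w10_norm (hF n).2.2 (hC n))
  set G : ℕ → X → ℝ := fun n x => ∑ k ∈ s n, c n k * minWeakGrad m (F k) x with hG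
  have hG2 : ∀ n, MemLp (G n) 2 m := fun n =>
    memLp_finsetSum _ fun k _ => (hF k).2.2.const_mul _
  have hGe : ∀ n, ⇑(∑ k ∈ s n, c n k • (hF k).2.2.toLp _) =ᵐ[m] G n := fun n => by
    refine (Lp.coeFn_finsetSum _ _).trans ?_
    have : ∀ᵐ x ∂m, ∀ k ∈ s n, (c n k • (hF k).2.2.toLp _) x = c n k * minWeakGrad m (F k) x := by
      refine (Finset.eventually_all _).2 fun k _ => ?_
      filter_upwards [Lp.coeFn_smul (c n k) ((hF k).2.2.toLp _), (hF k).2.2.coeFn_toLp] with x a1 a2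
      rw [a1, Pi.smul_apply, a2, smul_eq_mul]
    filter_upwards [this] with x hx
    rw [Finset.sum_apply]
    exact Finset.sum_congr rfl hx
  have hGt : Tendsto (fun n => eLpNorm (G n - ⇑y) 2 m) atTop (𝓝 0) := by
    refine ((Lp.tendsto_Lp_iff_tendsto_eLpNorm' _ _).1 h3).congr fun n => eLpNorm_congr_ae ?_
    exact (hGe n).sub EventuallyEq.rfl
  obtain ⟨φ, hφ, hφt⟩ := (tendstoInMeasure_of_tendsto_eLpNorm two_ne_zero (fun n => (hG2 n).1)
    (Lp.aestronglyMeasurable y) hGt).exists_seq_tendsto_ae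
  have hS : ∀ n, IsSobolevLoc m fun x => ∑ k ∈ s n, c n k * F k x := fun n =>
    sl_sum _ fun k _ => sl_const_mul _ (hF k).2.1
  have hSG : ∀ n, ∀ᵐ x ∂m, minWeakGrad m (fun y => ∑ k ∈ s n, c n k * F k y) x ≤ G n x := fun n =>
    w10_sum _ (fun k _ => (hF k).2.1) fun k hk => (h1 n k hk).2
  have hG0 : ∀ᵐ x ∂m, ∀ n, 0 ≤ G n x := ae_all_iff.2 fun n => by
    filter_upwards [hSG n, gr_nonneg m _] with x a1 a2 using a2.trans a1
  have hW : IsWUGLoc m f y := by
    refine wug_of_tendsto (G := G) (fun n => sl_aemeasurable (hS n))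
      (fun n => wug_mono (sl_wug (hS n)) (l2b_of_memLp (hG2 n)) (hSG n))
      (hf.mono fun x hx => w10_conv h1 h2 hx) (l2b_of_memLp (Lp.memLp y)) ?_ fun o R => ?_
    · filter_upwards [hG0, hφt] with x a1 a2 using ge_of_tendsto' a2 fun n => a1 _
    · exact tendsto_of_tendsto_of_tendsto_of_le_of_le tendsto_const_nhds hGt (fun _ => zero_le)
        fun n => eLpNorm_mono_measure _ Measure.restrict_le_self
  have hfs := sl_of_wug hf2 hW
  refine ⟨hfs, fun w b hw hb => ?_⟩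
  obtain ⟨N, hN⟩ := eventually_atTop.1 hb
  have key : ∀ n, N ≤ n → ∫⁻ x, w x * ENNReal.ofReal (G n x ^ 2) ∂m ≤ b := fun n hn => by
    calc _ ≤ ∫⁻ x, ∑ k ∈ s n, ENNReal.ofReal (c n k) * (w x * ENNReal.ofReal (minWeakGrad m (F k) x ^ 2)) ∂m := by
          refine lintegral_mono fun x => ?_
          refine (mul_le_mul_right (ENNReal.ofReal_le_ofReal (Real.pow_arith_mean_le_arith_mean_pow_of_even
            (s n) (c n) _ (fun k hk => (h1 n k hk).2) (h2 n) even_two)) _).trans (le_of_eq ?_)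
          rw [ENNReal.ofReal_sum_of_nonneg fun k hk => mul_nonneg (h1 n k hk).2 (sq_nonneg _), Finset.mul_sum]
          refine Finset.sum_congr rfl fun k hk => ?_
          rw [ENNReal.ofReal_mul (h1 n k hk).2, mul_left_comm]
      _ = ∑ k ∈ s n, ENNReal.ofReal (c n k) * ∫⁻ x, w x * ENNReal.ofReal (minWeakGrad m (F k) x ^ 2) ∂m := by
          rw [lintegral_finsetSum' _ fun k _ => (w10_meas w hw (gr_aemeasurable m _)).const_mul _]
          exact Finset.sum_congr rfl fun k _ => lintegral_const_mul' _ _ ENNReal.ofReal_ne_top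
      _ ≤ ∑ k ∈ s n, ENNReal.ofReal (c n k) * b :=
          Finset.sum_le_sum fun k hk => mul_le_mul_right (hN k (hn.trans (h1 n k hk).1)) _
      _ = b := by
          rw [← Finset.sum_mul, ← ENNReal.ofReal_sum_of_nonneg fun k hk => (h1 n k hk).2, h2 n]; simp
  calc _ ≤ ∫⁻ x, liminf (fun j => w x * ENNReal.ofReal (G (φ j) x ^ 2)) atTop ∂m := by
        refine lintegral_mono_ae ?_
        filter_upwards [hφt, gr_le_of_wug hfs hW, gr_nonneg m f] with x a1 a2 a3
        refine (mul_le_mul_right (ENNReal.ofReal_le_ofReal (pow_le_pow_left₀ a3 a2 2)) _).trans ?_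
        by_cases h0 : ENNReal.ofReal (y x ^ 2) = 0
        · simp [h0]
        · exact (ENNReal.Tendsto.const_mul ((ENNReal.continuous_ofReal.tendsto _).comp (a1.pow 2))
            (Or.inl h0)).liminf_eq.ge
    _ ≤ liminf (fun j => ∫⁻ x, w x * ENNReal.ofReal (G (φ j) x ^ 2) ∂m) atTop :=
        lintegral_liminf_le' fun j => w10_meas w hw (hG2 _).aemeasurable
    _ ≤ b := liminf_le_of_frequently_le' (Eventually.frequently
        (eventually_atTop.2 ⟨N, fun j hj => key _ (hj.trans (hφ.id_le j))⟩))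

theorem w10_sub {F : ℕ → X → ℝ} (hF : ∀ n, IsSobolev m (F n)) (hf2 : MemLp f 2 m)
    (hf : Tendsto (fun n => eLpNorm (fun x => F n x - f x) 2 m) atTop (𝓝 0)) {C : ℝ}
    (hC : ∀ n, ∫ x, minWeakGrad m (F n) x ^ 2 ∂m ≤ C) :
    IsSobolevLoc m f ∧ ∀ (w : X → ℝ≥0∞) (c : ℝ≥0∞), AEMeasurable w m →
      (∀ᶠ n in atTop, ∫⁻ x, w x * ENNReal.ofReal (minWeakGrad m (F n) x ^ 2) ∂m ≤ c) →
      ∫⁻ x, w x * ENNReal.ofReal (minWeakGrad m f x ^ 2) ∂m ≤ c := by
  obtain ⟨φ, hφ, hφt⟩ := (tendstoInMeasure_of_tendsto_eLpNorm two_ne_zero (fun n => (hF n).1.1)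
    hf2.1 hf).exists_seq_tendsto_ae
  obtain ⟨h1, h2⟩ := sl_lsc (fun n => hF (φ n)) (l2b_of_memLp hf2) hφt fun n => hC (φ n)
  exact ⟨h1, fun w c hw hc => h2 w c hw (hφ.tendsto_atTop.eventually hc)⟩

/-- closedness of the energy on `L²` (a.e. convergent subsequence, `sl_lsc` with `w = 1`) -/
theorem sob_lsc {F : ℕ → X → ℝ} (hF : ∀ n, IsSobolev m (F n)) (hf2 : MemLp f 2 m)
    (hf : Tendsto (fun n => eLpNorm (fun x => F n x - f x) 2 m) atTop (𝓝 0)) {C : ℝ}
    (hC : ∀ n, ∫ x, minWeakGrad m (F n) x ^ 2 ∂m ≤ C) :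
    IsSobolev m f ∧ ∫ x, minWeakGrad m f x ^ 2 ∂m ≤ C := by
  obtain ⟨h1, h2⟩ := w10_sub hF hf2 hf hC
  have hC0 : 0 ≤ C := (integral_nonneg fun x => sq_nonneg _).trans (hC 0)
  have h3 := h2 (fun _ => 1) (ENNReal.ofReal C) aemeasurable_const (Eventually.of_forall fun n => by
    simp only [one_mul]
    rw [← ofReal_integral_eq_lintegral_ofReal (hF n).2.2.integrable_sq (ae_of_all _ fun x => sq_nonneg _)]
    exact ENNReal.ofReal_le_ofReal (hC n))
  simp only [one_mul] at h3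
  have hm := (gr_aemeasurable m f).aestronglyMeasurable
  refine ⟨⟨hf2, h1, hm, ?_⟩, ?_⟩
  · rw [w10_eLp]
    exact ENNReal.rpow_lt_top_of_nonneg (by norm_num) (h3.trans_lt ENNReal.ofReal_lt_top).ne
  · rw [integral_eq_lintegral_of_nonneg_ae (ae_of_all _ fun x => sq_nonneg _) (hm.pow 2)]
    exact ENNReal.toReal_le_of_le_ofReal hC0 h3

/-- weighted form: `w` bounded, non-negative -/
theorem sob_lsc_weight {F : ℕ → X → ℝ} (hF : ∀ n, IsSobolev m (F n)) (hf2 : MemLp f 2 m)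
    (hf : Tendsto (fun n => eLpNorm (fun x => F n x - f x) 2 m) atTop (𝓝 0)) {C : ℝ}
    (hC : ∀ n, ∫ x, minWeakGrad m (F n) x ^ 2 ∂m ≤ C) {w : X → ℝ} (hw : AEMeasurable w m) {B : ℝ}
    (hw0 : ∀ᵐ x ∂m, 0 ≤ w x ∧ w x ≤ B) {c : ℝ}
    (hc : ∀ ε : ℝ, 0 < ε → ∀ᶠ n in atTop, ∫ x, w x * minWeakGrad m (F n) x ^ 2 ∂m ≤ c + ε) :
    ∫ x, w x * minWeakGrad m f x ^ 2 ∂m ≤ c := by
  obtain ⟨-, h2⟩ := w10_sub hF hf2 hf hC
  have hn : ∀ g : X → ℝ, 0 ≤ᵐ[m] fun x => w x * minWeakGrad m g x ^ 2 := fun g =>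
    hw0.mono fun x hx => mul_nonneg hx.1 (sq_nonneg _)
  have he : ∀ g : X → ℝ, ∫⁻ x, ENNReal.ofReal (w x * minWeakGrad m g x ^ 2) ∂m =
      ∫⁻ x, ENNReal.ofReal (w x) * ENNReal.ofReal (minWeakGrad m g x ^ 2) ∂m := fun g =>
    lintegral_congr_ae (hw0.mono fun x hx => ENNReal.ofReal_mul hx.1)
  refine le_of_forall_pos_le_add fun ε hε => ?_
  have h0 : 0 ≤ c + ε := by
    obtain ⟨n, hn'⟩ := (hc ε hε).exists
    exact (integral_nonneg_of_ae (hn _)).trans hn'
  rw [integral_eq_lintegral_of_nonneg_ae (hn f) (hw.mul ((gr_aemeasurable m f).pow_const 2)).aestronglyMeasurable]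
  refine ENNReal.toReal_le_of_le_ofReal h0 ?_
  rw [he]
  refine h2 _ _ hw.ennreal_ofReal ((hc ε hε).mono fun n hn' => ?_)
  have hi : Integrable (fun x => w x * minWeakGrad m (F n) x ^ 2) m :=
    (hF n).2.2.integrable_sq.bdd_mul (c := B) hw.aestronglyMeasurable
      (hw0.mono fun x hx => by rw [Real.norm_eq_abs, abs_of_nonneg hx.1]; exact hx.2)
  rw [← he, ← ofReal_integral_eq_lintegral_ofReal hi (hn _)]
  exact ENNReal.ofReal_le_ofReal hn'

omit [Fact (IsFiniteOnBalls m)] in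
theorem w10_ball (o o' : X) (R : ℝ) : ∃ n : ℕ, Metric.closedBall o' R ⊆ Metric.ball o (n + 1) := by
  obtain ⟨n, hn⟩ := exists_nat_ge (R + dist o' o)
  refine ⟨n, fun x hx => ?_⟩
  have := dist_triangle x o' o
  rw [Metric.mem_closedBall] at hx
  rw [Metric.mem_ball]; linarith

/-- local version: apply `sl_lsc` to `χ * F n` (`exists_cutoff`, `sob_cutoff`, `gr_mul_le`, `gr_local`) and glue
(`sl_of_local`) -/
theorem sl_of_local (h : ∀ (o : X) (R : ℝ), ∃ g, IsSobolevLoc m g ∧ ∀ᵐ x ∂m, x ∈ Metric.ball o R → f x = g x) :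
    IsSobolevLoc m f := by
  rcases isEmpty_or_nonempty X with hX | ⟨⟨o⟩⟩
  · rw [show f = fun _ => 0 from funext fun x => isEmptyElim x]; exact sl_const 0
  choose g hg hfg using fun n : ℕ => h o (n + 1)
  have loc : ∀ {a : X → ℝ} {b : ℕ → X → ℝ}, (∀ n, IsL2OnBalls m (b n)) →
      (∀ n : ℕ, ∀ᵐ x ∂m, x ∈ Metric.ball o (n + 1) → a x = b n x) → IsL2OnBalls m a := by
    intro a b h1 h2 o' R
    obtain ⟨n, hn⟩ := w10_ball o o' R
    refine (memLp_congr_ae ?_).2 (h1 n o' R)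
    refine (ae_restrict_iff' Metric.isOpen_ball.measurableSet).2 ?_
    filter_upwards [h2 n] with x hx hx' using hx (hn (Metric.ball_subset_closedBall hx'))
  let D : X → ℝ := fun x => minWeakGrad m (g ⌊dist x o⌋₊) x
  have hD : ∀ n : ℕ, ∀ᵐ x ∂m, x ∈ Metric.ball o (n + 1) → D x = minWeakGrad m (g n) x := fun n => by
    filter_upwards [ae_all_iff.2 hfg, ae_all_iff.2 fun k => gr_local (hg k) (hg n)] with x a1 a2 hx
    exact a2 _ ((a1 _ (Metric.mem_ball.2 (Nat.lt_floor_add_one _))).symm.trans (a1 n hx))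
  refine sl_of_wug (D := D) (loc (fun n => (hg n).1) hfg) ⟨loc (fun n => gr_l2b m (g n)) hD, ?_, ?_⟩
  · filter_upwards [ae_all_iff.2 fun k => gr_nonneg m (g k)] with x hx using hx _
  · intro P h1 h2
    have hP : Plan m P := ⟨h1, h2⟩
    obtain ⟨o', R, h3⟩ := h2
    obtain ⟨n, hn⟩ := w10_ball o o' R
    calc _ = ∫⁻ γ, ENNReal.ofReal |g n (γ.toMap 1) - g n (γ.toMap 0)| ∂P := by
          refine lintegral_congr_ae ?_
          filter_upwards [h3, hP.ae_at (hfg n) 0, hP.ae_at (hfg n) 1] with γ a a0 a1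
          rw [ext_zero] at a0; rw [ext_one] at a1
          rw [a0 (hn (a 0)), a1 (hn (a 1))]
      _ ≤ _ := (sl_wug (hg n)).2.2 P hP.1 hP.2
      _ = _ := by
          refine lintegral_congr_ae ?_
          filter_upwards [h3, hP.ae_ae (hD n)] with γ a b
          refine lintegral_congr_ae ?_
          filter_upwards [b] with t ht
          rw [ht (hn (a _))]

theorem sl_lsc_loc {F : ℕ → X → ℝ} (hF : ∀ n, IsSobolevLoc m (F n))
    (hf : ∀ᵐ x ∂m, Tendsto (fun n => F n x) atTop (𝓝 (f x)))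
    (hC : ∀ (o : X) (R : ℝ), ∃ C : ℝ, ∀ n, ∫ x in Metric.ball o R, (F n x ^ 2 + minWeakGrad m (F n) x ^ 2) ∂m ≤ C) :
    IsSobolevLoc m f ∧ ∀ (w : X → ℝ≥0∞) (c : ℝ≥0∞), AEMeasurable w m →
      (∀ᶠ n in atTop, ∫⁻ x, w x * ENNReal.ofReal (minWeakGrad m (F n) x ^ 2) ∂m ≤ c) →
      ∫⁻ x, w x * ENNReal.ofReal (minWeakGrad m f x ^ 2) ∂m ≤ c := by
  have hfm : AEMeasurable f m := aemeasurable_of_tendsto_metrizable_ae' (fun n => sl_aemeasurable (hF n)) hf
  have hf2 : IsL2OnBalls m f := fun o R => by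
    obtain ⟨C, hC⟩ := hC o R
    refine ⟨hfm.restrict.aestronglyMeasurable, (Lp.eLpNorm_le_of_ae_tendsto (u := atTop) (f := F)
      (C := ENNReal.ofReal (Real.sqrt C)) (Eventually.of_forall fun n => w10_norm ((hF n).1 o R) ?_)
      (fun n => ((hF n).1 o R).1) (ae_restrict_of_ae hf)).trans_lt ENNReal.ofReal_lt_top⟩
    refine le_trans (integral_mono ((hF n).1 o R).integrable_sq
      (((hF n).1 o R).integrable_sq.add (gr_l2b m _ o R).integrable_sq) fun x => ?_) (hC n)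
    exact le_add_of_nonneg_right (sq_nonneg _)
  have key : ∀ (o : X) (R : ℝ), ∃ χ : X → ℝ, (∀ x ∈ Metric.ball o R, χ x = 1) ∧
      (∀ n, IsSobolevLoc m fun x => χ x * F n x) ∧ IsSobolevLoc m (fun x => χ x * f x) ∧
      ∀ (w : X → ℝ≥0∞) (c : ℝ≥0∞), AEMeasurable w m →
      (∀ᶠ n in atTop, ∫⁻ x, w x * ENNReal.ofReal (minWeakGrad m (fun y => χ y * F n y) x ^ 2) ∂m ≤ c) →
      ∫⁻ x, w x * ENNReal.ofReal (minWeakGrad m (fun y => χ y * f y) x ^ 2) ∂m ≤ c := by
    intro o R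
    obtain ⟨χ, h1, h2, h3, h4⟩ := exists_cutoff o R
    obtain ⟨C, hC⟩ := hC o (R + 1)
    have hl := lipB_of_lipschitz h1
    have hs : ∀ n, IsSobolev m fun x => χ x * F n x := fun n => sob_cutoff hl ⟨o, R + 1, h4⟩ (hF n)
    refine ⟨χ, h3, fun n => (hs n).2.1, sl_lsc hs
      (l2b_mul h1.continuous.aemeasurable hl.bddB hf2)
      (hf.mono fun x hx => hx.const_mul _) (C := 2 * C) fun n => ?_⟩
    have hi := ((hF n).1 o (R + 1)).integrable_sq.add (gr_l2b m (F n) o (R + 1)).integrable_sq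
    refine le_trans ?_ (mul_le_mul_of_nonneg_left (hC n) zero_le_two)
    rw [← integral_const_mul, ← integral_indicator Metric.isOpen_ball.measurableSet]
    refine integral_mono_ae (hs n).2.2.integrable_sq
      ((integrable_indicator_iff Metric.isOpen_ball.measurableSet).2 (hi.const_mul 2)) ?_
    filter_upwards [gr_mul_le (sl_lip h1) (hF n) (hs n).2.1, gr_le_lip (m := m) h1, gr_level (hs n).2.1 0,
      gr_nonneg m χ, gr_nonneg m (F n), gr_nonneg m fun x => χ x * F n x] with x a1 a2 a3 a4 a5 a6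
    by_cases hx : x ∈ Metric.ball o (R + 1)
    · rw [indicator_of_mem hx]
      rw [abs_of_nonneg (h2 x).1] at a1
      have b1 : χ x * minWeakGrad m (F n) x ≤ minWeakGrad m (F n) x := mul_le_of_le_one_left a5 (h2 x).2
      have b2 : |F n x| * minWeakGrad m χ x ≤ |F n x| := mul_le_of_le_one_right (abs_nonneg _) (by simpa using a2)
      have b3 := pow_le_pow_left₀ a6 (a1.trans (add_le_add b1 b2)) 2
      nlinarith [sq_abs (F n x), sq_nonneg (minWeakGrad m (F n) x - |F n x|)]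
    · rw [indicator_of_notMem hx, a3 (by rw [h4 x hx, zero_mul])]; simp
  have hfs : IsSobolevLoc m f := sl_of_local fun o R => by
    obtain ⟨χ, h1, -, h2, -⟩ := key o R
    exact ⟨_, h2, ae_of_all _ fun x hx => by rw [h1 x hx, one_mul]⟩
  refine ⟨hfs, fun w c hw hc => ?_⟩
  rcases isEmpty_or_nonempty X with hX | ⟨⟨o⟩⟩
  · simp
  rw [← setLIntegral_univ, ← Metric.iUnion_ball_nat o, setLIntegral_iUnion_of_directed _
    (Monotone.directed_le fun a b hab => Metric.ball_subset_ball (Nat.cast_le.2 hab))]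
  refine iSup_le fun k => ?_
  obtain ⟨χ, h1, h2, h3, h4⟩ := key o k
  have e : ∀ g : X → ℝ, IsSobolevLoc m g → IsSobolevLoc m (fun y => χ y * g y) →
      ∫⁻ x in Metric.ball o k, w x * ENNReal.ofReal (minWeakGrad m g x ^ 2) ∂m =
      ∫⁻ x, (Metric.ball o k).indicator w x * ENNReal.ofReal (minWeakGrad m (fun y => χ y * g y) x ^ 2) ∂m := by
    intro g a1 a2
    rw [← lintegral_indicator Metric.isOpen_ball.measurableSet]
    refine lintegral_congr_ae ?_
    filter_upwards [gr_local a1 a2] with x hx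
    by_cases hx' : x ∈ Metric.ball o k
    · rw [indicator_of_mem hx', indicator_of_mem hx', hx (by rw [h1 x hx', one_mul])]
    · rw [indicator_of_notMem hx', indicator_of_notMem hx', zero_mul]
  rw [e f hfs h3]
  refine h4 _ _ (hw.indicator Metric.isOpen_ball.measurableSet) (hc.mono fun n hn => ?_)
  rw [← e _ (hF n) (h2 n)]
  exact (setLIntegral_le_lintegral _ _).trans hn

/-- Lipschitz functions with bounded support are dense in `L²` (orthogonal complement, `ae_zero_of_lip`) -/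
theorem sob_dense (hf : MemLp f 2 m) {ε : ℝ≥0∞} (hε : 0 < ε) :
    ∃ g, (∃ L, LipschitzWith L g) ∧ (Nonempty X → BddSupp g) ∧ IsSobolev m g ∧
      eLpNorm (fun x => f x - g x) 2 m ≤ ε := by
  rcases isEmpty_or_nonempty X with hX | ⟨⟨o⟩⟩
  · exact ⟨fun _ => 0, ⟨0, LipschitzWith.const 0⟩, fun h => (not_nonempty_iff.2 hX h).elim, sob_zero, by
      rw [Measure.eq_zero_of_isEmpty m]; simp⟩
  let V : Submodule ℝ (Lp ℝ 2 m) :=
    { carrier := {u | ∃ g : X → ℝ, (∃ L, LipschitzWith L g) ∧ BddSupp g ∧ ⇑u =ᵐ[m] g}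
      zero_mem' := ⟨fun _ => 0, ⟨0, LipschitzWith.const 0⟩, ⟨o, 0, fun _ _ => rfl⟩, Lp.coeFn_zero _ _ _⟩
      add_mem' := by
        rintro a b ⟨g, ⟨L, hL⟩, ⟨p, R, hR⟩, hg⟩ ⟨g', ⟨L', hL'⟩, ⟨p', R', hR'⟩, hg'⟩
        obtain ⟨n, hn⟩ := w10_ball o p R
        obtain ⟨n', hn'⟩ := w10_ball o p' R'
        refine ⟨fun x => g x + g' x, ⟨_, hL.add hL'⟩, ⟨o, n + n' + 1, fun x hx => ?_⟩,
          (Lp.coeFn_add a b).trans (hg.add hg')⟩
        have c1 : (0 : ℝ) ≤ n := n.cast_nonneg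
        have c2 : (0 : ℝ) ≤ n' := n'.cast_nonneg
        change g x + g' x = 0
        rw [hR x fun h => hx (Metric.ball_subset_ball (by linarith) (hn (Metric.ball_subset_closedBall h))),
          hR' x fun h => hx (Metric.ball_subset_ball (by linarith) (hn' (Metric.ball_subset_closedBall h))),
          add_zero]
      smul_mem' := by
        rintro c a ⟨g, ⟨L, hL⟩, ⟨p, R, hR⟩, hg⟩
        refine ⟨fun x => c * g x, ⟨_, (lipschitzWith_smul c).comp hL⟩, ⟨p, R, fun x hx => by simp [hR x hx]⟩,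
          (Lp.coeFn_smul c a).trans ?_⟩
        filter_upwards [hg] with x hx
        rw [Pi.smul_apply, hx, smul_eq_mul] }
  have hV : V.topologicalClosure = ⊤ := by
    rw [Submodule.topologicalClosure_eq_top_iff, eq_bot_iff]
    intro u hu
    rw [Submodule.mem_bot, Lp.eq_zero_iff_ae_eq_zero]
    refine ae_zero_of_lip (fun p R => ?_) fun χ h1 h2 _ => ?_
    · have : IsFiniteMeasure (m.restrict (Metric.ball p R)) :=
        isFiniteMeasure_restrict.2 ((Fact.out : IsFiniteOnBalls m) p R).ne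
      exact ((Lp.memLp u).restrict _).integrable one_le_two
    · obtain ⟨L, hL⟩ := h1
      have hχ := (sob_lip_supp (m := m) (lipB_of_lipschitz hL) h2).1
      have := (Submodule.mem_orthogonal _ _).1 hu (hχ.toLp χ) ⟨χ, ⟨L, hL⟩, h2, hχ.coeFn_toLp⟩
      rw [L2.inner_def] at this
      rw [← this]
      refine integral_congr_ae ?_
      filter_upwards [hχ.coeFn_toLp] with x hx
      simp [hx, mul_comm]
  have hm : hf.toLp f ∈ closure (V : Set (Lp ℝ 2 m)) := by
    rw [← Submodule.topologicalClosure_coe, hV]; trivial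
  obtain ⟨v, ⟨g, ⟨L, hL⟩, h2, h3⟩, hv⟩ := EMetric.mem_closure_iff.1 hm ε hε
  refine ⟨g, ⟨L, hL⟩, fun _ => h2, sob_lip_supp (lipB_of_lipschitz hL) h2, le_trans (le_of_eq ?_) hv.le⟩
  rw [Lp.edist_def]
  exact eLpNorm_congr_ae (hf.coeFn_toLp.sub h3).symm

/-- a WUG bounds differences of integrals along a plan (real form of the definition) -/
theorem wug_plan_le (hf : AEMeasurable f m) (h : IsWUGLoc m f D) {P : Measure (UCurve X)} (hP : Plan m P)
    {s t : ℝ} (h0 : 0 ≤ s) (hst : s ≤ t) (h1 : t ≤ 1) {S : Set (UCurve X)} :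
    ∫⁻ γ in S, ENNReal.ofReal |f (γ.ext t) - f (γ.ext s)| ∂P ≤
      ∫⁻ γ in S, ∫⁻ r in Icc s t, ENNReal.ofReal (D (γ.ext r)) * upperSpeed γ r ∂volume ∂P :=
  lintegral_mono_ae (ae_restrict_of_ae (wug_ae_le hf h hP h0 hst h1))

end Crest.Agent.R242
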