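import Crest.Agent.R242.WugPar

/-! Row 242, I-b, TASK Wug9: the gradient pairing `gradPairing` (keep the statements; aux names `w9_*`). -/

set_option autoImplicit false
set_option linter.unusedSectionVars false
open MeasureTheory Filter Set Topology
open scoped ENNReal NNReal
open Crest.GeometryTopology.SyntheticRicci

namespace Crest.Agent.R242

variable {X : Type*} [MetricSpace X] [MeasurableSpace X] [BorelSpace X] {m : Measure X} {f g u v D : X → ℝ}
  [Fact (IsFiniteOnBalls m)] {h : X → ℝ}

theorem gam_aemeasurable (m : Measure X) (f g : X → ℝ) : AEMeasurable (gradPairing m f g) m :=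
  (((gr_aemeasurable m _).pow_const 2).sub ((gr_aemeasurable m _).pow_const 2)).div_const 4
theorem gam_self (hf : IsSobolevLoc m f) : ∀ᵐ x ∂m, gradPairing m f f x = minWeakGrad m f x ^ 2 := by
  filter_upwards [gr_const_mul 2 hf, gr_const (m := m) 0] with x a1 a2
  simp only [gradPairing, ← two_mul, sub_self, a1, a2, abs_two]
  ring
theorem gam_self_nonneg (hf : IsSobolevLoc m f) : ∀ᵐ x ∂m, 0 ≤ gradPairing m f f x := by
  filter_upwards [gam_self hf] with x a1
  rw [a1]
  positivity
theorem gam_symm (hf : IsSobolevLoc m f) (hg : IsSobolevLoc m g) :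
    gradPairing m f g =ᵐ[m] gradPairing m g f := by
  filter_upwards [gr_neg (sl_sub hf hg)] with x a1
  simp only [neg_sub] at a1
  simp only [gradPairing, a1, add_comm (g _)]
/-- triangle inequalities only -/
theorem abs_gam_le (hf : IsSobolevLoc m f) (hg : IsSobolevLoc m g) :
    ∀ᵐ x ∂m, |gradPairing m f g x| ≤ minWeakGrad m f x * minWeakGrad m g x := by
  filter_upwards [gr_add_le hf hg, gr_sub_le hf hg, abs_gr_sub_gr_le hf hg, abs_gr_sub_gr_le hf (sl_neg hg),
    gr_neg hg, gr_nonneg m fun y => f y + g y, gr_nonneg m fun y => f y - g y] with x a1 a2 a3 a4 a5 a6 a7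
  simp only [sub_neg_eq_add, a5] at a4
  have b1 := pow_le_pow_left₀ a6 a1 2
  have b2 := pow_le_pow_left₀ a7 a2 2
  have b3 := pow_le_pow_left₀ (abs_nonneg _) a3 2
  have b4 := pow_le_pow_left₀ (abs_nonneg _) a4 2
  rw [sq_abs] at b3 b4
  rw [gradPairing, abs_le]
  constructor <;> nlinarith
theorem gam_sq_le (hf : IsSobolevLoc m f) (hg : IsSobolevLoc m g) :
    ∀ᵐ x ∂m, gradPairing m f g x ^ 2 ≤ gradPairing m f f x * gradPairing m g g x := by
  filter_upwards [abs_gam_le hf hg, gam_self hf, gam_self hg] with x a1 a2 a3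
  rw [a2, a3, ← mul_pow, ← sq_abs]
  exact pow_le_pow_left₀ (abs_nonneg _) a1 2
theorem gam_local {f' g' : X → ℝ} (hf : IsSobolevLoc m f) (hg : IsSobolevLoc m g) (hf' : IsSobolevLoc m f')
    (hg' : IsSobolevLoc m g') :
    ∀ᵐ x ∂m, f x = f' x → g x = g' x → gradPairing m f g x = gradPairing m f' g' x := by
  filter_upwards [gr_local (sl_add hf hg) (sl_add hf' hg'), gr_local (sl_sub hf hg) (sl_sub hf' hg')]
    with x a1 a2 h1 h2
  rw [gradPairing, gradPairing, a1 (by rw [h1, h2]), a2 (by rw [h1, h2])]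
theorem gam_congr {f' g' : X → ℝ} (hf : IsSobolevLoc m f) (hg : IsSobolevLoc m g) (h1 : f =ᵐ[m] f')
    (h2 : g =ᵐ[m] g') : gradPairing m f g =ᵐ[m] gradPairing m f' g' := by
  filter_upwards [gam_local hf hg (sl_congr hf h1) (sl_congr hg h2), h1, h2] with x a1 a2 a3 using a1 a2 a3
theorem gam_level (hf : IsSobolevLoc m f) (hg : IsSobolevLoc m g) (c : ℝ) :
    ∀ᵐ x ∂m, f x = c → gradPairing m f g x = 0 := by
  filter_upwards [abs_gam_le hf hg, gr_level hf c] with x a1 a2 h1
  rw [a2 h1, zero_mul] at a1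
  exact abs_nonpos_iff.1 a1
theorem gam_const (c : ℝ) (hg : IsSobolevLoc m g) : ∀ᵐ x ∂m, gradPairing m (fun _ => c) g x = 0 :=
  (gam_level (sl_const c) hg c).mono fun _ h => h rfl
theorem gam_neg (hf : IsSobolevLoc m f) (hg : IsSobolevLoc m g) :
    ∀ᵐ x ∂m, gradPairing m (fun y => - f y) g x = - gradPairing m f g x := by
  filter_upwards [gr_neg (sl_sub hf hg), gr_neg (sl_add hf hg)] with x a1 a2
  rw [gradPairing, gradPairing, ← a1, ← a2,
    show (fun y => -f y + g y) = fun y => -(f y - g y) from funext fun y => by ring,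
    show (fun y => -f y - g y) = fun y => -(f y + g y) from funext fun y => by ring]
  ring
theorem gam_integrable (hf : IsSobolev m f) (hg : IsSobolev m g) : Integrable (gradPairing m f g) m :=
  (hf.2.2.integrable_mul hg.2.2).mono' (gam_aemeasurable m f g).aestronglyMeasurable (abs_gam_le hf.2.1 hg.2.1)
theorem gam_integrableOn (hf : IsSobolevLoc m f) (hg : IsSobolevLoc m g) (o : X) (R : ℝ) :
    IntegrableOn (gradPairing m f g) (Metric.ball o R) m :=
  Integrable.mono' ((gr_l2b m f o R).integrable_mul (gr_l2b m g o R))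
    (gam_aemeasurable m f g).restrict.aestronglyMeasurable (ae_restrict_of_ae (abs_gam_le hf hg))
theorem sob_iff : IsSobolev m f ↔ IsSobolevLoc m f ∧ MemLp f 2 m ∧ Integrable (gradPairing m f f) m := by
  refine ⟨fun hf => ⟨hf.2.1, hf.1, gam_integrable hf hf⟩, fun hf => ⟨hf.2.1, hf.1, ?_⟩⟩
  exact (memLp_two_iff_integrable_sq (gr_aemeasurable m f).aestronglyMeasurable).2 (hf.2.2.congr (gam_self hf.1))

/-- Jordan - von Neumann: `gr_par` for `(f+h, g)`, `(f-h, g)`, `(g+h, f)`, `(g-h, f)` and `gr_neg` -/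
theorem gam_add (hH : IsInfHilbertian m) (hf : IsSobolevLoc m f) (hg : IsSobolevLoc m g)
    (hh : IsSobolevLoc m h) :
    ∀ᵐ x ∂m, gradPairing m (fun y => f y + g y) h x = gradPairing m f h x + gradPairing m g h x := by
  filter_upwards [gr_par hH (sl_add hf hh) hg, gr_par hH (sl_sub hf hh) hg, gr_par hH (sl_add hg hh) hf,
    gr_par hH (sl_sub hg hh) hf, gr_neg (sl_sub (sl_add hf hh) hg), gr_neg (sl_sub (sl_sub hf hh) hg)]
    with x a1 a2 a3 a4 a5 a6
  rw [show (fun y => f y + h y + g y) = fun y => f y + g y + h y from funext fun y => by ring] at a1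
  rw [show (fun y => f y - h y + g y) = fun y => f y + g y - h y from funext fun y => by ring] at a2
  rw [show (fun y => g y + h y + f y) = fun y => f y + g y + h y from funext fun y => by ring,
    show (fun y => g y + h y - f y) = fun y => -(f y - h y - g y) from funext fun y => by ring, a6] at a3
  rw [show (fun y => g y - h y + f y) = fun y => f y + g y - h y from funext fun y => by ring,
    show (fun y => g y - h y - f y) = fun y => -(f y + h y - g y) from funext fun y => by ring, a5] at a4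
  simp only [gradPairing]
  linarith
theorem gam_sub (hH : IsInfHilbertian m) (hf : IsSobolevLoc m f) (hg : IsSobolevLoc m g)
    (hh : IsSobolevLoc m h) :
    ∀ᵐ x ∂m, gradPairing m (fun y => f y - g y) h x = gradPairing m f h x - gradPairing m g h x := by
  filter_upwards [gam_add hH hf (sl_neg hg) hh, gam_neg hg hh] with x a1 a2
  simpa only [a2, ← sub_eq_add_neg] using a1
theorem w9_nat (hH : IsInfHilbertian m) (hf : IsSobolevLoc m f) (hg : IsSobolevLoc m g) (n : ℕ) :
    ∀ᵐ x ∂m, gradPairing m (fun y => n * f y) g x = n * gradPairing m f g x := by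
  induction n with
  | zero => simpa using gam_const 0 hg
  | succ n ih =>
    filter_upwards [ih, gam_add hH (sl_const_mul n hf) hf hg] with x a1 a2
    simp only [Nat.cast_succ, add_mul, one_mul, a2, a1]
theorem w9_int (hH : IsInfHilbertian m) (hf : IsSobolevLoc m f) (hg : IsSobolevLoc m g) (n : ℤ) :
    ∀ᵐ x ∂m, gradPairing m (fun y => n * f y) g x = n * gradPairing m f g x := by
  obtain ⟨k, rfl | rfl⟩ := n.eq_nat_or_neg
  · simpa using w9_nat hH hf hg k
  · filter_upwards [w9_nat hH hf hg k, gam_neg (sl_const_mul k hf) hg] with x a1 a2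
    simp only [Int.cast_neg, Int.cast_natCast, neg_mul, a2, a1]
theorem w9_rat (hH : IsInfHilbertian m) (hf : IsSobolevLoc m f) (hg : IsSobolevLoc m g) (q : ℚ) :
    ∀ᵐ x ∂m, gradPairing m (fun y => q * f y) g x = q * gradPairing m f g x := by
  have hd : (q.den : ℝ) ≠ 0 := by exact_mod_cast q.den_nz
  have e : (q.den : ℝ) * q = q.num := by exact_mod_cast q.den_mul_eq_num
  filter_upwards [w9_int hH hf hg q.num, w9_nat hH (sl_const_mul q hf) hg q.den] with x a1 a2
  simp only [← mul_assoc, e, a1] at a2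
  refine mul_left_cancel₀ hd ?_
  rw [← a2, ← mul_assoc, e]
/-- natural numbers by induction, then rationals, then `abs_gam_le` for `(c - q) * f` -/
theorem gam_const_mul (hH : IsInfHilbertian m) (c : ℝ) (hf : IsSobolevLoc m f) (hg : IsSobolevLoc m g) :
    ∀ᵐ x ∂m, gradPairing m (fun y => c * f y) g x = c * gradPairing m f g x := by
  have key : ∀ q : ℚ, ∀ᵐ x ∂m, |gradPairing m (fun y => c * f y) g x - q * gradPairing m f g x| ≤
      |c - q| * minWeakGrad m f x * minWeakGrad m g x := fun q => by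
    filter_upwards [gam_sub hH (sl_const_mul c hf) (sl_const_mul q hf) hg, w9_rat hH hf hg q,
      abs_gam_le (sl_const_mul (c - q) hf) hg, gr_const_mul (c - q) hf] with x a1 a2 a3 a4
    rw [a4] at a3
    simpa only [sub_mul, a1, a2] using a3
  filter_upwards [ae_all_iff.2 key] with x a1
  have := Rat.denseRange_cast.induction_on (p := fun t : ℝ => |gradPairing m (fun y => c * f y) g x -
    t * gradPairing m f g x| ≤ |c - t| * minWeakGrad m f x * minWeakGrad m g x) c
    (isClosed_le (by fun_prop) (by fun_prop)) a1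
  simpa [sub_eq_zero] using this
theorem gam_sum (hH : IsInfHilbertian m) {ι : Type*} (s : Finset ι) {F : ι → X → ℝ}
    (hF : ∀ i ∈ s, IsSobolevLoc m (F i)) (hg : IsSobolevLoc m g) :
    ∀ᵐ x ∂m, gradPairing m (fun y => ∑ i ∈ s, F i y) g x = ∑ i ∈ s, gradPairing m (F i) g x := by
  classical
  induction s using Finset.induction_on with
  | empty => simpa using gam_const 0 hg
  | insert i s hi ih =>
    have h1 := fun j hj => hF j (Finset.mem_insert_of_mem hj)
    filter_upwards [ih h1, gam_add hH (hF i (Finset.mem_insert_self _ _)) (sl_sum s h1) hg] with x a1 a2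
    simp only [Finset.sum_insert hi, a2, a1]
/-- MODULE LEMMA.  For rational `p, q`: `gr (u - p f - q g) ≤ |a - p| gr f + |b - q| gr g` (`gr_le`), then
`abs_gam_le` and `p → a x`, `q → b x`. -/
theorem gam_of_cd_eq (hH : IsInfHilbertian m) (hu : IsSobolevLoc m u) (hf : IsSobolevLoc m f)
    (hg : IsSobolevLoc m g) (hv : IsSobolevLoc m v) {a b : X → ℝ} (ha : AEMeasurable a m)
    (hb : AEMeasurable b m) (h : ∀ᶠ z in pf m, cd u z = a (ev z) * cd f z + b (ev z) * cd g z) :
    ∀ᵐ x ∂m, gradPairing m u v x = a x * gradPairing m f v x + b x * gradPairing m g v x := by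
  have key : ∀ p q : ℚ, ∀ᵐ x ∂m,
      |gradPairing m u v x - (p * gradPairing m f v x + q * gradPairing m g v x)| ≤
      (|a x - p| * minWeakGrad m f x + |b x - q| * minWeakGrad m g x) * minWeakGrad m v x := fun p q => by
    have h1 := sl_const_mul p hf
    have h2 := sl_const_mul q hg
    have h3 := sl_sub hu (sl_add h1 h2)
    have h4 := gr_le h3 (G := fun x => |a x - p| * minWeakGrad m f x + |b x - q| * minWeakGrad m g x)
      (((continuous_abs.measurable.comp_aemeasurable (ha.sub_const _)).mul (gr_aemeasurable m f)).add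
        ((continuous_abs.measurable.comp_aemeasurable (hb.sub_const _)).mul (gr_aemeasurable m g)))
      (by
        filter_upwards [gr_nonneg m f, gr_nonneg m g] with x b1 b2
        positivity)
      (by
        filter_upwards [h, cd_sub (sl_reg hu) (sl_reg (sl_add h1 h2)), cd_add (sl_reg h1) (sl_reg h2),
          cd_const_mul p (sl_reg hf), cd_const_mul q (sl_reg hg), abs_cd_le hf, abs_cd_le hg]
          with z b1 b2 b3 b4 b5 b6 b7
        rw [b2, b3, b4, b5, b1, show a (ev z) * cd f z + b (ev z) * cd g z - (p * cd f z + q * cd g z) =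
          (a (ev z) - p) * cd f z + (b (ev z) - q) * cd g z by ring, add_mul, mul_assoc, mul_assoc]
        refine (abs_add_le _ _).trans ?_
        rw [abs_mul, abs_mul]
        exact add_le_add (mul_le_mul_of_nonneg_left b6 (abs_nonneg _))
          (mul_le_mul_of_nonneg_left b7 (abs_nonneg _)))
    filter_upwards [h4, abs_gam_le h3 hv, gam_sub hH hu (sl_add h1 h2) hv, gam_add hH h1 h2 hv,
      gam_const_mul hH p hf hv, gam_const_mul hH q hg hv, gr_nonneg m v] with x a1 a2 a3 a4 a5 a6 a7
    rw [a3, a4, a5, a6] at a2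
    exact a2.trans (mul_le_mul_of_nonneg_right a1 a7)
  filter_upwards [ae_all_iff.2 fun p => ae_all_iff.2 (key p)] with x a1
  have := Rat.denseRange_cast.induction_on₂ (p := fun s t : ℝ =>
    |gradPairing m u v x - (s * gradPairing m f v x + t * gradPairing m g v x)| ≤
      (|a x - s| * minWeakGrad m f x + |b x - t| * minWeakGrad m g x) * minWeakGrad m v x)
    (isClosed_le (by fun_prop) (by fun_prop)) a1 (a x) (b x)
  simpa [sub_eq_zero] using this
theorem gam_comp (hH : IsInfHilbertian m) {φ φ' : ℝ → ℝ} {C : Set ℝ} (hφ : LocallyLipschitz φ)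
    (hC : C.Countable) (hd : ∀ s, s ∉ C → HasDerivAt φ (φ' s) s) (hφ' : Measurable φ')
    (hf : IsSobolevLoc m f) (hs : IsSobolevLoc m fun x => φ (f x)) (hg : IsSobolevLoc m g) :
    ∀ᵐ x ∂m, gradPairing m (fun y => φ (f y)) g x = φ' (f x) * gradPairing m f g x := by
  simpa using gam_of_cd_eq hH hs hf hf hg (a := fun x => φ' (f x)) (b := fun _ => 0)
    (hφ'.comp_aemeasurable (sl_aemeasurable hf)) aemeasurable_const
    (by simpa using cd_comp hφ hC hd (sl_reg hf))
theorem gam_comp_contDiff (hH : IsInfHilbertian m) {φ : ℝ → ℝ} (hφ : ContDiff ℝ 1 φ)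
    (hf : IsSobolevLoc m f) (hs : IsSobolevLoc m fun x => φ (f x)) (hg : IsSobolevLoc m g) :
    ∀ᵐ x ∂m, gradPairing m (fun y => φ (f y)) g x = deriv φ (f x) * gradPairing m f g x :=
  gam_comp hH (C := ∅) hφ.locallyLipschitz countable_empty
    (fun s _ => (hφ.differentiable one_ne_zero s).hasDerivAt) (measurable_deriv φ) hf hs hg
theorem gam_mul (hH : IsInfHilbertian m) (hf : IsSobolevLoc m f) (hg : IsSobolevLoc m g)
    (hs : IsSobolevLoc m fun x => f x * g x) (hh : IsSobolevLoc m h) :
    ∀ᵐ x ∂m, gradPairing m (fun y => f y * g y) h x =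
      g x * gradPairing m f h x + f x * gradPairing m g h x :=
  gam_of_cd_eq hH hs hf hg hh (sl_aemeasurable hg) (sl_aemeasurable hf) (cd_mul (sl_reg hf) (sl_reg hg))
theorem gam_add_right (hH : IsInfHilbertian m) (hf : IsSobolevLoc m f) (hg : IsSobolevLoc m g)
    (hh : IsSobolevLoc m h) :
    ∀ᵐ x ∂m, gradPairing m h (fun y => f y + g y) x = gradPairing m h f x + gradPairing m h g x := by
  filter_upwards [gam_add hH hf hg hh, gam_symm hh (sl_add hf hg), gam_symm hh hf, gam_symm hh hg]
    with x a1 a2 a3 a4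
  rw [a2, a3, a4, a1]
theorem gam_sub_right (hH : IsInfHilbertian m) (hf : IsSobolevLoc m f) (hg : IsSobolevLoc m g)
    (hh : IsSobolevLoc m h) :
    ∀ᵐ x ∂m, gradPairing m h (fun y => f y - g y) x = gradPairing m h f x - gradPairing m h g x := by
  filter_upwards [gam_sub hH hf hg hh, gam_symm hh (sl_sub hf hg), gam_symm hh hf, gam_symm hh hg]
    with x a1 a2 a3 a4
  rw [a2, a3, a4, a1]
theorem gam_const_mul_right (hH : IsInfHilbertian m) (c : ℝ) (hf : IsSobolevLoc m f) (hg : IsSobolevLoc m g) :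
    ∀ᵐ x ∂m, gradPairing m g (fun y => c * f y) x = c * gradPairing m g f x := by
  filter_upwards [gam_const_mul hH c hf hg, gam_symm hg (sl_const_mul c hf), gam_symm hg hf] with x a1 a2 a3
  rw [a2, a3, a1]
theorem gam_comp_right (hH : IsInfHilbertian m) {φ φ' : ℝ → ℝ} {C : Set ℝ} (hφ : LocallyLipschitz φ)
    (hC : C.Countable) (hd : ∀ s, s ∉ C → HasDerivAt φ (φ' s) s) (hφ' : Measurable φ')
    (hf : IsSobolevLoc m f) (hs : IsSobolevLoc m fun x => φ (f x)) (hg : IsSobolevLoc m g) :
    ∀ᵐ x ∂m, gradPairing m g (fun y => φ (f y)) x = φ' (f x) * gradPairing m g f x := by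
  filter_upwards [gam_comp hH hφ hC hd hφ' hf hs hg, gam_symm hg hs, gam_symm hg hf] with x a1 a2 a3
  rw [a2, a3, a1]
theorem gam_mul_right (hH : IsInfHilbertian m) (hf : IsSobolevLoc m f) (hg : IsSobolevLoc m g)
    (hs : IsSobolevLoc m fun x => f x * g x) (hh : IsSobolevLoc m h) :
    ∀ᵐ x ∂m, gradPairing m h (fun y => f y * g y) x =
      g x * gradPairing m h f x + f x * gradPairing m h g x := by
  filter_upwards [gam_mul hH hf hg hs hh, gam_symm hh hs, gam_symm hh hf, gam_symm hh hg] with x a1 a2 a3 a4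
  rw [a2, a3, a4, a1]
theorem gr_add_sq (hH : IsInfHilbertian m) (hf : IsSobolevLoc m f) (hg : IsSobolevLoc m g) :
    ∀ᵐ x ∂m, minWeakGrad m (fun y => f y + g y) x ^ 2 =
      minWeakGrad m f x ^ 2 + 2 * gradPairing m f g x + minWeakGrad m g x ^ 2 := by
  filter_upwards [gr_par hH hf hg] with x a1
  simp only [gradPairing]
  linarith
theorem gr_add_mul_sq (hH : IsInfHilbertian m) (c : ℝ) (hf : IsSobolevLoc m f) (hg : IsSobolevLoc m g) :
    ∀ᵐ x ∂m, minWeakGrad m (fun y => f y + c * g y) x ^ 2 =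
      minWeakGrad m f x ^ 2 + 2 * c * gradPairing m f g x + c ^ 2 * minWeakGrad m g x ^ 2 := by
  filter_upwards [gr_add_sq hH hf (sl_const_mul c hg), gam_const_mul_right hH c hg hf, gr_const_mul c hg]
    with x a1 a2 a3
  rw [a1, a2, a3, mul_pow, sq_abs, mul_assoc]

end Crest.Agent.R242
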