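import Crest.Agent.R242.BeDefs
import Crest.Agent.R242.Wug9
import Crest.Agent.R242.Wug10

/-! Row 242, I-e, TASK BeA1: `L²` toolkit on functions (keep the statements; aux names `ba1_*`). -/

set_option autoImplicit false
set_option linter.unusedSectionVars false
set_option linter.unusedVariables false

open MeasureTheory Filter Set
open scoped ENNReal NNReal Topology
open Crest.GeometryTopology.SyntheticRicci

noncomputable section

namespace Crest.Agent.R242.Be

variable {X : Type*} [MetricSpace X] [MeasurableSpace X] [BorelSpace X] {m : Measure X}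
  [Fact (IsFiniteOnBalls m)]
  {f g : X → ℝ} {A C : ℝ}

theorem ba1_inner (hf : MemLp f 2 m) (hg : MemLp g 2 m) :
    ∫ x, f x * g x ∂m = inner ℝ (hf.toLp f) (hg.toLp g) := by
  rw [L2.inner_def]
  refine integral_congr_ae ?_
  filter_upwards [hf.coeFn_toLp, hg.coeFn_toLp] with x h1 h2
  rw [h1, h2]
  simp [mul_comm]

theorem ba1_clamp (a b : ℝ) : LipschitzWith 1 fun s : ℝ => max a (min b s) :=
  (LipschitzWith.id.const_min b).const_max a

theorem n2_nonneg (m : Measure X) (f : X → ℝ) : 0 ≤ n2 m f := by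
  exact integral_nonneg fun x => sq_nonneg _

theorem n2_congr (h : f =ᵐ[m] g) : n2 m f = n2 m g := by
  exact integral_congr_ae (h.mono fun x hx => by simp only [hx])

theorem n2_sub_comm (m : Measure X) (f g : X → ℝ) : (n2 m fun x => f x - g x) = n2 m fun x => g x - f x := by
  unfold n2
  congr 1
  funext x
  ring

theorem n2_const_mul (m : Measure X) (c : ℝ) (f : X → ℝ) : (n2 m fun x => c * f x) = c ^ 2 * n2 m f := by
  unfold n2
  rw [← integral_const_mul]
  congr 1
  funext x
  ring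

theorem int_mul (hf : MemLp f 2 m) (hg : MemLp g 2 m) : Integrable (fun x => f x * g x) m := by
  exact hf.integrable_mul hg

theorem int_sq (hf : MemLp f 2 m) : Integrable (fun x => f x ^ 2) m := by
  exact hf.integrable_sq

theorem memLp_bd_mul (hf : AEStronglyMeasurable f m) (hA : Bd m A f) (hg : MemLp g 2 m) :
    MemLp (fun x => f x * g x) 2 m := by
  exact w8_mul hf.aemeasurable hA hg

theorem memLp_of_int_bd (hf : Integrable f m) (hA : Bd m A f) : MemLp f 2 m := by
  refine (memLp_two_iff_integrable_sq hf.1).2 ?_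
  refine (hf.abs.const_mul A).mono' (hf.1.pow 2) ?_
  filter_upwards [hA] with x hx
  rw [Real.norm_eq_abs, abs_pow, sq]
  exact mul_le_mul_of_nonneg_right hx (abs_nonneg _)

theorem n2_bd_mul (hf : AEStronglyMeasurable f m) (hA : Bd m A f) (hg : MemLp g 2 m) :
    (n2 m fun x => f x * g x) ≤ A ^ 2 * n2 m g := by
  unfold n2
  rw [← integral_const_mul]
  refine integral_mono_ae (int_sq (memLp_bd_mul hf hA hg)) ((int_sq hg).const_mul _) ?_
  filter_upwards [hA] with x hx
  rw [mul_pow]
  refine mul_le_mul_of_nonneg_right ?_ (sq_nonneg _)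
  rw [← sq_abs (f x)]
  exact pow_le_pow_left₀ (abs_nonneg _) hx 2

/-- Cauchy-Schwarz (`discrim_le_zero`, or `2 a b ≤ s a² + b²/s`) -/
theorem int_mul_sq_le (hf : MemLp f 2 m) (hg : MemLp g 2 m) :
    (∫ x, f x * g x ∂m) ^ 2 ≤ n2 m f * n2 m g := by
  have key : ∀ t : ℝ, 0 ≤ n2 m g * (t * t) + (2 * ∫ x, f x * g x ∂m) * t + n2 m f := by
    intro t
    have h0 : 0 ≤ ∫ x, (f x + t * g x) ^ 2 ∂m := integral_nonneg fun x => sq_nonneg _
    have h1 : ∫ x, (f x + t * g x) ^ 2 ∂m =
        ∫ x, ((t * t) * g x ^ 2 + (2 * t) * (f x * g x) + f x ^ 2) ∂m := by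
      congr 1
      funext x
      ring
    rw [h1, integral_add, integral_add, integral_const_mul, integral_const_mul] at h0
    · unfold n2
      linarith
    · exact (int_sq hg).const_mul _
    · exact (int_mul hf hg).const_mul _
    · exact ((int_sq hg).const_mul _).add ((int_mul hf hg).const_mul _)
    · exact int_sq hf
  have := discrim_le_zero key
  unfold discrim at this
  nlinarith

theorem abs_int_mul_le (hf : MemLp f 2 m) (hg : MemLp g 2 m) :
    |∫ x, f x * g x ∂m| ≤ √(n2 m f) * √(n2 m g) := by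
  rw [← Real.sqrt_mul (n2_nonneg m f)]
  exact Real.abs_le_sqrt (int_mul_sq_le hf hg)

theorem n2_add_le (hf : MemLp f 2 m) (hg : MemLp g 2 m) :
    (n2 m fun x => f x + g x) ≤ 2 * n2 m f + 2 * n2 m g := by
  unfold n2
  rw [← integral_const_mul, ← integral_const_mul, ← integral_add ((int_sq hf).const_mul _)
    ((int_sq hg).const_mul _)]
  refine integral_mono (int_sq (hf.add hg)) (((int_sq hf).const_mul _).add ((int_sq hg).const_mul _)) ?_
  intro x
  simp only
  nlinarith [sq_nonneg (f x - g x)]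

theorem n2_sub_le (hf : MemLp f 2 m) (hg : MemLp g 2 m) :
    (n2 m fun x => f x - g x) ≤ 2 * n2 m f + 2 * n2 m g := by
  unfold n2
  rw [← integral_const_mul, ← integral_const_mul, ← integral_add ((int_sq hf).const_mul _)
    ((int_sq hg).const_mul _)]
  refine integral_mono (int_sq (hf.sub hg)) (((int_sq hf).const_mul _).add ((int_sq hg).const_mul _)) ?_
  intro x
  simp only
  nlinarith [sq_nonneg (f x + g x)]

theorem n2_eq_norm (hf : MemLp f 2 m) : n2 m f = ‖hf.toLp f‖ ^ 2 := by
  rw [← real_inner_self_eq_norm_sq, ← ba1_inner hf hf]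
  unfold n2
  congr 1
  funext x
  ring

theorem n2_eq_eLpNorm (hf : MemLp f 2 m) : n2 m f = (eLpNorm f 2 m).toReal ^ 2 := by
  rw [n2_eq_norm hf, Lp.norm_toLp]

theorem int_mul_eq_inner (hf : MemLp f 2 m) (hg : MemLp g 2 m) :
    ∫ x, f x * g x ∂m = inner ℝ (hf.toLp f) (hg.toLp g) := by
  exact ba1_inner hf hg

/-- `F G - f g = (F - f) (G - g) + (F - f) g + f (G - g)` -/
theorem tendsto_int_mul {ι : Type*} {l : Filter ι} {F G : ι → X → ℝ} (hf : MemLp f 2 m) (hg : MemLp g 2 m)
    (hF : ∀ᶠ i in l, MemLp (F i) 2 m) (hG : ∀ᶠ i in l, MemLp (G i) 2 m)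
    (h1 : Tendsto (fun i => n2 m fun x => F i x - f x) l (𝓝 0))
    (h2 : Tendsto (fun i => n2 m fun x => G i x - g x) l (𝓝 0)) :
    Tendsto (fun i => ∫ x, F i x * G i x ∂m) l (𝓝 (∫ x, f x * g x ∂m)) := by
  have hb : Tendsto (fun i => √(n2 m fun x => F i x - f x) * √(n2 m fun x => G i x - g x) +
      √(n2 m fun x => F i x - f x) * √(n2 m g) + √(n2 m f) * √(n2 m fun x => G i x - g x)) l (𝓝 0) := by
    have a1 := h1.sqrt
    have a2 := h2.sqrt
    rw [Real.sqrt_zero] at a1 a2
    have := ((a1.mul a2).add (a1.mul_const (√(n2 m g)))).add (a2.const_mul (√(n2 m f)))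
    simpa using this
  rw [tendsto_iff_norm_sub_tendsto_zero]
  refine squeeze_zero' (Eventually.of_forall fun i => norm_nonneg _) ?_ hb
  filter_upwards [hF, hG] with i hFi hGi
  have e : ∫ x, F i x * G i x ∂m - ∫ x, f x * g x ∂m =
      ∫ x, (F i x - f x) * (G i x - g x) ∂m + ∫ x, (F i x - f x) * g x ∂m + ∫ x, f x * (G i x - g x) ∂m := by
    have i1 : Integrable (fun x => (F i x - f x) * (G i x - g x)) m := int_mul (hFi.sub hf) (hGi.sub hg)
    have i2 : Integrable (fun x => (F i x - f x) * g x) m := int_mul (hFi.sub hf) hg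
    have i3 : Integrable (fun x => f x * (G i x - g x)) m := int_mul hf (hGi.sub hg)
    have i4 : Integrable (fun x => (F i x - f x) * (G i x - g x) + (F i x - f x) * g x) m := i1.add i2
    rw [← integral_add i1 i2, ← integral_add i4 i3, ← integral_sub (int_mul hFi hGi) (int_mul hf hg)]
    congr 1
    funext x
    ring
  rw [e, Real.norm_eq_abs]
  have b1 := abs_int_mul_le (f := fun x => F i x - f x) (g := fun x => G i x - g x) (hFi.sub hf) (hGi.sub hg)
  have b2 := abs_int_mul_le (f := fun x => F i x - f x) (hFi.sub hf) hg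
  have b3 := abs_int_mul_le (g := fun x => G i x - g x) hf (hGi.sub hg)
  exact (abs_add_three _ _ _).trans (add_le_add (add_le_add b1 b2) b3)

theorem tendsto_int_mul_left {ι : Type*} {l : Filter ι} {G : ι → X → ℝ} (hf : MemLp f 2 m) (hg : MemLp g 2 m)
    (hG : ∀ᶠ i in l, MemLp (G i) 2 m) (h2 : Tendsto (fun i => n2 m fun x => G i x - g x) l (𝓝 0)) :
    Tendsto (fun i => ∫ x, f x * G i x ∂m) l (𝓝 (∫ x, f x * g x ∂m)) := by
  refine tendsto_int_mul (F := fun _ => f) hf hg (Eventually.of_forall fun _ => hf) hG ?_ h2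
  simpa [n2] using tendsto_const_nhds

theorem tendsto_n2_add {ι : Type*} {l : Filter ι} {F G : ι → X → ℝ} (hf : MemLp f 2 m) (hg : MemLp g 2 m)
    (hF : ∀ᶠ i in l, MemLp (F i) 2 m) (hG : ∀ᶠ i in l, MemLp (G i) 2 m)
    (h1 : Tendsto (fun i => n2 m fun x => F i x - f x) l (𝓝 0))
    (h2 : Tendsto (fun i => n2 m fun x => G i x - g x) l (𝓝 0)) :
    Tendsto (fun i => n2 m fun x => (F i x + G i x) - (f x + g x)) l (𝓝 0) := by
  have hb := (h1.const_mul 2).add (h2.const_mul 2)
  simp only [mul_zero, add_zero] at hb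
  refine squeeze_zero' (Eventually.of_forall fun i => n2_nonneg _ _) ?_ hb
  filter_upwards [hF, hG] with i hFi hGi
  have := n2_add_le (f := fun x => F i x - f x) (g := fun x => G i x - g x) (hFi.sub hf) (hGi.sub hg)
  refine le_trans (le_of_eq ?_) this
  congr 1
  funext x
  ring

theorem tendsto_n2_bd_mul {ι : Type*} {l : Filter ι} {G : ι → X → ℝ} (hf : AEStronglyMeasurable f m)
    (hA : Bd m A f) (hg : MemLp g 2 m) (hG : ∀ᶠ i in l, MemLp (G i) 2 m)
    (h2 : Tendsto (fun i => n2 m fun x => G i x - g x) l (𝓝 0)) :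
    Tendsto (fun i => n2 m fun x => f x * G i x - f x * g x) l (𝓝 0) := by
  have hb := h2.const_mul (A ^ 2)
  simp only [mul_zero] at hb
  refine squeeze_zero' (Eventually.of_forall fun i => n2_nonneg _ _) ?_ hb
  filter_upwards [hG] with i hGi
  have := n2_bd_mul (g := fun x => G i x - g x) hf hA (hGi.sub hg)
  refine le_trans (le_of_eq ?_) this
  congr 1
  funext x
  ring

/-- `ae_nonneg_of_forall_setIntegral_nonneg`-type argument, e.g. on `{g > C} ∩ spanningSets m n` -/
theorem ae_le_of_test (hg : Integrable g m)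
    (h : ∀ B : Set X, MeasurableSet B → m B < ⊤ → ∫ x in B, g x ∂m ≤ C * m.real B) : ∀ᵐ x ∂m, g x ≤ C := by
  refine ae_of_forall_measure_lt_top_ae_restrict _ fun s hs hs' => ?_
  have : IsFiniteMeasure (m.restrict s) := isFiniteMeasure_restrict.2 hs'.ne
  have hi : Integrable (fun x => C - g x) (m.restrict s) := (integrable_const C).sub hg.restrict
  have := ae_nonneg_of_forall_setIntegral_nonneg hi fun t ht _ => by
    rw [Measure.restrict_restrict ht]
    have hlt : m (t ∩ s) < ⊤ := (measure_mono inter_subset_right).trans_lt hs'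
    have : IsFiniteMeasure (m.restrict (t ∩ s)) := isFiniteMeasure_restrict.2 hlt.ne
    rw [integral_sub (integrable_const C) hg.restrict, setIntegral_const, smul_eq_mul]
    have := h _ (ht.inter hs) hlt
    linarith
  filter_upwards [this] with x hx
  simpa using hx

/-- equi-Lipschitz functions converging in `L²` converge uniformly on balls: if `|F i x - f x| > ε` then
`> ε/2` on `ball x r`, `r = ε / (4 K + 1)`, which contains one of finitely many balls of radius `r/2` covering the
compact ball, all of positive (finite) measure. -/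
theorem unif_of_n2 [ProperSpace X] [m.IsOpenPosMeasure] {ι : Type*} {l : Filter ι} {F : ι → X → ℝ} {K : ℝ≥0}
    (hf : LipschitzWith K f) (hf2 : MemLp f 2 m) (hF : ∀ᶠ i in l, LipschitzWith K (F i) ∧ MemLp (F i) 2 m)
    (h : Tendsto (fun i => n2 m fun x => F i x - f x) l (𝓝 0)) (o : X) (R : ℝ) {ε : ℝ} (hε : 0 < ε) :
    ∀ᶠ i in l, ∀ x ∈ Metric.closedBall o R, |F i x - f x| ≤ ε := by
  set r : ℝ := ε / (4 * K + 1) with hr
  have hK : (0 : ℝ) ≤ K := K.2
  have hr0 : 0 < r := by positivity
  have hKr : 4 * K * r ≤ ε := by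
    rw [hr, ← mul_div_assoc, div_le_iff₀ (by positivity)]
    nlinarith
  obtain ⟨T, -, hT, hcov⟩ := finite_cover_balls_of_compact (isCompact_closedBall o R) (half_pos hr0)
  have hpos : ∀ y : X, 0 < m.real (Metric.ball y (r / 2)) := fun y =>
    ENNReal.toReal_pos (Metric.measure_ball_pos m y (half_pos hr0)).ne'
      ((Fact.out : IsFiniteOnBalls m) y (r / 2)).ne
  have hev : ∀ᶠ i in l, ∀ y ∈ T, (n2 m fun x => F i x - f x) < (ε / 2) ^ 2 * m.real (Metric.ball y (r / 2)) :=
    (eventually_all_finite hT).2 fun y _ => h.eventually (gt_mem_nhds (mul_pos (by positivity) (hpos y)))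
  filter_upwards [hF, hev] with i hFi hi x hx
  by_contra hcon
  push Not at hcon
  obtain ⟨y, hy, hxy⟩ := mem_iUnion₂.1 (hcov hx)
  have hlow : ∀ z ∈ Metric.ball y (r / 2), (ε / 2) ^ 2 ≤ (F i z - f z) ^ 2 := by
    intro z hz
    have hd : dist x z ≤ r := by
      have := dist_triangle_right x z y
      rw [Metric.mem_ball] at hxy hz
      linarith
    have a1 := hFi.1.dist_le_mul x z
    have a2 := hf.dist_le_mul x z
    rw [Real.dist_eq] at a1 a2
    have a3 : (K : ℝ) * dist x z ≤ K * r := mul_le_mul_of_nonneg_left hd hK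
    have a4 : |F i x - f x| ≤ |F i z - f z| + |F i x - F i z| + |f x - f z| := by
      have : F i x - f x = (F i z - f z) + (F i x - F i z) + -(f x - f z) := by ring
      rw [this]
      refine (abs_add_three _ _ _).trans ?_
      rw [abs_neg]
    rw [← sq_abs (F i z - f z)]
    exact pow_le_pow_left₀ (by positivity) (by linarith) 2
  have hint : Integrable (fun z => (F i z - f z) ^ 2) m := int_sq (f := fun z => F i z - f z) (hFi.2.sub hf2)
  have h1 : (ε / 2) ^ 2 * m.real (Metric.ball y (r / 2)) ≤ ∫ z in Metric.ball y (r / 2), (F i z - f z) ^ 2 ∂m :=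
    setIntegral_ge_of_const_le_real measurableSet_ball ((Fact.out : IsFiniteOnBalls m) y (r / 2)).ne hlow
      hint.integrableOn
  have h2 : ∫ z in Metric.ball y (r / 2), (F i z - f z) ^ 2 ∂m ≤ n2 m fun x => F i x - f x :=
    setIntegral_le_integral hint (ae_of_all _ fun z => sq_nonneg _)
  exact absurd (hi y hy) (not_lt.2 (h1.trans h2))

/-- `sob_dense` and the clamp `s ↦ max (-A) (min A s)` (`sob_comp`) -/
theorem lip_dense_bd (hf : MemLp f 2 m) (hA0 : 0 ≤ A) (hA : Bd m A f) :
    ∃ F : ℕ → X → ℝ, (∀ n, (∃ K : ℝ≥0, LipschitzWith K (F n)) ∧ IsSobolev m (F n) ∧ ∀ x, |F n x| ≤ A) ∧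
      Tendsto (fun n => n2 m fun x => F n x - f x) atTop (𝓝 0) := by
  have hex : ∀ n : ℕ, ∃ g : X → ℝ, (∃ L, LipschitzWith L g) ∧ IsSobolev m g ∧
      eLpNorm (fun x => f x - g x) 2 m ≤ ENNReal.ofReal (1 / ((n : ℝ) + 1)) := fun n => by
    obtain ⟨g, a, -, b, c⟩ := sob_dense hf (ε := ENNReal.ofReal (1 / ((n : ℝ) + 1)))
      (ENNReal.ofReal_pos.2 (by positivity))
    exact ⟨g, a, b, c⟩
  choose G hG1 hG2 hG3 using hex
  have hφ := ba1_clamp (-A) A
  refine ⟨fun n x => max (-A) (min A (G n x)), fun n => ⟨?_, ?_, fun x => ?_⟩, ?_⟩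
  · obtain ⟨L, hL⟩ := hG1 n
    exact ⟨_, hφ.comp hL⟩
  · exact sob_comp (φ := fun s : ℝ => max (-A) (min A s)) hφ (by simp [hA0]) (hG2 n)
  · rw [abs_le]
    exact ⟨le_max_left _ _, max_le (by linarith) (min_le_left _ _)⟩
  · have hb : Tendsto (fun n : ℕ => (1 / ((n : ℝ) + 1)) ^ 2) atTop (𝓝 0) := by
      simpa using (tendsto_one_div_add_atTop_nhds_zero_nat (𝕜 := ℝ)).pow 2
    refine squeeze_zero (fun n => n2_nonneg _ _) (fun n => ?_) hb
    have hm : MemLp (fun x => f x - G n x) 2 m := hf.sub (hG2 n).1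
    have e1 : (n2 m fun x => max (-A) (min A (G n x)) - f x) ≤ n2 m fun x => f x - G n x := by
      refine integral_mono_ae (int_sq (f := fun x => max (-A) (min A (G n x)) - f x)
        ((sob_comp hφ (by simp [hA0]) (hG2 n)).1.sub hf)) (int_sq hm) ?_
      filter_upwards [hA] with x hx
      have h0 : max (-A) (min A (f x)) = f x := by
        rw [abs_le] at hx
        rw [min_eq_right hx.2, max_eq_right hx.1]
      have := hφ.dist_le_mul (G n x) (f x)
      simp only [h0, Real.dist_eq, NNReal.coe_one, one_mul] at this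
      rw [abs_sub_comm (G n x)] at this
      exact sq_le_sq.2 this
    refine e1.trans ?_
    rw [n2_eq_eLpNorm hm]
    refine pow_le_pow_left₀ ENNReal.toReal_nonneg ?_ 2
    exact ENNReal.toReal_le_of_le_ofReal (by positivity) (hG3 n)

/-- a Lipschitz representative with the same bounds everywhere (clamp) -/
theorem LipAE.exists_bd {K : ℝ≥0} {a b : ℝ} (h : LipAE m K f) (hab : a ≤ b) (hb : ∀ᵐ x ∂m, a ≤ f x ∧ f x ≤ b) :
    ∃ v : X → ℝ, LipschitzWith K v ∧ f =ᵐ[m] v ∧ ∀ x, a ≤ v x ∧ v x ≤ b := by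
  obtain ⟨v, hv, hfv⟩ := h
  refine ⟨fun x => max a (min b (v x)), ?_, ?_, fun x => ⟨le_max_left _ _, max_le hab (min_le_left _ _)⟩⟩
  · have := (ba1_clamp a b).comp hv
    rw [one_mul] at this
    exact this
  · filter_upwards [hfv, hb] with x h1 h2
    rw [← h1, min_eq_right h2.2, max_eq_right h2.1]

end Crest.Agent.R242.Be
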