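import Crest.Agent.R242.BeA1

/-! Row 242, I-e, TASK BeA2: toolkit for `En`, `GB`, `gradPairing` from Wug7-Wug9 (keep the statements; aux names `ba2_*`). -/

set_option autoImplicit false
set_option linter.unusedSectionVars false
set_option linter.unusedVariables false

open MeasureTheory Filter Set
open scoped ENNReal NNReal Topology
open Crest.GeometryTopology.SyntheticRicci

noncomputable section

namespace Crest.Agent.R242.Be

variable {X : Type*} [MetricSpace X] [MeasurableSpace X] [BorelSpace X] {m : Measure X}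
  [Fact (IsFiniteOnBalls m)]
  {f g u v w η : X → ℝ} {A B C : ℝ}

theorem gam_meas (m : Measure X) [Fact (IsFiniteOnBalls m)] (f g : X → ℝ) :
    AEStronglyMeasurable (gradPairing m f g) m := (gam_aemeasurable m f g).aestronglyMeasurable

theorem sl_meas (hf : IsSobolevLoc m f) : AEStronglyMeasurable f m := (sl_aemeasurable hf).aestronglyMeasurable

theorem ba2_En (hu : IsSobolevLoc m u) : En m u u = n2 m (minWeakGrad m u) :=
  integral_congr_ae (gam_self hu)

theorem ba2_sq {a b c : ℝ} (h0 : 0 ≤ a) (h : a ≤ b + c) : a ^ 2 ≤ 2 * b ^ 2 + 2 * c ^ 2 := by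
  nlinarith [pow_le_pow_left₀ h0 h 2, sq_nonneg (b - c)]

theorem En_symm (hu : IsSobolevLoc m u) (hv : IsSobolevLoc m v) : En m u v = En m v u := by
  exact integral_congr_ae (gam_symm hu hv)

theorem En_nonneg (hu : IsSobolevLoc m u) : 0 ≤ En m u u := by
  exact integral_nonneg_of_ae (gam_self_nonneg hu)

theorem En_congr {u' v' : X → ℝ} (hu : IsSobolevLoc m u) (hv : IsSobolevLoc m v) (h1 : u =ᵐ[m] u')
    (h2 : v =ᵐ[m] v') : En m u v = En m u' v' := by
  exact integral_congr_ae (gam_congr hu hv h1 h2)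

theorem En_add (hH : IsInfHilbertian m) (hu : IsSobolev m u) (hv : IsSobolev m v) (hw : IsSobolev m w) :
    En m (fun x => u x + v x) w = En m u w + En m v w := by
  unfold En
  rw [← integral_add (gam_integrable hu hw) (gam_integrable hv hw)]
  exact integral_congr_ae (gam_add hH hu.2.1 hv.2.1 hw.2.1)

theorem En_sub (hH : IsInfHilbertian m) (hu : IsSobolev m u) (hv : IsSobolev m v) (hw : IsSobolev m w) :
    En m (fun x => u x - v x) w = En m u w - En m v w := by
  unfold En
  rw [← integral_sub (gam_integrable hu hw) (gam_integrable hv hw)]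
  exact integral_congr_ae (gam_sub hH hu.2.1 hv.2.1 hw.2.1)

theorem En_smul (hH : IsInfHilbertian m) (c : ℝ) (hu : IsSobolevLoc m u) (hw : IsSobolevLoc m w) :
    En m (fun x => c * u x) w = c * En m u w := by
  unfold En
  rw [← integral_const_mul]
  exact integral_congr_ae (gam_const_mul hH c hu hw)

theorem int_bd_gam (hu : IsSobolev m u) (hv : IsSobolev m v) (hη : AEStronglyMeasurable η m) (hB : Bd m B η) :
    Integrable (fun x => η x * gradPairing m u v x) m := by
  exact (gam_integrable hu hv).bdd_mul hη hB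

/-- `abs_gam_le`, `abs_int_mul_le` for the two minimal gradients, `gam_self` -/
theorem abs_int_gam_le (hu : IsSobolev m u) (hv : IsSobolev m v) (hη : AEStronglyMeasurable η m) (hB0 : 0 ≤ B)
    (hB : Bd m B η) : |∫ x, η x * gradPairing m u v x ∂m| ≤ B * (√(En m u u) * √(En m v v)) := by
  have h1 : |∫ x, η x * gradPairing m u v x ∂m| ≤ ∫ x, B * (minWeakGrad m u x * minWeakGrad m v x) ∂m := by
    rw [← Real.norm_eq_abs]
    refine norm_integral_le_of_norm_le ((int_mul hu.2.2 hv.2.2).const_mul B) ?_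
    filter_upwards [hB, abs_gam_le hu.2.1 hv.2.1] with x h1 h2
    rw [Real.norm_eq_abs, abs_mul]
    exact mul_le_mul h1 h2 (abs_nonneg _) hB0
  rw [integral_const_mul] at h1
  refine h1.trans (mul_le_mul_of_nonneg_left ?_ hB0)
  rw [ba2_En hu.2.1, ba2_En hv.2.1]
  exact (le_abs_self _).trans (abs_int_mul_le hu.2.2 hv.2.2)

theorem abs_En_le (hu : IsSobolev m u) (hv : IsSobolev m v) : |En m u v| ≤ √(En m u u) * √(En m v v) := by
  have h := abs_int_gam_le (η := fun _ => 1) (B := 1) hu hv aestronglyMeasurable_const zero_le_one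
    (Eventually.of_forall fun x => by simp)
  simpa [En] using h

/-- weighted Cauchy-Schwarz (`√η * minWeakGrad`) -/
theorem int_gam_le_w (hu : IsSobolev m u) (hv : IsSobolev m v) (hη : AEStronglyMeasurable η m)
    (hB : ∀ᵐ x ∂m, 0 ≤ η x ∧ η x ≤ B) :
    |∫ x, η x * gradPairing m u v x ∂m| ≤
      √(∫ x, η x * gradPairing m u u x ∂m) * √(∫ x, η x * gradPairing m v v x ∂m) := by
  have hs : AEStronglyMeasurable (fun x => √(η x)) m := Real.continuous_sqrt.comp_aestronglyMeasurable hη
  have hb : Bd m (√B) fun x => √(η x) := by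
    filter_upwards [hB] with x hx
    rw [abs_of_nonneg (Real.sqrt_nonneg _)]
    exact Real.sqrt_le_sqrt hx.2
  have ha := memLp_bd_mul hs hb hu.2.2
  have hb' := memLp_bd_mul hs hb hv.2.2
  have e : ∀ {w : X → ℝ}, IsSobolev m w →
      ∫ x, η x * gradPairing m w w x ∂m = n2 m fun x => √(η x) * minWeakGrad m w x := by
    intro w hw
    refine integral_congr_ae ?_
    filter_upwards [hB, gam_self hw.2.1] with x h1 h2
    rw [h2, mul_pow, Real.sq_sqrt h1.1]
  rw [e hu, e hv]
  refine le_trans ?_ ((le_abs_self _).trans (abs_int_mul_le ha hb'))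
  rw [← Real.norm_eq_abs]
  refine norm_integral_le_of_norm_le (int_mul ha hb') ?_
  filter_upwards [hB, abs_gam_le hu.2.1 hv.2.1] with x h1 h2
  rw [Real.norm_eq_abs, abs_mul, abs_of_nonneg h1.1]
  calc η x * |gradPairing m u v x| ≤ η x * (minWeakGrad m u x * minWeakGrad m v x) :=
        mul_le_mul_of_nonneg_left h2 h1.1
    _ = (√(η x) * √(η x)) * (minWeakGrad m u x * minWeakGrad m v x) := by rw [Real.mul_self_sqrt h1.1]
    _ = _ := by ring

theorem gam_add_le (hu : IsSobolevLoc m u) (hv : IsSobolevLoc m v) :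
    ∀ᵐ x ∂m, gradPairing m (fun y => u y + v y) (fun y => u y + v y) x ≤
      2 * gradPairing m u u x + 2 * gradPairing m v v x := by
  filter_upwards [gam_self (sl_add hu hv), gam_self hu, gam_self hv, gr_add_le hu hv,
    gr_nonneg m fun y => u y + v y] with x h1 h2 h3 h4 h5
  rw [h1, h2, h3]
  exact ba2_sq h5 h4

theorem gam_sub_le (hu : IsSobolevLoc m u) (hv : IsSobolevLoc m v) :
    ∀ᵐ x ∂m, gradPairing m (fun y => u y - v y) (fun y => u y - v y) x ≤
      2 * gradPairing m u u x + 2 * gradPairing m v v x := by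
  filter_upwards [gam_self (sl_sub hu hv), gam_self hu, gam_self hv, gr_sub_le hu hv,
    gr_nonneg m fun y => u y - v y] with x h1 h2 h3 h4 h5
  rw [h1, h2, h3]
  exact ba2_sq h5 h4

theorem gam_mul_le (hu : IsSobolevLoc m u) (hv : IsSobolevLoc m v) (hs : IsSobolevLoc m fun y => u y * v y) :
    ∀ᵐ x ∂m, gradPairing m (fun y => u y * v y) (fun y => u y * v y) x ≤
      2 * u x ^ 2 * gradPairing m v v x + 2 * v x ^ 2 * gradPairing m u u x := by
  filter_upwards [gam_self hs, gam_self hu, gam_self hv, gr_mul_le hu hv hs,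
    gr_nonneg m fun y => u y * v y] with x h1 h2 h3 h4 h5
  rw [h1, h2, h3]
  refine (ba2_sq h5 h4).trans (le_of_eq ?_)
  rw [mul_pow, mul_pow, sq_abs, sq_abs]
  ring

theorem En_add_le (hu : IsSobolev m u) (hv : IsSobolev m v) :
    En m (fun x => u x + v x) (fun x => u x + v x) ≤ 2 * En m u u + 2 * En m v v := by
  unfold En
  rw [← integral_const_mul, ← integral_const_mul,
    ← integral_add ((gam_integrable hu hu).const_mul 2) ((gam_integrable hv hv).const_mul 2)]
  exact integral_mono_ae (gam_integrable (sob_add hu hv) (sob_add hu hv))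
    (((gam_integrable hu hu).const_mul 2).add ((gam_integrable hv hv).const_mul 2)) (gam_add_le hu.2.1 hv.2.1)

theorem En_sub_le (hu : IsSobolev m u) (hv : IsSobolev m v) :
    En m (fun x => u x - v x) (fun x => u x - v x) ≤ 2 * En m u u + 2 * En m v v := by
  unfold En
  rw [← integral_const_mul, ← integral_const_mul,
    ← integral_add ((gam_integrable hu hu).const_mul 2) ((gam_integrable hv hv).const_mul 2)]
  exact integral_mono_ae (gam_integrable (sob_sub hu hv) (sob_sub hu hv))
    (((gam_integrable hu hu).const_mul 2).add ((gam_integrable hv hv).const_mul 2)) (gam_sub_le hu.2.1 hv.2.1)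

theorem GB.mono (h : GB m A f) (hAB : A ≤ B) : GB m B f := by
  filter_upwards [h] with x hx using hx.trans hAB

theorem GB.congr (h : GB m A f) (hf : IsSobolevLoc m f) (hfg : f =ᵐ[m] g) : GB m A g := by
  filter_upwards [h, gam_congr hf hf hfg hfg] with x h1 h2
  rw [← h2]; exact h1

theorem GB.add (h1 : GB m A u) (h2 : GB m B v) (hu : IsSobolevLoc m u) (hv : IsSobolevLoc m v) :
    GB m (2 * A + 2 * B) fun x => u x + v x := by
  filter_upwards [h1, h2, gam_add_le hu hv] with x h1 h2 h3
  linarith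

theorem GB.sub (h1 : GB m A u) (h2 : GB m B v) (hu : IsSobolevLoc m u) (hv : IsSobolevLoc m v) :
    GB m (2 * A + 2 * B) fun x => u x - v x := by
  filter_upwards [h1, h2, gam_sub_le hu hv] with x h1 h2 h3
  linarith

theorem GB.bd (h : GB m A f) (hf : IsSobolevLoc m f) : Bd m A (gradPairing m f f) := by
  filter_upwards [h, gam_self_nonneg hf] with x h1 h2
  rwa [abs_of_nonneg h2]

theorem GB.gr_le (h : GB m A f) (hf : IsSobolevLoc m f) : ∀ᵐ x ∂m, minWeakGrad m f x ≤ √A := by
  filter_upwards [h, gam_self hf] with x h1 h2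
  rw [h2] at h1
  exact Real.le_sqrt_of_sq_le h1

theorem gb_of_lip {K : ℝ≥0} (hf : LipschitzWith K f) : GB m ((K : ℝ) ^ 2) f := by
  filter_upwards [gam_self (sl_lip (m := m) hf), gr_le_lip (m := m) hf, gr_nonneg m f] with x h1 h2 h3
  rw [h1]
  exact pow_le_pow_left₀ h3 h2 2

theorem gb_of_lipAE {K : ℝ≥0} (hf : LipAE m K f) : IsSobolevLoc m f ∧ GB m ((K : ℝ) ^ 2) f := by
  obtain ⟨v, hv, hfv⟩ := hf
  exact ⟨sl_congr (sl_lip hv) hfv.symm, (gb_of_lip hv).congr (sl_lip hv) hfv.symm⟩

theorem GB.lipAE (h : GB m A f) (hS : S2L m) (hf : IsSobolevLoc m f) : LipAE m (√A).toNNReal f := by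
  refine hS f _ hf ?_
  rw [Real.coe_toNNReal _ (Real.sqrt_nonneg A)]
  exact h.gr_le hf

/-- chain rule bound for a Lipschitz `φ` -/
theorem GB.comp {φ : ℝ → ℝ} {K : ℝ≥0} (h : GB m A f) (hφ : LipschitzWith K φ) (hf : IsSobolevLoc m f) :
    GB m ((K : ℝ) ^ 2 * A) fun x => φ (f x) := by
  filter_upwards [h, gam_self (sl_comp hφ hf), gam_self hf, gr_comp_le hφ hf,
    gr_nonneg m fun x => φ (f x)] with x h1 h2 h3 h4 h5
  rw [h2]
  rw [h3] at h1
  refine (pow_le_pow_left₀ h5 h4 2).trans ?_
  rw [mul_pow]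
  exact mul_le_mul_of_nonneg_left h1 (sq_nonneg _)

/-- `gam_sq_le` -/
theorem memLp_gam (hf : IsSobolevLoc m f) (hC : GB m C f) (hg : IsSobolev m g) :
    MemLp (gradPairing m f g) 2 m ∧ n2 m (gradPairing m f g) ≤ C * En m g g := by
  have hi : Integrable (fun x => C * gradPairing m g g x) m := (gam_integrable hg hg).const_mul C
  have hle : ∀ᵐ x ∂m, gradPairing m f g x ^ 2 ≤ C * gradPairing m g g x := by
    filter_upwards [hC, gam_sq_le hf hg.2.1, gam_self_nonneg hg.2.1] with x h1 h2 h3
    exact h2.trans (mul_le_mul_of_nonneg_right h1 h3)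
  have hsq : Integrable (fun x => gradPairing m f g x ^ 2) m := by
    refine hi.mono' ((gam_meas m f g).pow 2) ?_
    filter_upwards [hle] with x hx
    rwa [Real.norm_eq_abs, abs_of_nonneg (sq_nonneg _)]
  refine ⟨(memLp_two_iff_integrable_sq (gam_meas m f g)).2 hsq, ?_⟩
  unfold n2 En
  rw [← integral_const_mul]
  exact integral_mono_ae hsq hi hle

theorem memLp_gam' (hf : IsSobolevLoc m f) (hC : GB m C f) (hg : IsSobolev m g) :
    MemLp (gradPairing m g f) 2 m ∧ n2 m (gradPairing m g f) ≤ C * En m g g := by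
  have h := memLp_gam hf hC hg
  have e := gam_symm hf hg.2.1
  exact ⟨(memLp_congr_ae e).1 h.1, by rw [← n2_congr e]; exact h.2⟩

theorem sob_mul_gb (hf : IsSobolevLoc m f) (hA : Bd m A f) (hC : GB m C f) (hg : IsSobolev m g) :
    IsSobolev m fun x => f x * g x := by
  exact sob_mul_bdd hf hA (hC.gr_le hf) hg

theorem sob_of_lip_compact {K : ℝ≥0} (hf : LipschitzWith K f) (hc : HasCompactSupport f) :
    IsSobolev m f ∧ ∃ A : ℝ, 0 ≤ A ∧ ∀ x, |f x| ≤ A := by
  rcases isEmpty_or_nonempty X with hX | hX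
  · have : f = fun _ => 0 := funext fun x => isEmptyElim x
    exact ⟨this ▸ sob_zero, 0, le_rfl, fun x => isEmptyElim x⟩
  · obtain ⟨A, hA⟩ := hf.continuous.bounded_above_of_compact_support hc
    refine ⟨sob_lip_supp (fun o R => ⟨K, hf.lipschitzOnWith⟩) (bddSupp_of_compact hc), max A 0,
      le_max_right _ _, fun x => ?_⟩
    exact (hA x).trans (le_max_left _ _)

/-- `Γ u u - Γ v v = Γ (u - v) (u + v)` -/
theorem gam_sq_sub (hH : IsInfHilbertian m) (hu : IsSobolevLoc m u) (hv : IsSobolevLoc m v) :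
    ∀ᵐ x ∂m, gradPairing m u u x - gradPairing m v v x =
      gradPairing m (fun y => u y - v y) (fun y => u y + v y) x := by
  filter_upwards [gam_sub hH hu hv (sl_add hu hv), gam_add_right hH hu hv hu, gam_add_right hH hu hv hv,
    gam_symm hu hv] with x h1 h2 h3 h4
  rw [h1, h2, h3, h4]
  ring

theorem n2_gam_sub (hH : IsInfHilbertian m) (hu : IsSobolev m u) (hv : IsSobolev m v) (h1 : GB m A u)
    (h2 : GB m B v) : (n2 m fun x => gradPairing m u u x - gradPairing m v v x) ≤
      (2 * A + 2 * B) * En m (fun x => u x - v x) fun x => u x - v x := by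
  have e : (fun x => gradPairing m u u x - gradPairing m v v x) =ᵐ[m]
      gradPairing m (fun y => u y - v y) (fun y => u y + v y) := gam_sq_sub hH hu.2.1 hv.2.1
  rw [n2_congr e]
  exact (memLp_gam' (sl_add hu.2.1 hv.2.1) (h1.add h2 hu.2.1 hv.2.1) (sob_sub hu hv)).2

theorem tendsto_n2_gam (hH : IsInfHilbertian m) {ι : Type*} {l : Filter ι} {G : ι → X → ℝ}
    (hf : IsSobolevLoc m f) (hC : GB m C f) (hg : IsSobolev m g) (hG : ∀ᶠ i in l, IsSobolev m (G i))
    (h : Tendsto (fun i => En m (fun x => G i x - g x) fun x => G i x - g x) l (𝓝 0)) :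
    Tendsto (fun i => n2 m fun x => gradPairing m f (G i) x - gradPairing m f g x) l (𝓝 0) := by
  have h0 := h.const_mul C
  rw [mul_zero] at h0
  refine squeeze_zero' (Eventually.of_forall fun i => n2_nonneg m _) ?_ h0
  filter_upwards [hG] with i hi
  have e : (fun x => gradPairing m f (G i) x - gradPairing m f g x) =ᵐ[m]
      gradPairing m f fun y => G i y - g y := by
    filter_upwards [gam_sub_right hH hi.2.1 hg.2.1 hf] with x hx using hx.symm
  rw [n2_congr e]
  exact (memLp_gam hf hC (sob_sub hi hg)).2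

/-- `gam_sq_sub`, `abs_int_gam_le`, `G i + g = (G i - g) + 2 g` -/
theorem tendsto_int_gam (hH : IsInfHilbertian m) {ι : Type*} {l : Filter ι} {G : ι → X → ℝ}
    (hη : AEStronglyMeasurable η m) (hB : Bd m B η) (hg : IsSobolev m g) (hG : ∀ᶠ i in l, IsSobolev m (G i))
    (h : Tendsto (fun i => En m (fun x => G i x - g x) fun x => G i x - g x) l (𝓝 0)) :
    Tendsto (fun i => ∫ x, η x * gradPairing m (G i) (G i) x ∂m) l (𝓝 (∫ x, η x * gradPairing m g g x ∂m)) := by
  have hB' : Bd m (max B 0) η := by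
    filter_upwards [hB] with x hx using hx.trans (le_max_left _ _)
  have h2g : IsSobolev m fun x => 2 * g x := sob_const_mul 2 hg
  set c : ℝ := En m (fun x => 2 * g x) fun x => 2 * g x with hc
  have h0 : Tendsto (fun i => max B 0 * (√(En m (fun x => G i x - g x) fun x => G i x - g x) *
      √(2 * (En m (fun x => G i x - g x) fun x => G i x - g x) + 2 * c))) l
      (𝓝 (max B 0 * (√0 * √(2 * 0 + 2 * c)))) :=
    (h.sqrt.mul ((h.const_mul 2).add_const _).sqrt).const_mul _
  rw [Real.sqrt_zero, zero_mul, mul_zero] at h0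
  rw [tendsto_iff_norm_sub_tendsto_zero]
  refine squeeze_zero' (Eventually.of_forall fun i => norm_nonneg _) ?_ h0
  filter_upwards [hG] with i hi
  rw [← integral_sub (int_bd_gam hi hi hη hB) (int_bd_gam hg hg hη hB), Real.norm_eq_abs]
  have e : ∫ x, (η x * gradPairing m (G i) (G i) x - η x * gradPairing m g g x) ∂m =
      ∫ x, η x * gradPairing m (fun y => G i y - g y) (fun y => G i y + g y) x ∂m := by
    refine integral_congr_ae ?_
    filter_upwards [gam_sq_sub hH hi.2.1 hg.2.1] with x hx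
    rw [← hx]; ring
  rw [e]
  refine (abs_int_gam_le (sob_sub hi hg) (sob_add hi hg) hη (le_max_right _ _) hB').trans ?_
  refine mul_le_mul_of_nonneg_left (mul_le_mul_of_nonneg_left (Real.sqrt_le_sqrt ?_) (Real.sqrt_nonneg _))
    (le_max_right _ _)
  have e2 : (fun y => G i y + g y) = fun y => (G i y - g y) + 2 * g y := by
    funext y; ring
  rw [e2]
  exact En_add_le (sob_sub hi hg) h2g

/-- `tendsto_int_gam` with indicator functions, `ae_le_of_test` -/
theorem gb_of_tendsto (hH : IsInfHilbertian m) {G : ℕ → X → ℝ} (hg : IsSobolev m g)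
    (hG : ∀ n, IsSobolev m (G n) ∧ GB m C (G n))
    (h : Tendsto (fun i => En m (fun x => G i x - g x) fun x => G i x - g x) atTop (𝓝 0)) : GB m C g := by
  refine ae_le_of_test (gam_integrable hg hg) fun S hS hS' => ?_
  have hη : AEStronglyMeasurable (S.indicator fun _ => (1 : ℝ)) m :=
    aestronglyMeasurable_const.indicator hS
  have hB : Bd m 1 (S.indicator fun _ => (1 : ℝ)) := Eventually.of_forall fun x => by
    by_cases hx : x ∈ S <;> simp [hx]
  have e : ∀ w : X → ℝ, ∫ x, (S.indicator fun _ => (1 : ℝ)) x * w x ∂m = ∫ x in S, w x ∂m := by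
    intro w
    rw [← integral_indicator hS]
    refine integral_congr_ae (Eventually.of_forall fun x => ?_)
    by_cases hx : x ∈ S <;> simp [hx]
  have h1 := tendsto_int_gam hH hη hB hg (Eventually.of_forall fun n => (hG n).1) h
  simp only [e] at h1
  refine le_of_tendsto' h1 fun n => ?_
  have h2 : ∫ x in S, gradPairing m (G n) (G n) x ∂m ≤ ∫ x in S, C ∂m :=
    integral_mono_ae (gam_integrable (hG n).1 (hG n).1).integrableOn (integrableOn_const hS'.ne)
      (ae_restrict_of_ae (hG n).2)
  rwa [setIntegral_const, smul_eq_mul, mul_comm] at h2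

/-- polarisation -/
theorem gam_polar (hu : IsSobolevLoc m u) (hv : IsSobolevLoc m v) :
    ∀ᵐ x ∂m, gradPairing m u v x = 1 / 4 * gradPairing m (fun y => u y + v y) (fun y => u y + v y) x -
      1 / 4 * gradPairing m (fun y => u y - v y) (fun y => u y - v y) x := by
  filter_upwards [gam_self (sl_add hu hv), gam_self (sl_sub hu hv)] with x h1 h2
  rw [h1, h2, gradPairing]
  ring

end Crest.Agent.R242.Be
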