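import Crest.Agent.R242.BeA2

/-! Row 242, I-e, TASK BeB: calculus of `IsWeakLaplacian` (keep the statements; aux names `bb_*`).
If `A < 0` in `Bd m A f` then `m = 0`; replace `A` by `max A 0` where only some bound is needed. -/

set_option autoImplicit false
set_option linter.unusedSectionVars false
set_option linter.unusedVariables false

open MeasureTheory Filter Set
open scoped ENNReal NNReal Topology
open Crest.GeometryTopology.SyntheticRicci

noncomputable section

namespace Crest.Agent.R242.Be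

variable {X : Type*} [MetricSpace X] [MeasurableSpace X] [BorelSpace X] {m : Measure X}
  [Fact (IsFiniteOnBalls m)]
  {f g h u v w L Lf Lg : X → ℝ} {A A' C C' : ℝ} {J P : ℝ → (X → ℝ) → X → ℝ}

theorem gen_congr {u' L' : X → ℝ} (H : IsWeakLaplacian m u L) (h1 : u =ᵐ[m] u') (h2 : L =ᵐ[m] L') :
    IsWeakLaplacian m u' L' := by
  obtain ⟨hs, hL, he⟩ := H
  refine ⟨sob_congr hs h1, hL.ae_eq h2, fun v hv => ?_⟩
  have e1 : ∫ x, gradPairing m u' v x ∂m = ∫ x, gradPairing m u v x ∂m :=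
    (integral_congr_ae (gam_congr hs.2.1 hv.2.1 h1 (ae_eq_refl _))).symm
  have e2 : ∫ x, L' x * v x ∂m = ∫ x, L x * v x ∂m :=
    integral_congr_ae (by filter_upwards [h2] with x hx; rw [hx])
  rw [e1, e2]
  exact he v hv

theorem gen_add (hH : IsInfHilbertian m) (hf : IsWeakLaplacian m f Lf) (hg : IsWeakLaplacian m g Lg) :
    IsWeakLaplacian m (fun x => f x + g x) fun x => Lf x + Lg x := by
  obtain ⟨hfs, hfL, hfe⟩ := hf
  obtain ⟨hgs, hgL, hge⟩ := hg
  refine ⟨sob_add hfs hgs, hfL.add hgL, fun v hv => ?_⟩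
  have e1 : ∫ x, gradPairing m (fun x => f x + g x) v x ∂m =
      ∫ x, gradPairing m f v x ∂m + ∫ x, gradPairing m g v x ∂m := by
    rw [← integral_add (gam_integrable hfs hv) (gam_integrable hgs hv)]
    exact integral_congr_ae (gam_add hH hfs.2.1 hgs.2.1 hv.2.1)
  have e2 : ∫ x, (Lf x + Lg x) * v x ∂m = ∫ x, Lf x * v x ∂m + ∫ x, Lg x * v x ∂m := by
    rw [← integral_add (int_mul hfL hv.1) (int_mul hgL hv.1)]
    exact integral_congr_ae (ae_of_all _ fun x => by ring)
  rw [e1, e2, hfe v hv, hge v hv]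
  ring

theorem gen_sub (hH : IsInfHilbertian m) (hf : IsWeakLaplacian m f Lf) (hg : IsWeakLaplacian m g Lg) :
    IsWeakLaplacian m (fun x => f x - g x) fun x => Lf x - Lg x := by
  obtain ⟨hfs, hfL, hfe⟩ := hf
  obtain ⟨hgs, hgL, hge⟩ := hg
  refine ⟨sob_sub hfs hgs, hfL.sub hgL, fun v hv => ?_⟩
  have e1 : ∫ x, gradPairing m (fun x => f x - g x) v x ∂m =
      ∫ x, gradPairing m f v x ∂m - ∫ x, gradPairing m g v x ∂m := by
    rw [← integral_sub (gam_integrable hfs hv) (gam_integrable hgs hv)]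
    exact integral_congr_ae (gam_sub hH hfs.2.1 hgs.2.1 hv.2.1)
  have e2 : ∫ x, (Lf x - Lg x) * v x ∂m = ∫ x, Lf x * v x ∂m - ∫ x, Lg x * v x ∂m := by
    rw [← integral_sub (int_mul hfL hv.1) (int_mul hgL hv.1)]
    exact integral_congr_ae (ae_of_all _ fun x => by ring)
  rw [e1, e2, hfe v hv, hge v hv]
  ring

theorem bb_ibp (hH : IsInfHilbertian m) (hg : IsWeakLaplacian m g L) (hh : IsSobolevLoc m h) (hA : Bd m A h)
    (hw : IsSobolev m w) (hs : IsSobolev m fun x => h x * w x) (hm : MemLp (gradPairing m h g) 2 m) :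
    ∫ x, h x * gradPairing m g w x ∂m = -∫ x, w x * (h x * L x + gradPairing m h g x) ∂m := by
  obtain ⟨hgs, hL, he⟩ := hg
  have i1 : Integrable (fun x => h x * gradPairing m g w x) m := int_bd_gam hgs hw (sl_meas hh) hA
  have i2 : Integrable (fun x => w x * gradPairing m h g x) m := int_mul hw.1 hm
  have i3 : Integrable (fun x => L x * (h x * w x)) m := int_mul hL hs.1
  have e1 : ∫ x, gradPairing m g (fun x => h x * w x) x ∂m =
      ∫ x, w x * gradPairing m h g x ∂m + ∫ x, h x * gradPairing m g w x ∂m := by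
    rw [← integral_add i2 i1]
    refine integral_congr_ae ?_
    filter_upwards [gam_mul_right hH hh hw.2.1 hs.2.1 hgs.2.1, gam_symm hgs.2.1 hh] with x hx hy
    rw [hx, hy]
  have e2 : ∫ x, w x * (h x * L x + gradPairing m h g x) ∂m =
      ∫ x, L x * (h x * w x) ∂m + ∫ x, w x * gradPairing m h g x ∂m := by
    rw [← integral_add i3 i2]
    exact integral_congr_ae (ae_of_all _ fun x => by ring)
  have e3 := he _ hs
  rw [e1] at e3
  rw [e2]
  linarith

theorem bb_lip_of_deriv {φ φ' : ℝ → ℝ} {K : ℝ} (h1 : ∀ s, HasDerivAt φ (φ' s) s) (hK : ∀ s, |φ' s| ≤ K) :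
    LipschitzWith K.toNNReal φ := by
  refine lipschitzWith_of_nnnorm_deriv_le (fun s => (h1 s).differentiableAt) fun s => ?_
  rw [(h1 s).deriv, ← NNReal.coe_le_coe, coe_nnnorm, Real.norm_eq_abs]
  exact (hK s).trans (Real.le_coe_toNNReal K)

/-- bounded smooth approximations of the identity -/
def bb_φ (n : ℕ) (s : ℝ) : ℝ := ((n : ℝ) + 1) * Real.sin (s / ((n : ℝ) + 1))

theorem bb_deriv (n : ℕ) (s : ℝ) : HasDerivAt (bb_φ n) (Real.cos (s / ((n : ℝ) + 1))) s := by
  have hn : (n : ℝ) + 1 ≠ 0 := by positivity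
  have h := (((hasDerivAt_id s).div_const ((n : ℝ) + 1)).sin).const_mul ((n : ℝ) + 1)
  refine h.congr_deriv ?_
  simp only [id]
  field_simp

theorem bb_lip (n : ℕ) : LipschitzWith (1 : ℝ).toNNReal (bb_φ n) :=
  bb_lip_of_deriv (bb_deriv n) fun s => Real.abs_cos_le_one _

theorem bb_zero (n : ℕ) : bb_φ n 0 = 0 := by simp [bb_φ]

theorem bb_bd (n : ℕ) (s : ℝ) : |bb_φ n s| ≤ (n : ℝ) + 1 := by
  have hn : (0 : ℝ) < (n : ℝ) + 1 := by positivity
  rw [bb_φ, abs_mul, abs_of_pos hn]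
  exact mul_le_of_le_one_right hn.le (Real.abs_sin_le_one _)

theorem bb_le (n : ℕ) (s : ℝ) : |bb_φ n s| ≤ |s| := by
  have h := (bb_lip n).dist_le_mul s 0
  simpa [bb_zero, Real.dist_eq] using h

theorem bb_div_lim (s : ℝ) : Tendsto (fun n : ℕ => s / ((n : ℝ) + 1)) atTop (𝓝 0) :=
  tendsto_const_nhds.div_atTop (tendsto_atTop_add_const_right _ 1 tendsto_natCast_atTop_atTop)

theorem bb_cos_lim (s : ℝ) : Tendsto (fun n : ℕ => Real.cos (s / ((n : ℝ) + 1))) atTop (𝓝 1) := by
  have h := (Real.continuous_cos.tendsto 0).comp (bb_div_lim s)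
  rw [Real.cos_zero] at h
  exact h

theorem bb_lim (s : ℝ) : Tendsto (fun n : ℕ => bb_φ n s) atTop (𝓝 s) := by
  have h : Tendsto (fun n : ℕ => s * Real.sinc (s / ((n : ℝ) + 1))) atTop (𝓝 (s * Real.sinc 0)) :=
    ((Real.continuous_sinc.tendsto 0).comp (bb_div_lim s)).const_mul s
  rw [Real.sinc_zero, mul_one] at h
  refine h.congr fun n => ?_
  have hn : (n : ℝ) + 1 ≠ 0 := by positivity
  by_cases hs : s = 0
  · simp [hs, bb_zero]
  · rw [Real.sinc_of_ne_zero (div_ne_zero hs hn), bb_φ]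
    field_simp

/-- test the equation of `g` with `h * w` (`sob_mul_gb`, `gam_mul_right`) -/
theorem ibp_gb (hH : IsInfHilbertian m) (hg : IsWeakLaplacian m g L) (hh : IsSobolevLoc m h) (hA : Bd m A h)
    (hC : GB m C h) (hw : IsSobolev m w) :
    ∫ x, h x * gradPairing m g w x ∂m = -∫ x, w x * (h x * L x + gradPairing m h g x) ∂m := by
  exact bb_ibp hH hg hh hA hw (sob_mul_gb hh hA hC hw) (memLp_gam hh hC hg.1).1

/-- first for the bounded functions `w n = (n+1) * sin (w / (n+1))` (`sob_comp`, `sob_mul`, `gam_mul_right`,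
`gam_comp_right`: `Γ g (w n) = cos (w / (n+1)) * Γ g w`), then dominated convergence (`|w n| ≤ |w|`,
`memLp_gam'` for `Γ h g`). -/
theorem ibp_bd (hH : IsInfHilbertian m) (hg : IsWeakLaplacian m g L) (hC : GB m C g) (hh : IsSobolev m h)
    (hA : Bd m A h) (hw : IsSobolev m w) :
    ∫ x, h x * gradPairing m g w x ∂m = -∫ x, w x * (h x * L x + gradPairing m h g x) ∂m := by
  have hm : MemLp (gradPairing m h g) 2 m := (memLp_gam' hg.1.2.1 hC hh).1
  have hQ : MemLp (fun x => h x * L x + gradPairing m h g x) 2 m :=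
    (memLp_bd_mul (sl_meas hh.2.1) hA hg.2.1).add hm
  have hwn : ∀ n : ℕ, IsSobolev m fun x => bb_φ n (w x) := fun n => sob_comp (bb_lip n) (bb_zero n) hw
  have hI : Integrable (fun x => h x * gradPairing m g w x) m := int_bd_gam hg.1 hw (sl_meas hh.2.1) hA
  have hI2 : Integrable (fun x => w x * (h x * L x + gradPairing m h g x)) m := int_mul hw.1 hQ
  have hwm : AEMeasurable w m := sl_aemeasurable hw.2.1
  have key : ∀ n : ℕ, ∫ x, Real.cos (w x / ((n : ℝ) + 1)) * (h x * gradPairing m g w x) ∂m =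
      -∫ x, bb_φ n (w x) * (h x * L x + gradPairing m h g x) ∂m := by
    intro n
    rw [← bb_ibp hH hg hh.2.1 hA (hwn n)
      (sob_mul hh (hwn n) hA (ae_of_all _ fun x => bb_bd n (w x))) hm]
    refine integral_congr_ae ?_
    filter_upwards [gam_comp_right hH (φ := bb_φ n) (φ' := fun s => Real.cos (s / ((n : ℝ) + 1)))
      (C := ∅) (bb_lip n).locallyLipschitz countable_empty (fun s _ => bb_deriv n s)
      (by fun_prop) hw.2.1 (hwn n).2.1 hg.1.2.1] with x hx
    rw [hx]
    ring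
  have t1 : Tendsto (fun n : ℕ => ∫ x, Real.cos (w x / ((n : ℝ) + 1)) * (h x * gradPairing m g w x) ∂m) atTop
      (𝓝 (∫ x, h x * gradPairing m g w x ∂m)) := by
    refine tendsto_integral_of_dominated_convergence (fun x => ‖h x * gradPairing m g w x‖) (fun n => ?_)
      hI.norm (fun n => ae_of_all _ fun x => ?_) (ae_of_all _ fun x => ?_)
    · exact (Real.measurable_cos.comp_aemeasurable (hwm.div_const _)).aestronglyMeasurable.mul hI.1
    · rw [norm_mul]
      exact mul_le_of_le_one_left (norm_nonneg _) (by rw [Real.norm_eq_abs]; exact Real.abs_cos_le_one _)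
    · simpa using (bb_cos_lim (w x)).mul_const (h x * gradPairing m g w x)
  have t2 : Tendsto (fun n : ℕ => ∫ x, bb_φ n (w x) * (h x * L x + gradPairing m h g x) ∂m) atTop
      (𝓝 (∫ x, w x * (h x * L x + gradPairing m h g x) ∂m)) := by
    refine tendsto_integral_of_dominated_convergence
      (fun x => ‖w x * (h x * L x + gradPairing m h g x)‖) (fun n => ?_)
      hI2.norm (fun n => ae_of_all _ fun x => ?_) (ae_of_all _ fun x => ?_)
    · exact (hwn n).1.1.mul hQ.1
    · rw [norm_mul, norm_mul]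
      exact mul_le_mul_of_nonneg_right (by simpa only [Real.norm_eq_abs] using bb_le n (w x)) (norm_nonneg _)
    · exact (bb_lim (w x)).mul_const _
  exact tendsto_nhds_unique t1 (t2.neg.congr fun n => (key n).symm)

/-- `gam_mul` and `ibp_gb` twice -/
theorem gen_mul (hH : IsInfHilbertian m) (hf : IsWeakLaplacian m f Lf) (hg : IsWeakLaplacian m g Lg)
    (hA : Bd m A f) (hA' : Bd m A' g) (hC : GB m C f) (hC' : GB m C' g) :
    IsWeakLaplacian m (fun x => f x * g x) fun x => f x * Lg x + g x * Lf x + 2 * gradPairing m f g x := by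
  have hfs := hf.1
  have hgs := hg.1
  have hs : IsSobolev m fun x => f x * g x := sob_mul hfs hgs hA hA'
  have m1 : MemLp (fun x => f x * Lg x) 2 m := memLp_bd_mul (sl_meas hfs.2.1) hA hg.2.1
  have m2 : MemLp (fun x => g x * Lf x) 2 m := memLp_bd_mul (sl_meas hgs.2.1) hA' hf.2.1
  have m3 : MemLp (gradPairing m f g) 2 m := (memLp_gam hfs.2.1 hC hgs).1
  have m4 : MemLp (gradPairing m g f) 2 m := (memLp_gam hgs.2.1 hC' hfs).1
  refine ⟨hs, (m1.add m2).add (m3.const_mul 2), fun v hv => ?_⟩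
  have e1 : ∫ x, gradPairing m (fun x => f x * g x) v x ∂m =
      ∫ x, g x * gradPairing m f v x ∂m + ∫ x, f x * gradPairing m g v x ∂m := by
    rw [← integral_add (int_bd_gam hfs hv (sl_meas hgs.2.1) hA') (int_bd_gam hgs hv (sl_meas hfs.2.1) hA)]
    exact integral_congr_ae (gam_mul hH hfs.2.1 hgs.2.1 hs.2.1 hv.2.1)
  have e2 : ∫ x, (f x * Lg x + g x * Lf x + 2 * gradPairing m f g x) * v x ∂m =
      ∫ x, v x * (g x * Lf x + gradPairing m g f x) ∂m + ∫ x, v x * (f x * Lg x + gradPairing m f g x) ∂m := by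
    have j1 : Integrable (fun x => v x * (g x * Lf x + gradPairing m g f x)) m := int_mul hv.1 (m2.add m4)
    have j2 : Integrable (fun x => v x * (f x * Lg x + gradPairing m f g x)) m := int_mul hv.1 (m1.add m3)
    rw [← integral_add j1 j2]
    refine integral_congr_ae ?_
    filter_upwards [gam_symm hfs.2.1 hgs.2.1] with x hx
    rw [← hx]
    ring
  rw [e1, e2, ibp_gb hH hf hgs.2.1 hA' hC' hv, ibp_gb hH hg hfs.2.1 hA hC hv]
  ring

/-- `gam_comp` and `ibp_gb` with `h = φ' ∘ g` (`GB.comp`, `lipschitzWith_of_nnnorm_deriv_le`) -/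
theorem gen_comp (hH : IsInfHilbertian m) {φ φ' φ'' : ℝ → ℝ} {K : ℝ} (h1 : ∀ s, HasDerivAt φ (φ' s) s)
    (h2 : ∀ s, HasDerivAt φ' (φ'' s) s) (h3 : Continuous φ'') (hK1 : ∀ s, |φ' s| ≤ K) (hK2 : ∀ s, |φ'' s| ≤ K)
    (h0 : φ 0 = 0) (hg : IsWeakLaplacian m g L) (hC : GB m C g) :
    IsWeakLaplacian m (fun x => φ (g x)) fun x => φ' (g x) * L x + φ'' (g x) * gradPairing m g g x := by
  have hgs := hg.1
  have hK0 : 0 ≤ K := (abs_nonneg _).trans (hK1 0)
  have l1 : LipschitzWith K.toNNReal φ := bb_lip_of_deriv h1 hK1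
  have l2 : LipschitzWith K.toNNReal φ' := bb_lip_of_deriv h2 hK2
  have hs : IsSobolev m fun x => φ (g x) := sob_comp l1 h0 hgs
  have hh : IsSobolevLoc m fun x => φ' (g x) := sl_comp l2 hgs.2.1
  have b1 : Bd m K fun x => φ' (g x) := ae_of_all _ fun x => hK1 _
  have b2 : Bd m K fun x => φ'' (g x) := ae_of_all _ fun x => hK2 _
  have m1 : MemLp (fun x => φ' (g x) * L x) 2 m := memLp_bd_mul (sl_meas hh) b1 hg.2.1
  have m2 : MemLp (fun x => φ'' (g x) * gradPairing m g g x) 2 m :=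
    memLp_bd_mul (h3.comp_aestronglyMeasurable (sl_meas hgs.2.1)) b2 (memLp_gam hgs.2.1 hC hgs).1
  refine ⟨hs, m1.add m2, fun v hv => ?_⟩
  have e1 : ∫ x, gradPairing m (fun x => φ (g x)) v x ∂m = ∫ x, φ' (g x) * gradPairing m g v x ∂m :=
    integral_congr_ae (gam_comp hH (C := ∅) l1.locallyLipschitz countable_empty (fun s _ => h1 s)
      l2.continuous.measurable hgs.2.1 hs.2.1 hv.2.1)
  rw [e1, ibp_gb hH hg hh b1 (hC.comp l2 hgs.2.1) hv]
  congr 1
  refine integral_congr_ae ?_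
  filter_upwards [gam_comp hH (C := ∅) l2.locallyLipschitz countable_empty (fun s _ => h2 s)
    h3.measurable hgs.2.1 hh hgs.2.1] with x hx
  rw [hx]
  ring

/-- `gam_level` for `θ` at the levels `0, 1` and for `g` at the level `0`; `ibp_gb` with `h = θ` -/
theorem gen_cut (hH : IsInfHilbertian m) {θ : X → ℝ} {K : ℝ≥0} (hθ : LipschitzWith K θ) (hA : ∀ x, |θ x| ≤ A)
    (hg : IsWeakLaplacian m g L) (h0 : ∀ x, g x = 0 ∨ θ x = 0 ∨ θ x = 1) :
    IsWeakLaplacian m (fun x => θ x * g x) fun x => θ x * L x := by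
  have hgs := hg.1
  have hθs : IsSobolevLoc m θ := sl_lip hθ
  have hs : IsSobolev m fun x => θ x * g x := sob_lip_mul hθ hA hgs
  have b1 : Bd m A θ := ae_of_all _ hA
  refine ⟨hs, memLp_bd_mul (sl_meas hθs) b1 hg.2.1, fun v hv => ?_⟩
  have e1 : ∫ x, gradPairing m (fun x => θ x * g x) v x ∂m = ∫ x, θ x * gradPairing m g v x ∂m := by
    refine integral_congr_ae ?_
    filter_upwards [gam_mul hH hθs hgs.2.1 hs.2.1 hv.2.1, gam_level hθs hv.2.1 0, gam_level hθs hv.2.1 1]
      with x hx a0 a1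
    rw [hx]
    rcases h0 x with h | h | h
    · rw [h]; ring
    · rw [a0 h]; ring
    · rw [a1 h]; ring
  rw [e1, ibp_gb hH hg hθs b1 (gb_of_lip hθ) hv]
  congr 1
  refine integral_congr_ae ?_
  filter_upwards [gam_symm hθs hgs.2.1, gam_level hgs.2.1 hθs 0, gam_level hθs hgs.2.1 0,
    gam_level hθs hgs.2.1 1] with x hx a a0 a1
  have hz : gradPairing m θ g x = 0 := by
    rcases h0 x with h | h | h
    · rw [hx, a h]
    · exact a0 h
    · exact a1 h
  rw [hz]
  ring


end Crest.Agent.R242.Be
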