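import Crest.Agent.R242.BeB

/-! Row 242, I-e, TASK BeB2: Markov property, weak convergence (keep the statements; aux names `bb2_*`).
If `A < 0` in `Bd m A f` then `m = 0` (`ae_eq_bot`); replace `A` by `max A 0` where only some bound is needed. -/

set_option autoImplicit false
set_option linter.unusedSectionVars false
set_option linter.unusedVariables false

open MeasureTheory Filter Set
open scoped ENNReal NNReal Topology
open Crest.GeometryTopology.SyntheticRicci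

noncomputable section

namespace Crest.Agent.R242.Be

variable {X : Type*} [MetricSpace X] [MeasurableSpace X] [BorelSpace X] {m : Measure X}
  [Fact (IsFiniteOnBalls m)]
  {f g h u v w L Lf Lg : X → ℝ} {A A' C C' : ℝ} {J P : ℝ → (X → ℝ) → X → ℝ}

theorem bb2_zero {T : (X → ℝ) → X → ℝ}
    (hl : ∀ f g, MemLp f 2 m → MemLp g 2 m → ∀ a b : ℝ,
      T (fun x => a * f x + b * g x) =ᵐ[m] fun x => a * T f x + b * T g x) :
    ∀ᵐ x ∂m, T (fun _ => 0) x = 0 := by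
  have := hl (fun _ => 0) (fun _ => 0) MemLp.zero MemLp.zero 0 0
  simp only [zero_mul, add_zero] at this
  exact this

theorem bb2_le {T : (X → ℝ) → X → ℝ}
    (hm : ∀ f g, MemLp f 2 m → MemLp g 2 m → ∀ c : ℝ, 0 ≤ c →
      (∀ᵐ x ∂m, f x ≤ c + g x) → ∀ᵐ x ∂m, T f x ≤ c + T g x)
    (h0 : ∀ᵐ x ∂m, T (fun _ => 0) x = 0) (hf : MemLp f 2 m) (hA0 : 0 ≤ A) (hA : ∀ᵐ x ∂m, f x ≤ A) :
    ∀ᵐ x ∂m, T f x ≤ A := by
  filter_upwards [hm f (fun _ => 0) hf MemLp.zero A hA0 (hA.mono fun x hx => by simpa using hx), h0]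
    with x h1 h2
  rwa [h2, add_zero] at h1

theorem bb2_ge {T : (X → ℝ) → X → ℝ}
    (hm : ∀ f g, MemLp f 2 m → MemLp g 2 m → ∀ c : ℝ, 0 ≤ c →
      (∀ᵐ x ∂m, f x ≤ c + g x) → ∀ᵐ x ∂m, T f x ≤ c + T g x)
    (h0 : ∀ᵐ x ∂m, T (fun _ => 0) x = 0) (hf : MemLp f 2 m) (hA0 : 0 ≤ A) (hA : ∀ᵐ x ∂m, -A ≤ f x) :
    ∀ᵐ x ∂m, -A ≤ T f x := by
  filter_upwards [hm (fun _ => 0) f MemLp.zero hf A hA0 (hA.mono fun x hx => by linarith), h0]
    with x h1 h2
  linarith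

theorem bb2_bd {T : (X → ℝ) → X → ℝ}
    (hm : ∀ f g, MemLp f 2 m → MemLp g 2 m → ∀ c : ℝ, 0 ≤ c →
      (∀ᵐ x ∂m, f x ≤ c + g x) → ∀ᵐ x ∂m, T f x ≤ c + T g x)
    (h0 : ∀ᵐ x ∂m, T (fun _ => 0) x = 0) (hf : MemLp f 2 m) (hA : Bd m A f) : Bd m A (T f) := by
  rcases le_or_gt 0 A with hA0 | hA0
  · filter_upwards [bb2_le hm h0 hf hA0 (hA.mono fun x hx => (abs_le.1 hx).2),
      bb2_ge hm h0 hf hA0 (hA.mono fun x hx => (abs_le.1 hx).1)] with x h1 h2 using abs_le.2 ⟨h2, h1⟩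
  · exact hA.mono fun x hx => absurd ((abs_nonneg _).trans hx) (not_le.2 hA0)

theorem SG.P_bd (H : SG m J P) {t : ℝ} (ht : 0 ≤ t) (hf : MemLp f 2 m) (hA : Bd m A f) : Bd m A (P t f) :=
  bb2_bd (H.P_markov t ht) (bb2_zero (H.P_lin t ht)) hf hA

theorem SG.P_le (H : SG m J P) {t : ℝ} (ht : 0 ≤ t) (hf : MemLp f 2 m) (hA0 : 0 ≤ A) (hA : ∀ᵐ x ∂m, f x ≤ A) :
    ∀ᵐ x ∂m, P t f x ≤ A :=
  bb2_le (H.P_markov t ht) (bb2_zero (H.P_lin t ht)) hf hA0 hA

theorem SG.P_nonneg (H : SG m J P) {t : ℝ} (ht : 0 ≤ t) (hf : MemLp f 2 m) (h0 : ∀ᵐ x ∂m, 0 ≤ f x) :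
    ∀ᵐ x ∂m, 0 ≤ P t f x := by
  simpa using bb2_ge (H.P_markov t ht) (bb2_zero (H.P_lin t ht)) hf le_rfl (by simpa using h0)

theorem SG.J_bd (H : SG m J P) {t : ℝ} (ht : 0 < t) (hf : MemLp f 2 m) (hA : Bd m A f) : Bd m A (J t f) :=
  bb2_bd (H.J_markov t ht) (bb2_zero (H.J_lin t ht)) hf hA

theorem SG.P_sub (H : SG m J P) {t : ℝ} (ht : 0 ≤ t) (hf : MemLp f 2 m) (hg : MemLp g 2 m) :
    P t (fun x => f x - g x) =ᵐ[m] fun x => P t f x - P t g x := by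
  simpa only [one_mul, neg_one_mul, ← sub_eq_add_neg] using H.P_lin t ht f g hf hg 1 (-1)

theorem bb2_err (hH : IsInfHilbertian m) (hf : IsSobolev m f) (hg : IsSobolev m g) (hh : IsSobolevLoc m h)
    (hA0 : 0 ≤ A) (hA : Bd m A h) {K : ℝ} (hw : IsSobolev m w) (hK : En m w w ≤ K) :
    |∫ x, h x * gradPairing m g w x ∂m - ∫ x, h x * gradPairing m f w x ∂m| ≤
      A * (√(En m (fun x => g x - f x) fun x => g x - f x) * √K) := by
  rw [← integral_sub (int_bd_gam hg hw (sl_meas hh) hA) (int_bd_gam hf hw (sl_meas hh) hA)]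
  have e : ∫ x, (h x * gradPairing m g w x - h x * gradPairing m f w x) ∂m =
      ∫ x, h x * gradPairing m (fun y => g y - f y) w x ∂m := by
    refine integral_congr_ae ?_
    filter_upwards [gam_sub hH hg.2.1 hf.2.1 hw.2.1] with x hx
    rw [hx, mul_sub]
  rw [e]
  refine (abs_int_gam_le (sob_sub hg hf) hw (sl_meas hh) hA0 hA).trans ?_
  gcongr

/-- weak convergence against `h ∇f`: replace `f` by `P δ f` (`P_deriv` gives its Laplacian, `ibp_gb`,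
`tendsto_int_mul_left`), the error is at most `A √(En (P δ f - f)) √K` (`abs_int_gam_le`, `P_tendsto_En`, `lsc`) -/
theorem SG.weak_h (H : SG m J P) (hH : IsInfHilbertian m) (hf : IsSobolev m f) (hh : IsSobolevLoc m h)
    (hA : Bd m A h) (hC : GB m C h) {V : ℕ → X → ℝ} {K : ℝ} (hV : ∀ n, IsSobolev m (V n)) (hv : IsSobolev m v)
    (hlim : Tendsto (fun n => n2 m fun x => V n x - v x) atTop (𝓝 0)) (hK : ∀ n, En m (V n) (V n) ≤ K) :
    Tendsto (fun n => ∫ x, h x * gradPairing m f (V n) x ∂m) atTop (𝓝 (∫ x, h x * gradPairing m f v x ∂m)) := by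
  have hB : Bd m (max A 0) h := hA.mono fun x hx => hx.trans (le_max_left _ _)
  have hvK : En m v v ≤ K := (H.lsc hV hv.1 hlim hK).2
  have ht : Tendsto (fun δ => max A 0 * (√(En m (fun x => P δ f x - f x) fun x => P δ f x - f x) * √K))
      (𝓝[>] 0) (𝓝 0) := by
    simpa using (((H.P_tendsto_En hf).sqrt).mul_const √K).const_mul (max A 0)
  rw [Metric.tendsto_atTop]
  intro ε hε
  obtain ⟨δ, h1, hδ⟩ := ((ht.eventually (gt_mem_nhds (show 0 < ε / 3 by linarith))).and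
    self_mem_nhdsWithin).exists
  obtain ⟨L, hL, -⟩ := H.P_deriv hδ hf.1
  have hz : MemLp (fun x => h x * L x + gradPairing m h (P δ f) x) 2 m :=
    (memLp_bd_mul (sl_meas hh) hA hL.2.1).add (memLp_gam hh hC hL.1).1
  have h2 : Tendsto (fun n => ∫ x, h x * gradPairing m (P δ f) (V n) x ∂m) atTop
      (𝓝 (∫ x, h x * gradPairing m (P δ f) v x ∂m)) := by
    rw [ibp_gb hH hL hh hA hC hv]
    simp only [fun n => ibp_gb hH hL hh hA hC (hV n)]
    simpa only [mul_comm] using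
      (tendsto_int_mul_left hz hv.1 (Eventually.of_forall fun n => (hV n).1) hlim).neg
  obtain ⟨N, hN⟩ := Metric.tendsto_atTop.1 h2 (ε / 3) (by linarith)
  refine ⟨N, fun n hn => ?_⟩
  have a1 := abs_lt.1 (hN n hn)
  have a2 := abs_le.1 (bb2_err hH hf hL.1 hh (le_max_right _ _) hB (hV n) (hK n))
  have a3 := abs_le.1 (bb2_err hH hf hL.1 hh (le_max_right _ _) hB hv hvK)
  rw [Real.dist_eq, abs_lt]
  constructor <;> linarith [a1.1, a1.2, a2.1, a2.2, a3.1, a3.2]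

end Crest.Agent.R242.Be
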