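import Crest.Agent.R242.BeB2

/-! Row 242, I-e, TASK BeC: Bochner inequality for smooth vectors (keep the statements; aux names `bc_*`). -/

set_option autoImplicit false
set_option linter.unusedSectionVars false
set_option linter.unusedVariables false

open MeasureTheory Filter Set
open scoped ENNReal NNReal Topology
open Crest.GeometryTopology.SyntheticRicci

noncomputable section

namespace Crest.Agent.R242.Be

variable {X : Type*} [MetricSpace X] [MeasurableSpace X] [BorelSpace X] {m : Measure X}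
  [Fact (IsFiniteOnBalls m)]
  {f g u η L : X → ℝ} {A B C κ t : ℝ} {J P : ℝ → (X → ℝ) → X → ℝ}

/-- `GB.lipAE`, `H.ge` -/
theorem All.ge' (H : All m κ J P) (ht : 0 ≤ t) (hg : IsSobolev m g) (hC : GB m C g) :
    ∀ᵐ x ∂m, gradPairing m (P t g) (P t g) x ≤ Real.exp (2 * κ * t) * P t (gradPairing m g g) x := by
  exact (H.ge t ht g _ (hC.lipAE H.s2l hg.2.1) hg).2

/-- `ge'`, `SG.P_le` -/
theorem All.gb_P (H : All m κ J P) (ht : 0 ≤ t) (hg : IsSobolev m g) (hC0 : 0 ≤ C) (hC : GB m C g) :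
    GB m (Real.exp (2 * κ * t) * C) (P t g) := by
  filter_upwards [H.ge' ht hg hC, H.sg.P_le ht (memLp_gam hg.2.1 hC hg).1 hC0 hC] with x h1 h2
  exact h1.trans (mul_le_mul_of_nonneg_left h2 (Real.exp_pos _).le)

/-- `ge'`, `P_symm` -/
theorem All.be_weak (H : All m κ J P) (ht : 0 ≤ t) (hg : IsSobolev m g) (hC : GB m C g) (hη : MemLp η 2 m)
    (h0 : ∀ᵐ x ∂m, 0 ≤ η x) :
    ∫ x, η x * gradPairing m (P t g) (P t g) x ∂m ≤
      Real.exp (2 * κ * t) * ∫ x, P t η x * gradPairing m g g x ∂m := by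
  have hu := (memLp_gam hg.2.1 hC hg).1
  rw [H.sg.P_symm t ht _ _ hη hu, ← integral_const_mul]
  refine integral_mono_of_nonneg ?_ ((int_mul hη (H.sg.P_mem t ht _ hu)).const_mul _) ?_
  · filter_upwards [h0, gam_self_nonneg (H.sg.P_sob t ht g hg).1.2.1] with x h1 h2 using mul_nonneg h1 h2
  · filter_upwards [h0, H.ge' ht hg hC] with x h1 h2
    rw [mul_left_comm]
    exact mul_le_mul_of_nonneg_left h2 h1

theorem bc_lim (hH : IsInfHilbertian m) {ι : Type*} {l : Filter ι} {F G : ι → X → ℝ} (hη : AEStronglyMeasurable η m)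
    (hB : Bd m B η) (hf : IsSobolev m f) (hg : IsSobolev m g) (hF : ∀ᶠ i in l, IsSobolev m (F i) ∧ IsSobolev m (G i))
    (h1 : Tendsto (fun i => En m (fun x => F i x - f x) fun x => F i x - f x) l (𝓝 0))
    (h2 : Tendsto (fun i => En m (fun x => G i x - g x) fun x => G i x - g x) l (𝓝 0)) :
    Tendsto (fun i => ∫ x, η x * gradPairing m (F i) (G i) x ∂m) l (𝓝 (∫ x, η x * gradPairing m f g x ∂m)) := by
  have hB' : Bd m (max B 0) η := hB.mono fun x hx => le_max_of_le_left hx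
  have h3 := (((h1.sqrt.mul h2.sqrt).const_mul (max B 0)).add
    ((h1.sqrt.mul_const √(En m g g)).const_mul (max B 0))).add ((h2.sqrt.const_mul √(En m f f)).const_mul (max B 0))
  simp only [Real.sqrt_zero, mul_zero, zero_mul, add_zero] at h3
  rw [tendsto_iff_norm_sub_tendsto_zero]
  refine squeeze_zero' (Eventually.of_forall fun _ => norm_nonneg _) (hF.mono fun i ⟨a1, a2⟩ => ?_) h3
  have b1 := sob_sub a1 hf
  have b2 := sob_sub a2 hg
  have e : ∫ x, η x * gradPairing m (F i) (G i) x ∂m - ∫ x, η x * gradPairing m f g x ∂m =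
      ∫ x, η x * gradPairing m (fun x => F i x - f x) (fun x => G i x - g x) x ∂m +
        ∫ x, η x * gradPairing m (fun x => F i x - f x) g x ∂m +
        ∫ x, η x * gradPairing m f (fun x => G i x - g x) x ∂m := by
    rw [← integral_sub (int_bd_gam a1 a2 hη hB) (int_bd_gam hf hg hη hB),
      ← integral_add (int_bd_gam b1 b2 hη hB) (int_bd_gam b1 hg hη hB),
      ← integral_add ((int_bd_gam b1 b2 hη hB).fun_add (int_bd_gam b1 hg hη hB)) (int_bd_gam hf b2 hη hB)]
    refine integral_congr_ae ?_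
    filter_upwards [gam_sub_right hH a2.2.1 hg.2.1 b1.2.1, gam_sub hH a1.2.1 hf.2.1 a2.2.1,
      gam_sub_right hH a2.2.1 hg.2.1 hf.2.1] with x c1 c2 c3
    rw [c1, c2, c3]
    ring
  rw [e, Real.norm_eq_abs]
  exact (abs_add_three _ _ _).trans (add_le_add (add_le_add (abs_int_gam_le b1 b2 hη (le_max_right _ _) hB')
    (abs_int_gam_le b1 hg hη (le_max_right _ _) hB')) (abs_int_gam_le hf b2 hη (le_max_right _ _) hB'))

/-- `gam_sq_sub`: with `w t = t⁻¹ (P t g - g)`, the left side is `∫ η Γ (w t) (P t g + g)`, and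
`Γ (w t) (P t g + g) - 2 Γ g L = Γ (w t - L) (P t g + g) + Γ L (P t g - g)`; `abs_int_gam_le`, `P_slope`,
`P_tendsto_En`, `P_sob`. -/
theorem All.slope_gam (H : All m κ J P) (hg : IsWeakLaplacian m g L) (hL : IsSobolev m L)
    (hη : AEStronglyMeasurable η m) (hB : Bd m B η) :
    Tendsto (fun t : ℝ => t⁻¹ * (∫ x, η x * gradPairing m (P t g) (P t g) x ∂m - ∫ x, η x * gradPairing m g g x ∂m))
      (𝓝[>] 0) (𝓝 (2 * ∫ x, η x * gradPairing m g L x ∂m)) := by
  have hs : ∀ t : ℝ, 0 < t → IsSobolev m (P t g) := fun t ht => (H.sg.P_sob t ht.le g hg.1).1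
  have h1 := bc_lim H.hilb (l := 𝓝[>] 0) (F := fun t x => t⁻¹ * (P t g x - g x)) (G := fun t x => P t g x + g x) hη hB hL
    (sob_add hg.1 hg.1) (eventually_mem_nhdsWithin.mono fun t ht =>
      ⟨sob_const_mul _ (sob_sub (hs t ht) hg.1), sob_add (hs t ht) hg.1⟩) (H.sg.P_slope hg hL)
    (by simpa only [add_sub_add_right_eq_sub] using H.sg.P_tendsto_En hg.1)
  have e : ∫ x, η x * gradPairing m L (fun x => g x + g x) x ∂m = 2 * ∫ x, η x * gradPairing m g L x ∂m := by
    rw [← integral_const_mul]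
    refine integral_congr_ae ?_
    filter_upwards [gam_add_right H.hilb hg.1.2.1 hg.1.2.1 hL.2.1, gam_symm hg.1.2.1 hL.2.1] with x c1 c2
    rw [c1, c2]
    ring
  rw [e] at h1
  refine h1.congr' (eventually_mem_nhdsWithin.mono fun t ht => ?_)
  have a := hs t ht
  beta_reduce
  rw [← integral_sub (int_bd_gam a a hη hB) (int_bd_gam hg.1 hg.1 hη hB), ← integral_const_mul]
  refine integral_congr_ae ?_
  filter_upwards [gam_const_mul H.hilb t⁻¹ (sob_sub a hg.1).2.1 (sob_add a hg.1).2.1,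
    gam_sq_sub H.hilb a.2.1 hg.1.2.1] with x c1 c2
  rw [c1, ← c2]
  ring

theorem All.bc_key (H : All m κ J P) (ht : 0 < t) (hg : IsSobolev m g) (hC : GB m C g) (hη : MemLp η 2 m)
    (h0 : ∀ᵐ x ∂m, 0 ≤ η x) : t⁻¹ * ∫ x, (η x - P t η x) * gradPairing m g g x ∂m ≤
      -(Real.exp (-(2 * κ * t)) * (t⁻¹ * (∫ x, η x * gradPairing m (P t g) (P t g) x ∂m -
        ∫ x, η x * gradPairing m g g x ∂m))) + 2 * κ * ∫ x, η x * gradPairing m g g x ∂m := by
  have hu := (memLp_gam hg.2.1 hC hg).1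
  have h1 := mul_le_mul_of_nonneg_left (H.be_weak ht.le hg hC hη h0) (Real.exp_pos (-(2 * κ * t))).le
  rw [← mul_assoc, ← Real.exp_add, neg_add_cancel, Real.exp_zero, one_mul] at h1
  have h2 : 0 ≤ ∫ x, η x * gradPairing m g g x ∂m := integral_nonneg_of_ae (by
    filter_upwards [h0, gam_self_nonneg hg.2.1] with x a b using mul_nonneg a b)
  have h3 := mul_le_mul_of_nonneg_right (Real.add_one_le_exp (-(2 * κ * t))) h2
  simp only [sub_mul]
  rw [integral_sub (int_mul hη hu) (int_mul (H.sg.P_mem t ht.le η hη) hu), inv_mul_le_iff₀ ht, mul_add, mul_neg,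
    mul_left_comm, mul_inv_cancel_left₀ ht.ne']
  linarith

theorem All.bc_tend (H : All m κ J P) (hg : IsWeakLaplacian m g L) (hL : IsSobolev m L)
    (hη : AEStronglyMeasurable η m) (hB : Bd m B η) :
    Tendsto (fun t : ℝ => -(Real.exp (-(2 * κ * t)) * (t⁻¹ * (∫ x, η x * gradPairing m (P t g) (P t g) x ∂m -
        ∫ x, η x * gradPairing m g g x ∂m))) + 2 * κ * ∫ x, η x * gradPairing m g g x ∂m) (𝓝[>] 0)
      (𝓝 (-(2 * ∫ x, η x * gradPairing m g L x ∂m) + 2 * κ * ∫ x, η x * gradPairing m g g x ∂m)) := by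
  have h1 : Tendsto (fun t : ℝ => Real.exp (-(2 * κ * t))) (𝓝[>] 0) (𝓝 1) :=
    (Continuous.tendsto' (by fun_prop) 0 1 (by simp)).mono_left nhdsWithin_le_nhds
  simpa only [one_mul] using (h1.mul (H.slope_gam hg hL hη hB)).neg.add_const _

/-- Let `u = Γ g g` (in `L²`: `memLp_gam`).  `be_weak` with `η = u` gives
`∫ (u - P t u) u ≤ -exp(-2κt) (∫ u Γ(P t g) - ∫ u u) + (1 - exp(-2κt)) ∫ u u`; divided by `t` the right side tends to
`c = -2 ∫ u Γ g L + 2κ ∫ u u` (`slope_gam`), so `mem_of_P` with `c + ε`.  Then `ibp_bd` (`h = u`, `w = L`):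
`-∫ u Γ g L = ∫ L (u L + Γ u g) ≤ C n2 L + √(n2 L) √(C En u u)`, and `∫ u u ≤ C En g g`. -/
theorem All.gam_W0 (H : All m κ J P) (hg : IsWeakLaplacian m g L) (hL : IsSobolev m L) (hC0 : 0 ≤ C)
    (hC : GB m C g) : IsSobolev m (gradPairing m g g) ∧
      En m (gradPairing m g g) (gradPairing m g g) ≤ 8 * C * n2 m L + 4 * κ * C * En m g g := by
  obtain ⟨hu, hn⟩ := memLp_gam hg.1.2.1 hC hg.1
  have hb := hC.bd hg.1.2.1
  have key := fun ε (hε : 0 < ε) => H.sg.mem_of_P hu (C := -(2 * ∫ x, gradPairing m g g x * gradPairing m g L x ∂m) +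
      2 * κ * ∫ x, gradPairing m g g x * gradPairing m g g x ∂m + ε) (by
    filter_upwards [self_mem_nhdsWithin, (H.bc_tend hg hL hu.1 hb).eventually (gt_mem_nhds (lt_add_of_pos_right _ hε))]
      with t ht h1
    rw [mul_comm, ← inv_mul_le_iff₀ ht]
    exact (H.bc_key ht hg.1 hC hu (gam_self_nonneg hg.1.2.1)).trans h1.le)
  have hs := (key 1 one_pos).1
  have h1 := le_of_forall_pos_le_add fun ε hε => (key ε hε).2
  obtain ⟨hv, hn'⟩ := memLp_gam' hg.1.2.1 hC hs
  have huL := memLp_bd_mul hu.1 hb hL.1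
  have h2 : ∫ x, L x * (gradPairing m g g x * L x) ∂m ≤ C * n2 m L := by
    rw [n2, ← integral_const_mul]
    refine integral_mono_ae (int_mul hL.1 huL) ((int_sq hL.1).const_mul _) ?_
    filter_upwards [hC] with x hx
    nlinarith [mul_le_mul_of_nonneg_right hx (sq_nonneg (L x))]
  have h3 := (int_mul_sq_le hL.1 hv).trans (mul_le_mul_of_nonneg_left hn' (n2_nonneg m L))
  have h4 : 2 * ∫ x, L x * gradPairing m (gradPairing m g g) g x ∂m ≤
      2 * C * n2 m L + En m (gradPairing m g g) (gradPairing m g g) / 2 := by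
    have := n2_nonneg m L
    have := En_nonneg hs.2.1
    refine le_of_pow_le_pow_left₀ two_ne_zero (by positivity) ?_
    nlinarith [sq_nonneg (2 * C * n2 m L - En m (gradPairing m g g) (gradPairing m g g) / 2)]
  have h5 := mul_le_mul_of_nonneg_left hn H.κ0
  rw [ibp_bd H.hilb hg hC hs hb hL] at h1
  simp only [mul_add, ← sq] at h1
  rw [integral_add (int_mul hL.1 huL) (int_mul hL.1 hv)] at h1
  refine ⟨hs, ?_⟩
  unfold n2 at h5
  linarith

/-- `be_weak`: `t⁻¹ (∫ η Γ(P t g) - ∫ η u) ≤ t⁻¹ (exp(2κt) - 1) ∫ η u - exp(2κt) t⁻¹ ∫ (η - P t η) u`;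
`slope_gam`, `P_form`, `gam_W0`. -/
theorem All.bochner0 (H : All m κ J P) (hg : IsWeakLaplacian m g L) (hL : IsSobolev m L) (hC0 : 0 ≤ C)
    (hC : GB m C g) (hη : IsSobolev m η) (hB : ∀ᵐ x ∂m, 0 ≤ η x ∧ η x ≤ B) :
    -(κ * ∫ x, η x * gradPairing m g g x ∂m) ≤
      -(1 / 2 * En m η (gradPairing m g g)) - ∫ x, η x * gradPairing m g L x ∂m := by
  have h1 := le_of_tendsto_of_tendsto (H.sg.P_form hη (H.gam_W0 hg hL hC0 hC).1)
    (H.bc_tend hg hL hη.1.1 (B := B) (hB.mono fun x hx => by rw [abs_of_nonneg hx.1]; exact hx.2))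
    (eventually_mem_nhdsWithin.mono fun t ht => H.bc_key ht hg.1 hC hη.1 (hB.mono fun x hx => hx.1))
  linarith

end Crest.Agent.R242.Be
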