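import Crest.Agent.R242.BeC

/-! Row 242, I-e, TASK BeD: (B1), (B2) by approximation (keep the statements; aux names `bd_*`). -/

set_option autoImplicit false
set_option linter.unusedSectionVars false
set_option linter.unusedVariables false

open MeasureTheory Filter Set
open scoped ENNReal NNReal Topology
open Crest.GeometryTopology.SyntheticRicci

noncomputable section

namespace Crest.Agent.R242.Be

variable {X : Type*} [MetricSpace X] [MeasurableSpace X] [BorelSpace X] {m : Measure X}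
  [Fact (IsFiniteOnBalls m)]
  {f g h u η L Lf Lg : X → ℝ} {A B C C' κ t : ℝ} {J P : ℝ → (X → ℝ) → X → ℝ}

theorem bd_seq : Tendsto (fun n : ℕ => 1 / ((n : ℝ) + 1)) atTop (𝓝[>] 0) :=
  tendsto_nhdsWithin_iff.2 ⟨tendsto_one_div_add_atTop_nhds_zero_nat,
    Eventually.of_forall fun n => mem_Ioi.2 Nat.one_div_pos_of_nat⟩

/-- `g n = P (1/(n+1)) u`, `Lg n = P (1/(n+1)) L` (`gen_P`, `P_reg`, `gb_P`, `P_bd`, `P_n2`, `P_sob`, `P_tendsto`,
`P_tendsto_En`) -/
theorem All.exists_apx (H : All m κ J P) (hu : IsWeakLaplacian m u L) (hC0 : 0 ≤ C) (hC : GB m C u) :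
    ∃ g Lg : ℕ → X → ℝ, Apx m u L (Real.exp (2 * κ) * C) g Lg := by
  have hp : ∀ n : ℕ, (0 : ℝ) < 1 / ((n : ℝ) + 1) := fun n => Nat.one_div_pos_of_nat
  have h1 : ∀ n : ℕ, 1 / ((n : ℝ) + 1) ≤ 1 := fun n => by
    rw [div_le_one (by positivity)]
    linarith [Nat.cast_nonneg (α := ℝ) n]
  refine ⟨fun n => P (1 / ((n : ℝ) + 1)) u, fun n => P (1 / ((n : ℝ) + 1)) L,
    fun n => H.sg.gen_P (hp n).le hu, fun n => (H.sg.P_reg (hp n) hu.2.1).1, fun n => ?_,
    fun A hA n => H.sg.P_bd (hp n).le hu.1.1 hA, fun n => H.sg.P_n2 (hp n).le hu.2.1,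
    fun n => (H.sg.P_sob _ (hp n).le u hu.1).2, (H.sg.P_tendsto hu.1.1).comp bd_seq,
    (H.sg.P_tendsto_En hu.1).comp bd_seq, (H.sg.P_tendsto hu.2.1).comp bd_seq⟩
  refine (H.gb_P (hp n).le hu.1 hC0 hC).mono (mul_le_mul_of_nonneg_right (Real.exp_le_exp.2 ?_) hC0)
  have := mul_le_mul_of_nonneg_left (h1 n) H.κ0
  linarith

/-- `gam_W0` for each `g n`, `n2_gam_sub`, `lsc` -/
theorem All.apx_gam (H : All m κ J P) (hu : IsWeakLaplacian m u L) (hC : GB m C u) (hC0 : 0 ≤ C')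
    {g Lg : ℕ → X → ℝ} (ha : Apx m u L C' g Lg) :
    IsSobolev m (gradPairing m u u) ∧ (∀ n, IsSobolev m (gradPairing m (g n) (g n))) ∧
      (∃ K : ℝ, ∀ n, En m (gradPairing m (g n) (g n)) (gradPairing m (g n) (g n)) ≤ K) ∧
      Tendsto (fun n => n2 m fun x => gradPairing m (g n) (g n) x - gradPairing m u u x) atTop (𝓝 0) := by
  have h0 := fun n => H.gam_W0 (ha.gen n) (ha.sob n) hC0 (ha.gb n)
  have hK : ∀ n, En m (gradPairing m (g n) (g n)) (gradPairing m (g n) (g n)) ≤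
      8 * C' * n2 m L + 4 * κ * C' * En m u u := fun n => by
    refine (h0 n).2.trans (add_le_add (mul_le_mul_of_nonneg_left (ha.n2_le n) (by positivity))
      (mul_le_mul_of_nonneg_left (ha.En_le n) ?_))
    have := H.κ0
    positivity
  have hT : Tendsto (fun n => n2 m fun x => gradPairing m (g n) (g n) x - gradPairing m u u x) atTop (𝓝 0) := by
    refine squeeze_zero (fun n => n2_nonneg _ _)
      (fun n => n2_gam_sub H.hilb (ha.gen n).1 hu.1 (ha.gb n) hC) ?_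
    simpa using ha.limE.const_mul (2 * C' + 2 * C)
  exact ⟨(H.sg.lsc (fun n => (h0 n).1) (memLp_gam hu.1.2.1 hC hu.1).1 hT hK).1, fun n => (h0 n).1, ⟨_, hK⟩, hT⟩

/-- (B1) -/
theorem All.gam_W (H : All m κ J P) (hu : IsWeakLaplacian m u L) (hC : GB m C u) :
    IsSobolev m (gradPairing m u u) := by
  have hC' : GB m (max C 0) u := hC.mono (le_max_left _ _)
  obtain ⟨g, Lg, ha⟩ := H.exists_apx hu (le_max_right C 0) hC'
  exact (H.apx_gam hu hC (by positivity) ha).1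

/-- `gam_polar`, `gen_add`, `gen_sub`, `gam_W` -/
theorem All.gam_W2 (H : All m κ J P) (hf : IsWeakLaplacian m f Lf) (hg : IsWeakLaplacian m g Lg) (hC : GB m C f)
    (hC' : GB m C' g) : IsSobolev m (gradPairing m f g) := by
  have h1 := H.gam_W (gen_add H.hilb hf hg) (hC.add hC' hf.1.2.1 hg.1.2.1)
  have h2 := H.gam_W (gen_sub H.hilb hf hg) (hC.sub hC' hf.1.2.1 hg.1.2.1)
  refine sob_congr (sob_sub (sob_const_mul (1 / 4) h1) (sob_const_mul (1 / 4) h2)) ?_
  filter_upwards [gam_polar hf.1.2.1 hg.1.2.1] with x hx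
  exact hx.symm

/-- (B2) `bochner0` and `ibp_gb` (`w = Lg n`) for each `g n`; limits: `SG.weak` (after `En_symm`),
`tendsto_int_mul`, `tendsto_n2_add`, `tendsto_n2_bd_mul`, `tendsto_n2_gam`, `tendsto_int_gam`. -/
theorem All.bochner (H : All m κ J P) (hu : IsWeakLaplacian m u L) (hC : GB m C u) (hh : IsSobolev m h)
    (hB : ∀ᵐ x ∂m, 0 ≤ h x ∧ h x ≤ B) (hC' : GB m C' h) :
    -(κ * ∫ x, h x * gradPairing m u u x ∂m) ≤
      -(1 / 2 * ∫ x, gradPairing m h (gradPairing m u u) x ∂m) +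
        ∫ x, L x * (h x * L x + gradPairing m h u x) ∂m := by
  have hC1 : GB m (max C 0) u := hC.mono (le_max_left _ _)
  obtain ⟨g, Lg, ha⟩ := H.exists_apx hu (le_max_right C 0) hC1
  have hC2 : 0 ≤ Real.exp (2 * κ) * max C 0 := by positivity
  obtain ⟨s1, s2, ⟨K, hK⟩, hT⟩ := H.apx_gam hu hC hC2 ha
  have hb : Bd m B h := hB.mono fun x hx => by rw [abs_of_nonneg hx.1]; exact hx.2
  have hm := sl_meas hh.2.1
  have key : ∀ n, -(κ * ∫ x, h x * gradPairing m (g n) (g n) x ∂m) ≤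
      -(1 / 2 * En m (gradPairing m (g n) (g n)) h) +
        ∫ x, Lg n x * (h x * Lg n x + gradPairing m h (g n) x) ∂m := fun n => by
    have h1 := H.bochner0 (ha.gen n) (ha.sob n) hC2 (ha.gb n) hh hB
    have h2 := ibp_gb H.hilb (ha.gen n) hh.2.1 hb hC' (ha.sob n)
    rw [En_symm hh.2.1 (s2 n).2.1, h2] at h1
    linarith
  have t1 := tendsto_int_gam H.hilb hm hb hu.1 (Eventually.of_forall fun n => (ha.gen n).1) ha.limE
  have t2 := H.sg.weak s2 s1 hh hT hK
  have mL : ∀ᶠ n in atTop, MemLp (Lg n) 2 m := Eventually.of_forall fun n => (ha.gen n).2.1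
  have m1 := memLp_bd_mul hm hb hu.2.1
  have m2 := (memLp_gam hh.2.1 hC' hu.1).1
  have m3 := fun n => memLp_bd_mul hm hb (ha.gen n).2.1
  have m4 := fun n => (memLp_gam hh.2.1 hC' (ha.gen n).1).1
  have t3 := tendsto_int_mul hu.2.1 (m1.add m2) mL (Eventually.of_forall fun n => (m3 n).add (m4 n)) ha.limL
    (tendsto_n2_add m1 m2 (Eventually.of_forall m3) (Eventually.of_forall m4)
      (tendsto_n2_bd_mul hm hb hu.2.1 mL ha.limL)
      (tendsto_n2_gam H.hilb hh.2.1 hC' hu.1 (Eventually.of_forall fun n => (ha.gen n).1) ha.limE))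
  have := le_of_tendsto_of_tendsto' (t1.const_mul κ).neg ((t2.const_mul (1 / 2)).neg.add t3) key
  rwa [En_symm s1.2.1 hh.2.1] at this

end Crest.Agent.R242.Be
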