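import Crest.Agent.R242.Defs

/-! Row 242, part I-e (helper49): interface.  `SG m J P` = resolvent and heat semigroup at the level of
functions (proved in `BeGlue.lean`); the files `Be*.lean` use only `All` and the calculus `Wug7`-`Wug10`.
Do not change the definitions. -/

set_option autoImplicit false

open MeasureTheory Filter Set
open scoped ENNReal NNReal Topology
open Crest.GeometryTopology.SyntheticRicci

noncomputable section

namespace Crest.Agent.R242.Be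

variable {X : Type*} [MetricSpace X] [MeasurableSpace X]

/-- the energy form -/
def En (m : Measure X) (u v : X → ℝ) : ℝ := ∫ x, gradPairing m u v x ∂m

/-- the squared `L²` norm -/
def n2 (m : Measure X) (f : X → ℝ) : ℝ := ∫ x, f x ^ 2 ∂m

/-- essentially bounded by `C` -/
def Bd (m : Measure X) (C : ℝ) (f : X → ℝ) : Prop := ∀ᵐ x ∂m, |f x| ≤ C

/-- squared gradient essentially bounded by `C` -/
def GB (m : Measure X) (C : ℝ) (f : X → ℝ) : Prop := ∀ᵐ x ∂m, gradPairing m f f x ≤ C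

/-- resolvent and heat semigroup at the level of functions -/
structure SG (m : Measure X) (J P : ℝ → (X → ℝ) → X → ℝ) : Prop extends Heat m J P where
  lsc : ∀ {u : ℕ → X → ℝ} {v : X → ℝ} {C : ℝ}, (∀ n, IsSobolev m (u n)) → MemLp v 2 m →
    Tendsto (fun n => n2 m fun x => u n x - v x) atTop (𝓝 0) → (∀ n, En m (u n) (u n) ≤ C) →
    IsSobolev m v ∧ En m v v ≤ C
  weak : ∀ {u : ℕ → X → ℝ} {v w : X → ℝ} {C : ℝ}, (∀ n, IsSobolev m (u n)) → IsSobolev m v → IsSobolev m w →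
    Tendsto (fun n => n2 m fun x => u n x - v x) atTop (𝓝 0) → (∀ n, En m (u n) (u n) ≤ C) →
    Tendsto (fun n => En m (u n) w) atTop (𝓝 (En m v w))
  gen_unique : ∀ {u L L' : X → ℝ}, IsWeakLaplacian m u L → IsWeakLaplacian m u L' → L =ᵐ[m] L'
  J_eq : ∀ {u L : X → ℝ} {h : ℝ}, 0 < h → IsWeakLaplacian m u L → J h (fun x => u x - h * L x) =ᵐ[m] u
  J_tendsto : ∀ {f : X → ℝ}, MemLp f 2 m → Tendsto (fun h => n2 m fun x => J h f x - f x) (𝓝[>] 0) (𝓝 0)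
  J_laplace : ∀ {h : ℝ}, 0 < h → ∀ {f z : X → ℝ}, MemLp f 2 m → MemLp z 2 m →
    IntegrableOn (fun s => h⁻¹ * Real.exp (-s / h) * ∫ x, z x * P s f x ∂m) (Ioi 0) ∧
      ∫ x, z x * J h f x ∂m = ∫ s in Ioi (0 : ℝ), h⁻¹ * Real.exp (-s / h) * ∫ x, z x * P s f x ∂m
  P_congr : ∀ (t : ℝ) {f g : X → ℝ}, f =ᵐ[m] g → P t f =ᵐ[m] P t g
  P_add : ∀ {s t : ℝ}, 0 ≤ s → 0 ≤ t → ∀ {f : X → ℝ}, MemLp f 2 m → P (s + t) f =ᵐ[m] P s (P t f)
  P_n2 : ∀ {t : ℝ}, 0 ≤ t → ∀ {f : X → ℝ}, MemLp f 2 m → n2 m (P t f) ≤ n2 m f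
  P_reg : ∀ {t : ℝ}, 0 < t → ∀ {f : X → ℝ}, MemLp f 2 m →
    IsSobolev m (P t f) ∧ 2 * t * En m (P t f) (P t f) ≤ n2 m f
  gen_P : ∀ {t : ℝ}, 0 ≤ t → ∀ {u L : X → ℝ}, IsWeakLaplacian m u L → IsWeakLaplacian m (P t u) (P t L)
  P_cont : ∀ {t : ℝ}, 0 ≤ t → ∀ {f : X → ℝ}, MemLp f 2 m →
    Tendsto (fun s => n2 m fun x => P s f x - P t f x) (𝓝[Ici 0] t) (𝓝 0)
  P_deriv : ∀ {t : ℝ}, 0 < t → ∀ {f : X → ℝ}, MemLp f 2 m → ∃ L, IsWeakLaplacian m (P t f) L ∧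
    Tendsto (fun s => n2 m fun x => (s - t)⁻¹ * (P s f x - P t f x) - L x) (𝓝[≠] t) (𝓝 0)
  P_tendsto : ∀ {f : X → ℝ}, MemLp f 2 m → Tendsto (fun t => n2 m fun x => P t f x - f x) (𝓝[>] 0) (𝓝 0)
  P_tendsto_En : ∀ {u : X → ℝ}, IsSobolev m u →
    Tendsto (fun t => En m (fun x => P t u x - u x) fun x => P t u x - u x) (𝓝[>] 0) (𝓝 0)
  P_slope : ∀ {u L : X → ℝ}, IsWeakLaplacian m u L → IsSobolev m L →
    Tendsto (fun t => En m (fun x => t⁻¹ * (P t u x - u x) - L x) fun x => t⁻¹ * (P t u x - u x) - L x)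
      (𝓝[>] 0) (𝓝 0)
  mem_of_P : ∀ {u : X → ℝ} {C : ℝ}, MemLp u 2 m →
    (∀ᶠ t in 𝓝[>] (0 : ℝ), ∫ x, (u x - P t u x) * u x ∂m ≤ C * t) → IsSobolev m u ∧ En m u u ≤ C
  P_form : ∀ {u v : X → ℝ}, IsSobolev m u → IsSobolev m v →
    Tendsto (fun t : ℝ => t⁻¹ * ∫ x, (u x - P t u x) * v x ∂m) (𝓝[>] 0) (𝓝 (En m u v))

/-- everything part I-e uses -/
structure All (m : Measure X) (κ : ℝ) (J P : ℝ → (X → ℝ) → X → ℝ) : Prop where
  κ0 : 0 ≤ κ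
  hilb : IsInfHilbertian m
  sg : SG m J P
  ge : GE m κ P
  s2l : S2L m

/-- `g n = P (1/(n+1)) u` approximates `u` with `IsWeakLaplacian m u L` and bounded gradient -/
structure Apx (m : Measure X) (u L : X → ℝ) (C : ℝ) (g Lg : ℕ → X → ℝ) : Prop where
  gen : ∀ n, IsWeakLaplacian m (g n) (Lg n)
  sob : ∀ n, IsSobolev m (Lg n)
  gb : ∀ n, GB m C (g n)
  bd : ∀ A : ℝ, Bd m A u → ∀ n, Bd m A (g n)
  n2_le : ∀ n, n2 m (Lg n) ≤ n2 m L
  En_le : ∀ n, En m (g n) (g n) ≤ En m u u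
  lim : Tendsto (fun n => n2 m fun x => g n x - u x) atTop (𝓝 0)
  limE : Tendsto (fun n => En m (fun x => g n x - u x) fun x => g n x - u x) atTop (𝓝 0)
  limL : Tendsto (fun n => n2 m fun x => Lg n x - L x) atTop (𝓝 0)

end Crest.Agent.R242.Be
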