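import Crest.Agent.R242.BeC

/-! Row 242, I-e, TASK BeE: reverse Poincaré inequality, `L^∞ → Lip` (keep the statements; aux names `be_*`). -/

set_option autoImplicit false
set_option linter.unusedSectionVars false
set_option linter.unusedVariables false

open MeasureTheory Filter Set
open scoped ENNReal NNReal Topology
open Crest.GeometryTopology.SyntheticRicci

noncomputable section

namespace Crest.Agent.R242.Be

variable {X : Type*} [MetricSpace X] [MeasurableSpace X] [BorelSpace X] {m : Measure X}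
  [Fact (IsFiniteOnBalls m)]
  {f g η : X → ℝ} {A B κ t : ℝ} {J P : ℝ → (X → ℝ) → X → ℝ}

theorem be_memLp_sq (hf : MemLp f 2 m) (hA : Bd m A f) : MemLp (fun x => f x ^ 2) 2 m := by
  simpa only [sq] using memLp_bd_mul hf.aestronglyMeasurable hA hf

theorem be_n2_sq (hf : MemLp f 2 m) (hg : MemLp g 2 m) (hA : Bd m A f) (hA' : Bd m A g) :
    (n2 m fun x => f x ^ 2 - g x ^ 2) ≤ (2 * A) ^ 2 * n2 m fun x => f x - g x := by
  have hb : Bd m (2 * A) fun x => f x + g x := by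
    filter_upwards [hA, hA'] with x h1 h2
    exact (abs_add_le _ _).trans (by linarith)
  have := n2_bd_mul (f := fun x => f x + g x) (g := fun x => f x - g x)
    (hf.aestronglyMeasurable.add hg.aestronglyMeasurable) hb (hf.sub hg)
  refine le_of_eq_of_le ?_ this
  congr 1
  funext x
  ring

/-- `L²` convergence of squares of uniformly bounded functions -/
theorem be_tendsto_sq {ι : Type*} {l : Filter ι} {G : ι → X → ℝ} (hg : MemLp g 2 m) (hA : Bd m A g)
    (hG : ∀ᶠ i in l, MemLp (G i) 2 m ∧ Bd m A (G i))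
    (h : Tendsto (fun i => n2 m fun x => G i x - g x) l (𝓝 0)) :
    Tendsto (fun i => n2 m fun x => G i x ^ 2 - g x ^ 2) l (𝓝 0) := by
  have h2 := h.const_mul ((2 * A) ^ 2)
  rw [mul_zero] at h2
  refine squeeze_zero' (Eventually.of_forall fun i => n2_nonneg _ _) ?_ h2
  filter_upwards [hG] with i hi
  exact be_n2_sq hi.1 hg hi.2 hA

/-- `tendsto_int_mul`, `P_cont`; `|a² - b²| ≤ 2 A |a - b|` (`SG.P_bd`) -/
theorem SG.sq_cont (H : SG m J P) (hf : MemLp f 2 m) (hη : MemLp η 2 m) (hA : Bd m A f) :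
    ContinuousOn (fun s => ∫ x, P s η x * P (t - s) f x ^ 2 ∂m) (Icc 0 t) := by
  intro s hs
  have hmem : ∀ᶠ r in 𝓝[Icc 0 t] s, r ∈ Icc 0 t := self_mem_nhdsWithin
  have hts : 0 ≤ t - s := sub_nonneg.2 hs.2
  have hc : Tendsto (fun r => t - r) (𝓝[Icc 0 t] s) (𝓝[Ici 0] (t - s)) := by
    refine tendsto_nhdsWithin_iff.2 ⟨?_, hmem.mono fun r hr => sub_nonneg.2 hr.2⟩
    exact ((continuous_const.sub continuous_id).tendsto s).mono_left nhdsWithin_le_nhds
  refine tendsto_int_mul (F := fun r => P r η) (G := fun r x => P (t - r) f x ^ 2) (H.P_mem s hs.1 η hη)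
    (be_memLp_sq (H.P_mem _ hts f hf) (H.P_bd hts hf hA)) (hmem.mono fun r hr => H.P_mem r hr.1 η hη)
    (hmem.mono fun r hr => be_memLp_sq (H.P_mem _ (sub_nonneg.2 hr.2) f hf) (H.P_bd (sub_nonneg.2 hr.2) hf hA))
    ((H.P_cont hs.1 hη).mono_left (nhdsWithin_mono _ Icc_subset_Ici_self)) ?_
  exact be_tendsto_sq (G := fun r => P (t - r) f) (H.P_mem _ hts f hf) (H.P_bd hts hf hA)
    (hmem.mono fun r hr => ⟨H.P_mem _ (sub_nonneg.2 hr.2) f hf, H.P_bd (sub_nonneg.2 hr.2) hf hA⟩)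
    ((H.P_cont hts hf).comp hc)

/-- testing the two equations with `v * v` and `ζ * v` -/
theorem be_test (hH : IsInfHilbertian m) {ζ v Lζ Lv : X → ℝ} (hζ : IsWeakLaplacian m ζ Lζ)
    (hv : IsWeakLaplacian m v Lv) (hA : Bd m A v) (hB : Bd m B ζ) :
    ∫ x, Lζ x * v x ^ 2 ∂m - ∫ x, Lv x * (ζ x * (v x + v x)) ∂m = 2 * ∫ x, ζ x * gradPairing m v v x ∂m := by
  have hvv : IsSobolev m fun x => v x * v x := sob_mul hv.1 hv.1 hA hA
  have hζv : IsSobolev m fun x => ζ x * v x := sob_mul hζ.1 hv.1 hB hA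
  have e1 := hζ.2.2 _ hvv
  have e2 := hv.2.2 _ hζv
  have i1 : Integrable (fun x => v x * gradPairing m v ζ x) m := int_bd_gam hv.1 hζ.1 hv.1.1.aestronglyMeasurable hA
  have i2 : Integrable (fun x => ζ x * gradPairing m v v x) m := int_bd_gam hv.1 hv.1 hζ.1.1.aestronglyMeasurable hB
  have e3 : ∫ x, gradPairing m ζ (fun x => v x * v x) x ∂m = 2 * ∫ x, v x * gradPairing m v ζ x ∂m := by
    rw [← integral_const_mul]
    refine integral_congr_ae ?_
    filter_upwards [gam_mul_right hH hv.1.2.1 hv.1.2.1 hvv.2.1 hζ.1.2.1, gam_symm hζ.1.2.1 hv.1.2.1] with x h1 h2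
    rw [h1, h2]
    ring
  have e4 : ∫ x, gradPairing m v (fun x => ζ x * v x) x ∂m =
      ∫ x, v x * gradPairing m v ζ x ∂m + ∫ x, ζ x * gradPairing m v v x ∂m := by
    rw [← integral_add i1 i2]
    exact integral_congr_ae (gam_mul_right hH hζ.1.2.1 hv.1.2.1 hζv.2.1 hv.1.2.1)
  have e5 : ∫ x, Lζ x * v x ^ 2 ∂m = ∫ x, Lζ x * (v x * v x) ∂m := by simp only [sq]
  have e6 : ∫ x, Lv x * (ζ x * (v x + v x)) ∂m = 2 * ∫ x, Lv x * (ζ x * v x) ∂m := by
    rw [← integral_const_mul]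
    exact integral_congr_ae (Eventually.of_forall fun x => by ring)
  rw [e5, e6]
  linarith

/-- With `ζ r = P r η`, `v r = P (t - r) f`:
`(ζ r v r² - ζ s v s²)/(r - s) = (ζ r - ζ s)/(r - s) * v r² + (v r - v s)/(r - s) * (ζ s (v r + v s))`; the
integrals tend to `∫ Lζ v² - 2 ∫ Lv ζ v` (`P_deriv`, `tendsto_int_mul`), and testing the two equations with
`v * v` and `ζ * v` (`sob_mul`, `gam_mul_right`) gives `2 ∫ ζ Γ v v`. `hasDerivAt_iff_tendsto_slope`. -/
theorem SG.sq_deriv (H : SG m J P) (hH : IsInfHilbertian m) (hf : MemLp f 2 m) (hη : MemLp η 2 m)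
    (hA : Bd m A f) (hB : Bd m B η) {s : ℝ} (hs : s ∈ Ioo 0 t) :
    HasDerivAt (fun s => ∫ x, P s η x * P (t - s) f x ^ 2 ∂m)
      (2 * ∫ x, P s η x * gradPairing m (P (t - s) f) (P (t - s) f) x ∂m) s := by
  have hts : 0 < t - s := sub_pos.2 hs.2
  obtain ⟨Lζ, hLζ, hζ'⟩ := H.P_deriv hs.1 hη
  obtain ⟨Lv, hLv, hv'⟩ := H.P_deriv hts hf
  have hζB : Bd m B (P s η) := H.P_bd hs.1.le hη hB
  have hvA : Bd m A (P (t - s) f) := H.P_bd hts.le hf hA
  have hζ2 : MemLp (P s η) 2 m := hLζ.1.1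
  have hv2 : MemLp (P (t - s) f) 2 m := hLv.1.1
  rw [← be_test hH hLζ hLv hvA hζB, hasDerivAt_iff_tendsto_slope]
  have hmem : ∀ᶠ r in 𝓝[≠] s, r ∈ Ioo 0 t := mem_nhdsWithin_of_mem_nhds (Ioo_mem_nhds hs.1 hs.2)
  have hc0 : Tendsto (fun r => t - r) (𝓝[≠] s) (𝓝 (t - s)) :=
    ((continuous_const.sub continuous_id).tendsto s).mono_left nhdsWithin_le_nhds
  have hc : Tendsto (fun r => t - r) (𝓝[≠] s) (𝓝[Ici 0] (t - s)) :=
    tendsto_nhdsWithin_iff.2 ⟨hc0, hmem.mono fun r hr => sub_nonneg.2 hr.2.le⟩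
  have hc' : Tendsto (fun r => t - r) (𝓝[≠] s) (𝓝[≠] (t - s)) := by
    refine tendsto_nhdsWithin_iff.2 ⟨hc0, ?_⟩
    filter_upwards [self_mem_nhdsWithin] with r hr
    exact fun h => hr (sub_right_injective h)
  have hζr : ∀ᶠ r in 𝓝[≠] s, MemLp (P r η) 2 m := hmem.mono fun r hr => H.P_mem r hr.1.le η hη
  have hvr : ∀ᶠ r in 𝓝[≠] s, MemLp (P (t - r) f) 2 m ∧ Bd m A (P (t - r) f) :=
    hmem.mono fun r hr => ⟨H.P_mem _ (sub_nonneg.2 hr.2.le) f hf, H.P_bd (sub_nonneg.2 hr.2.le) hf hA⟩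
  have hvc : Tendsto (fun r => n2 m fun x => P (t - r) f x - P (t - s) f x) (𝓝[≠] s) (𝓝 0) :=
    (H.P_cont hts.le hf).comp hc
  have m1 : ∀ᶠ r in 𝓝[≠] s, MemLp (fun x => (r - s)⁻¹ * (P r η x - P s η x)) 2 m :=
    hζr.mono fun r hr => (hr.sub hζ2).const_mul _
  have m2 : ∀ᶠ r in 𝓝[≠] s, MemLp (fun x => P (t - r) f x ^ 2) 2 m := hvr.mono fun r hr => be_memLp_sq hr.1 hr.2
  have m3 : ∀ᶠ r in 𝓝[≠] s, MemLp (fun x => (t - r - (t - s))⁻¹ * (P (t - r) f x - P (t - s) f x)) 2 m :=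
    hvr.mono fun r hr => (hr.1.sub hv2).const_mul _
  have m4' : ∀ᶠ r in 𝓝[≠] s, MemLp (fun x => P (t - r) f x + P (t - s) f x) 2 m :=
    hvr.mono fun r hr => hr.1.add hv2
  have m4 : ∀ᶠ r in 𝓝[≠] s, MemLp (fun x => P s η x * (P (t - r) f x + P (t - s) f x)) 2 m :=
    m4'.mono fun r hr => memLp_bd_mul hζ2.aestronglyMeasurable hζB hr
  have hvv : MemLp (fun x => P (t - s) f x + P (t - s) f x) 2 m := hv2.add hv2
  have t1 := tendsto_int_mul (F := fun r x => (r - s)⁻¹ * (P r η x - P s η x)) (G := fun r x => P (t - r) f x ^ 2)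
    hLζ.2.1 (be_memLp_sq hv2 hvA) m1 m2 hζ' (be_tendsto_sq (G := fun r => P (t - r) f) hv2 hvA hvr hvc)
  have t2' : Tendsto (fun r => n2 m fun x => (P (t - r) f x + P (t - s) f x) - (P (t - s) f x + P (t - s) f x))
      (𝓝[≠] s) (𝓝 0) := by simpa only [add_sub_add_right_eq_sub] using hvc
  have t2 := tendsto_int_mul (F := fun r x => (t - r - (t - s))⁻¹ * (P (t - r) f x - P (t - s) f x))
    (G := fun r x => P s η x * (P (t - r) f x + P (t - s) f x)) hLv.2.1
    (memLp_bd_mul hζ2.aestronglyMeasurable hζB hvv) m3 m4 (hv'.comp hc')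
    (tendsto_n2_bd_mul (G := fun r x => P (t - r) f x + P (t - s) f x) hζ2.aestronglyMeasurable hζB hvv m4' t2')
  refine (t1.sub t2).congr' ?_
  filter_upwards [hζr, m1, m2, m3, m4] with r k0 k1 k2 k3 k4
  rw [slope_def_module, smul_eq_mul, ← integral_sub (int_mul k1 k2) (int_mul k3 k4),
    ← integral_sub (int_mul k0 k2) (int_mul hζ2 (be_memLp_sq hv2 hvA)), ← integral_const_mul]
  refine integral_congr_ae (Eventually.of_forall fun x => ?_)
  have e : (t - r - (t - s))⁻¹ = -(r - s)⁻¹ := by rw [← inv_neg]; congr 1; ring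
  simp only [e]
  ring

/-- Reverse Poincaré inequality.  For `η` the indicator function of a set `B` of finite measure let
`c = ∫ η Γ (P t f)`.  `be_weak` for `P (t - s) f` (`gb_P`, `P_add`) gives `c ≤ exp(2κt) ∫ P s η Γ (P (t-s) f)`, so
`s ↦ ∫ P s η (P (t-s) f)² - 2 exp(-2κt) c s` is monotone on `[0,t]` (`monotoneOn_of_deriv_nonneg`); at `s = t` the
integral is `∫ η P t (f²) ≤ A² m B` (`P_zero`, `P_symm`, `SG.P_le`), at `s = 0` it is `≥ 0`.  `ae_le_of_test`. -/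
theorem All.rev_poinc_lip (H : All m κ J P) (ht : 0 < t) (hf : IsSobolev m f) {C : ℝ} (hC : GB m C f)
    (hA : Bd m A f) : GB m (Real.exp (2 * κ * t) * A ^ 2 / (2 * t)) (P t f) := by
  have hS := H.sg
  have hf2 : MemLp f 2 m := hf.1
  have hPt : IsSobolev m (P t f) := (hS.P_sob t ht.le f hf).1
  have hC' : GB m (max C 0) f := hC.mono (le_max_left _ _)
  refine ae_le_of_test (gam_integrable hPt hPt) fun S hS1 hS2 => ?_
  obtain ⟨η, hη⟩ : ∃ η : X → ℝ, η = S.indicator fun _ => (1 : ℝ) := ⟨_, rfl⟩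
  have hη2 : MemLp η 2 m := hη ▸ memLp_indicator_const 2 hS1 1 (Or.inr hS2.ne)
  have hη0 : ∀ x, 0 ≤ η x := fun x => hη ▸ Set.indicator_nonneg (fun _ _ => zero_le_one) x
  have hη1 : Bd m 1 η := Eventually.of_forall fun x => by
    rw [abs_of_nonneg (hη0 x), hη]
    exact Set.indicator_le_self' (fun _ _ => zero_le_one) x
  have hint : ∀ g : X → ℝ, ∫ x, η x * g x ∂m = ∫ x in S, g x ∂m := fun g => by
    rw [← integral_indicator hS1, hη]
    refine integral_congr_ae (Eventually.of_forall fun x => ?_)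
    by_cases hx : x ∈ S <;> simp [hx]
  obtain ⟨c, hc⟩ : ∃ c, c = ∫ x, η x * gradPairing m (P t f) (P t f) x ∂m := ⟨_, rfl⟩
  rw [← hint, ← hc]
  have hP0 : ∀ s, 0 ≤ s → ∀ᵐ x ∂m, 0 ≤ P s η x := fun s hs => hS.P_nonneg hs hη2 (Eventually.of_forall hη0)
  have key : ∀ s ∈ Ioo 0 t, Real.exp (-(2 * κ * t)) * c ≤
      ∫ x, P s η x * gradPairing m (P (t - s) f) (P (t - s) f) x ∂m := by
    intro s hs
    have hts : 0 ≤ t - s := sub_nonneg.2 hs.2.le
    have hv : IsSobolev m (P (t - s) f) := (hS.P_sob _ hts f hf).1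
    have h1 := H.be_weak hs.1.le hv (H.gb_P hts hf (le_max_right _ _) hC') hη2 (Eventually.of_forall hη0)
    have h2 : P t f =ᵐ[m] P s (P (t - s) f) := by
      have := hS.P_add hs.1.le hts hf2
      rwa [add_sub_cancel] at this
    have h3 : c = ∫ x, η x * gradPairing m (P s (P (t - s) f)) (P s (P (t - s) f)) x ∂m := by
      rw [hc]
      refine integral_congr_ae ?_
      filter_upwards [gam_congr hPt.2.1 hPt.2.1 h2 h2] with x hx
      rw [hx]
    have h4 : 0 ≤ ∫ x, P s η x * gradPairing m (P (t - s) f) (P (t - s) f) x ∂m := by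
      refine integral_nonneg_of_ae ?_
      filter_upwards [hP0 s hs.1.le, gam_self_nonneg hv.2.1] with x k1 k2
      exact mul_nonneg k1 k2
    have h5 : Real.exp (2 * κ * s) ≤ Real.exp (2 * κ * t) :=
      Real.exp_le_exp.2 (mul_le_mul_of_nonneg_left hs.2.le (mul_nonneg zero_le_two H.κ0))
    rw [← h3] at h1
    rw [Real.exp_neg, inv_mul_le_iff₀ (Real.exp_pos _)]
    exact h1.trans (mul_le_mul_of_nonneg_right h5 h4)
  have hd : ∀ s ∈ Ioo 0 t, HasDerivAt
      (fun s => ∫ x, P s η x * P (t - s) f x ^ 2 ∂m - 2 * (Real.exp (-(2 * κ * t)) * c) * s)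
      (2 * ∫ x, P s η x * gradPairing m (P (t - s) f) (P (t - s) f) x ∂m -
        2 * (Real.exp (-(2 * κ * t)) * c) * 1) s :=
    fun s hs => (hS.sq_deriv H.hilb hf2 hη2 hA hη1 hs).sub ((hasDerivAt_id s).const_mul _)
  have hmono : MonotoneOn
      (fun s => ∫ x, P s η x * P (t - s) f x ^ 2 ∂m - 2 * (Real.exp (-(2 * κ * t)) * c) * s) (Icc 0 t) := by
    refine monotoneOn_of_deriv_nonneg (convex_Icc 0 t)
      ((hS.sq_cont hf2 hη2 hA).sub (continuous_const.mul continuous_id).continuousOn) ?_ ?_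
    · rw [interior_Icc]
      exact fun s hs => (hd s hs).differentiableAt.differentiableWithinAt
    · rw [interior_Icc]
      intro s hs
      rw [(hd s hs).deriv]
      have := key s hs
      linarith
  have h0t := hmono (left_mem_Icc.2 ht.le) (right_mem_Icc.2 ht.le) ht.le
  have h0 : 0 ≤ ∫ x, P 0 η x * P (t - 0) f x ^ 2 ∂m := by
    refine integral_nonneg_of_ae ?_
    filter_upwards [hP0 0 le_rfl] with x k1
    exact mul_nonneg k1 (sq_nonneg _)
  have hsq : MemLp (fun x => f x ^ 2) 2 m := be_memLp_sq hf2 hA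
  have h1 : ∫ x, P t η x * P (t - t) f x ^ 2 ∂m ≤ A ^ 2 * m.real S := by
    have e1 : ∫ x, P t η x * P (t - t) f x ^ 2 ∂m = ∫ x, P t η x * f x ^ 2 ∂m := by
      rw [sub_self]
      refine integral_congr_ae ?_
      filter_upwards [hS.P_zero f hf2] with x hx
      rw [hx]
    have e2 : ∀ᵐ x ∂m, P t (fun x => f x ^ 2) x ≤ A ^ 2 := by
      refine hS.P_le ht.le hsq (sq_nonneg _) ?_
      filter_upwards [hA] with x hx
      exact sq_le_sq' (abs_le.1 hx).1 (abs_le.1 hx).2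
    have e3 : ∫ x, η x * A ^ 2 ∂m = A ^ 2 * m.real S := by
      rw [hint fun _ => A ^ 2, setIntegral_const, smul_eq_mul, mul_comm]
    have i3 : Integrable (fun x => η x * A ^ 2) m := by
      refine Integrable.mul_const ?_ _
      rw [hη]
      exact (integrable_indicator_iff hS1).2 (integrableOn_const hS2.ne)
    rw [e1, hS.P_symm t ht.le η _ hη2 hsq, ← e3]
    refine integral_mono_ae (int_mul hη2 (hS.P_mem t ht.le _ hsq)) i3 ?_
    filter_upwards [e2] with x hx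
    exact mul_le_mul_of_nonneg_left hx (hη0 x)
  have h2 : 2 * (Real.exp (-(2 * κ * t)) * c) * t ≤ A ^ 2 * m.real S := by
    simp only [mul_zero, sub_zero] at h0t h0
    linarith
  rw [Real.exp_neg] at h2
  have hE := Real.exp_pos (2 * κ * t)
  rw [div_mul_eq_mul_div, le_div_iff₀ (by positivity)]
  have h3 : c * (2 * t) = Real.exp (2 * κ * t) * (2 * ((Real.exp (2 * κ * t))⁻¹ * c) * t) := by
    field_simp
  rw [h3, mul_assoc (Real.exp (2 * κ * t))]
  exact mul_le_mul_of_nonneg_left h2 hE.le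

/-- `lip_dense_bd`, `P_reg` and `SG.P_sub` for the differences, `gb_of_tendsto` -/
theorem All.rev_poinc (H : All m κ J P) (ht : 0 < t) (hf : MemLp f 2 m) (hA0 : 0 ≤ A) (hA : Bd m A f) :
    GB m (Real.exp (2 * κ * t) * A ^ 2 / (2 * t)) (P t f) := by
  have hS := H.sg
  obtain ⟨F, hF, hlim⟩ := lip_dense_bd hf hA0 hA
  have hPt : IsSobolev m (P t f) := (hS.P_reg ht hf).1
  have hG : ∀ n, IsSobolev m (P t (F n)) := fun n => (hS.P_reg ht (hF n).2.1.1).1
  refine gb_of_tendsto H.hilb (G := fun n => P t (F n)) hPt (fun n => ⟨hG n, ?_⟩) ?_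
  · obtain ⟨K, hK⟩ := (hF n).1
    exact H.rev_poinc_lip ht (hF n).2.1 (gb_of_lip hK) (Eventually.of_forall (hF n).2.2)
  · have h2 := hlim.const_mul (2 * t)⁻¹
    rw [mul_zero] at h2
    refine squeeze_zero (fun n => En_nonneg (sob_sub (hG n) hPt).2.1) (fun n => ?_) h2
    have hd : MemLp (fun x => F n x - f x) 2 m := (hF n).2.1.1.sub hf
    have h3 := hS.P_reg ht hd
    have h4 := hS.P_sub ht.le (hF n).2.1.1 hf
    rw [← En_congr h3.1.2.1 h3.1.2.1 h4 h4, le_inv_mul_iff₀ (by positivity)]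
    exact h3.2

end Crest.Agent.R242.Be
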