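import Crest.Agent.R242.BeE

/-! Row 242, I-e, TASK BeF: (B4), (B6) (keep the statements; aux names `bf_*`). -/

set_option autoImplicit false
set_option linter.unusedSectionVars false
set_option linter.unusedVariables false

open MeasureTheory Filter Set
open scoped ENNReal NNReal Topology
open Crest.GeometryTopology.SyntheticRicci

noncomputable section

namespace Crest.Agent.R242.Be

variable {X : Type*} [MetricSpace X] [MeasurableSpace X] [BorelSpace X] {m : Measure X}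
  [Fact (IsFiniteOnBalls m)]
  {f g u w η L : X → ℝ} {A B κ t : ℝ} {J P : ℝ → (X → ℝ) → X → ℝ}

/-- `Real.integral_rpow_mul_exp_neg_mul_Ioi` / `integrableOn_rpow_mul_exp_neg_mul_rpow` with `a = 1/2`,
`r = 1/(2h)`; any constant `c` will do -/
theorem laplace_bound : ∃ c : ℝ, 0 < c ∧ ∀ h : ℝ, 0 < h →
    IntegrableOn (fun s : ℝ => h⁻¹ * Real.exp (-s / (2 * h)) / √(2 * s)) (Ioi 0) ∧
      ∫ s in Ioi (0 : ℝ), h⁻¹ * Real.exp (-s / (2 * h)) / √(2 * s) ≤ c / √h := by
  refine ⟨Real.Gamma (1 / 2), Real.Gamma_pos_of_pos (by norm_num), fun h hh => ?_⟩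
  have hr : 0 < 1 / (2 * h) := by positivity
  have key : EqOn (fun s : ℝ => h⁻¹ * Real.exp (-s / (2 * h)) / √(2 * s))
      (fun s : ℝ => (h⁻¹ / √2) * (s ^ ((1 / 2 : ℝ) - 1) * Real.exp (-(1 / (2 * h) * s)))) (Ioi 0) := by
    intro s hs
    have hs' : 0 < s := hs
    have h1 : s ^ ((1 / 2 : ℝ) - 1) = (√s)⁻¹ := by
      rw [Real.sqrt_eq_rpow, ← Real.rpow_neg hs'.le]; norm_num
    have h2 : -s / (2 * h) = -(1 / (2 * h) * s) := by ring
    simp only
    rw [h1, h2, Real.sqrt_mul (by norm_num : (0 : ℝ) ≤ 2)]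
    have : 0 < √s := Real.sqrt_pos.2 hs'
    have : 0 < √(2 : ℝ) := Real.sqrt_pos.2 (by norm_num)
    field_simp
  have hint : IntegrableOn (fun s : ℝ => s ^ ((1 / 2 : ℝ) - 1) * Real.exp (-(1 / (2 * h) * s))) (Ioi 0) := by
    have := integrableOn_rpow_mul_exp_neg_mul_rpow (p := 1) (s := (1 / 2 : ℝ) - 1) (b := 1 / (2 * h))
      (by norm_num) (by norm_num) hr
    refine this.congr_fun (fun s hs => ?_) measurableSet_Ioi
    simp only [Real.rpow_one, neg_mul]
  refine ⟨(IntegrableOn.congr_fun (hint.const_mul (h⁻¹ / √2)) key.symm measurableSet_Ioi), ?_⟩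
  rw [setIntegral_congr_fun measurableSet_Ioi key, integral_const_mul,
    Real.integral_rpow_mul_exp_neg_mul_Ioi (by norm_num) hr]
  have h3 : (1 / (1 / (2 * h))) ^ (1 / 2 : ℝ) = √2 * √h := by
    rw [one_div_one_div, ← Real.sqrt_eq_rpow, Real.sqrt_mul (by norm_num : (0 : ℝ) ≤ 2)]
  rw [h3]
  have h4 : 0 < √h := Real.sqrt_pos.2 hh
  have h5 : 0 < √(2 : ℝ) := Real.sqrt_pos.2 (by norm_num)
  have h6 : √h * √h = h := Real.mul_self_sqrt hh.le
  apply le_of_eq
  rw [eq_div_iff h4.ne']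
  calc h⁻¹ / √2 * (√2 * √h * Real.Gamma (1 / 2)) * √h = h⁻¹ * (√h * √h) * Real.Gamma (1 / 2) := by
        field_simp
    _ = Real.Gamma (1 / 2) := by rw [h6, inv_mul_cancel₀ hh.ne', one_mul]

theorem bf_int_lip {K : ℝ≥0} (hK : LipschitzWith K η) (hs : BddSupp η) (h01 : ∀ x, 0 ≤ η x ∧ η x ≤ 1) :
    Integrable η m := by
  obtain ⟨o, R, hR⟩ := hs
  have h1 : IntegrableOn η (Metric.ball o R) m := by
    refine Integrable.of_bound hK.continuous.aestronglyMeasurable 1 (Eventually.of_forall fun x => ?_)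
    rw [Real.norm_eq_abs, abs_of_nonneg (h01 x).1]; exact (h01 x).2
  refine (integrableOn_iff_integrable_of_support_subset (s := Metric.ball o R) fun x hx => ?_).1 h1
  by_contra hx'
  exact hx (hR x hx')

theorem bf_sqrt {a b : ℝ} (ha : 0 ≤ a) (hb : 0 ≤ b) (h : a ≤ √a * b) : a ≤ b ^ 2 := by
  have h1 : √a * √a = a := Real.mul_self_sqrt ha
  have h2 : 0 ≤ √a := Real.sqrt_nonneg a
  rcases h2.eq_or_lt with h3 | h3
  · have : a = 0 := by rw [← h1, ← h3]; simp
    rw [this]; positivity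
  · have h4 : √a ≤ b := by
      have : √a * √a ≤ √a * b := by rw [h1]; exact h
      exact le_of_mul_le_mul_left this h3
    calc a = √a * √a := h1.symm
      _ ≤ b * b := mul_le_mul h4 h4 h2 hb
      _ = b ^ 2 := by ring

theorem bf_step (H : All m κ J P) {K : ℝ≥0} (hK : LipschitzWith K η) (hs : BddSupp η)
    (h01 : ∀ x, 0 ≤ η x ∧ η x ≤ 1) (hu : IsSobolev m u) (hf : MemLp f 2 m) (hA0 : 0 ≤ A) (hA : Bd m A f)
    {s : ℝ} (hs0 : 0 < s) :
    ∫ x, η x * gradPairing m u (P s f) x ∂m ≤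
      √(∫ x, η x * gradPairing m u u x ∂m) * (Real.exp (κ * s) * A * √(∫ x, η x ∂m) / √(2 * s)) := by
  have hηm : AEStronglyMeasurable η m := hK.continuous.aestronglyMeasurable
  have hP := (H.sg.P_reg hs0 hf).1
  have h1 := int_gam_le_w (B := 1) hu hP hηm (Eventually.of_forall h01)
  have hgb := H.rev_poinc hs0 hf hA0 hA
  have hηi : Integrable η m := bf_int_lip hK hs h01
  have hB1 : Bd m 1 η := Eventually.of_forall fun x => by
    rw [abs_of_nonneg (h01 x).1]; exact (h01 x).2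
  have hI : 0 ≤ ∫ x, η x ∂m := integral_nonneg fun x => (h01 x).1
  have h2 : ∫ x, η x * gradPairing m (P s f) (P s f) x ∂m ≤
      (Real.exp (κ * s) * A * √(∫ x, η x ∂m) / √(2 * s)) ^ 2 := by
    calc ∫ x, η x * gradPairing m (P s f) (P s f) x ∂m
        ≤ ∫ x, η x * (Real.exp (2 * κ * s) * A ^ 2 / (2 * s)) ∂m := by
          refine integral_mono_ae (int_bd_gam hP hP hηm hB1) (hηi.mul_const _) ?_
          filter_upwards [hgb] with x hx
          exact mul_le_mul_of_nonneg_left hx (h01 x).1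
      _ = (∫ x, η x ∂m) * (Real.exp (2 * κ * s) * A ^ 2 / (2 * s)) := integral_mul_const _ _
      _ = (Real.exp (κ * s) * A * √(∫ x, η x ∂m) / √(2 * s)) ^ 2 := by
          rw [div_pow, mul_pow, mul_pow, Real.sq_sqrt hI, Real.sq_sqrt (by positivity), ← Real.exp_nat_mul]
          have : ((2 : ℕ) : ℝ) * (κ * s) = 2 * κ * s := by push_cast; ring
          rw [this]; ring
  refine (le_abs_self _).trans (h1.trans (mul_le_mul_of_nonneg_left ?_ (Real.sqrt_nonneg _)))
  exact Real.sqrt_le_iff.2 ⟨by positivity, h2⟩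

/-- (B4) Take `h₀ = 1/(2κ+1)`, `f = u - h L`, so `u = J h f` (`J_eq`).  For `η` Lipschitz, `BddSupp`, `0 ≤ η ≤ 1`
put `z = -(η L + Γ η u)`; `ibp_gb` says `∫ η Γ u w = ∫ z w` for all Sobolev `w`.  So `a := ∫ η Γ u u = ∫ z J h f` is
the Laplace integral (`J_laplace`) of `∫ η Γ u (P s f) ≤ √a √(exp(2κs) A²/(2s) ∫ η)` (`int_gam_le_w`, `rev_poinc`
with `|A|`), hence `a ≤ √a |A| √(∫ η) c / √h`, `a ≤ c² A²/h ∫ η`; `ae_nonneg_of_lip`. -/
theorem All.B4 (H : All m κ J P) : ∃ C h₀ : ℝ, 0 < C ∧ 0 < h₀ ∧ ∀ (h A : ℝ) (u L : X → ℝ), 0 < h → h ≤ h₀ →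
    IsWeakLaplacian m u L → (∀ᵐ x ∂m, |u x - h * L x| ≤ A) → ∀ᵐ x ∂m, gradPairing m u u x ≤ C * A ^ 2 / h := by
  obtain ⟨c, hc, hlap⟩ := laplace_bound
  have hκ := H.κ0
  refine ⟨c ^ 2, 1 / (2 * κ + 1), by positivity, by positivity, fun h A u L hh hh0 hu hA => ?_⟩
  have hκh : 2 * κ * h ≤ 1 := by
    rw [le_div_iff₀ (by positivity)] at hh0
    nlinarith
  have hf : MemLp (fun x => u x - h * L x) 2 m := hu.1.1.sub (hu.2.1.const_mul h)
  have hA' : Bd m |A| fun x => u x - h * L x := by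
    filter_upwards [hA] with x hx using hx.trans (le_abs_self _)
  have hJ := H.sg.J_eq hh hu
  suffices hs : ∀ᵐ x ∂m, 0 ≤ c ^ 2 * A ^ 2 / h - gradPairing m u u x by
    filter_upwards [hs] with x hx
    linarith
  have hΓ : Integrable (gradPairing m u u) m := gam_integrable hu.1 hu.1
  refine ae_nonneg_of_lip (fun o R => (integrable_const _).sub hΓ.integrableOn) fun η ⟨K, hK⟩ hs h01 => ?_
  have hηm : AEStronglyMeasurable η m := hK.continuous.aestronglyMeasurable
  have hηi : Integrable η m := bf_int_lip hK hs h01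
  have hB1 : Bd m 1 η := Eventually.of_forall fun x => by
    rw [abs_of_nonneg (h01 x).1]; exact (h01 x).2
  have hI : 0 ≤ ∫ x, η x ∂m := integral_nonneg fun x => (h01 x).1
  have hηs : IsSobolevLoc m η := sl_lip hK
  have hz : MemLp (fun x => -(η x * L x + gradPairing m η u x)) 2 m :=
    ((memLp_bd_mul hηm hB1 hu.2.1).add (memLp_gam hηs (gb_of_lip hK) hu.1).1).neg
  have hibp : ∀ w, IsSobolev m w → ∫ x, η x * gradPairing m u w x ∂m =
      ∫ x, (-(η x * L x + gradPairing m η u x)) * w x ∂m := by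
    intro w hw
    rw [ibp_gb H.hilb hu hηs hB1 (gb_of_lip hK) hw, ← integral_neg]
    congr 1; ext x; ring
  set a := ∫ x, η x * gradPairing m u u x ∂m with ha
  have ha0 : 0 ≤ a := by
    refine integral_nonneg_of_ae ?_
    filter_upwards [gam_self_nonneg hu.1.2.1] with x hx using mul_nonneg (h01 x).1 hx
  obtain ⟨hi1, he1⟩ := H.sg.J_laplace hh hf hz
  obtain ⟨hi2, he2⟩ := hlap h hh
  have h1 : a = ∫ x, (-(η x * L x + gradPairing m η u x)) * J h (fun x => u x - h * L x) x ∂m := by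
    rw [ha, hibp u hu.1]
    refine integral_congr_ae ?_
    filter_upwards [hJ] with x hx
    rw [hx]
  have h2 : a ≤ √a * (|A| * √(∫ x, η x ∂m) * (c / √h)) := by
    calc a = _ := h1.trans he1
      _ ≤ ∫ s in Ioi (0 : ℝ), (√a * (|A| * √(∫ x, η x ∂m))) * (h⁻¹ * Real.exp (-s / (2 * h)) / √(2 * s)) := by
          refine setIntegral_mono_on hi1 (hi2.const_mul _) measurableSet_Ioi fun s hs0 => ?_
          have hs0' : 0 < s := hs0
          rw [← hibp _ (H.sg.P_reg hs0' hf).1]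
          have h3 := bf_step H hK hs h01 hu.1 hf (abs_nonneg A) hA' hs0'
          have h4 : Real.exp (-s / h) * Real.exp (κ * s) ≤ Real.exp (-s / (2 * h)) := by
            rw [← Real.exp_add, Real.exp_le_exp]
            have h5 : κ * s ≤ s / (2 * h) := by
              rw [le_div_iff₀ (by positivity)]
              nlinarith
            have h6 : -s / h = -s / (2 * h) - s / (2 * h) := by field_simp; ring
            linarith
          calc h⁻¹ * Real.exp (-s / h) * ∫ x, η x * gradPairing m u (P s fun x => u x - h * L x) x ∂m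
              ≤ h⁻¹ * Real.exp (-s / h) * (√a * (Real.exp (κ * s) * |A| * √(∫ x, η x ∂m) / √(2 * s))) :=
                mul_le_mul_of_nonneg_left h3 (by positivity)
            _ = (√a * (|A| * √(∫ x, η x ∂m))) * (h⁻¹ * (Real.exp (-s / h) * Real.exp (κ * s)) / √(2 * s)) := by
                ring
            _ ≤ (√a * (|A| * √(∫ x, η x ∂m))) * (h⁻¹ * Real.exp (-s / (2 * h)) / √(2 * s)) := by
                gcongr
      _ = (√a * (|A| * √(∫ x, η x ∂m))) * ∫ s in Ioi (0 : ℝ), h⁻¹ * Real.exp (-s / (2 * h)) / √(2 * s) :=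
          integral_const_mul _ _
      _ ≤ (√a * (|A| * √(∫ x, η x ∂m))) * (c / √h) := mul_le_mul_of_nonneg_left he2 (by positivity)
      _ = _ := by ring
  have h3 := bf_sqrt ha0 (by positivity) h2
  rw [mul_pow, mul_pow, div_pow, sq_abs, Real.sq_sqrt hI, Real.sq_sqrt hh.le] at h3
  have h4 : ∫ x, η x * (c ^ 2 * A ^ 2 / h - gradPairing m u u x) ∂m =
      (∫ x, η x ∂m) * (c ^ 2 * A ^ 2 / h) - a := by
    rw [← integral_mul_const, ha, ← integral_sub (hηi.mul_const _) (int_bd_gam hu.1 hu.1 hηm hB1)]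
    congr 1; ext x; ring
  rw [h4]
  have h5 : (∫ x, η x ∂m) * (c ^ 2 * A ^ 2 / h) = A ^ 2 * (∫ x, η x ∂m) * (c ^ 2 / h) := by ring
  linarith

/-- `χ n` from `exists_cutoff o n`; `χ w - w = (χ - 1) w`, `gam_mul_le`, `Γ (χ - 1) ≤ 1` and `= 0` on `ball o n`
(`gam_level`); both integrands are bounded by an integrable function and vanish on `ball o n` -/
theorem cut_tendsto (hH : IsInfHilbertian m) (o : X) (hw : IsSobolev m w) :
    ∃ χ : ℕ → X → ℝ, (∀ n, LipschitzWith 1 (χ n) ∧ (∀ x, 0 ≤ χ n x ∧ χ n x ≤ 1) ∧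
        ∀ x, x ∉ Metric.ball o (n + 1) → χ n x = 0) ∧
      Tendsto (fun n => n2 m fun x => χ n x * w x - w x) atTop (𝓝 0) ∧
      Tendsto (fun n => En m (fun x => χ n x * w x - w x) fun x => χ n x * w x - w x) atTop (𝓝 0) := by
  choose χ hχ1 hχ2 hχ3 hχ4 using fun n : ℕ => exists_cutoff o (n : ℝ)
  have hev : ∀ x, ∀ᶠ n : ℕ in atTop, χ n x * w x - w x = 0 := by
    intro x
    filter_upwards [tendsto_natCast_atTop_atTop.eventually_gt_atTop (dist x o)] with n hn
    rw [hχ3 n x (Metric.mem_ball.2 hn)]; ring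
  have habs : ∀ n x, |χ n x - 1| ≤ 1 := fun n x => by
    have := hχ2 n x
    rw [abs_le]; constructor <;> linarith [this.1, this.2]
  have hlip : ∀ n, LipschitzWith 1 fun x => χ n x - 1 := fun n =>
    LipschitzWith.of_dist_le_mul fun x y => by
      have := (hχ1 n).dist_le_mul x y
      rw [Real.dist_eq] at this ⊢
      have h1 : χ n x - 1 - (χ n y - 1) = χ n x - χ n y := by ring
      rwa [h1]
  have heq : ∀ n, (fun x => χ n x * w x - w x) = fun x => (χ n x - 1) * w x := fun n => by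
    ext x; ring
  have hsob : ∀ n, IsSobolev m fun x => (χ n x - 1) * w x := fun n => sob_lip_mul (hlip n) (habs n) hw
  have hsq : ∀ n x, (χ n x - 1) ^ 2 ≤ 1 := fun n x => by
    rw [← sq_abs]; exact pow_le_one₀ (abs_nonneg _) (habs n x)
  refine ⟨χ, fun n => ⟨hχ1 n, hχ2 n, hχ4 n⟩, ?_, ?_⟩
  · have h := tendsto_integral_of_dominated_convergence (μ := m) (F := fun n x => (χ n x * w x - w x) ^ 2)
      (f := fun _ => (0 : ℝ)) (fun x => w x ^ 2) (fun n => ?_) (int_sq hw.1) (fun n => ?_) ?_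
    · simpa [n2] using h
    · have h1 : MemLp (fun x => χ n x * w x - w x) 2 m := by rw [heq n]; exact (hsob n).1
      exact (int_sq h1).aestronglyMeasurable
    · refine Eventually.of_forall fun x => ?_
      rw [Real.norm_eq_abs, abs_of_nonneg (sq_nonneg _), show χ n x * w x - w x = (χ n x - 1) * w x by ring, mul_pow]
      exact mul_le_of_le_one_left (sq_nonneg _) (hsq n x)
    · refine Eventually.of_forall fun x => tendsto_const_nhds.congr' ?_
      filter_upwards [hev x] with n hn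
      rw [hn]; simp
  · have h := tendsto_integral_of_dominated_convergence (μ := m)
      (F := fun n x => gradPairing m (fun x => χ n x * w x - w x) (fun x => χ n x * w x - w x) x)
      (f := fun _ => (0 : ℝ)) (fun x => 2 * gradPairing m w w x + 2 * w x ^ 2) (fun n => gam_meas m _ _)
      (((gam_integrable hw hw).const_mul 2).add ((int_sq hw.1).const_mul 2)) (fun n => ?_) ?_
    · simpa [En] using h
    · rw [heq n]
      filter_upwards [gam_mul_le (sl_lip (m := m) (hlip n)) hw.2.1 (hsob n).2.1, gam_self_nonneg (hsob n).2.1,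
        gam_self_nonneg hw.2.1, gb_of_lip (m := m) (hlip n)] with x h1 h2 h3 h4
      rw [Real.norm_eq_abs, abs_of_nonneg h2]
      refine h1.trans ?_
      have h5 : (χ n x - 1) ^ 2 * gradPairing m w w x ≤ gradPairing m w w x :=
        mul_le_of_le_one_left h3 (hsq n x)
      have h6 : w x ^ 2 * gradPairing m (fun x => χ n x - 1) (fun x => χ n x - 1) x ≤ w x ^ 2 :=
        mul_le_of_le_one_right (sq_nonneg _) (by simpa using h4)
      linarith
    · have hl : ∀ n, ∀ᵐ x ∂m, χ n x * w x - w x = 0 →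
          gradPairing m (fun x => χ n x * w x - w x) (fun x => χ n x * w x - w x) x = 0 := fun n => by
        have h1 : IsSobolevLoc m fun x => χ n x * w x - w x := by rw [heq n]; exact (hsob n).2.1
        exact gam_level h1 h1 0
      filter_upwards [ae_all_iff.2 hl] with x hx
      refine tendsto_const_nhds.congr' ?_
      filter_upwards [hev x] with n hn
      exact (hx n hn).symm

theorem bf_lip_mul {χ v : X → ℝ} {K : ℝ≥0} (hχ : LipschitzWith 1 χ) (h01 : ∀ x, 0 ≤ χ x ∧ χ x ≤ 1)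
    (hv : LipschitzWith K v) (hA0 : 0 ≤ A) (hA : ∀ x, 0 ≤ v x ∧ v x ≤ A) :
    LipschitzWith (K + A.toNNReal) fun x => χ x * v x := by
  refine LipschitzWith.of_dist_le_mul fun x y => ?_
  have h1 := hχ.dist_le_mul x y
  have h2 := hv.dist_le_mul x y
  rw [Real.dist_eq] at h1 h2 ⊢
  have h3 : χ x * v x - χ y * v y = χ x * (v x - v y) + v y * (χ x - χ y) := by ring
  rw [h3]
  refine (abs_add_le _ _).trans ?_
  rw [abs_mul, abs_mul, abs_of_nonneg (h01 x).1, abs_of_nonneg (hA y).1, NNReal.coe_add, Real.coe_toNNReal _ hA0,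
    add_mul]
  refine add_le_add ((mul_le_of_le_one_left (abs_nonneg _) (h01 x).2).trans h2) ?_
  exact mul_le_mul (hA y).2 (by simpa using h1) (abs_nonneg _) hA0

theorem bf_one [ProperSpace X] (H : All m κ J P) (o : X) (hη : IsSobolev m η) (hA0 : 0 ≤ A)
    (hA : ∀ᵐ x ∂m, 0 ≤ η x ∧ η x ≤ A) {ε : ℝ} (hε : 0 < ε) :
    ∃ e : X → ℝ, ((∃ K : ℝ≥0, LipschitzWith K e) ∧ HasCompactSupport e ∧ ∀ x, 0 ≤ e x ∧ e x ≤ A) ∧
      IsSobolev m e ∧ (n2 m fun x => e x - η x) ≤ 4 * ε ∧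
      En m (fun x => e x - η x) (fun x => e x - η x) ≤ 4 * ε := by
  have h1 := (H.sg.P_tendsto hη.1).eventually (eventually_le_nhds hε)
  have h2 := (H.sg.P_tendsto_En hη).eventually (eventually_le_nhds hε)
  obtain ⟨δ, hδ1, hδ2, hδ⟩ := (h1.and (h2.and self_mem_nhdsWithin)).exists
  have hδ0 : 0 < δ := hδ
  have hbd : Bd m A η := by
    filter_upwards [hA] with x hx
    rw [abs_of_nonneg hx.1]; exact hx.2
  have hP := (H.sg.P_reg hδ0 hη.1).1
  have hlip := (H.rev_poinc hδ0 hη.1 hA0 hbd).lipAE H.s2l hP.2.1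
  have hP0 := H.sg.P_nonneg hδ0.le hη.1 (hA.mono fun x hx => hx.1)
  have hP1 := H.sg.P_le hδ0.le hη.1 hA0 (hA.mono fun x hx => hx.2)
  obtain ⟨v, hv1, hv2, hv3⟩ := LipAE.exists_bd hlip hA0 (hP0.and hP1)
  have hv : IsSobolev m v := sob_congr hP hv2
  obtain ⟨χ, hχ, hc1, hc2⟩ := cut_tendsto H.hilb o hv
  obtain ⟨k, hk1, hk2⟩ := ((hc1.eventually (eventually_le_nhds hε)).and
    (hc2.eventually (eventually_le_nhds hε))).exists
  obtain ⟨hχ1, hχ2, hχ3⟩ := hχ k
  have he : IsSobolev m fun x => χ k x * v x :=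
    sob_lip_mul (C := 1) hχ1 (fun x => by rw [abs_of_nonneg (hχ2 x).1]; exact (hχ2 x).2) hv
  have hae : (fun x => (χ k x * v x - v x) + (P δ η x - η x)) =ᵐ[m] fun x => χ k x * v x - η x := by
    filter_upwards [hv2] with x hx
    rw [hx]; ring
  refine ⟨fun x => χ k x * v x, ⟨⟨_, bf_lip_mul hχ1 hχ2 hv1 hA0 hv3⟩, ?_, fun x => ?_⟩, he, ?_, ?_⟩
  · refine HasCompactSupport.intro (isCompact_closedBall o ((k : ℝ) + 1)) fun x hx => ?_
    rw [hχ3 x fun h => hx (Metric.ball_subset_closedBall h), zero_mul]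
  · exact ⟨mul_nonneg (hχ2 x).1 (hv3 x).1, (mul_le_of_le_one_left (hv3 x).1 (hχ2 x).2).trans (hv3 x).2⟩
  · rw [← n2_congr hae]
    refine (n2_add_le (sob_sub he hv).1 (sob_sub hP hη).1).trans ?_
    linarith
  · have hs := sob_add (sob_sub he hv) (sob_sub hP hη)
    rw [← En_congr hs.2.1 hs.2.1 hae hae]
    refine (En_add_le (sob_sub he hv) (sob_sub hP hη)).trans ?_
    linarith

/-- (B6) `P δ η → η` (`P_tendsto`, `P_tendsto_En`), `rev_poinc`, `GB.lipAE`, `LipAE.exists_bd`, `cut_tendsto`;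
for each `n` choose `δ` and the cut-off with both errors `≤ 1/(n+1)` (`n2_add_le`, `En_add_le`). -/
theorem All.B6 [ProperSpace X] [m.IsOpenPosMeasure] (H : All m κ J P) (η : X → ℝ) (A : ℝ) (hη : IsSobolev m η)
    (hA : ∀ᵐ x ∂m, 0 ≤ η x ∧ η x ≤ A) :
    ∃ e : ℕ → X → ℝ, (∀ n, (∃ K : ℝ≥0, LipschitzWith K (e n)) ∧ HasCompactSupport (e n) ∧
      ∀ x, 0 ≤ e n x ∧ e n x ≤ A) ∧
      Tendsto (fun n => ∫ x, (e n x - η x) ^ 2 ∂m) atTop (𝓝 0) ∧
      Tendsto (fun n => ∫ x, gradPairing m (fun y => e n y - η y) (fun y => e n y - η y) x ∂m) atTop (𝓝 0) := by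
  rcases isEmpty_or_nonempty X with hX | ⟨⟨o⟩⟩
  · refine ⟨fun _ _ => 0, fun n => ⟨⟨0, LipschitzWith.const _⟩, HasCompactSupport.zero, fun x => isEmptyElim x⟩,
      ?_, ?_⟩
    · simp only [integral_of_isEmpty]; exact tendsto_const_nhds
    · simp only [integral_of_isEmpty]; exact tendsto_const_nhds
  have hA0 : 0 ≤ A := by
    have hm : m ≠ 0 := by
      intro h
      have := isOpen_univ.measure_ne_zero m ⟨o, mem_univ o⟩
      rw [h] at this
      exact this rfl
    have : NeZero m := ⟨hm⟩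
    obtain ⟨x, hx⟩ := hA.exists
    exact hx.1.trans hx.2
  choose e he1 he2 he3 he4 using fun n : ℕ => bf_one H o hη hA0 hA (Nat.one_div_pos_of_nat (α := ℝ) (n := n))
  have hlim : Tendsto (fun n : ℕ => 4 * (1 / ((n : ℝ) + 1))) atTop (𝓝 0) := by
    simpa using (tendsto_one_div_add_atTop_nhds_zero_nat (𝕜 := ℝ)).const_mul 4
  refine ⟨e, he1, ?_, ?_⟩
  · exact squeeze_zero (fun n => n2_nonneg m fun x => e n x - η x) he3 hlim
  · exact squeeze_zero (fun n => En_nonneg (sob_sub (he2 n) hη).2.1) he4 hlim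

end Crest.Agent.R242.Be
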