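import Crest.Agent.R242.BeD
import Crest.Agent.R242.BeE

/-! Row 242, I-e, TASK BeG: good cut-off functions (keep the statements; aux names `bg_*`). -/

set_option autoImplicit false
set_option linter.unusedSectionVars false
set_option linter.unusedVariables false

open MeasureTheory Filter Set
open scoped ENNReal NNReal Topology
open Crest.GeometryTopology.SyntheticRicci

noncomputable section

namespace Crest.Agent.R242.Be

variable {X : Type*} [MetricSpace X] [MeasurableSpace X] [BorelSpace X] {m : Measure X}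
  [Fact (IsFiniteOnBalls m)]
  {κ : ℝ} {J P : ℝ → (X → ℝ) → X → ℝ}

open scoped ContDiff in
theorem bg_step {f : ℝ → ℝ} (h1 : ContDiff ℝ ∞ f)
    (h2 : ∀ s, s ∉ Icc (1 / 3 : ℝ) (2 / 3) → ∃ c, f =ᶠ[𝓝 s] fun _ => c) :
    Differentiable ℝ f ∧ ContDiff ℝ ∞ (deriv f) ∧
      (∀ s, s ∉ Icc (1 / 3 : ℝ) (2 / 3) → deriv f =ᶠ[𝓝 s] fun _ => 0) ∧ ∃ K : ℝ≥0, ∀ s, |deriv f s| ≤ K := by
  obtain ⟨hd, hc⟩ := contDiff_infty_iff_deriv.1 h1
  have h3 : ∀ s, s ∉ Icc (1 / 3 : ℝ) (2 / 3) → deriv f =ᶠ[𝓝 s] fun _ => 0 := fun s hs => by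
    obtain ⟨c, e⟩ := h2 s hs
    refine e.deriv.trans (Eventually.of_forall fun t => ?_)
    simp
  refine ⟨hd, hc, h3, ?_⟩
  obtain ⟨C, hC⟩ := (isCompact_Icc (a := (1 / 3 : ℝ)) (b := 2 / 3)).exists_bound_of_continuousOn
    hc.continuous.continuousOn
  refine ⟨C.toNNReal, fun s => ?_⟩
  by_cases hs : s ∈ Icc (1 / 3 : ℝ) (2 / 3)
  · exact (hC s hs).trans (Real.le_coe_toNNReal C)
  · rw [(h3 s hs).self_of_nhds, abs_zero]
    exact NNReal.coe_nonneg _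

theorem bg_lip {f : ℝ → ℝ} {K : ℝ≥0} (hd : Differentiable ℝ f) (h : ∀ s, |deriv f s| ≤ K) : LipschitzWith K f :=
  lipschitzWith_of_nnnorm_deriv_le hd fun s => by exact_mod_cast h s

/-- `S s = Real.smoothTransition (3 s - 1)`; the derivatives are continuous with compact support
(`S` is locally constant off `[1/3, 2/3]`), hence bounded; `lipschitzWith_of_nnnorm_deriv_le` -/
theorem exists_step : ∃ (S S' S'' : ℝ → ℝ) (K : ℝ≥0), (∀ s, HasDerivAt S (S' s) s) ∧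
    (∀ s, HasDerivAt S' (S'' s) s) ∧ LipschitzWith K S ∧ LipschitzWith K S' ∧ LipschitzWith K S'' ∧
    (∀ s, |S' s| ≤ K) ∧ (∀ s, |S'' s| ≤ K) ∧ (∀ s, 0 ≤ S s ∧ S s ≤ 1) ∧ (∀ s, s ≤ 1 / 3 → S s = 0) ∧
    ∀ s, 2 / 3 < s → S s = 1 ∧ S' s = 0 ∧ S'' s = 0 := by
  obtain ⟨S, hS⟩ : ∃ S : ℝ → ℝ, S = fun s => Real.smoothTransition (3 * s - 1) := ⟨_, rfl⟩
  have z0 : ∀ s, s ≤ 1 / 3 → S s = 0 := fun s hs => by
    rw [hS]; exact Real.smoothTransition.zero_of_nonpos (by linarith)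
  have z1 : ∀ s, 2 / 3 ≤ s → S s = 1 := fun s hs => by
    rw [hS]; exact Real.smoothTransition.one_of_one_le (by linarith)
  obtain ⟨d1, c1, e1, K1, k1⟩ := bg_step (f := S)
    (by rw [hS]; exact Real.smoothTransition.contDiff.comp (by fun_prop)) fun s hs => by
      rcases lt_or_ge s (1 / 3) with h | h
      · exact ⟨0, (eventually_lt_nhds h).mono fun t ht => z0 t ht.le⟩
      · exact ⟨1, (eventually_gt_nhds (not_le.1 fun h' => hs ⟨h, h'⟩)).mono fun t ht => z1 t ht.le⟩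
  obtain ⟨d2, c2, e2, K2, k2⟩ := bg_step c1 fun s hs => ⟨0, e1 s hs⟩
  obtain ⟨d3, -, -, K3, k3⟩ := bg_step c2 fun s hs => ⟨0, e2 s hs⟩
  have p1 := K1.coe_nonneg
  have p2 := K2.coe_nonneg
  have p3 := K3.coe_nonneg
  have b1 : ∀ s, |deriv S s| ≤ (K1 + K2 + K3 : ℝ≥0) := fun s => by push_cast; linarith [k1 s]
  have b2 : ∀ s, |deriv (deriv S) s| ≤ (K1 + K2 + K3 : ℝ≥0) := fun s => by push_cast; linarith [k2 s]
  have b3 : ∀ s, |deriv (deriv (deriv S)) s| ≤ (K1 + K2 + K3 : ℝ≥0) := fun s => by push_cast; linarith [k3 s]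
  refine ⟨S, deriv S, deriv (deriv S), K1 + K2 + K3, fun s => (d1 s).hasDerivAt, fun s => (d2 s).hasDerivAt,
    bg_lip d1 b1, bg_lip d2 b2, bg_lip d3 b3, b1, b2, fun s => ?_, z0, fun s hs => ?_⟩
  · rw [hS]
    exact ⟨Real.smoothTransition.nonneg _, Real.smoothTransition.le_one _⟩
  · have hs' : s ∉ Icc (1 / 3 : ℝ) (2 / 3) := fun h => absurd h.2 (not_le.2 hs)
    exact ⟨z1 s hs.le, (e1 s hs').self_of_nhds, (e2 s hs').self_of_nhds⟩

theorem bg_unif [ProperSpace X] [m.IsOpenPosMeasure] {ι : Type*} {l : Filter ι} {U : ι → X → ℝ} {f : X → ℝ}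
    {K K' : ℝ≥0} (hf : LipschitzWith K' f) (hf2 : MemLp f 2 m)
    (hU : ∀ᶠ i in l, LipAE m K (U i) ∧ MemLp (U i) 2 m)
    (h : Tendsto (fun i => n2 m fun x => U i x - f x) l (𝓝 0)) (o : X) (R : ℝ) {ε : ℝ} (hε : 0 < ε) :
    ∀ᶠ i in l, ∃ v, LipschitzWith K v ∧ U i =ᵐ[m] v ∧ ∀ x ∈ Metric.closedBall o R, |v x - f x| ≤ ε := by
  classical
  obtain ⟨F, hF⟩ : ∃ F : ι → X → ℝ, ∀ i, LipAE m K (U i) → LipschitzWith K (F i) ∧ U i =ᵐ[m] F i :=
    ⟨fun i => if h : LipAE m K (U i) then h.choose else 0, fun i hi => by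
      simp only [dif_pos hi]; exact hi.choose_spec⟩
  have h1 := unif_of_n2 (F := F) (hf.weaken (le_max_right K K')) hf2
    (hU.mono fun i hi => ⟨(hF i hi.1).1.weaken (le_max_left _ _), hi.2.ae_eq (hF i hi.1).2⟩)
    (h.congr' (hU.mono fun i hi => n2_congr ((hF i hi.1).2.mono fun x hx => by simp only [hx]))) o R hε
  filter_upwards [hU, h1] with i hi h2
  exact ⟨F i, (hF i hi.1).1, (hF i hi.1).2, h2⟩

/-- `g = P δ (J h ψ)`, `L = P δ ((J h ψ - ψ)/h)` (`J_gen`, `gen_P`, `P_reg`, `SG.P_bd`, `SG.J_bd`).  First `δ ≤ 1`: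
the `P δ ψ` have Lipschitz representatives with one constant (`gb_P`, `GB.lipAE`), `unif_of_n2`, `P_tendsto`.
Then `h`: for this `δ` the `P δ (J h ψ)` have Lipschitz representatives with one constant (`rev_poinc`) and tend to
`P δ ψ` (`J_tendsto`, `SG.P_sub`, `P_n2`), `unif_of_n2`.  `gen_congr`. -/
theorem All.exists_smooth [ProperSpace X] [m.IsOpenPosMeasure] (H : All m κ J P) {ψ : X → ℝ} {K₀ : ℝ≥0}
    (hψ : LipschitzWith K₀ ψ) (hs : IsSobolev m ψ) (hb : ∀ x, |ψ x| ≤ 1) (z : X) (R : ℝ) {ε : ℝ} (hε : 0 < ε) :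
    ∃ (g L : X → ℝ) (K : ℝ≥0) (C : ℝ), LipschitzWith K g ∧ IsWeakLaplacian m g L ∧ IsSobolev m L ∧ Bd m C L ∧
      ∀ x ∈ Metric.closedBall z R, |g x - ψ x| ≤ ε := by
  have hψ2 : MemLp ψ 2 m := hs.1
  have hψb : Bd m 1 ψ := Eventually.of_forall hb
  have s1 := bg_unif (l := 𝓝[>] (0 : ℝ)) (U := fun t => P t ψ)
    (K := (√(Real.exp (2 * κ) * (K₀ : ℝ) ^ 2)).toNNReal) hψ hψ2 (by
      filter_upwards [Ioc_mem_nhdsGT (zero_lt_one' ℝ)] with t ht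
      refine ⟨((H.gb_P ht.1.le hs (sq_nonneg _) (gb_of_lip hψ)).mono ?_).lipAE H.s2l
        (H.sg.P_reg ht.1 hψ2).1.2.1, H.sg.P_mem t ht.1.le ψ hψ2⟩
      refine mul_le_mul_of_nonneg_right (Real.exp_le_exp.2 ?_) (sq_nonneg _)
      exact mul_le_of_le_one_right (by linarith [H.κ0]) ht.2) (H.sg.P_tendsto hψ2) z R (half_pos hε)
  obtain ⟨δ, ⟨v, hv, ev, av⟩, hδ⟩ := (s1.and self_mem_nhdsWithin).exists
  have hδ0 : 0 < δ := hδ
  have hJ : ∀ h : ℝ, 0 < h → MemLp (J h ψ) 2 m := fun h hh => (H.sg.J_gen h hh ψ hψ2).1.1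
  have s2 := bg_unif (l := 𝓝[>] (0 : ℝ)) (U := fun h => P δ (J h ψ))
    (K := (√(Real.exp (2 * κ * δ) * 1 ^ 2 / (2 * δ))).toNNReal) hv ((H.sg.P_mem δ hδ0.le ψ hψ2).ae_eq ev) (by
      filter_upwards [self_mem_nhdsWithin] with h hh
      exact ⟨(H.rev_poinc hδ0 (hJ h hh) zero_le_one (H.sg.J_bd hh hψ2 hψb)).lipAE H.s2l
        (H.sg.P_reg hδ0 (hJ h hh)).1.2.1, H.sg.P_mem δ hδ0.le _ (hJ h hh)⟩) (by
      refine squeeze_zero' (Eventually.of_forall fun h => n2_nonneg _ _) ?_ (H.sg.J_tendsto hψ2)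
      filter_upwards [self_mem_nhdsWithin] with h hh
      refine le_trans (le_of_eq (n2_congr ?_)) (H.sg.P_n2 hδ0.le ((hJ h hh).sub hψ2))
      filter_upwards [H.sg.P_sub hδ0.le (hJ h hh) hψ2, ev] with x h1 h2
      rw [← h2]
      exact h1.symm) z R (half_pos hε)
  obtain ⟨h, ⟨g, hg, eg, ag⟩, hh⟩ := (s2.and self_mem_nhdsWithin).exists
  have hh0 : 0 < h := hh
  have gen := H.sg.J_gen h hh0 ψ hψ2
  refine ⟨g, P δ fun x => (J h ψ x - ψ x) / h, _, 2 / h, hg,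
    gen_congr (H.sg.gen_P hδ0.le gen) eg EventuallyEq.rfl, (H.sg.P_reg hδ0 gen.2.1).1,
    H.sg.P_bd hδ0.le gen.2.1 ?_, fun x hx => ?_⟩
  · filter_upwards [H.sg.J_bd hh0 hψ2 hψb] with x hx
    rw [abs_div, abs_of_pos hh0]
    refine div_le_div_of_nonneg_right ((abs_sub _ _).trans ?_) hh0.le
    linarith [hb x]
  · have := abs_sub_le (g x) (v x) (ψ x)
    linarith [av x hx, ag x hx]

theorem bg_bump (z : X) (a : ℝ) {ρ : ℝ} (hρ : 0 < ρ) : ∃ (ψ : X → ℝ) (K : ℝ≥0), LipschitzWith K ψ ∧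
    (∀ x, 0 ≤ ψ x ∧ ψ x ≤ 1) ∧ (∀ x, dist x z ≤ a → ψ x = 1) ∧ ∀ x, a + ρ ≤ dist x z → ψ x = 0 := by
  have h1 : LipschitzWith (ρ⁻¹).toNNReal fun x : X => (a + ρ - dist x z) / ρ := by
    refine LipschitzWith.of_dist_le_mul fun x y => ?_
    rw [Real.coe_toNNReal _ (inv_pos.2 hρ).le, Real.dist_eq, ← sub_div, abs_div, abs_of_pos hρ, div_eq_inv_mul,
      show a + ρ - dist x z - (a + ρ - dist y z) = -(dist x z - dist y z) by ring, abs_neg]
    exact mul_le_mul_of_nonneg_left (abs_dist_sub_le x y z) (inv_pos.2 hρ).le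
  refine ⟨fun x => max 0 (min 1 ((a + ρ - dist x z) / ρ)), _, (h1.const_min 1).const_max 0,
    fun x => ⟨le_max_left _ _, max_le zero_le_one (min_le_left _ _)⟩, fun x hx => ?_, fun x hx => ?_⟩
  · have : 1 ≤ (a + ρ - dist x z) / ρ := by rw [le_div_iff₀ hρ]; linarith
    simp only [min_eq_left this, max_eq_right zero_le_one]
  · exact max_eq_left (min_le_of_right_le (div_nonpos_of_nonpos_of_nonneg (by linarith) hρ.le))

theorem bg_mul {f g : X → ℝ} {K K' : ℝ≥0} (hf : LipschitzWith K f) (hg : LipschitzWith K' g)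
    (h1 : ∀ x, 0 ≤ f x ∧ f x ≤ 1) (h2 : ∀ x, 0 ≤ g x ∧ g x ≤ 1) : LipschitzWith (K + K') fun x => f x * g x := by
  refine LipschitzWith.of_dist_le_mul fun x y => ?_
  have a1 := hf.dist_le_mul x y
  have a2 := hg.dist_le_mul x y
  rw [Real.dist_eq] at a1 a2 ⊢
  rw [show f x * g x - f y * g y = (f x - f y) * g x + f y * (g x - g y) by ring, NNReal.coe_add, add_mul]
  refine (abs_add_le _ _).trans (add_le_add ?_ ?_)
  · rw [abs_mul, abs_of_nonneg (h2 x).1]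
    exact (mul_le_of_le_one_right (abs_nonneg _) (h2 x).2).trans a1
  · rw [abs_mul, abs_of_nonneg (h1 y).1]
    exact (mul_le_of_le_one_left (abs_nonneg _) (h1 y).2).trans a2

/-- (B5), strong form.  `ρ = (r₂ - r₁)/3`, `ψ = max 0 (min 1 ((r₁ + ρ - dist x z)/ρ))`,
`θ = max 0 (min 1 ((r₁ + 2ρ - dist x z)/ρ))`, `g` from `exists_smooth` with `R = r₂`, `ε = 1/4`;
`ζ = θ * S g`, `Lζ = θ * (S' g * L + S'' g * Γ g g)` (`gen_comp`, `gen_cut`, `gam_W`, `sob_lip_mul`). -/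
theorem All.cutoff [ProperSpace X] [m.IsOpenPosMeasure] (H : All m κ J P) (z : X) {r₁ r₂ : ℝ} (h1 : 0 < r₁)
    (h2 : r₁ < r₂) : ∃ (ζ Lζ : X → ℝ) (K : ℝ≥0) (C : ℝ), LipschitzWith K ζ ∧
      (∀ x, 0 ≤ ζ x ∧ ζ x ≤ 1) ∧ (∀ x ∈ Metric.closedBall z r₁, ζ x = 1) ∧
      (∀ x, x ∉ Metric.ball z r₂ → ζ x = 0) ∧ IsWeakLaplacian m ζ Lζ ∧ Bd m C Lζ ∧ IsSobolev m Lζ ∧
      ∀ x ∈ Metric.closedBall z r₁, Lζ x = 0 := by
  obtain ⟨S, S', S'', K, d1, d2, l0, l1, l2, b1, b2, s01, s0, s1⟩ := exists_step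
  have hρ : 0 < (r₂ - r₁) / 3 := by linarith
  obtain ⟨ψ, Kψ, ψl, ψb, ψ1, ψ0⟩ := bg_bump z r₁ hρ
  obtain ⟨θ, Kθ, θl, θb, θ1, θ0⟩ := bg_bump z (r₁ + (r₂ - r₁) / 3) hρ
  have θa : ∀ x, |θ x| ≤ 1 := fun x => by rw [abs_of_nonneg (θb x).1]; exact (θb x).2
  have ψs : IsSobolev m ψ := sob_of_supp (sl_lip ψl) (o := z) (R := r₁ + (r₂ - r₁) / 3)
    (Eventually.of_forall fun x hx => ψ0 x (not_lt.1 hx))
  obtain ⟨g, L, Kg, C, gl, gen, Ls, Lb, ga⟩ := H.exists_smooth ψl ψs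
    (fun x => by rw [abs_of_nonneg (ψb x).1]; exact (ψb x).2) z r₂ (ε := 1 / 4) (by norm_num)
  have gb := gb_of_lip (m := m) gl
  have inn : ∀ x ∈ Metric.closedBall z r₁, 2 / 3 < g x ∧ θ x = 1 := fun x hx => by
    have hx' : dist x z ≤ r₁ := hx
    have a1 := abs_le.1 (ga x (Metric.mem_closedBall.2 (by linarith)))
    rw [ψ1 x hx'] at a1
    exact ⟨by linarith [a1.1], θ1 x (by linarith)⟩
  refine ⟨fun x => θ x * S (g x), fun x => θ x * (S' (g x) * L x + S'' (g x) * gradPairing m g g x), _,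
    K * C + K * Kg ^ 2, bg_mul θl (l0.comp gl) θb fun x => s01 _,
    fun x => ⟨mul_nonneg (θb x).1 (s01 _).1, mul_le_one₀ (θb x).2 (s01 _).1 (s01 _).2⟩, fun x hx => ?_,
    fun x hx => ?_, gen_cut H.hilb θl θa
      (gen_comp H.hilb d1 d2 l2.continuous b1 b2 (s0 0 (by norm_num)) gen gb) fun x => ?_, ?_,
    sob_lip_mul θl θa (sob_add (sob_lip_mul (l1.comp gl) (fun x => b1 _) Ls)
      (sob_lip_mul (l2.comp gl) (fun x => b2 _) (H.gam_W gen gb))), fun x hx => ?_⟩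
  · show θ x * S (g x) = 1
    rw [(inn x hx).2, (s1 _ (inn x hx).1).1, mul_one]
  · have hx' : r₂ ≤ dist x z := not_lt.1 hx
    show θ x * S (g x) = 0
    rw [θ0 x (by linarith), zero_mul]
  · rcases le_total (dist x z) (r₁ + (r₂ - r₁) / 3) with h | h
    · exact Or.inr (Or.inr (θ1 x h))
    rcases le_total (dist x z) r₂ with h' | h'
    · have a1 := abs_le.1 (ga x h')
      rw [ψ0 x h] at a1
      exact Or.inl (s0 _ (by linarith [a1.2]))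
    · exact Or.inr (Or.inl (θ0 x (by linarith)))
  · filter_upwards [Lb, gb.bd gen.1.2.1] with x a1 a2
    rw [abs_mul]
    refine (mul_le_of_le_one_left (abs_nonneg _) (θa x)).trans ((abs_add_le _ _).trans (add_le_add ?_ ?_))
    · rw [abs_mul]
      exact mul_le_mul (b1 _) a1 (abs_nonneg _) K.coe_nonneg
    · rw [abs_mul]
      exact mul_le_mul (b2 _) a2 (abs_nonneg _) K.coe_nonneg
  · show θ x * (S' (g x) * L x + S'' (g x) * gradPairing m g g x) = 0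
    rw [(s1 _ (inn x hx).1).2.1, (s1 _ (inn x hx).1).2.2]
    ring

end Crest.Agent.R242.Be
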