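import Crest.Agent.R242.DfW

/-!
# R242/DfMassJ: conservation of mass for the resolvent (prefix `dfmassj_`)
-/

set_option autoImplicit false
set_option linter.unusedSectionVars false

open MeasureTheory Filter Topology Set
open scoped RealInnerProductSpace ENNReal NNReal

noncomputable section

namespace Crest.Agent.R242

variable {X : Type*} [MetricSpace X] [MeasurableSpace X] [BorelSpace X] {μ : Measure X}

/-- Lipschitz cut-off functions -/
theorem dfmassj_cut (o : X) : ∃ χ : ℕ → X → ℝ, (∀ n, LipschitzWith 1 (χ n)) ∧ (∀ n x, |χ n x| ≤ 1) ∧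
    (∀ (n : ℕ) x, x ∉ Metric.ball o n → χ n x = 0) ∧ ∀ x, ∀ᶠ n in atTop, χ n x = 1 := by
  refine ⟨fun n x => max 0 (min 1 (n - dist x o)), fun n => ?_, fun n x => ?_, fun n x hx => ?_, fun x => ?_⟩
  · simpa using (((LipschitzWith.const (n : ℝ)).sub (LipschitzWith.dist_left o)).const_min 1).const_max 0
  · rw [abs_of_nonneg (le_max_left _ _)]
    exact max_le zero_le_one (min_le_left _ _)
  · exact max_eq_left ((min_le_right _ _).trans (sub_nonpos.2 (not_lt.1 hx)))
  · filter_upwards [tendsto_natCast_atTop_atTop.eventually_ge_atTop (1 + dist x o)] with n hn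
    rw [min_eq_left (by linarith), max_eq_right zero_le_one]

theorem dfmassj_lim {F : ℕ → X → ℝ} {g b : X → ℝ} (hF : ∀ n, AEStronglyMeasurable (F n) μ) (hb : Integrable b μ)
    (h1 : ∀ n, ∀ᵐ x ∂μ, |F n x| ≤ b x) (h2 : ∀ᵐ x ∂μ, ∀ᶠ n in atTop, F n x = g x) :
    Tendsto (fun n => ∫ x, F n x ∂μ) atTop (𝓝 (∫ x, g x ∂μ)) :=
  tendsto_integral_of_dominated_convergence b hF hb h1
    (h2.mono fun _ hx => tendsto_const_nhds.congr' (hx.mono fun _ e => e.symm))

namespace DF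

variable {D : DF μ} {f : X → ℝ} {o : X} {γ h R : ℝ}

theorem dfmassj_supp (D : DF μ) (hv : Integrable (fun x => Real.exp (-γ * dist x o)) μ) (hh : 0 < h)
    (hβ : h * (‖γ / 2‖₊ : ℝ) ^ 2 < 1) (hf : MemLp f 2 μ) (h1 : Integrable f μ)
    (h0 : ∀ x, x ∉ Metric.ball o R → f x = 0) : ∫ x, D.J h f x ∂μ = ∫ x, f x ∂μ := by
  obtain ⟨χ, c1, c2, c3, c4⟩ := dfmassj_cut o
  have hψ : LipschitzWith ‖γ / 2‖₊ fun x => γ / 2 * dist x o := by
    simpa [Function.comp_def] using (lipschitzWith_smul (γ / 2)).comp (LipschitzWith.dist_left o)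
  have hu := D.J_W hh f
  have a1 := D.J_weight_grad hh hψ hβ hf (hf.of_le_mul (c := Real.exp (|γ / 2| * R))
    (hψ.continuous.rexp.aestronglyMeasurable.mul hf.1) (.of_forall fun x => by
      by_cases hx : x ∈ Metric.ball o R
      · rw [norm_mul, Real.norm_of_nonneg (Real.exp_pos _).le]
        gcongr
        exacts [le_abs_self _, (Metric.mem_ball.1 hx).le]
      · simp [h0 x hx]))
  have a2 : Integrable (fun x => √(D.Γ (D.J h f) (D.J h f) x)) μ := by
    refine (a1.add hv).mono' hu.memLp_sqrt.1 ((D.Γ_nonneg hu.s).mono fun x hx => ?_)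
    have e1 : Real.exp (γ / 2 * dist x o) * Real.exp (-(γ / 2 * dist x o)) = 1 := by simp [← Real.exp_add]
    have e2 : Real.exp (-γ * dist x o) = Real.exp (-(γ / 2 * dist x o)) ^ 2 := by
      rw [sq, ← Real.exp_add]
      ring_nf
    rw [Real.norm_of_nonneg (Real.sqrt_nonneg _), Pi.add_apply, e2, ← Real.sq_sqrt hx, Real.sqrt_sq (Real.sqrt_nonneg _)]
    nlinarith [Real.sqrt_nonneg (D.Γ (D.J h f) (D.J h f) x),
      sq_nonneg (Real.exp (γ / 2 * dist x o) * √(D.Γ (D.J h f) (D.J h f) x) - Real.exp (-(γ / 2 * dist x o)))]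
  have a3 : ∀ {g : X → ℝ}, Integrable g μ → Tendsto (fun n => ∫ x, g x * χ n x ∂μ) atTop (𝓝 (∫ x, g x ∂μ)) :=
    fun hg => dfmassj_lim (fun n => hg.1.mul (c1 n).continuous.aestronglyMeasurable) hg.abs
      (fun n => .of_forall fun x => (abs_mul _ _).trans_le (mul_le_of_le_one_right (abs_nonneg _) (c2 n x)))
      (.of_forall fun x => (c4 x).mono fun n hn => by rw [hn, mul_one])
  have a4 := dfmassj_lim (g := fun _ => 0) (fun n => D.Γ_meas (D.S_lip (c1 n)) hu.s) a2
    (fun n => by simpa using abs_Γ_lip_le (c1 n) hu.s)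
    ((ae_all_iff.2 fun n => Γ_eq_zero 1 (D.S_lip (c1 n)) hu.s).mono fun x hx => (c4 x).mono hx)
  have a5 := (a3 ((D.J_mk h).integrable hf h1).1).add (a4.const_mul h)
  rw [integral_zero, mul_zero, add_zero] at a5
  refine tendsto_nhds_unique (a5.congr fun n => ?_) (a3 h1)
  rw [← J_eq hh hf (D.W_of_lip (c1 n) (c3 n)), E_symm hu (D.W_of_lip (c1 n) (c3 n)), E]

theorem dfmassj_small (D : DF μ) (hv : Integrable (fun x => Real.exp (-γ * dist x o)) μ) (hh : 0 < h)
    (hβ : h * (‖γ / 2‖₊ : ℝ) ^ 2 < 1) (hf : MemLp f 2 μ) (h1 : Integrable f μ) :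
    ∫ x, D.J h f x ∂μ = ∫ x, f x ∂μ := by
  obtain ⟨χ, c1, c2, c3, c4⟩ := dfmassj_cut o
  have m := fun n => (c1 n).continuous.aestronglyMeasurable (μ := μ)
  have a1 := fun n => Bdd.mul_memLp ⟨1, .of_forall (c2 n)⟩ (m n) hf
  have a2 := fun n => Bdd.mul_integrable ⟨1, .of_forall (c2 n)⟩ (m n) h1
  have a3 := (dfmassj_lim (F := fun n x => |f x - χ n x * f x|) (g := fun _ => 0) (fun n => (h1.sub (a2 n)).abs.1)
    (h1.abs.const_mul 2) (fun n => .of_forall fun x => by
      rw [abs_abs, two_mul]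
      exact (abs_sub _ _).trans (add_le_add_right ((abs_mul _ _).trans_le
        (mul_le_of_le_one_left (abs_nonneg _) (c2 n x))) _))
    (.of_forall fun x => (c4 x).mono fun n hn => by simp [hn])).const_mul 2
  rw [integral_zero, mul_zero] at a3
  refine sub_eq_zero.1 (abs_nonpos_iff.1 (ge_of_tendsto' a3 fun n => ?_))
  have b1 := (abs_integral_le_integral_abs.trans ((D.J_mk h).integrable (hf.sub (a1 n)) (h1.sub (a2 n))).2 :
    |∫ x, D.J h (fun x => f x - χ n x * f x) x ∂μ| ≤ ∫ x, |f x - χ n x * f x| ∂μ)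
  have b2 : |∫ x, f x - χ n x * f x ∂μ| ≤ ∫ x, |f x - χ n x * f x| ∂μ := abs_integral_le_integral_abs
  rw [integral_congr_ae ((D.J_mk h).sub hf (a1 n)), integral_sub ((D.J_mk h).integrable hf h1).1
    ((D.J_mk h).integrable (a1 n) (a2 n)).1,
    D.dfmassj_supp hv hh hβ (a1 n) (a2 n) fun x hx => mul_eq_zero_of_left (c3 n x hx) _] at b1
  rw [integral_sub h1 (a2 n)] at b2
  rw [abs_le] at b1 b2 ⊢
  constructor <;> linarith [b1.1, b1.2, b2.1, b2.2]

theorem J_mass' (D : DF μ) (hv : Integrable (fun x => Real.exp (-γ * dist x o)) μ) (h : ℝ) (hf : MemLp f 2 μ)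
    (h1 : Integrable f μ) : ∫ x, D.J h f x ∂μ = ∫ x, f x ∂μ := by
  rcases le_or_gt h 0 with hh | hh
  · exact integral_congr_ae (D.J_nonpos hh hf)
  obtain ⟨k, hk, hβ⟩ : ∃ k : ℝ, 0 < k ∧ k * (‖γ / 2‖₊ : ℝ) ^ 2 < 1 :=
    ⟨((‖γ / 2‖₊ : ℝ) ^ 2 + 1)⁻¹, by positivity, (inv_mul_lt_one₀ (by positivity)).2 (lt_add_one _)⟩
  have a1 := (((D.J_mk h).integrable hf h1).1).const_mul (1 - k / h)
  have a2 := (integral_congr_ae (D.J_res hh hk hf)).trans (D.dfmassj_small hv hk hβ
    ((hf.const_mul _).add (((D.J_mk h).mem f).const_mul _)) ((h1.const_mul _).add a1))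
  rw [integral_add (h1.const_mul _) a1, integral_const_mul, integral_const_mul] at a2
  exact mul_left_cancel₀ (div_pos hk hh).ne' (by linarith)

end DF

end Crest.Agent.R242

end
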