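import Crest.Agent.R242.DfW
import Crest.Agent.R242.DfMassJ

/-!
# R242/DfMass: conservation of mass (prefix `dfmass_`)

`ψ = (|γ|/2) dist · o`, so `exp (-ψ) ∈ L²`.  For small `h` and `f` vanishing outside a ball test `J_eq` with
`χ R = max 0 (min 1 (2 - dist · o / R))` (`W_of_lip`): `|E u (χ R)| ≤ R⁻¹ ∫ √(Γ u u) ≤ R⁻¹ ‖e^ψ √(Γ u u)‖₂ ‖e^{-ψ}‖₂` (`J_weight_grad`).
General `f`: `f 1_{ball o n} → f` in `L¹`, `Mk.integrable`.  All `h`: `J_res`.
`P_mass`: for `f` with bounded support `g n = J^n f` has mass `∫ f`, `‖e^{ψ} g n‖₂` is bounded (`J_weight`), so tails `∫_{ballᶜ} |g n|` are uniformly small,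
and `∫_{ball} g n → ∫_{ball} P t f` (`tl2_euler`).  Alternatively: `f ≥ 0`, `t ↦ ∫ P t f` is antitone and its Laplace transform is that of a constant.
-/

set_option autoImplicit false
set_option linter.unusedSectionVars false

open MeasureTheory Filter Topology Set
open scoped RealInnerProductSpace ENNReal NNReal

noncomputable section

namespace Crest.Agent.R242

variable {X : Type*} [MetricSpace X] [MeasurableSpace X] [BorelSpace X] {μ : Measure X}

theorem dfmass_ext {T : (X → ℝ) → X → ℝ} (hT : Mk μ T) (o : X)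
    (H : ∀ (g : X → ℝ) (R : ℝ), MemLp g 2 μ → Integrable g μ → (∀ x, x ∉ Metric.ball o R → g x = 0) →
      ∫ x, T g x ∂μ = ∫ x, g x ∂μ) {f : X → ℝ} (hf : MemLp f 2 μ) (h1 : Integrable f μ) :
    ∫ x, T f x ∂μ = ∫ x, f x ∂μ := by
  obtain ⟨χ, c1, c2, c3, c4⟩ := dfmassj_cut o
  have m := fun n => (c1 n).continuous.aestronglyMeasurable (μ := μ)
  have a1 := fun n => Bdd.mul_memLp ⟨1, .of_forall (c2 n)⟩ (m n) hf
  have a2 := fun n => Bdd.mul_integrable ⟨1, .of_forall (c2 n)⟩ (m n) h1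
  have a3 := (dfmassj_lim (F := fun n x => |f x - χ n x * f x|) (g := fun _ => 0) (fun n => (h1.sub (a2 n)).abs.1)
    (h1.abs.const_mul 2) (fun n => .of_forall fun x => by
      rw [abs_abs, two_mul]
      exact (abs_sub _ _).trans (add_le_add_right ((abs_mul _ _).trans_le
        (mul_le_of_le_one_left (abs_nonneg _) (c2 n x))) _))
    (.of_forall fun x => (c4 x).mono fun n hn => by simp [hn])).const_mul 2
  rw [integral_zero, mul_zero] at a3
  refine sub_eq_zero.1 (abs_nonpos_iff.1 (ge_of_tendsto' a3 fun n => ?_))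
  have b1 := (abs_integral_le_integral_abs.trans (hT.integrable (hf.sub (a1 n)) (h1.sub (a2 n))).2 :
    |∫ x, T (fun x => f x - χ n x * f x) x ∂μ| ≤ ∫ x, |f x - χ n x * f x| ∂μ)
  have b2 : |∫ x, f x - χ n x * f x ∂μ| ≤ ∫ x, |f x - χ n x * f x| ∂μ := abs_integral_le_integral_abs
  rw [integral_congr_ae (hT.sub hf (a1 n)), integral_sub (hT.integrable hf h1).1
    (hT.integrable (a1 n) (a2 n)).1,
    H _ n (a1 n) (a2 n) fun x hx => mul_eq_zero_of_left (c3 n x hx) _] at b1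
  rw [integral_sub h1 (a2 n)] at b2
  rw [abs_le] at b1 b2 ⊢
  constructor <;> linarith [b1.1, b1.2, b2.1, b2.2]

theorem dfmass_cs {u v : X → ℝ} (hu : MemLp u 2 μ) (hv : MemLp v 2 μ) :
    |∫ x, u x * v x ∂μ| ≤ √(∫ x, u x ^ 2 ∂μ) * √(∫ x, v x ^ 2 ∂μ) := by
  have h := abs_real_inner_le_norm (cls μ u) (cls μ v)
  rwa [inner_cls hu hv, DF.dfw_norm hu, DF.dfw_norm hv] at h

namespace DF

variable {D : DF μ} {f : X → ℝ} {o : X} {γ : ℝ}

theorem J_mass (D : DF μ) (hv : Integrable (fun x => Real.exp (-γ * dist x o)) μ) (h : ℝ) (hf : MemLp f 2 μ)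
    (h1 : Integrable f μ) : ∫ x, D.J h f x ∂μ = ∫ x, f x ∂μ := by
  exact D.J_mass' hv h hf h1

theorem dfmass_iter (D : DF μ) (hv : Integrable (fun x => Real.exp (-γ * dist x o)) μ) (h : ℝ) (hf : MemLp f 2 μ)
    (h1 : Integrable f μ) (n : ℕ) :
    Integrable ((D.J h)^[n] f) μ ∧ ∫ x, (D.J h)^[n] f x ∂μ = ∫ x, f x ∂μ := by
  induction n with
  | zero => exact ⟨h1, rfl⟩
  | succ n ih =>
    rw [Function.iterate_succ_apply']
    exact ⟨((D.J_mk h).integrable (D.dfp_iter_mem h hf n) ih.1).1,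
      (D.J_mass hv h (D.dfp_iter_mem h hf n) ih.1).trans ih.2⟩

theorem dfmass_supp (D : DF μ) (hv : Integrable (fun x => Real.exp (-γ * dist x o)) μ) {t R : ℝ} (ht : 0 < t)
    (hf : MemLp f 2 μ) (h1 : Integrable f μ) (h0 : ∀ x, x ∉ Metric.ball o R → f x = 0) :
    ∫ x, D.P t f x ∂μ = ∫ x, f x ∂μ := by
  obtain ⟨χ, c1, c2, c3, c4⟩ := dfmassj_cut o
  have m := fun n => (c1 n).continuous.aestronglyMeasurable (μ := μ)
  have hψ : LipschitzWith ‖γ / 2‖₊ fun x => γ / 2 * dist x o := by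
    simpa [Function.comp_def] using (lipschitzWith_smul (γ / 2)).comp (LipschitzWith.dist_left o)
  have hw : MemLp (fun x => Real.exp (γ / 2 * dist x o) * f x) 2 μ := hf.of_le_mul (c := Real.exp (|γ / 2| * R))
    (hψ.continuous.rexp.aestronglyMeasurable.mul hf.1) (.of_forall fun x => by
      by_cases hx : x ∈ Metric.ball o R
      · rw [norm_mul, Real.norm_of_nonneg (Real.exp_pos _).le]
        gcongr
        exacts [le_abs_self _, (Metric.mem_ball.1 hx).le]
      · simp [h0 x hx])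
  set β : ℝ≥0 := ‖γ / 2‖₊
  -- uniform weighted bound
  obtain ⟨K, hK⟩ : ∃ K : ℝ, ∀ᶠ n : ℕ in atTop,
      MemLp (fun x => Real.exp (γ / 2 * dist x o) * (D.J (t / n))^[n] f x) 2 μ ∧
        ∫ x, (Real.exp (γ / 2 * dist x o) * (D.J (t / n))^[n] f x) ^ 2 ∂μ ≤ K := by
    have p0 : 0 < Real.exp (-(t * (β : ℝ) ^ 2)) ^ 2 / 2 := by positivity
    have h2 := ((Real.tendsto_one_add_div_pow_exp (-(t * (β : ℝ) ^ 2))).pow 2).eventually
      (lt_mem_nhds (half_lt_self (by positivity)))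
    have h3 := (tendsto_const_div_atTop_nhds_zero_nat (t * (β : ℝ) ^ 2)).eventually (gt_mem_nhds zero_lt_one)
    refine ⟨(Real.exp (-(t * (β : ℝ) ^ 2)) ^ 2 / 2)⁻¹ * ∫ x, (Real.exp (γ / 2 * dist x o) * f x) ^ 2 ∂μ, ?_⟩
    filter_upwards [h2, h3, eventually_gt_atTop 0] with n a1 a2 a3
    rw [mul_div_right_comm] at a2
    rw [neg_div, mul_div_right_comm, ← sub_eq_add_neg] at a1
    obtain ⟨-, a4, a5⟩ := D.dfw_iter (div_pos ht (Nat.cast_pos.2 a3)) hψ a2 hf hw n
    refine ⟨a4, (le_inv_mul_iff₀ p0).2 (le_trans ?_ a5)⟩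
    exact mul_le_mul_of_nonneg_right a1.le (integral_nonneg fun x => sq_nonneg _)
  have e2 : ∀ x, Real.exp (-γ * dist x o) = Real.exp (-(γ / 2 * dist x o)) ^ 2 := fun x => by
    rw [sq, ← Real.exp_add]
    ring_nf
  have mw : AEStronglyMeasurable (fun x => Real.exp (-(γ / 2 * dist x o))) μ :=
    hψ.continuous.neg.rexp.aestronglyMeasurable
  have hw' : MemLp (fun x => Real.exp (-(γ / 2 * dist x o))) 2 μ :=
    (memLp_two_iff_integrable_sq mw).2 (by simpa only [e2] using hv)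
  have c5 : ∀ n x, |1 - χ n x| ≤ 2 := fun n x => by
    have := abs_le.1 (c2 n x)
    exact abs_le.2 ⟨by linarith, by linarith⟩
  have hvk : ∀ k, MemLp (fun x => (1 - χ k x) * Real.exp (-(γ / 2 * dist x o))) 2 μ := fun k =>
    Bdd.mul_memLp ⟨2, .of_forall (c5 k)⟩ (aestronglyMeasurable_const.sub (m k)) hw'
  have l1 := dfmassj_lim (F := fun k x => ((1 - χ k x) * Real.exp (-(γ / 2 * dist x o))) ^ 2) (g := fun _ => 0)
    (fun k => (hvk k).integrable_sq.1) (hv.const_mul 4) (fun k => .of_forall fun x => by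
      rw [abs_of_nonneg (sq_nonneg _), mul_pow, e2]
      exact mul_le_mul_of_nonneg_right (by nlinarith [sq_abs (1 - χ k x), abs_nonneg (1 - χ k x), c5 k x])
        (sq_nonneg _))
    (.of_forall fun x => (c4 x).mono fun n hn => by simp [hn])
  rw [integral_zero] at l1
  have l2 := (l1.sqrt).const_mul √K
  rw [Real.sqrt_zero, mul_zero] at l2
  have hP := ((D.P_mk t).integrable hf h1).1
  have l3 : Tendsto (fun k => ∫ x, D.P t f x * χ k x ∂μ) atTop (𝓝 (∫ x, D.P t f x ∂μ)) :=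
    dfmassj_lim (fun n => hP.1.mul (m n)) hP.abs
      (fun n => .of_forall fun x => (abs_mul _ _).trans_le (mul_le_of_le_one_right (abs_nonneg _) (c2 n x)))
      (.of_forall fun x => (c4 x).mono fun n hn => by rw [hn, mul_one])
  have l4 := ((tendsto_const_nhds (x := ∫ x, f x ∂μ)).sub l3).abs
  refine (sub_eq_zero.1 (abs_nonpos_iff.1 (le_of_tendsto_of_tendsto' l4 l2 fun k => ?_))).symm
  have hχ : MemLp (χ k) 2 μ := (D.W_of_lip (c1 k) (c3 k)).mem
  have l5 := ((tendsto_const_nhds (x := ∫ x, f x ∂μ)).sub ((D.tl2_euler t hf).integral_mul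
    (.of_forall fun n => D.dfp_iter_mem _ hf n) (D.dfp_mem t f) hχ)).abs
  refine le_of_tendsto l5 (hK.mono fun n hn => ?_)
  obtain ⟨i1, i2⟩ := D.dfmass_iter hv (t / n) hf h1 n
  have i3 := dfmass_cs hn.1 (hvk k)
  have i4 : ∀ x, Real.exp (γ / 2 * dist x o) * (D.J (t / n))^[n] f x * ((1 - χ k x) * Real.exp (-(γ / 2 * dist x o))) =
      (D.J (t / n))^[n] f x - (D.J (t / n))^[n] f x * χ k x := fun x => by
    rw [Real.exp_neg]
    field_simp
  simp only [i4] at i3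
  have i5 : Integrable (fun x => (D.J (t / n))^[n] f x * χ k x) μ := (D.dfp_iter_mem _ hf n).integrable_mul hχ
  rw [integral_sub i1 i5, i2] at i3
  exact i3.trans (mul_le_mul_of_nonneg_right (Real.sqrt_le_sqrt hn.2) (Real.sqrt_nonneg _))

theorem P_mass (D : DF μ) (hv : Integrable (fun x => Real.exp (-γ * dist x o)) μ) (t : ℝ) (hf : MemLp f 2 μ)
    (h1 : Integrable f μ) : ∫ x, D.P t f x ∂μ = ∫ x, f x ∂μ := by
  rcases le_or_gt t 0 with ht | ht
  · exact integral_congr_ae (D.P_nonpos ht hf)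
  exact dfmass_ext (D.P_mk t) o (fun g R a b c => D.dfmass_supp hv ht a b c) hf h1

end DF

end Crest.Agent.R242

end
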