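import Crest.Agent.R242.WugDF
import Crest.Agent.R242.DfMass

/-!
# R242/DfHeat: the interface `Heat` (helper62)
-/

set_option autoImplicit false
set_option linter.unusedSectionVars false

open MeasureTheory Filter Topology Set
open scoped RealInnerProductSpace ENNReal NNReal

noncomputable section

namespace Crest.Agent.R242

variable {X : Type*} [MetricSpace X] [MeasurableSpace X] [BorelSpace X] {μ : Measure X}

open Crest.GeometryTopology.SyntheticRicci

variable {m : Measure X} [hfin : Fact (IsFiniteOnBalls m)]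

theorem heat_of_growth (hH : IsInfHilbertian m) {o : X} {γ : ℝ}
    (hv : Integrable (fun x => Real.exp (-γ * dist x o)) m) : Heat m (dfOf hH).J (dfOf hH).P where
  J_gen _ hh _ hf := dfOf_Gen.1 ((dfOf hH).gen_J hh hf)
  J_markov h _ _ _ hf hg _ hc H := ((dfOf hH).J_mk h).le_add hf hg hc H
  J_lin h _ _ _ hf hg a b := ((dfOf hH).J_mk h).lin hf hg a b
  J_mass h _ _ hf h1 := ⟨(((dfOf hH).J_mk h).integrable hf h1).1, (dfOf hH).J_mass hv h hf h1⟩
  J_gaffney _ hh _ _ hψ hβ _ hf hw := (dfOf hH).J_weight hh hψ hβ hf hw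
  euler t _ _ hf := (dfOf hH).tl2_euler t hf
  P_mem t _ f _ := ((dfOf hH).P_mk t).mem f
  P_zero _ hf := (dfOf hH).P_nonpos le_rfl hf
  P_markov t _ _ _ hf hg _ hc H := ((dfOf hH).P_mk t).le_add hf hg hc H
  P_lin t _ _ _ hf hg a b := ((dfOf hH).P_mk t).lin hf hg a b
  P_symm t _ _ _ hf hg := ((dfOf hH).P_mk t).symm hf hg
  P_contr t _ f _ := ((dfOf hH).P_mk t).contr f
  P_mass t _ _ hf h1 := ⟨(((dfOf hH).P_mk t).integrable hf h1).1, (dfOf hH).P_mass hv t hf h1⟩
  P_gaffney _ ht _ _ hψ _ hf hw := (dfOf hH).P_weight ht hψ hf hw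
  P_sob t _ _ hu := ⟨dfOf_W.1 (DF.E_P_le (dfOf_W.2 hu) t).1, (DF.E_P_le (D := dfOf hH) (dfOf_W.2 hu) t).2⟩

theorem heat_of_sp [Nonempty X] {κ γ : ℝ} (h : Sp m κ γ) : Heat m (dfOf h.hilb).J (dfOf h.hilb).P :=
  heat_of_growth h.hilb (h.growth (Classical.arbitrary X))

end Crest.Agent.R242

end
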