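import Crest.Agent.R242.DfP

/-!
# R242/DfQa: auxiliary lemmas for `DfQ` (energy through the semigroup, Laplace formula against `L¹`)
-/

set_option autoImplicit false
set_option linter.unusedSectionVars false

open MeasureTheory Filter Topology Set
open scoped RealInnerProductSpace ENNReal NNReal

noncomputable section

namespace Crest.Agent.R242

namespace Frm

variable {H : Type*} [NormedAddCommGroup H] [InnerProductSpace ℝ H] [CompleteSpace H] {F : Frm H} {u v : H}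

theorem dfq_cont (F : Frm H) (u v : H) : Continuous fun t => ⟪u - F.P t u, v⟫ :=
  (continuous_const.sub (F.isSG.cont u)).inner continuous_const

theorem dfq_der (F : Frm H) (u v : H) {t : ℝ} (ht : 0 < t) :
    HasDerivAt (fun t => ⟪u - F.P t u, v⟫) (-⟪F.L (F.P t u), v⟫) t := by
  have h := ((F.hasDerivAt_P ht u).const_sub u).inner ℝ (hasDerivAt_const t v)
  simpa using h

theorem dfq_tendsto0 (F : Frm H) (u : H) : Tendsto (fun t => F.P t u) (𝓝 0) (𝓝 u) := by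
  have h := (F.isSG.cont u).tendsto 0
  rwa [F.dfa4_zero] at h

theorem dfq_tendsto (hu : u ∈ F.V) (hv : v ∈ F.V) :
    Tendsto (fun t => ⟪u - F.P t u, v⟫ / t) (𝓝[>] 0) (𝓝 (F.E u v)) := by
  have h1 : Tendsto (fun t => F.E (F.P t u) v) (𝓝[>] 0) (𝓝 (F.E u v)) :=
    (tendsto_E_weak (F.dfq_tendsto0 u) hu (Eventually.of_forall fun t => E_P_le hu t) hv).mono_left
      nhdsWithin_le_nhds
  have h2 : HasDerivWithinAt (fun t => ⟪u - F.P t u, v⟫) (F.E u v) (Ici 0) 0 := by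
    refine hasDerivWithinAt_Ici_of_tendsto_deriv (s := Ioi 0)
      (fun t ht => (F.dfq_der u v ht).differentiableAt.differentiableWithinAt)
      (F.dfq_cont u v).continuousWithinAt self_mem_nhdsWithin (h1.congr' ?_)
    filter_upwards [self_mem_nhdsWithin] with t ht
    rw [(F.dfq_der u v ht).deriv, (F.gen_P ht u).1.2 v hv]
  have h3 := (hasDerivWithinAt_iff_tendsto_slope' (s := Ioi (0 : ℝ)) (by simp)).1
    (h2.mono Ioi_subset_Ici_self)
  refine h3.congr fun t => ?_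
  rw [slope_def_field, F.dfa4_zero, sub_self, inner_zero_left, sub_zero, sub_zero]

theorem dfq_half (F : Frm H) (u : H) {s : ℝ} (hs : 0 < s) :
    -⟪F.L (F.P s u), u⟫ = F.E (F.P (s / 2) u) (F.P (s / 2) u) := by
  have h2 : 0 < s / 2 := by linarith
  have h1 := F.L_P_add h2.le h2 u
  rw [add_halves] at h1
  rw [h1, F.isSG.symm, (F.gen_P h2 u).1.2 _ (F.gen_P h2 u).1.1]

theorem dfq_key (F : Frm H) (u : H) {t : ℝ} (ht : 0 < t) :
    t * F.E (F.P (t / 2) u) (F.P (t / 2) u) ≤ ⟪u - F.P t u, u⟫ := by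
  obtain ⟨c, hc, e⟩ := exists_hasDerivAt_eq_slope (fun t => ⟪u - F.P t u, u⟫)
    (fun t => -⟪F.L (F.P t u), u⟫) ht (F.dfq_cont u u).continuousOn fun s hs => F.dfq_der u u hs.1
  rw [F.dfq_half u hc.1, F.dfa4_zero, sub_self, inner_zero_left, sub_zero, sub_zero, eq_div_iff ht.ne'] at e
  have h2 : 0 < c / 2 := by linarith [hc.1]
  have h1 := (E_P_le (F.gen_P h2 u).1.1 (t / 2 - c / 2)).2
  rw [← F.isSG.add _ _ (by linarith [hc.2]) h2.le, sub_add_cancel] at h1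
  rw [← e, mul_comm]
  exact mul_le_mul_of_nonneg_right h1 ht.le

theorem dfq_mem {C : ℝ} (hC : ∃ᶠ t in 𝓝[>] (0 : ℝ), ⟪u - F.P t u, u⟫ ≤ C * t) : u ∈ F.V ∧ F.E u u ≤ C := by
  have hne := frequently_iff_neBot.1 hC
  have h0 : Tendsto (fun t : ℝ => t / 2) (𝓝 0) (𝓝 0) := by
    simpa using (continuous_id.div_const (2 : ℝ)).tendsto (0 : ℝ)
  refine lsc (l := 𝓝[>] (0 : ℝ) ⊓ 𝓟 {t | ⟪u - F.P t u, u⟫ ≤ C * t}) (x := fun t => F.P (t / 2) u)
    (((F.dfq_tendsto0 u).comp h0).mono_left (inf_le_left.trans nhdsWithin_le_nhds)) ?_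
  refine eventually_inf_principal.2 ?_
  filter_upwards [self_mem_nhdsWithin] with t ht h
  have ht' : (0 : ℝ) < t := ht
  refine ⟨(F.gen_P (by linarith) u).1.1, ?_⟩
  have h1 := (F.dfq_key u ht').trans h
  rw [mul_comm C] at h1
  exact le_of_mul_le_mul_left h1 ht'

end Frm

variable {X : Type*} [MetricSpace X] [MeasurableSpace X] [BorelSpace X] {μ : Measure X}

theorem dfq_trunc {w : X → ℝ} (hw : Integrable w μ) : ∃ W : ℕ → X → ℝ,
    (∀ n, MemLp (W n) 2 μ ∧ ∀ x, |W n x| ≤ |w x|) ∧ ∀ x, Tendsto (fun n => W n x) atTop (𝓝 (w x)) := by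
  have hle : ∀ (n : ℕ) (r : ℝ), |max (-(n : ℝ)) (min n r)| ≤ |r| ∧ |max (-(n : ℝ)) (min n r)| ≤ n := by
    intro n r
    have h0 : (0 : ℝ) ≤ n := Nat.cast_nonneg n
    have h1 := le_abs_self r
    have h2 := neg_abs_le r
    have h3 := abs_nonneg r
    refine ⟨abs_le.2 ⟨le_max_of_le_right (le_min (by linarith) h2), max_le (by linarith) (min_le_of_right_le h1)⟩,
      abs_le.2 ⟨le_max_left _ _, max_le (by linarith) (min_le_left _ _)⟩⟩
  refine ⟨fun n x => max (-(n : ℝ)) (min n (w x)), fun n => ⟨?_, fun x => (hle n _).1⟩, fun x => ?_⟩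
  · have hc : Continuous fun r : ℝ => max (-(n : ℝ)) (min n r) := by fun_prop
    exact Bdd.memLp_of_integrable ⟨n, Eventually.of_forall fun x => (hle n _).2⟩
      (hw.mono (hc.comp_aestronglyMeasurable hw.1) (Eventually.of_forall fun x => (hle n _).1))
  · refine tendsto_const_nhds.congr' ?_
    filter_upwards [tendsto_natCast_atTop_atTop.eventually_ge_atTop |w x|] with n hn
    rw [min_eq_right ((le_abs_self _).trans hn), max_eq_right (by linarith [neg_abs_le (w x)])]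

theorem dfq_abs_le {f w W : X → ℝ} {A : ℝ} (hA : ∀ᵐ x ∂μ, |f x| ≤ A)
    (hW : ∀ x, |W x| ≤ |w x|) : ∀ᵐ x ∂μ, ‖f x * W x‖ ≤ A * |w x| := by
  filter_upwards [hA] with x hx
  rw [Real.norm_eq_abs, abs_mul]
  exact mul_le_mul hx (hW x) (abs_nonneg _) ((abs_nonneg _).trans hx)

theorem dfq_int_le {f w W : X → ℝ} {A : ℝ} (hw : Integrable w μ) (hA : ∀ᵐ x ∂μ, |f x| ≤ A)
    (hW : ∀ x, |W x| ≤ |w x|) : ‖∫ x, f x * W x ∂μ‖ ≤ ∫ x, A * |w x| ∂μ :=
  norm_integral_le_of_norm_le (hw.abs.const_mul A) (dfq_abs_le hA hW)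

theorem dfq_dct {f w : X → ℝ} {W : ℕ → X → ℝ} {A : ℝ} (hw : Integrable w μ) (hf : AEStronglyMeasurable f μ)
    (hA : ∀ᵐ x ∂μ, |f x| ≤ A) (hW : ∀ n, MemLp (W n) 2 μ ∧ ∀ x, |W n x| ≤ |w x|)
    (hl : ∀ x, Tendsto (fun n => W n x) atTop (𝓝 (w x))) :
    Tendsto (fun n => ∫ x, f x * W n x ∂μ) atTop (𝓝 (∫ x, f x * w x ∂μ)) :=
  tendsto_integral_of_dominated_convergence (fun x => A * |w x|) (fun n => hf.mul (hW n).1.1)
    (hw.abs.const_mul A) (fun n => dfq_abs_le hA (hW n).2)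
    (Eventually.of_forall fun x => (hl x).const_mul _)

namespace DF

variable {D : DF μ} {u v w η : X → ℝ} {h : ℝ}

theorem dfq_inner (D : DF μ) (hu : MemLp u 2 μ) (hv : MemLp v 2 μ) (t : ℝ) :
    ⟪cls μ u - D.frm.P t (cls μ u), cls μ v⟫ = ∫ x, (u x - D.P t u x) * v x ∂μ := by
  rw [← cls_P, ← cls_sub hu ((D.P_mk t).mem u)]
  exact inner_cls (hu.sub ((D.P_mk t).mem u)) hv

theorem dfq_tendsto_sub_P (hu : D.W u) (hv : D.W v) :
    Tendsto (fun t => (∫ x, (u x - D.P t u x) * v x ∂μ) / t) (𝓝[>] 0) (𝓝 (D.E u v)) := by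
  have h := Frm.dfq_tendsto hu.cls hv.cls
  simp only [D.dfq_inner hu.mem hv.mem] at h
  rwa [E_cls hu hv] at h

theorem dfq_W_of_P {C : ℝ} (hu : MemLp u 2 μ)
    (hC : ∃ᶠ t in 𝓝[>] (0 : ℝ), ∫ x, (u x - D.P t u x) * u x ∂μ ≤ C * t) : D.W u ∧ D.E u u ≤ C := by
  simp only [← D.dfq_inner hu hu] at hC
  have h := Frm.dfq_mem hC
  have hW := (cls_mem_V hu).1 h.1
  exact ⟨hW, E_cls hW hW ▸ h.2⟩

theorem dfq_J_laplace_bdd (hh : 0 < h) (hη : MemLp η 2 μ) (hb : Bdd μ η) (hw : Integrable w μ) :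
    IntegrableOn (fun s => h⁻¹ * Real.exp (-s / h) * ∫ x, D.P s η x * w x ∂μ) (Ioi 0) ∧
      ∫ x, D.J h η x * w x ∂μ = ∫ s in Ioi (0 : ℝ), h⁻¹ * Real.exp (-s / h) * ∫ x, D.P s η x * w x ∂μ := by
  have hcont := continuous_P_bdd (D := D) hη hb hw
  obtain ⟨A0, hA0⟩ := hb
  have hA : ∀ᵐ x ∂μ, |η x| ≤ max A0 0 := hA0.mono fun x hx => le_max_of_le_left hx
  have hP := fun s => (D.P_mk s).abs_le_const hη (le_max_right _ _) hA
  have hJ := (D.J_mk h).abs_le_const hη (le_max_right _ _) hA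
  obtain ⟨W, hW, hl⟩ := dfq_trunc hw
  have he : Continuous fun s : ℝ => h⁻¹ * Real.exp (-s / h) := by fun_prop
  have hbd : IntegrableOn (fun s : ℝ => h⁻¹ * Real.exp (-s / h) * ∫ x, max A0 0 * |w x| ∂μ) (Ioi 0) := by
    refine (Integrable.const_mul ?_ _).mul_const _
    refine (exp_neg_integrableOn_Ioi 0 (inv_pos.2 hh)).congr_fun (fun s _ => ?_) measurableSet_Ioi
    show Real.exp (-h⁻¹ * s) = Real.exp (-s / h)
    congr 1
    ring
  have hle : ∀ V : X → ℝ, (∀ x, |V x| ≤ |w x|) → ∀ s : ℝ,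
      ‖h⁻¹ * Real.exp (-s / h) * ∫ x, D.P s η x * V x ∂μ‖ ≤
        h⁻¹ * Real.exp (-s / h) * ∫ x, max A0 0 * |w x| ∂μ := by
    intro V hV s
    have h0 : 0 ≤ h⁻¹ * Real.exp (-s / h) := by positivity
    rw [norm_mul, Real.norm_of_nonneg h0]
    exact mul_le_mul_of_nonneg_left (dfq_int_le hw (hP s) hV) h0
  refine ⟨hbd.mono' (he.mul hcont).aestronglyMeasurable
    (Eventually.of_forall (hle w fun _ => le_rfl)), ?_⟩
  have t1 := dfq_dct hw ((D.J_mk h).mem η).1 hJ hW hl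
  have t2 := tendsto_integral_of_dominated_convergence (μ := volume.restrict (Ioi (0 : ℝ)))
    (F := fun n s => h⁻¹ * Real.exp (-s / h) * ∫ x, D.P s η x * W n x ∂μ)
    (f := fun s => h⁻¹ * Real.exp (-s / h) * ∫ x, D.P s η x * w x ∂μ) _
    (fun n => (he.mul (D.continuous_P η (hW n).1)).aestronglyMeasurable) hbd
    (fun n => Eventually.of_forall (hle _ (hW n).2))
    (Eventually.of_forall fun s => (dfq_dct hw ((D.P_mk s).mem η).1 (hP s) hW hl).const_mul _)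
  exact tendsto_nhds_unique t1 (t2.congr fun n => (D.J_laplace hh hη (hW n).1).2.symm)

end DF

end Crest.Agent.R242

end
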