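import Crest.Agent.R242.DfP
import Crest.Agent.R242.DfQa

/-!
# R242/DfQ: energy through the semigroup, comparison, `L^∞` bounds (prefix `dfq_`)

`tendsto_sub_P`: `t ↦ ⟪P t u, v⟫` has the derivative `-E (P t u) v` for `t > 0`, continuous at `0` (`tendsto_E_P`, `E_sq_le`); mean value theorem or l'Hôpital
(`hasDerivWithinAt_Ici_of_tendsto_deriv`).  `W_of_P`: `t ↦ E (P t u)` is antitone, `⟪u - P t u, u⟫ = ∫₀ᵗ E (P (s/2) u) ≥ t E (P (t/2) u)`, `lsc` along the filter `𝓝[>] 0 ⊓ 𝓟 _`.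
`Gen.abs_P_sub_le`, `Gen.P_le`: test with `k ≥ 0` in `L¹ ∩ L²` (indicators of sets of finite measure, `ae_le_of_forall_setIntegral_le` or
`ae_nonneg_of_forall_setIntegral_nonneg_of_sigmaFinite`, `sigmaFinite`) and use a scalar monotonicity argument; or use the closed convex sets and `J`.
`Gen.P_le`: `s ↦ exp (-c s) (P s w + a)` decreases: `P s (g - c w) ≤ c a`.
-/

set_option autoImplicit false
set_option linter.unusedSectionVars false

open MeasureTheory Filter Topology Set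
open scoped RealInnerProductSpace ENNReal NNReal

noncomputable section

namespace Crest.Agent.R242

variable {X : Type*} [MetricSpace X] [MeasurableSpace X] [BorelSpace X] {μ : Measure X}

namespace DF

variable {D : DF μ} {u v w f g k η : X → ℝ} {h s t : ℝ}

theorem tendsto_sub_P (hu : D.W u) (hv : D.W v) :
    Tendsto (fun t => (∫ x, (u x - D.P t u x) * v x ∂μ) / t) (𝓝[>] 0) (𝓝 (D.E u v)) :=
  dfq_tendsto_sub_P hu hv

theorem W_of_P {C : ℝ} (hu : MemLp u 2 μ) (hC : ∃ᶠ t in 𝓝[>] (0 : ℝ), ∫ x, (u x - D.P t u x) * u x ∂μ ≤ C * t) :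
    D.W u ∧ D.E u u ≤ C :=
  dfq_W_of_P hu hC

theorem dfq_b_on (hf : MemLp f 2 μ) {S : Set X} (hS : μ S < ∞) : IntegrableOn f S μ := by
  have : IsFiniteMeasure (μ.restrict S) := ⟨by rwa [Measure.restrict_apply_univ]⟩
  exact (hf.restrict S).integrable one_le_two

theorem dfq_b_c (c : ℝ) {S : Set X} (hS : μ S < ∞) : Integrable (fun _ => c) (μ.restrict S) :=
  integrableOn_const hS.ne

theorem dfq_b_der (h1 : D.Gen u g) {S : Set X} (hS : MeasurableSet S) (hS' : μ S < ∞) (ht : 0 ≤ t) :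
    HasDerivWithinAt (fun s => ∫ x in S, D.P s u x ∂μ) (∫ x in S, D.P t g x ∂μ) (Ici 0) t := by
  have e : ∀ F : X → ℝ, ∫ x, F x * S.indicator (fun _ => (1 : ℝ)) x ∂μ = ∫ x in S, F x ∂μ := fun F => by
    rw [← integral_indicator hS]
    congr 1
    funext x
    by_cases hx : x ∈ S <;> simp [hx]
  have := h1.hasDerivWithinAt ht (memLp_indicator_const 2 hS (1 : ℝ) (Or.inr hS'.ne))
  simpa only [e] using this

theorem dfq_b_anti {ψ ψ' : ℝ → ℝ} (h : ∀ r, 0 ≤ r → HasDerivWithinAt ψ (ψ' r) (Ici 0) r) (h0 : ∀ r, 0 ≤ r → ψ' r ≤ 0) :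
    AntitoneOn ψ (Ici 0) :=
  antitoneOn_of_hasDerivWithinAt_nonpos (f' := ψ') (convex_Ici 0) (fun r hr => (h r hr).continuousWithinAt)
    (fun r hr => (h r (interior_subset hr)).mono interior_subset) fun r hr => h0 r (interior_subset hr)

theorem dfq_b_one {A : ℝ} (h1 : D.Gen u g) (hA0 : 0 ≤ A) (hA : ∀ᵐ x ∂μ, g x ≤ A) (ht : 0 ≤ t) (hts : t ≤ s) :
    ∀ᵐ x ∂μ, D.P s u x - D.P t u x ≤ A * (s - t) := by
  have := D.sigmaFinite
  have i1 : ∀ (r : ℝ) (F : X → ℝ) (S : Set X), μ S < ∞ → IntegrableOn (D.P r F) S μ := fun r F S hS =>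
    dfq_b_on ((D.P_mk r).mem F) hS
  have key : 0 ≤ᵐ[μ] fun x => A * (s - t) - (D.P s u x - D.P t u x) := by
    refine ae_nonneg_of_forall_setIntegral_nonneg_of_sigmaFinite
      (fun S _ hS => (integrableOn_const hS.ne).sub ((i1 s u S hS).sub (i1 t u S hS))) fun S hS hS' => ?_
    have h2 := dfq_b_anti (ψ := fun r => (∫ x in S, D.P r u x ∂μ) - A * r * μ.real S)
      (ψ' := fun r => (∫ x in S, D.P r g x ∂μ) - A * 1 * μ.real S)
      (fun r hr => (dfq_b_der h1 hS hS' hr).sub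
        ((((hasDerivAt_id r).const_mul A).mul_const _).hasDerivWithinAt)) (fun r _ => by
        have h3 := setIntegral_mono_ae (i1 r g S hS') (integrableOn_const (C := A) hS'.ne)
          ((D.P_mk r).le_const h1.mem hA0 hA)
        rw [setIntegral_const, smul_eq_mul] at h3
        linarith) ht (ht.trans hts) hts
    have i4 : Integrable (fun x => D.P s u x - D.P t u x) (μ.restrict S) := (i1 s u S hS').sub (i1 t u S hS')
    rw [integral_sub (dfq_b_c _ hS') i4,
      integral_sub (i1 s u S hS') (i1 t u S hS'), setIntegral_const, smul_eq_mul]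
    simp only at h2
    linarith
  filter_upwards [key] with x hx
  exact sub_nonneg.1 hx

theorem dfq_b_two {A : ℝ} (h1 : D.Gen u g) (hA0 : 0 ≤ A) (hA : ∀ᵐ x ∂μ, |g x| ≤ A) (ht : 0 ≤ t) (hts : t ≤ s) :
    ∀ᵐ x ∂μ, |D.P s u x - D.P t u x| ≤ A * (s - t) := by
  have a1 := dfq_b_one h1 hA0 (hA.mono fun x hx => (le_abs_self _).trans hx) ht hts
  have a2 := dfq_b_one (h1.smul (-1)) hA0 (hA.mono fun x hx => by linarith [neg_abs_le (g x)]) ht hts
  filter_upwards [a1, a2, (D.P_mk s).smul (-1) h1.w.mem, (D.P_mk t).smul (-1) h1.w.mem] with x b1 b2 b3 b4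
  rw [b3, b4] at b2
  exact abs_le.2 ⟨by linarith, b1⟩

theorem Gen.abs_P_sub_le {A : ℝ} (h1 : D.Gen u g) (hA0 : 0 ≤ A) (hA : ∀ᵐ x ∂μ, |g x| ≤ A) (hs : 0 ≤ s) (ht : 0 ≤ t) :
    ∀ᵐ x ∂μ, |D.P s u x - D.P t u x| ≤ A * |s - t| := by
  rcases le_total t s with h | h
  · rw [abs_of_nonneg (sub_nonneg.2 h)]
    exact dfq_b_two h1 hA0 hA ht h
  · rw [abs_sub_comm s t, abs_of_nonneg (sub_nonneg.2 h)]
    filter_upwards [dfq_b_two h1 hA0 hA hs h] with x hx
    rwa [abs_sub_comm]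

/-- comparison with a supersolution -/
theorem Gen.P_le {a c : ℝ} (h1 : D.Gen w g) (hca : 0 ≤ c * a) (H : ∀ᵐ x ∂μ, g x ≤ c * (w x + a)) (ht : 0 ≤ t) :
    ∀ᵐ x ∂μ, D.P t w x + a ≤ Real.exp (c * t) * (w x + a) := by
  have := D.sigmaFinite
  have i1 : ∀ (r : ℝ) (F : X → ℝ) (S : Set X), μ S < ∞ → IntegrableOn (D.P r F) S μ := fun r F S hS =>
    dfq_b_on ((D.P_mk r).mem F) hS
  have key : 0 ≤ᵐ[μ] fun x => Real.exp (c * t) * (w x + a) - (D.P t w x + a) := by
    have i2 : ∀ S : Set X, μ S < ∞ → IntegrableOn (fun x => w x + a) S μ := fun S hS =>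
      (dfq_b_on h1.w.mem hS).add (integrableOn_const hS.ne)
    have i3 : ∀ S : Set X, μ S < ∞ → IntegrableOn (fun x => D.P t w x + a) S μ := fun S hS =>
      (i1 t w S hS).add (integrableOn_const hS.ne)
    refine ae_nonneg_of_forall_setIntegral_nonneg_of_sigmaFinite
      (fun S _ hS => ((i2 S hS).const_mul _).sub (i3 S hS)) fun S hS hS' => ?_
    have h2 := dfq_b_anti (ψ := fun r => Real.exp (-c * r) * ((∫ x in S, D.P r w x ∂μ) + a * μ.real S))
      (ψ' := fun r => Real.exp (-c * r) * (-c * 1) * ((∫ x in S, D.P r w x ∂μ) + a * μ.real S) +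
        Real.exp (-c * r) * ∫ x in S, D.P r g x ∂μ)
      (fun r hr => (((hasDerivAt_id r).const_mul (-c)).exp.hasDerivWithinAt).mul
        ((dfq_b_der h1 hS hS' hr).add_const _)) (fun r _ => by
        have h3 : ∀ᵐ x ∂μ, D.P r g x ≤ c * a + c * D.P r w x := by
          filter_upwards [(D.P_mk r).le_add h1.mem (h1.w.mem.const_mul c) hca
            (H.mono fun x hx => by linarith), (D.P_mk r).smul c h1.w.mem] with x b1 b2
          rwa [b2] at b1
        have h4 := setIntegral_mono_ae (i1 r g S hS')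
          ((integrableOn_const (C := c * a) hS'.ne).add ((i1 r w S hS').const_mul c)) h3
        rw [integral_add' (dfq_b_c _ hS') ((i1 r w S hS').const_mul c), setIntegral_const,
          integral_const_mul, smul_eq_mul] at h4
        have h5 := mul_le_mul_of_nonneg_left h4 (Real.exp_pos (-c * r)).le
        linarith) self_mem_Ici ht ht
    have e0 : ∫ x in S, D.P 0 w x ∂μ = ∫ x in S, w x ∂μ :=
      integral_congr_ae (ae_restrict_of_ae (D.P_nonpos le_rfl h1.w.mem))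
    simp only [e0, mul_zero, Real.exp_zero, one_mul] at h2
    rw [integral_sub ((i2 S hS').const_mul _) (i3 S hS'), integral_const_mul,
      integral_add (dfq_b_on h1.w.mem hS') (dfq_b_c _ hS'),
      integral_add (i1 t w S hS') (dfq_b_c _ hS'), setIntegral_const, smul_eq_mul]
    have h6 := mul_le_mul_of_nonneg_left h2 (Real.exp_pos (c * t)).le
    rw [← mul_assoc, ← Real.exp_add, show c * t + -c * t = 0 by ring, Real.exp_zero, one_mul] at h6
    linarith
  filter_upwards [key] with x hx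
  exact sub_nonneg.1 hx

/-- derivative against an `L¹` function (`Gen.tl2_slope`, `abs_P_sub_le`, `TL2.integral_mul_of_bdd`) -/
theorem Gen.hasDerivWithinAt_bdd (h1 : D.Gen η g) (hb : Bdd μ η) (hg : Bdd μ g) (ht : 0 ≤ t) (hw : Integrable w μ) :
    HasDerivWithinAt (fun s => ∫ x, D.P s η x * w x ∂μ) (∫ x, D.P t g x * w x ∂μ) (Ici 0) t := by
  obtain ⟨A, hA⟩ := hg
  have hA' : ∀ᵐ x ∂μ, |g x| ≤ max A 0 := hA.mono fun x hx => hx.trans (le_max_left _ _)
  have i1 : ∀ r, Integrable (fun x => D.P r η x * w x) μ := fun r =>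
    ((D.P_mk r).bdd h1.w.mem hb).mul_integrable ((D.P_mk r).mem η).1 hw
  rw [hasDerivWithinAt_iff_tendsto_slope]
  refine ((h1.tl2_slope ht).integral_mul_of_bdd (C := max A 0)
    (Eventually.of_forall fun s => (((D.P_mk s).mem η).sub ((D.P_mk t).mem η)).const_mul _)
    ((D.P_mk t).mem g) ?_ hw).congr fun s => ?_
  · filter_upwards [self_mem_nhdsWithin] with s hs
    filter_upwards [h1.abs_P_sub_le (le_max_right A 0) hA' hs.1 ht] with x hx
    have h0 : 0 < |s - t| := abs_pos.2 (sub_ne_zero.2 hs.2)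
    rw [abs_mul, abs_inv, inv_mul_le_iff₀ h0]
    linarith
  · rw [slope_def_field, div_eq_inv_mul, ← integral_sub (i1 s) (i1 t), ← integral_const_mul]
    congr 1
    funext x
    ring

theorem J_laplace_bdd (hh : 0 < h) (hη : MemLp η 2 μ) (hb : Bdd μ η) (hw : Integrable w μ) :
    IntegrableOn (fun s => h⁻¹ * Real.exp (-s / h) * ∫ x, D.P s η x * w x ∂μ) (Ioi 0) ∧
      ∫ x, D.J h η x * w x ∂μ = ∫ s in Ioi (0 : ℝ), h⁻¹ * Real.exp (-s / h) * ∫ x, D.P s η x * w x ∂μ :=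
  dfq_J_laplace_bdd hh hη hb hw

end DF

end Crest.Agent.R242

end
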