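import Crest.Agent.R242.BeMain
import Crest.Agent.R242.DfHeat
import Crest.Agent.R242.DfQ

/-! Row 242, I-e: `Be.SG` for the Dirichlet form of `m` (helper49). -/

set_option autoImplicit false
set_option linter.unusedSectionVars false
set_option linter.unusedVariables false

open MeasureTheory Filter Set
open scoped ENNReal NNReal Topology
open Crest.GeometryTopology.SyntheticRicci

noncomputable section

namespace Crest.Agent.R242.Be

variable {X : Type*} [MetricSpace X] [MeasurableSpace X] [BorelSpace X] {m : Measure X}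
  [Fact (IsFiniteOnBalls m)]

theorem bgl_sub : (𝓝[>] (0 : ℝ)) ≤ 𝓝[Ici 0 \ {0}] 0 :=
  nhdsWithin_mono _ fun x hx => ⟨mem_Ici.2 (mem_Ioi.1 hx).le, (mem_Ioi.1 hx).ne'⟩

theorem sg_dfOf (hH : IsInfHilbertian m) (hh : Heat m (dfOf hH).J (dfOf hH).P) :
    SG m (dfOf hH).J (dfOf hH).P where
  toHeat := hh
  lsc {u v C} hu hv ht hC := by
    have h1 := DF.lsc (D := dfOf hH) (x := u) (l := atTop) (C := C)
      ((tl2_iff_integral (Eventually.of_forall fun n => (hu n).1) hv).2 ht) hv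
      (Eventually.of_forall fun n => ⟨dfOf_W.2 (hu n), hC n⟩)
    exact ⟨dfOf_W.1 h1.1, h1.2⟩
  weak {u v w C} hu hv hw ht hC :=
    DF.tendsto_E_weak (D := dfOf hH) (x := u) (l := atTop) (C := C)
      ((tl2_iff_integral (Eventually.of_forall fun n => (hu n).1) hv.1).2 ht) (dfOf_W.2 hv)
      (Eventually.of_forall fun n => ⟨dfOf_W.2 (hu n), hC n⟩) (dfOf_W.2 hw)
  gen_unique h1 h2 := weakLaplacian_unique h1 h2
  J_eq hp h1 := DF.Gen.J_eq (dfOf_Gen.2 h1) hp
  J_tendsto hf := (tl2_iff_integral (Eventually.of_forall fun h => DF.dfj_mem _ h _) hf).1 (DF.tl2_J _ hf)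
  J_laplace {h} hp {f z} hf hz := by
    have h1 := (dfOf hH).J_laplace hp hf hz
    simpa only [mul_comm (z _)] using h1
  P_congr t _ _ h := ((dfOf hH).P_mk t).congr h
  P_add hs ht f _ := (dfOf hH).P_add hs ht f
  P_n2 {t} _ _ hf := ((dfOf hH).P_mk t).integral_sq_le hf
  P_reg ht _ hf := ⟨dfOf_W.1 ((dfOf hH).E_P_le' ht hf).1, ((dfOf hH).E_P_le' ht hf).2⟩
  gen_P {t} _ _ _ h := dfOf_Gen.1 ((dfOf_Gen.2 h).P t)
  P_cont {t} _ f _ := ((tl2_iff_integral (Eventually.of_forall fun s => DF.dfp_mem _ s _)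
    (DF.dfp_mem _ t _)).1 ((dfOf hH).tl2_P f t)).mono_left nhdsWithin_le_nhds
  P_deriv {t} ht f hf := by
    have hg := (dfOf hH).gen_P ht f
    refine ⟨_, dfOf_Gen.1 hg, ?_⟩
    have h1 := hasDerivAt_iff_tendsto_slope.1 ((dfOf hH).hasDerivAt_cls_P ht f)
    refine (tl2_iff_integral (Eventually.of_forall fun s => DF.dfpb_mem_slope _ f s t) hg.mem).1 ?_
    refine (tl2_iff (Eventually.of_forall fun s => DF.dfpb_mem_slope _ f s t) hg.mem).2 (h1.congr fun s => ?_)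
    rw [slope_def_module, cls_smul (f := fun x => (dfOf hH).P s f x - (dfOf hH).P t f x) _
      ((DF.dfp_mem _ s f).sub (DF.dfp_mem _ t f)), cls_sub (DF.dfp_mem _ s f) (DF.dfp_mem _ t f)]
  P_tendsto {f} hf := by
    have h1 := ((tl2_iff_integral (Eventually.of_forall fun s => DF.dfp_mem _ s _)
      (DF.dfp_mem _ 0 _)).1 ((dfOf hH).tl2_P f 0)).mono_left (nhdsWithin_le_nhds (s := Ioi 0))
    refine h1.congr fun s => integral_congr_ae ?_
    filter_upwards [(dfOf hH).P_nonpos le_rfl hf] with x hx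
    rw [hx]
  P_tendsto_En {u} hu := by
    have h1 := (DF.tendsto_E_P (dfOf_W (hH := hH).2 hu) 0).mono_left (nhdsWithin_le_nhds (s := Ioi 0))
    refine h1.congr fun s => ?_
    have h2 : IsSobolevLoc m fun x => (dfOf hH).P s u x - (dfOf hH).P 0 u x :=
      sl_sub (DF.E_P_le (dfOf_W.2 hu) s).1.s (DF.E_P_le (dfOf_W.2 hu) 0).1.s
    have h3 : (fun x => (dfOf hH).P s u x - (dfOf hH).P 0 u x) =ᵐ[m] fun x => (dfOf hH).P s u x - u x := by
      filter_upwards [(dfOf hH).P_nonpos le_rfl hu.1] with x hx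
      rw [hx]
    exact En_congr h2 h2 h3 h3
  P_slope {u L} hu hL := by
    have h1 := (DF.Gen.tendsto_E_slope (dfOf_Gen (hH := hH).2 hu) (dfOf_W.2 hL) le_rfl).mono_left bgl_sub
    refine h1.congr fun s => ?_
    have h2 : IsSobolevLoc m fun x => (s - 0)⁻¹ * ((dfOf hH).P s u x - (dfOf hH).P 0 u x) -
        (dfOf hH).P 0 L x :=
      sl_sub (sl_const_mul _ (sl_sub (DF.E_P_le (dfOf_W.2 hu.1) s).1.s (DF.E_P_le (dfOf_W.2 hu.1) 0).1.s))
        (DF.E_P_le (dfOf_W.2 hL) 0).1.s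
    have h3 : (fun x => (s - 0)⁻¹ * ((dfOf hH).P s u x - (dfOf hH).P 0 u x) - (dfOf hH).P 0 L x) =ᵐ[m]
        fun x => s⁻¹ * ((dfOf hH).P s u x - u x) - L x := by
      filter_upwards [(dfOf hH).P_nonpos le_rfl hu.1.1, (dfOf hH).P_nonpos le_rfl hL.1] with x hx hy
      rw [hx, hy, sub_zero]
    exact En_congr h2 h2 h3 h3
  mem_of_P hu hC := by
    have h1 := DF.W_of_P (D := dfOf hH) hu hC.frequently
    exact ⟨dfOf_W.1 h1.1, h1.2⟩
  P_form hu hv := by
    have h1 := DF.tendsto_sub_P (D := dfOf hH) (dfOf_W.2 hu) (dfOf_W.2 hv)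
    exact h1.congr fun t => div_eq_inv_mul _ _

/-- part I-e: `II.Base` from the gradient estimate and the Sobolev-to-Lipschitz properties -/
theorem base_of_ge [ProperSpace X] [m.IsOpenPosMeasure] {κ : ℝ} (hκ : 0 ≤ κ) (hH : IsInfHilbertian m)
    (hh : Heat m (dfOf hH).J (dfOf hH).P) (hge : GE m κ (dfOf hH).P) (hs : S2L m) (hl : S2Lloc m)
    (hg : II.Geod X) : II.Base m κ :=
  All.base ⟨hκ, hH, sg_dfOf hH hh, hge, hs⟩ hg hl

end Crest.Agent.R242.Be
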