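import Crest.Agent.R242.BeG

/-! Row 242, I-e, TASK BeH: (B3), the Hessian bound for all bounded Lipschitz `u` in the domain (keep the statements; aux names `bh_*`). -/

set_option autoImplicit false
set_option linter.unusedSectionVars false
set_option linter.unusedVariables false

open MeasureTheory Filter Set
open scoped ENNReal NNReal Topology
open Crest.GeometryTopology.SyntheticRicci

noncomputable section

namespace Crest.Agent.R242.Be

variable {X : Type*} [MetricSpace X] [MeasurableSpace X] [BorelSpace X] {m : Measure X}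
  [Fact (IsFiniteOnBalls m)]
  [ProperSpace X] [m.IsOpenPosMeasure]
  {F G g u h L : X → ℝ} {A C κ : ℝ} {K K' KF : ℝ≥0} {J P : ℝ → (X → ℝ) → X → ℝ}

theorem bh_lip_mul {f : X → ℝ} {B : ℝ} (hf : LipschitzWith K f) (hg : LipschitzWith K' g) (hA : ∀ x, |f x| ≤ A)
    (hB : ∀ x, |g x| ≤ B) : ∃ K'' : ℝ≥0, LipschitzWith K'' fun x => f x * g x := by
  refine ⟨A.toNNReal * K' + B.toNNReal * K, LipschitzWith.of_dist_le_mul fun x y => ?_⟩
  have h1 := hf.dist_le_mul x y
  have h2 := hg.dist_le_mul x y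
  rw [Real.dist_eq] at h1 h2 ⊢
  have hA0 : 0 ≤ A := (abs_nonneg _).trans (hA x)
  have hB0 : 0 ≤ B := (abs_nonneg _).trans (hB x)
  have e : f x * g x - f y * g y = f x * (g x - g y) + g y * (f x - f y) := by ring
  rw [e, NNReal.coe_add, NNReal.coe_mul, NNReal.coe_mul, Real.coe_toNNReal _ hA0, Real.coe_toNNReal _ hB0]
  refine (abs_add_le _ _).trans ?_
  rw [abs_mul, abs_mul, add_mul, mul_assoc, mul_assoc]
  exact add_le_add (mul_le_mul (hA x) h2 (abs_nonneg _) hA0) (mul_le_mul (hB y) h1 (abs_nonneg _) hB0)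

theorem bh_wl (H : SG m J P) (hg : IsWeakLaplacian m g L) : weakLaplacian m g =ᵐ[m] L := by
  have e : ∃ L : X → ℝ, IsWeakLaplacian m g L := ⟨L, hg⟩
  unfold weakLaplacian
  rw [dif_pos e]
  exact H.gen_unique (Classical.choose_spec e) hg

theorem bh_ball (hc : HasCompactSupport h) (z : X) : ∃ r : ℝ, 0 < r ∧ ∀ x, x ∉ Metric.ball z r → h x = 0 := by
  obtain ⟨R, hR⟩ := hc.isCompact.isBounded.subset_ball z
  refine ⟨max R 1, lt_max_of_lt_right one_pos, fun x hx => image_eq_zero_of_notMem_tsupport fun h' => hx ?_⟩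
  exact Metric.ball_subset_ball (le_max_left _ _) (hR h')

/-- The Hessian bound for a test function without compact support.  (`X` empty: trivial.)  `tsupport h ⊆ closedBall z r₁`,
`ζ` from `All.cutoff`; `g' = ζ * g` is a compactly supported test function with Laplacian
`L' = ζ L + g Lζ + 2 Γ ζ g` (`gen_mul`, `sob_lip_mul`, `gam_W2`, `gen_unique` for `weakLaplacian m g' =ᵐ L'`,
`sob_congr`).  On `closedBall z r₁`: `g' = g`, `L' = L` (`gam_level`), `Γ · g' = Γ · g`, `Γ g' g' = Γ g g` and so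
`Γ F (Γ g' g') = Γ F (Γ g g)` (`gam_local`, `gam_W`); off it `h = 0` and `Γ h · = 0` (`gam_level`).
`gam_const_mul_right` for the factor `1/2`. -/
theorem All.hess_lip (H : All m κ J P) (hF : LipschitzWith KF F) (hH : HasWeakHessLe m F G)
    (hg : IsWeakLaplacian m g L) (hL : IsSobolev m L) (hA : ∀ x, |g x| ≤ A) (hK : LipschitzWith K g)
    (hh : LipschitzWith K' h) (hc : HasCompactSupport h) (h0 : ∀ x, 0 ≤ h x) :
    -(∫ x, (gradPairing m h g x + h x * L x) * gradPairing m F g x ∂m) -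
        1 / 2 * ∫ x, h x * gradPairing m F (gradPairing m g g) x ∂m ≤
      ∫ x, h x * G x * gradPairing m g g x ∂m := by
  rcases isEmpty_or_nonempty X with hX | ⟨⟨z⟩⟩
  · simp [Measure.eq_zero_of_isEmpty m]
  obtain ⟨r, hr, hz⟩ := bh_ball hc z
  obtain ⟨ζ, Lζ, Kζ, Cζ, hζ, hζ01, hζ1, hζ0, hgζ, -, hLζ, hLζ0⟩ := H.cutoff z hr (lt_add_one r)
  have hζb : ∀ x, |ζ x| ≤ 1 := fun x => by
    rw [abs_of_nonneg (hζ01 x).1]; exact (hζ01 x).2
  have hg' : IsWeakLaplacian m (fun x => ζ x * g x)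
      fun x => ζ x * L x + g x * Lζ x + 2 * gradPairing m ζ g x :=
    gen_mul H.hilb hgζ hg (Eventually.of_forall hζb) (Eventually.of_forall hA) (gb_of_lip hζ) (gb_of_lip hK)
  have hL' : IsSobolev m fun x => ζ x * L x + g x * Lζ x + 2 * gradPairing m ζ g x :=
    sob_add (sob_add (sob_lip_mul hζ hζb hL) (sob_lip_mul hK hA hLζ))
      (sob_const_mul 2 (H.gam_W2 hgζ hg (gb_of_lip hζ) (gb_of_lip hK)))
  have hw := bh_wl H.sg hg'
  obtain ⟨K'', hK''⟩ := bh_lip_mul hζ hK hζb hA
  have ht : IsTestFn m fun x => ζ x * g x := by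
    refine ⟨⟨A, fun x => ?_⟩, ⟨K'', hK''⟩, ⟨_, hg'⟩, sob_congr hL' hw.symm⟩
    rw [abs_mul]
    exact (mul_le_of_le_one_left (abs_nonneg _) (hζb x)).trans (hA x)
  have hcs : HasCompactSupport fun x => ζ x * g x :=
    HasCompactSupport.intro (isCompact_closedBall z (r + 1)) fun x hx => by
      rw [hζ0 x fun h' => hx (Metric.ball_subset_closedBall h'), zero_mul]
  have key := hH _ ht hcs h ⟨K', hh⟩ hc h0
  have sF : IsSobolevLoc m F := sl_lip hF
  have sh : IsSobolevLoc m h := sl_lip hh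
  have sg : IsSobolevLoc m g := hg.1.2.1
  have sg' : IsSobolevLoc m fun x => ζ x * g x := hg'.1.2.1
  have sζ : IsSobolevLoc m ζ := sl_lip hζ
  have sG : IsSobolevLoc m (gradPairing m g g) := (H.gam_W hg (gb_of_lip hK)).2.1
  have sG' : IsSobolevLoc m (gradPairing m (fun x => ζ x * g x) fun x => ζ x * g x) :=
    (H.gam_W hg' (gb_of_lip hK'')).2.1
  have sG2 : IsSobolevLoc m fun y => gradPairing m (fun x => ζ x * g x) (fun x => ζ x * g x) y / 2 := by
    simpa only [div_eq_inv_mul] using sl_const_mul (2 : ℝ)⁻¹ sG'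
  have hin : ∀ x, x ∈ Metric.ball z r → ζ x * g x = g x := fun x hx => by
    rw [hζ1 x (Metric.ball_subset_closedBall hx), one_mul]
  have e1 : ∫ x, (gradPairing m h (fun x => ζ x * g x) x + h x * weakLaplacian m (fun x => ζ x * g x) x) *
      gradPairing m F (fun x => ζ x * g x) x ∂m =
      ∫ x, (gradPairing m h g x + h x * L x) * gradPairing m F g x ∂m := by
    refine integral_congr_ae ?_
    filter_upwards [hw, gam_local sh sg' sh sg, gam_local sF sg' sF sg, gam_level sζ sg 1, gam_level sh sg 0,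
      gam_level sh sg' 0] with x a1 a2 a3 a4 a5 a6
    by_cases hx : x ∈ Metric.ball z r
    · have hx' := Metric.ball_subset_closedBall hx
      rw [a1, a2 rfl (hin x hx), a3 rfl (hin x hx), a4 (hζ1 x hx'), hζ1 x hx', hLζ0 x hx']
      ring
    · rw [a5 (hz x hx), a6 (hz x hx), hz x hx]
      ring
  have e2 : ∫ x, h x * gradPairing m F
      (fun y => gradPairing m (fun x => ζ x * g x) (fun x => ζ x * g x) y / 2) x ∂m =
      1 / 2 * ∫ x, h x * gradPairing m F (gradPairing m g g) x ∂m := by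
    rw [← integral_const_mul]
    refine integral_congr_ae ?_
    filter_upwards [gam_local sg' sg' sg sg, gam_local sF sG2 sF (sl_const_mul (1 / 2) sG),
      gam_const_mul_right H.hilb (1 / 2) sG sF] with x a1 a2 a3
    by_cases hx : x ∈ Metric.ball z r
    · rw [a2 rfl (by rw [a1 (hin x hx) (hin x hx)]; ring), a3]
      ring
    · rw [hz x hx]
      ring
  have e3 : ∫ x, h x * G x * gradPairing m (fun x => ζ x * g x) (fun x => ζ x * g x) x ∂m =
      ∫ x, h x * G x * gradPairing m g g x ∂m := by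
    refine integral_congr_ae ?_
    filter_upwards [gam_local sg' sg' sg sg] with x a1
    by_cases hx : x ∈ Metric.ball z r
    · rw [a1 (hin x hx) (hin x hx)]
    · rw [hz x hx]
      ring
  unfold weakHess at key
  rw [e1, e2, e3] at key
  exact key

/-- `GB.lipAE`, `LipAE.exists_bd`, `gen_congr`, `gam_congr`, `gam_W` -/
theorem All.hess_ae (H : All m κ J P) (hF : LipschitzWith KF F) (hH : HasWeakHessLe m F G)
    (hg : IsWeakLaplacian m g L) (hL : IsSobolev m L) (hA0 : 0 ≤ A) (hA : Bd m A g) (hC : GB m C g)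
    (hh : LipschitzWith K' h) (hc : HasCompactSupport h) (h0 : ∀ x, 0 ≤ h x) :
    -(∫ x, (gradPairing m h g x + h x * L x) * gradPairing m F g x ∂m) -
        1 / 2 * ∫ x, h x * gradPairing m F (gradPairing m g g) x ∂m ≤
      ∫ x, h x * G x * gradPairing m g g x ∂m := by
  have sg : IsSobolevLoc m g := hg.1.2.1
  obtain ⟨v, hv, hgv, hb⟩ := LipAE.exists_bd (a := -A) (b := A) (hC.lipAE H.s2l sg) (by linarith)
    (hA.mono fun x hx => abs_le.1 hx)
  have key := H.hess_lip hF hH (gen_congr hg hgv EventuallyEq.rfl) hL (fun x => abs_le.2 (hb x)) hv hh hc h0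
  have sF : IsSobolevLoc m F := sl_lip hF
  have sh : IsSobolevLoc m h := sl_lip hh
  have sG : IsSobolevLoc m (gradPairing m g g) := (H.gam_W hg hC).2.1
  have c1 := gam_congr sg sg hgv hgv
  have e1 : ∫ x, (gradPairing m h g x + h x * L x) * gradPairing m F g x ∂m =
      ∫ x, (gradPairing m h v x + h x * L x) * gradPairing m F v x ∂m := by
    refine integral_congr_ae ?_
    filter_upwards [gam_congr sh sg EventuallyEq.rfl hgv, gam_congr sF sg EventuallyEq.rfl hgv] with x a1 a2
    rw [a1, a2]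
  have e2 : ∫ x, h x * gradPairing m F (gradPairing m g g) x ∂m =
      ∫ x, h x * gradPairing m F (gradPairing m v v) x ∂m := by
    refine integral_congr_ae ?_
    filter_upwards [gam_congr sF sG EventuallyEq.rfl c1] with x a1
    rw [a1]
  have e3 : ∫ x, h x * G x * gradPairing m g g x ∂m = ∫ x, h x * G x * gradPairing m v v x ∂m := by
    refine integral_congr_ae ?_
    filter_upwards [c1] with x a1
    rw [a1]
  rw [e1, e2, e3]
  exact key

/-- (B3) `exists_apx`, `apx_gam`, `hess_ae` for each `g n`.  Limits: `tendsto_int_mul`, `tendsto_n2_add`,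
`tendsto_n2_gam`, `tendsto_n2_bd_mul`; for the second term replace `F` by `χ * F` with a cut-off `χ = 1` on the
support of `h` (`exists_cutoff`, `sob_cutoff`, `gam_local`) and use `SG.weak_h`; `tendsto_int_gam` with `η = h G`. -/
theorem All.hess (H : All m κ J P) (hF : LipschitzWith KF F) {MG : ℝ} (hG : ∀ x, |G x| ≤ MG) (hGc : Continuous G)
    (hH : HasWeakHessLe m F G) (hu : IsWeakLaplacian m u L) (hA : ∀ x, |u x| ≤ A) (hK : LipschitzWith K u)
    (hh : LipschitzWith K' h) (hc : HasCompactSupport h) (h0 : ∀ x, 0 ≤ h x) :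
    -(∫ x, (gradPairing m h u x + h x * L x) * gradPairing m F u x ∂m) -
        1 / 2 * ∫ x, h x * gradPairing m F (gradPairing m u u) x ∂m ≤
      ∫ x, h x * G x * gradPairing m u u x ∂m := by
  rcases isEmpty_or_nonempty X with hX | ⟨⟨z⟩⟩
  · simp [Measure.eq_zero_of_isEmpty m]
  have hA0 : 0 ≤ A := (abs_nonneg _).trans (hA z)
  have hC : GB m ((K : ℝ) ^ 2) u := gb_of_lip hK
  obtain ⟨g, Lg, ha⟩ := H.exists_apx hu (sq_nonneg _) hC
  obtain ⟨hs, hsn, ⟨K₀, hK₀⟩, hlim⟩ := H.apx_gam hu hC (by positivity) ha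
  have sF : IsSobolevLoc m F := sl_lip hF
  have sh : IsSobolevLoc m h := sl_lip hh
  have gF : GB m ((KF : ℝ) ^ 2) F := gb_of_lip hF
  have gh : GB m ((K' : ℝ) ^ 2) h := gb_of_lip hh
  obtain ⟨-, B, hB0, hB⟩ := sob_of_lip_compact (m := m) hh hc
  have hBd : Bd m B h := Eventually.of_forall hB
  have hgn : ∀ᶠ n in atTop, IsSobolev m (g n) := Eventually.of_forall fun n => (ha.gen n).1
  have t1 : Tendsto (fun n => ∫ x, (gradPairing m h (g n) x + h x * Lg n x) * gradPairing m F (g n) x ∂m) atTop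
      (𝓝 (∫ x, (gradPairing m h u x + h x * L x) * gradPairing m F u x ∂m)) := by
    refine tendsto_int_mul (F := fun n x => gradPairing m h (g n) x + h x * Lg n x)
      (G := fun n => gradPairing m F (g n))
      ((memLp_gam sh gh hu.1).1.add (memLp_bd_mul (sl_meas sh) hBd hu.2.1)) (memLp_gam sF gF hu.1).1
      (Eventually.of_forall fun n =>
        (memLp_gam sh gh (ha.gen n).1).1.add (memLp_bd_mul (sl_meas sh) hBd (ha.gen n).2.1))
      (Eventually.of_forall fun n => (memLp_gam sF gF (ha.gen n).1).1) ?_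
      (tendsto_n2_gam H.hilb sF gF hu.1 hgn ha.limE)
    exact tendsto_n2_add (F := fun n => gradPairing m h (g n)) (G := fun n x => h x * Lg n x)
      (memLp_gam sh gh hu.1).1 (memLp_bd_mul (sl_meas sh) hBd hu.2.1)
      (Eventually.of_forall fun n => (memLp_gam sh gh (ha.gen n).1).1)
      (Eventually.of_forall fun n => memLp_bd_mul (sl_meas sh) hBd (ha.gen n).2.1)
      (tendsto_n2_gam H.hilb sh gh hu.1 hgn ha.limE)
      (tendsto_n2_bd_mul (sl_meas sh) hBd hu.2.1 (Eventually.of_forall fun n => (ha.gen n).2.1) ha.limL)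
  obtain ⟨r, hr, hz⟩ := bh_ball hc z
  obtain ⟨χ, hχ, -, hχ1, hχ0⟩ := exists_cutoff z r
  have hF' : IsSobolev m fun x => χ x * F x := sob_cutoff (lipB_of_lipschitz hχ) ⟨z, r + 1, hχ0⟩ sF
  have e : ∀ w : X → ℝ, IsSobolevLoc m w →
      ∫ x, h x * gradPairing m F w x ∂m = ∫ x, h x * gradPairing m (fun x => χ x * F x) w x ∂m := by
    intro w hw
    refine integral_congr_ae ?_
    filter_upwards [gam_local sF hw hF'.2.1 hw] with x a1
    by_cases hx : x ∈ Metric.ball z r
    · rw [a1 (by rw [hχ1 x hx, one_mul]) rfl]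
    · rw [hz x hx, zero_mul, zero_mul]
  have t2 : Tendsto (fun n => ∫ x, h x * gradPairing m F (gradPairing m (g n) (g n)) x ∂m) atTop
      (𝓝 (∫ x, h x * gradPairing m F (gradPairing m u u) x ∂m)) := by
    rw [e _ hs.2.1]
    simp only [fun n => e _ (hsn n).2.1]
    exact H.sg.weak_h H.hilb hF' sh hBd gh hsn hs hlim hK₀
  have t3 : Tendsto (fun n => ∫ x, h x * G x * gradPairing m (g n) (g n) x ∂m) atTop
      (𝓝 (∫ x, h x * G x * gradPairing m u u x ∂m)) :=
    tendsto_int_gam (η := fun x => h x * G x) (B := B * MG) H.hilb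
      ((sl_meas sh).mul hGc.measurable.aestronglyMeasurable)
      (Eventually.of_forall fun x => by
        rw [abs_mul]
        exact mul_le_mul (hB x) (hG x) (abs_nonneg _) hB0) hu.1 hgn ha.limE
  exact le_of_tendsto_of_tendsto' (t1.neg.sub (t2.const_mul (1 / 2))) t3 fun n =>
    H.hess_ae hF hH (ha.gen n) (ha.sob n) hA0 (ha.bd A (Eventually.of_forall hA) n) (ha.gb n) hh hc h0

end Crest.Agent.R242.Be
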