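import Crest.Agent.R242.Defs

/-! Row 242, part II (helper16): self-contained interface.
`Base` = what part I must deliver (Prelude terms).  `Cal` = first order calculus w.r.t. a measure,
`Flow` = its resolvent and semigroup on functions, `WB` = Bakry-Emery data with variable curvature,
`CB` = `Base` + the Hessian hypothesis in terms of a `Cal`.  Paper proof: `R242/IIRead.lean`. -/

set_option autoImplicit false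
set_option linter.unusedSectionVars false

open MeasureTheory Filter Set
open scoped ENNReal NNReal Topology
open Crest.GeometryTopology.SyntheticRicci

noncomputable section

namespace Crest.Agent.R242.II

variable {X : Type*} [MetricSpace X] [MeasurableSpace X]

/-- any two points are joined by a constant speed geodesic -/
def Geod (X : Type*) [MetricSpace X] : Prop :=
  ∀ x y : X, ∃ c : ℝ → X, c 0 = x ∧ c 1 = y ∧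
    ∀ s ∈ Icc (0 : ℝ) 1, ∀ t ∈ Icc (0 : ℝ) 1, dist (c s) (c t) = |s - t| * dist x y

/-- What part I delivers (B1-B6, SL, SLloc, geodesics), in the terms of the Prelude. -/
structure Base (m : Measure X) (k : ℝ) : Prop where
  k_nonneg : 0 ≤ k
  geod : Geod X
  s2l : S2L m
  s2lloc : S2Lloc m
  B1 : ∀ (u L : X → ℝ) (A : ℝ) (K : ℝ≥0), IsWeakLaplacian m u L → (∀ x, |u x| ≤ A) → LipschitzWith K u →
    IsSobolev m (gradPairing m u u)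
  B2 : ∀ (u L h : X → ℝ) (A : ℝ) (K K' : ℝ≥0), IsWeakLaplacian m u L → (∀ x, |u x| ≤ A) → LipschitzWith K u →
    LipschitzWith K' h → HasCompactSupport h → (∀ x, 0 ≤ h x) →
    -(k * ∫ x, h x * gradPairing m u u x ∂m) ≤
      -(1 / 2 * ∫ x, gradPairing m h (gradPairing m u u) x ∂m) +
        ∫ x, L x * (h x * L x + gradPairing m h u x) ∂m
  B3 : ∀ (F G : X → ℝ), (∃ B : ℝ, ∀ x, |F x| ≤ B) → (∃ K : ℝ≥0, LipschitzWith K F) →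
    (∃ B : ℝ, ∀ x, |G x| ≤ B) → Continuous G → HasWeakHessLe m F G →
    ∀ (u L h : X → ℝ) (A : ℝ) (K K' : ℝ≥0), IsWeakLaplacian m u L → (∀ x, |u x| ≤ A) → LipschitzWith K u →
    LipschitzWith K' h → HasCompactSupport h → (∀ x, 0 ≤ h x) →
    -(∫ x, (gradPairing m h u x + h x * L x) * gradPairing m F u x ∂m) -
        1 / 2 * ∫ x, h x * gradPairing m F (gradPairing m u u) x ∂m ≤
      ∫ x, h x * G x * gradPairing m u u x ∂m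
  B4 : ∃ C h₀ : ℝ, 0 < C ∧ 0 < h₀ ∧ ∀ (h A : ℝ) (u L : X → ℝ), 0 < h → h ≤ h₀ → IsWeakLaplacian m u L →
    (∀ᵐ x ∂m, |u x - h * L x| ≤ A) → ∀ᵐ x ∂m, gradPairing m u u x ≤ C * A ^ 2 / h
  B5 : ∀ (z : X) (r₁ r₂ : ℝ), 0 < r₁ → r₁ < r₂ → ∃ (ζ Lζ : X → ℝ) (K : ℝ≥0) (C : ℝ), LipschitzWith K ζ ∧
    (∀ x, 0 ≤ ζ x ∧ ζ x ≤ 1) ∧ (∀ x ∈ Metric.closedBall z r₁, ζ x = 1) ∧ (∀ x, x ∉ Metric.ball z r₂ → ζ x = 0) ∧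
    IsWeakLaplacian m ζ Lζ ∧ ∀ᵐ x ∂m, |Lζ x| ≤ C
  B6 : ∀ (η : X → ℝ) (A : ℝ), IsSobolev m η → (∀ᵐ x ∂m, 0 ≤ η x ∧ η x ≤ A) →
    ∃ e : ℕ → X → ℝ, (∀ n, (∃ K : ℝ≥0, LipschitzWith K (e n)) ∧ HasCompactSupport (e n) ∧
      ∀ x, 0 ≤ e n x ∧ e n x ≤ A) ∧
      Tendsto (fun n => ∫ x, (e n x - η x) ^ 2 ∂m) atTop (𝓝 0) ∧
      Tendsto (fun n => ∫ x, gradPairing m (fun y => e n y - η y) (fun y => e n y - η y) x ∂m) atTop (𝓝 0)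

/-- First order calculus: `S` = locally Sobolev functions, `Γ` = carré du champ. -/
structure Cal (μ : Measure X) where
  S : (X → ℝ) → Prop
  Γ : (X → ℝ) → (X → ℝ) → X → ℝ
  S_meas : ∀ u, S u → AEStronglyMeasurable u μ
  Γ_meas : ∀ u v, S u → S v → AEStronglyMeasurable (Γ u v) μ
  S_congr : ∀ u v, S u → u =ᵐ[μ] v → S v
  Γ_congr : ∀ u u' v, S u → S v → u =ᵐ[μ] u' → Γ u v =ᵐ[μ] Γ u' v
  Γ_comm : ∀ u v, S u → S v → Γ u v =ᵐ[μ] Γ v u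
  S_lin : ∀ u v (a b : ℝ), S u → S v → S fun x => a * u x + b * v x
  Γ_lin : ∀ u v w (a b : ℝ), S u → S v → S w →
    Γ (fun x => a * u x + b * v x) w =ᵐ[μ] fun x => a * Γ u w x + b * Γ v w x
  Γ_nonneg : ∀ u, S u → ∀ᵐ x ∂μ, 0 ≤ Γ u u x
  lip : ∀ u (K : ℝ≥0), LipschitzWith K u → S u ∧ ∀ᵐ x ∂μ, Γ u u x ≤ (K : ℝ) ^ 2
  chain : ∀ u (φ φ' : ℝ → ℝ) (K : ℝ), S u → (∀ s, HasDerivAt φ (φ' s) s) → Continuous φ' → (∀ s, |φ' s| ≤ K) →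
    S (fun x => φ (u x)) ∧ ∀ v, S v → Γ (fun x => φ (u x)) v =ᵐ[μ] fun x => φ' (u x) * Γ u v x
  mul : ∀ u v (A : ℝ), S u → S v → (∀ᵐ x ∂μ, |u x| ≤ A) → (∀ᵐ x ∂μ, |v x| ≤ A) →
    S (fun x => u x * v x) ∧
      ∀ w, S w → Γ (fun x => u x * v x) w =ᵐ[μ] fun x => u x * Γ v w x + v x * Γ u w x
  mul_lip : ∀ h u (K : ℝ≥0) (A : ℝ), LipschitzWith K h → (∀ x, |h x| ≤ A) → S u →
    S (fun x => h x * u x) ∧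
      ∀ w, S w → Γ (fun x => h x * u x) w =ᵐ[μ] fun x => h x * Γ u w x + u x * Γ h w x

/-- squared `L²` norm -/
def n2 (μ : Measure X) (f : X → ℝ) : ℝ := ∫ x, f x ^ 2 ∂μ

namespace Cal
variable {μ : Measure X}

def W (D : Cal μ) (u : X → ℝ) : Prop := D.S u ∧ MemLp u 2 μ ∧ Integrable (D.Γ u u) μ
def E (D : Cal μ) (u v : X → ℝ) : ℝ := ∫ x, D.Γ u v x ∂μ
def Gen (D : Cal μ) (u L : X → ℝ) : Prop :=
  D.W u ∧ MemLp L 2 μ ∧ ∀ v, D.W v → D.E u v = -∫ x, L x * v x ∂μ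

/-- the same calculus for an equivalent measure -/
def re (D : Cal μ) (ν : Measure X) (h : ae ν = ae μ) : Cal ν where
  S := D.S
  Γ := D.Γ
  S_meas u hu := (D.S_meas u hu).mono_ac (Measure.ae_le_iff_absolutelyContinuous.1 h.le)
  Γ_meas u v hu hv := (D.Γ_meas u v hu hv).mono_ac (Measure.ae_le_iff_absolutelyContinuous.1 h.le)
  S_congr u v hu huv := D.S_congr u v hu (by rwa [← h])
  Γ_congr u u' v hu hv huv := by rw [h]; exact D.Γ_congr u u' v hu hv (by rwa [← h])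
  Γ_comm u v hu hv := by rw [h]; exact D.Γ_comm u v hu hv
  S_lin := D.S_lin
  Γ_lin u v w a b hu hv hw := by rw [h]; exact D.Γ_lin u v w a b hu hv hw
  Γ_nonneg u hu := by rw [h]; exact D.Γ_nonneg u hu
  lip u K hu := by rw [h]; exact D.lip u K hu
  chain u φ φ' K hu h1 h2 h3 := by rw [h]; exact D.chain u φ φ' K hu h1 h2 h3
  mul u v A hu hv h1 h2 := by rw [h] at *; exact D.mul u v A hu hv h1 h2
  mul_lip g u K A h1 h2 hu := by rw [h]; exact D.mul_lip g u K A h1 h2 hu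

end Cal

/-- Closedness of the form, resolvent `R h = (1 - h L)⁻¹` and semigroup `T t` on functions. -/
structure Flow {μ : Measure X} (D : Cal μ) (T R : ℝ → (X → ℝ) → X → ℝ) : Prop where
  lsc : ∀ (u : ℕ → X → ℝ) (v : X → ℝ) (C : ℝ), (∀ n, D.W (u n)) → (∀ n, D.E (u n) (u n) ≤ C) → MemLp v 2 μ →
    Tendsto (fun n => n2 μ fun x => u n x - v x) atTop (𝓝 0) →
    D.W v ∧ ∀ η : X → ℝ, AEStronglyMeasurable η μ → (∀ x, 0 ≤ η x ∧ η x ≤ 1) → ∀ c : ℝ,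
      (∀ ε : ℝ, 0 < ε → ∀ᶠ n in atTop, ∫ x, η x * D.Γ (u n) (u n) x ∂μ ≤ c + ε) →
      ∫ x, η x * D.Γ v v x ∂μ ≤ c
  R_gen : ∀ h : ℝ, 0 < h → ∀ f, MemLp f 2 μ → D.Gen (R h f) fun x => (R h f x - f x) / h
  R_markov : ∀ h : ℝ, 0 < h → ∀ f g, MemLp f 2 μ → MemLp g 2 μ → ∀ c : ℝ, 0 ≤ c →
    (∀ᵐ x ∂μ, f x ≤ c + g x) → ∀ᵐ x ∂μ, R h f x ≤ c + R h g x
  R_lin : ∀ h : ℝ, 0 < h → ∀ f g, MemLp f 2 μ → MemLp g 2 μ → ∀ a b : ℝ,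
    R h (fun x => a * f x + b * g x) =ᵐ[μ] fun x => a * R h f x + b * R h g x
  euler : ∀ t : ℝ, 0 < t → ∀ f, MemLp f 2 μ →
    Tendsto (fun n : ℕ => n2 μ fun x => (R (t / n))^[n] f x - T t f x) atTop (𝓝 0)
  T_mem : ∀ t : ℝ, 0 ≤ t → ∀ f, MemLp f 2 μ → MemLp (T t f) 2 μ
  T_zero : ∀ f, MemLp f 2 μ → T 0 f =ᵐ[μ] f
  T_markov : ∀ t : ℝ, 0 ≤ t → ∀ f g, MemLp f 2 μ → MemLp g 2 μ → ∀ c : ℝ, 0 ≤ c →
    (∀ᵐ x ∂μ, f x ≤ c + g x) → ∀ᵐ x ∂μ, T t f x ≤ c + T t g x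
  T_lin : ∀ t : ℝ, 0 ≤ t → ∀ f g, MemLp f 2 μ → MemLp g 2 μ → ∀ a b : ℝ,
    T t (fun x => a * f x + b * g x) =ᵐ[μ] fun x => a * T t f x + b * T t g x
  T_symm : ∀ t : ℝ, 0 ≤ t → ∀ f g, MemLp f 2 μ → MemLp g 2 μ →
    ∫ x, T t f x * g x ∂μ = ∫ x, f x * T t g x ∂μ
  T_contr : ∀ t : ℝ, 0 ≤ t → ∀ f, MemLp f 2 μ → n2 μ (T t f) ≤ n2 μ f
  T_gaffney : ∀ t : ℝ, 0 ≤ t → ∀ (β : ℝ≥0) (ψ : X → ℝ), LipschitzWith β ψ → (∃ B : ℝ, ∀ x, |ψ x| ≤ B) →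
    ∀ f, MemLp f 2 μ → n2 μ (fun x => Real.exp (ψ x) * T t f x) ≤
      Real.exp (2 * (β : ℝ) ^ 2 * t) * n2 μ fun x => Real.exp (ψ x) * f x
  T_W : ∀ t : ℝ, 0 ≤ t → ∀ u, D.W u → D.W (T t u) ∧ D.E (T t u) (T t u) ≤ D.E u u
  T_cont : ∀ t : ℝ, 0 ≤ t → ∀ f, MemLp f 2 μ →
    Tendsto (fun s => n2 μ fun x => T s f x - T t f x) (𝓝[Ici 0] t) (𝓝 0)
  T_contW : ∀ t : ℝ, 0 ≤ t → ∀ u, D.W u →
    Tendsto (fun s => D.E (fun x => T s u x - T t u x) fun x => T s u x - T t u x) (𝓝[Ici 0] t) (𝓝 0)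
  T_gen : ∀ t : ℝ, 0 < t → ∀ f, MemLp f 2 μ → ∃ L, D.Gen (T t f) L ∧ D.W L ∧
    Tendsto (fun s => n2 μ fun x => (T s f x - T t f x) / (s - t) - L x) (𝓝[≠] t) (𝓝 0) ∧
    Tendsto (fun s => D.E (fun x => (T s f x - T t f x) / (s - t) - L x)
      fun x => (T s f x - T t f x) / (s - t) - L x) (𝓝[≠] t) (𝓝 0)

/-- Sobolev-to-Lipschitz, global and local -/
structure SL {μ : Measure X} (D : Cal μ) : Prop where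
  glob : ∀ (u : X → ℝ) (K : ℝ≥0), D.S u → (∀ᵐ x ∂μ, D.Γ u u x ≤ (K : ℝ) ^ 2) →
    ∃ v, LipschitzWith K v ∧ u =ᵐ[μ] v
  loc : ∀ (u : X → ℝ) (K : ℝ≥0) (x y : X) (r : ℝ), Continuous u → D.S u →
    (∀ᵐ z ∂μ, z ∈ Metric.ball x r → D.Γ u u z ≤ (K : ℝ) ^ 2) → 2 * dist x y < r → |u x - u y| ≤ K * dist x y

/-- Bakry-Emery data with the variable lower curvature bound `-κ`, `|κ| ≤ κ₁`. -/
structure WB {μ : Measure X} (D : Cal μ) (T R : ℝ → (X → ℝ) → X → ℝ) (κ : X → ℝ) (κ₁ : ℝ) : Prop where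
  flow : Flow D T R
  sl : SL D
  κ_cont : Continuous κ
  κ_le : ∀ x, |κ x| ≤ κ₁
  boch : ∀ (u L : X → ℝ) (A : ℝ), D.Gen u L → (∀ᵐ x ∂μ, |u x| ≤ A) → (∀ᵐ x ∂μ, D.Γ u u x ≤ A) →
    D.W (D.Γ u u) ∧ ∀ (η : X → ℝ) (A' : ℝ), D.W η → (∀ᵐ x ∂μ, 0 ≤ η x ∧ η x ≤ A') →
      -(∫ x, κ x * (η x * D.Γ u u x) ∂μ) ≤
        -(1 / 2 * D.E η (D.Γ u u)) + ∫ x, L x * (η x * L x + D.Γ η u x) ∂μ
  reg : ∃ h₀ : ℝ, 0 < h₀ ∧ ∀ (h A : ℝ) (f : X → ℝ), 0 < h → h ≤ h₀ → MemLp f 2 μ → (∀ᵐ x ∂μ, |f x| ≤ A) →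
    ∃ M : ℝ, ∀ᵐ x ∂μ, D.Γ (R h f) (R h f) x ≤ M

/-- `η` is a weight supported in `B` -/
structure Wt (B : Set X) (η : X → ℝ) : Prop where
  meas : Measurable η
  mem : ∀ x, 0 ≤ η x ∧ η x ≤ 1
  supp : ∀ x, x ∉ B → η x = 0

/-- mass starting in `B₁` stays in `B₂` up to time `r`, up to the fraction `e` -/
def Esc (μ : Measure X) (T : ℝ → (X → ℝ) → X → ℝ) (B₁ B₂ : Set X) (r e : ℝ) : Prop :=
  ∀ η, Wt B₁ η → ∀ w ∈ Icc (0 : ℝ) r,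
    (1 - e) * ∫ x, η x ∂μ ≤ ∫ x in B₂, T w η x ∂μ ∧ ∫ x in B₂ᶜ, T w η x ∂μ ≤ e * ∫ x, η x ∂μ

/-- the weighted measure `exp (l F) m` -/
def wm (m : Measure X) (F : X → ℝ) (l : ℝ) : Measure X := den m fun x => Real.exp (l * F x)

/-- `Base` and the Hessian bound for `F, G` in terms of a calculus `C` for `m`. -/
structure CB {m : Measure X} (C : Cal m) (k : ℝ) (F G : X → ℝ) (MF MG : ℝ) (LF : ℝ≥0) : Prop where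
  k_nonneg : 0 ≤ k
  geod : Geod X
  sl : SL C
  F_bd : ∀ x, |F x| ≤ MF
  F_lip : LipschitzWith LF F
  G_bd : ∀ x, |G x| ≤ MG
  G_cont : Continuous G
  flow : ∀ (l : ℝ) (h : ae (wm m F l) = ae m), ∃ T R, Flow (C.re (wm m F l) h) T R
  flow0 : ∃ T R, Flow C T R
  B1 : ∀ (u L : X → ℝ) (A : ℝ) (K : ℝ≥0), C.Gen u L → (∀ x, |u x| ≤ A) → LipschitzWith K u → C.W (C.Γ u u)
  B2 : ∀ (u L h : X → ℝ) (A : ℝ) (K K' : ℝ≥0), C.Gen u L → (∀ x, |u x| ≤ A) → LipschitzWith K u →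
    LipschitzWith K' h → HasCompactSupport h → (∀ x, 0 ≤ h x) →
    -(k * ∫ x, h x * C.Γ u u x ∂m) ≤
      -(1 / 2 * ∫ x, C.Γ h (C.Γ u u) x ∂m) + ∫ x, L x * (h x * L x + C.Γ h u x) ∂m
  B3 : ∀ (u L h : X → ℝ) (A : ℝ) (K K' : ℝ≥0), C.Gen u L → (∀ x, |u x| ≤ A) → LipschitzWith K u →
    LipschitzWith K' h → HasCompactSupport h → (∀ x, 0 ≤ h x) →
    -(∫ x, (C.Γ h u x + h x * L x) * C.Γ F u x ∂m) - 1 / 2 * ∫ x, h x * C.Γ F (C.Γ u u) x ∂m ≤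
      ∫ x, h x * G x * C.Γ u u x ∂m
  B4 : ∃ C₀ h₀ : ℝ, 0 < C₀ ∧ 0 < h₀ ∧ ∀ (h A : ℝ) (u L : X → ℝ), 0 < h → h ≤ h₀ → C.Gen u L →
    (∀ᵐ x ∂m, |u x - h * L x| ≤ A) → ∀ᵐ x ∂m, C.Γ u u x ≤ C₀ * A ^ 2 / h
  B5 : ∀ (z : X) (r₁ r₂ : ℝ), 0 < r₁ → r₁ < r₂ → ∃ (ζ Lζ : X → ℝ) (K : ℝ≥0) (C₀ : ℝ), LipschitzWith K ζ ∧
    (∀ x, 0 ≤ ζ x ∧ ζ x ≤ 1) ∧ (∀ x ∈ Metric.closedBall z r₁, ζ x = 1) ∧ (∀ x, x ∉ Metric.ball z r₂ → ζ x = 0) ∧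
    C.Gen ζ Lζ ∧ ∀ᵐ x ∂m, |Lζ x| ≤ C₀
  B6 : ∀ (η : X → ℝ) (A : ℝ), C.W η → (∀ᵐ x ∂m, 0 ≤ η x ∧ η x ≤ A) →
    ∃ e : ℕ → X → ℝ, (∀ n, (∃ K : ℝ≥0, LipschitzWith K (e n)) ∧ HasCompactSupport (e n) ∧
      ∀ x, 0 ≤ e n x ∧ e n x ≤ A) ∧
      Tendsto (fun n => n2 m fun x => e n x - η x) atTop (𝓝 0) ∧
      Tendsto (fun n => C.E (fun y => e n y - η y) fun y => e n y - η y) atTop (𝓝 0)

/-- time dependent family for the Hamilton-Jacobi lemma -/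
structure HJ {μ : Measure X} (D : Cal μ) (Φ : ℝ → X → ℝ) (r : ℝ) (L₀ : ℝ≥0) (C₀ : ℝ) : Prop where
  r_pos : 0 < r
  lip : ∀ s, LipschitzWith L₀ (Φ s)
  W : ∀ s ∈ Icc (0 : ℝ) r, D.W (Φ s)
  E : ∀ s ∈ Icc (0 : ℝ) r, D.E (Φ s) (Φ s) ≤ C₀
  cont : ∀ s ∈ Icc (0 : ℝ) r, Tendsto (fun s' => n2 μ fun x => Φ s' x - Φ s x) (𝓝[Icc 0 r] s) (𝓝 0)

/-- weak form of `Γ Φ ≤ θ (-∂ₛ Φ) + e` on `B` -/
def HJsub {μ : Measure X} (D : Cal μ) (Φ : ℝ → X → ℝ) (r : ℝ) (B : Set X) (θ : ℝ → ℝ) (e : ℝ) : Prop :=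
  ∀ η, Wt B η → ∃ q : ℝ → ℝ, ∀ s ∈ Ioo (0 : ℝ) r, 0 ≤ q s ∧
    HasDerivAt (fun s => ∫ x, η x * Φ s x ∂μ) (-q s) s ∧
    ∫ x, η x * D.Γ (Φ s) (Φ s) x ∂μ ≤ θ s * q s + e * ∫ x, η x ∂μ

/-- time average -/
def avg (Φ : ℝ → X → ℝ) (s δ : ℝ) (x : X) : ℝ := δ⁻¹ * ∫ w in s..(s + δ), Φ w x

/-- the local second difference bound -/
def SD (F G : X → ℝ) : Prop :=
  ∀ (z₀ : X) (ρ g₀ : ℝ), 0 < ρ → (∀ x ∈ Metric.ball z₀ ρ, G x ≤ g₀) → ∃ δ₀ : ℝ, 0 < δ₀ ∧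
    ∀ (a b z : X) (δ : ℝ), dist z z₀ < δ₀ → δ < δ₀ → dist a z = δ → dist b z = δ → dist a b = 2 * δ →
      F a + F b - 2 * F z ≤ g₀ * δ ^ 2

end Crest.Agent.R242.II
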