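import Crest.Agent.R242.BeF
import Crest.Agent.R242.BeH
import Crest.Agent.R242.IIDefs

/-! Row 242, I-e, TASK BeMain: assembly of `II.Base`. -/

set_option autoImplicit false
set_option linter.unusedSectionVars false
set_option linter.unusedVariables false

open MeasureTheory Filter Set
open scoped ENNReal NNReal Topology
open Crest.GeometryTopology.SyntheticRicci

noncomputable section

namespace Crest.Agent.R242.Be

variable {X : Type*} [MetricSpace X] [MeasurableSpace X] [BorelSpace X] {m : Measure X}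
  [Fact (IsFiniteOnBalls m)]
  [ProperSpace X] [m.IsOpenPosMeasure] {κ : ℝ} {J P : ℝ → (X → ℝ) → X → ℝ}

theorem All.base (H : All m κ J P) (hg : II.Geod X) (hl : S2Lloc m) : II.Base m κ where
  k_nonneg := H.κ0
  geod := hg
  s2l := H.s2l
  s2lloc := hl
  B1 u L A K hu _ hK := H.gam_W hu (gb_of_lip hK)
  B2 u L h A K K' hu _ hK hh hc h0 := by
    obtain ⟨hs, B, -, hB⟩ := sob_of_lip_compact (m := m) hh hc
    exact H.bochner (B := B) hu (gb_of_lip hK) hs
      (Eventually.of_forall fun x => ⟨h0 x, (le_abs_self _).trans (hB x)⟩) (gb_of_lip hh)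
  B3 F G _ hF hG hGc hH u L h A K K' hu hA hK hh hc h0 := by
    obtain ⟨KF, hF⟩ := hF
    obtain ⟨MG, hG⟩ := hG
    exact H.hess hF hG hGc hH hu hA hK hh hc h0
  B4 := H.B4
  B5 z r₁ r₂ h1 h2 := by
    obtain ⟨ζ, Lζ, K, C, a, b, c, d, e, f, -, -⟩ := H.cutoff z h1 h2
    exact ⟨ζ, Lζ, K, C, a, b, c, d, e, f⟩
  B6 := H.B6

end Crest.Agent.R242.Be
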