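import Crest.Prelude.Def_SyntheticRicci

/-! Shared definitions for result 242 (S0375). Owner: helper75. -/

set_option autoImplicit false

open MeasureTheory Filter Set
open scoped ENNReal NNReal Topology
open Crest.GeometryTopology.SyntheticRicci

noncomputable section

namespace Crest.Agent.R242

variable {X : Type*} [MetricSpace X] [MeasurableSpace X]

/-- Boltzmann entropy of a measure with respect to `m` (used only for bounded densities). -/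
def Ent (m μ : Measure X) : ℝ :=
  ∫ x, (μ.rnDeriv m x).toReal * Real.log (μ.rnDeriv m x).toReal ∂m

/-- The measure with density `f`. -/
def den (m : Measure X) (f : X → ℝ) : Measure X :=
  m.withDensity (fun x => ENNReal.ofReal (f x))

/-- A probability measure with density at most `C`, concentrated on a closed ball. -/
structure BddProb (m : Measure X) (o : X) (R : ℝ) (C : ℝ≥0) (μ : Measure X) : Prop where
  prob : IsProbabilityMeasure μ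
  le : μ ≤ (C : ℝ≥0∞) • m
  supp : μ (Metric.closedBall o R)ᶜ = 0

/-- `u` agrees almost everywhere with an `L`-Lipschitz function. -/
def LipAE (m : Measure X) (L : ℝ≥0) (u : X → ℝ) : Prop :=
  ∃ v : X → ℝ, LipschitzWith L v ∧ u =ᵐ[m] v

/-- The time `2⁻ᵏ` of the unit interval. -/
def dy (k : ℕ) : unitInterval :=
  ⟨(1 / 2 : ℝ) ^ k, by positivity, pow_le_one₀ (by norm_num) (by norm_num)⟩

/-- A good plan between `μ₀` and `μ₁`: a test plan on geodesics with optimal endpoint law,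
compression at most `C`, along which the entropy is `-κ`-convex at the times `2⁻ᵏ`. -/
structure GoodPlan (m : Measure X) (κ : ℝ) (C : ℝ≥0) (μ₀ μ₁ : Measure X)
    (π : Measure (UCurve X)) : Prop where
  test : IsTestPlan2 m π
  tracks : HasBoundedTracks π
  geo : ∀ᵐ γ ∂π, IsCSGeodesic γ
  opt : IsOptCouplingOf (endpointLaw π) μ₀ μ₁
  comp : ∀ t : unitInterval, timeMarginal π t ≤ (C : ℝ≥0∞) • m
  ent : ∀ k : ℕ, Ent m (timeMarginal π (dy k)) ≤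
    (1 - (1 / 2 : ℝ) ^ k) * Ent m μ₀ + (1 / 2 : ℝ) ^ k * Ent m μ₁ +
      κ / 2 * ((1 / 2 : ℝ) ^ k * (1 - (1 / 2 : ℝ) ^ k)) * (quadCost (endpointLaw π)).toReal

/-- What the analytic blocks use of the space (besides the instances `ProperSpace X`,
`BorelSpace X`, `IsFiniteMeasureOnCompacts m`, `IsOpenPosMeasure m`). -/
structure Sp (m : Measure X) (κ γ : ℝ) : Prop where
  κ_nonneg : 0 ≤ κ
  γ_pos : 0 < γ
  hilb : IsInfHilbertian m
  growth : ∀ o : X, Integrable (fun x => Real.exp (-γ * dist x o)) m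
  good : ∀ R : ℝ, ∃ Θ : ℝ≥0, ∀ (o : X) (C : ℝ≥0) (μ₀ μ₁ : Measure X),
    BddProb m o R C μ₀ → BddProb m o R C μ₁ → ∃ π, GoodPlan m κ (Θ * C) μ₀ μ₁ π

open Classical in
/-- An operator on `L²` at the level of functions. -/
def fl {m : Measure X} (T : Lp ℝ 2 m →L[ℝ] Lp ℝ 2 m) (f : X → ℝ) : X → ℝ :=
  if h : MemLp f 2 m then ⇑(T (h.toLp f)) else 0

/-- Resolvent `J h = (1 - h Δ)⁻¹` and heat semigroup `P t` at the level of functions: the facts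
used by part I-d (discrete EVI, contraction, gradient estimate). -/
structure Heat (m : Measure X) (J P : ℝ → (X → ℝ) → X → ℝ) : Prop where
  J_gen : ∀ h : ℝ, 0 < h → ∀ f, MemLp f 2 m →
    IsWeakLaplacian m (J h f) (fun x => (J h f x - f x) / h)
  J_markov : ∀ h : ℝ, 0 < h → ∀ f g, MemLp f 2 m → MemLp g 2 m → ∀ c : ℝ, 0 ≤ c →
    (∀ᵐ x ∂m, f x ≤ c + g x) → ∀ᵐ x ∂m, J h f x ≤ c + J h g x
  J_lin : ∀ h : ℝ, 0 < h → ∀ f g, MemLp f 2 m → MemLp g 2 m → ∀ a b : ℝ,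
    J h (fun x => a * f x + b * g x) =ᵐ[m] fun x => a * J h f x + b * J h g x
  J_mass : ∀ h : ℝ, 0 < h → ∀ f, MemLp f 2 m → Integrable f m →
    Integrable (J h f) m ∧ ∫ x, J h f x ∂m = ∫ x, f x ∂m
  J_gaffney : ∀ h : ℝ, 0 < h → ∀ (β : ℝ≥0) (ψ : X → ℝ), LipschitzWith β ψ → h * (β : ℝ) ^ 2 < 1 →
    ∀ f, MemLp f 2 m → MemLp (fun x => Real.exp (ψ x) * f x) 2 m →
      MemLp (fun x => Real.exp (ψ x) * J h f x) 2 m ∧
      (1 - h * (β : ℝ) ^ 2) ^ 2 * ∫ x, (Real.exp (ψ x) * J h f x) ^ 2 ∂m ≤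
        ∫ x, (Real.exp (ψ x) * f x) ^ 2 ∂m
  euler : ∀ t : ℝ, 0 < t → ∀ f, MemLp f 2 m →
    Tendsto (fun n : ℕ => eLpNorm (fun x => (J (t / n))^[n] f x - P t f x) 2 m) atTop (𝓝 0)
  P_mem : ∀ t : ℝ, 0 ≤ t → ∀ f, MemLp f 2 m → MemLp (P t f) 2 m
  P_zero : ∀ f, MemLp f 2 m → P 0 f =ᵐ[m] f
  P_markov : ∀ t : ℝ, 0 ≤ t → ∀ f g, MemLp f 2 m → MemLp g 2 m → ∀ c : ℝ, 0 ≤ c →
    (∀ᵐ x ∂m, f x ≤ c + g x) → ∀ᵐ x ∂m, P t f x ≤ c + P t g x
  P_lin : ∀ t : ℝ, 0 ≤ t → ∀ f g, MemLp f 2 m → MemLp g 2 m → ∀ a b : ℝ,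
    P t (fun x => a * f x + b * g x) =ᵐ[m] fun x => a * P t f x + b * P t g x
  P_symm : ∀ t : ℝ, 0 ≤ t → ∀ f g, MemLp f 2 m → MemLp g 2 m →
    ∫ x, P t f x * g x ∂m = ∫ x, f x * P t g x ∂m
  P_contr : ∀ t : ℝ, 0 ≤ t → ∀ f, MemLp f 2 m → eLpNorm (P t f) 2 m ≤ eLpNorm f 2 m
  P_mass : ∀ t : ℝ, 0 ≤ t → ∀ f, MemLp f 2 m → Integrable f m →
    Integrable (P t f) m ∧ ∫ x, P t f x ∂m = ∫ x, f x ∂m
  P_gaffney : ∀ t : ℝ, 0 ≤ t → ∀ (β : ℝ≥0) (ψ : X → ℝ), LipschitzWith β ψ →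
    ∀ f, MemLp f 2 m → MemLp (fun x => Real.exp (ψ x) * f x) 2 m →
      MemLp (fun x => Real.exp (ψ x) * P t f x) 2 m ∧
      ∫ x, (Real.exp (ψ x) * P t f x) ^ 2 ∂m ≤
        Real.exp (2 * (β : ℝ) ^ 2 * t) * ∫ x, (Real.exp (ψ x) * f x) ^ 2 ∂m
  P_sob : ∀ t : ℝ, 0 ≤ t → ∀ u, IsSobolev m u → IsSobolev m (P t u) ∧
    ∫ x, gradPairing m (P t u) (P t u) x ∂m ≤ ∫ x, gradPairing m u u x ∂m

/-- Sobolev-to-Lipschitz property. -/
def S2L (m : Measure X) : Prop :=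
  ∀ (u : X → ℝ) (L : ℝ≥0), IsSobolevLoc m u → (∀ᵐ x ∂m, minWeakGrad m u x ≤ L) → LipAE m L u

/-- Local Sobolev-to-Lipschitz property. -/
def S2Lloc (m : Measure X) : Prop :=
  ∀ (u : X → ℝ) (L : ℝ≥0) (x y : X) (r : ℝ), Continuous u → IsSobolevLoc m u →
    (∀ᵐ z ∂m, z ∈ Metric.ball x r → minWeakGrad m u z ≤ L) → 2 * dist x y < r →
      |u x - u y| ≤ L * dist x y

/-- Gradient estimate for the heat semigroup, on Lipschitz Sobolev functions. -/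
def GE (m : Measure X) (κ : ℝ) (P : ℝ → (X → ℝ) → X → ℝ) : Prop :=
  ∀ t : ℝ, 0 ≤ t → ∀ (f : X → ℝ) (L : ℝ≥0), LipAE m L f → IsSobolev m f →
    LipAE m (Real.toNNReal (Real.exp (κ * t)) * L) (P t f) ∧
    ∀ᵐ x ∂m, gradPairing m (P t f) (P t f) x ≤
      Real.exp (2 * κ * t) * P t (gradPairing m f f) x

end Crest.Agent.R242
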