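import Mathlib

/-!
# R242/DfA0: closed symmetric forms on a real Hilbert space (owner helper62; do not change the definitions)

`exists_J`: Riesz representation in the Hilbert space `(V, ⟪u, v⟫ + h E u v)` (type synonym of `F.V`,
`InnerProductSpace.Core`, completeness from `closed` applied to `u n - u N`), or minimise
`‖u‖² + h E u u - 2 ⟪f, u⟫` directly (parallelogram identity, minimising sequences are Cauchy).
-/

set_option autoImplicit false

open Filter Topology Set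
open scoped RealInnerProductSpace

noncomputable section

namespace Crest.Agent.R242

variable {H : Type*} [NormedAddCommGroup H] [InnerProductSpace ℝ H] [CompleteSpace H]

/-- a densely defined closed non-negative symmetric form -/
structure Frm (H : Type*) [NormedAddCommGroup H] [InnerProductSpace ℝ H] where
  V : Submodule ℝ H
  E : H → H → ℝ
  symm : ∀ {u v}, u ∈ V → v ∈ V → E u v = E v u
  add : ∀ {u v w}, u ∈ V → v ∈ V → w ∈ V → E (u + v) w = E u w + E v w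
  smul : ∀ {u w} (c : ℝ), u ∈ V → w ∈ V → E (c • u) w = c * E u w
  nonneg : ∀ {u}, u ∈ V → 0 ≤ E u u
  closed : ∃ c : ℝ, ∀ (u : ℕ → H) (x : H) (C : ℝ), (∀ n, u n ∈ V) → Tendsto u atTop (𝓝 x) →
    (∀ n, E (u n) (u n) ≤ C) → x ∈ V ∧ E x x ≤ c * C
  sep : ∀ f : H, (∀ v ∈ V, ⟪f, v⟫ = 0) → f = 0

namespace Frm

variable (F : Frm H)

/-- the form domain as a type of its own (it gets the form norm). -/
def dfa0_W {h : ℝ} (_hh : 0 < h) : Type _ := F.V

instance dfa0_acg {h : ℝ} (hh : 0 < h) : AddCommGroup (F.dfa0_W hh) :=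
  inferInstanceAs (AddCommGroup F.V)

instance dfa0_mod {h : ℝ} (hh : 0 < h) : Module ℝ (F.dfa0_W hh) :=
  inferInstanceAs (Module ℝ F.V)

/-- the inclusion as a linear map. -/
def dfa0_val {h : ℝ} (hh : 0 < h) : F.dfa0_W hh →ₗ[ℝ] H := F.V.subtype

/-- an element of the domain as an element of `dfa0_W`. -/
def dfa0_mk {h : ℝ} (hh : 0 < h) (v : H) (hv : v ∈ F.V) : F.dfa0_W hh := (⟨v, hv⟩ : F.V)

omit [CompleteSpace H] in
theorem dfa0_val_mk {h : ℝ} (hh : 0 < h) (v : H) (hv : v ∈ F.V) :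
    F.dfa0_val hh (F.dfa0_mk hh v hv) = v := rfl

omit [CompleteSpace H] in
theorem dfa0_mem {h : ℝ} (hh : 0 < h) (u : F.dfa0_W hh) : F.dfa0_val hh u ∈ F.V :=
  (show F.V from u).2

omit [CompleteSpace H] in
theorem dfa0_inj {h : ℝ} (hh : 0 < h) : Function.Injective (F.dfa0_val hh) :=
  Subtype.val_injective

/-- the form inner product. -/
@[reducible] def dfa0_core {h : ℝ} (hh : 0 < h) : InnerProductSpace.Core ℝ (F.dfa0_W hh) where
  inner u v := ⟪F.dfa0_val hh u, F.dfa0_val hh v⟫ + h * F.E (F.dfa0_val hh u) (F.dfa0_val hh v)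
  conj_inner_symm x y := by
    simp only [conj_trivial]
    rw [real_inner_comm, F.symm (F.dfa0_mem hh y) (F.dfa0_mem hh x)]
  re_inner_nonneg x := by
    simp only [RCLike.re_to_real]
    exact add_nonneg real_inner_self_nonneg (mul_nonneg hh.le (F.nonneg (F.dfa0_mem hh x)))
  add_left x y z := by
    rw [map_add, inner_add_left, F.add (F.dfa0_mem hh x) (F.dfa0_mem hh y) (F.dfa0_mem hh z)]
    ring
  smul_left x y r := by
    rw [map_smul, real_inner_smul_left, F.smul r (F.dfa0_mem hh x) (F.dfa0_mem hh y)]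
    simp only [conj_trivial]
    ring
  definite x hx := by
    have h1 : 0 ≤ ⟪F.dfa0_val hh x, F.dfa0_val hh x⟫ := real_inner_self_nonneg
    have h2 := mul_nonneg hh.le (F.nonneg (F.dfa0_mem hh x))
    have h3 : ⟪F.dfa0_val hh x, F.dfa0_val hh x⟫ = 0 := by linarith
    apply F.dfa0_inj hh
    rw [map_zero]
    exact inner_self_eq_zero.1 h3

instance dfa0_nacg {h : ℝ} (hh : 0 < h) : NormedAddCommGroup (F.dfa0_W hh) :=
  @InnerProductSpace.Core.toNormedAddCommGroup ℝ _ _ _ _ (F.dfa0_core hh)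

instance dfa0_ips {h : ℝ} (hh : 0 < h) : InnerProductSpace ℝ (F.dfa0_W hh) :=
  InnerProductSpace.ofCore (F.dfa0_core hh).toCore

omit [CompleteSpace H] in
theorem dfa0_inner {h : ℝ} (hh : 0 < h) (u v : F.dfa0_W hh) :
    ⟪u, v⟫ = ⟪F.dfa0_val hh u, F.dfa0_val hh v⟫ + h * F.E (F.dfa0_val hh u) (F.dfa0_val hh v) :=
  rfl

omit [CompleteSpace H] in
theorem dfa0_sq {h : ℝ} (hh : 0 < h) (u : F.dfa0_W hh) :
    ‖u‖ ^ 2 = ‖F.dfa0_val hh u‖ ^ 2 + h * F.E (F.dfa0_val hh u) (F.dfa0_val hh u) := by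
  rw [← real_inner_self_eq_norm_sq, ← real_inner_self_eq_norm_sq, dfa0_inner]

omit [CompleteSpace H] in
theorem dfa0_le {h : ℝ} (hh : 0 < h) (u : F.dfa0_W hh) : ‖F.dfa0_val hh u‖ ≤ 1 * ‖u‖ := by
  rw [one_mul]
  refine le_of_pow_le_pow_left₀ two_ne_zero (norm_nonneg _) ?_
  rw [F.dfa0_sq hh u]
  exact le_add_of_nonneg_right (mul_nonneg hh.le (F.nonneg (F.dfa0_mem hh u)))

/-- the inclusion as a continuous linear map. -/
def dfa0_inc {h : ℝ} (hh : 0 < h) : F.dfa0_W hh →L[ℝ] H :=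
  (F.dfa0_val hh).mkContinuous 1 (F.dfa0_le hh)

instance dfa0_complete {h : ℝ} (hh : 0 < h) : CompleteSpace (F.dfa0_W hh) := by
  obtain ⟨c, hc⟩ := F.closed
  refine Metric.complete_of_cauchySeq_tendsto fun u hu => ?_
  have hcau : CauchySeq fun n => F.dfa0_val hh (u n) :=
    (F.dfa0_inc hh).uniformContinuous.comp_cauchySeq hu
  obtain ⟨x, hx⟩ := cauchySeq_tendsto_of_complete hcau
  have key : ∀ ε > 0, ∃ N, ∀ n ≥ N, x - F.dfa0_val hh (u n) ∈ F.V ∧
      F.E (x - F.dfa0_val hh (u n)) (x - F.dfa0_val hh (u n)) ≤ c * (ε ^ 2 / h) := by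
    intro ε hε
    obtain ⟨N, hN⟩ := Metric.cauchySeq_iff.1 hu ε hε
    refine ⟨N, fun n hn => ?_⟩
    refine hc (fun k => F.dfa0_val hh (u (k + N) - u n)) _ _ (fun k => F.dfa0_mem hh _) ?_
      fun k => ?_
    · simp only [map_sub]
      exact (hx.comp (tendsto_add_atTop_nat N)).sub tendsto_const_nhds
    · have h1 := hN (k + N) (Nat.le_add_left N k) n hn
      rw [dist_eq_norm] at h1
      have h2 := F.dfa0_sq hh (u (k + N) - u n)
      have h3 : ‖u (k + N) - u n‖ ^ 2 ≤ ε ^ 2 := pow_le_pow_left₀ (norm_nonneg _) h1.le 2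
      rw [le_div_iff₀ hh]
      nlinarith [sq_nonneg ‖F.dfa0_val hh (u (k + N) - u n)‖]
  have hxV : x ∈ F.V := by
    obtain ⟨N, hN⟩ := key 1 one_pos
    have := F.V.add_mem (hN N le_rfl).1 (F.dfa0_mem hh (u N))
    rwa [sub_add_cancel] at this
  refine ⟨F.dfa0_mk hh x hxV, ?_⟩
  rw [Metric.tendsto_atTop]
  intro ε hε
  have hδ : 0 < ε / (|c| + 2) := by positivity
  obtain ⟨N, hN⟩ := key _ hδ
  obtain ⟨M, hM⟩ := Metric.tendsto_atTop.1 hx _ hδ
  refine ⟨max N M, fun n hn => ?_⟩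
  have h1 := (hN n (le_of_max_le_left hn)).2
  have h2 := hM n (le_of_max_le_right hn)
  rw [dist_comm, dist_eq_norm] at h2 ⊢
  have h3 := F.dfa0_sq hh (F.dfa0_mk hh x hxV - u n)
  rw [map_sub, dfa0_val_mk] at h3
  set δ := ε / (|c| + 2) with hδe
  have h4 : ‖x - F.dfa0_val hh (u n)‖ ^ 2 ≤ δ ^ 2 := pow_le_pow_left₀ (norm_nonneg _) h2.le 2
  have h5 : h * F.E (x - F.dfa0_val hh (u n)) (x - F.dfa0_val hh (u n)) ≤ |c| * δ ^ 2 := by
    have h6 : h * (c * (δ ^ 2 / h)) = c * δ ^ 2 := by field_simp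
    have h7 : c * δ ^ 2 ≤ |c| * δ ^ 2 := mul_le_mul_of_nonneg_right (le_abs_self c) (sq_nonneg _)
    have h8 := mul_le_mul_of_nonneg_left h1 hh.le
    linarith
  have h9 : ε = (|c| + 2) * δ := by
    rw [hδe]
    field_simp
  refine lt_of_pow_lt_pow_left₀ 2 hε.le ?_
  rw [h3, h9]
  have h10 := abs_nonneg c
  have h11 : 0 < δ ^ 2 := by positivity
  nlinarith [mul_nonneg h10 h11.le, mul_nonneg (mul_nonneg h10 h10) h11.le]

theorem exists_J {h : ℝ} (hh : 0 < h) :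
    ∃ J : H →L[ℝ] H, ∀ f, J f ∈ F.V ∧ ∀ v ∈ F.V, ⟪J f, v⟫ + h * F.E (J f) v = ⟪f, v⟫ := by
  refine ⟨(F.dfa0_inc hh).comp (ContinuousLinearMap.adjoint (F.dfa0_inc hh)), fun f =>
    ⟨F.dfa0_mem hh _, fun v hv => ?_⟩⟩
  have h1 := ContinuousLinearMap.adjoint_inner_left (F.dfa0_inc hh) (F.dfa0_mk hh v hv) f
  rw [dfa0_inner] at h1
  exact h1

/-- the resolvent `(1 - h L)⁻¹` (the identity for `h ≤ 0`) -/
def J (h : ℝ) : H →L[ℝ] H := if hh : 0 < h then (F.exists_J hh).choose else 1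

/-- `g = L u` for the (non-positive) generator `L` -/
def Gen (u g : H) : Prop := u ∈ F.V ∧ ∀ v ∈ F.V, F.E u v = -⟪g, v⟫

theorem J_mem {h : ℝ} (hh : 0 < h) (f : H) : F.J h f ∈ F.V := by
  rw [J, dif_pos hh]; exact ((F.exists_J hh).choose_spec f).1

theorem J_eq {h : ℝ} (hh : 0 < h) (f : H) {v : H} (hv : v ∈ F.V) : ⟪F.J h f, v⟫ + h * F.E (F.J h f) v = ⟪f, v⟫ := by
  rw [J, dif_pos hh]; exact ((F.exists_J hh).choose_spec f).2 v hv

theorem J_nonpos {h : ℝ} (hh : h ≤ 0) (f : H) : F.J h f = f := by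
  rw [J, dif_neg (not_lt.2 hh)]; rfl

end Frm

end Crest.Agent.R242

end
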