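import Crest.Agent.R242.DfA0

/-!
# R242/DfA1: the form, the generator and the resolvent (prefix for auxiliary lemmas `dfa1_`)
-/

set_option autoImplicit false

open Filter Topology Set
open scoped RealInnerProductSpace

noncomputable section

namespace Crest.Agent.R242

variable {H : Type*} [NormedAddCommGroup H] [InnerProductSpace ℝ H] [CompleteSpace H]

namespace Frm

variable {F : Frm H} {u v w f g k : H} {h : ℝ}

theorem E_add_right (hu : u ∈ F.V) (hv : v ∈ F.V) (hw : w ∈ F.V) : F.E w (u + v) = F.E w u + F.E w v := by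
  rw [F.symm hw (add_mem hu hv), F.add hu hv hw, F.symm hu hw, F.symm hv hw]

theorem E_smul_right (c : ℝ) (hu : u ∈ F.V) (hw : w ∈ F.V) : F.E w (c • u) = c * F.E w u := by
  rw [F.symm hw (F.V.smul_mem c hu), F.smul c hu hw, F.symm hu hw]

theorem E_sub (hu : u ∈ F.V) (hv : v ∈ F.V) (hw : w ∈ F.V) : F.E (u - v) w = F.E u w - F.E v w := by
  rw [sub_eq_add_neg, ← neg_one_smul ℝ v, F.add hu (F.V.smul_mem _ hv) hw, F.smul _ hv hw]
  ring

theorem E_sub_right (hu : u ∈ F.V) (hv : v ∈ F.V) (hw : w ∈ F.V) : F.E w (u - v) = F.E w u - F.E w v := by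
  rw [F.symm hw (sub_mem hu hv), E_sub hu hv hw, F.symm hu hw, F.symm hv hw]

theorem E_zero (hw : w ∈ F.V) : F.E 0 w = 0 := by
  simpa using F.smul 0 hw hw

/-- Cauchy-Schwarz (`discrim_le_zero`) -/
theorem E_sq_le (hu : u ∈ F.V) (hv : v ∈ F.V) : F.E u v ^ 2 ≤ F.E u u * F.E v v := by
  have := discrim_le_zero (a := F.E u u) (b := 2 * F.E u v) (c := F.E v v) fun x => by
    have h1 := F.V.smul_mem x hu
    have h2 := F.nonneg (add_mem h1 hv)
    rw [F.add h1 hv (add_mem h1 hv), E_add_right h1 hv h1, E_add_right h1 hv hv, F.smul x hu h1, F.smul x hu hv,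
      E_smul_right x hu hu, E_smul_right x hu hv, F.symm hv hu] at h2
    linarith
  rw [discrim] at this
  linarith

theorem eq_of_inner (F : Frm H) (h : ∀ v ∈ F.V, ⟪f, v⟫ = ⟪g, v⟫) : f = g := by
  exact sub_eq_zero.1 (F.sep _ fun v hv => by rw [inner_sub_left, h v hv, sub_self])

theorem dense_V (F : Frm H) : Dense (F.V : Set H) := by
  rw [Submodule.dense_iff_topologicalClosure_eq_top, Submodule.topologicalClosure_eq_top_iff, eq_bot_iff]
  exact fun f hf => F.sep f ((Submodule.mem_orthogonal' _ _).1 hf)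

theorem Gen.unique (h1 : F.Gen u g) (h2 : F.Gen u k) : g = k := by
  exact F.eq_of_inner fun v hv => neg_injective ((h1.2 v hv).symm.trans (h2.2 v hv))

theorem Gen.zero : F.Gen 0 0 := by
  exact ⟨zero_mem _, fun v hv => by simp [E_zero hv]⟩

theorem Gen.add (h1 : F.Gen u g) (h2 : F.Gen v k) : F.Gen (u + v) (g + k) := by
  exact ⟨add_mem h1.1 h2.1, fun w hw => by rw [F.add h1.1 h2.1 hw, h1.2 w hw, h2.2 w hw, inner_add_left, neg_add]⟩

theorem Gen.smul (c : ℝ) (h1 : F.Gen u g) : F.Gen (c • u) (c • g) := by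
  exact ⟨F.V.smul_mem c h1.1, fun w hw => by rw [F.smul c h1.1 hw, h1.2 w hw, real_inner_smul_left, mul_neg]⟩

theorem Gen.sub (h1 : F.Gen u g) (h2 : F.Gen v k) : F.Gen (u - v) (g - k) := by
  exact ⟨sub_mem h1.1 h2.1, fun w hw => by rw [E_sub h1.1 h2.1 hw, h1.2 w hw, h2.2 w hw, inner_sub_left]; ring⟩

theorem Gen.symm (h1 : F.Gen u g) (h2 : F.Gen v k) : ⟪g, v⟫ = ⟪u, k⟫ := by
  rw [real_inner_comm k u]
  exact neg_injective ((h1.2 v h2.1).symm.trans ((F.symm h1.1 h2.1).trans (h2.2 u h1.1)))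

theorem J_unique (hh : 0 < h) (hu : u ∈ F.V) (he : ∀ v ∈ F.V, ⟪u, v⟫ + h * F.E u v = ⟪f, v⟫) : F.J h f = u := by
  have h1 := sub_mem (F.J_mem hh f) hu
  have h2 := F.J_eq hh f h1
  have h3 := he _ h1
  have h4 := mul_nonneg hh.le (F.nonneg h1)
  rw [E_sub (F.J_mem hh f) hu h1] at h4
  have h5 : ⟪F.J h f - u, F.J h f - u⟫ ≤ 0 := by rw [inner_sub_left]; linarith
  exact sub_eq_zero.1 (real_inner_self_nonpos.1 h5)

theorem gen_J (F : Frm H) (hh : 0 < h) (f : H) : F.Gen (F.J h f) (h⁻¹ • (F.J h f - f)) := by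
  refine ⟨F.J_mem hh f, fun v hv => ?_⟩
  rw [real_inner_smul_left, inner_sub_left, ← F.J_eq hh f hv]
  field_simp
  ring

theorem Gen.J_eq (h1 : F.Gen u g) (hh : 0 < h) : F.J h (u - h • g) = u := by
  exact J_unique hh h1.1 fun v hv => by rw [h1.2 v hv, inner_sub_left, real_inner_smul_left]; ring

theorem Gen.J_sub (h1 : F.Gen u g) (hh : 0 < h) : F.J h u - u = h • F.J h g := by
  have := h1.J_eq hh
  rw [map_sub, map_smul] at this
  rw [sub_eq_iff_eq_add', ← sub_eq_iff_eq_add, this]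

theorem Gen.J (h1 : F.Gen u g) (h : ℝ) : F.Gen (F.J h u) (F.J h g) := by
  rcases le_or_gt h 0 with hh | hh
  · rwa [F.J_nonpos hh, F.J_nonpos hh]
  · have := F.gen_J hh u
    rwa [h1.J_sub hh, inv_smul_smul₀ hh.ne'] at this

theorem norm_J_le (F : Frm H) (h : ℝ) (f : H) : ‖F.J h f‖ ≤ ‖f‖ := by
  rcases le_or_gt h 0 with hh | hh
  · rw [F.J_nonpos hh]
  · have h1 := F.J_eq hh f (F.J_mem hh f)
    have h2 := mul_nonneg hh.le (F.nonneg (F.J_mem hh f))
    have h3 := real_inner_le_norm f (F.J h f)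
    rw [real_inner_self_eq_norm_sq] at h1
    nlinarith [norm_nonneg f, norm_nonneg (F.J h f)]

theorem J_symm (F : Frm H) (h : ℝ) (f g : H) : ⟪F.J h f, g⟫ = ⟪f, F.J h g⟫ := by
  rcases le_or_gt h 0 with hh | hh
  · rw [F.J_nonpos hh, F.J_nonpos hh]
  · rw [← F.J_eq hh f (F.J_mem hh g), real_inner_comm, ← F.J_eq hh g (F.J_mem hh f), real_inner_comm,
      F.symm (F.J_mem hh f) (F.J_mem hh g)]

/-- resolvent identity -/
theorem J_res (F : Frm H) (hh : 0 < h) {h' : ℝ} (hh' : 0 < h') (f : H) :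
    F.J h f = F.J h' ((h' / h) • f + (1 - h' / h) • F.J h f) := by
  refine (J_unique hh' (F.J_mem hh f) fun v hv => ?_).symm
  rw [inner_add_left, real_inner_smul_left, real_inner_smul_left, ← F.J_eq hh f hv]
  field_simp
  ring

theorem J_comm (F : Frm H) (h h' : ℝ) (f : H) : F.J h (F.J h' f) = F.J h' (F.J h f) := by
  rcases le_or_gt h' 0 with hh | hh
  · rw [F.J_nonpos hh, F.J_nonpos hh]
  · have := ((F.gen_J hh f).J h).J_eq hh
    rw [map_smul, smul_inv_smul₀ hh.ne', map_sub (F.J h), sub_sub_cancel] at this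
    exact this.symm

theorem dfa1_key (hu : u ∈ F.V) (hh : 0 < h) :
    ‖F.J h u - u‖ ^ 2 = h * (F.E (F.J h u) u - F.E (F.J h u) (F.J h u)) ∧
      2 * F.E (F.J h u) u ≤ F.E u u + F.E (F.J h u) (F.J h u) := by
  have h0 := F.J_mem hh u
  have h1 := sub_mem h0 hu
  have h2 := F.J_eq hh u h1
  have h3 := F.nonneg h1
  rw [E_sub h0 hu h1, E_sub_right h0 hu h0, E_sub_right h0 hu hu, F.symm hu h0] at h3
  rw [E_sub_right h0 hu h0] at h2
  rw [← real_inner_self_eq_norm_sq, inner_sub_left]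
  constructor <;> linarith

theorem E_J_le (hu : u ∈ F.V) (h : ℝ) : F.E (F.J h u) (F.J h u) ≤ F.E u u := by
  rcases le_or_gt h 0 with hh | hh
  · rw [F.J_nonpos hh]
  · obtain ⟨h1, h2⟩ := dfa1_key hu hh
    have := nonneg_of_mul_nonneg_right (h1 ▸ sq_nonneg _) hh
    linarith

theorem norm_J_sub_sq (hu : u ∈ F.V) (hh : 0 < h) : ‖F.J h u - u‖ ^ 2 ≤ h * F.E u u := by
  obtain ⟨h1, h2⟩ := dfa1_key hu hh
  rw [h1]
  exact mul_le_mul_of_nonneg_left (by linarith [F.nonneg hu, F.nonneg (F.J_mem hh u)]) hh.le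

theorem inner_sub_J_le (hu : u ∈ F.V) (hh : 0 < h) : ⟪u - F.J h u, u⟫ ≤ h * F.E u u := by
  have h1 := (dfa1_key hu hh).2
  have h2 := F.J_eq hh u hu
  have h3 : h * F.E (F.J h u) u ≤ h * F.E u u := mul_le_mul_of_nonneg_left (by linarith [E_J_le hu h]) hh.le
  rw [inner_sub_left]
  linarith

theorem E_J_le' (F : Frm H) (hh : 0 < h) (f : H) : h * F.E (F.J h f) (F.J h f) ≤ ⟪f - F.J h f, f⟫ := by
  have h1 := F.J_eq hh f (F.J_mem hh f)
  have h2 : 0 ≤ ⟪f - F.J h f, f - F.J h f⟫ := real_inner_self_nonneg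
  rw [inner_sub_right, inner_sub_left f _ (F.J h f)] at h2
  linarith

/-- density of `V`, `norm_J_sub_sq`, `norm_J_le` -/
theorem tendsto_J (F : Frm H) (f : H) : Tendsto (fun h => F.J h f) (𝓝[>] 0) (𝓝 f) := by
  refine Metric.tendsto_nhds.2 fun ε hε => ?_
  obtain ⟨u, hu, h1⟩ := F.dense_V.exists_dist_lt f (by positivity : 0 < ε / 3)
  have h2 : Tendsto (fun h : ℝ => h * F.E u u) (𝓝[>] 0) (𝓝 0) := by
    have : Continuous fun h : ℝ => h * F.E u u := by fun_prop
    simpa using (this.tendsto 0).mono_left nhdsWithin_le_nhds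
  filter_upwards [h2.eventually (gt_mem_nhds (by positivity : 0 < (ε / 3) ^ 2)), self_mem_nhdsWithin] with h h3 hh
  have h4 := lt_of_pow_lt_pow_left₀ 2 (by positivity) ((norm_J_sub_sq hu hh).trans_lt h3)
  have h5 := F.norm_J_le h (f - u)
  rw [map_sub] at h5
  rw [dist_eq_norm] at h1
  have h6 := dist_triangle4 (F.J h f) (F.J h u) u f
  rw [dist_eq_norm (F.J h f) (F.J h u), dist_eq_norm _ u, dist_comm u, dist_eq_norm f] at h6
  linarith

end Frm

end Crest.Agent.R242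

end
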