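import Crest.Agent.R242.DfA1

/-!
# R242/DfA2: closedness (prefix `dfa2_`)

`tendsto_E_J`: `E (J h u - J k u) (J h u - J k u)` is small: with `a h = ⟪u - J h u, u⟫ / h ≤ E u u`, and
`E (J h u) v = ⟪u - J h u, v⟫ / h`.  One way: `E (J h u - u) (J h u - u) ≤ E u u - E (J h u) u`
(as `E (J h u) (J h u) ≤ E (J h u) u`), `h ↦ E (J h u) u` is bounded by `E u u` and increases as `h ↓ 0` (resolvent identity), the family
`J h u` is Cauchy for `E`, `closed`.  Shorter: in the Hilbert space `(V, E₁)` the range of `J 1` is dense (its orthogonal complement is `0` by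
`J_eq`), and for `u = J 1 f`, `E (J h u - u) (J h u - u) = h² E (J h g) (J h g) ≤ h ‖g‖²`; without the Hilbert space: `J k u → u`
is what has to be shown, so use the first way, or minimise `E₁ (u - J 1 f)` over `f`.
`lsc`: `⟪x - J h x, x⟫ = lim ⟪u n - J h (u n), u n⟫ ≤ h C`, then `mem_V_of_J`.
`mem_V_of_J`: `E_J_le'`, `closed` along `h = 1/(n+1)` gives `u ∈ V`, `tendsto_E_J` gives the constant.
`gen_of_bdd`: Riesz (`InnerProductSpace.toDual` after extending the functional from the dense subspace, or: `g h = (J h u - u)/h` has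
`‖g h‖ ≤ C` and is Cauchy as `h → 0`, since `‖g h‖` is monotone and `‖g h - g k‖² ≤ |‖g h‖² - ‖g k‖²|`).
-/

set_option autoImplicit false

open Filter Topology Set
open scoped RealInnerProductSpace

noncomputable section

namespace Crest.Agent.R242

variable {H : Type*} [NormedAddCommGroup H] [InnerProductSpace ℝ H] [CompleteSpace H]

namespace Frm

variable {F : Frm H} {u v w f g k : H} {h : ℝ}

theorem dfa2_E_sub_sub (hu : u ∈ F.V) (hv : v ∈ F.V) :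
    F.E (u - v) (u - v) = F.E u u - 2 * F.E v u + F.E v v := by
  rw [E_sub hu hv (F.V.sub_mem hu hv), E_sub_right hu hv hu, E_sub_right hu hv hv, F.symm hu hv]
  ring

theorem dfa2_E_neg (hu : u ∈ F.V) : F.E (-u) (-u) = F.E u u := by
  have h1 : -u = (-1 : ℝ) • u := by simp
  rw [h1, F.smul _ hu (F.V.smul_mem _ hu), E_smul_right _ hu hu]
  ring

theorem dfa2_E_sub_le (hu : u ∈ F.V) (hv : v ∈ F.V) : F.E (u - v) (u - v) ≤ 2 * F.E u u + 2 * F.E v v := by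
  have h1 := F.nonneg (F.V.add_mem hu hv)
  rw [F.add hu hv (F.V.add_mem hu hv), E_add_right hu hv hu, E_add_right hu hv hv, F.symm hu hv] at h1
  rw [dfa2_E_sub_sub hu hv]
  linarith

theorem dfa2_E_J (hh : 0 < h) (f : H) (hv : v ∈ F.V) : F.E (F.J h f) v = ⟪f - F.J h f, v⟫ / h := by
  have h1 := F.J_eq hh f hv
  rw [inner_sub_left, eq_div_iff hh.ne']
  linarith

theorem dfa2_diff (u : H) {h k : ℝ} (hk : 0 < k) (hkh : k ≤ h) :
    F.E (F.J k u - F.J h u) (F.J k u - F.J h u) ≤ ⟪u - F.J k u, u⟫ / k - ⟪u - F.J h u, u⟫ / h := by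
  have hh : 0 < h := hk.trans_le hkh
  have hy := F.J_mem hk u
  have hw := F.J_mem hh u
  rw [dfa2_E_sub_sub hy hw, dfa2_E_J hk u hy, dfa2_E_J hh u hy, dfa2_E_J hh u hw]
  set y := F.J k u
  set w := F.J h u
  have e1 : ⟪u - y, u⟫ = ⟪u - y, y⟫ + ‖u - y‖ ^ 2 := by
    rw [← real_inner_self_eq_norm_sq, inner_sub_right]; ring
  have e2 : ⟪u - w, u⟫ = ⟪u - w, w⟫ + ‖u - w‖ ^ 2 := by
    rw [← real_inner_self_eq_norm_sq, inner_sub_right]; ring
  have e3 : ‖u - y‖ ^ 2 = ‖u - w‖ ^ 2 - 2 * (⟪u - w, y⟫ - ⟪u - w, w⟫) + ‖y - w‖ ^ 2 := by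
    have : u - y = (u - w) - (y - w) := by abel
    rw [this, norm_sub_sq_real, inner_sub_right]
  have e4 : ‖u - y‖ ^ 2 / h ≤ ‖u - y‖ ^ 2 / k := div_le_div_of_nonneg_left (sq_nonneg _) hk hkh
  have e5 : 0 ≤ ‖y - w‖ ^ 2 / h := by positivity
  have e6 : ‖u - y‖ ^ 2 / h = ‖u - w‖ ^ 2 / h - 2 * (⟪u - w, y⟫ / h) + 2 * (⟪u - w, w⟫ / h) + ‖y - w‖ ^ 2 / h := by
    rw [e3]; ring
  rw [e1, e2, add_div, add_div]
  linarith

theorem tendsto_E_J (hu : u ∈ F.V) : Tendsto (fun h => F.E (F.J h u - u) (F.J h u - u)) (𝓝[>] 0) (𝓝 0) := by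
  obtain ⟨c, hc⟩ := F.closed
  set a : ℝ → ℝ := fun h => ⟪u - F.J h u, u⟫ / h with ha
  have hanti : AntitoneOn a (Ioi 0) := fun k hk h hh hkh => by
    have h1 := dfa2_diff (F := F) u (h := h) (k := k) hk hkh
    have h2 := F.nonneg (F.V.sub_mem (F.J_mem hk u) (F.J_mem hh u))
    simp only [ha]
    linarith
  have hbdd : BddAbove (a '' Ioi 0) := by
    refine ⟨F.E u u, ?_⟩
    rintro _ ⟨h, hh, rfl⟩
    have := inner_sub_J_le hu (h := h) hh
    simp only [ha]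
    rw [div_le_iff₀ hh]
    linarith
  set A := sSup (a '' Ioi 0) with hA
  have hlim : Tendsto a (𝓝[>] 0) (𝓝 A) := hanti.tendsto_nhdsGT hbdd
  have hle : ∀ h : ℝ, 0 < h → F.E (F.J h u - u) (F.J h u - u) ≤ c * (A - a h) := by
    intro h hh
    have hev : ∀ᶠ k in 𝓝[>] (0 : ℝ), 0 < k ∧ k ≤ h := by
      filter_upwards [Ioc_mem_nhdsGT hh] with k hk using hk
    obtain ⟨s, hs, hs'⟩ := exists_seq_forall_of_frequently hev.frequently
    have h1 := hc (fun n => F.J (s n) u - F.J h u) (u - F.J h u) (A - a h)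
      (fun n => F.V.sub_mem (F.J_mem (hs' n).1 u) (F.J_mem hh u))
      (((F.tendsto_J u).comp hs).sub_const _) fun n => by
        have h2 := dfa2_diff (F := F) u (hs' n).1 (hs' n).2
        have h3 : a (s n) ≤ A := le_csSup hbdd ⟨s n, (hs' n).1, rfl⟩
        simp only [ha] at h3 ⊢
        linarith
    rw [← dfa2_E_neg (F.V.sub_mem (F.J_mem hh u) hu), neg_sub]
    exact h1.2
  have h0 : Tendsto (fun h => c * (A - a h)) (𝓝[>] 0) (𝓝 0) := by
    have := (hlim.const_sub A).const_mul c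
    simpa using this
  refine squeeze_zero' ?_ ?_ h0
  · filter_upwards [self_mem_nhdsWithin] with h hh
    exact F.nonneg (F.V.sub_mem (F.J_mem hh u) hu)
  · filter_upwards [self_mem_nhdsWithin] with h hh
    exact hle h hh

theorem dfa2_tendsto_left (hu : u ∈ F.V) (hv : v ∈ F.V) :
    Tendsto (fun h => F.E (F.J h u) v) (𝓝[>] 0) (𝓝 (F.E u v)) := by
  rw [tendsto_iff_dist_tendsto_zero]
  have h0 : Tendsto (fun h => √(F.E (F.J h u - u) (F.J h u - u) * F.E v v)) (𝓝[>] 0) (𝓝 0) := by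
    have := ((tendsto_E_J hu).mul_const (F.E v v)).sqrt
    simpa using this
  refine squeeze_zero' (Eventually.of_forall fun _ => dist_nonneg) ?_ h0
  filter_upwards [self_mem_nhdsWithin] with h hh
  rw [Real.dist_eq, ← E_sub (F.J_mem hh u) hu hv]
  exact Real.abs_le_sqrt (E_sq_le (F.V.sub_mem (F.J_mem hh u) hu) hv)

theorem mem_V_of_J {C : ℝ} (hC : ∀ᶠ h in 𝓝[>] (0 : ℝ), ⟪u - F.J h u, u⟫ ≤ C * h) : u ∈ F.V ∧ F.E u u ≤ C := by
  obtain ⟨c, hc⟩ := F.closed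
  have hev : ∀ᶠ h in 𝓝[>] (0 : ℝ), 0 < h ∧ ⟪u - F.J h u, u⟫ ≤ C * h :=
    (eventually_mem_nhdsWithin (s := Ioi (0 : ℝ))).and hC
  obtain ⟨s, hs, hs'⟩ := exists_seq_forall_of_frequently hev.frequently
  have hu : u ∈ F.V := (hc (fun n => F.J (s n) u) u C (fun n => F.J_mem (hs' n).1 u)
    ((F.tendsto_J u).comp hs) fun n => by
      have h1 := (F.E_J_le' (hs' n).1 u).trans (hs' n).2
      rw [mul_comm C] at h1
      exact le_of_mul_le_mul_left h1 (hs' n).1).1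
  refine ⟨hu, le_of_tendsto (dfa2_tendsto_left hu hu) ?_⟩
  filter_upwards [hev] with h hh
  rw [dfa2_E_J hh.1 u hu, div_le_iff₀ hh.1]
  exact hh.2

theorem lsc {ι : Type*} {l : Filter ι} [l.NeBot] {x : ι → H} {C : ℝ} (hx : Tendsto x l (𝓝 u))
    (hC : ∀ᶠ i in l, x i ∈ F.V ∧ F.E (x i) (x i) ≤ C) : u ∈ F.V ∧ F.E u u ≤ C := by
  refine mem_V_of_J ?_
  filter_upwards [self_mem_nhdsWithin] with h hh
  have hh' : 0 < h := hh
  have h1 : Tendsto (fun i => ⟪x i - F.J h (x i), x i⟫) l (𝓝 ⟪u - F.J h u, u⟫) :=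
    (hx.sub (((F.J h).continuous.tendsto u).comp hx)).inner (𝕜 := ℝ) hx
  refine le_of_tendsto h1 ?_
  filter_upwards [hC] with i hi
  refine (inner_sub_J_le hi.1 hh').trans ?_
  rw [mul_comm C]
  exact mul_le_mul_of_nonneg_left hi.2 hh'.le

/-- bounded in `E` and convergent in `H` implies weakly convergent for `E` -/
theorem tendsto_E_weak {ι : Type*} {l : Filter ι} {x : ι → H} {C : ℝ} (hx : Tendsto x l (𝓝 u)) (hu : u ∈ F.V)
    (hC : ∀ᶠ i in l, x i ∈ F.V ∧ F.E (x i) (x i) ≤ C) (hv : v ∈ F.V) :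
    Tendsto (fun i => F.E (x i) v) l (𝓝 (F.E u v)) := by
  rw [Metric.tendsto_nhds]
  intro ε hε
  have h0 : Tendsto (fun h => (2 * C + 2 * F.E u u) * F.E (F.J h v - v) (F.J h v - v)) (𝓝[>] 0) (𝓝 0) := by
    have := (tendsto_E_J hv).const_mul (2 * C + 2 * F.E u u)
    simpa using this
  obtain ⟨h, h1, hh⟩ := ((h0.eventually (gt_mem_nhds (show (0 : ℝ) < (ε / 2) ^ 2 by positivity))).and
    (eventually_mem_nhdsWithin (s := Ioi (0 : ℝ)))).exists
  have hh' : 0 < h := hh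
  have h2 : Tendsto (fun i => ⟪v - F.J h v, x i - u⟫ / h) l (𝓝 0) := by
    have := ((tendsto_const_nhds (x := v - F.J h v)).inner (𝕜 := ℝ) (hx.sub_const u)).div_const h
    simpa using this
  filter_upwards [hC, (Metric.tendsto_nhds.1 h2) (ε / 2) (half_pos hε)] with i hi hi'
  have hd := F.V.sub_mem hi.1 hu
  have hJ := F.J_mem hh' v
  have hw := F.V.sub_mem hJ hv
  rw [Real.dist_eq, sub_zero, ← dfa2_E_J hh' v hd, F.symm hJ hd] at hi'
  have h3 : F.E (x i - u) (F.J h v - v) ^ 2 < (ε / 2) ^ 2 := by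
    refine (E_sq_le hd hw).trans_lt (lt_of_le_of_lt ?_ h1)
    refine mul_le_mul_of_nonneg_right ?_ (F.nonneg hw)
    linarith [dfa2_E_sub_le hi.1 hu, hi.2]
  have h4 := abs_lt_of_sq_lt_sq h3 (half_pos hε).le
  rw [E_sub_right hJ hv hd] at h4
  rw [Real.dist_eq, ← E_sub hi.1 hu hv]
  rw [abs_lt] at h4 hi' ⊢
  constructor <;> linarith [h4.1, h4.2, hi'.1, hi'.2]

theorem gen_of_bdd {C : ℝ} (hC0 : 0 ≤ C) (hu : u ∈ F.V) (hC : ∀ v ∈ F.V, |F.E u v| ≤ C * ‖v‖) :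
    ∃ g, F.Gen u g ∧ ‖g‖ ≤ C := by
  let φ : F.V →ₗ[ℝ] ℝ :=
    { toFun := fun v => F.E u v
      map_add' := fun v w => E_add_right v.2 w.2 hu
      map_smul' := fun c v => E_smul_right c v.2 hu }
  have hφ : ∀ v, ‖φ v‖ ≤ C * ‖v‖ := fun v => hC v v.2
  obtain ⟨ψ, h1, h2⟩ := exists_extension_norm_eq F.V (φ.mkContinuous C hφ)
  refine ⟨-(InnerProductSpace.toDual ℝ H).symm ψ, ⟨hu, fun v hv => ?_⟩, ?_⟩
  · rw [inner_neg_left, neg_neg, InnerProductSpace.toDual_symm_apply]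
    exact (h1 ⟨v, hv⟩).symm
  · rw [norm_neg, LinearIsometryEquiv.norm_map, h2]
    exact LinearMap.mkContinuous_norm_le φ hC0 hφ

/-- `x i = J 1 (x i - y i) → J 1 (u - g)` -/
theorem Gen.closed {ι : Type*} {l : Filter ι} [l.NeBot] {x y : ι → H} (hx : Tendsto x l (𝓝 u)) (hy : Tendsto y l (𝓝 g))
    (h1 : ∀ᶠ i in l, F.Gen (x i) (y i)) : F.Gen u g := by
  have h2 : Tendsto (fun i => F.J 1 (x i - y i)) l (𝓝 (F.J 1 (u - g))) :=
    ((F.J 1).continuous.tendsto _).comp (hx.sub hy)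
  have h3 : Tendsto x l (𝓝 (F.J 1 (u - g))) := by
    refine h2.congr' ?_
    filter_upwards [h1] with i hi
    have := hi.J_eq one_pos
    rwa [one_smul] at this
  have h4 : F.J 1 (u - g) = u := tendsto_nhds_unique h3 hx
  have h5 := F.gen_J one_pos (u - g)
  rw [h4] at h5
  simpa using h5

theorem Gen.closed_bdd {ι : Type*} {l : Filter ι} [l.NeBot] {x : ι → H} {C : ℝ} (hx : Tendsto x l (𝓝 u))
    (h1 : ∀ᶠ i in l, ∃ y, F.Gen (x i) y ∧ ‖y‖ ≤ C) : ∃ g, F.Gen u g ∧ ‖g‖ ≤ C := by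
  obtain ⟨i0, y0, -, hy0⟩ := h1.exists
  have hC0 : 0 ≤ C := (norm_nonneg _).trans hy0
  have hn : ∀ᶠ i in l, ‖x i‖ < ‖u‖ + 1 := hx.norm.eventually (gt_mem_nhds (lt_add_one _))
  have hb : ∀ᶠ i in l, x i ∈ F.V ∧ F.E (x i) (x i) ≤ C * (‖u‖ + 1) := by
    filter_upwards [h1, hn] with i hi hi'
    obtain ⟨y, hy, hyC⟩ := hi
    refine ⟨hy.1, ?_⟩
    rw [hy.2 _ hy.1]
    refine (neg_le_abs _).trans ((abs_real_inner_le_norm _ _).trans ?_)
    exact mul_le_mul hyC hi'.le (norm_nonneg _) hC0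
  have hu := (lsc hx hb).1
  refine gen_of_bdd hC0 hu fun v hv => le_of_tendsto (tendsto_E_weak hx hu hb hv).abs ?_
  filter_upwards [h1] with i hi
  obtain ⟨y, hy, hyC⟩ := hi
  rw [hy.2 _ hv, abs_neg]
  exact (abs_real_inner_le_norm _ _).trans (mul_le_mul_of_nonneg_right hyC (norm_nonneg _))

end Frm

end Crest.Agent.R242

end
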