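import Crest.Agent.R242.DfA1

/-!
# R242/DfA3: the semigroup (Yosida approximation; helper62)
-/

set_option autoImplicit false

open Filter Topology Set
open scoped RealInnerProductSpace

noncomputable section

namespace Crest.Agent.R242

variable {H : Type*} [NormedAddCommGroup H] [InnerProductSpace ℝ H] [CompleteSpace H]

namespace Frm

variable (F : Frm H)

/-- the semigroup generated by `L` (the identity for `t ≤ 0`) -/
structure IsSG (P : ℝ → H →L[ℝ] H) : Prop where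
  nonpos : ∀ t ≤ 0, ∀ f, P t f = f
  add : ∀ s t, 0 ≤ s → 0 ≤ t → ∀ f, P (s + t) f = P s (P t f)
  norm_le : ∀ t f, ‖P t f‖ ≤ ‖f‖
  symm : ∀ t f g, ⟪P t f, g⟫ = ⟪f, P t g⟫
  comm_J : ∀ t h f, P t (F.J h f) = F.J h (P t f)
  cont : ∀ f, Continuous fun t => P t f
  der : ∀ u g, F.Gen u g → ∀ t, 0 ≤ t → HasDerivWithinAt (fun s => P s u) (P t g) (Ici 0) t

/-- `exp (t A)` for a bounded operator -/
def dfa3_Q (A : H →L[ℝ] H) (t : ℝ) : H →L[ℝ] H := NormedSpace.exp (t • A)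

theorem dfa3_der0 (A : H →L[ℝ] H) (t : ℝ) : HasDerivAt (dfa3_Q A) (dfa3_Q A t * A) t :=
  hasDerivAt_exp_smul_const A t

theorem dfa3_der (A : H →L[ℝ] H) (f : H) (t : ℝ) :
    HasDerivAt (fun s => dfa3_Q A s f) (dfa3_Q A t (A f)) t := by
  simpa using (dfa3_der0 A t).clm_apply (hasDerivAt_const t f)

theorem dfa3_zero (A : H →L[ℝ] H) (f : H) : dfa3_Q A 0 f = f := by
  simp [dfa3_Q]

theorem dfa3_comm {A B : H →L[ℝ] H} (h : ∀ x, A (B x) = B (A x)) (t : ℝ) (f : H) :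
    dfa3_Q A t (B f) = B (dfa3_Q A t f) := by
  have h1 : Commute A B := ContinuousLinearMap.ext h
  have h2 : Commute (dfa3_Q A t) B := (h1.smul_left t).exp_left
  exact congrArg (fun T : H →L[ℝ] H => T f) h2.eq

theorem dfa3_add (A : H →L[ℝ] H) (s t : ℝ) (f : H) : dfa3_Q A (s + t) f = dfa3_Q A s (dfa3_Q A t f) := by
  have h1 : Commute (s • A) (t • A) := ((Commute.refl A).smul_left s).smul_right t
  have h2 := NormedSpace.exp_add_of_commute_of_mem_ball (𝕂 := ℝ) h1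
    ((NormedSpace.expSeries_radius_eq_top ℝ (H →L[ℝ] H)).symm ▸ edist_lt_top _ _)
    ((NormedSpace.expSeries_radius_eq_top ℝ (H →L[ℝ] H)).symm ▸ edist_lt_top _ _)
  rw [← add_smul] at h2
  exact congrArg (fun T : H →L[ℝ] H => T f) h2

theorem dfa3_symm {A : H →L[ℝ] H} (h : ∀ x y, ⟪A x, y⟫ = ⟪x, A y⟫) (t : ℝ) (f g : H) :
    ⟪dfa3_Q A t f, g⟫ = ⟪f, dfa3_Q A t g⟫ := by
  have h1 : IsSelfAdjoint (t • A) := ContinuousLinearMap.isSelfAdjoint_iff_isSymmetric.2 fun x y => by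
    simp [real_inner_smul_left, real_inner_smul_right, h]
  exact ContinuousLinearMap.isSelfAdjoint_iff_isSymmetric.1 h1.exp f g

theorem dfa3_norm {A : H →L[ℝ] H} (h : ∀ x, ⟪A x, x⟫ ≤ 0) {t : ℝ} (ht : 0 ≤ t) (f : H) :
    ‖dfa3_Q A t f‖ ≤ ‖f‖ := by
  have h1 : ∀ s, HasDerivAt (fun s => ‖dfa3_Q A s f‖ ^ 2) (2 * ⟪dfa3_Q A s f, dfa3_Q A s (A f)⟫) s :=
    fun s => (dfa3_der A f s).norm_sq
  have h2 : Antitone fun s => ‖dfa3_Q A s f‖ ^ 2 := by
    refine antitone_of_deriv_nonpos (fun s => (h1 s).differentiableAt) fun s => ?_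
    rw [(h1 s).deriv, dfa3_comm (fun _ => rfl), real_inner_comm]
    linarith [h (dfa3_Q A s f)]
  have h3 := h2 ht
  simp only [dfa3_zero] at h3
  exact le_of_pow_le_pow_left₀ two_ne_zero (norm_nonneg _) h3

theorem dfa3_cauchy {A B : H →L[ℝ] H} (hA : ∀ x, ⟪A x, x⟫ ≤ 0) (hB : ∀ x, ⟪B x, x⟫ ≤ 0)
    (h : ∀ x, A (B x) = B (A x)) {t : ℝ} (ht : 0 ≤ t) (u : H) :
    ‖dfa3_Q B t u - dfa3_Q A t u‖ ≤ ‖B u - A u‖ * t := by
  have h1 : ∀ s, HasDerivAt (fun s => dfa3_Q A (t - s) (dfa3_Q B s u))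
      (dfa3_Q A (t - s) (dfa3_Q B s (B u - A u))) s := by
    intro s
    have h2 := ((dfa3_der0 A (t - s)).comp_const_sub t s).clm_apply (dfa3_der B u s)
    convert h2 using 1
    rw [map_sub, map_sub, dfa3_comm (fun x => (h x).symm) s u]
    simp only [neg_apply, mul_apply_eq_comp]
    abel
  have h3 := norm_image_sub_le_of_norm_deriv_le_segment' (a := 0) (b := t) (C := ‖B u - A u‖)
    (fun s _ => (h1 s).hasDerivWithinAt)
    (fun s hs => (dfa3_norm hA (sub_nonneg.2 hs.2.le) _).trans (dfa3_norm hB hs.1 _)) t ⟨ht, le_rfl⟩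
  simpa [dfa3_zero] using h3

theorem dfa3_lip {A : H →L[ℝ] H} (hA : ∀ x, ⟪A x, x⟫ ≤ 0) {s t : ℝ} (hs : 0 ≤ s) (ht : 0 ≤ t) (u : H) :
    ‖dfa3_Q A t u - dfa3_Q A s u‖ ≤ ‖A u‖ * |t - s| :=
  (convex_Ici (0 : ℝ)).norm_image_sub_le_of_norm_hasDerivWithin_le
    (fun r _ => (dfa3_der A u r).hasDerivWithinAt) (fun _ hr => dfa3_norm hA hr _) hs ht

/-- the step sizes -/
def dfa3_h (n : ℕ) : ℝ := 1 / ((n : ℝ) + 1)

theorem dfa3_pos (n : ℕ) : 0 < dfa3_h n := Nat.one_div_pos_of_nat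

theorem dfa3_tJ (f : H) : Tendsto (fun n => F.J (dfa3_h n) f) atTop (𝓝 f) :=
  (F.tendsto_J f).comp (tendsto_nhdsWithin_iff.2
    ⟨tendsto_one_div_add_atTop_nhds_zero_nat, Eventually.of_forall dfa3_pos⟩)

/-- the Yosida approximation -/
def dfa3_A (n : ℕ) : H →L[ℝ] H := (dfa3_h n)⁻¹ • (F.J (dfa3_h n) - 1)

theorem dfa3_A_apply (n : ℕ) (x : H) : F.dfa3_A n x = (dfa3_h n)⁻¹ • (F.J (dfa3_h n) x - x) := rfl

theorem dfa3_diss (n : ℕ) (x : H) : ⟪F.dfa3_A n x, x⟫ ≤ 0 := by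
  rw [dfa3_A_apply, real_inner_smul_left, inner_sub_left, real_inner_self_eq_norm_sq]
  refine mul_nonpos_of_nonneg_of_nonpos (inv_pos.2 (dfa3_pos n)).le ?_
  have h1 := real_inner_le_norm (F.J (dfa3_h n) x) x
  have h2 := F.norm_J_le (dfa3_h n) x
  nlinarith [norm_nonneg x]

theorem dfa3_AJ (n : ℕ) (h : ℝ) (x : H) : F.dfa3_A n (F.J h x) = F.J h (F.dfa3_A n x) := by
  rw [dfa3_A_apply, dfa3_A_apply, map_smul, map_sub, F.J_comm]

theorem dfa3_AA (n m : ℕ) (x : H) : F.dfa3_A n (F.dfa3_A m x) = F.dfa3_A m (F.dfa3_A n x) := by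
  rw [F.dfa3_A_apply m x, map_smul, map_sub, dfa3_AJ, F.dfa3_A_apply m]

theorem dfa3_Asymm (n : ℕ) (x y : H) : ⟪F.dfa3_A n x, y⟫ = ⟪x, F.dfa3_A n y⟫ := by
  rw [dfa3_A_apply, dfa3_A_apply, real_inner_smul_left, real_inner_smul_right, inner_sub_left, inner_sub_right,
    F.J_symm]

theorem dfa3_gen {F : Frm H} {u g : H} (h : F.Gen u g) (n : ℕ) : F.dfa3_A n u = F.J (dfa3_h n) g := by
  rw [dfa3_A_apply, h.J_sub (dfa3_pos n), inv_smul_smul₀ (dfa3_pos n).ne']

theorem dfa3_conv {t : ℝ} (ht : 0 ≤ t) (f : H) :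
    ∃ y, Tendsto (fun n => dfa3_Q (F.dfa3_A n) t f) atTop (𝓝 y) := by
  refine cauchySeq_tendsto_of_complete (Metric.cauchySeq_iff.2 fun ε hε => ?_)
  obtain ⟨k, hk⟩ := Metric.tendsto_atTop.1 (F.dfa3_tJ f) (ε / 3) (by positivity)
  have h1 := hk k le_rfl
  have hg := F.gen_J (dfa3_pos k) f
  set u := F.J (dfa3_h k) f
  set g := (dfa3_h k)⁻¹ • (u - f)
  obtain ⟨N, hN⟩ := Metric.cauchySeq_iff.1 (F.dfa3_tJ g).cauchySeq (ε / 3 / (t + 1)) (by positivity)
  refine ⟨N, fun m hm n hn => ?_⟩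
  have h2 := hN m hm n hn
  have h3 := dfa3_cauchy (F.dfa3_diss n) (F.dfa3_diss m) (F.dfa3_AA n m) ht u
  rw [dfa3_gen hg, dfa3_gen hg, ← dist_eq_norm, ← dist_eq_norm] at h3
  have h4 := dfa3_norm (F.dfa3_diss m) ht (f - u)
  have h5 := dfa3_norm (F.dfa3_diss n) ht (u - f)
  rw [map_sub, ← dist_eq_norm, ← dist_eq_norm] at h4 h5
  have h6 := dist_triangle4 (dfa3_Q (F.dfa3_A m) t f) (dfa3_Q (F.dfa3_A m) t u) (dfa3_Q (F.dfa3_A n) t u)
    (dfa3_Q (F.dfa3_A n) t f)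
  rw [lt_div_iff₀ (by positivity)] at h2
  rw [dist_comm f u] at h4
  have h7 : 0 ≤ dist (F.J (dfa3_h m) g) (F.J (dfa3_h n) g) := dist_nonneg
  nlinarith

theorem exists_SG : ∃ P, F.IsSG P := by
  choose P0 hP0 using fun (t : ℝ) (f : H) => F.dfa3_conv (le_max_right t 0) f
  let P : ℝ → H →L[ℝ] H := fun t =>
    continuousLinearMapOfTendsto (fun n => dfa3_Q (F.dfa3_A n) (max t 0)) (tendsto_pi_nhds.2 (hP0 t))
  have hP : ∀ t f, Tendsto (fun n => dfa3_Q (F.dfa3_A n) (max t 0) f) atTop (𝓝 (P t f)) := hP0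
  have hP1 : ∀ t, 0 ≤ t → ∀ f, Tendsto (fun n => dfa3_Q (F.dfa3_A n) t f) atTop (𝓝 (P t f)) := by
    intro t ht f
    simpa only [max_eq_left ht] using hP t f
  have hP2 : ∀ t, 0 ≤ t → ∀ (x : ℕ → H) (f : H), Tendsto x atTop (𝓝 f) →
      Tendsto (fun n => dfa3_Q (F.dfa3_A n) t (x n)) atTop (𝓝 (P t f)) := by
    intro t ht x f hx
    have h1 : Tendsto (fun n => dfa3_Q (F.dfa3_A n) t (x n - f)) atTop (𝓝 0) :=
      squeeze_zero_norm (fun n => dfa3_norm (F.dfa3_diss n) ht _) (tendsto_iff_norm_sub_tendsto_zero.1 hx)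
    simpa using h1.add (hP1 t ht f)
  have hn : ∀ t f, ‖P t f‖ ≤ ‖f‖ := fun t f =>
    le_of_tendsto' (hP t f).norm fun n => dfa3_norm (F.dfa3_diss n) (le_max_right _ _) f
  have hc : ∀ f, Continuous fun t => P t f := by
    have h1 : ∀ u g, F.Gen u g → Continuous fun t => P t u := by
      intro u g hg
      refine (LipschitzWith.of_dist_le_mul (K := ‖g‖₊) fun t s => ?_).continuous
      rw [dist_eq_norm, Real.dist_eq]
      refine le_of_tendsto' ((hP t u).sub (hP s u)).norm fun n => ?_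
      refine (dfa3_lip (F.dfa3_diss n) (le_max_right _ _) (le_max_right _ _) u).trans ?_
      rw [dfa3_gen hg]
      exact mul_le_mul (F.norm_J_le _ _) (abs_max_sub_max_le_abs _ _ _) (abs_nonneg _) (norm_nonneg _)
    intro f
    have h2 : TendstoUniformly (fun n t => P t (F.J (dfa3_h n) f)) (fun t => P t f) atTop := by
      refine Metric.tendstoUniformly_iff.2 fun ε hε => ?_
      filter_upwards [Metric.tendsto_nhds.1 (F.dfa3_tJ f) ε hε] with n hn' t
      rw [dist_comm, dist_eq_norm] at hn'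
      rw [dist_eq_norm, ← map_sub]
      exact (hn t _).trans_lt hn'
    exact h2.continuous (Frequently.of_forall fun n => h1 _ _ (F.gen_J (dfa3_pos n) f))
  refine ⟨P, fun t ht f => ?_, fun s t hs ht f => ?_, hn, fun t f g => ?_, fun t h f => ?_, hc,
    fun u g hg t ht => ?_⟩
  · have h1 := hP t f
    simp only [max_eq_right ht, dfa3_zero] at h1
    exact tendsto_nhds_unique h1 tendsto_const_nhds
  · have h1 := hP1 (s + t) (add_nonneg hs ht) f
    simp only [dfa3_add] at h1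
    exact tendsto_nhds_unique h1 (hP2 s hs _ _ (hP1 t ht f))
  · have h1 := (hP t f).inner (𝕜 := ℝ) (tendsto_const_nhds (x := g))
    simp only [dfa3_symm (F.dfa3_Asymm _)] at h1
    exact tendsto_nhds_unique h1 (tendsto_const_nhds.inner (hP t g))
  · have h1 := hP t (F.J h f)
    simp only [dfa3_comm (F.dfa3_AJ _ h)] at h1
    exact tendsto_nhds_unique h1 (((F.J h).continuous.tendsto _).comp (hP t f))
  · have h1 : ∀ r, 0 ≤ r → P r u = u + ∫ s in (0 : ℝ)..r, P s g := by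
      intro r hr
      have hc' : ∀ n x, Continuous fun s => dfa3_Q (F.dfa3_A n) s x := fun n x =>
        continuous_iff_continuousAt.2 fun s => (dfa3_der _ x s).continuousAt
      have h2 : ∀ n, dfa3_Q (F.dfa3_A n) r u = u + ∫ s in (0 : ℝ)..r, dfa3_Q (F.dfa3_A n) s (F.J (dfa3_h n) g) := by
        intro n
        rw [← dfa3_gen hg, intervalIntegral.integral_eq_sub_of_hasDerivAt (fun s _ => dfa3_der _ u s)
          ((hc' n _).intervalIntegrable _ _), dfa3_zero, add_sub_cancel]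
      have h3 : Tendsto (fun n => ∫ s in (0 : ℝ)..r, dfa3_Q (F.dfa3_A n) s (F.J (dfa3_h n) g)) atTop
          (𝓝 (∫ s in (0 : ℝ)..r, P s g)) := by
        refine intervalIntegral.tendsto_integral_filter_of_dominated_convergence (fun _ => ‖g‖)
          (Eventually.of_forall fun n => (hc' n _).aestronglyMeasurable)
          (Eventually.of_forall fun n => MeasureTheory.ae_of_all _ fun s hs => ?_) intervalIntegrable_const
          (MeasureTheory.ae_of_all _ fun s hs => ?_)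
        · rw [uIoc_of_le hr] at hs
          exact (dfa3_norm (F.dfa3_diss n) hs.1.le _).trans (F.norm_J_le _ _)
        · rw [uIoc_of_le hr] at hs
          exact hP2 s hs.1.le _ _ (F.dfa3_tJ g)
      have h4 := hP1 r hr u
      simp only [h2] at h4
      exact tendsto_nhds_unique h4 (tendsto_const_nhds.add h3)
    have h5 : HasDerivAt (fun r => u + ∫ s in (0 : ℝ)..r, P s g) (P t g) t :=
      ((hc g).integral_hasStrictDerivAt 0 t).hasDerivAt.const_add u
    exact h5.hasDerivWithinAt.congr (fun r hr => h1 r hr) (h1 t ht)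

/-- the semigroup -/
def P : ℝ → H →L[ℝ] H := F.exists_SG.choose

theorem isSG : F.IsSG F.P := F.exists_SG.choose_spec

open Classical in
/-- the generator as a function -/
def L (u : H) : H := if h : ∃ g, F.Gen u g then h.choose else 0

theorem Gen.L_eq {F : Frm H} {u g : H} (h : F.Gen u g) : F.L u = g := by
  have h1 : ∃ g, F.Gen u g := ⟨g, h⟩
  rw [L, dif_pos h1]
  exact h1.choose_spec.unique h

end Frm

end Crest.Agent.R242

end
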