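import Crest.Agent.R242.DfA2
import Crest.Agent.R242.DfA3

/-!
# R242/DfA4: regularising effect (prefix `dfa4_`).  Only `F.isSG` is known about `F.P`.

`Gen.P`: `u = J 1 (u - g)`, `comm_J`, `gen_J`.  For `Gen u g`, `Gen g g₂` (e.g. `u = J h (J h f)`, which tends to `f`): `a t = ‖P t u‖²/2` has
`a' = -b`, `b t = E (P t u) (P t u) = -⟪P t g, P t u⟫` has `b' = -2 ‖P t g‖²`, and `‖P t g‖` decreases; so `t b t ≤ ‖u‖²/2` and
`t ‖P t g‖² ≤ b (t/2) ≤ ‖u‖² / t`.  Pass to the limit with `lsc`, `Gen.closed_bdd`.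
-/

set_option autoImplicit false

open Filter Topology Set
open scoped RealInnerProductSpace

noncomputable section

namespace Crest.Agent.R242

variable {H : Type*} [NormedAddCommGroup H] [InnerProductSpace ℝ H] [CompleteSpace H]

namespace Frm

variable {F : Frm H} {u v w f g k : H} {h s t : ℝ}

theorem dfa4_mvt {φ φ' : ℝ → ℝ} {a b C : ℝ} (ha : 0 ≤ a) (hab : a ≤ b)
    (hd : ∀ s, 0 ≤ s → HasDerivWithinAt φ (φ' s) (Ici 0) s) (hC : ∀ s ∈ Icc a b, φ' s ≤ C) : φ b - φ a ≤ C * (b - a) := by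
  have := image_le_of_deriv_right_le_deriv_boundary (f := φ) (f' := φ') (a := a) (b := b)
    (B := fun x => φ a + C * (x - a)) (B' := fun _ => C)
    (fun x hx => (hd x (ha.trans hx.1)).continuousWithinAt.mono fun y hy => ha.trans hy.1)
    (fun x hx => (hd x (ha.trans hx.1)).mono fun y hy => (ha.trans hx.1).trans hy) (by simp) (by fun_prop)
    (fun x _ => by simpa using ((((hasDerivAt_id x).sub_const a).const_mul C).const_add (φ a)).hasDerivWithinAt)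
    (fun x hx => hC x ⟨hx.1, hx.2.le⟩) (right_mem_Icc.2 hab)
  linarith

theorem dfa4_add_sub (hu : u ∈ F.V) (hv : v ∈ F.V) :
    F.E (u + v) (u + v) + F.E (u - v) (u - v) = 2 * F.E u u + 2 * F.E v v := by
  rw [F.add hu hv (F.V.add_mem hu hv), E_add_right hu hv hu, E_add_right hu hv hv, E_sub hu hv (F.V.sub_mem hu hv),
    E_sub_right hu hv hu, E_sub_right hu hv hv]
  ring

theorem dfa4_add_le (hu : u ∈ F.V) (hv : v ∈ F.V) : F.E (u + v) (u + v) ≤ 2 * F.E u u + 2 * F.E v v := by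
  linarith [dfa4_add_sub hu hv, F.nonneg (F.V.sub_mem hu hv)]

theorem dfa4_sub_le (hu : u ∈ F.V) (hv : v ∈ F.V) : F.E (u - v) (u - v) ≤ 2 * F.E u u + 2 * F.E v v := by
  linarith [dfa4_add_sub hu hv, F.nonneg (F.V.add_mem hu hv)]

theorem dfa4_smul (c : ℝ) (hu : u ∈ F.V) : F.E (c • u) (c • u) = c ^ 2 * F.E u u := by
  rw [F.smul c hu (F.V.smul_mem c hu), E_smul_right c hu hu]
  ring

theorem dfa4_rev (hu : u ∈ F.V) (hv : v ∈ F.V) : F.E (u - v) (u - v) = F.E (v - u) (v - u) := by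
  have : u - v = (-1 : ℝ) • (v - u) := by simp
  rw [this, dfa4_smul _ (F.V.sub_mem hv hu)]
  ring

theorem dfa4_zero (F : Frm H) (f : H) : F.P 0 f = f := F.isSG.nonpos 0 le_rfl f

theorem dfa4_two (F : Frm H) (ht : 0 ≤ t) (f g : H) : ⟪f, F.P (2 * t) g⟫ = ⟪F.P t f, F.P t g⟫ := by
  rw [two_mul, F.isSG.add t t ht ht, F.isSG.symm]

theorem dfa4_norm_anti (F : Frm H) (hs : 0 ≤ s) (hst : s ≤ t) (f : H) : ‖F.P t f‖ ≤ ‖F.P s f‖ := by
  have := F.isSG.add (t - s) s (sub_nonneg.2 hst) hs f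
  rw [sub_add_cancel] at this
  rw [this]
  exact F.isSG.norm_le _ _

theorem dfa4_gam (F : Frm H) (hs : 0 ≤ s) (f : H) : ⟪f, F.P s f⟫ = ‖F.P (s / 2) f‖ ^ 2 := by
  rw [← real_inner_self_eq_norm_sq, ← F.dfa4_two (by linarith), mul_div_cancel₀ _ two_ne_zero]

theorem dfa4_der (h1 : F.Gen u g) (k : H) (s : ℝ) (hs : 0 ≤ s) :
    HasDerivWithinAt (fun s => ⟪k, F.P s u⟫) ⟪k, F.P s g⟫ (Ici 0) s :=
  (innerSL ℝ k).hasFDerivAt.comp_hasDerivWithinAt s (F.isSG.der u g h1 s hs)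

theorem dfa4_approx {ι : Type*} {l : Filter ι} {X : ι → H} {Y : ℝ → ι → H} {C : ℝ} (hw : w ∈ F.V) (hC : 0 < C)
    (hX : ∀ i, X i ∈ F.V) (hY : ∀ h, 0 < h → ∀ i, Y h i ∈ F.V)
    (h0 : ∀ h, 0 < h → Tendsto (fun i => F.E (Y h i) (Y h i)) l (𝓝 0))
    (h1 : ∀ h, 0 < h → ∀ᶠ i in l, F.E (X i - Y h i) (X i - Y h i) ≤ C * F.E (F.J h w - w) (F.J h w - w)) :
    Tendsto (fun i => F.E (X i) (X i)) l (𝓝 0) := by
  refine tendsto_order.2 ⟨fun a ha => Eventually.of_forall fun i => ha.trans_le (F.nonneg (hX i)), fun a ha => ?_⟩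
  obtain ⟨h, h2, hh⟩ := (((tendsto_E_J hw).eventually_lt_const (show (0 : ℝ) < a / (4 * C) by positivity)).and
    self_mem_nhdsWithin).exists
  filter_upwards [h1 h hh, (h0 h hh).eventually_lt_const (show (0 : ℝ) < a / 4 by positivity)] with i h3 h4
  have h5 := dfa4_add_le (F.V.sub_mem (hX i) (hY h hh i)) (hY h hh i)
  rw [sub_add_cancel] at h5
  rw [lt_div_iff₀ (by positivity)] at h2
  nlinarith

theorem P_comm (F : Frm H) (s t : ℝ) (f : H) : F.P s (F.P t f) = F.P t (F.P s f) := by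
  rcases le_total s 0 with hs | hs
  · rw [F.isSG.nonpos s hs, F.isSG.nonpos s hs]
  rcases le_total t 0 with ht | ht
  · rw [F.isSG.nonpos t ht, F.isSG.nonpos t ht]
  rw [← F.isSG.add s t hs ht, ← F.isSG.add t s ht hs, add_comm]

theorem Gen.P (h1 : F.Gen u g) (t : ℝ) : F.Gen (F.P t u) (F.P t g) := by
  have h2 : F.J 1 (F.P t (u - (1 : ℝ) • g)) = F.P t u := by rw [← F.isSG.comm_J, h1.J_eq one_pos]
  have h3 := F.gen_J one_pos (F.P t (u - (1 : ℝ) • g))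
  rw [h2] at h3
  simpa using h3

theorem dfa4_beta (h1 : F.Gen u g) (ht : 0 ≤ t) : F.E (F.P t u) (F.P t u) = -⟪g, F.P (2 * t) u⟫ := by
  rw [(h1.P t).2 _ (h1.P t).1, F.dfa4_two ht]

theorem dfa4_beta_nonneg (h1 : F.Gen u g) (ht : 0 ≤ t) : ⟪g, F.P t u⟫ ≤ 0 := by
  have := F.nonneg (h1.P (t / 2)).1
  rw [dfa4_beta h1 (by linarith), mul_div_cancel₀ _ two_ne_zero] at this
  linarith

theorem dfa4_beta_step (h1 : F.Gen u g) (hs : 0 ≤ s) (hst : s ≤ t) :
    ‖F.P (t / 2) g‖ ^ 2 * (t - s) ≤ ⟪g, F.P t u⟫ - ⟪g, F.P s u⟫ := by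
  have := dfa4_mvt (C := -‖F.P (t / 2) g‖ ^ 2) hs hst (fun r hr => (dfa4_der h1 g r hr).neg) fun r hr => by
    rw [F.dfa4_gam (hs.trans hr.1), neg_le_neg_iff]
    exact pow_le_pow_left₀ (norm_nonneg _) (F.dfa4_norm_anti (by linarith [hr.1]) (by linarith [hr.2]) g) 2
  simp only [Pi.neg_apply] at this
  linarith

theorem dfa4_beta_mono (h1 : F.Gen u g) (hs : 0 ≤ s) (hst : s ≤ t) : ⟪g, F.P s u⟫ ≤ ⟪g, F.P t u⟫ := by
  have := dfa4_beta_step h1 hs hst
  have := mul_nonneg (sq_nonneg ‖F.P (t / 2) g‖) (sub_nonneg.2 hst)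
  linarith

theorem dfa4_der_a (h1 : F.Gen u g) (s : ℝ) (hs : 0 ≤ s) :
    HasDerivWithinAt (fun s => ⟪u, F.P s u⟫) ⟪g, F.P s u⟫ (Ici 0) s := by
  have := dfa4_der h1 u s hs
  rwa [← F.isSG.symm s u g, real_inner_comm] at this

theorem dfa4_E_le (h1 : F.Gen u g) (ht : 0 ≤ t) : 2 * t * F.E (F.P t u) (F.P t u) ≤ ‖u‖ ^ 2 := by
  have h2 := dfa4_mvt (b := 2 * t) le_rfl (by linarith) (dfa4_der_a h1) fun r hr => dfa4_beta_mono h1 hr.1 hr.2
  rw [dfa4_zero, real_inner_self_eq_norm_sq, F.dfa4_gam (by linarith)] at h2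
  rw [dfa4_beta h1 ht]
  nlinarith [sq_nonneg ‖F.P (2 * t / 2) u‖]

theorem dfa4_L_le (h1 : F.Gen u g) (ht : 0 ≤ t) : t * ‖F.P t g‖ ≤ ‖u‖ := by
  have h2 := dfa4_beta_step h1 ht (show t ≤ 2 * t by linarith)
  have h3 := dfa4_E_le h1 (show 0 ≤ t / 2 by linarith)
  rw [dfa4_beta h1 (by linarith), mul_div_cancel₀ _ two_ne_zero] at h3
  rw [mul_div_cancel_left₀ _ two_ne_zero] at h2
  have h4 := dfa4_beta_nonneg h1 (show 0 ≤ 2 * t by linarith)
  refine abs_le_of_sq_le_sq' ?_ (norm_nonneg _) |>.2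
  nlinarith [mul_le_mul_of_nonneg_left h2 ht, mul_nonneg ht (neg_nonneg.2 h4)]

theorem dfa4_tendsto (F : Frm H) (t : ℝ) (f : H) : Tendsto (fun h => F.P t (F.J h f)) (𝓝[>] 0) (𝓝 (F.P t f)) :=
  ((F.P t).continuous.tendsto f).comp (F.tendsto_J f)

theorem Gen.norm_P_sub (h1 : F.Gen u g) (ht : 0 ≤ t) : ‖F.P t u - u‖ ≤ t * ‖g‖ := by
  have := norm_image_sub_le_of_norm_deriv_right_le_segment (f := fun s => F.P s u) (f' := fun s => F.P s g) (a := 0) (b := t)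
    (C := ‖g‖) (F.isSG.cont u).continuousOn (fun x hx => (F.isSG.der u g h1 x hx.1).mono fun y hy => hx.1.trans hy)
    (fun x _ => F.isSG.norm_le x g) t (right_mem_Icc.2 ht)
  rwa [dfa4_zero, sub_zero, mul_comm] at this

theorem E_P_le (hu : u ∈ F.V) (t : ℝ) : F.P t u ∈ F.V ∧ F.E (F.P t u) (F.P t u) ≤ F.E u u := by
  rcases le_total t 0 with ht | ht
  · rw [F.isSG.nonpos t ht]
    exact ⟨hu, le_rfl⟩
  refine lsc (F.dfa4_tendsto t u) ?_
  filter_upwards [self_mem_nhdsWithin] with h hh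
  have h1 := F.gen_J hh u
  refine ⟨(h1.P t).1, le_trans ?_ (E_J_le hu h)⟩
  have h2 := dfa4_beta_mono h1 le_rfl (show 0 ≤ 2 * t by linarith)
  rw [dfa4_zero] at h2
  rw [dfa4_beta h1 ht, h1.2 _ h1.1]
  linarith

theorem E_P_le' (F : Frm H) (ht : 0 < t) (f : H) : F.P t f ∈ F.V ∧ 2 * t * F.E (F.P t f) (F.P t f) ≤ ‖f‖ ^ 2 := by
  have := lsc (C := ‖f‖ ^ 2 / (2 * t)) (F.dfa4_tendsto t f) (by
    filter_upwards [self_mem_nhdsWithin] with h hh
    have h1 := F.gen_J hh f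
    refine ⟨(h1.P t).1, (le_div_iff₀' (by positivity)).2 ((dfa4_E_le h1 ht.le).trans ?_)⟩
    exact pow_le_pow_left₀ (norm_nonneg _) (F.norm_J_le h f) 2)
  exact ⟨this.1, (le_div_iff₀' (by positivity)).1 this.2⟩

theorem gen_P (F : Frm H) (ht : 0 < t) (f : H) : F.Gen (F.P t f) (F.L (F.P t f)) ∧ t * ‖F.L (F.P t f)‖ ≤ ‖f‖ := by
  obtain ⟨g, h1, h2⟩ := Gen.closed_bdd (F := F) (C := ‖f‖ / t) (F.dfa4_tendsto t f) (by
    filter_upwards [self_mem_nhdsWithin] with h hh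
    have h1 := F.gen_J hh f
    exact ⟨_, h1.P t, (le_div_iff₀' ht).2 ((dfa4_L_le h1 ht.le).trans (F.norm_J_le h f))⟩)
  rw [h1.L_eq]
  exact ⟨h1, (le_div_iff₀' ht).1 h2⟩

theorem L_P_add (F : Frm H) (hs : 0 ≤ s) (ht : 0 < t) (f : H) : F.L (F.P (s + t) f) = F.P s (F.L (F.P t f)) := by
  rw [F.isSG.add s t hs ht.le]
  exact ((F.gen_P ht f).1.P s).L_eq

theorem gen_L_P (F : Frm H) (ht : 0 < t) (f : H) : F.Gen (F.L (F.P t f)) (F.L (F.L (F.P t f))) := by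
  have := F.L_P_add (half_pos ht).le (half_pos ht) f
  rw [add_halves] at this
  rw [this]
  exact (F.gen_P (half_pos ht) _).1

theorem hasDerivAt_P (F : Frm H) (ht : 0 < t) (f : H) : HasDerivAt (fun s => F.P s f) (F.L (F.P t f)) t := by
  have h0 := half_pos ht
  have h1 := (F.isSG.der _ _ (F.gen_P h0 f).1 (t / 2) h0.le).hasDerivAt (Ici_mem_nhds h0)
  rw [← F.L_P_add h0.le h0, add_halves] at h1
  have h2 : HasDerivAt (fun s => F.P (s - t / 2) (F.P (t / 2) f)) (F.L (F.P t f)) t :=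
    HasDerivAt.comp_sub_const (f := fun s => F.P s (F.P (t / 2) f)) t (t / 2) (by rwa [sub_half])
  refine h2.congr_of_eventuallyEq ?_
  filter_upwards [Ioi_mem_nhds (half_lt_self ht)] with s hs
  rw [← F.isSG.add _ _ (sub_nonneg.2 (le_of_lt hs)) h0.le, sub_add_cancel]

theorem continuousOn_L_P (F : Frm H) (f : H) : ContinuousOn (fun t => F.L (F.P t f)) (Ioi 0) := by
  intro t ht
  have h0 : 0 < t / 2 := half_pos ht
  have h1 : Continuous fun s => F.P (s - t / 2) (F.L (F.P (t / 2) f)) :=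
    (F.isSG.cont _).comp (continuous_id.sub continuous_const)
  refine (h1.continuousAt.congr ?_).continuousWithinAt
  filter_upwards [Ioi_mem_nhds (half_lt_self ht)] with s hs
  rw [← F.L_P_add (sub_nonneg.2 (le_of_lt hs)) h0, sub_add_cancel]

theorem norm_P_sub_sq (hu : u ∈ F.V) (ht : 0 ≤ t) : ‖F.P t u - u‖ ^ 2 ≤ t * F.E u u := by
  refine le_of_tendsto (((F.dfa4_tendsto t u).sub (F.tendsto_J u)).norm.pow 2) ?_
  filter_upwards [self_mem_nhdsWithin] with h hh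
  refine le_trans ?_ (mul_le_mul_of_nonneg_left (E_J_le hu h) ht)
  have h1 := F.gen_J hh u
  generalize F.J h u = x at h1
  generalize h⁻¹ • (x - u) = y at h1
  have h2 := dfa4_mvt ht (show t ≤ 2 * t by linarith) (dfa4_der_a h1) fun r hr => dfa4_beta_nonneg h1 (ht.trans hr.1)
  have h3 := dfa4_mvt le_rfl ht (fun r hr => (dfa4_der_a h1 r hr).neg) fun r hr =>
    neg_le_neg (dfa4_beta_mono h1 le_rfl hr.1)
  simp only [Pi.neg_apply, dfa4_zero] at h3
  rw [F.dfa4_two ht] at h2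
  rw [h1.2 _ h1.1, ← real_inner_self_eq_norm_sq, inner_sub_left, inner_sub_right, inner_sub_right,
    real_inner_comm x (F.P t x)]
  linarith

/-- continuity in the energy norm: true for `J h u`, and `E (P s w - P t w) ≤ 4 E w` for `w = u - J h u` -/
theorem tendsto_E_P (hu : u ∈ F.V) (t : ℝ) :
    Tendsto (fun s => F.E (F.P s u - F.P t u) (F.P s u - F.P t u)) (𝓝 t) (𝓝 0) := by
  refine dfa4_approx (Y := fun h s => F.P s (F.J h u) - F.P t (F.J h u)) (C := 4) hu four_pos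
    (fun s => F.V.sub_mem (E_P_le hu s).1 (E_P_le hu t).1)
    (fun h hh s => F.V.sub_mem (E_P_le (F.J_mem hh u) s).1 (E_P_le (F.J_mem hh u) t).1) (fun h hh => ?_)
    fun h hh => Eventually.of_forall fun s => ?_
  · have h1 := F.gen_J hh u
    generalize F.J h u = x at h1
    generalize h⁻¹ • (x - u) = y at h1
    have h2 : Continuous fun s => -⟪F.P s y - F.P t y, F.P s x - F.P t x⟫ :=
      (((F.isSG.cont y).sub continuous_const).inner ((F.isSG.cont x).sub continuous_const)).neg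
    have h3 := h2.tendsto t
    simp only [sub_self, inner_zero_left, neg_zero] at h3
    exact h3.congr fun s => (((h1.P s).sub (h1.P t)).2 _ ((h1.P s).sub (h1.P t)).1).symm
  · have hw := F.V.sub_mem hu (F.J_mem hh u)
    have e : F.P s u - F.P t u - (F.P s (F.J h u) - F.P t (F.J h u)) = F.P s (u - F.J h u) - F.P t (u - F.J h u) := by
      simp only [map_sub]
      abel
    rw [e, dfa4_rev (F.J_mem hh u) hu]
    linarith [dfa4_sub_le (E_P_le hw s).1 (E_P_le hw t).1, (E_P_le hw s).2, (E_P_le hw t).2]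

theorem dfa4_E_lip0 (h1 : F.Gen u g) (hg : g ∈ F.V) (ht : 0 ≤ t) :
    F.E (F.P t u - u) (F.P t u - u) ≤ t ^ 2 * F.E g g := by
  have h2 := (h1.P t).sub h1
  have hA := F.nonneg h2.1
  have hB := F.nonneg hg
  have h3 := dfa4_mvt (C := √(F.E (F.P t u - u) (F.P t u - u) * F.E g g)) le_rfl ht
    (fun r hr => (dfa4_der h1 (F.P t g - g) r hr).neg) fun r _ => by
      rw [← h2.2 _ (E_P_le hg r).1]
      exact Real.le_sqrt_of_sq_le ((E_sq_le h2.1 (E_P_le hg r).1).trans (mul_le_mul_of_nonneg_left (E_P_le hg r).2 hA))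
  simp only [Pi.neg_apply, dfa4_zero, sub_zero] at h3
  have h4 := h2.2 _ h2.1
  rw [inner_sub_right] at h4
  generalize F.E (F.P t u - u) (F.P t u - u) = A at *
  have h5 : A ≤ √(A * F.E g g) * t := by linarith
  have h6 := pow_le_pow_left₀ hA h5 2
  rw [mul_pow, Real.sq_sqrt (mul_nonneg hA hB)] at h6
  rcases hA.eq_or_lt with h7 | h7
  · rw [← h7]
    positivity
  · exact le_of_mul_le_mul_left (by linarith) h7

theorem dfa4_E_lip (h1 : F.Gen u g) (hg : g ∈ F.V) (hs : 0 ≤ s) (ht : 0 ≤ t) :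
    F.E (F.P s u - F.P t u) (F.P s u - F.P t u) ≤ (s - t) ^ 2 * F.E g g := by
  wlog hst : t ≤ s generalizing s t
  · rw [dfa4_rev (h1.P s).1 (h1.P t).1, ← neg_sub t s, neg_sq]
    exact this ht hs (le_of_not_ge hst)
  have h2 := dfa4_E_lip0 (h1.P t) (E_P_le hg t).1 (sub_nonneg.2 hst)
  rw [← F.isSG.add _ _ (sub_nonneg.2 hst) ht, sub_add_cancel] at h2
  exact h2.trans (mul_le_mul_of_nonneg_left (E_P_le hg t).2 (sq_nonneg _))

theorem dfa4_slope (h1 : F.Gen u g) (ht : 0 ≤ t) :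
    Tendsto (fun s => (s - t)⁻¹ • (F.P s u - F.P t u) - F.P t g) (𝓝[Ici 0 \ {t}] t) (𝓝 0) :=
  tendsto_sub_nhds_zero_iff.2 (hasDerivWithinAt_iff_tendsto_slope.1 (F.isSG.der u g h1 t ht))

/-- differentiability in the energy norm: for `Gen g g₂` use `E x x = -⟪L x, x⟫`; in general replace `u` by `J h u`, the error
`w = u - J h u` has `E ((P s w - P t w)/(s - t)) ≤ E (L w)` (`lsc`, or `E x x = lim ⟪x - J k x, x⟫ / k` and the mean value inequality) -/
theorem Gen.tendsto_E_slope (h1 : F.Gen u g) (hg : g ∈ F.V) (ht : 0 ≤ t) :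
    Tendsto (fun s => F.E ((s - t)⁻¹ • (F.P s u - F.P t u) - F.P t g) ((s - t)⁻¹ • (F.P s u - F.P t u) - F.P t g))
      (𝓝[Ici 0 \ {t}] t) (𝓝 0) := by
  have m : ∀ {u g : H}, F.Gen u g → g ∈ F.V → ∀ s, (s - t)⁻¹ • (F.P s u - F.P t u) - F.P t g ∈ F.V := fun h1 hg s =>
    F.V.sub_mem (F.V.smul_mem _ (F.V.sub_mem (h1.P s).1 (h1.P t).1)) (E_P_le hg t).1
  refine dfa4_approx (Y := fun h s => (s - t)⁻¹ • (F.P s (F.J h u) - F.P t (F.J h u)) - F.P t (F.J h g)) (C := 4) hg four_pos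
    (m h1 hg) (fun h hh => m (h1.J h) (F.J_mem hh g)) (fun h hh => ?_) fun h hh => ?_
  · have h2 := h1.J h
    have h3 := F.gen_J hh g
    have h4 := ((dfa4_slope h3 ht).inner (𝕜 := ℝ) (dfa4_slope h2 ht)).neg
    simp only [inner_zero_left, neg_zero] at h4
    exact h4.congr fun s => (((((h2.P s).sub (h2.P t)).smul _).sub (h3.P t)).2 _ (m h2 h3.1 s)).symm
  · filter_upwards [self_mem_nhdsWithin] with s hs
    have h2 := h1.sub (h1.J h)
    have hz := F.V.sub_mem hg (F.J_mem hh g)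
    have e : (s - t)⁻¹ • (F.P s u - F.P t u) - F.P t g -
        ((s - t)⁻¹ • (F.P s (F.J h u) - F.P t (F.J h u)) - F.P t (F.J h g)) =
        (s - t)⁻¹ • (F.P s (u - F.J h u) - F.P t (u - F.J h u)) - F.P t (g - F.J h g) := by
      simp only [map_sub, smul_sub]
      abel
    have hx := F.V.sub_mem (h2.P s).1 (h2.P t).1
    have h3 := dfa4_sub_le (F.V.smul_mem (s - t)⁻¹ hx) (E_P_le hz t).1
    have h4 := mul_le_mul_of_nonneg_left (dfa4_E_lip h2 hz hs.1 ht) (sq_nonneg (s - t)⁻¹)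
    rw [← mul_assoc, ← mul_pow, inv_mul_cancel₀ (sub_ne_zero.2 hs.2), one_pow, one_mul, ← dfa4_smul _ hx] at h4
    rw [e, dfa4_rev (F.J_mem hh g) hg]
    linarith [(E_P_le hz t).2]

end Frm

end Crest.Agent.R242

end
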