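import Crest.Agent.R242.DfA4

/-!
# R242/DfA5: exponential formula, Laplace formula, variation of constants (prefix `dfa5_`)

`tendsto_J_pow`: for `Gen u g`, `Gen g g₂`: `‖J h u - P h u‖ ≤ 2 h² ‖g₂‖` (both are `u + h g + O(h²)`), telescoping
`J^n - P^n = ∑ J^k (J - P) P^(n-1-k)` gives `2 t² ‖g₂‖ / n`; density (`J k (J k f) → f`) and contractivity.
`J_laplace`: `s ↦ exp (-s/h) P s (J h f)` has the derivative `-h⁻¹ exp (-s/h) P s f`.
-/

set_option autoImplicit false

open Filter Topology Set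
open scoped RealInnerProductSpace

noncomputable section

namespace Crest.Agent.R242

variable {H : Type*} [NormedAddCommGroup H] [InnerProductSpace ℝ H] [CompleteSpace H]

namespace Frm

variable {F : Frm H} {u v w f g k : H} {h s t : ℝ}

theorem dfa5_P_sub_eq (h1 : F.Gen u g) (ht : 0 ≤ t) : F.P t u - u = ∫ s in (0 : ℝ)..t, F.P s g := by
  rw [intervalIntegral.integral_eq_sub_of_hasDeriv_right_of_le ht (F.isSG.cont u).continuousOn
    (fun x hx => (F.isSG.der u g h1 x hx.1.le).mono fun y hy => hx.1.le.trans (le_of_lt hy))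
    ((F.isSG.cont g).intervalIntegrable _ _), F.isSG.nonpos 0 le_rfl]

theorem dfa5_one {g₂ : H} (h1 : F.Gen u g) (h2 : F.Gen g g₂) (hh : 0 < h) :
    ‖F.J h u - F.P h u‖ ≤ 2 * h ^ 2 * ‖g₂‖ := by
  have a1 : F.J h u - u - h • g = h • h • F.J h g₂ := by rw [h1.J_sub hh, ← smul_sub, h2.J_sub hh]
  have a2 : ‖F.J h u - u - h • g‖ ≤ h ^ 2 * ‖g₂‖ := by
    rw [a1, norm_smul, norm_smul, Real.norm_of_nonneg hh.le, ← mul_assoc, ← sq]
    exact mul_le_mul_of_nonneg_left (F.norm_J_le h g₂) (sq_nonneg _)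
  have a3 : F.P h u - u - h • g = ∫ s in (0 : ℝ)..h, (F.P s g - g) := by
    rw [intervalIntegral.integral_sub ((F.isSG.cont g).intervalIntegrable _ _) intervalIntegrable_const,
      intervalIntegral.integral_const, sub_zero, dfa5_P_sub_eq h1 hh.le]
  have a4 : ‖F.P h u - u - h • g‖ ≤ h * ‖g₂‖ * |h - 0| := by
    rw [a3]
    refine intervalIntegral.norm_integral_le_of_norm_le_const fun x hx => ?_
    rw [uIoc_of_le hh.le] at hx
    exact (h2.norm_P_sub hx.1.le).trans (mul_le_mul_of_nonneg_right hx.2 (norm_nonneg _))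
  rw [sub_zero, abs_of_pos hh] at a4
  have a5 := norm_sub_le (F.J h u - u - h • g) (F.P h u - u - h • g)
  rw [show F.J h u - u - h • g - (F.P h u - u - h • g) = F.J h u - F.P h u by abel] at a5
  linarith

theorem dfa5_pow {g₂ : H} (h1 : F.Gen u g) (h2 : F.Gen g g₂) (hh : 0 < h) (n : ℕ) :
    ‖(F.J h)^[n] u - F.P (n * h) u‖ ≤ n * (2 * h ^ 2 * ‖g₂‖) := by
  induction n with
  | zero => simp [F.isSG.nonpos 0 le_rfl]
  | succ n ih =>
    have hn : 0 ≤ (n : ℝ) * h := by positivity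
    rw [Function.iterate_succ_apply', show ((n + 1 : ℕ) : ℝ) * h = h + n * h by push_cast; ring,
      F.isSG.add _ _ hh.le hn]
    have a1 := (dfa5_one (h1.P (n * h)) (h2.P (n * h)) hh).trans
      (mul_le_mul_of_nonneg_left (F.isSG.norm_le _ _) (by positivity))
    have a2 := F.norm_J_le h ((F.J h)^[n] u - F.P (n * h) u)
    rw [map_sub] at a2
    have a3 := norm_sub_le_norm_sub_add_norm_sub (F.J h ((F.J h)^[n] u)) (F.J h (F.P (n * h) u))
      (F.P h (F.P (n * h) u))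
    push_cast
    linarith

theorem dfa5_contr (F : Frm H) (h : ℝ) (n : ℕ) (a b : H) : ‖(F.J h)^[n] a - (F.J h)^[n] b‖ ≤ ‖a - b‖ := by
  induction n with
  | zero => exact le_rfl
  | succ n ih =>
    rw [Function.iterate_succ_apply', Function.iterate_succ_apply', ← map_sub]
    exact (F.norm_J_le _ _).trans ih

theorem dfa5_dense (F : Frm H) (f : H) {ε : ℝ} (hε : 0 < ε) :
    ∃ u g g₂, F.Gen u g ∧ F.Gen g g₂ ∧ ‖f - u‖ ≤ ε := by
  obtain ⟨c, h1, h2⟩ := (((tendsto_iff_norm_sub_tendsto_zero.1 (F.tendsto_J f)).eventually_le_const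
    (half_pos hε)).and self_mem_nhdsWithin).exists
  have hc : 0 < c := h2
  refine ⟨_, _, _, (F.gen_J hc f).J c, F.gen_J hc _, ?_⟩
  have a1 := F.norm_J_le c (F.J c f - f)
  rw [map_sub] at a1
  have a2 := norm_sub_le_norm_sub_add_norm_sub (F.J c (F.J c f)) (F.J c f) f
  rw [norm_sub_rev]
  linarith

theorem dfa5_cont (F : Frm H) : Continuous fun p : ℝ × H => F.P p.1 p.2 := by
  refine continuous_iff_continuousAt.2 fun q => tendsto_iff_norm_sub_tendsto_zero.2 ?_
  have h1 : Continuous fun p : ℝ × H => ‖p.2 - q.2‖ + ‖F.P p.1 q.2 - F.P q.1 q.2‖ :=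
    (continuous_snd.sub continuous_const).norm.add (((F.isSG.cont q.2).comp continuous_fst).sub continuous_const).norm
  have h2 := h1.tendsto q
  simp only [sub_self, norm_zero, add_zero] at h2
  refine squeeze_zero (fun _ => norm_nonneg _) (fun p => ?_) h2
  have a1 := F.isSG.norm_le p.1 (p.2 - q.2)
  rw [map_sub] at a1
  linarith [norm_sub_le_norm_sub_add_norm_sub (F.P p.1 p.2) (F.P p.1 q.2) (F.P q.1 q.2)]

theorem dfa5_aux (F : Frm H) {τ : ℝ → ℝ} (hτ : Continuous τ) {x : ℝ → H} {x' : H} {A : Set ℝ}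
    (hx : HasDerivWithinAt x x' A s) :
    HasDerivWithinAt (fun r => F.P (τ r) (x r - x s)) (F.P (τ s) x') A s := by
  rw [hasDerivWithinAt_iff_tendsto_slope] at hx ⊢
  have h1 : Tendsto τ (𝓝[A \ {s}] s) (𝓝 (τ s)) := (hτ.tendsto s).mono_left nhdsWithin_le_nhds
  refine ((F.dfa5_cont.tendsto (τ s, x')).comp (h1.prodMk_nhds hx)).congr fun r => ?_
  simp only [Function.comp_apply, slope_def_module, sub_self, map_zero, sub_zero, map_smul]

theorem tendsto_J_pow (F : Frm H) (t : ℝ) (f : H) :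
    Tendsto (fun n : ℕ => (F.J (t / n))^[n] f) atTop (𝓝 (F.P t f)) := by
  rcases le_or_gt t 0 with ht | ht
  · rw [F.isSG.nonpos t ht]
    refine tendsto_const_nhds.congr fun n => ?_
    exact (Function.iterate_fixed (F.J_nonpos (div_nonpos_of_nonpos_of_nonneg ht (Nat.cast_nonneg n)) f) n).symm
  refine Metric.tendsto_nhds.2 fun ε hε => ?_
  obtain ⟨u, g, g₂, h1, h2, h3⟩ := F.dfa5_dense f (show 0 < ε / 4 by positivity)
  filter_upwards [(tendsto_const_div_atTop_nhds_zero_nat (2 * t ^ 2 * ‖g₂‖)).eventually_le_const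
    (show 0 < ε / 4 by positivity), eventually_gt_atTop 0] with n a1 a2
  have hn : (0 : ℝ) < n := by exact_mod_cast a2
  have a3 := dfa5_pow h1 h2 (div_pos ht hn) n
  rw [mul_div_cancel₀ _ hn.ne', show (n : ℝ) * (2 * (t / n) ^ 2 * ‖g₂‖) = 2 * t ^ 2 * ‖g₂‖ / n by field_simp] at a3
  have a4 := F.dfa5_contr (t / n) n f u
  have a5 := F.isSG.norm_le t (u - f)
  rw [map_sub, norm_sub_rev u] at a5
  have a6 := norm_sub_le_norm_sub_add_norm_sub ((F.J (t / n))^[n] f) ((F.J (t / n))^[n] u) (F.P t f)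
  have a7 := norm_sub_le_norm_sub_add_norm_sub ((F.J (t / n))^[n] u) (F.P t u) (F.P t f)
  rw [dist_eq_norm]
  linarith

theorem J_laplace (F : Frm H) (hh : 0 < h) (f : H) :
    MeasureTheory.IntegrableOn (fun s => (h⁻¹ * Real.exp (-s / h)) • F.P s f) (Ioi 0) ∧
      F.J h f = ∫ s in Ioi (0 : ℝ), (h⁻¹ * Real.exp (-s / h)) • F.P s f := by
  have hi : MeasureTheory.IntegrableOn (fun s => (h⁻¹ * Real.exp (-s / h)) • F.P s f) (Ioi 0) := by
    have h1 := ((exp_neg_integrableOn_Ioi 0 (inv_pos.2 hh)).const_mul h⁻¹).mul_const ‖f‖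
    have h2 : Continuous fun s => (h⁻¹ * Real.exp (-s / h)) • F.P s f :=
      (by fun_prop : Continuous fun s : ℝ => h⁻¹ * Real.exp (-s / h)).smul (F.isSG.cont f)
    refine h1.mono' h2.aestronglyMeasurable (Eventually.of_forall fun s => ?_)
    rw [norm_smul, Real.norm_of_nonneg (by positivity), show -s / h = -h⁻¹ * s by ring]
    exact mul_le_mul_of_nonneg_left (F.isSG.norm_le _ _) (by positivity)
  refine ⟨hi, ?_⟩
  have hc : Continuous fun s => (-Real.exp (-s / h)) • F.P s (F.J h f) :=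
    (by fun_prop : Continuous fun s : ℝ => -Real.exp (-s / h)).smul (F.isSG.cont _)
  have hd : ∀ s ∈ Ioi (0 : ℝ), HasDerivAt (fun s => (-Real.exp (-s / h)) • F.P s (F.J h f))
      ((h⁻¹ * Real.exp (-s / h)) • F.P s f) s := fun s hs => by
    have a1 : HasDerivAt (fun s : ℝ => -Real.exp (-s / h)) (-(Real.exp (-s / h) * (-1 / h))) s :=
      ((hasDerivAt_neg s).div_const h).exp.neg
    have a2 := (F.isSG.der _ _ (F.gen_J hh f) s (le_of_lt hs)).hasDerivAt (Ici_mem_nhds hs)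
    refine (a1.smul a2).congr_deriv ?_
    rw [map_smul, map_sub]
    module
  have hl : Tendsto (fun s => (-Real.exp (-s / h)) • F.P s (F.J h f)) atTop (𝓝 0) := by
    have a1 : Tendsto (fun s : ℝ => Real.exp (-s / h) * ‖F.J h f‖) atTop (𝓝 (0 * ‖F.J h f‖)) :=
      (Real.tendsto_exp_atBot.comp (tendsto_neg_atTop_atBot.atBot_div_const hh)).mul_const _
    rw [zero_mul] at a1
    refine squeeze_zero_norm (fun s => ?_) a1
    rw [norm_smul, norm_neg, Real.norm_of_nonneg (Real.exp_pos _).le]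
    exact mul_le_mul_of_nonneg_left (F.isSG.norm_le _ _) (Real.exp_pos _).le
  rw [MeasureTheory.integral_Ioi_of_hasDerivAt_of_tendsto hc.continuousWithinAt hd hi hl, F.isSG.nonpos 0 le_rfl]
  simp

theorem Gen.P_sub_eq (h1 : F.Gen u g) (ht : 0 ≤ t) : F.P t u - u = ∫ s in (0 : ℝ)..t, F.P s g := by
  exact dfa5_P_sub_eq h1 ht

/-- joint continuity -/
theorem continuous_P (F : Frm H) : Continuous fun p : ℝ × H => F.P p.1 p.2 := by
  exact F.dfa5_cont

theorem hasDerivWithinAt_P_fwd {x : ℝ → H} {x' : H} {A : Set ℝ} (hA : A ⊆ Ici 0) (hs : s ∈ A)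
    (hx : HasDerivWithinAt x x' A s) (h1 : F.Gen (x s) g) :
    HasDerivWithinAt (fun r => F.P r (x r)) (F.P s (x' + g)) A s := by
  have a1 := (F.dfa5_aux continuous_id hx).add ((F.isSG.der _ _ h1 s (hA hs)).mono hA)
  rw [map_add]
  refine a1.congr_of_mem (fun r _ => ?_) hs
  simp

theorem hasDerivWithinAt_P_bwd {x : ℝ → H} {x' : H} {A : Set ℝ} (hA : A ⊆ Iic t) (hs : s ∈ A)
    (hx : HasDerivWithinAt x x' A s) (h1 : F.Gen (x s) g) :
    HasDerivWithinAt (fun r => F.P (t - r) (x r)) (F.P (t - s) (x' - g)) A s := by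
  have a0 : HasDerivWithinAt (fun r : ℝ => t - r) (-1) A s := ((hasDerivAt_id s).const_sub t).hasDerivWithinAt
  have a2 := HasDerivWithinAt.scomp (g₁ := fun r => F.P r (x s)) s
    (F.isSG.der _ _ h1 (t - s) (sub_nonneg.2 (hA hs))) a0 fun r hr => mem_Ici.2 (sub_nonneg.2 (hA hr))
  have a1 := (F.dfa5_aux (τ := fun r => t - r) (by fun_prop) hx).add a2
  rw [map_sub, sub_eq_add_neg (F.P _ x'), ← neg_one_smul ℝ (F.P (t - s) g)]
  refine a1.congr_of_mem (fun r _ => ?_) hs
  simp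

end Frm

end Crest.Agent.R242

end
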