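import Crest.Agent.R242.DfC1

/-!
# R242/DfC2: calculus for the generator, density (prefix `dfc2_`)

`sep`: for a closed set `F` and a ball, test with `thickenedIndicator`-type Lipschitz functions of `F ∩ closedBall` (e.g.
`max 0 (1 - n * infDist x K)`), dominated convergence, `ae_eq_zero_of_forall_setIntegral_isClosed_eq_zero` for `f` restricted to a closed ball.
`Gen.of_bdd`: truncations `v n = n θ (v / n)` (`θ` is `C¹`, `θ r = r` near `0`, bounded, `|θ'| ≤ 1`, e.g. `θ = arctan` or `tanh`), dominated convergence.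
`Gen.comp`: for bounded `v ∈ W` test with `φ' (u) v ∈ W`: `S_mul` (both bounded), `Γ u (φ'(u) v) = φ'(u) Γ u v + v φ''(u) Γ u u`.
-/

set_option autoImplicit false
set_option linter.unusedSectionVars false

open MeasureTheory Filter Topology Set
open scoped RealInnerProductSpace ENNReal NNReal

noncomputable section

namespace Crest.Agent.R242

variable {X : Type*} [MetricSpace X] [MeasurableSpace X] [BorelSpace X] {μ : Measure X}

namespace DF

variable {D : DF μ} {u v f g k η : X → ℝ}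

theorem sep (D : DF μ) (hf : MemLp f 2 μ) (h : ∀ v, D.W v → ∫ x, f x * v x ∂μ = 0) : ∀ᵐ x ∂μ, f x = 0 := by
  rcases isEmpty_or_nonempty X with hX | ⟨⟨o⟩⟩
  · exact Eventually.of_forall fun x => hX.elim x
  have hint : ∀ R : ℝ, IntegrableOn f (Metric.ball o R) μ := fun R => by
    have : IsFiniteMeasure (μ.restrict (Metric.ball o R)) := ⟨by simpa using D.fin o R⟩
    exact (hf.restrict _).integrable one_le_two
  have key : ∀ (K : Set X) (R : ℝ), IsClosed K → K ⊆ Metric.closedBall o R → ∫ x in K, f x ∂μ = 0 := by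
    intro K R hK hKR
    have hpos : ∀ n : ℕ, (0 : ℝ) < 1 / ((n : ℝ) + 1) := fun n => Nat.one_div_pos_of_nat
    have hz : ∀ (n : ℕ) (x : X), x ∉ Metric.ball o (R + 1) → ((thickenedIndicator (hpos n) K x : ℝ≥0) : ℝ) = 0 := by
      intro n x hx
      rw [thickenedIndicator_zero (hpos n) K fun h1 => hx ?_, NNReal.coe_zero]
      obtain ⟨z, hz, h2⟩ := Metric.mem_thickening_iff.1 h1
      have h3 : dist z o ≤ R := hKR hz
      have h4 : 1 / ((n : ℝ) + 1) ≤ 1 := by
        rw [div_le_one (by positivity)]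
        linarith [(n.cast_nonneg : (0 : ℝ) ≤ n)]
      have h5 := dist_triangle x z o
      rw [Metric.mem_ball]
      linarith
    have hW : ∀ n : ℕ, D.W fun x => ((thickenedIndicator (hpos n) K x : ℝ≥0) : ℝ) := fun n =>
      D.W_of_lip (NNReal.isometry_coe.lipschitz.comp (lipschitzWith_thickenedIndicator (hpos n) K)) (hz n)
    have h1 : Tendsto (fun n : ℕ => ∫ x, f x * ((thickenedIndicator (hpos n) K x : ℝ≥0) : ℝ) ∂μ) atTop
        (𝓝 (∫ x, K.indicator f x ∂μ)) := by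
      refine tendsto_integral_of_dominated_convergence ((Metric.ball o (R + 1)).indicator fun x => ‖f x‖)
        (fun n => hf.1.mul (hW n).mem.1) ((integrable_indicator_iff measurableSet_ball).2 (hint _).norm)
        (fun n => Eventually.of_forall fun x => ?_) (Eventually.of_forall fun x => ?_)
      · by_cases hx : x ∈ Metric.ball o (R + 1)
        · rw [indicator_of_mem hx, norm_mul]
          refine mul_le_of_le_one_right (norm_nonneg _) ?_
          rw [NNReal.norm_eq]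
          exact thickenedIndicator_le_one (hpos n) K x
        · rw [indicator_of_notMem hx, hz n x hx, mul_zero, norm_zero]
      · have h2 := tendsto_pi_nhds.1
          (thickenedIndicator_tendsto_indicator_closure hpos tendsto_one_div_add_atTop_nhds_zero_nat K) x
        rw [hK.closure_eq] at h2
        have h3 := (NNReal.tendsto_coe.2 h2).const_mul (f x)
        convert h3 using 2
        by_cases hx : x ∈ K <;> simp [hx]
    simp only [fun n => h _ (hW n)] at h1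
    rw [← integral_indicator hK.measurableSet]
    exact tendsto_nhds_unique h1 tendsto_const_nhds ▸ rfl
  have h2 : ∀ n : ℕ, ∀ᵐ x ∂μ, x ∈ Metric.closedBall o n → f x = 0 := fun n => by
    have h3 : IntegrableOn f (Metric.closedBall o n) μ :=
      (hint (n + 1)).mono_set (Metric.closedBall_subset_ball (lt_add_one _))
    have h4 := ae_eq_zero_of_forall_setIntegral_isClosed_eq_zero h3 fun s hs => by
      rw [Measure.restrict_restrict hs.measurableSet]
      exact key _ n (hs.inter Metric.isClosed_closedBall) inter_subset_right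
    exact (ae_restrict_iff' measurableSet_closedBall).1 h4
  filter_upwards [ae_all_iff.2 h2] with x hx
  obtain ⟨n, hn⟩ := exists_nat_ge (dist x o)
  exact hx n hn

theorem dfc2_der {t : ℝ} (ht : 0 < t) (r : ℝ) :
    HasDerivAt (fun r => t⁻¹ * Real.arctan (t * r)) (1 / (1 + (t * r) ^ 2)) r := by
  have h1 := (((hasDerivAt_id r).const_mul t).arctan).const_mul t⁻¹
  have h2 : t⁻¹ * (1 / (1 + (t * r) ^ 2) * (t * 1)) = 1 / (1 + (t * r) ^ 2) := by field_simp
  exact h2 ▸ h1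

theorem dfc2_int (hf : MemLp f 2 μ) (hg : MemLp g 2 μ) : Integrable (fun x => f x * g x) μ := hf.integrable_mul hg

theorem dfc2_d01 (a : ℝ) : 0 < 1 / (1 + a ^ 2) ∧ 1 / (1 + a ^ 2) ≤ 1 :=
  ⟨by positivity, by rw [div_le_one (by positivity)]; nlinarith [sq_nonneg a]⟩

/-- truncation -/
theorem W.exists_trunc (hv : D.W v) : ∃ w : ℕ → X → ℝ, (∀ n, D.W (w n) ∧ Bdd μ (w n) ∧
    (∀ x, |w n x| ≤ |v x| ∧ 0 ≤ w n x * v x)) ∧ TL2 μ atTop w v ∧
      Tendsto (fun n => D.E (fun x => w n x - v x) fun x => w n x - v x) atTop (𝓝 0) := by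
  obtain ⟨t, hpos, ht⟩ : ∃ t : ℕ → ℝ, (∀ n, 0 < t n) ∧ Tendsto t atTop (𝓝 0) :=
    ⟨fun n => 1 / ((n : ℝ) + 1), fun n => Nat.one_div_pos_of_nat, tendsto_one_div_add_atTop_nhds_zero_nat⟩
  have hc : ∀ n, ContDiff ℝ 1 fun r => (t n)⁻¹ * Real.arctan (t n * r) := fun n =>
    contDiff_const.mul (Real.contDiff_arctan.comp (contDiff_const.mul contDiff_id))
  have hd : ∀ n r, |deriv (fun r => (t n)⁻¹ * Real.arctan (t n * r)) r| ≤ 1 := fun n r => by
    rw [(dfc2_der (hpos n) r).deriv, abs_of_pos (dfc2_d01 _).1]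
    exact (dfc2_d01 _).2
  have hc' : ∀ n, ContDiff ℝ 1 fun r => (t n)⁻¹ * Real.arctan (t n * r) - r := fun n => (hc n).sub contDiff_id
  have he' : ∀ n r, deriv (fun r => (t n)⁻¹ * Real.arctan (t n * r) - r) r = 1 / (1 + (t n * r) ^ 2) - 1 := fun n r =>
    ((dfc2_der (hpos n) r).sub (hasDerivAt_id r)).deriv
  have hd' : ∀ n r, |deriv (fun r => (t n)⁻¹ * Real.arctan (t n * r) - r) r| ≤ 1 := fun n r => by
    rw [he', abs_le]
    constructor <;> linarith [(dfc2_d01 (t n * r)).1, (dfc2_d01 (t n * r)).2]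
  have hW : ∀ n, D.W fun x => (t n)⁻¹ * Real.arctan (t n * v x) := fun n => hv.comp (hc n) (by simp) (hd n)
  refine ⟨fun n x => (t n)⁻¹ * Real.arctan (t n * v x), fun n => ⟨hW n, ⟨(t n)⁻¹ * (Real.pi / 2),
    Eventually.of_forall fun x => ?_⟩, fun x => ⟨?_, ?_⟩⟩, ?_, ?_⟩
  · rw [abs_mul, abs_of_pos (inv_pos.2 (hpos n))]
    exact mul_le_mul_of_nonneg_left
      (abs_le.2 ⟨(Real.neg_pi_div_two_lt_arctan _).le, (Real.arctan_lt_pi_div_two _).le⟩) (inv_pos.2 (hpos n)).le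
  · simpa using dflb_lip (hc n) (hd n) 0 (v x)
  · rcases le_total 0 (v x) with h | h
    · exact mul_nonneg (mul_nonneg (inv_pos.2 (hpos n)).le (Real.arctan_nonneg.2 (mul_nonneg (hpos n).le h))) h
    · exact mul_nonneg_of_nonpos_of_nonpos (mul_nonpos_of_nonneg_of_nonpos (inv_pos.2 (hpos n)).le
        (Real.arctan_le_zero.2 (mul_nonpos_of_nonneg_of_nonpos (hpos n).le h))) h
  · refine tl2_of_dominated (b := fun x => |v x|) (Eventually.of_forall fun n => (hW n).mem.1) hv.mem.1 hv.mem.abs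
      (Eventually.of_forall fun n => Eventually.of_forall fun x => ?_) (Eventually.of_forall fun x => ?_)
    · simpa using dflb_lip (hc' n) (hd' n) 0 (v x)
    · have h1 : HasDerivAt (fun s => Real.arctan (s * v x)) (v x) 0 := by
        simpa using ((hasDerivAt_id (0 : ℝ)).mul_const (v x)).arctan
      have h2 := h1.tendsto_slope_zero.comp (tendsto_nhdsWithin_iff.2 ⟨ht, Eventually.of_forall fun n => (hpos n).ne'⟩)
      simpa [Function.comp_def] using h2
  · have h1 : ∀ n, D.E (fun x => (t n)⁻¹ * Real.arctan (t n * v x) - v x)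
        (fun x => (t n)⁻¹ * Real.arctan (t n * v x) - v x) =
        ∫ x, (1 / (1 + (t n * v x) ^ 2) - 1) ^ 2 * D.Γ v v x ∂μ := fun n => by
      refine integral_congr_ae ?_
      filter_upwards [Γ_comp_self hv.s (hc' n) (hd' n)] with x hx
      rw [hx, he']
    simp only [h1]
    have h2 := tendsto_integral_of_dominated_convergence (μ := μ) (f := fun _ => (0 : ℝ))
      (F := fun n x => (1 / (1 + (t n * v x) ^ 2) - 1) ^ 2 * D.Γ v v x) (fun x => ‖D.Γ v v x‖)
      (fun n => ?_) hv.int.norm (fun n => Eventually.of_forall fun x => ?_) (Eventually.of_forall fun x => ?_)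
    · simpa using h2
    · have h3 : Continuous fun r : ℝ => (1 / (1 + (t n * r) ^ 2) - 1) ^ 2 :=
        ((continuous_const.div (by fun_prop) fun r => by positivity).sub continuous_const).pow 2
      exact (h3.comp_aestronglyMeasurable hv.mem.1).mul hv.int.1
    · rw [norm_mul]
      refine mul_le_of_le_one_left (norm_nonneg _) ?_
      rw [Real.norm_of_nonneg (sq_nonneg _)]
      nlinarith [(dfc2_d01 (t n * v x)).1, (dfc2_d01 (t n * v x)).2]
    · have h3 : Continuous fun s : ℝ => (1 / (1 + (s * v x) ^ 2) - 1) ^ 2 * D.Γ v v x :=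
        (((continuous_const.div (by fun_prop) fun r => by positivity).sub continuous_const).pow 2).mul continuous_const
      simpa [Function.comp_def] using (h3.tendsto 0).comp ht

theorem Gen.of_bdd (hu : D.W u) (hg : MemLp g 2 μ)
    (h : ∀ v, D.W v → Bdd μ v → ∫ x, D.Γ u v x ∂μ = -∫ x, g x * v x ∂μ) : D.Gen u g := by
  refine ⟨hu, hg, fun v hv => ?_⟩
  obtain ⟨w, h1, h2, h3⟩ := hv.exists_trunc
  have h4 : Tendsto (fun n => D.E (w n) u - D.E v u) atTop (𝓝 0) := by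
    have h5 : Tendsto (fun n => √(D.E (fun x => w n x - v x) fun x => w n x - v x) * √(D.E u u)) atTop (𝓝 0) := by
      simpa using h3.sqrt.mul_const (√(D.E u u))
    refine squeeze_zero_norm (fun n => ?_) h5
    rw [← E_sub (h1 n).1 hv hu]
    exact abs_integral_le_integral_abs.trans (integral_abs_Γ_le ((h1 n).1.sub hv) hu)
  have h6 : Tendsto (fun n => D.E (w n) u) atTop (𝓝 (D.E v u)) := tendsto_sub_nhds_zero_iff.1 h4
  have h7 := (h2.integral_mul (Eventually.of_forall fun n => (h1 n).1.mem) hv.mem hg).neg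
  have h8 : ∀ n, D.E (w n) u = -∫ x, w n x * g x ∂μ := fun n => by
    rw [E_symm (h1 n).1 hu, E, h _ (h1 n).1 (h1 n).2.1]
    simp only [mul_comm]
  simp only [h8] at h6
  have h9 := tendsto_nhds_unique h6 h7
  rw [E_symm hv hu, E] at h9
  rw [h9]
  simp only [mul_comm]

theorem Gen.unique (h1 : D.Gen u g) (h2 : D.Gen u k) : g =ᵐ[μ] k := by
  have h3 := D.sep (h1.mem.sub h2.mem) fun v hv => by
    have h4 := (h1.eq v hv).symm.trans (h2.eq v hv)
    simp only [Pi.sub_apply, sub_mul]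
    rw [integral_sub (dfc2_int h1.mem hv.mem) (dfc2_int h2.mem hv.mem)]
    linarith
  filter_upwards [h3] with x hx
  exact sub_eq_zero.1 hx

theorem Gen.congr {u' g' : X → ℝ} (h : D.Gen u g) (h1 : u =ᵐ[μ] u') (h2 : g =ᵐ[μ] g') : D.Gen u' g' := by
  refine ⟨h.w.congr h1, h.mem.ae_eq h2, fun v hv => ?_⟩
  rw [← integral_congr_ae (D.Γ_congr h.w.s hv.s h1), h.eq v hv]
  congr 1
  refine integral_congr_ae ?_
  filter_upwards [h2] with x hx
  rw [hx]

theorem Gen.gen_L (h : D.Gen u g) : D.Gen u (D.L u) := by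
  have h1 : ∃ g, D.Gen u g := ⟨g, h⟩
  rw [L, dif_pos h1]
  exact h1.choose_spec

theorem Gen.L_ae (h : D.Gen u g) : D.L u =ᵐ[μ] g := by
  exact h.gen_L.unique h

theorem Gen.add (h1 : D.Gen u g) (h2 : D.Gen v k) : D.Gen (fun x => u x + v x) fun x => g x + k x := by
  refine ⟨h1.w.add h2.w, h1.mem.add h2.mem, fun w hw => ?_⟩
  have h3 := E_add h1.w h2.w hw
  simp only [E] at h3
  simp only [add_mul]
  rw [h3, h1.eq w hw, h2.eq w hw, integral_add (dfc2_int h1.mem hw.mem) (dfc2_int h2.mem hw.mem), neg_add]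

theorem Gen.smul (c : ℝ) (h1 : D.Gen u g) : D.Gen (fun x => c * u x) fun x => c * g x := by
  refine ⟨h1.w.smul c, h1.mem.const_mul c, fun w hw => ?_⟩
  have h3 := E_smul c h1.w hw
  simp only [E] at h3
  simp only [mul_assoc]
  rw [h3, h1.eq w hw, integral_const_mul, mul_neg]

theorem Gen.sub (h1 : D.Gen u g) (h2 : D.Gen v k) : D.Gen (fun x => u x - v x) fun x => g x - k x := by
  refine ⟨h1.w.sub h2.w, h1.mem.sub h2.mem, fun w hw => ?_⟩
  have h3 := E_sub h1.w h2.w hw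
  simp only [E] at h3
  simp only [sub_mul]
  rw [h3, h1.eq w hw, h2.eq w hw, integral_sub (dfc2_int h1.mem hw.mem) (dfc2_int h2.mem hw.mem)]
  ring

theorem Gen.symm (h1 : D.Gen u g) (h2 : D.Gen v k) : ∫ x, g x * v x ∂μ = ∫ x, u x * k x ∂μ := by
  have h3 := E_symm h1.w h2.w
  simp only [E] at h3
  rw [h1.eq v h2.w, h2.eq u h1.w, neg_inj] at h3
  rw [h3]
  simp only [mul_comm]

theorem dfc2b_diff {φ : ℝ → ℝ} (hφ : ContDiff ℝ 2 φ) : ContDiff ℝ 1 φ ∧ ContDiff ℝ 1 (deriv φ) :=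
  ⟨hφ.of_le (by norm_num), (contDiff_succ_iff_deriv (n := 1)).1 (by rw [one_add_one_eq_two]; exact hφ) |>.2.2⟩

theorem dfc2b_weak {φ : ℝ → ℝ} {C : ℝ} (h : D.Gen u g) (hφ : ContDiff ℝ 2 φ) (h1 : ∀ r, |deriv φ r| ≤ C)
    (h2 : ∀ r, |deriv (deriv φ) r| ≤ C) (hη : D.W η) (hb : Bdd μ η) :
    ∫ x, D.Γ (fun y => φ (u y)) η x ∂μ =
      -∫ x, η x * (deriv φ (u x) * g x + deriv (deriv φ) (u x) * D.Γ u u x) ∂μ := by
  obtain ⟨hφ1, hψ⟩ := dfc2b_diff hφ
  have hm := h.w.mem.1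
  have hb1 : Bdd μ fun x => deriv φ (u x) := ⟨C, ae_of_all _ fun x => h1 _⟩
  have hb2 : Bdd μ fun x => deriv (deriv φ) (u x) := ⟨C, ae_of_all _ fun x => h2 _⟩
  have hS : D.S fun x => deriv φ (u x) := D.S_comp h.w.s hψ h2
  have hW0 : D.W fun x => deriv φ (u x) - deriv φ 0 :=
    h.w.comp (φ := fun r => deriv φ r - deriv φ 0) (C := C) (hψ.sub contDiff_const) (sub_self _) fun r => by
      rw [deriv_sub_const]
      exact h2 r
  have hb0 : Bdd μ fun x => deriv φ (u x) - deriv φ 0 :=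
    ⟨C + C, ae_of_all _ fun x => (abs_sub _ _).trans (add_le_add (h1 _) (h1 _))⟩
  have hW : D.W fun x => deriv φ (u x) * η x :=
    ((hW0.mul_bdd hη hb0 hb).add (hη.smul (deriv φ 0))).congr (ae_of_all _ fun x => by ring)
  have i1 : Integrable (fun x => η x * (deriv (deriv φ) (u x) * D.Γ u u x)) μ :=
    hb.mul_integrable hη.mem.1
      (hb2.mul_integrable ((hψ.continuous_deriv le_rfl).comp_aestronglyMeasurable hm) h.w.int)
  have i2 : Integrable (fun x => g x * (deriv φ (u x) * η x)) μ := h.mem.integrable_mul hW.mem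
  have e1 : D.Γ (fun y => φ (u y)) η =ᵐ[μ] fun x => D.Γ u (fun y => deriv φ (u y) * η y) x -
      η x * (deriv (deriv φ) (u x) * D.Γ u u x) := by
    filter_upwards [D.Γ_comp h.w.s hη.s hφ1 h1, Γ_mul_right hS hη.s h.w.s hb1 (Or.inl hb),
      Γ_comp_right h.w.s h.w.s hψ h2] with x e1 e2 e3
    rw [e1, e2, e3]
    ring
  rw [integral_congr_ae e1, integral_sub (h.w.integrable_Γ hW) i1, h.eq _ hW, ← neg_add', ← integral_add i2 i1]
  congr 2
  funext x
  ring

theorem dfc2b_leib {w : X → ℝ} (h : D.Gen u g) (hv : D.W v) (hw : D.W w) (h1 : Bdd μ v) (h2 : Bdd μ w) :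
    ∫ x, v x * D.Γ u w x ∂μ + ∫ x, w x * D.Γ u v x ∂μ = -∫ x, v x * g x * w x ∂μ := by
  rw [← integral_add (h1.mul_integrable hv.mem.1 (h.w.integrable_Γ hw))
      (h2.mul_integrable hw.mem.1 (h.w.integrable_Γ hv)),
    ← integral_congr_ae (Γ_mul_right hv.s hw.s h.w.s h1 (Or.inl h2)), h.eq _ (hv.mul_bdd hw h1 h2)]
  congr 2
  funext x
  ring

theorem dfc2b_mul {w : X → ℝ} (h1 : D.Gen u g) (h2 : D.Gen v k) (hu : Bdd μ u) (hv : Bdd μ v ∨ Bdd μ (D.Γ u u))
    (hw : D.W w) (hb : Bdd μ w) (i1 : Integrable (fun x => v x * D.Γ u w x) μ)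
    (i2 : Integrable (fun x => v x * g x * w x) μ)
    (e : ∫ x, v x * D.Γ u w x ∂μ + ∫ x, w x * D.Γ u v x ∂μ = -∫ x, v x * g x * w x ∂μ) :
    ∫ x, D.Γ (fun x => u x * v x) w x ∂μ = -∫ x, (u x * k x + v x * g x + 2 * D.Γ u v x) * w x ∂μ := by
  have e1 := dfc2b_leib h2 h1.w hw hu hb
  have e2 : ∫ x, w x * D.Γ v u x ∂μ = ∫ x, w x * D.Γ u v x ∂μ := by
    refine integral_congr_ae ?_
    filter_upwards [D.Γ_symm h2.w.s h1.w.s] with x hx
    rw [hx]
  have i3 : Integrable (fun x => u x * k x * w x) μ := (hu.mul_memLp h1.w.mem.1 h2.mem).integrable_mul hw.mem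
  have i4 : Integrable (fun x => w x * D.Γ u v x) μ := hb.mul_integrable hw.mem.1 (h1.w.integrable_Γ h2.w)
  have e3 : ∫ x, (u x * k x + v x * g x + 2 * D.Γ u v x) * w x ∂μ =
      ∫ x, u x * k x * w x ∂μ + ∫ x, v x * g x * w x ∂μ + 2 * ∫ x, w x * D.Γ u v x ∂μ := by
    have i5 : Integrable (fun x => u x * k x * w x + v x * g x * w x) μ := i3.add i2
    rw [← integral_add i3 i2, ← integral_const_mul, ← integral_add i5 (i4.const_mul 2)]
    congr 1
    funext x
    ring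
  rw [integral_congr_ae (D.Γ_mul h1.w.s h2.w.s hw.s hu hv),
    integral_add (hu.mul_integrable h1.w.mem.1 (h2.w.integrable_Γ hw)) i1, e3]
  linarith

theorem dfc2b_lim {w : X → ℝ} {t : ℕ → X → ℝ} (hu : D.W u) (hv : D.W v) (ht : ∀ n, D.W (t n))
    (hm : AEStronglyMeasurable w μ) (hb : Bdd μ w)
    (hE : Tendsto (fun n => D.E (fun x => t n x - v x) fun x => t n x - v x) atTop (𝓝 0)) :
    Tendsto (fun n => ∫ x, w x * D.Γ u (t n) x ∂μ) atTop (𝓝 (∫ x, w x * D.Γ u v x ∂μ)) := by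
  obtain ⟨C, hC⟩ := id hb
  rw [tendsto_iff_norm_sub_tendsto_zero]
  have l : Tendsto (fun n => |C| * (√(D.E u u) * √(D.E (fun x => t n x - v x) fun x => t n x - v x))) atTop (𝓝 0) := by
    simpa using (hE.sqrt.const_mul √(D.E u u)).const_mul |C|
  refine squeeze_zero (fun _ => norm_nonneg _) (fun n => ?_) l
  have hd := (ht n).sub hv
  rw [← integral_sub (hb.mul_integrable hm (hu.integrable_Γ (ht n))) (hb.mul_integrable hm (hu.integrable_Γ hv))]
  refine le_trans ?_ (mul_le_mul_of_nonneg_left (integral_abs_Γ_le hu hd) (abs_nonneg C))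
  rw [← integral_const_mul]
  refine norm_integral_le_of_norm_le ((hu.integrable_Γ hd).abs.const_mul _) ?_
  filter_upwards [hC, Γ_sub_right (ht n).s hv.s hu.s] with x h1 h2
  rw [h2, ← mul_sub, Real.norm_eq_abs, abs_mul]
  exact mul_le_mul_of_nonneg_right (h1.trans (le_abs_self C)) (abs_nonneg _)

theorem Gen.comp {φ : ℝ → ℝ} {C : ℝ} (h : D.Gen u g) (hφ : ContDiff ℝ 2 φ) (h0 : φ 0 = 0) (h1 : ∀ r, |deriv φ r| ≤ C)
    (h2 : ∀ r, |deriv (deriv φ) r| ≤ C) (hΓ : MemLp (D.Γ u u) 2 μ) :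
    D.Gen (fun x => φ (u x)) fun x => deriv φ (u x) * g x + deriv (deriv φ) (u x) * D.Γ u u x := by
  obtain ⟨hφ1, hψ⟩ := dfc2b_diff hφ
  have hm := h.w.mem.1
  refine Gen.of_bdd (h.w.comp hφ1 h0 h1) ?_ fun v hv hb => ?_
  · exact (Bdd.mul_memLp ⟨C, ae_of_all _ fun x => h1 _⟩ (hψ.continuous.comp_aestronglyMeasurable hm) h.mem).add
      (Bdd.mul_memLp ⟨C, ae_of_all _ fun x => h2 _⟩
        ((hψ.continuous_deriv le_rfl).comp_aestronglyMeasurable hm) hΓ)
  · rw [dfc2b_weak h hφ h1 h2 hv hb]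
    simp only [mul_comm (v _)]

theorem Gen.mul (h1 : D.Gen u g) (h2 : D.Gen v k) (hu : Bdd μ u) (hv : Bdd μ v) (hΓ : MemLp (D.Γ u v) 2 μ) :
    D.Gen (fun x => u x * v x) fun x => u x * k x + v x * g x + 2 * D.Γ u v x := by
  refine Gen.of_bdd (h1.w.mul_bdd h2.w hu hv) ?_ fun w hw hb => ?_
  · exact ((hu.mul_memLp h1.w.mem.1 h2.mem).add (hv.mul_memLp h2.w.mem.1 h1.mem)).add (hΓ.const_mul 2)
  · refine dfc2b_mul h1 h2 hu (Or.inl hv) hw hb (hv.mul_integrable h2.w.mem.1 (h1.w.integrable_Γ hw))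
      ((hv.mul_memLp h2.w.mem.1 h1.mem).integrable_mul hw.mem) ?_
    exact dfc2b_leib h1 h2.w hw hv hb

/-- the same when `u`, `Γ u u`, `L u` are bounded and `v` is arbitrary -/
theorem Gen.mul' (h1 : D.Gen u g) (h2 : D.Gen v k) (hu : Bdd μ u) (hu' : Bdd μ (D.Γ u u)) (hg : Bdd μ g) :
    D.Gen (fun x => u x * v x) fun x => u x * k x + v x * g x + 2 * D.Γ u v x := by
  have hvg : MemLp (fun x => v x * g x) 2 μ := by
    simpa only [mul_comm] using hg.mul_memLp h1.mem.1 h2.w.mem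
  refine Gen.of_bdd (h2.w.bdd_mul h1.w.s hu hu') ?_ fun w hw hb => ?_
  · exact ((hu.mul_memLp h1.w.mem.1 h2.mem).add hvg).add ((h2.w.memLp_Γ h1.w.s hu').const_mul 2)
  · have hΓ := hw.memLp_Γ h1.w.s hu'
    have hgw := hg.mul_memLp h1.mem.1 hw.mem
    refine dfc2b_mul h1 h2 hu (Or.inr hu') hw hb (h2.w.mem.integrable_mul hΓ) (hvg.integrable_mul hw.mem) ?_
    obtain ⟨t, ht, hL, hE⟩ := h2.w.exists_trunc
    have hm : ∀ᶠ n in atTop, MemLp (t n) 2 μ := Eventually.of_forall fun n => (ht n).1.mem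
    have l1 := hL.integral_mul hm h2.w.mem hΓ
    have l2 := hL.integral_mul hm h2.w.mem hgw
    have l3 := dfc2b_lim h1.w h2.w (fun n => (ht n).1) hw.mem.1 hb hE
    have e : ∀ n, ∫ x, t n x * D.Γ u w x ∂μ + ∫ x, w x * D.Γ u (t n) x ∂μ = -∫ x, t n x * (g x * w x) ∂μ :=
      fun n => by
        rw [dfc2b_leib h1 (ht n).1 hw (ht n).2.1 hb]
        simp only [mul_assoc]
    have := tendsto_nhds_unique ((l1.add l3).congr e) l2.neg
    rw [this]
    simp only [mul_assoc]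

/-- testing the chain rule against a bounded `η ∈ W` (no integrability of `Γ u u` beyond `L¹`) -/
theorem Gen.comp_weak {φ : ℝ → ℝ} {C : ℝ} (h : D.Gen u g) (hφ : ContDiff ℝ 2 φ) (h1 : ∀ r, |deriv φ r| ≤ C)
    (h2 : ∀ r, |deriv (deriv φ) r| ≤ C) (hη : D.W η) (hb : Bdd μ η) :
    ∫ x, D.Γ (fun y => φ (u y)) η x ∂μ =
      -∫ x, η x * (deriv φ (u x) * g x + deriv (deriv φ) (u x) * D.Γ u u x) ∂μ :=
  dfc2b_weak h hφ h1 h2 hη hb

end DF

end Crest.Agent.R242

end
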