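import Crest.Agent.R242.DfL

/-!
# R242/DfM: sub-Markov operators (prefix `dfm_`)

`integrable`: test with `g = sign (T f)` on `{|T f| > 1/n}` (finite measure), `|T g| ≤ 1`, monotone convergence.
`jensen`: for rational `q` a supporting line `φ r ≥ a r + b` at `q` has `b ≤ 0`; `le_add`; sup over `q` (countable).
`sq_mul_le`: `T ((f - q g)²) ≥ 0` for rational `q`.
-/

set_option autoImplicit false
set_option linter.unusedSectionVars false

open MeasureTheory Filter Topology Set
open scoped RealInnerProductSpace ENNReal NNReal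

noncomputable section

namespace Crest.Agent.R242

variable {X : Type*} [MetricSpace X] [MeasurableSpace X] [BorelSpace X] {μ : Measure X}

theorem dfm_support {φ : ℝ → ℝ} (hφ : ConvexOn ℝ univ φ) (q : ℝ) : ∃ a : ℝ, ∀ r, φ q + a * (r - q) ≤ φ r := by
  have hq : q ∈ interior (univ : Set ℝ) := by simp
  refine ⟨derivWithin φ (Ioi q) q, fun r => ?_⟩
  rcases lt_trichotomy r q with h | h | h
  · have h1 := (hφ.slope_le_leftDeriv_of_mem_interior (mem_univ r) hq h).trans
      (hφ.leftDeriv_le_rightDeriv_of_mem_interior hq)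
    rw [slope_def_field, div_le_iff₀ (sub_pos.2 h)] at h1
    linarith
  · subst h; simp
  · have h1 := hφ.rightDeriv_le_slope_of_mem_interior hq (mem_univ r) h
    rw [slope_def_field, le_div_iff₀ (sub_pos.2 h)] at h1
    linarith

theorem dfm_sup {φ : ℝ → ℝ} (hφ : ConvexOn ℝ univ φ) {a : ℚ → ℝ}
    (ha : ∀ (q : ℚ) (r : ℝ), φ q + a q * (r - q) ≤ φ r) {y M : ℝ} (h : ∀ q : ℚ, φ q + a q * (y - q) ≤ M) :
    φ y ≤ M := by
  have hc : Continuous φ := hφ.locallyLipschitz.continuous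
  let G : ℝ → ℝ := fun q => φ q - (|φ (q + 1) - φ q| + |φ (q - 1) - φ q|) * |y - q|
  have hG : Continuous G := by
    simp only [G]
    fun_prop
  have h1 : ∀ q : ℚ, G q ≤ M := by
    intro q
    have h2 := ha q (q + 1)
    have h3 := ha q (q - 1)
    have h4 : |a q| ≤ |φ (q + 1) - φ q| + |φ (q - 1) - φ q| := by
      rw [abs_le]
      have := le_abs_self (φ (q + 1) - φ q)
      have := le_abs_self (φ (q - 1) - φ q)
      have := abs_nonneg (φ (q + 1) - φ q)
      have := abs_nonneg (φ (q - 1) - φ q)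
      constructor <;> nlinarith
    have h5 : -(a q * (y - q)) ≤ |a q| * |y - q| := by
      rw [← abs_mul]; exact neg_le_abs _
    have h6 := mul_le_mul_of_nonneg_right h4 (abs_nonneg (y - q))
    have h7 := h q
    simp only [G]
    linarith
  have h2 : G y ≤ M :=
    Rat.denseRange_cast.induction_on (p := fun y => G y ≤ M) y (isClosed_le hG continuous_const) h1
  simpa [G] using h2

theorem dfm_disc {A B C : ℝ} (h : ∀ q : ℚ, 0 ≤ A - 2 * q * B + (q : ℝ) ^ 2 * C) : B ^ 2 ≤ A * C := by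
  have h1 : ∀ r : ℝ, 0 ≤ C * (r * r) + (-2 * B) * r + A := by
    intro r
    refine Rat.denseRange_cast.induction_on (p := fun r : ℝ => 0 ≤ C * (r * r) + (-2 * B) * r + A) r
      (isClosed_le continuous_const (by fun_prop)) fun q => ?_
    have := h q
    nlinarith
  have h2 := discrim_le_zero h1
  rw [discrim] at h2
  nlinarith

namespace Mk

variable {T : (X → ℝ) → X → ℝ} (hT : Mk μ T) {f g : X → ℝ}

include hT

theorem neg (hf : MemLp f 2 μ) : T (fun x => -f x) =ᵐ[μ] fun x => -T f x := by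
  have h := hT.smul (-1) hf
  simpa using h

theorem sub (hf : MemLp f 2 μ) (hg : MemLp g 2 μ) : T (fun x => f x - g x) =ᵐ[μ] fun x => T f x - T g x := by
  have h1 := hT.add hf (g := fun x => -g x) hg.neg
  have h2 := hT.neg hg
  simp only [← sub_eq_add_neg] at h1
  filter_upwards [h1, h2] with x h1 h2
  rw [h1, h2]; ring

theorem lin (hf : MemLp f 2 μ) (hg : MemLp g 2 μ) (a b : ℝ) :
    T (fun x => a * f x + b * g x) =ᵐ[μ] fun x => a * T f x + b * T g x := by
  have h1 := hT.add (f := fun x => a * f x) (g := fun x => b * g x) (hf.const_mul a) (hg.const_mul b)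
  filter_upwards [h1, hT.smul a hf, hT.smul b hg] with x h1 h2 h3
  rw [h1, h2, h3]

theorem nonneg (hf : MemLp f 2 μ) (h : ∀ᵐ x ∂μ, 0 ≤ f x) : ∀ᵐ x ∂μ, 0 ≤ T f x := by
  have h1 := hT.le_const (f := fun x => -f x) hf.neg le_rfl (h.mono fun x hx => by simpa using hx)
  filter_upwards [h1, hT.neg hf] with x h1 h2
  rw [h2] at h1
  linarith

theorem mono (hf : MemLp f 2 μ) (hg : MemLp g 2 μ) (h : ∀ᵐ x ∂μ, f x ≤ g x) : ∀ᵐ x ∂μ, T f x ≤ T g x := by
  have h1 := hT.nonneg (f := fun x => g x - f x) (hg.sub hf) (h.mono fun x hx => sub_nonneg.2 hx)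
  filter_upwards [h1, hT.sub hg hf] with x h1 h2
  rw [h2] at h1
  linarith

theorem le_add {c : ℝ} (hf : MemLp f 2 μ) (hg : MemLp g 2 μ) (hc : 0 ≤ c) (h : ∀ᵐ x ∂μ, f x ≤ c + g x) :
    ∀ᵐ x ∂μ, T f x ≤ c + T g x := by
  have h1 := hT.le_const (f := fun x => f x - g x) (hf.sub hg) hc (h.mono fun x hx => by linarith)
  filter_upwards [h1, hT.sub hf hg] with x h1 h2
  rw [h2] at h1
  linarith

theorem ge_const {a : ℝ} (hf : MemLp f 2 μ) (ha : a ≤ 0) (h : ∀ᵐ x ∂μ, a ≤ f x) : ∀ᵐ x ∂μ, a ≤ T f x := by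
  have h1 := hT.le_const (f := fun x => -f x) (a := -a) hf.neg (by linarith) (h.mono fun x hx => by linarith)
  filter_upwards [h1, hT.neg hf] with x h1 h2
  rw [h2] at h1
  linarith

theorem abs_le_const {a : ℝ} (hf : MemLp f 2 μ) (ha : 0 ≤ a) (h : ∀ᵐ x ∂μ, |f x| ≤ a) : ∀ᵐ x ∂μ, |T f x| ≤ a := by
  have h1 := hT.le_const hf ha (h.mono fun x hx => (abs_le.1 hx).2)
  have h2 := hT.ge_const hf (neg_nonpos.2 ha) (h.mono fun x hx => (abs_le.1 hx).1)
  filter_upwards [h1, h2] with x h1 h2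
  exact _root_.abs_le.2 ⟨h2, h1⟩

theorem bdd (hf : MemLp f 2 μ) (h : Bdd μ f) : Bdd μ (T f) := by
  obtain ⟨C, hC⟩ := h
  exact ⟨|C|, hT.abs_le_const hf (abs_nonneg C) (hC.mono fun x hx => hx.trans (le_abs_self C))⟩

theorem abs_le (hf : MemLp f 2 μ) : ∀ᵐ x ∂μ, |T f x| ≤ T (fun y => |f y|) x := by
  have ha : MemLp (fun y => |f y|) 2 μ := hf.abs
  have h1 := hT.mono hf ha (Eventually.of_forall fun x => le_abs_self _)
  have h2 := hT.mono (f := fun x => -f x) hf.neg ha (Eventually.of_forall fun x => neg_le_abs _)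
  filter_upwards [h1, h2, hT.neg hf] with x h1 h2 h3
  rw [h3] at h2
  exact _root_.abs_le.2 ⟨by linarith, h1⟩

theorem integral_sq_le (hf : MemLp f 2 μ) : ∫ x, T f x ^ 2 ∂μ ≤ ∫ x, f x ^ 2 ∂μ := by
  rw [← norm_cls_sq (hT.mem f), ← norm_cls_sq hf, norm_cls (hT.mem f), norm_cls hf]
  exact pow_le_pow_left₀ ENNReal.toReal_nonneg (ENNReal.toReal_mono hf.2.ne (hT.contr f)) 2

theorem integrable (hf : MemLp f 2 μ) (h1 : Integrable f μ) :
    Integrable (T f) μ ∧ ∫ x, |T f x| ∂μ ≤ ∫ x, |f x| ∂μ := by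
  let g : ℕ → X → ℝ := fun n x => max (-1) (min 1 (n * T f x))
  have hgm : ∀ n, Measurable (g n) := fun n =>
    measurable_const.max (measurable_const.min ((hT.meas f).const_mul _))
  have hg1 : ∀ n x, |g n x| ≤ 1 := fun n x =>
    _root_.abs_le.2 ⟨le_max_left _ _, max_le (by norm_num) (min_le_left _ _)⟩
  have hg2 : ∀ n, MemLp (g n) 2 μ := by
    intro n
    refine ((hT.mem f).const_mul (n : ℝ)).mono (hgm n).aestronglyMeasurable (Eventually.of_forall fun x => ?_)
    simp only [g, Real.norm_eq_abs]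
    generalize (n : ℝ) * T f x = y
    rcases le_total 0 y with hy | hy
    · rw [abs_of_nonneg hy, abs_of_nonneg (le_max_of_le_right (le_min zero_le_one hy))]
      exact max_le (by linarith) (min_le_right _ _)
    · rw [abs_of_nonpos hy, min_eq_right (by linarith), abs_of_nonpos (max_le (by norm_num) hy)]
      exact neg_le_neg (le_max_right _ _)
  have hpos : ∀ n x, 0 ≤ T f x * g n x := by
    intro n x
    simp only [g]
    rcases le_total 0 (T f x) with hy | hy
    · exact mul_nonneg hy (le_max_of_le_right (le_min zero_le_one (mul_nonneg n.cast_nonneg hy)))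
    · exact mul_nonneg_of_nonpos_of_nonpos hy (max_le (by norm_num)
        (min_le_of_right_le (mul_nonpos_of_nonneg_of_nonpos n.cast_nonneg hy)))
  have hint : ∀ n, Integrable (fun x => T f x * g n x) μ := fun n => (hT.mem f).integrable_mul (hg2 n)
  have hle : ∀ n, ∫ x, T f x * g n x ∂μ ≤ ∫ x, |f x| ∂μ := by
    intro n
    rw [hT.symm hf (hg2 n)]
    refine integral_mono_ae (hf.integrable_mul (hT.mem _)) h1.abs ?_
    filter_upwards [hT.abs_le_const (hg2 n) zero_le_one (Eventually.of_forall (hg1 n))] with x hx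
    calc f x * T (g n) x ≤ |f x * T (g n) x| := le_abs_self _
      _ = |f x| * |T (g n) x| := abs_mul _ _
      _ ≤ |f x| * 1 := mul_le_mul_of_nonneg_left hx (abs_nonneg _)
      _ = |f x| := mul_one _
  have hlim : ∀ x, Tendsto (fun n => ENNReal.ofReal (T f x * g n x)) atTop (𝓝 (ENNReal.ofReal |T f x|)) := by
    intro x
    refine tendsto_const_nhds.congr' ?_
    rcases lt_trichotomy (T f x) 0 with hy | hy | hy
    · have h2 : Tendsto (fun n : ℕ => (n : ℝ) * T f x) atTop atBot :=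
        tendsto_natCast_atTop_atTop.atTop_mul_const_of_neg hy
      filter_upwards [h2.eventually_le_atBot (-1)] with n hn
      simp only [g]
      rw [min_eq_right (by linarith), max_eq_left hn, abs_of_neg hy]
      simp
    · simp [hy]
    · have h2 : Tendsto (fun n : ℕ => (n : ℝ) * T f x) atTop atTop :=
        tendsto_natCast_atTop_atTop.atTop_mul_const hy
      filter_upwards [h2.eventually_ge_atTop 1] with n hn
      simp only [g]
      rw [min_eq_left hn, max_eq_right (by norm_num), abs_of_pos hy, mul_one]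
  have hF : ∫⁻ x, ENNReal.ofReal |T f x| ∂μ ≤ ENNReal.ofReal (∫ x, |f x| ∂μ) := by
    have h2 := lintegral_liminf_le (μ := μ) (u := atTop) (f := fun n x => ENNReal.ofReal (T f x * g n x))
      fun n => ((hT.meas f).mul (hgm n)).ennreal_ofReal
    simp only [fun x => (hlim x).liminf_eq] at h2
    refine h2.trans (liminf_le_of_frequently_le' (Frequently.of_forall fun n => ?_))
    rw [← ofReal_integral_eq_lintegral_ofReal (hint n) (Eventually.of_forall (hpos n))]
    exact ENNReal.ofReal_le_ofReal (hle n)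
  have hI : Integrable (T f) μ := by
    refine ⟨(hT.meas f).aestronglyMeasurable, ?_⟩
    rw [hasFiniteIntegral_iff_norm]
    exact hF.trans_lt ENNReal.ofReal_lt_top
  refine ⟨hI, ?_⟩
  rw [← ofReal_integral_eq_lintegral_ofReal hI.abs (Eventually.of_forall fun x => abs_nonneg _)] at hF
  exact (ENNReal.ofReal_le_ofReal_iff (integral_nonneg fun x => abs_nonneg _)).1 hF

theorem integral_le (hf : MemLp f 2 μ) (h1 : Integrable f μ) (h0 : ∀ᵐ x ∂μ, 0 ≤ f x) :
    ∫ x, T f x ∂μ ≤ ∫ x, f x ∂μ := by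
  obtain ⟨hI, h2⟩ := hT.integrable hf h1
  calc ∫ x, T f x ∂μ ≤ ∫ x, |T f x| ∂μ := integral_mono hI hI.abs fun x => le_abs_self _
    _ ≤ ∫ x, |f x| ∂μ := h2
    _ = ∫ x, f x ∂μ := integral_congr_ae (h0.mono fun x hx => abs_of_nonneg hx)

theorem jensen {φ : ℝ → ℝ} (hφ : ConvexOn ℝ univ φ) (h0 : φ 0 = 0) (hf : MemLp f 2 μ)
    (hφf : MemLp (fun x => φ (f x)) 2 μ) : ∀ᵐ x ∂μ, φ (T f x) ≤ T (fun y => φ (f y)) x := by
  choose a ha using fun q : ℚ => dfm_support hφ q
  have h1 : ∀ q : ℚ, ∀ᵐ x ∂μ, φ q + a q * (T f x - q) ≤ T (fun y => φ (f y)) x := by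
    intro q
    have h2 := ha q 0
    rw [h0] at h2
    have h3 := hT.le_add (f := fun x => a q * f x) (c := a q * q - φ q) (hf.const_mul _) hφf (by linarith)
      (Eventually.of_forall fun x => by have := ha q (f x); linarith)
    filter_upwards [h3, hT.smul (a q) hf] with x h3 h4
    rw [h4] at h3
    linarith
  filter_upwards [ae_all_iff.2 h1] with x hx
  exact dfm_sup hφ ha hx

theorem sq_le (hf : MemLp f 2 μ) (h2 : MemLp (fun x => f x ^ 2) 2 μ) :
    ∀ᵐ x ∂μ, T f x ^ 2 ≤ T (fun y => f y ^ 2) x := by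
  exact hT.jensen (φ := fun r => r ^ 2) (Even.convexOn_pow even_two) (by simp) hf h2

theorem sq_mul_le (hf : MemLp (fun x => f x ^ 2) 2 μ) (hg : MemLp (fun x => g x ^ 2) 2 μ)
    (hfg : MemLp (fun x => f x * g x) 2 μ) :
    ∀ᵐ x ∂μ, T (fun y => f y * g y) x ^ 2 ≤ T (fun y => f y ^ 2) x * T (fun y => g y ^ 2) x := by
  have h1 : ∀ q : ℚ, ∀ᵐ x ∂μ, 0 ≤ T (fun y => f y ^ 2) x - 2 * q * T (fun y => f y * g y) x
      + (q : ℝ) ^ 2 * T (fun y => g y ^ 2) x := by
    intro q
    have hA : MemLp (fun x => 1 * f x ^ 2 + (-2 * q : ℝ) * (f x * g x)) 2 μ :=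
      (hf.const_mul 1).add (hfg.const_mul _)
    have h2 := hT.lin hf hfg 1 (-2 * q)
    have h3 := hT.lin hA hg 1 ((q : ℝ) ^ 2)
    have h4 := hT.nonneg (f := fun x => 1 * (1 * f x ^ 2 + (-2 * q : ℝ) * (f x * g x)) + (q : ℝ) ^ 2 * g x ^ 2)
      ((hA.const_mul 1).add (hg.const_mul _))
      (Eventually.of_forall fun x => by nlinarith [sq_nonneg (f x - q * g x)])
    filter_upwards [h2, h3, h4] with x h2 h3 h4
    rw [h3, h2] at h4
    linarith
  filter_upwards [ae_all_iff.2 h1] with x hx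
  exact dfm_disc hx

theorem tl2 {ι : Type*} {l : Filter ι} {u : ι → X → ℝ} (h : TL2 μ l u g) (hu : ∀ᶠ i in l, MemLp (u i) 2 μ)
    (hg : MemLp g 2 μ) : TL2 μ l (fun i => T (u i)) (T g) := by
  refine tendsto_of_tendsto_of_tendsto_of_le_of_le' tendsto_const_nhds h (Eventually.of_forall fun i => zero_le) ?_
  filter_upwards [hu] with i hi
  rw [← eLpNorm_congr_ae (hT.sub hi hg)]
  exact hT.contr _

end Mk

end Crest.Agent.R242

end
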