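import Crest.Agent.R242.DfA5
import Crest.Agent.R242.DfC2
import Crest.Agent.R242.DfM

/-!
# R242/DfB: the closed form on `L²`, resolvent and semigroup (helper62)
-/

set_option autoImplicit false
set_option linter.unusedSectionVars false

open MeasureTheory Filter Topology Set
open scoped RealInnerProductSpace ENNReal NNReal

noncomputable section

namespace Crest.Agent.R242

variable {X : Type*} [MetricSpace X] [MeasurableSpace X] [BorelSpace X] {μ : Measure X}

namespace DF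

variable (D : DF μ)

theorem exists_frm : ∃ F : Frm (Lp ℝ 2 μ), (∀ u, u ∈ F.V ↔ D.W ⇑u) ∧ ∀ u v, F.E u v = D.E ⇑u ⇑v := by
  refine ⟨{ V := { carrier := {u | D.W ⇑u}
                   add_mem' := fun {a b} ha hb => (W.add ha hb).congr (Lp.coeFn_add a b).symm
                   zero_mem' := D.W_zero.congr (Lp.coeFn_zero ℝ 2 μ).symm
                   smul_mem' := fun c a ha => (W.smul c ha).congr (Lp.coeFn_smul c a).symm }
            E := fun u v => D.E ⇑u ⇑v
            symm := fun hu hv => E_symm hu hv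
            add := fun {u v w} hu hv hw =>
              (E_congr (W.add hu hv) hw (Lp.coeFn_add u v).symm EventuallyEq.rfl).symm.trans (E_add hu hv hw)
            smul := fun {u w} c hu hw =>
              (E_congr (W.smul c hu) hw (Lp.coeFn_smul c u).symm EventuallyEq.rfl).symm.trans (E_smul c hu hw)
            nonneg := fun hu => E_nonneg hu
            closed := ?_
            sep := ?_ }, fun _ => Iff.rfl, fun _ _ => rfl⟩
  · obtain ⟨c, hc⟩ := D.closed
    refine ⟨c, fun u x C hu hx hC => ?_⟩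
    have h1 : TL2 μ atTop (fun n => ⇑(u n)) ⇑x := by
      rw [tl2_iff (Eventually.of_forall fun n => Lp.memLp (u n)) (Lp.memLp x)]
      simpa only [cls_coe] using hx
    obtain ⟨⟨h2, h3⟩, h4⟩ := hc (fun n => ⇑(u n)) (⇑x) C
      (fun n => ⟨W.s (hu n), W.mem (hu n), W.int (hu n)⟩) (Lp.memLp x) h1 hC
    exact ⟨⟨h2, Lp.memLp x, h3⟩, h4⟩
  · intro f hf
    have h1 := D.sep (Lp.memLp f) fun v hv => by
      rw [← inner_cls (Lp.memLp f) hv.mem, cls_coe]
      exact hf _ (hv.congr (cls_ae hv.mem).symm)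
    exact Lp.ext (EventuallyEq.trans h1 (Lp.coeFn_zero ℝ 2 μ).symm)

/-- the closed form on `L²` -/
def frm : Frm (Lp ℝ 2 μ) := D.exists_frm.choose

/-- the resolvent on `L²` -/
def JL (h : ℝ) : Lp ℝ 2 μ →L[ℝ] Lp ℝ 2 μ := D.frm.J h

/-- the semigroup on `L²` -/
def PL (t : ℝ) : Lp ℝ 2 μ →L[ℝ] Lp ℝ 2 μ := D.frm.P t

/-- the resolvent `(1 - h L)⁻¹` on functions (the identity a.e. for `h ≤ 0`) -/
def J (h : ℝ) : (X → ℝ) → X → ℝ := fl (D.JL h)

/-- the semigroup on functions (the identity a.e. for `t ≤ 0`) -/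
def P (t : ℝ) : (X → ℝ) → X → ℝ := fl (D.PL t)

variable {D} {u v g : X → ℝ}

theorem mem_V (U : Lp ℝ 2 μ) : U ∈ D.frm.V ↔ D.W ⇑U := D.exists_frm.choose_spec.1 U

theorem frm_E (U V : Lp ℝ 2 μ) : D.frm.E U V = D.E ⇑U ⇑V := D.exists_frm.choose_spec.2 U V

theorem cls_J (D : DF μ) (h : ℝ) (f : X → ℝ) : cls μ (D.J h f) = D.frm.J h (cls μ f) := cls_fl _ _

theorem cls_P (D : DF μ) (t : ℝ) (f : X → ℝ) : cls μ (D.P t f) = D.frm.P t (cls μ f) := cls_fl _ _

theorem cls_mem_V (hu : MemLp u 2 μ) : cls μ u ∈ D.frm.V ↔ D.W u := by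
  rw [mem_V]
  exact ⟨fun h => h.congr (cls_ae hu), fun h => h.congr (cls_ae hu).symm⟩

theorem W.cls (hu : D.W u) : cls μ u ∈ D.frm.V := (cls_mem_V hu.mem).2 hu

theorem E_cls (hu : D.W u) (hv : D.W v) : D.frm.E (cls μ u) (cls μ v) = D.E u v := by
  rw [frm_E]
  exact (E_congr hu hv (cls_ae hu.mem).symm (cls_ae hv.mem).symm).symm

theorem gen_cls (hu : MemLp u 2 μ) (hg : MemLp g 2 μ) : D.frm.Gen (cls μ u) (cls μ g) ↔ D.Gen u g := by
  constructor
  · intro h
    have hW := (cls_mem_V hu).1 h.1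
    refine ⟨hW, hg, fun v hv => ?_⟩
    have h1 := h.2 _ hv.cls
    rwa [E_cls hW hv, inner_cls hg hv.mem] at h1
  · intro h
    refine ⟨h.w.cls, fun V hV => ?_⟩
    have hv := (mem_V V).1 hV
    have h1 := h.eq _ hv
    rw [← inner_cls hg hv.mem, cls_coe] at h1
    rw [← h1, ← cls_coe V, E_cls h.w hv, cls_coe]
    rfl

theorem Gen.cls (h : D.Gen u g) : D.frm.Gen (cls μ u) (cls μ g) := (gen_cls h.w.mem h.mem).2 h

theorem Gen.cls_L (h : D.Gen u g) : Crest.Agent.R242.cls μ (D.L u) = D.frm.L (Crest.Agent.R242.cls μ u) := by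
  exact (h.gen_L.cls.L_eq).symm

theorem gen_of_frm (hu : MemLp u 2 μ) {G : Lp ℝ 2 μ} (h : D.frm.Gen (cls μ u) G) : D.Gen u ⇑G := by
  rw [← gen_cls hu (Lp.memLp G), cls_coe]
  exact h

end DF

end Crest.Agent.R242

end
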