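import Crest.Agent.R242.DfL

/-!
# R242/DfC1: calculus for `S`, `W`, `Γ`, `E` (prefix `dfc1_`)
-/

set_option autoImplicit false
set_option linter.unusedSectionVars false

open MeasureTheory Filter Topology Set
open scoped RealInnerProductSpace ENNReal NNReal

noncomputable section

namespace Crest.Agent.R242

variable {X : Type*} [MetricSpace X] [MeasurableSpace X] [BorelSpace X] {μ : Measure X}

namespace DF

variable {D : DF μ} {f g k f' g' η : X → ℝ}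

theorem S_const (D : DF μ) (c : ℝ) : D.S fun _ => c := by
  exact D.S_lip (LipschitzWith.const c)

theorem S_neg (hf : D.S f) : D.S fun x => -f x := by
  simpa using D.S_smul (-1) hf

theorem S_sub (hf : D.S f) (hg : D.S g) : D.S fun x => f x - g x := by
  simpa only [sub_eq_add_neg] using D.S_add hf (S_neg hg)

theorem Γ_congr₂ (hf : D.S f) (hg : D.S g) (h1 : f =ᵐ[μ] f') (h2 : g =ᵐ[μ] g') : D.Γ f g =ᵐ[μ] D.Γ f' g' := by
  have hf' := D.S_congr hf h1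
  exact (D.Γ_congr hf hg h1).trans ((D.Γ_symm hf' hg).trans ((D.Γ_congr hg hf' h2).trans
    (D.Γ_symm (D.S_congr hg h2) hf')))

theorem Γ_neg (hf : D.S f) (hk : D.S k) : D.Γ (fun x => -f x) k =ᵐ[μ] fun x => -D.Γ f k x := by
  simpa using D.Γ_smul (-1) hf hk

theorem Γ_sub (hf : D.S f) (hg : D.S g) (hk : D.S k) :
    D.Γ (fun x => f x - g x) k =ᵐ[μ] fun x => D.Γ f k x - D.Γ g k x := by
  simp only [sub_eq_add_neg]
  filter_upwards [D.Γ_add hf (S_neg hg) hk, Γ_neg hg hk] with x h1 h2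
  rw [h1, h2]

theorem Γ_add_right (hf : D.S f) (hg : D.S g) (hk : D.S k) :
    D.Γ k (fun x => f x + g x) =ᵐ[μ] fun x => D.Γ k f x + D.Γ k g x := by
  filter_upwards [D.Γ_symm hk (D.S_add hf hg), D.Γ_add hf hg hk, D.Γ_symm hk hf, D.Γ_symm hk hg] with x h1 h2 h3 h4
  rw [h1, h2, h3, h4]

theorem Γ_sub_right (hf : D.S f) (hg : D.S g) (hk : D.S k) :
    D.Γ k (fun x => f x - g x) =ᵐ[μ] fun x => D.Γ k f x - D.Γ k g x := by
  filter_upwards [D.Γ_symm hk (S_sub hf hg), Γ_sub hf hg hk, D.Γ_symm hk hf, D.Γ_symm hk hg] with x h1 h2 h3 h4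
  rw [h1, h2, h3, h4]

theorem Γ_smul_right (c : ℝ) (hf : D.S f) (hk : D.S k) :
    D.Γ k (fun x => c * f x) =ᵐ[μ] fun x => c * D.Γ k f x := by
  filter_upwards [D.Γ_symm hk (D.S_smul c hf), D.Γ_smul c hf hk, D.Γ_symm hk hf] with x h1 h2 h3
  rw [h1, h2, h3]

theorem Γ_lin_self (hf : D.S f) (hg : D.S g) (a b : ℝ) :
    D.Γ (fun x => a * f x + b * g x) (fun x => a * f x + b * g x) =ᵐ[μ]
      fun x => a ^ 2 * D.Γ f f x + 2 * a * b * D.Γ f g x + b ^ 2 * D.Γ g g x := by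
  have ha := D.S_smul a hf
  have hb := D.S_smul b hg
  have hs := D.S_add ha hb
  filter_upwards [D.Γ_add ha hb hs, D.Γ_smul a hf hs, D.Γ_smul b hg hs, Γ_add_right ha hb hf, Γ_add_right ha hb hg,
    Γ_smul_right a hf hf, Γ_smul_right b hg hf, Γ_smul_right a hf hg, Γ_smul_right b hg hg, D.Γ_symm hg hf]
    with x h1 h2 h3 h4 h5 h6 h7 h8 h9 h10
  rw [h1, h2, h3, h4, h5, h6, h7, h8, h9, h10]
  ring

/-- pointwise Cauchy-Schwarz (rational coefficients in `Γ_lin_self`) -/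
theorem Γ_sq_le (hf : D.S f) (hg : D.S g) : ∀ᵐ x ∂μ, D.Γ f g x ^ 2 ≤ D.Γ f f x * D.Γ g g x := by
  have h : ∀ q : ℚ, ∀ᵐ x ∂μ, 0 ≤ D.Γ f f x * ((q : ℝ) * q) + 2 * D.Γ f g x * q + D.Γ g g x := fun q => by
    filter_upwards [Γ_lin_self hf hg q 1, D.Γ_nonneg (D.S_add (D.S_smul q hf) (D.S_smul 1 hg))] with x h1 h2
    rw [h1] at h2
    linarith
  filter_upwards [ae_all_iff.2 h] with x hx
  have := discrim_le_zero (a := D.Γ f f x) (b := 2 * D.Γ f g x) (c := D.Γ g g x) fun t =>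
    Rat.denseRange_cast.induction_on t (isClosed_le continuous_const (by fun_prop)) hx
  rw [discrim] at this
  linarith

theorem abs_Γ_le (hf : D.S f) (hg : D.S g) : ∀ᵐ x ∂μ, |D.Γ f g x| ≤ √(D.Γ f f x) * √(D.Γ g g x) := by
  filter_upwards [Γ_sq_le hf hg, D.Γ_nonneg hf] with x h1 h2
  rw [← Real.sqrt_mul h2]
  exact Real.abs_le_sqrt h1

theorem Γ_local (hf : D.S f) (hg : D.S g) (hk : D.S k) : ∀ᵐ x ∂μ, f x = g x → D.Γ f k x = D.Γ g k x := by
  filter_upwards [Γ_sub hf hg hk, Γ_sq_le (S_sub hf hg) hk, D.Γ_zero (S_sub hf hg)] with x h1 h2 h3 h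
  rw [h3 (sub_eq_zero.2 h), zero_mul, h1] at h2
  exact sub_eq_zero.1 (pow_eq_zero_iff two_ne_zero |>.1 (h2.antisymm (sq_nonneg _)))

/-- `Γ_comp` with the constant function -/
theorem Γ_const (c : ℝ) (hk : D.S k) : ∀ᵐ x ∂μ, D.Γ (fun _ => c) k x = 0 := by
  filter_upwards [D.Γ_comp (φ := fun _ => c) (C := 0) hk hk contDiff_const (by simp)] with x h
  simpa using h

theorem Γ_eq_zero (c : ℝ) (hf : D.S f) (hk : D.S k) : ∀ᵐ x ∂μ, f x = c → D.Γ f k x = 0 := by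
  filter_upwards [Γ_local hf (D.S_const c) hk, Γ_const c hk] with x h1 h2 h
  rw [h1 h, h2]

theorem Γ_add_const (c : ℝ) (hf : D.S f) (hk : D.S k) : D.Γ (fun x => f x + c) k =ᵐ[μ] D.Γ f k := by
  filter_upwards [D.Γ_add hf (D.S_const c) hk, Γ_const c hk] with x h1 h2
  rw [h1, h2, add_zero]

theorem Γ_comp_right {φ : ℝ → ℝ} {C : ℝ} (hf : D.S f) (hk : D.S k) (hφ : ContDiff ℝ 1 φ) (hC : ∀ r, |deriv φ r| ≤ C) :
    D.Γ k (fun x => φ (f x)) =ᵐ[μ] fun x => deriv φ (f x) * D.Γ k f x := by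
  filter_upwards [D.Γ_symm hk (D.S_comp hf hφ hC), D.Γ_comp hf hk hφ hC, D.Γ_symm hk hf] with x h1 h2 h3
  rw [h1, h2, h3]

theorem Γ_comp_self {φ : ℝ → ℝ} {C : ℝ} (hf : D.S f) (hφ : ContDiff ℝ 1 φ) (hC : ∀ r, |deriv φ r| ≤ C) :
    D.Γ (fun x => φ (f x)) (fun x => φ (f x)) =ᵐ[μ] fun x => deriv φ (f x) ^ 2 * D.Γ f f x := by
  filter_upwards [D.Γ_comp hf (D.S_comp hf hφ hC) hφ hC, Γ_comp_right hf hf hφ hC] with x h1 h2
  rw [h1, h2]
  ring

theorem Γ_mul_right (hf : D.S f) (hg : D.S g) (hk : D.S k) (h1 : Bdd μ f) (h2 : Bdd μ g ∨ Bdd μ (D.Γ f f)) :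
    D.Γ k (fun x => f x * g x) =ᵐ[μ] fun x => f x * D.Γ k g x + g x * D.Γ k f x := by
  filter_upwards [D.Γ_symm hk (D.S_mul hf hg h1 h2), D.Γ_mul hf hg hk h1 h2, D.Γ_symm hk hf, D.Γ_symm hk hg]
    with x h3 h4 h5 h6
  rw [h3, h4, h5, h6]

theorem bdd_Γ_lip (D : DF μ) {L : ℝ≥0} (h : LipschitzWith L η) : Bdd μ (D.Γ η η) := by
  refine ⟨L ^ 2, ?_⟩
  filter_upwards [D.Γ_lip h, D.Γ_nonneg (D.S_lip h)] with x h1 h2
  rwa [abs_of_nonneg h2]

theorem abs_Γ_lip_le {L : ℝ≥0} (h : LipschitzWith L η) (hf : D.S f) : ∀ᵐ x ∂μ, |D.Γ η f x| ≤ L * √(D.Γ f f x) := by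
  filter_upwards [abs_Γ_le (D.S_lip h) hf, D.Γ_lip h] with x h1 h2
  exact h1.trans (mul_le_mul_of_nonneg_right (Real.sqrt_le_iff.2 ⟨L.2, h2⟩) (Real.sqrt_nonneg _))

/-- chain rule for bounded functions: change `φ` outside a compact interval -/
theorem comp_bdd {φ : ℝ → ℝ} (hf : D.S f) (hb : Bdd μ f) (hφ : ContDiff ℝ 1 φ) : D.S (fun x => φ (f x)) ∧
    ∀ k, D.S k → D.Γ (fun x => φ (f x)) k =ᵐ[μ] fun x => deriv φ (f x) * D.Γ f k x := by
  obtain ⟨C, hC⟩ := hb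
  let χ : ContDiffBump (0 : ℝ) := ⟨|C| + 1, |C| + 2, by positivity, by linarith⟩
  have h1 : ContDiff ℝ 1 fun r => χ r * φ r := χ.contDiff.mul hφ
  obtain ⟨M, hM⟩ := (h1.continuous_deriv le_rfl).bounded_above_of_compact_support
    (χ.hasCompactSupport.mul_right (f' := φ)).deriv
  have h2 : ∀ᵐ x ∂μ, (fun r => χ r * φ r) =ᶠ[𝓝 (f x)] φ := hC.mono fun x hx => by
    filter_upwards [χ.eventuallyEq_one_of_mem_ball (x := f x)
      (mem_ball_zero_iff.2 ((hx.trans (le_abs_self C)).trans_lt (lt_add_one _)))] with r hr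
    rw [hr, Pi.one_apply, one_mul]
  have h3 : (fun x => χ (f x) * φ (f x)) =ᵐ[μ] fun x => φ (f x) := h2.mono fun x hx => hx.self_of_nhds
  have h4 := D.S_comp hf h1 hM
  refine ⟨D.S_congr h4 h3, fun k hk => ?_⟩
  filter_upwards [D.Γ_congr h4 hk h3, D.Γ_comp hf hk h1 hM, h2] with x h5 h6 h7
  rw [← h5, h6, h7.deriv_eq]

theorem dfc1_sqrt (hf : D.W f) : MemLp (fun x => √(D.Γ f f x)) 2 μ := by
  refine (memLp_two_iff_integrable_sq (Real.continuous_sqrt.comp_aestronglyMeasurable (D.Γ_meas hf.s hf.s))).2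
    (hf.int.congr ?_)
  filter_upwards [D.Γ_nonneg hf.s] with x hx
  exact (Real.sq_sqrt hx).symm

theorem dfc1_of_le {G : X → ℝ} (hs : D.S f) (hm : MemLp f 2 μ) (hG : Integrable G μ)
    (h : ∀ᵐ x ∂μ, D.Γ f f x ≤ G x) : D.W f := by
  refine ⟨hs, hm, hG.mono' (D.Γ_meas hs hs) ?_⟩
  filter_upwards [h, D.Γ_nonneg hs] with x h1 h2
  rwa [Real.norm_of_nonneg h2]

theorem dfc1_real {a b c p q : ℝ} (ha : 0 ≤ a) (hb : 0 ≤ b) (h : c ^ 2 ≤ a * b) :
    2 * p * q * c ≤ p ^ 2 * b + q ^ 2 * a := by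
  refine (abs_le_of_sq_le_sq' ?_ (by positivity)).2
  nlinarith [mul_le_mul_of_nonneg_left h (sq_nonneg (p * q)), sq_nonneg (p ^ 2 * b - q ^ 2 * a)]

theorem dfc1_mul (hf : D.S f) (hg : D.S g) (h1 : Bdd μ f) (h2 : Bdd μ g ∨ Bdd μ (D.Γ f f)) :
    ∀ᵐ x ∂μ, D.Γ (fun x => f x * g x) (fun x => f x * g x) x ≤
      2 * (f x ^ 2 * D.Γ g g x) + 2 * (g x ^ 2 * D.Γ f f x) := by
  filter_upwards [D.Γ_mul hf hg (D.S_mul hf hg h1 h2) h1 h2, Γ_mul_right hf hg hg h1 h2, Γ_mul_right hf hg hf h1 h2,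
    D.Γ_symm hg hf, Γ_sq_le hf hg, D.Γ_nonneg hf, D.Γ_nonneg hg] with x a1 a2 a3 a4 a5 a6 a7
  rw [a1, a2, a3, a4]
  linarith [dfc1_real (p := f x) (q := g x) a6 a7 a5]

theorem dfc1_sq_le {a C : ℝ} (h : |a| ≤ C) : a ^ 2 ≤ C ^ 2 := by
  rw [← sq_abs a]
  exact pow_le_pow_left₀ (abs_nonneg a) h 2

theorem W.congr (hf : D.W f) (h : f =ᵐ[μ] g) : D.W g := by
  exact ⟨D.S_congr hf.s h, hf.mem.ae_eq h, hf.int.congr (Γ_congr₂ hf.s hf.s h h)⟩

theorem W_zero (D : DF μ) : D.W fun _ => 0 := by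
  refine ⟨D.S_const 0, MemLp.zero', (integrable_zero X ℝ μ).congr ?_⟩
  filter_upwards [Γ_const 0 (D.S_const 0)] with x hx
  exact hx.symm

theorem W.integrable_Γ (hf : D.W f) (hg : D.W g) : Integrable (D.Γ f g) μ := by
  refine ((dfc1_sqrt hf).integrable_mul (dfc1_sqrt hg)).mono' (D.Γ_meas hf.s hg.s) ?_
  exact abs_Γ_le hf.s hg.s

theorem W.memLp_sqrt (hf : D.W f) : MemLp (fun x => √(D.Γ f f x)) 2 μ := by
  exact dfc1_sqrt hf

theorem W.add (hf : D.W f) (hg : D.W g) : D.W fun x => f x + g x := by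
  refine ⟨D.S_add hf.s hg.s, hf.mem.add hg.mem,
    ((hf.int.add (hf.integrable_Γ hg)).add ((hg.integrable_Γ hf).add hg.int)).congr ?_⟩
  filter_upwards [D.Γ_add hf.s hg.s (D.S_add hf.s hg.s), Γ_add_right hf.s hg.s hf.s, Γ_add_right hf.s hg.s hg.s]
    with x a1 a2 a3
  rw [a1, a2, a3]
  rfl

theorem W.smul (c : ℝ) (hf : D.W f) : D.W fun x => c * f x := by
  refine ⟨D.S_smul c hf.s, hf.mem.const_mul c, ((hf.int.const_mul c).const_mul c).congr ?_⟩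
  filter_upwards [D.Γ_smul c hf.s (D.S_smul c hf.s), Γ_smul_right c hf.s hf.s] with x a1 a2
  rw [a1, a2]

theorem W.neg (hf : D.W f) : D.W fun x => -f x := by
  exact (hf.smul (-1)).congr (Eventually.of_forall fun x => neg_one_mul (f x))

theorem W.sub (hf : D.W f) (hg : D.W g) : D.W fun x => f x - g x := by
  exact (hf.add hg.neg).congr (Eventually.of_forall fun x => (sub_eq_add_neg (f x) (g x)).symm)

theorem W.comp {φ : ℝ → ℝ} {C : ℝ} (hf : D.W f) (hφ : ContDiff ℝ 1 φ) (h0 : φ 0 = 0) (hC : ∀ r, |deriv φ r| ≤ C) :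
    D.W fun x => φ (f x) := by
  refine dfc1_of_le (D.S_comp hf.s hφ hC) (memLp_comp hf.mem hφ h0 hC) (hf.int.const_mul (C ^ 2)) ?_
  filter_upwards [Γ_comp_self hf.s hφ hC, D.Γ_nonneg hf.s] with x a1 a2
  rw [a1]
  exact mul_le_mul_of_nonneg_right (dfc1_sq_le (hC _)) a2

theorem W.mul_bdd (hf : D.W f) (hg : D.W g) (h1 : Bdd μ f) (h2 : Bdd μ g) : D.W fun x => f x * g x := by
  have h3 := dfc1_mul hf.s hg.s h1 (Or.inl h2)
  have h4 := D.S_mul hf.s hg.s h1 (Or.inl h2)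
  have h5 := h1.mul_memLp hf.mem.1 hg.mem
  obtain ⟨C₁, h1⟩ := h1
  obtain ⟨C₂, h2⟩ := h2
  refine dfc1_of_le h4 h5 ((hg.int.const_mul (2 * C₁ ^ 2)).add (hf.int.const_mul (2 * C₂ ^ 2))) ?_
  filter_upwards [h3, h1, h2, D.Γ_nonneg hf.s, D.Γ_nonneg hg.s] with x a1 a2 a3 a4 a5
  have b1 := mul_le_mul_of_nonneg_right (dfc1_sq_le a2) a5
  have b2 := mul_le_mul_of_nonneg_right (dfc1_sq_le a3) a4
  simp only [Pi.add_apply]
  linarith

theorem W.bdd_mul (hf : D.W f) (hη : D.S η) (h1 : Bdd μ η) (h2 : Bdd μ (D.Γ η η)) : D.W fun x => η x * f x := by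
  have h3 := dfc1_mul hη hf.s h1 (Or.inr h2)
  have h4 := D.S_mul hη hf.s h1 (Or.inr h2)
  have h5 := h1.mul_memLp (D.S_meas hη) hf.mem
  obtain ⟨C₁, h1⟩ := h1
  obtain ⟨C₂, h2⟩ := h2
  refine dfc1_of_le h4 h5 ((hf.int.const_mul (2 * C₁ ^ 2)).add (hf.mem.integrable_sq.const_mul (2 * C₂))) ?_
  filter_upwards [h3, h1, h2, D.Γ_nonneg hf.s] with x a1 a2 a3 a4
  have b1 := mul_le_mul_of_nonneg_right (dfc1_sq_le a2) a4
  have b2 := mul_le_mul_of_nonneg_left ((le_abs_self _).trans a3) (sq_nonneg (f x))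
  simp only [Pi.add_apply]
  linarith

theorem W.memLp_Γ (hf : D.W f) (hη : D.S η) (h2 : Bdd μ (D.Γ η η)) : MemLp (D.Γ η f) 2 μ := by
  obtain ⟨C, h2⟩ := h2
  refine hf.memLp_sqrt.of_le_mul (c := √C) (D.Γ_meas hη hf.s) ?_
  filter_upwards [h2, abs_Γ_le hη hf.s] with x a1 a2
  rw [Real.norm_of_nonneg (Real.sqrt_nonneg _)]
  exact a2.trans (mul_le_mul_of_nonneg_right (Real.sqrt_le_sqrt ((le_abs_self _).trans a1)) (Real.sqrt_nonneg _))

/-- functions of `S` with bounded support -/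
theorem W_of_supp (hf : D.S f) {o : X} {R : ℝ} (h0 : ∀ᵐ x ∂μ, x ∉ Metric.ball o R → f x = 0) : D.W f := by
  refine ⟨hf, ((memLp_indicator_iff_restrict measurableSet_ball).2 (D.S_loc hf o R).1).ae_eq ?_,
    ((integrable_indicator_iff measurableSet_ball).2 (D.S_loc hf o R).2).congr ?_⟩
  · filter_upwards [h0] with x hx
    by_cases h : x ∈ Metric.ball o R
    · exact indicator_of_mem h _
    · rw [indicator_of_notMem h, hx h]
  · filter_upwards [h0, D.Γ_zero hf] with x hx hx'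
    by_cases h : x ∈ Metric.ball o R
    · exact indicator_of_mem h _
    · rw [indicator_of_notMem h, hx' (hx h)]

theorem W_of_lip (D : DF μ) {L : ℝ≥0} (h : LipschitzWith L f) {o : X} {R : ℝ} (h0 : ∀ x, x ∉ Metric.ball o R → f x = 0) :
    D.W f := by
  exact W_of_supp (D.S_lip h) (Eventually.of_forall h0)

/-- cut-off of a local Sobolev function -/
theorem W_lip_mul {L : ℝ≥0} (h : LipschitzWith L η) {o : X} {R : ℝ} (h0 : ∀ x, x ∉ Metric.ball o R → η x = 0)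
    (hf : D.S f) : D.W fun x => η x * f x := by
  have hb : Bdd μ η := by
    refine ⟨|η o| + L * |R|, Eventually.of_forall fun x => ?_⟩
    by_cases hx : x ∈ Metric.ball o R
    · have a1 := h.dist_le_mul x o
      have a2 : (L : ℝ) * dist x o ≤ L * |R| :=
        mul_le_mul_of_nonneg_left ((le_of_lt hx).trans (le_abs_self R)) L.coe_nonneg
      rw [Real.dist_eq] at a1
      linarith [abs_sub_abs_le_abs_sub (η x) (η o)]
    · rw [h0 x hx, abs_zero]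
      positivity
  refine W_of_supp (o := o) (R := R) (D.S_mul (D.S_lip h) hf hb (Or.inr (D.bdd_Γ_lip h)))
    (Eventually.of_forall fun x hx => ?_)
  rw [h0 x hx, zero_mul]

theorem E_congr (hf : D.W f) (hg : D.W g) (h1 : f =ᵐ[μ] f') (h2 : g =ᵐ[μ] g') : D.E f g = D.E f' g' := by
  exact integral_congr_ae (Γ_congr₂ hf.s hg.s h1 h2)

theorem E_symm (hf : D.W f) (hg : D.W g) : D.E f g = D.E g f := by
  exact integral_congr_ae (D.Γ_symm hf.s hg.s)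

theorem E_add (hf : D.W f) (hg : D.W g) (hk : D.W k) : D.E (fun x => f x + g x) k = D.E f k + D.E g k := by
  exact (integral_congr_ae (D.Γ_add hf.s hg.s hk.s)).trans (integral_add (hf.integrable_Γ hk) (hg.integrable_Γ hk))

theorem E_sub (hf : D.W f) (hg : D.W g) (hk : D.W k) : D.E (fun x => f x - g x) k = D.E f k - D.E g k := by
  exact (integral_congr_ae (Γ_sub hf.s hg.s hk.s)).trans (integral_sub (hf.integrable_Γ hk) (hg.integrable_Γ hk))

theorem E_smul (c : ℝ) (hf : D.W f) (hk : D.W k) : D.E (fun x => c * f x) k = c * D.E f k := by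
  exact (integral_congr_ae (D.Γ_smul c hf.s hk.s)).trans (integral_const_mul _ _)

theorem E_nonneg (hf : D.W f) : 0 ≤ D.E f f := by
  exact integral_nonneg_of_ae (D.Γ_nonneg hf.s)

theorem integral_abs_Γ_le (hf : D.W f) (hg : D.W g) : ∫ x, |D.Γ f g x| ∂μ ≤ √(D.E f f) * √(D.E g g) := by
  have e : ∀ {f : X → ℝ}, D.W f → √(D.E f f) = ‖cls μ fun x => √(D.Γ f f x)‖ := fun {f} hf => by
    rw [Real.sqrt_eq_iff_eq_sq (E_nonneg hf) (norm_nonneg _), norm_cls_sq hf.memLp_sqrt]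
    refine integral_congr_ae ?_
    filter_upwards [D.Γ_nonneg hf.s] with x hx
    exact (Real.sq_sqrt hx).symm
  rw [e hf, e hg]
  refine le_trans ?_ (real_inner_le_norm _ _)
  rw [inner_cls hf.memLp_sqrt hg.memLp_sqrt]
  exact integral_mono_ae (hf.integrable_Γ hg).abs (hf.memLp_sqrt.integrable_mul hg.memLp_sqrt) (abs_Γ_le hf.s hg.s)

theorem E_sq_le (hf : D.W f) (hg : D.W g) : D.E f g ^ 2 ≤ D.E f f * D.E g g := by
  have h1 : |D.E f g| ≤ √(D.E f f) * √(D.E g g) := abs_integral_le_integral_abs.trans (integral_abs_Γ_le hf hg)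
  have h2 := dfc1_sq_le h1
  rwa [mul_pow, Real.sq_sqrt (E_nonneg hf), Real.sq_sqrt (E_nonneg hg)] at h2

theorem sigmaFinite (D : DF μ) : SigmaFinite μ := by
  rcases isEmpty_or_nonempty X with h | ⟨⟨o⟩⟩
  · infer_instance
  · exact ⟨⟨⟨fun n => Metric.ball o n, fun _ => trivial, fun n => D.fin o n, Metric.iUnion_ball_nat o⟩⟩⟩

end DF

end Crest.Agent.R242

end
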