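import Crest.Agent.R242.Defs

/-!
# R242/DfDefs: strongly local Dirichlet forms with a carré du champ (owner helper62; do not change)

For the reference measure `m`: `S = IsSobolevLoc m`, `Γ = gradPairing m` (`DfHeat`); for `exp F • m`: `DF.expw` (`DfX`).
-/

set_option autoImplicit false
set_option linter.unusedSectionVars false

open MeasureTheory Filter Topology Set
open scoped RealInnerProductSpace ENNReal NNReal

noncomputable section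

namespace Crest.Agent.R242

variable {X : Type*} [MetricSpace X] [MeasurableSpace X] [BorelSpace X] {μ : Measure X}

/-- essentially bounded functions -/
def Bdd (μ : Measure X) (f : X → ℝ) : Prop := ∃ C : ℝ, ∀ᵐ x ∂μ, |f x| ≤ C

/-- local Sobolev class `S` and carré du champ `Γ` -/
structure DF (μ : Measure X) where
  S : (X → ℝ) → Prop
  Γ : (X → ℝ) → (X → ℝ) → X → ℝ
  fin : ∀ (o : X) (R : ℝ), μ (Metric.ball o R) < ⊤
  S_loc : ∀ {f}, S f → ∀ (o : X) (R : ℝ),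
    MemLp f 2 (μ.restrict (Metric.ball o R)) ∧ IntegrableOn (Γ f f) (Metric.ball o R) μ
  S_meas : ∀ {f}, S f → AEStronglyMeasurable f μ
  S_congr : ∀ {f g}, S f → f =ᵐ[μ] g → S g
  S_add : ∀ {f g}, S f → S g → S fun x => f x + g x
  S_smul : ∀ {f} (c : ℝ), S f → S fun x => c * f x
  S_lip : ∀ {f} {L : ℝ≥0}, LipschitzWith L f → S f
  S_comp : ∀ {f} {φ : ℝ → ℝ} {C : ℝ}, S f → ContDiff ℝ 1 φ → (∀ r, |deriv φ r| ≤ C) → S fun x => φ (f x)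
  S_mul : ∀ {f g}, S f → S g → Bdd μ f → Bdd μ g ∨ Bdd μ (Γ f f) → S fun x => f x * g x
  Γ_meas : ∀ {f g}, S f → S g → AEStronglyMeasurable (Γ f g) μ
  Γ_congr : ∀ {f f' g}, S f → S g → f =ᵐ[μ] f' → Γ f g =ᵐ[μ] Γ f' g
  Γ_symm : ∀ {f g}, S f → S g → Γ f g =ᵐ[μ] Γ g f
  Γ_add : ∀ {f g k}, S f → S g → S k → Γ (fun x => f x + g x) k =ᵐ[μ] fun x => Γ f k x + Γ g k x
  Γ_smul : ∀ {f k} (c : ℝ), S f → S k → Γ (fun x => c * f x) k =ᵐ[μ] fun x => c * Γ f k x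
  Γ_nonneg : ∀ {f}, S f → ∀ᵐ x ∂μ, 0 ≤ Γ f f x
  Γ_lip : ∀ {f} {L : ℝ≥0}, LipschitzWith L f → ∀ᵐ x ∂μ, Γ f f x ≤ (L : ℝ) ^ 2
  Γ_comp : ∀ {f k} {φ : ℝ → ℝ} {C : ℝ}, S f → S k → ContDiff ℝ 1 φ → (∀ r, |deriv φ r| ≤ C) →
    Γ (fun x => φ (f x)) k =ᵐ[μ] fun x => deriv φ (f x) * Γ f k x
  Γ_mul : ∀ {f g k}, S f → S g → S k → Bdd μ f → Bdd μ g ∨ Bdd μ (Γ f f) →
    Γ (fun x => f x * g x) k =ᵐ[μ] fun x => f x * Γ g k x + g x * Γ f k x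
  Γ_zero : ∀ {f}, S f → ∀ᵐ x ∂μ, f x = 0 → Γ f f x = 0
  closed : ∃ c : ℝ, ∀ (f : ℕ → X → ℝ) (g : X → ℝ) (C : ℝ),
    (∀ n, S (f n) ∧ MemLp (f n) 2 μ ∧ Integrable (Γ (f n) (f n)) μ) → MemLp g 2 μ →
    Tendsto (fun n => eLpNorm (fun x => f n x - g x) 2 μ) atTop (𝓝 0) → (∀ n, ∫ x, Γ (f n) (f n) x ∂μ ≤ C) →
      (S g ∧ Integrable (Γ g g) μ) ∧ ∫ x, Γ g g x ∂μ ≤ c * C

namespace DF

variable (D : DF μ)

/-- the Sobolev class `W^{1,2}` -/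
structure W (f : X → ℝ) : Prop where
  s : D.S f
  mem : MemLp f 2 μ
  int : Integrable (D.Γ f f) μ

/-- the energy form -/
def E (f g : X → ℝ) : ℝ := ∫ x, D.Γ f g x ∂μ

/-- `g = L u` (weak Laplacian) -/
structure Gen (u g : X → ℝ) : Prop where
  w : D.W u
  mem : MemLp g 2 μ
  eq : ∀ v, D.W v → ∫ x, D.Γ u v x ∂μ = -∫ x, g x * v x ∂μ

open Classical in
/-- the generator as a function -/
def L (u : X → ℝ) : X → ℝ := if h : ∃ g, D.Gen u g then h.choose else 0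

end DF

open Classical in
/-- the class of a function in `L²` -/
def cls (μ : Measure X) (f : X → ℝ) : Lp ℝ 2 μ := if h : MemLp f 2 μ then h.toLp f else 0

/-- convergence in `L²` -/
def TL2 (μ : Measure X) {ι : Type*} (l : Filter ι) (f : ι → X → ℝ) (g : X → ℝ) : Prop :=
  Tendsto (fun i => eLpNorm (fun x => f i x - g x) 2 μ) l (𝓝 0)

/-- symmetric sub-Markov operators on `L²`, at the level of functions -/
structure Mk (μ : Measure X) (T : (X → ℝ) → X → ℝ) : Prop where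
  meas : ∀ f, Measurable (T f)
  mem : ∀ f, MemLp (T f) 2 μ
  congr : ∀ {f g}, f =ᵐ[μ] g → T f =ᵐ[μ] T g
  add : ∀ {f g}, MemLp f 2 μ → MemLp g 2 μ → T (fun x => f x + g x) =ᵐ[μ] fun x => T f x + T g x
  smul : ∀ {f} (c : ℝ), MemLp f 2 μ → T (fun x => c * f x) =ᵐ[μ] fun x => c * T f x
  symm : ∀ {f g}, MemLp f 2 μ → MemLp g 2 μ → ∫ x, T f x * g x ∂μ = ∫ x, f x * T g x ∂μ
  contr : ∀ f, eLpNorm (T f) 2 μ ≤ eLpNorm f 2 μ
  le_const : ∀ {f} {a : ℝ}, MemLp f 2 μ → 0 ≤ a → (∀ᵐ x ∂μ, f x ≤ a) → ∀ᵐ x ∂μ, T f x ≤ a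

end Crest.Agent.R242

end
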