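import Crest.Agent.R242.DfJ

/-!
# R242/DfW_a: weighted resolvent estimates (aux file of `DfW`, prefix `dfwa_`)
-/

set_option autoImplicit false
set_option linter.unusedSectionVars false

open MeasureTheory Filter Topology Set
open scoped RealInnerProductSpace ENNReal NNReal

noncomputable section

namespace Crest.Agent.R242

variable {X : Type*} [MetricSpace X] [MeasurableSpace X] [BorelSpace X] {μ : Measure X}

/-- Fatou's lemma for the Bochner integral -/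
theorem dfwa_fatou {F : ℕ → X → ℝ} {G : X → ℝ} {B : ℕ → ℝ} {b : ℝ} (hF : ∀ n, Integrable (F n) μ)
    (h0 : ∀ n, ∀ᵐ x ∂μ, 0 ≤ F n x) (hl : ∀ᵐ x ∂μ, Tendsto (fun n => F n x) atTop (𝓝 (G x)))
    (hB : ∀ n, ∫ x, F n x ∂μ ≤ B n) (hb : Tendsto B atTop (𝓝 b)) :
    Integrable G μ ∧ ∫ x, G x ∂μ ≤ b := by
  have hm : AEStronglyMeasurable G μ :=
    aestronglyMeasurable_of_tendsto_ae atTop (fun n => (hF n).aestronglyMeasurable) hl
  have hG : 0 ≤ᵐ[μ] G := by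
    filter_upwards [hl, ae_all_iff.2 h0] with x h1 h2
    exact ge_of_tendsto' h1 h2
  have hb0 : 0 ≤ b := ge_of_tendsto' hb fun n => (integral_nonneg_of_ae (h0 n)).trans (hB n)
  have h1 : ∫⁻ x, ENNReal.ofReal (G x) ∂μ ≤ ENNReal.ofReal b := by
    calc ∫⁻ x, ENNReal.ofReal (G x) ∂μ
        = ∫⁻ x, liminf (fun n => ENNReal.ofReal (F n x)) atTop ∂μ := by
          refine lintegral_congr_ae ?_
          filter_upwards [hl] with x hx
          exact (ENNReal.tendsto_ofReal hx).liminf_eq.symm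
      _ ≤ liminf (fun n => ∫⁻ x, ENNReal.ofReal (F n x) ∂μ) atTop :=
          lintegral_liminf_le' fun n => (hF n).aemeasurable.ennreal_ofReal
      _ ≤ liminf (fun n => ENNReal.ofReal (B n)) atTop := by
          refine liminf_le_liminf (Eventually.of_forall fun n => ?_)
          rw [← ofReal_integral_eq_lintegral_ofReal (hF n) (h0 n)]
          exact ENNReal.ofReal_le_ofReal (hB n)
      _ = ENNReal.ofReal b := (ENNReal.tendsto_ofReal hb).liminf_eq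
  refine ⟨⟨hm, (hasFiniteIntegral_iff_ofReal hG).2 (h1.trans_lt ENNReal.ofReal_lt_top)⟩, ?_⟩
  rw [integral_eq_lintegral_of_nonneg_ae hG hm]
  exact ENNReal.toReal_le_of_le_ofReal hb0 h1

theorem dfwa_pt {e u g s β θ c : ℝ} (he : 0 ≤ e) (hg : |g| ≤ β * s) (hθ : 0 < θ) (hc : c = 1 - θ) :
    c * (e * s ^ 2) - β ^ 2 / θ * (e * u ^ 2) ≤ e * s ^ 2 + u * (2 * e * g) := by
  have h1 : -(|u| * (β * s)) ≤ u * g := by
    have : |u * g| ≤ |u| * (β * s) := by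
      rw [abs_mul]
      exact mul_le_mul_of_nonneg_left hg (abs_nonneg u)
    exact (abs_le.1 this).1
  have h2 : 2 * (|u| * (β * s)) ≤ θ * s ^ 2 + β ^ 2 / θ * u ^ 2 := by
    have h3 : 0 ≤ (θ * s - β * |u|) ^ 2 / θ := by positivity
    have h4 : (θ * s - β * |u|) ^ 2 / θ = θ * s ^ 2 + β ^ 2 / θ * |u| ^ 2 - 2 * (|u| * (β * s)) := by
      field_simp
      ring
    rw [sq_abs] at h4
    linarith
  have h5 : c * s ^ 2 - β ^ 2 / θ * u ^ 2 ≤ s ^ 2 + 2 * (u * g) := by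
    rw [hc]
    linarith
  have h6 := mul_le_mul_of_nonneg_left h5 he
  nlinarith [h6]

namespace DF

variable {D : DF μ} {f g ψ : X → ℝ} {h t : ℝ} {β : ℝ≥0}

/-- the basic energy inequality for a bounded weight -/
theorem dfwa_energy (D : DF μ) (hh : 0 < h) (hψ : LipschitzWith β ψ) {M : ℝ} (hM : ∀ x, |ψ x| ≤ M)
    (hf : MemLp f 2 μ) {θ : ℝ} (hθ : 0 < θ) :
    ∫ x, Real.exp (ψ x) ^ 2 * D.J h f x ^ 2 ∂μ +
      h * ((1 - θ) * ∫ x, Real.exp (ψ x) ^ 2 * D.Γ (D.J h f) (D.J h f) x ∂μ -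
        (β : ℝ) ^ 2 / θ * ∫ x, Real.exp (ψ x) ^ 2 * D.J h f x ^ 2 ∂μ) ≤
      ∫ x, (Real.exp (ψ x) * f x) * (Real.exp (ψ x) * D.J h f x) ∂μ := by
  obtain ⟨u, hu⟩ : ∃ u, u = D.J h f := ⟨_, rfl⟩
  have huW : D.W u := hu ▸ D.J_W hh f
  have hsψ : D.S ψ := D.S_lip hψ
  have hφ : ContDiff ℝ 1 fun r : ℝ => Real.exp r ^ 2 := by fun_prop
  have hd : ∀ r : ℝ, deriv (fun r : ℝ => Real.exp r ^ 2) r = 2 * Real.exp r ^ 2 := fun r => by
    have := ((Real.hasDerivAt_exp r).fun_pow 2).deriv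
    rw [this]
    norm_num
    ring
  obtain ⟨hsη, hΓη⟩ := comp_bdd (φ := fun r : ℝ => Real.exp r ^ 2) hsψ
    ⟨M, Eventually.of_forall hM⟩ hφ
  simp only [hd] at hΓη
  have hb : ∀ x, Real.exp (ψ x) ^ 2 ≤ Real.exp M ^ 2 := fun x =>
    pow_le_pow_left₀ (Real.exp_pos _).le (Real.exp_le_exp.2 (abs_le.1 (hM x)).2) 2
  have hbη : Bdd μ fun x => Real.exp (ψ x) ^ 2 :=
    ⟨Real.exp M ^ 2, Eventually.of_forall fun x => by
      rw [abs_of_nonneg (by positivity)]; exact hb x⟩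
  have hbΓ : Bdd μ (D.Γ (fun x => Real.exp (ψ x) ^ 2) fun x => Real.exp (ψ x) ^ 2) := by
    refine ⟨(2 * Real.exp M ^ 2) * ((2 * Real.exp M ^ 2) * (β : ℝ) ^ 2), ?_⟩
    filter_upwards [hΓη _ hsη, hΓη _ hsψ, D.Γ_symm hsψ hsη, D.Γ_lip hψ, D.Γ_nonneg hsψ]
      with x h1 h2 h3 h4 h5
    rw [h1, h3, h2, abs_of_nonneg (by positivity)]
    have := hb x
    gcongr
  have hmη : AEStronglyMeasurable (fun x => Real.exp (ψ x) ^ 2) μ := D.S_meas hsη
  have hv : D.W fun x => Real.exp (ψ x) ^ 2 * u x := huW.bdd_mul hsη hbη hbΓ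
  have hJ := J_eq hh hf hv
  rw [← hu] at hJ ⊢
  have i1 : Integrable (fun x => Real.exp (ψ x) ^ 2 * u x ^ 2) μ :=
    hbη.mul_integrable hmη huW.mem.integrable_sq
  have i2 : Integrable (fun x => Real.exp (ψ x) ^ 2 * D.Γ u u x) μ := hbη.mul_integrable hmη huW.int
  have hE : (1 - θ) * ∫ x, Real.exp (ψ x) ^ 2 * D.Γ u u x ∂μ -
      (β : ℝ) ^ 2 / θ * ∫ x, Real.exp (ψ x) ^ 2 * u x ^ 2 ∂μ ≤
      D.E u fun x => Real.exp (ψ x) ^ 2 * u x := by
    rw [← integral_const_mul, ← integral_const_mul, ← integral_sub (i2.const_mul _) (i1.const_mul _)]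
    refine integral_mono_ae ((i2.const_mul _).sub (i1.const_mul _)) (huW.integrable_Γ hv) ?_
    filter_upwards [Γ_mul_right hsη huW.s huW.s hbη (Or.inr hbΓ), D.Γ_symm huW.s hsη, hΓη _ huW.s,
      abs_Γ_lip_le hψ huW.s, D.Γ_nonneg huW.s] with x h1 h2 h3 h4 h5
    rw [h1, h2, h3]
    have := dfwa_pt (e := Real.exp (ψ x) ^ 2) (u := u x) (by positivity) h4 hθ rfl
    rwa [Real.sq_sqrt h5] at this
  have e1 : ∫ x, u x * (Real.exp (ψ x) ^ 2 * u x) ∂μ = ∫ x, Real.exp (ψ x) ^ 2 * u x ^ 2 ∂μ :=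
    integral_congr_ae (Eventually.of_forall fun x => by ring)
  have e2 : ∫ x, f x * (Real.exp (ψ x) ^ 2 * u x) ∂μ =
      ∫ x, (Real.exp (ψ x) * f x) * (Real.exp (ψ x) * u x) ∂μ :=
    integral_congr_ae (Eventually.of_forall fun x => by ring)
  rw [e1, e2] at hJ
  have := mul_le_mul_of_nonneg_left hE hh.le
  linarith

/-- both estimates for a bounded weight -/
theorem dfwa_bdd (D : DF μ) (hh : 0 < h) (hψ : LipschitzWith β ψ) {M : ℝ} (hM : ∀ x, |ψ x| ≤ M)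
    (hβ : h * (β : ℝ) ^ 2 < 1) (hf : MemLp f 2 μ) :
    (Integrable (fun x => (Real.exp (ψ x) * D.J h f x) ^ 2) μ ∧
      ∫ x, (Real.exp (ψ x) * D.J h f x) ^ 2 ∂μ ≤
        ((1 - h * (β : ℝ) ^ 2) ^ 2)⁻¹ * ∫ x, (Real.exp (ψ x) * f x) ^ 2 ∂μ) ∧
    (Integrable (fun x => Real.exp (ψ x) ^ 2 * D.Γ (D.J h f) (D.J h f) x) μ ∧
      ∫ x, Real.exp (ψ x) ^ 2 * D.Γ (D.J h f) (D.J h f) x ∂μ ≤
        (5 * ((1 - h * (β : ℝ) ^ 2) ^ 2)⁻¹ + 1) / h * ∫ x, (Real.exp (ψ x) * f x) ^ 2 ∂μ) := by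
  have H1 := D.dfwa_energy hh hψ hM hf one_pos
  have H2 := D.dfwa_energy hh hψ hM hf (θ := 1 / 2) (by norm_num)
  obtain ⟨u, hu⟩ : ∃ u, u = D.J h f := ⟨_, rfl⟩
  have huW : D.W u := hu ▸ D.J_W hh f
  rw [← hu] at H1 H2 ⊢
  have hb : ∀ x, Real.exp (ψ x) ≤ Real.exp M := fun x => Real.exp_le_exp.2 (abs_le.1 (hM x)).2
  have hc : Continuous fun x => Real.exp (ψ x) := Real.continuous_exp.comp hψ.continuous
  have hb1 : Bdd μ fun x => Real.exp (ψ x) :=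
    ⟨Real.exp M, Eventually.of_forall fun x => by rw [abs_of_nonneg (Real.exp_pos _).le]; exact hb x⟩
  have hb2 : Bdd μ fun x => Real.exp (ψ x) ^ 2 :=
    ⟨Real.exp M ^ 2, Eventually.of_forall fun x => by
      rw [abs_of_nonneg (by positivity)]; exact pow_le_pow_left₀ (Real.exp_pos _).le (hb x) 2⟩
  have hm1 : AEStronglyMeasurable (fun x => Real.exp (ψ x)) μ := hc.measurable.aestronglyMeasurable
  have hm2 : AEStronglyMeasurable (fun x => Real.exp (ψ x) ^ 2) μ :=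
    (hc.pow 2).measurable.aestronglyMeasurable
  have mu : MemLp (fun x => Real.exp (ψ x) * u x) 2 μ := hb1.mul_memLp hm1 huW.mem
  have mf : MemLp (fun x => Real.exp (ψ x) * f x) 2 μ := hb1.mul_memLp hm1 hf
  have e1 : ∫ x, Real.exp (ψ x) ^ 2 * u x ^ 2 ∂μ = ∫ x, (Real.exp (ψ x) * u x) ^ 2 ∂μ :=
    integral_congr_ae (Eventually.of_forall fun x => by ring)
  rw [e1] at H1 H2
  have hcs : ∀ c : ℝ, 0 < c → ∫ x, (Real.exp (ψ x) * f x) * (Real.exp (ψ x) * u x) ∂μ ≤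
      c / 2 * ∫ x, (Real.exp (ψ x) * u x) ^ 2 ∂μ + 1 / (2 * c) * ∫ x, (Real.exp (ψ x) * f x) ^ 2 ∂μ := by
    intro c hc0
    rw [← integral_const_mul, ← integral_const_mul,
      ← integral_add (mu.integrable_sq.const_mul _) (mf.integrable_sq.const_mul _)]
    refine integral_mono (mf.integrable_mul mu)
      ((mu.integrable_sq.const_mul _).add (mf.integrable_sq.const_mul _)) fun x => ?_
    obtain ⟨a, ha⟩ : ∃ a, a = Real.exp (ψ x) * u x := ⟨_, rfl⟩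
    obtain ⟨b, hb⟩ : ∃ b, b = Real.exp (ψ x) * f x := ⟨_, rfl⟩
    show Real.exp (ψ x) * f x * (Real.exp (ψ x) * u x) ≤
      c / 2 * (Real.exp (ψ x) * u x) ^ 2 + 1 / (2 * c) * (Real.exp (ψ x) * f x) ^ 2
    rw [← ha, ← hb]
    have h3 : 0 ≤ (c * a - b) ^ 2 / (2 * c) := by positivity
    have h4 : (c * a - b) ^ 2 / (2 * c) = c / 2 * a ^ 2 + 1 / (2 * c) * b ^ 2 - b * a := by
      field_simp
      ring
    linarith
  obtain ⟨A, hA⟩ : ∃ A, A = ∫ x, (Real.exp (ψ x) * u x) ^ 2 ∂μ := ⟨_, rfl⟩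
  obtain ⟨B, hB⟩ : ∃ B, B = ∫ x, (Real.exp (ψ x) * f x) ^ 2 ∂μ := ⟨_, rfl⟩
  obtain ⟨G, hG⟩ : ∃ G, G = ∫ x, Real.exp (ψ x) ^ 2 * D.Γ u u x ∂μ := ⟨_, rfl⟩
  obtain ⟨c, hc'⟩ : ∃ c, c = 1 - h * (β : ℝ) ^ 2 := ⟨_, rfl⟩
  have hA0 : 0 ≤ A := hA ▸ integral_nonneg fun x => sq_nonneg _
  have hc0 : 0 < c := by rw [hc']; linarith
  have k1 := hcs c hc0
  have k2 := hcs 1 one_pos
  rw [← hA, ← hB] at k1 k2 ⊢
  rw [← hA, ← hG] at H1 H2
  rw [← hG, ← hc']
  have hAB : A ≤ (c ^ 2)⁻¹ * B := by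
    have k3 : c * A ≤ c / 2 * A + 1 / (2 * c) * B := by
      have : c * A = A + h * ((1 - 1) * G - (β : ℝ) ^ 2 / 1 * A) := by rw [hc']; ring
      linarith
    have k4 : c / 2 * A ≤ 1 / (2 * c) * B := by linarith
    calc A = 2 / c * (c / 2 * A) := by field_simp
      _ ≤ 2 / c * (1 / (2 * c) * B) := by gcongr
      _ = (c ^ 2)⁻¹ * B := by field_simp
  refine ⟨⟨mu.integrable_sq, hAB⟩, hb2.mul_integrable hm2 huW.int, ?_⟩
  rw [div_mul_eq_mul_div, le_div_iff₀ hh]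
  have k5 : h * (β : ℝ) ^ 2 * A ≤ A := mul_le_of_le_one_left hA0 hβ.le
  have k6 : h * ((1 - 1 / 2) * G - (β : ℝ) ^ 2 / (1 / 2) * A) = G * h / 2 - 2 * (h * (β : ℝ) ^ 2 * A) := by
    ring
  rw [k6] at H2
  linarith

theorem dfwa_main (D : DF μ) (hh : 0 < h) (hψ : LipschitzWith β ψ) (hβ : h * (β : ℝ) ^ 2 < 1) (hf : MemLp f 2 μ)
    (hw : MemLp (fun x => Real.exp (ψ x) * f x) 2 μ) :
    (MemLp (fun x => Real.exp (ψ x) * D.J h f x) 2 μ ∧
      (1 - h * (β : ℝ) ^ 2) ^ 2 * ∫ x, (Real.exp (ψ x) * D.J h f x) ^ 2 ∂μ ≤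
        ∫ x, (Real.exp (ψ x) * f x) ^ 2 ∂μ) ∧
    Integrable (fun x => Real.exp (ψ x) ^ 2 * D.Γ (D.J h f) (D.J h f) x) μ := by
  obtain ⟨p, hp⟩ : ∃ p : ℕ → X → ℝ, p = fun (n : ℕ) x => max (-(n : ℝ)) (min (ψ x) n) := ⟨_, rfl⟩
  have hl : ∀ n, LipschitzWith β (p n) := fun n => by
    rw [hp]
    exact (hψ.min_const _).const_max _
  have hb : ∀ (n : ℕ) x, |p n x| ≤ n := fun n x => by
    rw [hp]
    have : (0 : ℝ) ≤ n := Nat.cast_nonneg n
    exact abs_le.2 ⟨le_max_left _ _, max_le (by linarith) (min_le_right _ _)⟩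
  have ht : ∀ x, Tendsto (fun n => Real.exp (p n x)) atTop (𝓝 (Real.exp (ψ x))) := fun x => by
    refine tendsto_const_nhds.congr' ?_
    obtain ⟨N, hN⟩ := exists_nat_ge |ψ x|
    filter_upwards [eventually_ge_atTop N] with n hn
    have h1 : |ψ x| ≤ n := hN.trans (by exact_mod_cast hn)
    rw [hp]
    simp only [min_eq_left (abs_le.1 h1).2, max_eq_right (abs_le.1 h1).1]
  have hle : ∀ n x, Real.exp (p n x) ^ 2 ≤ 1 + Real.exp (ψ x) ^ 2 := fun n x => by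
    have : (0 : ℝ) ≤ n := Nat.cast_nonneg n
    have h1 : p n x ≤ 0 ∨ p n x ≤ ψ x := by
      rw [hp]
      rcases le_total (-(n : ℝ)) (min (ψ x) n) with h2 | h2
      · exact Or.inr ((max_eq_right h2).le.trans (min_le_left _ _))
      · exact Or.inl ((max_eq_left h2).le.trans (by linarith))
    rcases h1 with h1 | h1
    · have h2 : Real.exp (p n x) ^ 2 ≤ 1 := pow_le_one₀ (Real.exp_pos _).le (Real.exp_le_one_iff.2 h1)
      have : 0 ≤ Real.exp (ψ x) ^ 2 := by positivity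
      linarith
    · have h2 := pow_le_pow_left₀ (Real.exp_pos _).le (Real.exp_le_exp.2 h1) 2
      linarith
  have hB : Tendsto (fun n => ∫ x, (Real.exp (p n x) * f x) ^ 2 ∂μ) atTop
      (𝓝 (∫ x, (Real.exp (ψ x) * f x) ^ 2 ∂μ)) := by
    refine tendsto_integral_of_dominated_convergence
      (fun x => f x ^ 2 + (Real.exp (ψ x) * f x) ^ 2) (fun n => ?_)
      (hf.integrable_sq.add hw.integrable_sq) (fun n => Eventually.of_forall fun x => ?_)
      (Eventually.of_forall fun x => ((ht x).mul_const _).pow 2)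
    · exact ((Real.continuous_exp.comp (hl n).continuous).measurable.aestronglyMeasurable.mul
        hf.aestronglyMeasurable).pow 2
    · rw [Real.norm_eq_abs, abs_of_nonneg (sq_nonneg _)]
      have := mul_le_mul_of_nonneg_right (hle n x) (sq_nonneg (f x))
      nlinarith [this]
  have K := fun n => D.dfwa_bdd hh (hl n) (hb n) hβ hf
  have huW := D.J_W hh f
  have F1 := dfwa_fatou (G := fun x => (Real.exp (ψ x) * D.J h f x) ^ 2) (fun n => (K n).1.1)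
    (fun n => Eventually.of_forall fun x => sq_nonneg _)
    (Eventually.of_forall fun x => ((ht x).mul_const _).pow 2) (fun n => (K n).1.2) (hB.const_mul _)
  have F2 := dfwa_fatou (G := fun x => Real.exp (ψ x) ^ 2 * D.Γ (D.J h f) (D.J h f) x)
    (fun n => (K n).2.1)
    (fun n => (D.Γ_nonneg huW.s).mono fun x hx => mul_nonneg (sq_nonneg _) hx)
    (Eventually.of_forall fun x => ((ht x).pow 2).mul_const _) (fun n => (K n).2.2) (hB.const_mul _)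
  refine ⟨⟨(memLp_two_iff_integrable_sq ?_).2 F1.1, ?_⟩, F2.1⟩
  · exact (Real.continuous_exp.comp hψ.continuous).measurable.aestronglyMeasurable.mul
      huW.mem.aestronglyMeasurable
  · have hc : 0 < (1 - h * (β : ℝ) ^ 2) ^ 2 := pow_pos (by linarith) 2
    exact (le_inv_mul_iff₀ hc).1 F1.2

end DF

end Crest.Agent.R242

end
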