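import Crest.Agent.R242.DfP
import Crest.Agent.R242.DfW_a

/-!
# R242/DfW: exponentially weighted estimates (prefix `dfw_`)

For bounded `ψ` test `J_eq` with `v = exp (2ψ) u`, `u = J h f` (`comp_bdd`, `W.bdd_mul`, `Γ_mul_right`):
`∫ e^{2ψ} u² + h ∫ e^{2ψ} Γ u u + 2h ∫ e^{2ψ} u Γ u ψ = ∫ e^{2ψ} f u`, and `2 |u| |Γ u ψ| ≤ Γ u u + β² u²` (or `≤ Γ u u / 2 + 2 β² u²` for the gradient).
In general use `ψ n = max (-n) (min ψ n)` (`e^{2 ψ n} ≤ 1 + e^{2ψ}`, Fatou on the left, dominated convergence on the right).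
`P_weight`: for bounded `ψ` iterate `J_weight`, `tl2_euler`, `(1 - tβ²/n)^n → exp (-tβ²)` (`Real.tendsto_one_add_div_pow_exp`).
`gaffney`: `ψ = β * infDist · A` (for `A = ∅` `f = 0`), `β = d / (2t)`, Cauchy-Schwarz.
-/

set_option autoImplicit false
set_option linter.unusedSectionVars false

open MeasureTheory Filter Topology Set
open scoped RealInnerProductSpace ENNReal NNReal

noncomputable section

namespace Crest.Agent.R242

variable {X : Type*} [MetricSpace X] [MeasurableSpace X] [BorelSpace X] {μ : Measure X}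

namespace DF

variable {D : DF μ} {f g ψ : X → ℝ} {h t : ℝ} {β : ℝ≥0}

theorem J_weight (D : DF μ) (hh : 0 < h) (hψ : LipschitzWith β ψ) (hβ : h * (β : ℝ) ^ 2 < 1) (hf : MemLp f 2 μ)
    (hw : MemLp (fun x => Real.exp (ψ x) * f x) 2 μ) :
    MemLp (fun x => Real.exp (ψ x) * D.J h f x) 2 μ ∧
      (1 - h * (β : ℝ) ^ 2) ^ 2 * ∫ x, (Real.exp (ψ x) * D.J h f x) ^ 2 ∂μ ≤ ∫ x, (Real.exp (ψ x) * f x) ^ 2 ∂μ :=
  (D.dfwa_main hh hψ hβ hf hw).1

theorem J_weight_grad (D : DF μ) (hh : 0 < h) (hψ : LipschitzWith β ψ) (hβ : h * (β : ℝ) ^ 2 < 1) (hf : MemLp f 2 μ)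
    (hw : MemLp (fun x => Real.exp (ψ x) * f x) 2 μ) :
    Integrable (fun x => Real.exp (ψ x) ^ 2 * D.Γ (D.J h f) (D.J h f) x) μ :=
  (D.dfwa_main hh hψ hβ hf hw).2

theorem dfw_iter (D : DF μ) (hh : 0 < h) (hψ : LipschitzWith β ψ) (hβ : h * (β : ℝ) ^ 2 < 1) (hf : MemLp f 2 μ)
    (hw : MemLp (fun x => Real.exp (ψ x) * f x) 2 μ) (n : ℕ) :
    MemLp ((D.J h)^[n] f) 2 μ ∧ MemLp (fun x => Real.exp (ψ x) * (D.J h)^[n] f x) 2 μ ∧
      ((1 - h * (β : ℝ) ^ 2) ^ n) ^ 2 * ∫ x, (Real.exp (ψ x) * (D.J h)^[n] f x) ^ 2 ∂μ ≤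
        ∫ x, (Real.exp (ψ x) * f x) ^ 2 ∂μ := by
  induction n with
  | zero => exact ⟨hf, hw, by simp⟩
  | succ n ih =>
    obtain ⟨h1, h2⟩ := D.J_weight hh hψ hβ ih.1 ih.2.1
    rw [Function.iterate_succ_apply']
    refine ⟨(D.J_mk h).mem _, h1, le_trans ?_ ih.2.2⟩
    rw [pow_succ _ n, mul_pow, mul_assoc]
    exact mul_le_mul_of_nonneg_left h2 (sq_nonneg _)

theorem dfw_norm (hf : MemLp f 2 μ) : ‖cls μ f‖ = √(∫ x, f x ^ 2 ∂μ) := by
  rw [← norm_cls_sq hf, Real.sqrt_sq (norm_nonneg _)]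

theorem dfw_fatou {u : ℕ → X → ℝ} {w : X → ℝ} {K : ℝ} (h : TL2 μ atTop u g) (hu : ∀ n, AEStronglyMeasurable (u n) μ)
    (hg : AEStronglyMeasurable g μ) (hw : AEStronglyMeasurable w μ) (K0 : 0 ≤ K)
    (hK : ∀ᶠ n in atTop, MemLp (fun x => w x * u n x) 2 μ ∧ ∫ x, (w x * u n x) ^ 2 ∂μ ≤ K) :
    MemLp (fun x => w x * g x) 2 μ ∧ ∫ x, (w x * g x) ^ 2 ∂μ ≤ K := by
  obtain ⟨ns, h1, h2⟩ := (tendstoInMeasure_of_tendsto_eLpNorm two_ne_zero hu hg h).exists_seq_tendsto_ae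
  have h3 : eLpNorm (fun x => w x * g x) 2 μ ≤ ENNReal.ofReal √K := by
    refine Lp.eLpNorm_le_of_ae_tendsto (u := atTop) (f := fun n x => w x * u (ns n) x)
      ((h1.tendsto_atTop.eventually hK).mono fun n hn => ?_) (fun n => hw.mul (hu _))
      (h2.mono fun x hx => hx.const_mul _)
    rw [ENNReal.le_ofReal_iff_toReal_le hn.1.2.ne (Real.sqrt_nonneg _), ← norm_cls hn.1, dfw_norm hn.1]
    exact Real.sqrt_le_sqrt hn.2
  have h4 : MemLp (fun x => w x * g x) 2 μ := ⟨hw.mul hg, h3.trans_lt ENNReal.ofReal_lt_top⟩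
  rw [ENNReal.le_ofReal_iff_toReal_le h4.2.ne (Real.sqrt_nonneg _), ← norm_cls h4, dfw_norm h4,
    Real.sqrt_le_sqrt_iff K0] at h3
  exact ⟨h4, h3⟩

theorem P_weight (D : DF μ) (ht : 0 ≤ t) (hψ : LipschitzWith β ψ) (hf : MemLp f 2 μ)
    (hw : MemLp (fun x => Real.exp (ψ x) * f x) 2 μ) :
    MemLp (fun x => Real.exp (ψ x) * D.P t f x) 2 μ ∧
      ∫ x, (Real.exp (ψ x) * D.P t f x) ^ 2 ∂μ ≤
        Real.exp (2 * (β : ℝ) ^ 2 * t) * ∫ x, (Real.exp (ψ x) * f x) ^ 2 ∂μ := by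
  have I0 : 0 ≤ ∫ x, (Real.exp (ψ x) * f x) ^ 2 ∂μ := integral_nonneg fun x => sq_nonneg _
  rcases ht.eq_or_lt with rfl | ht0
  · have h1 : (fun x => Real.exp (ψ x) * f x) =ᵐ[μ] fun x => Real.exp (ψ x) * D.P 0 f x :=
      (D.P_nonpos le_rfl hf).mono fun x hx => by simp only [hx]
    refine ⟨hw.ae_eq h1, le_of_eq ?_⟩
    rw [mul_zero, Real.exp_zero, one_mul]
    exact integral_congr_ae (h1.mono fun x hx => by simp only at hx ⊢; rw [hx])
  have key : ∀ K, Real.exp (2 * (β : ℝ) ^ 2 * t) * ∫ x, (Real.exp (ψ x) * f x) ^ 2 ∂μ < K →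
      MemLp (fun x => Real.exp (ψ x) * D.P t f x) 2 μ ∧ ∫ x, (Real.exp (ψ x) * D.P t f x) ^ 2 ∂μ ≤ K := fun K hK => by
    have h1 : ∫ x, (Real.exp (ψ x) * f x) ^ 2 ∂μ < Real.exp (-(t * (β : ℝ) ^ 2)) ^ 2 * K := by
      rw [← Real.exp_nat_mul, ← inv_mul_lt_iff₀ (Real.exp_pos _), ← Real.exp_neg]
      rwa [show -(((2 : ℕ) : ℝ) * -(t * (β : ℝ) ^ 2)) = 2 * (β : ℝ) ^ 2 * t by push_cast; ring]
    have h2 := (((Real.tendsto_one_add_div_pow_exp (-(t * (β : ℝ) ^ 2))).pow 2).mul_const K).eventually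
      (lt_mem_nhds h1)
    have h3 := (tendsto_const_div_atTop_nhds_zero_nat (t * (β : ℝ) ^ 2)).eventually (gt_mem_nhds zero_lt_one)
    refine dfw_fatou (D.tl2_euler t hf) (fun n => ?_) ((D.P_mk t).mem f).1
      (Real.continuous_exp.measurable.comp hψ.continuous.measurable).aestronglyMeasurable
      ((mul_nonneg (Real.exp_pos _).le I0).trans hK.le) ?_
    · cases n with
      | zero => exact hf.1
      | succ n => rw [Function.iterate_succ_apply']; exact ((D.J_mk _).mem _).1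
    · filter_upwards [h2, h3, eventually_gt_atTop 0] with n a1 a2 a3
      rw [mul_div_right_comm] at a2
      rw [neg_div, mul_div_right_comm, ← sub_eq_add_neg] at a1
      obtain ⟨-, a4, a5⟩ := D.dfw_iter (div_pos ht0 (Nat.cast_pos.2 a3)) hψ a2 hf hw n
      exact ⟨a4, le_of_mul_le_mul_left (a5.trans a1.le) (pow_pos (pow_pos (sub_pos.2 a2) _) _)⟩
  exact ⟨(key _ (lt_add_one _)).1, le_of_forall_gt_imp_ge_of_dense fun K hK => (key K hK).2⟩

/-- Davies-Gaffney estimate -/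
theorem gaffney (D : DF μ) (ht : 0 < t) {A B : Set X} {d : ℝ} (hd : 0 ≤ d) (hAB : ∀ x ∈ A, ∀ y ∈ B, d ≤ dist x y)
    (hf : MemLp f 2 μ) (hg : MemLp g 2 μ) (hA : ∀ᵐ x ∂μ, x ∉ A → f x = 0) (hB : ∀ᵐ x ∂μ, x ∉ B → g x = 0) :
    |∫ x, D.P t f x * g x ∂μ| ≤ Real.exp (-d ^ 2 / (4 * t)) * √(∫ x, f x ^ 2 ∂μ) * √(∫ x, g x ^ 2 ∂μ) := by
  let β : ℝ≥0 := ⟨d / (2 * t), by positivity⟩
  have hβ : (β : ℝ) = d / (2 * t) := rfl
  obtain ⟨ψ, h1, h2, h3⟩ : ∃ ψ : X → ℝ, LipschitzWith β ψ ∧ (∀ x ∈ A, ψ x = 0) ∧ ∀ y ∈ B, β * d ≤ ψ y := by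
    rcases A.eq_empty_or_nonempty with rfl | hne
    · exact ⟨fun _ => β * d, (LipschitzWith.const _).weaken zero_le, by simp, fun _ _ => le_rfl⟩
    · refine ⟨fun x => β * Metric.infDist x A, LipschitzWith.of_dist_le_mul fun x y => ?_,
        fun x hx => by simp [Metric.infDist_zero_of_mem hx], fun y hy => mul_le_mul_of_nonneg_left
          ((Metric.le_infDist hne).2 fun x hx => dist_comm x y ▸ hAB x hx y hy) β.2⟩
      rw [Real.dist_eq, ← mul_sub, abs_mul, abs_of_nonneg β.coe_nonneg]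
      exact mul_le_mul_of_nonneg_left (by simpa [Real.dist_eq] using (Metric.lipschitz_infDist_pt A).dist_le_mul x y) β.2
  have h4 : f =ᵐ[μ] fun x => Real.exp (ψ x) * f x := hA.mono fun x hx => by
    by_cases h : x ∈ A
    · simp [h2 x h]
    · simp [hx h]
  obtain ⟨h5, h6⟩ := D.P_weight ht.le h1 hf (hf.ae_eq h4)
  have e : ∫ x, (Real.exp (ψ x) * f x) ^ 2 ∂μ = ∫ x, f x ^ 2 ∂μ :=
    integral_congr_ae (h4.mono fun x hx => by simp only at hx ⊢; rw [← hx])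
  rw [e] at h6
  have h7 : ∀ᵐ x ∂μ, |Real.exp (-ψ x) * g x| ≤ |Real.exp (-(β * d)) * g x| := hB.mono fun x hx => by
    by_cases h : x ∈ B
    · rw [abs_mul, abs_mul, Real.abs_exp, Real.abs_exp]
      exact mul_le_mul_of_nonneg_right (Real.exp_le_exp.2 (neg_le_neg (h3 x h))) (abs_nonneg _)
    · simp [hx h]
  have h8 : MemLp (fun x => Real.exp (-ψ x) * g x) 2 μ := (hg.const_mul _).of_le
    ((Real.continuous_exp.measurable.comp h1.continuous.measurable.neg).aestronglyMeasurable.mul hg.1) h7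
  have h9 : ∫ x, (Real.exp (-ψ x) * g x) ^ 2 ∂μ ≤ Real.exp (-(β * d)) ^ 2 * ∫ x, g x ^ 2 ∂μ := by
    rw [← integral_const_mul]
    refine integral_mono_ae h8.integrable_sq (hg.integrable_sq.const_mul _) (h7.mono fun x hx => ?_)
    simp only [← mul_pow]
    exact sq_le_sq.2 hx
  have h10 := abs_real_inner_le_norm (cls μ fun x => Real.exp (ψ x) * D.P t f x) (cls μ fun x => Real.exp (-ψ x) * g x)
  rw [inner_cls h5 h8, dfw_norm h5, dfw_norm h8] at h10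
  have h11 : ∀ x, Real.exp (ψ x) * D.P t f x * (Real.exp (-ψ x) * g x) = D.P t f x * g x := fun x => by
    rw [Real.exp_neg]
    field_simp
  simp only [h11] at h10
  refine h10.trans ((mul_le_mul (Real.sqrt_le_sqrt h6) (Real.sqrt_le_sqrt h9) (Real.sqrt_nonneg _)
    (Real.sqrt_nonneg _)).trans (le_of_eq ?_))
  rw [Real.sqrt_mul (Real.exp_pos _).le, Real.sqrt_mul (sq_nonneg _), Real.sqrt_sq (Real.exp_pos _).le,
    ← Real.exp_half, show -d ^ 2 / (4 * t) = 2 * (β : ℝ) ^ 2 * t / 2 + -(β * d) by rw [hβ]; field_simp; ring,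
    Real.exp_add]
  ring

end DF

end Crest.Agent.R242

end
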