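import Crest.Agent.R242.DfX
import Crest.Agent.R242.DfW
import Crest.Agent.R242.IIDefs

/-!
# R242/DfII: the interfaces `II.Cal`, `II.Flow` (helper62)
-/

set_option autoImplicit false
set_option linter.unusedSectionVars false

open MeasureTheory Filter Topology Set
open scoped RealInnerProductSpace ENNReal NNReal

noncomputable section

namespace Crest.Agent.R242

variable {X : Type*} [MetricSpace X] [MeasurableSpace X] [BorelSpace X] {μ : Measure X}

namespace DF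

variable (D : DF μ)

/-- the calculus of a Dirichlet form -/
def cal : II.Cal μ where
  S := D.S
  Γ := D.Γ
  S_meas _ := D.S_meas
  Γ_meas _ _ := D.Γ_meas
  S_congr _ _ := D.S_congr
  Γ_congr _ _ _ := D.Γ_congr
  Γ_comm _ _ := D.Γ_symm
  S_lin _ _ a b hu hv := D.S_add (D.S_smul a hu) (D.S_smul b hv)
  Γ_lin _ _ _ a b hu hv hw := by
    filter_upwards [D.Γ_add (D.S_smul a hu) (D.S_smul b hv) hw, D.Γ_smul a hu hw, D.Γ_smul b hv hw] with x h1 h2 h3
    rw [h1, h2, h3]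
  Γ_nonneg _ := D.Γ_nonneg
  lip _ _ hu := ⟨D.S_lip hu, D.Γ_lip hu⟩
  chain u φ φ' K hu h1 h2 h3 := by
    have e : deriv φ = φ' := funext fun s => (h1 s).deriv
    have hφ : ContDiff ℝ 1 φ := contDiff_one_iff_deriv.2 ⟨fun s => (h1 s).differentiableAt, e ▸ h2⟩
    exact ⟨D.S_comp hu hφ (C := K) (e ▸ h3), fun v hv => e ▸ D.Γ_comp hu hv hφ (C := K) (e ▸ h3)⟩
  mul _ _ A hu hv h1 h2 := ⟨D.S_mul hu hv ⟨A, h1⟩ (Or.inl ⟨A, h2⟩),
    fun _ hw => D.Γ_mul hu hv hw ⟨A, h1⟩ (Or.inl ⟨A, h2⟩)⟩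
  mul_lip _ _ _ A h1 h2 hu := ⟨D.S_mul (D.S_lip h1) hu ⟨A, Eventually.of_forall h2⟩ (Or.inr (D.bdd_Γ_lip h1)),
    fun _ hw => D.Γ_mul (D.S_lip h1) hu hw ⟨A, Eventually.of_forall h2⟩ (Or.inr (D.bdd_Γ_lip h1))⟩

variable {D} {u g : X → ℝ}

theorem cal_S : D.cal.S = D.S := rfl

theorem cal_Γ : D.cal.Γ = D.Γ := rfl

theorem cal_W : D.cal.W u ↔ D.W u := ⟨fun h => ⟨h.1, h.2.1, h.2.2⟩, fun h => ⟨h.s, h.mem, h.int⟩⟩

theorem cal_E (u g : X → ℝ) : D.cal.E u g = D.E u g := rfl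

theorem cal_Gen : D.cal.Gen u g ↔ D.Gen u g :=
  ⟨fun h => ⟨cal_W.1 h.1, h.2.1, fun v hv => h.2.2 v (cal_W.2 hv)⟩,
    fun h => ⟨cal_W.2 h.w, h.mem, fun v hv => h.eq v (cal_W.1 hv)⟩⟩

theorem dfii_iter (D : DF μ) (h : ℝ) (n : ℕ) {f : X → ℝ} (hf : MemLp f 2 μ) : MemLp ((D.J h)^[n] f) 2 μ := by
  cases n with
  | zero => exact hf
  | succ n => rw [Function.iterate_succ_apply']; exact (D.J_mk h).mem _

theorem flow (D : DF μ) : II.Flow D.cal D.P D.J where
  lsc u v C hu hC hv ht := by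
    have hW : ∀ n, D.W (u n) := fun n => cal_W.1 (hu n)
    have h1 : TL2 μ atTop u v := (tl2_iff_integral (Eventually.of_forall fun n => (hW n).mem) hv).2 ht
    refine ⟨cal_W.2 (lsc h1 hv (Eventually.of_forall fun n => ⟨hW n, hC n⟩)).1, fun η hm hη c hc => ?_⟩
    refine le_of_forall_pos_le_add fun ε hε => ?_
    exact lsc_weight (M := C) (B := 1) h1 hv hm (Eventually.of_forall hη)
      ((hc ε hε).mono fun n hn => ⟨hW n, hC n, hn⟩)
  R_gen _ hh _ hf := cal_Gen.2 (D.gen_J hh hf)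
  R_markov h _ _ _ hf hg _ hc H := (D.J_mk h).le_add hf hg hc H
  R_lin h _ _ _ hf hg a b := (D.J_mk h).lin hf hg a b
  euler t _ f hf := (tl2_iff_integral (Eventually.of_forall fun n => D.dfii_iter _ n hf) ((D.P_mk t).mem f)).1
    (D.tl2_euler t hf)
  T_mem t _ f _ := (D.P_mk t).mem f
  T_zero _ hf := D.P_nonpos le_rfl hf
  T_markov t _ _ _ hf hg _ hc H := (D.P_mk t).le_add hf hg hc H
  T_lin t _ _ _ hf hg a b := (D.P_mk t).lin hf hg a b
  T_symm t _ _ _ hf hg := (D.P_mk t).symm hf hg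
  T_contr t _ _ hf := (D.P_mk t).integral_sq_le hf
  T_gaffney t ht β ψ hψ hb f hf := by
    obtain ⟨B, hB⟩ := hb
    have hw := wgt_exp hψ.continuous.measurable hB
    exact (D.P_weight ht hψ hf ((hw.bdd μ).mul_memLp hw.meas.aestronglyMeasurable hf)).2
  T_W t _ _ hu := ⟨cal_W.2 (E_P_le (cal_W.1 hu) t).1, (E_P_le (cal_W.1 hu) t).2⟩
  T_cont t _ f _ := ((tl2_iff_integral (Eventually.of_forall fun s => (D.P_mk s).mem f) ((D.P_mk t).mem f)).1
    (D.tl2_P f t)).mono_left nhdsWithin_le_nhds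
  T_contW t _ _ hu := (tendsto_E_P (cal_W.1 hu) t).mono_left nhdsWithin_le_nhds
  T_gen t ht f hf := by
    have h2 : 0 < t / 2 := half_pos ht
    have g1 := D.gen_P h2 f
    have g2 := (D.gen_L_P h2 f).w
    have hs : Tendsto (fun s : ℝ => s - t / 2) (𝓝[≠] t) (𝓝[Ici 0 \ {t / 2}] (t / 2)) := by
      refine tendsto_nhdsWithin_iff.2 ⟨?_, ?_⟩
      · have : Tendsto (fun s : ℝ => s - t / 2) (𝓝 t) (𝓝 (t - t / 2)) := tendsto_id.sub_const _
        rw [show t - t / 2 = t / 2 by ring] at this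
        exact this.mono_left nhdsWithin_le_nhds
      · filter_upwards [self_mem_nhdsWithin, nhdsWithin_le_nhds (Ioi_mem_nhds (half_lt_self ht))] with s h3 h4
        exact ⟨mem_Ici.2 (sub_nonneg.2 (le_of_lt h4)), fun h5 => h3 (by have : s - t / 2 = t / 2 := h5; show s = t; linarith)⟩
    have hev : ∀ᶠ s in 𝓝[≠] t, (fun x => (s - t / 2 - t / 2)⁻¹ *
        (D.P (s - t / 2) (D.P (t / 2) f) x - D.P (t / 2) (D.P (t / 2) f) x) - D.P (t / 2) (D.L (D.P (t / 2) f)) x) =ᵐ[μ]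
        fun x => (D.P s f x - D.P t f x) / (s - t) - D.P (t / 2) (D.L (D.P (t / 2) f)) x := by
      filter_upwards [nhdsWithin_le_nhds (Ioi_mem_nhds (half_lt_self ht))] with s h4
      have e1 := D.P_add (s := s - t / 2) (sub_nonneg.2 (le_of_lt h4)) h2.le f
      have e2 := D.P_add h2.le h2.le f
      rw [sub_add_cancel] at e1
      rw [add_halves] at e2
      filter_upwards [e1, e2] with x a1 a2
      rw [a1, a2, show s - t / 2 - t / 2 = s - t by ring, div_eq_inv_mul _ (s - t)]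
    have e2 := D.P_add h2.le h2.le f
    rw [add_halves] at e2
    refine ⟨D.P (t / 2) (D.L (D.P (t / 2) f)), cal_Gen.2 ((g1.P (t / 2)).congr e2.symm EventuallyEq.rfl),
      cal_W.2 (E_P_le g2 _).1, ?_, ?_⟩
    · have h5 := (tl2_iff_integral (Eventually.of_forall fun s =>
        (((D.P_mk s).mem _).sub ((D.P_mk _).mem _)).const_mul _) ((D.P_mk _).mem _)).1 (g1.tl2_slope h2.le)
      refine (h5.comp hs).congr' ?_
      filter_upwards [hev] with s h6
      exact integral_congr_ae (h6.mono fun x hx => congrArg (· ^ 2) hx)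
    · refine ((g1.tendsto_E_slope g2 h2.le).comp hs).congr' ?_
      filter_upwards [hev] with s h6
      have h7 := ((((E_P_le g1.w (s - t / 2)).1.sub (E_P_le g1.w (t / 2)).1).smul (s - t / 2 - t / 2)⁻¹).sub
        (E_P_le g2 (t / 2)).1)
      exact E_congr h7 h7 h6 h6

theorem flow_weight (D : DF μ) {w : X → ℝ} {c C : ℝ} (hw : Wgt w c C) (h : ae (den μ w) = ae μ) :
    II.Flow (D.cal.re (den μ w) h) (D.weight hw).P (D.weight hw).J := (D.weight hw).flow

theorem ae_wm {F : X → ℝ} {B : ℝ} (hF : Measurable F) (hB : ∀ x, |F x| ≤ B) (l : ℝ) : ae (II.wm μ F l) = ae μ :=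
  (wgt_exp (F := fun x => l * F x) (B := |l| * B) (hF.const_mul l) fun x => by
    rw [abs_mul]; exact mul_le_mul_of_nonneg_left (hB x) (abs_nonneg l)).ae_eq μ

/-- the field `II.CB.flow` -/
theorem flow_wm (D : DF μ) {F : X → ℝ} {B : ℝ} (hF : Measurable F) (hB : ∀ x, |F x| ≤ B) (l : ℝ)
    (h : ae (II.wm μ F l) = ae μ) : ∃ T R, II.Flow (D.cal.re (II.wm μ F l) h) T R :=
  ⟨_, _, D.flow_weight (wgt_exp (F := fun x => l * F x) (B := |l| * B) (hF.const_mul l) fun x => by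
    rw [abs_mul]; exact mul_le_mul_of_nonneg_left (hB x) (abs_nonneg l)) h⟩

end DF

end Crest.Agent.R242

end
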