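import Crest.Agent.R242.DfB

/-!
# R242/DfJ: the resolvent on functions, closedness (prefix `dfj_`)

Translate `DfA1`, `DfA2` with `cls_J`, `gen_cls`, `E_cls`, `inner_cls`, `tl2_iff`, `ae_of_cls`.
`le_J`: `z = w - J h f` has `∫ z η + h E η z ≤ 0`; take `η = φ z`, `φ` bounded `C¹`, `0 ≤ φ' ≤ C`, `φ = 0` on `(-∞,0]`, `φ > 0` on `(0,∞)`
(e.g. `φ r = expNegInvGlue r` or `r₊² / (1 + r₊²)`).  `J_le_const`: the same with `η = φ (J h f - a)`.
-/

set_option autoImplicit false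
set_option linter.unusedSectionVars false

open MeasureTheory Filter Topology Set
open scoped RealInnerProductSpace ENNReal NNReal

noncomputable section

namespace Crest.Agent.R242

variable {X : Type*} [MetricSpace X] [MeasurableSpace X] [BorelSpace X] {μ : Measure X}

namespace DF

variable {D : DF μ} {u v w f g k η : X → ℝ} {h : ℝ}

theorem dfj_mem (D : DF μ) (h : ℝ) (f : X → ℝ) : MemLp (D.J h f) 2 μ := fl_mem _ _

theorem J_W (D : DF μ) (hh : 0 < h) (f : X → ℝ) : D.W (D.J h f) := by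
  rw [← cls_mem_V (dfj_mem D h f), cls_J]
  exact D.frm.J_mem hh _

theorem J_eq (hh : 0 < h) (hf : MemLp f 2 μ) (hv : D.W v) :
    ∫ x, D.J h f x * v x ∂μ + h * D.E (D.J h f) v = ∫ x, f x * v x ∂μ := by
  have h1 := D.frm.J_eq hh (cls μ f) hv.cls
  rwa [← cls_J, inner_cls (dfj_mem D h f) hv.mem, E_cls (D.J_W hh f) hv, inner_cls hf hv.mem] at h1

theorem gen_J (D : DF μ) (hh : 0 < h) (hf : MemLp f 2 μ) : D.Gen (D.J h f) fun x => (D.J h f x - f x) / h := by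
  have hm : MemLp (fun x => D.J h f x - f x) 2 μ := (dfj_mem D h f).sub hf
  have e : (fun x => (D.J h f x - f x) / h) = fun x => h⁻¹ * (D.J h f x - f x) := by
    funext x
    rw [div_eq_inv_mul]
  rw [e, ← gen_cls (dfj_mem D h f) (hm.const_mul _), cls_smul _ hm, cls_sub (dfj_mem D h f) hf, cls_J]
  exact D.frm.gen_J hh _

theorem Gen.J_eq (h1 : D.Gen u g) (hh : 0 < h) : D.J h (fun x => u x - h * g x) =ᵐ[μ] u := by
  refine ae_of_cls (dfj_mem D h _) h1.w.mem ?_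
  rw [cls_J, cls_sub h1.w.mem (h1.mem.const_mul h), cls_smul h h1.mem]
  exact h1.cls.J_eq hh

theorem Gen.J (h1 : D.Gen u g) (h : ℝ) : D.Gen (D.J h u) (D.J h g) := by
  rw [← gen_cls (dfj_mem D h u) (dfj_mem D h g), cls_J, cls_J]
  exact h1.cls.J h

theorem J_nonpos (D : DF μ) (hh : h ≤ 0) (hf : MemLp f 2 μ) : D.J h f =ᵐ[μ] f := by
  refine ae_of_cls (dfj_mem D h f) hf ?_
  rw [cls_J, D.frm.J_nonpos hh]

theorem J_res (D : DF μ) (hh : 0 < h) {h' : ℝ} (hh' : 0 < h') (hf : MemLp f 2 μ) :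
    D.J h f =ᵐ[μ] D.J h' fun x => h' / h * f x + (1 - h' / h) * D.J h f x := by
  refine ae_of_cls (dfj_mem D h f) (dfj_mem D h' _) ?_
  rw [cls_J, cls_J, cls_add (hf.const_mul _) ((dfj_mem D h f).const_mul _), cls_smul _ hf,
    cls_smul _ (dfj_mem D h f), cls_J]
  exact D.frm.J_res hh hh' _

theorem J_comm (D : DF μ) (h h' : ℝ) (f : X → ℝ) : D.J h (D.J h' f) =ᵐ[μ] D.J h' (D.J h f) := by
  refine ae_of_cls (dfj_mem D h _) (dfj_mem D h' _) ?_
  rw [cls_J, cls_J, cls_J, cls_J]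
  exact D.frm.J_comm h h' _

theorem dfj_theta : ∃ M : ℝ, ∀ t, |deriv Real.smoothTransition t| ≤ M := by
  have hc : Continuous (deriv Real.smoothTransition) :=
    (Real.smoothTransition.contDiff (n := 1)).continuous_deriv le_rfl
  obtain ⟨M, hM⟩ := (isCompact_Icc (a := (0 : ℝ)) (b := 1)).exists_bound_of_continuousOn hc.continuousOn
  refine ⟨max M 0, fun t => ?_⟩
  rcases lt_or_ge t 0 with h0 | h0
  · rw [(EventuallyEq.deriv_eq (f := fun _ => 0) ((eventually_lt_nhds h0).mono fun s hs =>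
      Real.smoothTransition.zero_of_nonpos hs.le))]
    simp
  rcases lt_or_ge 1 t with h1 | h1
  · rw [(EventuallyEq.deriv_eq (f := fun _ => 1) ((eventually_gt_nhds h1).mono fun s hs =>
      Real.smoothTransition.one_of_one_le hs.le))]
    simp
  exact le_max_of_le_left (hM t ⟨h0, h1⟩)

theorem dfj_max {a : ℝ} (hh : 0 < h) (hu : D.W u) (hg : MemLp g 2 μ) (ha : 0 ≤ a) (hga : ∀ᵐ x ∂μ, g x ≤ a)
    (H : ∀ η, D.W η → Bdd μ η → (∀ᵐ x ∂μ, 0 ≤ η x) → ∫ x, u x * η x ∂μ + h * D.E η u ≤ ∫ x, g x * η x ∂μ) :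
    ∀ᵐ x ∂μ, u x ≤ a := by
  obtain ⟨M, hM⟩ := dfj_theta
  have hφ : ContDiff ℝ 1 fun r => Real.smoothTransition (r - a) :=
    (Real.smoothTransition.contDiff (n := 1)).comp (contDiff_id.sub contDiff_const)
  have hC : ∀ r, |deriv (fun r => Real.smoothTransition (r - a)) r| ≤ M := fun r => by
    rw [deriv_comp_sub_const]
    exact hM _
  have hη := hu.comp hφ (Real.smoothTransition.zero_of_nonpos (by linarith)) hC
  have h1 := H _ hη ⟨1, ae_of_all _ fun x => by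
    rw [abs_of_nonneg (Real.smoothTransition.nonneg _)]
    exact Real.smoothTransition.le_one _⟩ (ae_of_all _ fun x => Real.smoothTransition.nonneg _)
  have h2 : 0 ≤ D.E (fun x => Real.smoothTransition (u x - a)) u := by
    refine integral_nonneg_of_ae ?_
    filter_upwards [D.Γ_comp hu.s hu.s hφ hC, D.Γ_nonneg hu.s] with x h3 h4
    rw [h3, deriv_comp_sub_const]
    exact mul_nonneg Real.smoothTransition.monotone.deriv_nonneg h4
  have i1 := hu.mem.integrable_mul hη.mem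
  have i2 := hg.integrable_mul hη.mem
  have h3 : 0 ≤ᵐ[μ] fun x => u x * Real.smoothTransition (u x - a) - g x * Real.smoothTransition (u x - a) := by
    filter_upwards [hga] with x hx
    rcases le_total (u x) a with h4 | h4
    · simp [Real.smoothTransition.zero_of_nonpos (sub_nonpos.2 h4)]
    · exact sub_nonneg.2 (mul_le_mul_of_nonneg_right (hx.trans h4) (Real.smoothTransition.nonneg _))
  have h4 := (integral_eq_zero_iff_of_nonneg_ae h3 (i1.sub i2)).1 (le_antisymm (by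
    have := mul_nonneg hh.le h2
    exact (integral_sub i1 i2).trans_le (sub_nonpos.2 (le_trans (le_add_of_nonneg_right this) h1)))
    (integral_nonneg_of_ae h3))
  filter_upwards [hga, h4] with x hx h5
  by_contra hc
  have h6 := mul_pos (sub_pos.2 (hx.trans_lt (not_le.1 hc))) (Real.smoothTransition.pos_of_pos (sub_pos.2 (not_le.1 hc)))
  simp only [Pi.zero_apply] at h5
  linarith

/-- weak maximum principle -/
theorem le_J (hh : 0 < h) (hw : D.W w) (hf : MemLp f 2 μ)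
    (H : ∀ η, D.W η → Bdd μ η → (∀ᵐ x ∂μ, 0 ≤ η x) → ∫ x, w x * η x ∂μ + h * D.E η w ≤ ∫ x, f x * η x ∂μ) :
    ∀ᵐ x ∂μ, w x ≤ D.J h f x := by
  have hJ := D.J_W hh f
  have := dfj_max hh (hw.sub hJ) (D.W_zero.mem) le_rfl (ae_of_all _ fun _ => le_rfl) fun η h1 h2 h3 => by
    have h4 := H η h1 h2 h3
    have h5 := J_eq hh hf h1
    have h6 := integral_sub (hw.mem.integrable_mul h1.mem) (hJ.mem.integrable_mul h1.mem)
    rw [E_symm h1 (hw.sub hJ), E_sub hw hJ h1, E_symm hw h1]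
    simp only [Pi.mul_apply] at h6
    simp only [sub_mul, h6, zero_mul, integral_zero]
    linarith
  exact this.mono fun x hx => sub_nonpos.1 hx

theorem J_le_const (D : DF μ) (h : ℝ) {a : ℝ} (hf : MemLp f 2 μ) (ha : 0 ≤ a) (H : ∀ᵐ x ∂μ, f x ≤ a) :
    ∀ᵐ x ∂μ, D.J h f x ≤ a := by
  rcases le_or_gt h 0 with hh | hh
  · filter_upwards [D.J_nonpos hh hf, H] with x h1 h2
    rwa [h1]
  · exact dfj_max hh (D.J_W hh f) hf ha H fun η h1 _ _ => by
      rw [E_symm h1 (D.J_W hh f)]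
      exact (J_eq hh hf h1).le

theorem J_mk (D : DF μ) (h : ℝ) : Mk μ (D.J h) := by
  have hm : ∀ f, MemLp (D.J h f) 2 μ := fun f => fl_mem _ f
  refine ⟨fun f => fl_meas _ f, hm, fun h1 => ae_of_cls (hm _) (hm _) ?_,
    fun hf hg => ae_of_cls (hm _) ((hm _).add (hm _)) ?_, fun c hf => ae_of_cls (hm _) ((hm _).const_mul c) ?_,
    fun hf hg => ?_, fun f => ?_, fun hf ha H => D.J_le_const h hf ha H⟩
  · rw [cls_J, cls_J, cls_congr h1]
  · rw [cls_J, cls_add hf hg, map_add, ← cls_J, ← cls_J, ← cls_add (hm _) (hm _)]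
  · rw [cls_J, cls_smul c hf, map_smul, ← cls_J, ← cls_smul c (hm _)]
  · rw [← inner_cls (hm _) hg, ← inner_cls hf (hm _), cls_J, cls_J, Frm.J_symm]
  · by_cases hf : MemLp f 2 μ
    · rw [← ENNReal.toReal_le_toReal (hm f).2.ne hf.2.ne, ← norm_cls (hm f), ← norm_cls hf, cls_J]
      exact Frm.norm_J_le _ _ _
    · simp [J, fl, hf]

theorem E_J_le (hu : D.W u) (h : ℝ) : D.W (D.J h u) ∧ D.E (D.J h u) (D.J h u) ≤ D.E u u := by
  have hW : D.W (D.J h u) := by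
    rcases le_or_gt h 0 with hh | hh
    · exact hu.congr (D.J_nonpos hh hu.mem).symm
    · exact D.J_W hh u
  refine ⟨hW, ?_⟩
  rw [← E_cls hW hW, ← E_cls hu hu, cls_J]
  exact Frm.E_J_le hu.cls h

theorem tl2_J (D : DF μ) (hf : MemLp f 2 μ) : TL2 μ (𝓝[>] 0) (fun h => D.J h f) f := by
  rw [tl2_iff (Eventually.of_forall fun h => dfj_mem D h f) hf]
  simp only [cls_J]
  exact D.frm.tendsto_J _

theorem tendsto_E_J (hu : D.W u) :
    Tendsto (fun h => D.E (fun x => D.J h u x - u x) fun x => D.J h u x - u x) (𝓝[>] 0) (𝓝 0) := by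
  refine (Frm.tendsto_E_J hu.cls).congr fun h => ?_
  have hW : D.W fun x => D.J h u x - u x := (E_J_le hu h).1.sub hu
  rw [← E_cls hW hW, cls_sub (dfj_mem D h u) hu.mem, cls_J]

theorem W_of_J {C : ℝ} (hu : MemLp u 2 μ) (hC : ∀ᶠ h in 𝓝[>] (0 : ℝ), ∫ x, (u x - D.J h u x) * u x ∂μ ≤ C * h) :
    D.W u ∧ D.E u u ≤ C := by
  have h1 : cls μ u ∈ D.frm.V ∧ D.frm.E (cls μ u) (cls μ u) ≤ C := by
    refine Frm.mem_V_of_J (hC.mono fun h hh => ?_)
    have hm : MemLp (fun x => u x - D.J h u x) 2 μ := hu.sub (dfj_mem D h u)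
    rwa [← cls_J, ← cls_sub hu (dfj_mem D h u), inner_cls hm hu]
  have hW : D.W u := (cls_mem_V hu).1 h1.1
  exact ⟨hW, by rw [← E_cls hW hW]; exact h1.2⟩

section conv

variable {ι : Type*} {l : Filter ι} {x y : ι → X → ℝ} {C : ℝ}

theorem lsc [l.NeBot] (hx : TL2 μ l x u) (hu : MemLp u 2 μ) (hC : ∀ᶠ i in l, D.W (x i) ∧ D.E (x i) (x i) ≤ C) :
    D.W u ∧ D.E u u ≤ C := by
  have h0 := (tl2_iff (hC.mono fun i hi => hi.1.mem) hu).1 hx
  have h1 : cls μ u ∈ D.frm.V ∧ D.frm.E (cls μ u) (cls μ u) ≤ C :=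
    Frm.lsc h0 (hC.mono fun i hi => ⟨hi.1.cls, by rw [E_cls hi.1 hi.1]; exact hi.2⟩)
  have hW : D.W u := (cls_mem_V hu).1 h1.1
  exact ⟨hW, by rw [← E_cls hW hW]; exact h1.2⟩

theorem tendsto_E_weak (hx : TL2 μ l x u) (hu : D.W u) (hC : ∀ᶠ i in l, D.W (x i) ∧ D.E (x i) (x i) ≤ C) (hv : D.W v) :
    Tendsto (fun i => D.E (x i) v) l (𝓝 (D.E u v)) := by
  have h0 := (tl2_iff (hC.mono fun i hi => hi.1.mem) hu.mem).1 hx
  have h1 := Frm.tendsto_E_weak h0 hu.cls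
    (hC.mono fun i hi => ⟨hi.1.cls, by rw [E_cls hi.1 hi.1]; exact hi.2⟩) hv.cls
  rw [E_cls hu hv] at h1
  exact h1.congr' (hC.mono fun i hi => E_cls hi.1 hv)

theorem Gen.closed [l.NeBot] (hx : TL2 μ l x u) (hy : TL2 μ l y g) (hu : MemLp u 2 μ) (hg : MemLp g 2 μ)
    (h1 : ∀ᶠ i in l, D.Gen (x i) (y i)) : D.Gen u g := by
  have h2 := (tl2_iff (h1.mono fun i hi => hi.w.mem) hu).1 hx
  have h3 := (tl2_iff (h1.mono fun i hi => hi.mem) hg).1 hy
  exact (gen_cls hu hg).1 (Frm.Gen.closed h2 h3 (h1.mono fun i hi => hi.cls))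

end conv

theorem gen_of_bdd {C : ℝ} (hC0 : 0 ≤ C) (hu : D.W u) (hC : ∀ v, D.W v → |D.E u v| ≤ C * √(∫ x, v x ^ 2 ∂μ)) :
    ∃ g, D.Gen u g ∧ ∫ x, g x ^ 2 ∂μ ≤ C ^ 2 := by
  obtain ⟨G, hG, hGn⟩ := Frm.gen_of_bdd hC0 hu.cls (F := D.frm) fun V hV => by
    have hV' : D.W ⇑V := (mem_V V).1 hV
    have h1 := hC _ hV'
    rw [← E_cls hu hV', ← norm_cls_sq hV'.mem, cls_coe, Real.sqrt_sq (norm_nonneg _)] at h1
    exact h1
  refine ⟨⇑G, gen_of_frm hu.mem hG, ?_⟩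
  rw [← norm_cls_sq (Lp.memLp G), cls_coe]
  exact pow_le_pow_left₀ (norm_nonneg _) hGn 2

end DF

end Crest.Agent.R242

end
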