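import Crest.Agent.R242.DfDefs

/-!
# R242/DfL: `cls`, `fl`, `TL2` (prefix `dfl_`)
-/

set_option autoImplicit false
set_option linter.unusedSectionVars false

open MeasureTheory Filter Topology Set
open scoped RealInnerProductSpace ENNReal NNReal

noncomputable section

namespace Crest.Agent.R242

variable {X : Type*} [MetricSpace X] [MeasurableSpace X] [BorelSpace X] {μ : Measure X}

variable {f g : X → ℝ}

theorem cls_eq (hf : MemLp f 2 μ) : cls μ f = hf.toLp f := dif_pos hf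

theorem cls_ae (hf : MemLp f 2 μ) : ⇑(cls μ f) =ᵐ[μ] f := by
  rw [cls_eq hf]
  exact hf.coeFn_toLp

theorem cls_coe (F : Lp ℝ 2 μ) : cls μ ⇑F = F := by
  rw [cls_eq (Lp.memLp F)]
  exact Lp.toLp_coeFn F _

theorem cls_congr (h : f =ᵐ[μ] g) : cls μ f = cls μ g := by
  by_cases hf : MemLp f 2 μ
  · have hg : MemLp g 2 μ := (memLp_congr_ae h).1 hf
    rw [cls_eq hf, cls_eq hg]
    exact MemLp.toLp_congr hf hg h
  · have hg : ¬ MemLp g 2 μ := fun hg => hf ((memLp_congr_ae h).2 hg)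
    simp only [cls, dif_neg hf, dif_neg hg]

theorem ae_of_cls (hf : MemLp f 2 μ) (hg : MemLp g 2 μ) (h : cls μ f = cls μ g) : f =ᵐ[μ] g := by
  refine (cls_ae hf).symm.trans ?_
  rw [h]
  exact cls_ae hg

theorem cls_add (hf : MemLp f 2 μ) (hg : MemLp g 2 μ) : cls μ (fun x => f x + g x) = cls μ f + cls μ g := by
  rw [cls_eq hf, cls_eq hg, ← MemLp.toLp_add hf hg]
  exact cls_eq (hf.add hg)

theorem cls_sub (hf : MemLp f 2 μ) (hg : MemLp g 2 μ) : cls μ (fun x => f x - g x) = cls μ f - cls μ g := by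
  rw [cls_eq hf, cls_eq hg, ← MemLp.toLp_sub hf hg]
  exact cls_eq (hf.sub hg)

theorem cls_smul (c : ℝ) (hf : MemLp f 2 μ) : cls μ (fun x => c * f x) = c • cls μ f := by
  rw [cls_eq hf, ← MemLp.toLp_const_smul c hf]
  exact cls_eq (hf.const_smul c)

theorem inner_cls (hf : MemLp f 2 μ) (hg : MemLp g 2 μ) : ⟪cls μ f, cls μ g⟫ = ∫ x, f x * g x ∂μ := by
  rw [L2.inner_def]
  refine integral_congr_ae ?_
  filter_upwards [cls_ae hf, cls_ae hg] with x h1 h2
  rw [h1, h2, real_inner_comm]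
  simp [mul_comm]

theorem norm_cls (hf : MemLp f 2 μ) : ‖cls μ f‖ = (eLpNorm f 2 μ).toReal := by
  rw [cls_eq hf]
  exact Lp.norm_toLp f hf

theorem norm_cls_sq (hf : MemLp f 2 μ) : ‖cls μ f‖ ^ 2 = ∫ x, f x ^ 2 ∂μ := by
  rw [← real_inner_self_eq_norm_sq, inner_cls hf hf]
  simp only [sq]

theorem fl_ae (T : Lp ℝ 2 μ →L[ℝ] Lp ℝ 2 μ) (f : X → ℝ) : fl T f =ᵐ[μ] ⇑(T (cls μ f)) := by
  by_cases hf : MemLp f 2 μ
  · rw [cls_eq hf, fl, dif_pos hf]
  · rw [fl, dif_neg hf, cls, dif_neg hf, map_zero]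
    exact (Lp.coeFn_zero ℝ 2 μ).symm

theorem fl_mem (T : Lp ℝ 2 μ →L[ℝ] Lp ℝ 2 μ) (f : X → ℝ) : MemLp (fl T f) 2 μ := by
  exact (memLp_congr_ae (fl_ae T f)).2 (Lp.memLp _)

theorem fl_meas (T : Lp ℝ 2 μ →L[ℝ] Lp ℝ 2 μ) (f : X → ℝ) : Measurable (fl T f) := by
  by_cases hf : MemLp f 2 μ
  · rw [fl, dif_pos hf]
    exact (Lp.stronglyMeasurable _).measurable
  · rw [fl, dif_neg hf]
    exact measurable_const

theorem cls_fl (T : Lp ℝ 2 μ →L[ℝ] Lp ℝ 2 μ) (f : X → ℝ) : cls μ (fl T f) = T (cls μ f) := by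
  rw [cls_congr (fl_ae T f), cls_coe]

theorem cls_fl_iterate (T : Lp ℝ 2 μ →L[ℝ] Lp ℝ 2 μ) (n : ℕ) (f : X → ℝ) :
    cls μ ((fl T)^[n] f) = T^[n] (cls μ f) := by
  induction n with
  | zero => rfl
  | succ n ih => rw [Function.iterate_succ_apply', Function.iterate_succ_apply', cls_fl, ih]

section conv

variable {ι : Type*} {l : Filter ι} {u : ι → X → ℝ}

theorem tl2_iff (hu : ∀ᶠ i in l, MemLp (u i) 2 μ) (hg : MemLp g 2 μ) :
    TL2 μ l u g ↔ Tendsto (fun i => cls μ (u i)) l (𝓝 (cls μ g)) := by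
  rw [tendsto_iff_edist_tendsto_0]
  refine tendsto_congr' ?_
  filter_upwards [hu] with i hi
  rw [Lp.edist_def]
  refine eLpNorm_congr_ae ?_
  filter_upwards [cls_ae hi, cls_ae hg] with x h1 h2
  simp only [Pi.sub_apply, h1, h2]

theorem tl2_iff_integral (hu : ∀ᶠ i in l, MemLp (u i) 2 μ) (hg : MemLp g 2 μ) :
    TL2 μ l u g ↔ Tendsto (fun i => ∫ x, (u i x - g x) ^ 2 ∂μ) l (𝓝 0) := by
  rw [tl2_iff hu hg, tendsto_iff_norm_sub_tendsto_zero]
  have h1 : ∀ᶠ i in l, ‖cls μ (u i) - cls μ g‖ ^ 2 = ∫ x, (u i x - g x) ^ 2 ∂μ := by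
    filter_upwards [hu] with i hi
    rw [← cls_sub hi hg]
    exact norm_cls_sq (hi.sub hg)
  rw [← tendsto_congr' h1]
  constructor
  · intro h
    simpa using h.pow 2
  · intro h
    have h2 := h.sqrt
    simpa [Real.sqrt_sq (norm_nonneg _)] using h2

theorem TL2.integral_mul (h : TL2 μ l u g) (hu : ∀ᶠ i in l, MemLp (u i) 2 μ) (hg : MemLp g 2 μ) (hf : MemLp f 2 μ) :
    Tendsto (fun i => ∫ x, u i x * f x ∂μ) l (𝓝 (∫ x, g x * f x ∂μ)) := by
  have h1 := ((tl2_iff hu hg).1 h).inner (𝕜 := ℝ) (tendsto_const_nhds (x := cls μ f))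
  rw [inner_cls hg hf] at h1
  refine h1.congr' ?_
  filter_upwards [hu] with i hi
  exact inner_cls hi hf

/-- one-sided bounds pass to the limit (a.e. convergent subsequence, or test with `(g - b)⁺`) -/
theorem TL2.ae_le [l.NeBot] {b : X → ℝ} (h : TL2 μ l u g) (hu : ∀ᶠ i in l, MemLp (u i) 2 μ) (hg : MemLp g 2 μ)
    (hb : AEStronglyMeasurable b μ) (hle : ∀ᶠ i in l, ∀ᵐ x ∂μ, u i x ≤ b x) : ∀ᵐ x ∂μ, g x ≤ b x := by
  have h1 : eLpNorm (fun x => max (g x - b x) 0) 2 μ ≤ 0 := by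
    refine ge_of_tendsto h ?_
    filter_upwards [hle] with i hi
    refine eLpNorm_mono_ae ?_
    filter_upwards [hi] with x hx
    rw [Real.norm_eq_abs, Real.norm_eq_abs, abs_of_nonneg (le_max_right _ _)]
    refine max_le ?_ (abs_nonneg _)
    have := neg_abs_le (u i x - g x)
    linarith
  have hm : AEStronglyMeasurable (fun x => max (g x - b x) 0) μ :=
    (continuous_id.max continuous_const).comp_aestronglyMeasurable (hg.1.sub hb)
  have h2 := (eLpNorm_eq_zero_iff hm two_ne_zero).1 (le_antisymm h1 zero_le)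
  filter_upwards [h2] with x hx
  have h3 := le_max_left (g x - b x) 0
  simp only [Pi.zero_apply] at hx
  linarith

theorem dflb_abs_le [l.NeBot] {C : ℝ} (h : TL2 μ l u g) (hg : AEStronglyMeasurable g μ)
    (hC : ∀ᶠ i in l, ∀ᵐ x ∂μ, |u i x| ≤ C) : ∀ᵐ x ∂μ, |g x| ≤ C := by
  have hm : AEStronglyMeasurable (fun x => max (|g x| - C) 0) μ :=
    (by fun_prop : Continuous fun r : ℝ => max (|r| - C) 0).comp_aestronglyMeasurable hg
  have h0 : eLpNorm (fun x => max (|g x| - C) 0) 2 μ ≤ 0 := by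
    refine ge_of_tendsto h ?_
    filter_upwards [hC] with i hi
    refine eLpNorm_mono_ae ?_
    filter_upwards [hi] with x hx
    rw [Real.norm_eq_abs, Real.norm_eq_abs, abs_of_nonneg (le_max_right _ _), abs_sub_comm]
    have := abs_sub_abs_le_abs_sub (g x) (u i x)
    exact max_le (by linarith) (abs_nonneg _)
  filter_upwards [(eLpNorm_eq_zero_iff hm two_ne_zero).1 (le_antisymm h0 zero_le)] with x hx
  have h1 : max (|g x| - C) 0 = 0 := hx
  have := le_max_left (|g x| - C) 0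
  linarith

/-- bounded and `L²`-convergent implies weak-* convergent in `L^∞`: split `w` at `{1/n ≤ |w| ≤ n}` (truncate), where it is in `L²` -/
theorem TL2.integral_mul_of_bdd {w : X → ℝ} {C : ℝ} (h : TL2 μ l u g) (hu : ∀ᶠ i in l, MemLp (u i) 2 μ)
    (hg : MemLp g 2 μ) (hC : ∀ᶠ i in l, ∀ᵐ x ∂μ, |u i x| ≤ C) (hw : Integrable w μ) :
    Tendsto (fun i => ∫ x, u i x * w x ∂μ) l (𝓝 (∫ x, g x * w x ∂μ)) := by
  rcases l.eq_or_neBot with rfl | hl
  · exact tendsto_bot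
  have hgC := dflb_abs_le h hg.1 hC
  refine tendsto_integral_of_L1 (fun x => g x * w x) (hg.1.mul hw.1) ?_ ?_
  · filter_upwards [hu, hC] with i h1 h2
    exact hw.bdd_mul h1.1 h2
  · simp only [← eLpNorm_one_eq_lintegral_enorm]
    rw [ENNReal.tendsto_nhds_zero]
    intro ε hε
    have hε2 : 0 < ε / 2 := ENNReal.half_pos hε.ne'
    obtain ⟨δ, hδ, hδ'⟩ : ∃ δ : ℝ≥0∞, δ ≠ 0 ∧ ENNReal.ofReal (2 * C) * δ ≤ ε / 2 := by
      refine ⟨ε / 2 / ENNReal.ofReal (2 * C), (ENNReal.div_pos hε2.ne' ENNReal.ofReal_ne_top).ne', ?_⟩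
      exact ENNReal.mul_div_le
    obtain ⟨s, hs, hs1⟩ := (memLp_one_iff_integrable.2 hw).exists_simpleFunc_eLpNorm_sub_lt ENNReal.one_ne_top hδ
    have hs2 : MemLp s 2 μ :=
      (SimpleFunc.memLp_iff_integrable two_ne_zero ENNReal.ofNat_ne_top).2 (memLp_one_iff_integrable.1 hs1)
    have ht : Tendsto (fun i => eLpNorm (fun x => u i x - g x) 2 μ * eLpNorm s 2 μ) l (𝓝 0) := by
      have := ENNReal.Tendsto.mul_const (b := eLpNorm s 2 μ) h (Or.inr hs2.2.ne)
      rwa [zero_mul] at this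
    filter_upwards [hu, hC, ENNReal.tendsto_nhds_zero.1 ht _ hε2] with i h1 h2 h3
    have hm : AEStronglyMeasurable (fun x => u i x - g x) μ := h1.1.sub hg.1
    have e : (fun x => u i x * w x - g x * w x) =
        ((fun x => u i x - g x) • (s : X → ℝ)) + fun x => (u i x - g x) * (w - s) x := by
      ext x
      simp only [Pi.add_apply, Pi.mul_apply, smul_eq_mul, Pi.sub_apply]
      ring
    rw [e]
    refine (eLpNorm_add_le (hm.smul hs2.1) (hm.mul (hw.1.sub hs2.1)) le_rfl).trans ?_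
    rw [← ENNReal.add_halves ε]
    refine add_le_add ((eLpNorm_smul_le_mul_eLpNorm hs2.1 hm).trans h3) ?_
    have h4 : ENNReal.ofReal (2 * C) * eLpNorm (w - ⇑s) 1 μ ≤ ε / 2 := le_trans (by gcongr) hδ'
    refine le_trans (eLpNorm_le_mul_eLpNorm_of_ae_le_mul (c := 2 * C) (g := w - ⇑s) ?_ 1) h4
    filter_upwards [h2, hgC] with x a1 a2
    refine (norm_mul (u i x - g x) ((w - ⇑s) x)).trans_le (mul_le_mul_of_nonneg_right ?_ (norm_nonneg _))
    have := abs_sub (u i x) (g x)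
    rw [Real.norm_eq_abs]
    linarith

/-- dominated convergence -/
theorem tl2_of_dominated [l.IsCountablyGenerated] {b : X → ℝ} (hu : ∀ᶠ i in l, AEStronglyMeasurable (u i) μ)
    (hg : AEStronglyMeasurable g μ) (hb : MemLp b 2 μ) (hle : ∀ᶠ i in l, ∀ᵐ x ∂μ, |u i x - g x| ≤ b x)
    (h : ∀ᵐ x ∂μ, Tendsto (fun i => u i x) l (𝓝 (g x))) : TL2 μ l u g := by
  have h2 : (0 : ℝ) < (2 : ℝ≥0∞).toReal := by simp
  have key := tendsto_lintegral_filter_of_dominated_convergence' (μ := μ) (l := l)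
    (F := fun i x => ‖u i x - g x‖ₑ ^ (2 : ℝ≥0∞).toReal) (f := fun _ => 0) (fun x => ‖b x‖ₑ ^ (2 : ℝ≥0∞).toReal)
    ?_ ?_ (lintegral_rpow_enorm_lt_top_of_eLpNorm_lt_top two_ne_zero ENNReal.ofNat_ne_top hb.2).ne ?_
  · unfold TL2
    simp only [eLpNorm_eq_lintegral_rpow_enorm_toReal two_ne_zero ENNReal.ofNat_ne_top]
    have := (ENNReal.continuous_rpow_const (y := 1 / (2 : ℝ≥0∞).toReal)).continuousAt.tendsto.comp key
    rwa [lintegral_zero, ENNReal.zero_rpow_of_pos (by positivity)] at this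
  · filter_upwards [hu] with i hi
    exact (hi.sub hg).enorm.pow_const _
  · filter_upwards [hle] with i hi
    filter_upwards [hi] with x hx
    refine ENNReal.rpow_le_rpow ?_ h2.le
    rw [← ofReal_norm, ← ofReal_norm]
    exact ENNReal.ofReal_le_ofReal (hx.trans (le_abs_self _))
  · filter_upwards [h] with x hx
    have h3 : Tendsto (fun i => u i x - g x) l (𝓝 0) := tendsto_sub_nhds_zero_iff.2 hx
    have h4 := (ENNReal.continuous_rpow_const (y := (2 : ℝ≥0∞).toReal)).continuousAt.tendsto.comp h3.enorm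
    rwa [enorm_zero, ENNReal.zero_rpow_of_pos h2] at h4

theorem dflb_subseq (h : TL2 μ l u g) (hu : ∀ᶠ i in l, AEStronglyMeasurable (u i) μ) (hg : AEStronglyMeasurable g μ)
    {ns : ℕ → ι} (hns : Tendsto ns atTop l) :
    ∃ ms : ℕ → ℕ, Tendsto ms atTop atTop ∧ ∀ᵐ x ∂μ, Tendsto (fun n => u (ns (ms n)) x) atTop (𝓝 (g x)) := by
  obtain ⟨N, hN⟩ := eventually_atTop.1 (hns.eventually hu)
  have h1 : TendstoInMeasure μ (fun n => u (ns (n + N))) atTop g :=
    tendstoInMeasure_of_tendsto_eLpNorm two_ne_zero (fun n => hN _ (Nat.le_add_left _ _)) hg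
      ((Tendsto.comp h hns).comp (tendsto_add_atTop_nat N))
  obtain ⟨ms, hms, hae⟩ := h1.exists_seq_tendsto_ae
  exact ⟨fun n => ms n + N, (tendsto_add_atTop_nat N).comp hms.tendsto_atTop, hae⟩

theorem dflb_comp [l.IsCountablyGenerated] {w : X → ℝ} {Ψ : X → ℝ → ℝ} {C : ℝ} (h : TL2 μ l u g)
    (hu : ∀ᶠ i in l, AEStronglyMeasurable (u i) μ) (hg : AEStronglyMeasurable g μ)
    (hm : ∀ᶠ i in l, AEStronglyMeasurable (fun x => Ψ x (u i x)) μ) (hm' : AEStronglyMeasurable (fun x => Ψ x (g x)) μ)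
    (hΨ : ∀ x, ContinuousAt (Ψ x) (g x)) (hC : ∀ x r, |Ψ x r| ≤ C) (hw : MemLp w 2 μ) :
    TL2 μ l (fun i x => Ψ x (u i x) * w x) fun x => Ψ x (g x) * w x := by
  refine tendsto_of_subseq_tendsto fun ns hns => ?_
  obtain ⟨ms, hms, hae⟩ := dflb_subseq h hu hg hns
  refine ⟨ms, tl2_of_dominated (l := atTop) (u := fun n x => Ψ x (u (ns (ms n)) x) * w x)
    (b := fun x => 2 * C * ‖w x‖) ?_ (hm'.mul hw.1) (hw.norm.const_mul _) ?_ ?_⟩
  · filter_upwards [(hns.comp hms).eventually hm] with n hn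
    exact hn.mul hw.1
  · refine Eventually.of_forall fun n => Eventually.of_forall fun x => ?_
    rw [← sub_mul, abs_mul]
    refine mul_le_mul_of_nonneg_right ?_ (abs_nonneg _)
    have := abs_sub (Ψ x (u (ns (ms n)) x)) (Ψ x (g x))
    linarith [hC x (u (ns (ms n)) x), hC x (g x)]
  · filter_upwards [hae] with x hx
    exact ((hΨ x).tendsto.comp hx).mul_const _

/-- `ψ` continuous and bounded: `ψ (u i) w → ψ g w` in `L²` for `w ∈ L²` (every subsequence has an a.e. convergent subsequence,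
`tendsto_of_subseq_tendsto`, `TendstoInMeasure.exists_seq_tendsto_ae`) -/
theorem TL2.comp_mul [l.IsCountablyGenerated] {w : X → ℝ} {ψ : ℝ → ℝ} {C : ℝ} (h : TL2 μ l u g)
    (hu : ∀ᶠ i in l, MemLp (u i) 2 μ) (hg : MemLp g 2 μ) (hψ : Continuous ψ) (hC : ∀ r, |ψ r| ≤ C) (hw : MemLp w 2 μ) :
    TL2 μ l (fun i x => ψ (u i x) * w x) fun x => ψ (g x) * w x := by
  exact dflb_comp (Ψ := fun _ => ψ) h (hu.mono fun i hi => hi.1) hg.1
    (hu.mono fun i hi => hψ.comp_aestronglyMeasurable hi.1) (hψ.comp_aestronglyMeasurable hg.1)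
    (fun _ => hψ.continuousAt) (fun _ => hC) hw

end conv

theorem dflb_lip {φ : ℝ → ℝ} {C : ℝ} (hφ : ContDiff ℝ 1 φ) (hC : ∀ r, |deriv φ r| ≤ C) (a b : ℝ) :
    |φ b - φ a| ≤ C * |b - a| :=
  convex_univ.norm_image_sub_le_of_norm_deriv_le (fun x _ => hφ.differentiable one_ne_zero x) (fun x _ => hC x)
    (mem_univ a) (mem_univ b)

theorem dflb_dslope_le {φ : ℝ → ℝ} {C : ℝ} (hφ : ContDiff ℝ 1 φ) (hC : ∀ r, |deriv φ r| ≤ C) (a b : ℝ) :
    |dslope φ a b| ≤ C := by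
  by_cases h : b = a
  · rw [h, dslope_same]
    exact hC a
  · have h1 := dflb_lip hφ hC a b
    rw [← sub_smul_dslope φ a b, smul_eq_mul, abs_mul, mul_comm] at h1
    exact le_of_mul_le_mul_right h1 (abs_pos.2 (sub_ne_zero.2 h))

theorem dflb_dslope_meas {φ : ℝ → ℝ} (hφ : Continuous φ) : Measurable fun p : ℝ × ℝ => dslope φ p.1 p.2 := by
  classical
  have e : (fun p : ℝ × ℝ => dslope φ p.1 p.2) =
      fun p => if p.2 = p.1 then deriv φ p.1 else (p.2 - p.1)⁻¹ * (φ p.2 - φ p.1) := by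
    ext p
    split_ifs with h
    · rw [h, dslope_same]
    · rw [dslope_of_ne _ h, slope_def_field, div_eq_inv_mul]
  rw [e]
  have hm := hφ.measurable
  exact Measurable.ite (measurableSet_eq_fun measurable_snd measurable_fst) ((measurable_deriv φ).comp measurable_fst)
    (by fun_prop)

theorem dflb_mem {φ : ℝ → ℝ} {C : ℝ} (hf : MemLp f 2 μ) (hφ : ContDiff ℝ 1 φ) (h0 : φ 0 = 0)
    (hC : ∀ r, |deriv φ r| ≤ C) : MemLp (fun x => φ (f x)) 2 μ := by
  refine MemLp.of_le_mul (c := C) hf (hφ.continuous.comp_aestronglyMeasurable hf.1) (Eventually.of_forall fun x => ?_)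
  simpa [h0] using dflb_lip hφ hC 0 (f x)

/-- chain rule for curves in `L²`: with `q = (u r - u s)/(r - s)`, `(φ (u r) - φ (u s))/(r - s) = φ' (ξ) q`; error
`≤ C |q - u'| + |φ' ξ - φ' (u s)| |u'|`, a.e. convergent subsequences -/
theorem hasDerivWithinAt_cls_comp {u : ℝ → X → ℝ} {u' : X → ℝ} {A : Set ℝ} {s : ℝ} {φ : ℝ → ℝ} {C : ℝ}
    (hu : ∀ r ∈ A, MemLp (u r) 2 μ) (hs : s ∈ A) (hu' : MemLp u' 2 μ)
    (h : HasDerivWithinAt (fun r => cls μ (u r)) (cls μ u') A s) (hφ : ContDiff ℝ 1 φ) (h0 : φ 0 = 0)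
    (hC : ∀ r, |deriv φ r| ≤ C) :
    HasDerivWithinAt (fun r => cls μ fun x => φ (u r x)) (cls μ fun x => deriv φ (u s x) * u' x) A s := by
  have hus := hu s hs
  have hA : ∀ᶠ r in 𝓝[A \ {s}] s, r ∈ A := mem_of_superset self_mem_nhdsWithin sdiff_subset
  have hul : ∀ᶠ r in 𝓝[A \ {s}] s, MemLp (u r) 2 μ := hA.mono hu
  have hd : Continuous (deriv φ) := hφ.continuous_deriv le_rfl
  have h1 : TL2 μ (𝓝[A \ {s}] s) u (u s) :=
    (tl2_iff hul hus).2 (h.continuousWithinAt.tendsto.mono_left (nhdsWithin_mono _ sdiff_subset))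
  have hq : ∀ r ∈ A, MemLp (fun x => (r - s)⁻¹ * (u r x - u s x)) 2 μ := fun r hr => ((hu r hr).sub hus).const_mul _
  have h2 : TL2 μ (𝓝[A \ {s}] s) (fun r x => (r - s)⁻¹ * (u r x - u s x)) u' := by
    refine (tl2_iff (hA.mono hq) hu').2 ((hasDerivWithinAt_iff_tendsto_slope.1 h).congr' ?_)
    filter_upwards [hA] with r hr
    rw [cls_smul (f := fun x => u r x - u s x) _ ((hu r hr).sub hus), slope_def_module, cls_sub (hu r hr) hus]
  have hm : ∀ r ∈ A, AEStronglyMeasurable (fun x => dslope φ (u s x) (u r x)) μ := fun r hr =>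
    ((dflb_dslope_meas hφ.continuous).comp_aemeasurable
      (hus.1.aemeasurable.prodMk (hu r hr).1.aemeasurable)).aestronglyMeasurable
  have h3 := dflb_comp (Ψ := fun x => dslope φ (u s x)) h1 (hul.mono fun r hr => hr.1) hus.1 (hA.mono hm) (hm s hs)
    (fun x => continuousAt_dslope_same.2 (hφ.differentiable one_ne_zero _))
    (fun x r => dflb_dslope_le hφ hC _ _) hu'
  simp only [dslope_same] at h3
  have hφu : ∀ r ∈ A, MemLp (fun x => φ (u r x)) 2 μ := fun r hr => dflb_mem (hu r hr) hφ h0 hC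
  have hlim : MemLp (fun x => deriv φ (u s x) * u' x) 2 μ := by
    refine MemLp.of_le_mul (c := C) hu' ((hd.comp_aestronglyMeasurable hus.1).mul hu'.1)
      (Eventually.of_forall fun x => ?_)
    rw [norm_mul]
    exact mul_le_mul_of_nonneg_right (hC _) (norm_nonneg _)
  have hQ : ∀ r ∈ A, MemLp (fun x => (r - s)⁻¹ * (φ (u r x) - φ (u s x))) 2 μ := fun r hr =>
    ((hφu r hr).sub (hφu s hs)).const_mul _
  have h4 : TL2 μ (𝓝[A \ {s}] s) (fun r x => (r - s)⁻¹ * (φ (u r x) - φ (u s x)))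
      fun x => deriv φ (u s x) * u' x := by
    have h5 := (ENNReal.Tendsto.const_mul (a := ENNReal.ofReal C) h2 (Or.inr ENNReal.ofReal_ne_top)).add h3
    rw [mul_zero, add_zero] at h5
    refine tendsto_of_tendsto_of_tendsto_of_le_of_le' tendsto_const_nhds h5 (Eventually.of_forall fun _ => zero_le) ?_
    filter_upwards [hA] with r hr
    have e : (fun x => (r - s)⁻¹ * (φ (u r x) - φ (u s x)) - deriv φ (u s x) * u' x) =
        (fun x => dslope φ (u s x) (u r x) * ((r - s)⁻¹ * (u r x - u s x) - u' x)) +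
          fun x => dslope φ (u s x) (u r x) * u' x - deriv φ (u s x) * u' x := by
      ext x
      rw [Pi.add_apply, ← sub_smul_dslope φ (u s x) (u r x), smul_eq_mul]
      ring
    rw [e]
    refine (eLpNorm_add_le ((hm r hr).mul ((hq r hr).1.sub hu'.1)) (((hm r hr).mul hu'.1).sub hlim.1)
      one_le_two).trans (add_le_add ?_ le_rfl)
    refine eLpNorm_le_mul_eLpNorm_of_ae_le_mul (Eventually.of_forall fun x => ?_) 2
    exact (norm_mul _ _).trans_le (mul_le_mul_of_nonneg_right (dflb_dslope_le hφ hC _ _) (norm_nonneg _))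
  refine hasDerivWithinAt_iff_tendsto_slope.2 (((tl2_iff (hA.mono hQ) hlim).1 h4).congr' ?_)
  filter_upwards [hA] with r hr
  rw [cls_smul (f := fun x => φ (u r x) - φ (u s x)) _ ((hφu r hr).sub (hφu s hs)), slope_def_module,
    cls_sub (hφu r hr) (hφu s hs)]

theorem memLp_comp {φ : ℝ → ℝ} {C : ℝ} (hf : MemLp f 2 μ) (hφ : ContDiff ℝ 1 φ) (h0 : φ 0 = 0)
    (hC : ∀ r, |deriv φ r| ≤ C) : MemLp (fun x => φ (f x)) 2 μ := by
  have hL : LipschitzWith (Real.toNNReal C) φ := by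
    refine lipschitzWith_of_nnnorm_deriv_le (hφ.differentiable one_ne_zero) fun r => ?_
    rw [← NNReal.coe_le_coe, coe_nnnorm, Real.norm_eq_abs]
    exact (hC r).trans (Real.le_coe_toNNReal C)
  exact hL.comp_memLp h0 hf

theorem Bdd.mul_memLp {η : X → ℝ} (hη : Bdd μ η) (hm : AEStronglyMeasurable η μ) (hf : MemLp f 2 μ) :
    MemLp (fun x => η x * f x) 2 μ := by
  obtain ⟨C, hC⟩ := hη
  refine MemLp.of_le_mul (c := C) hf (hm.mul hf.1) ?_
  filter_upwards [hC] with x hx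
  rw [norm_mul, Real.norm_eq_abs]
  exact mul_le_mul_of_nonneg_right hx (norm_nonneg _)

theorem Bdd.mul_integrable {η : X → ℝ} (hη : Bdd μ η) (hm : AEStronglyMeasurable η μ) (hf : Integrable f μ) :
    Integrable (fun x => η x * f x) μ := by
  obtain ⟨C, hC⟩ := hη
  exact hf.bdd_mul (c := C) hm (by simpa only [Real.norm_eq_abs] using hC)

theorem Bdd.memLp_of_integrable (hb : Bdd μ f) (hf : Integrable f μ) : MemLp f 2 μ := by
  rw [memLp_two_iff_integrable_sq hf.1]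
  simpa only [sq] using hb.mul_integrable hf.1 hf

end Crest.Agent.R242

end
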