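import Crest.Agent.R242.DfJ

/-!
# R242/DfP: the semigroup on functions (prefix `dfp_`)

Translate `DfA3` (`D.frm.isSG`), `DfA4`, `DfA5` with `cls_P`, `gen_cls`, `E_cls`, `inner_cls`, `tl2_iff`, `ae_of_cls`, `Gen.cls_L`.
`P_mk`: `le_const` from `J_le_const` (induction), `tl2_euler`, `TL2.ae_le`.
-/

set_option autoImplicit false
set_option linter.unusedSectionVars false

open MeasureTheory Filter Topology Set
open scoped RealInnerProductSpace ENNReal NNReal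

noncomputable section

namespace Crest.Agent.R242

variable {X : Type*} [MetricSpace X] [MeasurableSpace X] [BorelSpace X] {μ : Measure X}

namespace DF

variable {D : DF μ} {u v w f g k η : X → ℝ} {h s t : ℝ}

theorem dfp_mem (D : DF μ) (t : ℝ) (f : X → ℝ) : MemLp (D.P t f) 2 μ := fl_mem _ _

theorem dfp_iter_mem (D : DF μ) (h : ℝ) (hf : MemLp f 2 μ) (n : ℕ) : MemLp ((D.J h)^[n] f) 2 μ := by
  cases n with
  | zero => exact hf
  | succ n => rw [Function.iterate_succ_apply']; exact fl_mem _ _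

theorem dfp_iter_le (D : DF μ) (h : ℝ) {a : ℝ} (hf : MemLp f 2 μ) (ha : 0 ≤ a) (H : ∀ᵐ x ∂μ, f x ≤ a) (n : ℕ) :
    ∀ᵐ x ∂μ, (D.J h)^[n] f x ≤ a := by
  induction n with
  | zero => exact H
  | succ n ih => rw [Function.iterate_succ_apply']; exact D.J_le_const h (dfp_iter_mem D h hf n) ha ih

theorem tl2_euler (D : DF μ) (t : ℝ) (hf : MemLp f 2 μ) :
    TL2 μ atTop (fun n : ℕ => (D.J (t / n))^[n] f) (D.P t f) := by
  refine (tl2_iff (Eventually.of_forall fun n => dfp_iter_mem D _ hf n) (dfp_mem D t f)).2 ?_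
  rw [cls_P]
  refine (D.frm.tendsto_J_pow t (cls μ f)).congr fun n => ?_
  exact (cls_fl_iterate (D.JL (t / n)) n f).symm

theorem P_mk (D : DF μ) (t : ℝ) : Mk μ (D.P t) := by
  refine ⟨fun f => fl_meas _ _, dfp_mem D t, fun {f g} h => ?_, fun {f g} hf hg => ?_, fun {f} c hf => ?_,
    fun {f g} hf hg => ?_, fun f => ?_, fun {f a} hf ha H => ?_⟩
  · refine ae_of_cls (dfp_mem D t f) (dfp_mem D t g) ?_
    rw [cls_P, cls_P, cls_congr h]
  · refine ae_of_cls (dfp_mem D t _) ((dfp_mem D t f).add (dfp_mem D t g)) ?_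
    rw [cls_P, cls_add hf hg, map_add, cls_add (dfp_mem D t f) (dfp_mem D t g), cls_P, cls_P]
  · refine ae_of_cls (dfp_mem D t _) ((dfp_mem D t f).const_mul c) ?_
    rw [cls_P, cls_smul c hf, map_smul, cls_smul c (dfp_mem D t f), cls_P]
  · rw [← inner_cls (dfp_mem D t f) hg, ← inner_cls hf (dfp_mem D t g), cls_P, cls_P]
    exact D.frm.isSG.symm _ _ _
  · by_cases hf : MemLp f 2 μ
    · have h1 := D.frm.isSG.norm_le t (cls μ f)
      rw [← cls_P, norm_cls (dfp_mem D t f), norm_cls hf] at h1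
      exact (ENNReal.toReal_le_toReal (dfp_mem D t f).eLpNorm_ne_top hf.eLpNorm_ne_top).1 h1
    · have h1 : D.P t f = 0 := dif_neg hf
      rw [h1, eLpNorm_zero]
      exact zero_le
  · exact (D.tl2_euler t hf).ae_le (Eventually.of_forall fun n => dfp_iter_mem D _ hf n) (dfp_mem D t f)
      aestronglyMeasurable_const (Eventually.of_forall fun n => dfp_iter_le D _ hf ha H n)

theorem P_nonpos (D : DF μ) (ht : t ≤ 0) (hf : MemLp f 2 μ) : D.P t f =ᵐ[μ] f := by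
  refine ae_of_cls (dfp_mem D t f) hf ?_
  rw [cls_P, D.frm.isSG.nonpos t ht]

theorem P_add (D : DF μ) (hs : 0 ≤ s) (ht : 0 ≤ t) (f : X → ℝ) : D.P (s + t) f =ᵐ[μ] D.P s (D.P t f) := by
  refine ae_of_cls (dfp_mem D _ _) (dfp_mem D _ _) ?_
  rw [cls_P, cls_P, cls_P, D.frm.isSG.add s t hs ht]

theorem P_comm_J (D : DF μ) (t h : ℝ) (f : X → ℝ) : D.P t (D.J h f) =ᵐ[μ] D.J h (D.P t f) := by
  refine ae_of_cls (dfp_mem D _ _) (fl_mem _ _) ?_
  rw [cls_P, cls_J, cls_J, cls_P, D.frm.isSG.comm_J]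

theorem tl2_P (D : DF μ) (f : X → ℝ) (t : ℝ) : TL2 μ (𝓝 t) (fun s => D.P s f) (D.P t f) := by
  refine (tl2_iff (Eventually.of_forall fun s => dfp_mem D s f) (dfp_mem D t f)).2 ?_
  simp only [cls_P]
  exact (D.frm.isSG.cont (cls μ f)).tendsto t

theorem continuous_P (D : DF μ) (f : X → ℝ) (hg : MemLp g 2 μ) : Continuous fun t => ∫ x, D.P t f x * g x ∂μ := by
  have e : (fun t => ∫ x, D.P t f x * g x ∂μ) = fun t => ⟪D.frm.P t (cls μ f), cls μ g⟫ := by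
    funext t
    rw [← inner_cls (dfp_mem D t f) hg, cls_P]
  rw [e]
  exact (D.frm.isSG.cont (cls μ f)).inner continuous_const

theorem continuous_P_bdd (hη : MemLp η 2 μ) (hb : Bdd μ η) (hw : Integrable w μ) :
    Continuous fun t => ∫ x, D.P t η x * w x ∂μ := by
  obtain ⟨C, hC⟩ := hb
  refine continuous_iff_continuousAt.2 fun t => ?_
  refine (D.tl2_P η t).integral_mul_of_bdd (C := max C 0) (Eventually.of_forall fun s => dfp_mem D s η)
    (dfp_mem D t η) (Eventually.of_forall fun s => ?_) hw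
  exact (D.P_mk s).abs_le_const hη (le_max_right _ _) (hC.mono fun x hx => hx.trans (le_max_left _ _))

theorem Gen.P (h1 : D.Gen u g) (t : ℝ) : D.Gen (D.P t u) (D.P t g) := by
  refine (gen_cls (dfp_mem D t u) (dfp_mem D t g)).1 ?_
  rw [cls_P, cls_P]
  exact h1.cls.P t

theorem E_P_le (hu : D.W u) (t : ℝ) : D.W (D.P t u) ∧ D.E (D.P t u) (D.P t u) ≤ D.E u u := by
  have h1 := Frm.E_P_le hu.cls t
  rw [← cls_P] at h1
  have hW := (cls_mem_V (dfp_mem D t u)).1 h1.1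
  refine ⟨hW, ?_⟩
  rw [← E_cls hW hW, ← E_cls hu hu]
  exact h1.2

theorem E_P_le' (D : DF μ) (ht : 0 < t) (hf : MemLp f 2 μ) :
    D.W (D.P t f) ∧ 2 * t * D.E (D.P t f) (D.P t f) ≤ ∫ x, f x ^ 2 ∂μ := by
  have h1 := D.frm.E_P_le' ht (cls μ f)
  rw [← cls_P] at h1
  have hW := (cls_mem_V (dfp_mem D t f)).1 h1.1
  refine ⟨hW, ?_⟩
  rw [← E_cls hW hW, ← norm_cls_sq hf]
  exact h1.2

theorem gen_P (D : DF μ) (ht : 0 < t) (f : X → ℝ) : D.Gen (D.P t f) (D.L (D.P t f)) := by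
  have h1 := (D.frm.gen_P ht (cls μ f)).1
  rw [← cls_P] at h1
  exact (gen_of_frm (dfp_mem D t f) h1).gen_L

theorem L_P_sq_le (D : DF μ) (ht : 0 < t) (hf : MemLp f 2 μ) :
    t ^ 2 * ∫ x, D.L (D.P t f) x ^ 2 ∂μ ≤ ∫ x, f x ^ 2 ∂μ := by
  have h1 := (D.frm.gen_P ht (cls μ f)).2
  have h2 := D.gen_P ht f
  rw [← cls_P, ← h2.cls_L] at h1
  rw [← norm_cls_sq hf, ← norm_cls_sq h2.mem, ← mul_pow]
  exact pow_le_pow_left₀ (by positivity) h1 2

theorem L_P_add (D : DF μ) (hs : 0 ≤ s) (ht : 0 < t) (f : X → ℝ) :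
    D.L (D.P (s + t) f) =ᵐ[μ] D.P s (D.L (D.P t f)) := by
  have h1 := D.gen_P (add_pos_of_nonneg_of_pos hs ht) f
  have h2 := D.gen_P ht f
  refine ae_of_cls h1.mem (dfp_mem D _ _) ?_
  rw [h1.cls_L, cls_P, cls_P, h2.cls_L, cls_P, D.frm.L_P_add hs ht]

theorem gen_L_P (D : DF μ) (ht : 0 < t) (f : X → ℝ) : D.Gen (D.L (D.P t f)) (D.L (D.L (D.P t f))) := by
  have h1 := D.frm.gen_L_P ht (cls μ f)
  have h2 := D.gen_P ht f
  rw [← cls_P, ← h2.cls_L] at h1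
  exact (gen_of_frm h2.mem h1).gen_L

theorem dfpb_mem (D : DF μ) (t : ℝ) (f : X → ℝ) : MemLp (D.P t f) 2 μ := fl_mem _ _

theorem dfpb_mem_slope (D : DF μ) (u : X → ℝ) (s t : ℝ) :
    MemLp (fun x => (s - t)⁻¹ * (D.P s u x - D.P t u x)) 2 μ :=
  ((dfpb_mem D s u).sub (dfpb_mem D t u)).const_mul _

theorem dfpb_cls_slope (D : DF μ) (u : X → ℝ) (s t : ℝ) : cls μ (fun x => (s - t)⁻¹ * (D.P s u x - D.P t u x)) =
    (s - t)⁻¹ • (D.frm.P s (cls μ u) - D.frm.P t (cls μ u)) := by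
  rw [cls_smul (f := fun x => D.P s u x - D.P t u x) _ ((dfpb_mem D s u).sub (dfpb_mem D t u)),
    cls_sub (dfpb_mem D _ _) (dfpb_mem D _ _), cls_P, cls_P]

theorem Gen.hasDerivWithinAt_cls (h1 : D.Gen u g) (ht : 0 ≤ t) :
    HasDerivWithinAt (fun s => Crest.Agent.R242.cls μ (D.P s u)) (Crest.Agent.R242.cls μ (D.P t g)) (Ici 0) t := by
  simp only [cls_P]
  exact D.frm.isSG.der _ _ h1.cls t ht

theorem hasDerivAt_cls_P (D : DF μ) (ht : 0 < t) (f : X → ℝ) :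
    HasDerivAt (fun s => cls μ (D.P s f)) (cls μ (D.L (D.P t f))) t := by
  rw [(D.gen_P ht f).cls_L]
  simp only [cls_P]
  exact D.frm.hasDerivAt_P ht _

theorem Gen.hasDerivWithinAt (h1 : D.Gen u g) (ht : 0 ≤ t) (hk : MemLp k 2 μ) :
    HasDerivWithinAt (fun s => ∫ x, D.P s u x * k x ∂μ) (∫ x, D.P t g x * k x ∂μ) (Ici 0) t := by
  have := (h1.hasDerivWithinAt_cls ht).inner ℝ (hasDerivWithinAt_const t (Ici 0) (Crest.Agent.R242.cls μ k))
  simpa only [inner_zero_right, zero_add, inner_cls (dfpb_mem D _ _) hk] using this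

theorem hasDerivAt_P (D : DF μ) (ht : 0 < t) (f : X → ℝ) (hk : MemLp k 2 μ) :
    HasDerivAt (fun s => ∫ x, D.P s f x * k x ∂μ) (∫ x, D.L (D.P t f) x * k x ∂μ) t := by
  have := (D.hasDerivAt_cls_P ht f).inner ℝ (hasDerivAt_const t (cls μ k))
  simpa only [inner_zero_right, zero_add, inner_cls (dfpb_mem D _ _) hk, inner_cls (D.gen_P ht f).mem hk] using this

theorem Gen.tl2_slope (h1 : D.Gen u g) (ht : 0 ≤ t) :
    TL2 μ (𝓝[Ici 0 \ {t}] t) (fun s x => (s - t)⁻¹ * (D.P s u x - D.P t u x)) (D.P t g) := by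
  refine (tl2_iff (Eventually.of_forall fun s => dfpb_mem_slope D u s t) (dfpb_mem D _ _)).2 ?_
  simp only [dfpb_cls_slope, cls_P]
  exact tendsto_sub_nhds_zero_iff.1 (Frm.dfa4_slope h1.cls ht)

theorem Gen.tendsto_E_slope (h1 : D.Gen u g) (hg : D.W g) (ht : 0 ≤ t) :
    Tendsto (fun s => D.E (fun x => (s - t)⁻¹ * (D.P s u x - D.P t u x) - D.P t g x)
      fun x => (s - t)⁻¹ * (D.P s u x - D.P t u x) - D.P t g x) (𝓝[Ici 0 \ {t}] t) (𝓝 0) := by
  refine (h1.cls.tendsto_E_slope hg.cls ht).congr fun s => ?_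
  have hw : D.W fun x => (s - t)⁻¹ * (D.P s u x - D.P t u x) - D.P t g x :=
    (((E_P_le h1.w s).1.sub (E_P_le h1.w t).1).smul _).sub (E_P_le hg t).1
  rw [← E_cls hw hw, cls_sub (dfpb_mem_slope D u s t) (dfpb_mem D _ _), dfpb_cls_slope, cls_P]

theorem tendsto_E_P (hu : D.W u) (t : ℝ) :
    Tendsto (fun s => D.E (fun x => D.P s u x - D.P t u x) fun x => D.P s u x - D.P t u x) (𝓝 t) (𝓝 0) := by
  refine (Frm.tendsto_E_P hu.cls t).congr fun s => ?_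
  have hw := (E_P_le hu s).1.sub (E_P_le hu t).1
  rw [← E_cls hw hw, cls_sub (dfpb_mem D _ _) (dfpb_mem D _ _), cls_P, cls_P]

theorem sq_P_sub_le (hu : D.W u) (ht : 0 ≤ t) : ∫ x, (D.P t u x - u x) ^ 2 ∂μ ≤ t * D.E u u := by
  rw [← norm_cls_sq (f := fun x => D.P t u x - u x) ((dfpb_mem D t u).sub hu.mem),
    cls_sub (dfpb_mem D _ _) hu.mem, cls_P, ← E_cls hu hu]
  exact Frm.norm_P_sub_sq hu.cls ht

theorem J_laplace (D : DF μ) (hh : 0 < h) (hf : MemLp f 2 μ) (hg : MemLp g 2 μ) :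
    IntegrableOn (fun s => h⁻¹ * Real.exp (-s / h) * ∫ x, D.P s f x * g x ∂μ) (Ioi 0) ∧
      ∫ x, D.J h f x * g x ∂μ = ∫ s in Ioi (0 : ℝ), h⁻¹ * Real.exp (-s / h) * ∫ x, D.P s f x * g x ∂μ := by
  obtain ⟨h1, h2⟩ := D.frm.J_laplace hh (cls μ f)
  have e : ∀ s, h⁻¹ * Real.exp (-s / h) * ∫ x, D.P s f x * g x ∂μ =
      ⟪cls μ g, (h⁻¹ * Real.exp (-s / h)) • D.frm.P s (cls μ f)⟫ := fun s => by
    rw [real_inner_smul_right, real_inner_comm, ← cls_P, inner_cls (dfpb_mem D _ _) hg]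
  simp only [e]
  refine ⟨h1.const_inner _, ?_⟩
  rw [integral_inner h1, ← h2, real_inner_comm, ← cls_J, inner_cls (D.J_W hh f).mem hg]

end DF

end Crest.Agent.R242

end
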