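import Crest.Agent.R242.DfX0
import Crest.Agent.R242.DfJ

/-!
# R242/DfX: weighted lower semicontinuity, the generator for the weight `exp F` (prefix `dfx_`)

`lsc_weight`: choose a measurable `η'` equal to `η` a.e. with `0 ≤ η' ≤ B` everywhere, apply `lsc` for `D.weight` with `w = η' + ε`.
`Γ_le_of_tl2`: `η` = indicator of `{b < Γ u u} ∩ {|b| ≤ n} ∩ ball o n`.
`to_exp`: test `Gen u g` with `exp F * v` (`comp_bdd`, `W.bdd_mul`, `Γ_mul_right`); `of_exp`: test with `exp (-F) * v`.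
-/

set_option autoImplicit false
set_option linter.unusedSectionVars false

open MeasureTheory Filter Topology Set
open scoped RealInnerProductSpace ENNReal NNReal

noncomputable section

namespace Crest.Agent.R242

variable {X : Type*} [MetricSpace X] [MeasurableSpace X] [BorelSpace X] {μ : Measure X}

namespace DF

variable {D : DF μ} {u g η b F : X → ℝ} {ι : Type*} {l : Filter ι} {x : ι → X → ℝ}

theorem lsc_weight [l.NeBot] {M A B : ℝ} (hx : TL2 μ l x u) (hu : MemLp u 2 μ) (hm : AEStronglyMeasurable η μ)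
    (hη : ∀ᵐ y ∂μ, 0 ≤ η y ∧ η y ≤ B)
    (hC : ∀ᶠ i in l, D.W (x i) ∧ D.E (x i) (x i) ≤ M ∧ ∫ y, η y * D.Γ (x i) (x i) y ∂μ ≤ A) :
    ∫ y, η y * D.Γ u u y ∂μ ≤ A := by
  let η' : X → ℝ := fun y => max (min (hm.mk η y) B) 0
  have e : η' =ᵐ[μ] η := by
    filter_upwards [hm.ae_eq_mk, hη] with y h1 h2
    simp only [η', ← h1, min_eq_left h2.2, max_eq_left h2.1]
  have hb : Bdd μ η := ⟨B, hη.mono fun y h => by rw [abs_of_nonneg h.1]; exact h.2⟩
  refine le_of_forall_pos_le_add fun δ hδ => ?_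
  obtain ⟨ε, hε, hεM⟩ : ∃ ε : ℝ, 0 < ε ∧ ε * M ≤ δ := by
    refine ⟨δ / (|M| + 1), by positivity, ?_⟩
    rw [div_mul_eq_mul_div, div_le_iff₀ (by positivity)]
    exact mul_le_mul_of_nonneg_left ((le_abs_self M).trans (le_add_of_nonneg_right zero_le_one)) hδ.le
  have hw : Wgt (fun y => η' y + ε) ε (max B 0 + ε) :=
    ⟨((hm.measurable_mk.min measurable_const).max measurable_const).add_const ε, hε,
      fun y => le_add_of_nonneg_left (le_max_right _ _),
      fun y => add_le_add (max_le_max (min_le_right _ _) le_rfl) le_rfl⟩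
  have sp : ∀ v, D.W v → (D.weight hw).E v v = ∫ y, η y * D.Γ v v y ∂μ + ε * D.E v v := fun v hv => by
    rw [weight_E, E, ← integral_const_mul, ← integral_add (hb.mul_integrable hm hv.int) (hv.int.const_mul ε)]
    exact integral_congr_ae (e.mono fun y hy => by simp only [hy, add_mul])
  obtain ⟨h1, h2⟩ := lsc (D := D.weight hw) (C := A + ε * M) (hw.tl2_iff.2 hx) (hw.memLp_iff.2 hu)
    (hC.mono fun i hi => ⟨(weight_W hw).2 hi.1, (sp _ hi.1).trans_le
      (add_le_add hi.2.2 (mul_le_mul_of_nonneg_left hi.2.1 hε.le))⟩)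
  rw [weight_W] at h1
  rw [sp u h1] at h2
  linarith [mul_nonneg hε.le (E_nonneg h1)]

theorem Γ_le_of_tl2 [l.NeBot] {M : ℝ} (hx : TL2 μ l x u) (hu : MemLp u 2 μ) (hb : AEStronglyMeasurable b μ)
    (hC : ∀ᶠ i in l, D.W (x i) ∧ D.E (x i) (x i) ≤ M ∧ ∀ᵐ y ∂μ, D.Γ (x i) (x i) y ≤ b y) :
    ∀ᵐ y ∂μ, D.Γ u u y ≤ b y := by
  have := D.sigmaFinite
  have hW := (lsc hx hu (hC.mono fun i hi => ⟨hi.1, hi.2.1⟩)).1
  have b0 : ∀ᵐ y ∂μ, 0 ≤ b y := by
    obtain ⟨i, hi⟩ := hC.exists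
    filter_upwards [hi.2.2, D.Γ_nonneg hi.1.s] with y h1 h2 using h2.trans h1
  have key := ae_le_of_forall_setLIntegral_le_of_sigmaFinite₀ (μ := μ) (f := fun y => ENNReal.ofReal (D.Γ u u y))
    (g := fun y => ENNReal.ofReal (b y)) hW.int.aemeasurable.ennreal_ofReal fun s hs _ => ?_
  · filter_upwards [key, b0] with y h1 h2 using (ENNReal.ofReal_le_ofReal_iff h2).1 h1
  rcases eq_or_ne (∫⁻ y in s, ENNReal.ofReal (b y) ∂μ) ⊤ with h | h
  · exact h ▸ le_top
  have hi : IntegrableOn b s μ := (lintegral_ofReal_ne_top_iff_integrable hb.restrict (ae_restrict_of_ae b0)).1 h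
  rw [← ofReal_integral_eq_lintegral_ofReal hi (ae_restrict_of_ae b0),
    ← ofReal_integral_eq_lintegral_ofReal hW.int.integrableOn (ae_restrict_of_ae (D.Γ_nonneg hW.s))]
  have e : ∀ f : X → ℝ, ∫ y, s.indicator 1 y * f y ∂μ = ∫ y in s, f y ∂μ := fun f => by
    simp only [← integral_indicator hs, ← indicator_mul_left, Pi.one_apply, one_mul]
  rw [← e]
  refine ENNReal.ofReal_le_ofReal (lsc_weight (M := M) (B := 1) hx hu (aestronglyMeasurable_const.indicator hs)
    (Eventually.of_forall fun y => ⟨indicator_nonneg (fun _ _ => zero_le_one) y,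
      indicator_le_self' (fun _ _ => zero_le_one) y⟩) (hC.mono fun i h => ⟨h.1, h.2.1, ?_⟩))
  rw [e]
  exact integral_mono_ae h.1.int.integrableOn hi (ae_restrict_of_ae h.2.2)

theorem dfx_key {B : ℝ} {L : ℝ≥0} {v : X → ℝ} (hF : LipschitzWith L F) (hB : ∀ y, |F y| ≤ B) (hu : D.W u)
    (hv : D.W v) : D.W (fun y => Real.exp (F y) * v y) ∧ D.Γ u (fun y => Real.exp (F y) * v y) =ᵐ[μ]
      fun y => Real.exp (F y) * (D.Γ u v y + D.Γ F u y * v y) := by
  have hS := D.S_lip hF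
  obtain ⟨h1, h2⟩ := comp_bdd hS ⟨B, Eventually.of_forall hB⟩ Real.contDiff_exp
  simp only [Real.deriv_exp] at h2
  have h3 := (wgt_exp hF.continuous.measurable hB).bdd μ
  have h4 : Bdd μ (D.Γ (fun y => Real.exp (F y)) fun y => Real.exp (F y)) := by
    obtain ⟨a, ha⟩ := h3
    obtain ⟨c, hc⟩ := D.bdd_Γ_lip hF
    refine ⟨a * (a * c), ?_⟩
    filter_upwards [ha, hc, h2 _ h1, h2 _ hS, D.Γ_symm hS h1] with y e1 e2 e3 e4 e5
    have := (abs_nonneg _).trans e1
    rw [e3, e5, e4, abs_mul, abs_mul]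
    gcongr
  refine ⟨hv.bdd_mul h1 h3 h4, ?_⟩
  filter_upwards [Γ_mul_right h1 hv.s hu.s h3 (.inr h4), D.Γ_symm hu.s h1, h2 _ hu.s] with y e1 e2 e3
  rw [e1, e2, e3]
  ring

theorem Gen.to_exp {c C B : ℝ} {L : ℝ≥0} (hw : Wgt (fun y => Real.exp (F y)) c C) (hF : LipschitzWith L F)
    (hB : ∀ y, |F y| ≤ B) (h : D.Gen u g) : (D.weight hw).Gen u fun y => g y + D.Γ F u y := by
  have m := h.w.memLp_Γ (D.S_lip hF) (D.bdd_Γ_lip hF)
  refine ⟨(weight_W hw).2 h.w, hw.memLp_iff.2 (h.mem.add m), fun v hv => ?_⟩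
  rw [weight_W] at hv
  obtain ⟨h1, h2⟩ := dfx_key hF hB h.w hv
  have i := fun f : X → ℝ => (hw.bdd μ).mul_integrable (f := f) hw.meas.aestronglyMeasurable
  have i2 := i (fun y => D.Γ F u y * v y) (m.integrable_mul hv.mem)
  have e := h.eq _ h1
  rw [integral_congr_ae h2] at e
  simp only [mul_add, mul_left_comm (g _)] at e
  simp only [hw.integral_eq, weight_Γ, add_mul, mul_add]
  rw [integral_add (i _ (h.w.integrable_Γ hv)) i2] at e
  rw [integral_add (i (fun y => g y * v y) (h.mem.integrable_mul hv.mem)) i2]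
  linarith

theorem Gen.of_exp {c C B : ℝ} {L : ℝ≥0} (hw : Wgt (fun y => Real.exp (F y)) c C) (hF : LipschitzWith L F)
    (hB : ∀ y, |F y| ≤ B) (h : (D.weight hw).Gen u g) : D.Gen u fun y => g y - D.Γ F u y := by
  have hu := (weight_W hw).1 h.w
  have hg := hw.memLp_iff.1 h.mem
  have m := hu.memLp_Γ (D.S_lip hF) (D.bdd_Γ_lip hF)
  refine ⟨hu, hg.sub m, fun v hv => ?_⟩
  obtain ⟨h1, h2⟩ := dfx_key (F := fun y => -F y) hF.neg (fun y => (abs_neg _).trans_le (hB y)) hu hv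
  have e := h.eq _ ((weight_W hw).2 h1)
  have i1 : Integrable (fun y => g y * v y) μ := hg.integrable_mul hv.mem
  have i2 : Integrable (fun y => D.Γ F u y * v y) μ := m.integrable_mul hv.mem
  have c1 : ∀ y a, Real.exp (F y) * (Real.exp (-F y) * a) = a := fun y a => by
    rw [← mul_assoc, ← Real.exp_add, add_neg_cancel, Real.exp_zero, one_mul]
  simp only [hw.integral_eq, weight_Γ, mul_left_comm (g _), c1] at e
  rw [integral_congr_ae (g := fun y => D.Γ u v y - D.Γ F u y * v y) ?_,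
    integral_sub (hu.integrable_Γ hv) i2] at e
  · simp only [sub_mul]
    rw [integral_sub i1 i2]
    linarith
  · filter_upwards [h2, Γ_neg (D.S_lip hF) hu.s] with y e1 e2
    rw [e1, c1, e2]
    ring

end DF

end Crest.Agent.R242

end
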