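import Crest.Agent.R242.DfC2

/-!
# R242/DfX0: change of the reference measure by a bounded weight (helper62)
-/

set_option autoImplicit false
set_option linter.unusedSectionVars false

open MeasureTheory Filter Topology Set
open scoped RealInnerProductSpace ENNReal NNReal

noncomputable section

namespace Crest.Agent.R242

variable {X : Type*} [MetricSpace X] [MeasurableSpace X] [BorelSpace X] {μ : Measure X}

/-- weights bounded from above and below -/
structure Wgt (w : X → ℝ) (c C : ℝ) : Prop where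
  meas : Measurable w
  pos : 0 < c
  lo : ∀ x, c ≤ w x
  hi : ∀ x, w x ≤ C

namespace Wgt

variable {w : X → ℝ} {c C : ℝ} (hw : Wgt w c C) {f g : X → ℝ}

include hw

theorem le_smul (μ : Measure X) : den μ w ≤ ENNReal.ofReal C • μ := by
  rw [den, ← withDensity_const]
  exact withDensity_mono (Eventually.of_forall fun x => ENNReal.ofReal_le_ofReal (hw.hi x))

theorem smul_le (μ : Measure X) : ENNReal.ofReal c • μ ≤ den μ w := by
  rw [den, ← withDensity_const]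
  exact withDensity_mono (Eventually.of_forall fun x => ENNReal.ofReal_le_ofReal (hw.lo x))

theorem le_smul' (μ : Measure X) : μ ≤ (ENNReal.ofReal c)⁻¹ • den μ w := by
  have h0 : ENNReal.ofReal c ≠ 0 := (ENNReal.ofReal_pos.2 hw.pos).ne'
  intro s
  have h1 := hw.smul_le μ s
  simp only [Measure.smul_apply, smul_eq_mul] at h1 ⊢
  calc μ s = (ENNReal.ofReal c)⁻¹ * (ENNReal.ofReal c * μ s) := by
        rw [← mul_assoc, ENNReal.inv_mul_cancel h0 ENNReal.ofReal_ne_top, one_mul]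
    _ ≤ _ := by gcongr

theorem ac (μ : Measure X) : den μ w ≪ μ := withDensity_absolutelyContinuous _ _

theorem ac' (μ : Measure X) : μ ≪ den μ w := Measure.absolutelyContinuous_of_le_smul (hw.le_smul' μ)

theorem ae_eq (μ : Measure X) : ae (den μ w) = ae μ :=
  le_antisymm (Measure.ae_le_iff_absolutelyContinuous.2 (hw.ac μ)) (Measure.ae_le_iff_absolutelyContinuous.2 (hw.ac' μ))

theorem inv_ne : (ENNReal.ofReal c)⁻¹ ≠ ⊤ := ENNReal.inv_ne_top.2 (ENNReal.ofReal_pos.2 hw.pos).ne'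

theorem memLp_iff {p : ℝ≥0∞} : MemLp f p (den μ w) ↔ MemLp f p μ :=
  ⟨fun h => (h.smul_measure hw.inv_ne).mono_measure (hw.le_smul' μ),
    fun h => (h.smul_measure ENNReal.ofReal_ne_top).mono_measure (hw.le_smul μ)⟩

theorem integrable_iff : Integrable f (den μ w) ↔ Integrable f μ := by
  rw [← memLp_one_iff_integrable, ← memLp_one_iff_integrable, hw.memLp_iff]

theorem aesm_iff : AEStronglyMeasurable f (den μ w) ↔ AEStronglyMeasurable f μ :=
  ⟨fun h => h.mono_ac (hw.ac' μ), fun h => h.mono_ac (hw.ac μ)⟩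

theorem bdd_iff : Bdd (den μ w) f ↔ Bdd μ f := by
  simp only [Bdd, hw.ae_eq μ]

theorem integral_eq (μ : Measure X) (f : X → ℝ) : ∫ x, f x ∂(den μ w) = ∫ x, w x * f x ∂μ := by
  rw [den, integral_withDensity_eq_integral_toReal_smul hw.meas.ennreal_ofReal
    (Eventually.of_forall fun x => ENNReal.ofReal_lt_top)]
  refine integral_congr_ae (Eventually.of_forall fun x => ?_)
  simp only [smul_eq_mul]
  rw [ENNReal.toReal_ofReal (hw.pos.le.trans (hw.lo x))]

theorem bdd (μ : Measure X) : Bdd μ w :=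
  ⟨C, Eventually.of_forall fun x => by rw [abs_of_pos (hw.pos.trans_le (hw.lo x))]; exact hw.hi x⟩

theorem integral_le (hf : Integrable f μ) (h0 : ∀ᵐ x ∂μ, 0 ≤ f x) : ∫ x, f x ∂(den μ w) ≤ C * ∫ x, f x ∂μ := by
  rw [hw.integral_eq, ← integral_const_mul]
  refine integral_mono_ae ((hw.bdd μ).mul_integrable hw.meas.aestronglyMeasurable hf) (hf.const_mul C) ?_
  filter_upwards [h0] with x hx using mul_le_mul_of_nonneg_right (hw.hi x) hx

theorem le_integral (hf : Integrable f μ) (h0 : ∀ᵐ x ∂μ, 0 ≤ f x) : c * ∫ x, f x ∂μ ≤ ∫ x, f x ∂(den μ w) := by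
  rw [hw.integral_eq, ← integral_const_mul]
  refine integral_mono_ae (hf.const_mul c) ((hw.bdd μ).mul_integrable hw.meas.aestronglyMeasurable hf) ?_
  filter_upwards [h0] with x hx using mul_le_mul_of_nonneg_right (hw.lo x) hx

omit hw in
theorem tl2_of_le {ν : Measure X} {a : ℝ≥0∞} (ha : a ≠ ⊤) (h : ν ≤ a • μ) {ι : Type*} {l : Filter ι} {u : ι → X → ℝ}
    (H : TL2 μ l u g) : TL2 ν l u g := by
  have h1 : Tendsto (fun i => a ^ (1 / (2 : ℝ≥0∞)).toReal * eLpNorm (fun x => u i x - g x) 2 μ) l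
      (𝓝 (a ^ (1 / (2 : ℝ≥0∞)).toReal * 0)) :=
    ENNReal.Tendsto.const_mul H (Or.inr (ENNReal.rpow_ne_top_of_nonneg ENNReal.toReal_nonneg ha))
  rw [mul_zero] at h1
  refine tendsto_of_tendsto_of_tendsto_of_le_of_le tendsto_const_nhds h1 (fun _ => zero_le) fun i => ?_
  exact (eLpNorm_mono_measure _ h).trans (eLpNorm_smul_measure_of_ne_top (by norm_num) _ _).le

theorem tl2_iff {ι : Type*} {l : Filter ι} {u : ι → X → ℝ} : TL2 (den μ w) l u g ↔ TL2 μ l u g :=
  ⟨tl2_of_le hw.inv_ne (hw.le_smul' μ), tl2_of_le ENNReal.ofReal_ne_top (hw.le_smul μ)⟩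

theorem restrict (μ : Measure X) {s : Set X} (hs : MeasurableSet s) : (den μ w).restrict s = den (μ.restrict s) w :=
  restrict_withDensity hs _

end Wgt

theorem wgt_exp {F : X → ℝ} {B : ℝ} (hF : Measurable F) (hB : ∀ x, |F x| ≤ B) :
    Wgt (fun x => Real.exp (F x)) (Real.exp (-B)) (Real.exp B) :=
  ⟨hF.exp, Real.exp_pos _, fun x => Real.exp_le_exp.2 (abs_le.1 (hB x)).1, fun x => Real.exp_le_exp.2 (abs_le.1 (hB x)).2⟩

namespace DF

variable (D : DF μ) {w : X → ℝ} {c C : ℝ}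

/-- the same calculus for the measure `w μ` -/
def weight (hw : Wgt w c C) : DF (den μ w) where
  S := D.S
  Γ := D.Γ
  fin o R := lt_of_le_of_lt (hw.le_smul μ _) (ENNReal.mul_lt_top ENNReal.ofReal_lt_top (D.fin o R))
  S_loc hf o R := by
    rw [IntegrableOn, hw.restrict μ measurableSet_ball, hw.memLp_iff, hw.integrable_iff]
    exact D.S_loc hf o R
  S_meas hf := hw.aesm_iff.2 (D.S_meas hf)
  S_congr hf h := D.S_congr hf (by rwa [← hw.ae_eq μ])
  S_add := D.S_add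
  S_smul := D.S_smul
  S_lip := D.S_lip
  S_comp := D.S_comp
  S_mul hf hg h1 h2 := D.S_mul hf hg (hw.bdd_iff.1 h1) (h2.imp hw.bdd_iff.1 hw.bdd_iff.1)
  Γ_meas hf hg := hw.aesm_iff.2 (D.Γ_meas hf hg)
  Γ_congr hf hg h := by rw [hw.ae_eq μ] at h ⊢; exact D.Γ_congr hf hg h
  Γ_symm hf hg := by rw [hw.ae_eq μ]; exact D.Γ_symm hf hg
  Γ_add hf hg hk := by rw [hw.ae_eq μ]; exact D.Γ_add hf hg hk
  Γ_smul a hf hk := by rw [hw.ae_eq μ]; exact D.Γ_smul a hf hk
  Γ_nonneg hf := by rw [hw.ae_eq μ]; exact D.Γ_nonneg hf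
  Γ_lip hf := by rw [hw.ae_eq μ]; exact D.Γ_lip hf
  Γ_comp hf hk h1 h2 := by rw [hw.ae_eq μ]; exact D.Γ_comp hf hk h1 h2
  Γ_mul hf hg hk h1 h2 := by
    rw [hw.ae_eq μ]; exact D.Γ_mul hf hg hk (hw.bdd_iff.1 h1) (h2.imp hw.bdd_iff.1 hw.bdd_iff.1)
  Γ_zero hf := by rw [hw.ae_eq μ]; exact D.Γ_zero hf
  closed := by
    obtain ⟨a, ha⟩ := D.closed
    refine ⟨|C| * |a| / c, fun f g M hf hg ht hM => ?_⟩
    have h1 : ∀ n, ∫ x, D.Γ (f n) (f n) x ∂μ ≤ M / c := fun n => by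
      rw [le_div_iff₀' hw.pos]
      exact (hw.le_integral (hw.integrable_iff.1 (hf n).2.2) (D.Γ_nonneg (hf n).1)).trans (hM n)
    have h0 : 0 ≤ M / c := (integral_nonneg_of_ae (D.Γ_nonneg (hf 0).1)).trans (h1 0)
    obtain ⟨⟨h2, h3⟩, h4⟩ := ha f g (M / c)
      (fun n => ⟨(hf n).1, hw.memLp_iff.1 (hf n).2.1, hw.integrable_iff.1 (hf n).2.2⟩) (hw.memLp_iff.1 hg)
      (hw.tl2_iff.1 ht) h1
    refine ⟨⟨h2, hw.integrable_iff.2 h3⟩, (hw.integral_le h3 (D.Γ_nonneg h2)).trans ?_⟩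
    have h5 := integral_nonneg_of_ae (D.Γ_nonneg h2)
    calc C * ∫ x, D.Γ g g x ∂μ ≤ |C| * (|a| * (M / c)) :=
          mul_le_mul (le_abs_self C) (h4.trans (mul_le_mul_of_nonneg_right (le_abs_self a) h0)) h5 (abs_nonneg C)
      _ = _ := by ring

variable {D} {f g : X → ℝ}

theorem weight_S (hw : Wgt w c C) : (D.weight hw).S = D.S := rfl

theorem weight_Γ (hw : Wgt w c C) : (D.weight hw).Γ = D.Γ := rfl

theorem weight_W (hw : Wgt w c C) : (D.weight hw).W f ↔ D.W f :=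
  ⟨fun h => ⟨h.s, hw.memLp_iff.1 h.mem, hw.integrable_iff.1 h.int⟩,
    fun h => ⟨h.s, hw.memLp_iff.2 h.mem, hw.integrable_iff.2 h.int⟩⟩

theorem weight_E (hw : Wgt w c C) (f g : X → ℝ) : (D.weight hw).E f g = ∫ x, w x * D.Γ f g x ∂μ :=
  hw.integral_eq μ _

end DF

end Crest.Agent.R242

end
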