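import Crest.Agent.R242.EvDefs

/-! Row 242, I-d, TASK Ev1a: integrals along plans (keep the statements; aux names `ev1a_*`).
`plan_cont`: approximate `H` in `L¹(ball)` by a bounded continuous function
(`Integrable.exists_boundedContinuous_integral_sub_le`), `Plan.exists_bound` controls the error uniformly in `t`,
dominated convergence for the continuous function.
`plan_young`: `wug_ae_le` with `sl_wug`, `upperSpeed_geodesic`, `D * d ≤ l / 2 * D ^ 2 + d ^ 2 / (2 * l)`, Fubini.
`pot_gr_le`: `G x = sInf {dist x y | dist y o ≤ R₀, φ x + ψ y = dist x y ^ 2 / 2}` is attained (compactness) and lower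
semicontinuous (`{G ≤ c}` is the projection of a closed set along a compact factor), so measurable; `gr_le_slope` with
`Pot.up`, `Pot.lipOn`. -/

set_option autoImplicit false
set_option linter.unusedSectionVars false
open MeasureTheory Filter Set Topology
open scoped ENNReal NNReal
open Crest.GeometryTopology.SyntheticRicci

namespace Crest.Agent.R242

variable {X : Type*} [MetricSpace X] [ProperSpace X] [MeasurableSpace X] [BorelSpace X] {m : Measure X}
  [Fact (IsFiniteOnBalls m)] [m.IsOpenPosMeasure]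

variable {π : Measure (UCurve X)} {H u : X → ℝ}

theorem ev1a_fin (m : Measure X) [h : Fact (IsFiniteOnBalls m)] (o : X) (R : ℝ) :
    IsFiniteMeasure (m.restrict (Metric.ball o R)) :=
  ⟨by rw [Measure.restrict_apply_univ]; exact h.out o R⟩

theorem ev1a_aem (hH : ∀ (o : X) (R : ℝ), IntegrableOn H (Metric.ball o R) m) : AEMeasurable H m := by
  rcases isEmpty_or_nonempty X with hX | ⟨⟨o⟩⟩
  · exact (measurable_of_empty H).aemeasurable
  · rw [← Measure.restrict_univ (μ := m), ← Metric.iUnion_ball_nat o, aemeasurable_iUnion_iff]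
    exact fun n => (hH o n).aemeasurable

theorem ev1a_end : Measurable fun γ : UCurve X => (γ.toMap 0, γ.toMap 1) :=
  (measurable_at 0).prodMk (measurable_at 1)

theorem marg_int (π : Measure (UCurve X)) (t : unitInterval) (hH : AEStronglyMeasurable H (timeMarginal π t)) :
    ∫ x, H x ∂(timeMarginal π t) = ∫ γ, H (γ.ext t) ∂π := by
  unfold timeMarginal at hH ⊢
  rw [integral_map (measurable_at t).aemeasurable hH]
  simp only [ext_coe]

theorem marg_prob (π : Measure (UCurve X)) [IsProbabilityMeasure π] (t : unitInterval) :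
    IsProbabilityMeasure (timeMarginal π t) := by
  unfold timeMarginal
  exact Measure.isProbabilityMeasure_map (measurable_at t).aemeasurable

theorem marg_ae {p : X → Prop} (t : unitInterval) (hp : MeasurableSet {x | p x}) :
    (∀ᵐ x ∂(timeMarginal π t), p x) ↔ ∀ᵐ γ ∂π, p (γ.toMap t) := by
  unfold timeMarginal
  exact ae_map_iff (measurable_at t).aemeasurable hp

theorem end_coup (π : Measure (UCurve X)) :
    IsCouplingOf (endpointLaw π) (timeMarginal π 0) (timeMarginal π 1) := by
  unfold IsCouplingOf endpointLaw timeMarginal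
  rw [Measure.map_map measurable_fst ev1a_end, Measure.map_map measurable_snd ev1a_end]
  exact ⟨rfl, rfl⟩

theorem end_marg {μ₀ μ₁ : Measure X} (h : IsCouplingOf (endpointLaw π) μ₀ μ₁) :
    timeMarginal π 0 = μ₀ ∧ timeMarginal π 1 = μ₁ := by
  have h' := end_coup π
  exact ⟨h'.1.symm.trans h.1, h'.2.symm.trans h.2⟩

theorem end_ae {p : X × X → Prop} (hp : ∀ᵐ z ∂(endpointLaw π), p z) :
    ∀ᵐ γ ∂π, p (γ.toMap 0, γ.toMap 1) := by
  unfold endpointLaw at hp
  exact ae_of_ae_map ev1a_end.aemeasurable hp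

theorem end_cost (hP : Plan m π) :
    quadCost (endpointLaw π) ≠ ⊤ ∧ Integrable (fun γ : UCurve X => dist (γ.toMap 0) (γ.toMap 1) ^ 2) π ∧
      ∫ γ, dist (γ.toMap 0) (γ.toMap 1) ^ 2 ∂π = (quadCost (endpointLaw π)).toReal := by
  have := hP.1.1
  obtain ⟨o, R, hR⟩ := hP.2
  have hm : Measurable fun γ : UCurve X => dist (γ.toMap 0) (γ.toMap 1) ^ 2 :=
    ((measurable_at 0).dist (measurable_at 1)).pow_const 2
  have hi : Integrable (fun γ : UCurve X => dist (γ.toMap 0) (γ.toMap 1) ^ 2) π := by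
    refine Integrable.of_bound hm.aestronglyMeasurable ((R + R) ^ 2) (hR.mono fun γ hγ => ?_)
    have h0 : dist (γ.toMap 0) o ≤ R := hγ 0
    have h1 : dist (γ.toMap 1) o ≤ R := hγ 1
    have h2 : dist (γ.toMap 0) (γ.toMap 1) ≤ R + R :=
      (dist_triangle_right _ _ o).trans (add_le_add h0 h1)
    rw [Real.norm_of_nonneg (sq_nonneg _)]
    exact pow_le_pow_left₀ dist_nonneg h2 2
  have hq : quadCost (endpointLaw π) =
      ∫⁻ γ, ENNReal.ofReal (dist (γ.toMap 0) (γ.toMap 1) ^ 2) ∂π := by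
    unfold quadCost endpointLaw
    rw [lintegral_map ((measurable_fst.edist measurable_snd).pow_const 2) ev1a_end]
    refine lintegral_congr fun γ => ?_
    rw [edist_dist, ENNReal.ofReal_pow dist_nonneg]
  have h0 : 0 ≤ᵐ[π] fun γ : UCurve X => dist (γ.toMap 0) (γ.toMap 1) ^ 2 :=
    Eventually.of_forall fun γ => sq_nonneg _
  refine ⟨?_, hi, ?_⟩
  · rw [hq, ← ofReal_integral_eq_lintegral_ofReal hi h0]
    exact ENNReal.ofReal_ne_top
  · rw [hq, integral_eq_lintegral_of_nonneg_ae h0 hm.aestronglyMeasurable]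

theorem plan_int (hP : Plan m π) (hH : ∀ (o : X) (R : ℝ), IntegrableOn H (Metric.ball o R) m) (t : ℝ) :
    Integrable (fun γ : UCurve X => H (γ.ext t)) π := by
  obtain ⟨C, o, R, -, hb⟩ := hP.exists_bound
  have hm := ev1a_aem hH
  refine ⟨(w4_at hm hP t).aestronglyMeasurable, ?_⟩
  refine lt_of_le_of_lt ((hb (fun x => ‖H x‖ₑ) hm.enorm).1 t) ?_
  exact ENNReal.mul_lt_top ENNReal.coe_lt_top (hH o R).2

theorem plan_int_prod (hP : Plan m π) (hH : ∀ (o : X) (R : ℝ), IntegrableOn H (Metric.ball o R) m) :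
    Integrable (fun z : UCurve X × ℝ => H (ev z)) (π.prod I01) := by
  have := hP.1.1
  obtain ⟨C, o, R, -, hb⟩ := hP.exists_bound
  have hm := ev1a_aem hH
  have hm' : AEMeasurable (fun z : UCurve X × ℝ => H (ev z)) (π.prod I01) :=
    ⟨fun z => hm.mk H (ev z), hm.measurable_mk.comp measurable_ev, hP.ae_prod hm.ae_eq_mk⟩
  refine ⟨hm'.aestronglyMeasurable, ?_⟩
  unfold HasFiniteIntegral
  rw [lintegral_prod _ hm'.enorm]
  refine lt_of_le_of_lt (hb (fun x => ‖H x‖ₑ) hm.enorm).2 ?_
  exact ENNReal.mul_lt_top ENNReal.coe_lt_top (hH o R).2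

theorem plan_cont (hP : Plan m π) (hH : ∀ (o : X) (R : ℝ), IntegrableOn H (Metric.ball o R) m) :
    Continuous fun t : ℝ => ∫ γ, H (γ.ext t) ∂π := by
  have := hP.1.1
  obtain ⟨C, o, R, -, hb⟩ := hP.exists_bound
  have hm := ev1a_aem hH
  have hfin := ev1a_fin m o R
  refine continuous_of_uniform_approx_of_continuous fun U hU => ?_
  obtain ⟨ε, hε, hU⟩ := Metric.mem_uniformity_dist.1 hU
  have hδ : 0 < ε / (2 * (C + 1)) := by positivity
  obtain ⟨g, hg, -⟩ := (hH o R).exists_boundedContinuous_lintegral_sub_le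
    (ε := ENNReal.ofReal (ε / (2 * (C + 1)))) (ENNReal.ofReal_pos.2 hδ).ne'
  have hgm : ∀ t : ℝ, AEStronglyMeasurable (fun γ : UCurve X => g (γ.ext t)) π := fun t =>
    (g.continuous.measurable.comp (w4_meas_ext t)).aestronglyMeasurable
  have hgb : ∀ t : ℝ, ∀ᵐ γ ∂π, ‖g (γ.ext t)‖ ≤ ‖g‖ := fun t =>
    Eventually.of_forall fun γ => g.norm_coe_le_norm _
  refine ⟨fun t => ∫ γ, g (γ.ext t) ∂π, ?_, fun t => hU ?_⟩
  · refine continuous_of_dominated (bound := fun _ => ‖g‖) hgm hgb (integrable_const _) ?_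
    exact Eventually.of_forall fun γ => g.continuous.comp (continuous_ext γ)
  · have hi : Integrable (fun γ : UCurve X => g (γ.ext t)) π := Integrable.of_bound (hgm t) _ (hgb t)
    have h1 := (hb (fun x => ‖H x - g x‖ₑ) (hm.sub g.continuous.measurable.aemeasurable).enorm).1 t
    have h2 : ‖∫ γ, (H (γ.ext t) - g (γ.ext t)) ∂π‖ₑ ≤ C * ENNReal.ofReal (ε / (2 * (C + 1))) :=
      (enorm_integral_le_lintegral_enorm _).trans (h1.trans (mul_le_mul_right hg _))
    rw [integral_sub (plan_int hP hH t) hi, ← ofReal_norm, ← ENNReal.ofReal_coe_nnreal,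
      ← ENNReal.ofReal_mul C.coe_nonneg, ENNReal.ofReal_le_ofReal_iff (by positivity)] at h2
    rw [dist_eq_norm]
    refine lt_of_le_of_lt h2 ?_
    have hC : (0 : ℝ) ≤ C := C.coe_nonneg
    rw [← mul_div_assoc, div_lt_iff₀ (by positivity)]
    nlinarith

theorem l2b_integrableOn (h : IsL2OnBalls m u) (o : X) (R : ℝ) : IntegrableOn u (Metric.ball o R) m := by
  have := ev1a_fin m o R
  exact (h o R).integrable (by norm_num)

theorem l2b_integrableOn_mul {v : X → ℝ} (h : IsL2OnBalls m u) (h' : IsL2OnBalls m v) (o : X) (R : ℝ) :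
    IntegrableOn (fun x => u x * v x) (Metric.ball o R) m := by
  exact (h o R).integrable_mul (h' o R)

end Crest.Agent.R242
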