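import Crest.Agent.R242.Ev1a

/-! Row 242, I-d, TASK Ev1b: integrals along plans (keep the statements; aux names `ev1b_*`).
`plan_cont`: approximate `H` in `L¹(ball)` by a bounded continuous function
(`Integrable.exists_boundedContinuous_integral_sub_le`), `Plan.exists_bound` controls the error uniformly in `t`,
dominated convergence for the continuous function.
`plan_young`: `wug_ae_le` with `sl_wug`, `upperSpeed_geodesic`, `D * d ≤ l / 2 * D ^ 2 + d ^ 2 / (2 * l)`, Fubini.
`pot_gr_le`: `G x = sInf {dist x y | dist y o ≤ R₀, φ x + ψ y = dist x y ^ 2 / 2}` is attained (compactness) and lower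
semicontinuous (`{G ≤ c}` is the projection of a closed set along a compact factor), so measurable; `gr_le_slope` with
`Pot.up`, `Pot.lipOn`. -/

set_option autoImplicit false
set_option linter.unusedSectionVars false
open MeasureTheory Filter Set Topology
open scoped ENNReal NNReal
open Crest.GeometryTopology.SyntheticRicci

namespace Crest.Agent.R242

variable {X : Type*} [MetricSpace X] [ProperSpace X] [MeasurableSpace X] [BorelSpace X] {m : Measure X}
  [Fact (IsFiniteOnBalls m)] [m.IsOpenPosMeasure]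

variable {π : Measure (UCurve X)} {H u : X → ℝ}

theorem plan_young (hP : Plan m π) (hgeo : ∀ᵐ γ ∂π, IsCSGeodesic γ) (hu : IsSobolevLoc m u) {s l : ℝ}
    (h0 : 0 ≤ s) (h1 : s ≤ 1) (hl : 0 < l) :
    |∫ γ, u (γ.ext s) ∂π - ∫ γ, u (γ.ext 0) ∂π| ≤
      l / 2 * (∫ r in (0 : ℝ)..s, ∫ γ, minWeakGrad m u (γ.ext r) ^ 2 ∂π) +
        s / (2 * l) * (quadCost (endpointLaw π)).toReal := by
  have : IsProbabilityMeasure π := hP.1.1
  have hW := sl_wug hu
  set D := minWeakGrad m u with hD
  have hD2 : ∀ (o : X) (R : ℝ), IntegrableOn (fun x => D x ^ 2) (Metric.ball o R) m := fun o R => by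
    simpa only [sq] using l2b_integrableOn_mul hW.1 hW.1 o R
  have hsub : Icc (0 : ℝ) s ⊆ Icc 0 1 := Icc_subset_Icc le_rfl h1
  have hprod : Integrable (fun z : UCurve X × ℝ => D (z.1.ext z.2) ^ 2) (π.prod (volume.restrict (Icc 0 s))) :=
    (plan_int_prod hP hD2).mono_measure (Measure.prod_mono le_rfl (Measure.restrict_mono hsub le_rfl))
  obtain ⟨-, hc1, hc2⟩ := end_cost hP
  have hpt : ∀ᵐ γ ∂π, |u (γ.ext s) - u (γ.ext 0)| ≤
      l / 2 * (∫ r in Icc 0 s, D (γ.ext r) ^ 2) + s / (2 * l) * dist (γ.toMap 0) (γ.toMap 1) ^ 2 := by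
    filter_upwards [wug_ae_le (sl_aemeasurable hu) hW hP le_rfl h0 h1, hgeo, hprod.prod_right_ae] with γ h2 h3 h4
    set d := dist (γ.toMap 0) (γ.toMap 1) with hd
    have hd0 : 0 ≤ d := dist_nonneg
    have h5 : Integrable (fun r => l / 2 * D (γ.ext r) ^ 2 + d ^ 2 / (2 * l)) (volume.restrict (Icc 0 s)) :=
      (h4.const_mul _).add (integrable_const _)
    have h6 : ∫ r in Icc 0 s, (l / 2 * D (γ.ext r) ^ 2 + d ^ 2 / (2 * l)) =
        l / 2 * (∫ r in Icc 0 s, D (γ.ext r) ^ 2) + s / (2 * l) * d ^ 2 := by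
      rw [integral_add (h4.const_mul _) (integrable_const _), integral_const_mul, setIntegral_const,
        Real.volume_real_Icc_of_le h0, smul_eq_mul]
      ring
    have hnn : ∀ r, 0 ≤ l / 2 * D (γ.ext r) ^ 2 + d ^ 2 / (2 * l) := fun r => by positivity
    rw [← h6, ← ENNReal.ofReal_le_ofReal_iff (integral_nonneg hnn),
      ofReal_integral_eq_lintegral_ofReal h5 (Eventually.of_forall hnn)]
    refine h2.trans (setLIntegral_mono' measurableSet_Icc fun r hr => ?_)
    rw [upperSpeed_geodesic h3 (hsub hr), edist_dist, ← hd, ← ENNReal.ofReal_mul' hd0]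
    refine ENNReal.ofReal_le_ofReal ?_
    have h7 : l / 2 * D (γ.ext r) ^ 2 + d ^ 2 / (2 * l) - D (γ.ext r) * d = (l * D (γ.ext r) - d) ^ 2 / (2 * l) := by
      field_simp
      ring
    have h8 : 0 ≤ (l * D (γ.ext r) - d) ^ 2 / (2 * l) := by positivity
    linarith
  have hi : ∀ t, Integrable (fun γ : UCurve X => u (γ.ext t)) π := plan_int hP (l2b_integrableOn hu.1)
  have hA : Integrable (fun γ : UCurve X => ∫ r in Icc 0 s, D (γ.ext r) ^ 2) π := hprod.integral_prod_left
  have hswap : ∫ γ, (∫ r in Icc 0 s, D (γ.ext r) ^ 2) ∂π = ∫ r in (0 : ℝ)..s, ∫ γ, D (γ.ext r) ^ 2 ∂π := by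
    rw [intervalIntegral.integral_of_le h0, ← integral_Icc_eq_integral_Ioc]
    exact integral_integral_swap (f := fun (γ : UCurve X) (r : ℝ) => D (γ.ext r) ^ 2) hprod
  rw [← integral_sub (hi s) (hi 0), ← hswap, ← hc2, ← integral_const_mul, ← integral_const_mul,
    ← integral_add (hA.const_mul _) (hc1.const_mul _)]
  exact abs_integral_le_integral_abs.trans
    (integral_mono_ae ((hi s).sub (hi 0)).abs ((hA.const_mul _).add (hc1.const_mul _)) hpt)

end Crest.Agent.R242
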