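import Crest.Agent.R242.EvDefs

/-! Row 242, I-d, TASK Ev1c: integrals along plans (keep the statements; aux names `ev1c_*`).
`plan_cont`: approximate `H` in `L¹(ball)` by a bounded continuous function
(`Integrable.exists_boundedContinuous_integral_sub_le`), `Plan.exists_bound` controls the error uniformly in `t`,
dominated convergence for the continuous function.
`plan_young`: `wug_ae_le` with `sl_wug`, `upperSpeed_geodesic`, `D * d ≤ l / 2 * D ^ 2 + d ^ 2 / (2 * l)`, Fubini.
`pot_gr_le`: `G x = sInf {dist x y | dist y o ≤ R₀, φ x + ψ y = dist x y ^ 2 / 2}` is attained (compactness) and lower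
semicontinuous (`{G ≤ c}` is the projection of a closed set along a compact factor), so measurable; `gr_le_slope` with
`Pot.up`, `Pot.lipOn`. -/

set_option autoImplicit false
set_option linter.unusedSectionVars false
open MeasureTheory Filter Set Topology
open scoped ENNReal NNReal
open Crest.GeometryTopology.SyntheticRicci

namespace Crest.Agent.R242

variable {X : Type*} [MetricSpace X] [ProperSpace X] [MeasurableSpace X] [BorelSpace X] {m : Measure X}
  [Fact (IsFiniteOnBalls m)] [m.IsOpenPosMeasure]

theorem Pot.lipB {o : X} {R₀ : ℝ} {φ ψ : X → ℝ} (h : Pot o R₀ φ ψ) : LipB φ := by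
  intro o' R
  refine ⟨_, (h.lipOn (R + dist o' o)).mono fun x hx => ?_⟩
  rw [Metric.mem_closedBall]
  have h1 := dist_triangle x o' o
  have h2 := Metric.mem_ball.1 hx
  linarith

theorem pot_gr_le {o : X} {R₀ : ℝ} {φ ψ : X → ℝ} (h : Pot o R₀ φ ψ) :
    ∀ᵐ x ∂m, ∀ y, dist y o ≤ R₀ → φ x + ψ y = dist x y ^ 2 / 2 → minWeakGrad m φ x ≤ dist x y := by
  set S : X → Set X := fun x => {y | dist y o ≤ R₀ ∧ φ x + ψ y = dist x y ^ 2 / 2} with hS
  have hψ := h.cψ
  have hφ := h.cφ
  have hex : ∀ x, ∃ y ∈ S x, Metric.infDist x (S x) = dist x y := fun x => by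
    refine IsCompact.exists_infDist_eq_dist ?_ (h.ex x) x
    exact (isCompact_closedBall o R₀).inter_right (isClosed_eq (by fun_prop) (by fun_prop) :
      IsClosed {y | φ x + ψ y = dist x y ^ 2 / 2})
  have hm : Measurable fun x => Metric.infDist x (S x) := by
    refine measurable_of_Iic fun c => ?_
    have hK : CompactSpace (Metric.closedBall o R₀) := isCompact_iff_compactSpace.1 (isCompact_closedBall o R₀)
    have e : (fun x => Metric.infDist x (S x)) ⁻¹' Iic c = Prod.fst '' {p : X × Metric.closedBall o R₀ |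
        φ p.1 + ψ p.2 = dist p.1 p.2 ^ 2 / 2 ∧ dist p.1 p.2 ≤ c} := by
      ext x
      constructor
      · intro hx
        obtain ⟨y, hy, hy'⟩ := hex x
        exact ⟨(x, ⟨y, hy.1⟩), ⟨hy.2, hy' ▸ hx⟩, rfl⟩
      · rintro ⟨p, hp, rfl⟩
        exact (Metric.infDist_le_dist_of_mem (show (p.2 : X) ∈ S p.1 from ⟨p.2.2, hp.1⟩)).trans hp.2
    rw [e]
    refine (isClosedMap_fst_of_compactSpace _ ?_).measurableSet
    refine IsClosed.inter (isClosed_eq (by fun_prop) (by fun_prop)) ?_
    exact isClosed_le (f := fun p : X × Metric.closedBall o R₀ => dist p.1 (p.2 : X)) (by fun_prop) continuous_const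
  have key := gr_le_slope (m := m) h.lipB hm.aemeasurable (Eventually.of_forall fun x => ⟨Metric.infDist_nonneg, ?_⟩)
  · filter_upwards [key] with x hx y hy hc
    exact hx.trans (Metric.infDist_le_dist_of_mem (show y ∈ S x from ⟨hy, hc⟩))
  · intro ε hε
    obtain ⟨y, hy, hy'⟩ := hex x
    filter_upwards [Metric.ball_mem_nhds x hε] with z hz
    have h1 := h.up hy.1 hy.2 z
    have h2 := Metric.mem_ball.1 hz
    have h3 : 0 ≤ dist z x := dist_nonneg
    rw [hy']
    nlinarith

end Crest.Agent.R242
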