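import Crest.Agent.R242.Ev3a

/-! Row 242, I-d, TASK Ev3: entropy (aux names `ev3_*`).
`gibbs`: with `ρ = (μ.rnDeriv m).toReal ≤ C`, `ρ = 0` a.e. off `A`: `ρ g - ρ log ρ ≤ exp g - ρ` pointwise (`t ≤ exp t - 1`).
`ent_le_of_le`: `ρ' ≤ (1+η) ρ`, `ρ' log ρ' ≤ ρ' log (1+η) + ρ' log ρ`; with `σ = (1+η) ρ - ρ' ≥ 0`, `∫ σ = η`, `σ ≤ 2 ρ`:
`∫ ρ' log ρ = (1+η) ∫ ρ log ρ + ∫ σ (-log ρ)`, `∫ σ (-log ρ) ≤ T η + 2 ∫_{-log ρ > T} ρ |log ρ|` and the last
term tends to `0` as `T → ∞` (dominated convergence). -/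

set_option autoImplicit false
set_option linter.unusedSectionVars false
open MeasureTheory Filter Set Topology
open scoped ENNReal NNReal
open Crest.GeometryTopology.SyntheticRicci

namespace Crest.Agent.R242

variable {X : Type*} [MetricSpace X] [ProperSpace X] [MeasurableSpace X] [BorelSpace X] {m : Measure X}
  [Fact (IsFiniteOnBalls m)] [m.IsOpenPosMeasure]

variable {f g : X → ℝ} {μ ν : Measure X}

theorem ev3_zero (hf : Measurable f) (h0 : ∀ x, 0 ≤ f x) {A : Set X} (h : ∀ᵐ x ∂den m f, x ∈ A) :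
    ∀ᵐ x ∂m, x ∉ A → f x = 0 := by
  filter_upwards [(ae_withDensity_iff hf.ennreal_ofReal).1 h] with x hx hA
  exact le_antisymm (ENNReal.ofReal_eq_zero.1 (by_contra fun h' => hA (hx h'))) (h0 x)

theorem ev3_int (hf : Measurable f) {C : ℝ} (h0 : ∀ x, 0 ≤ f x ∧ f x ≤ C) {A : Set X} (hA : MeasurableSet A)
    (hmA : m A ≠ ⊤) (h : ∀ᵐ x ∂m, x ∉ A → f x = 0) : Integrable (fun x => f x * Real.log (f x)) m := by
  obtain ⟨B, hB⟩ := (isCompact_Icc (a := (0 : ℝ)) (b := C)).exists_bound_of_continuousOn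
    Real.continuous_mul_log.continuousOn
  refine Integrable.mono' ((integrable_indicator_iff hA).2 (integrableOn_const (C := B) hmA))
    (hf.mul hf.log).aestronglyMeasurable ?_
  filter_upwards [h] with x hx
  by_cases hxA : x ∈ A
  · rw [indicator_of_mem hxA]
    exact hB _ (h0 x)
  · simp [hxA, hx hxA]

theorem ev3_mass (hf : Measurable f) (h0 : ∀ x, 0 ≤ f x) [IsProbabilityMeasure (den m f)] :
    Integrable f m ∧ ∫ x, f x ∂m = 1 := by
  have h1 := (den_integrable (m := m) hf.aemeasurable (Eventually.of_forall h0) (H := fun _ => 1)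
    aestronglyMeasurable_const).1 (integrable_const 1)
  have h2 := den_int (m := m) hf.aemeasurable (Eventually.of_forall h0) fun _ => 1
  simp only [one_mul] at h1 h2
  exact ⟨h1, by simpa using h2.symm⟩

theorem ev3_unif (C : ℝ) {δ : ℝ} (hδ : 0 < δ) : ∃ K : ℝ, 0 < K ∧ ∀ a ∈ Icc 0 C, ∀ b ∈ Icc 0 C,
    a * Real.log a ≤ b * Real.log b + δ + K * |a - b| := by
  obtain ⟨B, hB⟩ := (isCompact_Icc (a := (0 : ℝ)) (b := C)).exists_bound_of_continuousOn
    Real.continuous_mul_log.continuousOn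
  obtain ⟨τ, hτ, h⟩ := Metric.uniformContinuousOn_iff.1 ((isCompact_Icc (a := (0 : ℝ))
    (b := C)).uniformContinuousOn_of_continuous Real.continuous_mul_log.continuousOn) δ hδ
  refine ⟨(2 * |B| + 1) / τ, by positivity, fun a ha b hb => ?_⟩
  rcases lt_or_ge (dist a b) τ with h1 | h1
  · have h2 := (abs_lt.1 (h a ha b hb h1)).2
    have h3 : 0 ≤ (2 * |B| + 1) / τ * |a - b| := by positivity
    linarith
  · have h2 := (abs_le.1 (hB a ha)).2
    have h3 := (abs_le.1 (hB b hb)).1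
    have h4 : (2 * |B| + 1) / τ * τ ≤ (2 * |B| + 1) / τ * |a - b| := mul_le_mul_of_nonneg_left h1 (by positivity)
    rw [div_mul_cancel₀ _ hτ.ne'] at h4
    linarith [le_abs_self B]

theorem gibbs [IsProbabilityMeasure μ] {C : ℝ≥0} (hC : μ ≤ (C : ℝ≥0∞) • m) {A : Set X} (hA : MeasurableSet A)
    (hmA : m A ≠ ⊤) (hμA : ∀ᵐ x ∂μ, x ∈ A) (hg : Integrable g μ) (he : IntegrableOn (fun x => Real.exp (g x)) A m)
    (h1 : ∫ x in A, Real.exp (g x) ∂m ≤ 1) : ∫ x, g x ∂μ ≤ Ent m μ := by
  obtain ⟨f, hf, h0, rfl⟩ := exists_den hC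
  have hz := ev3_zero hf (fun x => (h0 x).1) hμA
  have hp : ∀ᵐ x ∂m, 0 ≤ f x := Eventually.of_forall fun x => (h0 x).1
  obtain ⟨h2, h3⟩ := ev3_mass (m := m) hf fun x => (h0 x).1
  have h4 := ev3_int hf h0 hA hmA hz
  have h5 := (integrable_indicator_iff hA).2 he
  have h6 : Integrable (fun x => g x * f x) m := by
    have := (integrable_withDensity_iff hf.ennreal_ofReal (by simp)).1 hg
    simpa only [ENNReal.toReal_ofReal (h0 _).1] using this
  rw [den_int hf.aemeasurable hp, ent_den hf.aemeasurable hp]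
  refine (integral_mono_ae h6 ((h4.add h5).sub h2) ?_).trans ?_
  · filter_upwards [hz] with x hx
    simp only [Pi.sub_apply, Pi.add_apply]
    rcases (h0 x).1.eq_or_lt with h | h
    · rw [← h]
      simpa using indicator_nonneg (fun y _ => (Real.exp_pos (g y)).le) x
    · rw [indicator_of_mem (by_contra fun h' => h.ne' (hx h'))]
      have h7 := mul_le_mul_of_nonneg_left (Real.add_one_le_exp (g x - Real.log (f x))) h.le
      rw [Real.exp_sub, Real.exp_log h, mul_div_cancel₀ _ h.ne'] at h7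
      linarith
  · rw [integral_sub' (h4.add h5) h2, integral_add' h4 h5, integral_indicator hA]
    linarith

theorem ent_le_of_le {o : X} {R : ℝ} {C : ℝ≥0} (h : BddProb m o R C ν) {ε : ℝ} (hε : 0 < ε) :
    ∃ η : ℝ, 0 < η ∧ ∀ ν' : Measure X, IsProbabilityMeasure ν' → ν' ≤ ENNReal.ofReal (1 + η) • ν →
      Ent m ν' ≤ Ent m ν + ε := by
  obtain ⟨hprob, hC, hsupp⟩ := h
  obtain ⟨f, hf, h0, rfl⟩ := exists_den hC
  have hA : MeasurableSet (Metric.closedBall o R) := measurableSet_closedBall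
  have hmA : m (Metric.closedBall o R) ≠ ⊤ := (isCompact_closedBall o R).measure_lt_top.ne
  have hz := ev3_zero hf (fun x => (h0 x).1) (A := Metric.closedBall o R) hsupp
  have hV : 0 ≤ m.real (Metric.closedBall o R) := measureReal_nonneg
  obtain ⟨K, hK, hφ⟩ := ev3_unif (2 * C) (δ := ε / 2 / (m.real (Metric.closedBall o R) + 1)) (by positivity)
  refine ⟨min 1 (ε / 4 / K), by positivity, fun ν' hν' hle => ?_⟩
  have hη0 : 0 < min 1 (ε / 4 / K) := by positivity
  have hη1 := min_le_left 1 (ε / 4 / K)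
  have hη2 := (le_div_iff₀ hK).1 (min_le_right 1 (ε / 4 / K))
  generalize min 1 (ε / 4 / K) = η at *
  have hC' : ν' ≤ ((2 * C : ℝ≥0) : ℝ≥0∞) • m := by
    refine hle.trans (Measure.le_iff'.2 fun s => ?_)
    rw [Measure.smul_apply, Measure.smul_apply, smul_eq_mul, smul_eq_mul, ENNReal.coe_mul, mul_assoc]
    refine mul_le_mul' ?_ (hC s)
    rw [ENNReal.ofReal_le_coe]
    push_cast
    linarith
  obtain ⟨f', hf', h0', rfl⟩ := exists_den hC'
  have hcmp : ∀ᵐ x ∂m, f' x ≤ (1 + η) * f x := by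
    have h1 := ae_le_of_forall_setLIntegral_le_of_sigmaFinite (μ := m) hf'.ennreal_ofReal
      (g := fun x => ENNReal.ofReal (1 + η) * ENNReal.ofReal (f x)) fun s hs _ => by
        rw [lintegral_const_mul _ hf.ennreal_ofReal, ← withDensity_apply _ hs, ← withDensity_apply _ hs]
        exact hle s
    filter_upwards [h1] with x hx
    rw [← ENNReal.ofReal_mul (by positivity)] at hx
    exact (ENNReal.ofReal_le_ofReal_iff (mul_nonneg (by positivity) (h0 x).1)).1 hx
  have hz' : ∀ᵐ x ∂m, x ∉ Metric.closedBall o R → f' x = 0 := by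
    filter_upwards [hz, hcmp] with x h1 h2 hx
    rw [h1 hx, mul_zero] at h2
    exact le_antisymm h2 (h0' x).1
  obtain ⟨h2, h3⟩ := ev3_mass (m := m) hf fun x => (h0 x).1
  obtain ⟨h2', h3'⟩ := ev3_mass (m := m) hf' fun x => (h0' x).1
  have h4 := ev3_int hf h0 hA hmA hz
  have h5 := (integrable_indicator_iff hA).2
    (integrableOn_const (C := ε / 2 / (m.real (Metric.closedBall o R) + 1)) hmA)
  have h6 : Integrable (fun x => K * ((1 + 2 * η) * f x - f' x)) m :=
    ((h2.const_mul (1 + 2 * η)).sub h2').const_mul K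
  rw [ent_den hf.aemeasurable (Eventually.of_forall fun x => (h0 x).1),
    ent_den hf'.aemeasurable (Eventually.of_forall fun x => (h0' x).1)]
  refine (integral_mono_ae (ev3_int hf' h0' hA hmA hz') ((h4.add h5).add h6) ?_).trans ?_
  · filter_upwards [hz, hz', hcmp] with x k1 k2 k3
    simp only [Pi.add_apply]
    by_cases hx : x ∈ Metric.closedBall o R
    · rw [indicator_of_mem hx]
      have k4 := (h0 x).1
      have k5 := mul_nonneg hη0.le k4
      refine (hφ _ (by simpa using h0' x) _ ⟨k4, by linarith [(h0 x).2, C.2]⟩).trans ?_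
      refine add_le_add le_rfl (mul_le_mul_of_nonneg_left (abs_le.2 ⟨?_, ?_⟩) hK.le) <;> linarith
    · simp [hx, k1 hx, k2 hx]
  · rw [integral_add' (h4.add h5) h6, integral_add' h4 h5, integral_indicator hA, integral_const_mul,
      integral_sub (h2.const_mul _) h2', integral_const_mul, h3, h3', setIntegral_const, smul_eq_mul]
    have k1 : m.real (Metric.closedBall o R) * (ε / 2 / (m.real (Metric.closedBall o R) + 1)) ≤ ε / 2 := by
      rw [mul_div_assoc', div_le_iff₀ (by positivity)]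
      nlinarith
    linarith

end Crest.Agent.R242
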