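import Crest.Agent.R242.EvDefs

/-! Row 242, I-d, TASK Ev3a: measures with densities (keep the statements; aux names `ev3a_*`). -/

set_option autoImplicit false
set_option linter.unusedSectionVars false
open MeasureTheory Filter Set Topology
open scoped ENNReal NNReal
open Crest.GeometryTopology.SyntheticRicci

namespace Crest.Agent.R242

variable {X : Type*} [MetricSpace X] [ProperSpace X] [MeasurableSpace X] [BorelSpace X] {m : Measure X}
  [Fact (IsFiniteOnBalls m)] [m.IsOpenPosMeasure]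

variable {f g : X → ℝ} {μ ν : Measure X}

theorem den_rnDeriv (hf : AEMeasurable f m) (h0 : ∀ᵐ x ∂m, 0 ≤ f x) :
    ∀ᵐ x ∂m, ((den m f).rnDeriv m x).toReal = f x := by
  filter_upwards [Measure.rnDeriv_withDensity₀ m hf.ennreal_ofReal, h0] with x h1 h2
  rw [den, h1, ENNReal.toReal_ofReal h2]

theorem ent_den (hf : AEMeasurable f m) (h0 : ∀ᵐ x ∂m, 0 ≤ f x) :
    Ent m (den m f) = ∫ x, f x * Real.log (f x) ∂m := by
  refine integral_congr_ae ?_
  filter_upwards [den_rnDeriv hf h0] with x h1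
  rw [h1]

theorem den_congr (h : f =ᵐ[m] g) : den m f = den m g := by
  refine withDensity_congr_ae ?_
  filter_upwards [h] with x h1
  rw [h1]

theorem den_int (hf : AEMeasurable f m) (h0 : ∀ᵐ x ∂m, 0 ≤ f x) (H : X → ℝ) :
    ∫ x, H x ∂(den m f) = ∫ x, H x * f x ∂m := by
  rw [den, integral_withDensity_eq_integral_toReal_smul₀ hf.ennreal_ofReal
    (Eventually.of_forall fun x => ENNReal.ofReal_lt_top)]
  refine integral_congr_ae ?_
  filter_upwards [h0] with x h1
  rw [ENNReal.toReal_ofReal h1, smul_eq_mul, mul_comm]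

theorem den_integrable (hf : AEMeasurable f m) (h0 : ∀ᵐ x ∂m, 0 ≤ f x) {H : X → ℝ}
    (hH : AEStronglyMeasurable H m) : Integrable H (den m f) ↔ Integrable (fun x => H x * f x) m := by
  have _ := hH
  rw [den, integrable_withDensity_iff_integrable_smul₀' hf.ennreal_ofReal
    (Eventually.of_forall fun x => ENNReal.ofReal_lt_top)]
  refine integrable_congr ?_
  filter_upwards [h0] with x h1
  rw [ENNReal.toReal_ofReal h1, smul_eq_mul, mul_comm]

theorem den_prob (h0 : ∀ᵐ x ∂m, 0 ≤ f x) (h1 : ∫ x, f x ∂m = 1) : IsProbabilityMeasure (den m f) := by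
  have hi : Integrable f m := Integrable.of_integral_ne_zero (by rw [h1]; exact one_ne_zero)
  refine ⟨?_⟩
  rw [den, withDensity_apply _ MeasurableSet.univ, Measure.restrict_univ,
    ← ofReal_integral_eq_lintegral_ofReal hi h0, h1, ENNReal.ofReal_one]

theorem den_le {C : ℝ≥0} (h : ∀ᵐ x ∂m, f x ≤ C) : den m f ≤ (C : ℝ≥0∞) • m := by
  rw [← withDensity_const]
  refine withDensity_mono ?_
  filter_upwards [h] with x h1
  exact ENNReal.ofReal_le_of_le_toReal (by simpa using h1)

theorem den_ac (m : Measure X) (f : X → ℝ) : den m f ≪ m := by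
  exact withDensity_absolutelyContinuous _ _

/-- a measure below `C • m` has a measurable density with values in `[0, C]` -/
theorem exists_den {C : ℝ≥0} (h : μ ≤ (C : ℝ≥0∞) • m) :
    ∃ f : X → ℝ, Measurable f ∧ (∀ x, 0 ≤ f x ∧ f x ≤ C) ∧ den m f = μ := by
  have hs : SigmaFinite ((C : ℝ≥0∞) • m) := (inferInstance : SigmaFinite (C • m))
  have hμ : SigmaFinite μ := Measure.sigmaFinite_of_le _ h
  have hac : μ ≪ m := (Measure.absolutelyContinuous_of_le h).trans Measure.smul_absolutelyContinuous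
  have h1 : μ.rnDeriv m ≤ᵐ[m] fun _ => (C : ℝ≥0∞) := by
    refine ae_le_of_forall_setLIntegral_le_of_sigmaFinite (Measure.measurable_rnDeriv μ m)
      fun s hs _ => ?_
    rw [Measure.setLIntegral_rnDeriv hac, setLIntegral_const]
    exact Measure.le_iff'.1 h s
  refine ⟨fun x => min (μ.rnDeriv m x).toReal C, ?_, fun x => ⟨le_min ENNReal.toReal_nonneg C.2,
    min_le_right _ _⟩, ?_⟩
  · exact (Measure.measurable_rnDeriv μ m).ennreal_toReal.min measurable_const
  · rw [den, ← Measure.withDensity_rnDeriv_eq μ m hac]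
    conv_lhs => rw [Measure.withDensity_rnDeriv_eq μ m hac]
    refine withDensity_congr_ae ?_
    filter_upwards [h1] with x hx
    have h2 : (μ.rnDeriv m x).toReal ≤ C := by
      simpa using ENNReal.toReal_mono ENNReal.coe_ne_top hx
    rw [min_eq_left h2, ENNReal.ofReal_toReal (ne_top_of_le_ne_top ENNReal.coe_ne_top hx)]

theorem bdd_ae {o : X} {R : ℝ} {C : ℝ≥0} (h : BddProb m o R C μ) : ∀ᵐ x ∂μ, dist x o ≤ R := by
  rw [ae_iff]
  exact h.supp

theorem bddProb_of {o : X} {R : ℝ} {C : ℝ≥0} [IsProbabilityMeasure μ] (h : μ ≤ (C : ℝ≥0∞) • m)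
    (h' : ∀ᵐ x ∂μ, dist x o ≤ R) : BddProb m o R C μ := by
  exact ⟨inferInstance, h, ae_iff.1 h'⟩

/-- normalised restriction of `m` -/
theorem bddProb_cond {o : X} {R : ℝ} {A : Set X} (hA : MeasurableSet A) (h0 : m A ≠ 0)
    (hR : A ⊆ Metric.closedBall o R) :
    ∃ C : ℝ≥0, BddProb m o R C ((m A)⁻¹ • m.restrict A) := by
  have hfin : m A ≠ ⊤ :=
    ((measure_mono (hR.trans (Metric.closedBall_subset_ball (lt_add_one R)))).trans_lt
      ((Fact.out : IsFiniteOnBalls m) o (R + 1))).ne
  refine ⟨((m A)⁻¹).toNNReal, ⟨?_⟩, ?_, ?_⟩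
  · rw [Measure.smul_apply, Measure.restrict_apply_univ, smul_eq_mul, ENNReal.inv_mul_cancel h0 hfin]
  · rw [ENNReal.coe_toNNReal (ENNReal.inv_ne_top.2 h0)]
    refine Measure.le_iff'.2 fun s => ?_
    rw [Measure.smul_apply, Measure.smul_apply, smul_eq_mul, smul_eq_mul]
    exact mul_le_mul_right (Measure.restrict_le_self s) _
  · rw [Measure.smul_apply, Measure.restrict_apply' hA,
      show (Metric.closedBall o R)ᶜ ∩ A = ∅ from
        eq_empty_of_forall_notMem fun x hx => hx.1 (hR hx.2), measure_empty, smul_zero]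

end Crest.Agent.R242
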