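import Crest.Agent.R242.Ev3a

/-! Row 242, I-d, TASK Ev4a: admissible densities (aux names `ev4a_*`).
Cauchy-Schwarz: `∫ w f ≤ ‖exp (γ d) f‖₂ ‖w exp (-γ d)‖₂`, and `(1 + d²)² exp (-2 γ d) ≤ c exp (-γ d)`, integrable by `hg`.
Entropy: `|s log s| ≤ c (√s + s²)`-type bounds do not suffice; use `s log s ≤ s log C` (or `≤ C s`) and
`-s log s ≤ s (γ d) + exp (-γ d)` (from `t ≤ exp t - 1`), so `|f log f| ≤ C f + γ d f + exp (-γ d)`.
`Adm.W2_tendsto`: `W2sq_le_dens`, split at radius `R` (`Adm.tail`, Cauchy-Schwarz on the ball).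
`adm_J`, `adm_P`: `Heat.J_markov` (against `0`, using `J_lin` for `J h 0 = 0`), `J_mass`, `J_gaffney` with
`ψ = γ * dist · o`, `β = γ.toNNReal`. -/

set_option autoImplicit false
set_option linter.unusedSectionVars false
open MeasureTheory Filter Set Topology
open scoped ENNReal NNReal
open Crest.GeometryTopology.SyntheticRicci

namespace Crest.Agent.R242

variable {X : Type*} [MetricSpace X] [ProperSpace X] [MeasurableSpace X] [BorelSpace X] {m : Measure X}
  [Fact (IsFiniteOnBalls m)] [m.IsOpenPosMeasure]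

variable {o : X} {γ M : ℝ} {C : ℝ≥0} {f g : X → ℝ} {μ : Measure X}

theorem Adm.congr (h : Adm m o γ C M f) (hfg : f =ᵐ[m] g) : Adm m o γ C M g := by
  have e : (fun x => Real.exp (γ * dist x o) * f x) =ᵐ[m] fun x => Real.exp (γ * dist x o) * g x :=
    hfg.mono fun x hx => by simp only [hx]
  refine ⟨h.meas.congr hfg, ?_, ?_, ?_, h.wt.ae_eq e, ?_⟩
  · filter_upwards [h.nonneg, hfg] with x h1 h2 using h2 ▸ h1
  · filter_upwards [h.le, hfg] with x h1 h2 using h2 ▸ h1
  · rw [← integral_congr_ae hfg]; exact h.mass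
  · refine le_trans (le_of_eq (integral_congr_ae ?_)) h.wt_le
    exact hfg.mono fun x hx => by simp only [hx]

theorem Adm.mono {C' : ℝ≥0} {M' : ℝ} (h : Adm m o γ C M f) (hC : C ≤ C') (hM : M ≤ M') : Adm m o γ C' M' f :=
  ⟨h.meas, h.nonneg, h.le.mono fun _ hx => hx.trans (NNReal.coe_le_coe.2 hC), h.mass, h.wt, h.wt_le.trans hM⟩

theorem Adm.integrable (h : Adm m o γ C M f) : Integrable f m := integrable_of_integral_eq_one h.mass

theorem ev4a_memLp (hi : Integrable f m) (h0 : ∀ᵐ x ∂m, 0 ≤ f x) (hC : ∀ᵐ x ∂m, f x ≤ C) : MemLp f 2 m := by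
  rw [memLp_two_iff_integrable_sq hi.aestronglyMeasurable]
  refine (hi.const_mul (C : ℝ)).mono' (hi.aestronglyMeasurable.pow 2) ?_
  filter_upwards [h0, hC] with x h1 h2
  rw [Real.norm_of_nonneg (sq_nonneg _)]
  nlinarith

theorem Adm.memLp (h : Adm m o γ C M f) : MemLp f 2 m := ev4a_memLp h.integrable h.nonneg h.le
theorem Adm.prob (h : Adm m o γ C M f) : IsProbabilityMeasure (den m f) := den_prob h.nonneg h.mass
theorem Adm.den_le (h : Adm m o γ C M f) : den m f ≤ (C : ℝ≥0∞) • m := R242.den_le h.le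

theorem BddProb.adm {R : ℝ} (γ : ℝ) (h : BddProb m o R C μ) : ∃ M f, Adm m o γ C M f ∧ den m f = μ := by
  obtain ⟨f, hf, hb, rfl⟩ := exists_den h.le
  have h0 : ∀ᵐ x ∂m, 0 ≤ f x := ae_of_all _ fun x => (hb x).1
  have hC : ∀ᵐ x ∂m, f x ≤ C := ae_of_all _ fun x => (hb x).2
  have h1 : ∫ x, f x ∂m = 1 := by
    have e := den_int hf.aemeasurable h0 (fun _ => 1)
    have := h.prob
    simpa using e.symm
  have h2 : ∀ᵐ x ∂m, ENNReal.ofReal (f x) ≠ 0 → dist x o ≤ R :=
    (ae_withDensity_iff hf.ennreal_ofReal).1 (bdd_ae h)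
  have hc : Continuous fun x : X => Real.exp (γ * dist x o) := by fun_prop
  refine ⟨_, f, ⟨hf.aestronglyMeasurable, h0, hC, h1, ?_, le_rfl⟩, rfl⟩
  refine (ev4a_memLp (integrable_of_integral_eq_one h1) h0 hC).of_le_mul (c := Real.exp (|γ| * R))
    (hc.aestronglyMeasurable.mul hf.aestronglyMeasurable) ?_
  filter_upwards [h2] with x hx
  rcases (hb x).1.eq_or_lt with e | e
  · simp [← e]
  · have := hx (by simpa using e)
    rw [norm_mul, Real.norm_of_nonneg (Real.exp_pos _).le]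
    refine mul_le_mul_of_nonneg_right (Real.exp_le_exp.2 ?_) (norm_nonneg _)
    exact (mul_le_mul_of_nonneg_right (le_abs_self γ) dist_nonneg).trans
      (mul_le_mul_of_nonneg_left this (abs_nonneg _))

/-- the weight is below an exponential -/
theorem ev4a_w {γ d : ℝ} (hγ : 0 < γ) (hd : 0 ≤ d) : 1 + d ^ 2 ≤ (1 + 32 / γ ^ 2) * Real.exp (γ * d / 4) := by
  have h1 := Real.quadratic_le_exp_of_nonneg (x := γ * d / 4) (by positivity)
  have h2 : 0 ≤ γ * d / 4 := by positivity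
  have h3 : 32 / γ ^ 2 * ((γ * d / 4) ^ 2 / 2) = d ^ 2 := by field_simp; ring
  have h4 : 0 ≤ 32 / γ ^ 2 := by positivity
  have h5 : (γ * d / 4) ^ 2 / 2 ≤ Real.exp (γ * d / 4) := by linarith
  have h6 : 1 ≤ Real.exp (γ * d / 4) := Real.one_le_exp h2
  have h7 := mul_le_mul_of_nonneg_left h5 h4
  nlinarith

theorem ev4a_pt {γ d R s l : ℝ} (hγ : 0 < γ) (hd : 0 ≤ d) (hR : R ≤ d) (hl : 0 < l) :
    (1 + d ^ 2) * s ≤ (1 + 32 / γ ^ 2) ^ 2 * Real.exp (-(γ * R / 2)) / (2 * l) * Real.exp (-γ * d) +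
      l / 2 * (Real.exp (γ * d) * s) ^ 2 := by
  set c := 1 + 32 / γ ^ 2 with hc
  set w := 1 + d ^ 2 with hw
  have hw0 : 0 ≤ w := by positivity
  have h1 : w ≤ c * Real.exp (γ * d / 4) := ev4a_w hγ hd
  have e1 : Real.exp (-γ * d) * Real.exp (γ * d) = 1 := by rw [← Real.exp_add]; simp
  have h2 : (w * Real.exp (-γ * d)) ^ 2 ≤ c ^ 2 * Real.exp (-(γ * R / 2)) * Real.exp (-γ * d) := by
    have h3 : w ^ 2 ≤ (c * Real.exp (γ * d / 4)) ^ 2 := pow_le_pow_left₀ hw0 h1 2
    have h4 : Real.exp (γ * d / 4) ^ 2 * Real.exp (-γ * d) ≤ Real.exp (-(γ * R / 2)) := by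
      rw [← Real.exp_nat_mul, ← Real.exp_add]
      refine Real.exp_le_exp.2 ?_
      have := mul_le_mul_of_nonneg_left hR hγ.le
      push_cast
      nlinarith
    have h5 : 0 < Real.exp (-γ * d) := Real.exp_pos _
    calc (w * Real.exp (-γ * d)) ^ 2 = w ^ 2 * Real.exp (-γ * d) * Real.exp (-γ * d) := by ring
      _ ≤ (c * Real.exp (γ * d / 4)) ^ 2 * Real.exp (-γ * d) * Real.exp (-γ * d) := by gcongr
      _ = c ^ 2 * (Real.exp (γ * d / 4) ^ 2 * Real.exp (-γ * d)) * Real.exp (-γ * d) := by ring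
      _ ≤ _ := by gcongr
  have h6 : w * s = (w * Real.exp (-γ * d)) * (Real.exp (γ * d) * s) := by
    calc w * s = w * (Real.exp (-γ * d) * Real.exp (γ * d)) * s := by rw [e1]; ring
      _ = _ := by ring
  set a := w * Real.exp (-γ * d)
  set b := Real.exp (γ * d) * s
  have h7 : a * b ≤ a ^ 2 / (2 * l) + l / 2 * b ^ 2 := by
    have : a ^ 2 / (2 * l) + l / 2 * b ^ 2 - a * b = (a - l * b) ^ 2 / (2 * l) := by field_simp; ring
    have h8 : 0 ≤ (a - l * b) ^ 2 / (2 * l) := by positivity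
    linarith
  have h9 : a ^ 2 / (2 * l) ≤ c ^ 2 * Real.exp (-(γ * R / 2)) * Real.exp (-γ * d) / (2 * l) := by gcongr
  rw [h6]
  calc a * b ≤ _ := h7
    _ ≤ c ^ 2 * Real.exp (-(γ * R / 2)) * Real.exp (-γ * d) / (2 * l) + l / 2 * b ^ 2 := by linarith
    _ = _ := by ring

theorem ev4a_ent {γ d s C : ℝ} (hγ : 0 < γ) (hd : 0 ≤ d) (h0 : 0 ≤ s) (hC : s ≤ C) :
    |s * Real.log s| ≤ (C + γ) * ((1 + d ^ 2) * s) + Real.exp (-γ * d) := by
  have he : 0 < Real.exp (-γ * d) := Real.exp_pos _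
  rcases h0.eq_or_lt with e | e
  · simp [← e, (Real.exp_pos _).le]
  have hw : d ≤ 1 + d ^ 2 := by nlinarith
  have hw1 : 1 ≤ 1 + d ^ 2 := by nlinarith
  have hC0 : 0 ≤ C := h0.trans hC
  have a1 : s ≤ (1 + d ^ 2) * s := le_mul_of_one_le_left h0 hw1
  have a2 : d * s ≤ (1 + d ^ 2) * s := mul_le_mul_of_nonneg_right hw h0
  have a3 : 0 ≤ (1 + d ^ 2) * s := by positivity
  rw [abs_le]
  constructor
  · have h1 := Real.log_le_sub_one_of_pos (div_pos he e)
    rw [Real.log_div he.ne' e.ne', Real.log_exp] at h1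
    have h2 := mul_le_mul_of_nonneg_left h1 h0
    have h3 : s * (Real.exp (-γ * d) / s - 1) = Real.exp (-γ * d) - s := by field_simp
    have h4 := mul_le_mul_of_nonneg_left a2 hγ.le
    have h5 := mul_nonneg hC0 a3
    nlinarith
  · have h1 := Real.log_le_sub_one_of_pos e
    have h2 : s * Real.log s ≤ s * C := mul_le_mul_of_nonneg_left (by linarith) h0
    have h4 := mul_le_mul_of_nonneg_left a1 hC0
    have h5 := mul_nonneg hγ.le a3
    nlinarith

section
variable (hγ : 0 < γ) (hg : Integrable (fun x => Real.exp (-γ * dist x o)) m)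
include hγ hg

theorem Adm.int_sq (h : Adm m o γ C M f) : Integrable (fun x => (1 + dist x o ^ 2) * f x) m := by
  have hc : Continuous fun x : X => 1 + dist x o ^ 2 := by fun_prop
  refine ((hg.const_mul ((1 + 32 / γ ^ 2) ^ 2 * Real.exp (-(γ * 0 / 2)) / (2 * 1))).add
    (h.wt.integrable_sq.const_mul (1 / 2))).mono' (hc.aestronglyMeasurable.mul h.meas) ?_
  filter_upwards [h.nonneg] with x hx
  rw [Real.norm_of_nonneg (by positivity)]
  exact ev4a_pt hγ dist_nonneg dist_nonneg one_pos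

theorem Adm.moment (h : Adm m o γ C M f) : HasFiniteSecondMoment (den m f) := by
  have hc : Continuous fun x : X => dist x o ^ 2 := by fun_prop
  have h1 : Integrable (fun x => dist x o ^ 2) (den m f) := by
    rw [den_integrable h.meas.aemeasurable h.nonneg hc.aestronglyMeasurable]
    refine (h.int_sq hγ hg).mono' (hc.aestronglyMeasurable.mul h.meas) ?_
    filter_upwards [h.nonneg] with x hx
    rw [Real.norm_of_nonneg (by positivity)]
    nlinarith
  refine ⟨o, ?_⟩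
  simp only [kb_edist]
  exact lt_top_iff_ne_top.2 ((lintegral_ofReal_ne_top_iff_integrable hc.aestronglyMeasurable
    (ae_of_all _ fun p => by positivity)).2 h1)

theorem Adm.int_ent (h : Adm m o γ C M f) : Integrable (fun x => f x * Real.log (f x)) m := by
  refine (((h.int_sq hγ hg).const_mul ((C : ℝ) + γ)).add hg).mono'
    (h.meas.mul (Real.measurable_log.comp_aemeasurable h.meas.aemeasurable).aestronglyMeasurable) ?_
  filter_upwards [h.nonneg, h.le] with x h0 hC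
  exact ev4a_ent hγ dist_nonneg h0 hC

theorem ev4a_tail (h : Adm m o γ C M f) (R : ℝ) {l : ℝ} (hl : 0 < l) :
    ∫ x in (Metric.ball o R)ᶜ, (1 + dist x o ^ 2) * f x ∂m ≤
      (1 + 32 / γ ^ 2) ^ 2 * Real.exp (-(γ * R / 2)) / (2 * l) * ∫ x, Real.exp (-γ * dist x o) ∂m + l / 2 * M := by
  set k := (1 + 32 / γ ^ 2) ^ 2 * Real.exp (-(γ * R / 2)) / (2 * l) with hk
  have hk0 : 0 ≤ k := by positivity
  have hi := (hg.const_mul k).add (h.wt.integrable_sq.const_mul (l / 2))
  calc ∫ x in (Metric.ball o R)ᶜ, (1 + dist x o ^ 2) * f x ∂m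
      ≤ ∫ x in (Metric.ball o R)ᶜ, (k * Real.exp (-γ * dist x o) +
          l / 2 * (Real.exp (γ * dist x o) * f x) ^ 2) ∂m := by
        refine setIntegral_mono_on (h.int_sq hγ hg).integrableOn hi.integrableOn
          Metric.isOpen_ball.measurableSet.compl fun x hx => ?_
        exact ev4a_pt hγ dist_nonneg (by simpa using hx) hl
    _ ≤ ∫ x, (k * Real.exp (-γ * dist x o) + l / 2 * (Real.exp (γ * dist x o) * f x) ^ 2) ∂m :=
        setIntegral_le_integral hi (ae_of_all _ fun x => by positivity)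
    _ = k * ∫ x, Real.exp (-γ * dist x o) ∂m + l / 2 * ∫ x, (Real.exp (γ * dist x o) * f x) ^ 2 ∂m := by
        rw [integral_add (hg.const_mul k) (h.wt.integrable_sq.const_mul (l / 2)), integral_const_mul,
          integral_const_mul]
    _ ≤ _ := by
        have := h.wt_le
        gcongr

theorem adm_tail (M : ℝ) {ε : ℝ} (hε : 0 < ε) : ∃ R : ℝ, ∀ (C : ℝ≥0) (f : X → ℝ), Adm m o γ C M f →
    ∫ x in (Metric.ball o R)ᶜ, (1 + dist x o ^ 2) * f x ∂m ≤ ε := by
  set l := ε / (|M| + 1) with hl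
  have hl0 : 0 < l := by positivity
  have h1 : Tendsto (fun R : ℝ => Real.exp (-(γ * R / 2))) atTop (𝓝 0) := by
    refine Real.tendsto_exp_atBot.comp (tendsto_neg_atTop_atBot.comp ?_)
    exact (tendsto_id.const_mul_atTop hγ).atTop_div_const two_pos
  have h2 : Tendsto (fun R : ℝ => (1 + 32 / γ ^ 2) ^ 2 * Real.exp (-(γ * R / 2)) / (2 * l) *
      ∫ x, Real.exp (-γ * dist x o) ∂m) atTop (𝓝 0) := by
    have := ((h1.const_mul ((1 + 32 / γ ^ 2) ^ 2)).div_const (2 * l)).mul_const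
      (∫ x, Real.exp (-γ * dist x o) ∂m)
    simpa using this
  obtain ⟨R, hR⟩ := (h2.eventually (ge_mem_nhds (half_pos hε))).exists
  refine ⟨R, fun C f h => (ev4a_tail hγ hg h R hl0).trans ?_⟩
  have h3 : l * M ≤ ε := by
    calc l * M ≤ l * (|M| + 1) := mul_le_mul_of_nonneg_left (by linarith [le_abs_self M]) hl0.le
      _ = ε := by rw [hl]; field_simp
  linarith

theorem adm_ent_bound (C : ℝ≥0) (M : ℝ) : ∃ B : ℝ, ∀ f, Adm m o γ C M f → |Ent m (den m f)| ≤ B := by
  refine ⟨((C : ℝ) + γ) * ((1 + 32 / γ ^ 2) ^ 2 * Real.exp (-(γ * 0 / 2)) / (2 * 1) *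
    ∫ x, Real.exp (-γ * dist x o) ∂m + 1 / 2 * M) + ∫ x, Real.exp (-γ * dist x o) ∂m, fun f h => ?_⟩
  have h1 := ev4a_tail hγ hg h 0 one_pos
  simp only [Metric.ball_zero, compl_empty, Measure.restrict_univ] at h1
  rw [ent_den h.meas.aemeasurable h.nonneg]
  calc |∫ x, f x * Real.log (f x) ∂m| ≤ ∫ x, |f x * Real.log (f x)| ∂m := abs_integral_le_integral_abs
    _ ≤ ∫ x, (((C : ℝ) + γ) * ((1 + dist x o ^ 2) * f x) + Real.exp (-γ * dist x o)) ∂m := by
        refine integral_mono_ae (h.int_ent hγ hg).abs (((h.int_sq hγ hg).const_mul _).add hg) ?_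
        filter_upwards [h.nonneg, h.le] with x h0 hC
        exact ev4a_ent hγ dist_nonneg h0 hC
    _ = ((C : ℝ) + γ) * ∫ x, (1 + dist x o ^ 2) * f x ∂m + ∫ x, Real.exp (-γ * dist x o) ∂m := by
        rw [integral_add ((h.int_sq hγ hg).const_mul _) hg, integral_const_mul]
    _ ≤ _ := by
        have : 0 ≤ (C : ℝ) + γ := by positivity
        gcongr

end

end Crest.Agent.R242
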