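import Crest.Agent.R242.Ev4a

/-! Row 242, I-d, TASK Ev4b: admissible densities (aux names `ev4b_*`).
Cauchy-Schwarz: `∫ w f ≤ ‖exp (γ d) f‖₂ ‖w exp (-γ d)‖₂`, and `(1 + d²)² exp (-2 γ d) ≤ c exp (-γ d)`, integrable by `hg`.
Entropy: `|s log s| ≤ c (√s + s²)`-type bounds do not suffice; use `s log s ≤ s log C` (or `≤ C s`) and
`-s log s ≤ s (γ d) + exp (-γ d)` (from `t ≤ exp t - 1`), so `|f log f| ≤ C f + γ d f + exp (-γ d)`.
`Adm.W2_tendsto`: `W2sq_le_dens`, split at radius `R` (`Adm.tail`, Cauchy-Schwarz on the ball).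
`adm_J`, `adm_P`: `Heat.J_markov` (against `0`, using `J_lin` for `J h 0 = 0`), `J_mass`, `J_gaffney` with
`ψ = γ * dist · o`, `β = γ.toNNReal`. -/

set_option autoImplicit false
set_option linter.unusedSectionVars false
open MeasureTheory Filter Set Topology
open scoped ENNReal NNReal
open Crest.GeometryTopology.SyntheticRicci

namespace Crest.Agent.R242

variable {X : Type*} [MetricSpace X] [ProperSpace X] [MeasurableSpace X] [BorelSpace X] {m : Measure X}
  [Fact (IsFiniteOnBalls m)] [m.IsOpenPosMeasure]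

variable {o : X} {γ M : ℝ} {C : ℝ≥0} {f g : X → ℝ} {μ : Measure X}

section
variable (hγ : 0 < γ) (hg : Integrable (fun x => Real.exp (-γ * dist x o)) m)
include hγ hg

omit hγ hg in
theorem ev4b_W2_of {ι : Type*} {l : Filter ι} {μs : ι → Measure X} {ν : Measure X}
    (h : Tendsto (fun i => W2sq (μs i) ν) l (𝓝 0)) : Tendsto (fun i => W2 (μs i) ν) l (𝓝 0) := by
  have h1 := (ENNReal.tendsto_toReal ENNReal.zero_ne_top).comp h
  have h2 := (Real.continuous_sqrt.tendsto _).comp h1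
  simpa [W2, Function.comp_def] using h2

omit hγ hg in
theorem ev4b_ball {u : X → ℝ} (hu : AEStronglyMeasurable u m) (o : X) (R : ℝ) :
    ∫⁻ x in Metric.ball o R, ENNReal.ofReal (dist x o ^ 2 * |u x|) ∂m ≤
      ENNReal.ofReal (R ^ 2) * m (Metric.ball o R) ^ (1 / 2 : ℝ) * eLpNorm u 2 m := by
  have h1 := eLpNorm_le_eLpNorm_mul_rpow_measure_univ (μ := m.restrict (Metric.ball o R)) (p := 1) (q := 2)
    (by norm_num) hu.restrict
  have h2 : eLpNorm u 2 (m.restrict (Metric.ball o R)) ≤ eLpNorm u 2 m :=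
    eLpNorm_mono_measure _ Measure.restrict_le_self
  have h3 : (1 / (1 : ℝ≥0∞).toReal - 1 / (2 : ℝ≥0∞).toReal : ℝ) = 1 / 2 := by norm_num
  rw [h3, Measure.restrict_apply_univ, eLpNorm_one_eq_lintegral_enorm] at h1
  calc ∫⁻ x in Metric.ball o R, ENNReal.ofReal (dist x o ^ 2 * |u x|) ∂m
      ≤ ∫⁻ x in Metric.ball o R, ENNReal.ofReal (R ^ 2) * ‖u x‖ₑ ∂m := by
        refine setLIntegral_mono' measurableSet_ball fun x hx => ?_
        rw [Real.enorm_eq_ofReal_abs, ← ENNReal.ofReal_mul (sq_nonneg _)]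
        refine ENNReal.ofReal_le_ofReal (mul_le_mul_of_nonneg_right ?_ (abs_nonneg _))
        exact pow_le_pow_left₀ dist_nonneg (Metric.mem_ball.1 hx).le 2
    _ = ENNReal.ofReal (R ^ 2) * ∫⁻ x in Metric.ball o R, ‖u x‖ₑ ∂m :=
        lintegral_const_mul' _ _ ENNReal.ofReal_ne_top
    _ ≤ ENNReal.ofReal (R ^ 2) * (eLpNorm u 2 m * m (Metric.ball o R) ^ (1 / 2 : ℝ)) := by
        gcongr
        exact h1.trans (by gcongr)
    _ = _ := by ring

theorem Adm.W2_tendsto {ι : Type*} {l : Filter ι} {F : ι → X → ℝ} (hF : ∀ᶠ i in l, Adm m o γ C M (F i))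
    (hf : Adm m o γ C M f) (h : Tendsto (fun i => eLpNorm (fun x => F i x - f x) 2 m) l (𝓝 0)) :
    Tendsto (fun i => W2 (den m (F i)) (den m f)) l (𝓝 0) := by
  refine ev4b_W2_of ?_
  rw [ENNReal.tendsto_nhds_zero]
  intro ε hε
  obtain ⟨η, hη, hηε⟩ : ∃ η : ℝ, 0 < η ∧ ENNReal.ofReal (6 * η) ≤ ε := by
    rcases eq_or_ne ε ⊤ with rfl | hne
    · exact ⟨1, one_pos, le_top⟩
    · refine ⟨ε.toReal / 6, by have := ENNReal.toReal_pos hε.ne' hne; positivity, ?_⟩
      rw [mul_div_cancel₀ _ (by norm_num), ENNReal.ofReal_toReal hne]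
  obtain ⟨R, hR⟩ := adm_tail hγ hg M hη
  have hfin : ENNReal.ofReal (R ^ 2) * m (Metric.ball o R) ^ (1 / 2 : ℝ) ≠ ⊤ :=
    ENNReal.mul_ne_top ENNReal.ofReal_ne_top
      (ENNReal.rpow_ne_top_of_nonneg (by norm_num) ((Fact.out : IsFiniteOnBalls m) o R).ne)
  have hA := ENNReal.Tendsto.const_mul h (Or.inr hfin)
  rw [mul_zero] at hA
  filter_upwards [hF, ENNReal.tendsto_nhds_zero.1 hA (ENNReal.ofReal η) (by simpa using hη)] with i hi hi2
  refine (W2sq_le_dens m hi.integrable hf.integrable hi.nonneg hf.nonneg (hi.mass.trans hf.mass.symm) o).trans ?_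
  rw [← lintegral_add_compl _ (measurableSet_ball : MeasurableSet (Metric.ball o R))]
  have e1 := (ev4b_ball (hi.meas.sub hf.meas) o R).trans hi2
  have i1 := (hi.int_sq hγ hg).integrableOn (s := (Metric.ball o R)ᶜ)
  have i2 := (hf.int_sq hγ hg).integrableOn (s := (Metric.ball o R)ᶜ)
  have e2 : ∫⁻ x in (Metric.ball o R)ᶜ, ENNReal.ofReal (dist x o ^ 2 * |F i x - f x|) ∂m ≤
      ENNReal.ofReal (2 * η) := by
    calc ∫⁻ x in (Metric.ball o R)ᶜ, ENNReal.ofReal (dist x o ^ 2 * |F i x - f x|) ∂m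
        ≤ ∫⁻ x in (Metric.ball o R)ᶜ,
            ENNReal.ofReal ((1 + dist x o ^ 2) * F i x + (1 + dist x o ^ 2) * f x) ∂m := by
          refine lintegral_mono_ae (ae_restrict_of_ae ?_)
          filter_upwards [hi.nonneg, hf.nonneg] with x h1 h2
          refine ENNReal.ofReal_le_ofReal ?_
          have h3 : |F i x - f x| ≤ F i x + f x := abs_le.2 ⟨by linarith, by linarith⟩
          have h4 : 0 ≤ dist x o ^ 2 := sq_nonneg _
          nlinarith [mul_le_mul_of_nonneg_left h3 h4]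
      _ = ENNReal.ofReal (∫ x in (Metric.ball o R)ᶜ,
            ((1 + dist x o ^ 2) * F i x + (1 + dist x o ^ 2) * f x) ∂m) := by
          refine (ofReal_integral_eq_lintegral_ofReal (i1.add i2) (ae_restrict_of_ae ?_)).symm
          filter_upwards [hi.nonneg, hf.nonneg] with x h1 h2
          exact add_nonneg (by positivity) (by positivity)
      _ ≤ ENNReal.ofReal (2 * η) := by
          refine ENNReal.ofReal_le_ofReal ?_
          rw [integral_add i1 i2]
          linarith [hR C _ hi, hR C _ hf]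
  refine le_trans ?_ hηε
  calc _ ≤ 2 * (ENNReal.ofReal η + ENNReal.ofReal (2 * η)) := by gcongr; exact e1
    _ = ENNReal.ofReal (6 * η) := by
        rw [← ENNReal.ofReal_add hη.le (by positivity), ← ENNReal.ofReal_ofNat 2,
          ← ENNReal.ofReal_mul (by norm_num)]
        congr 1
        ring

omit hγ hg in
theorem ev4b_log {c s : ℝ} (h1 : 1 / 2 ≤ c) (h2 : c ≤ 2) (hs : 0 ≤ s) :
    |c⁻¹ * s * Real.log (c⁻¹ * s)| ≤ 2 * |s * Real.log s| + 4 * s := by
  have hc : 0 < c := by linarith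
  rcases hs.eq_or_lt with rfl | hs'
  · simp
  have hi : c⁻¹ ≤ 2 := by rw [inv_le_comm₀ hc (by norm_num)]; linarith
  have hi0 : 0 < c⁻¹ := inv_pos.2 hc
  have l1 : Real.log c⁻¹ ≤ 2 := (Real.log_le_sub_one_of_pos hi0).trans (by linarith)
  have l2 : -2 ≤ Real.log c⁻¹ := by
    rw [Real.log_inv]; linarith [Real.log_le_sub_one_of_pos hc]
  have l3 : |Real.log c⁻¹| ≤ 2 := abs_le.2 ⟨l2, l1⟩
  rw [Real.log_mul hi0.ne' hs'.ne']
  calc |c⁻¹ * s * (Real.log c⁻¹ + Real.log s)| = c⁻¹ * |s * Real.log s + s * Real.log c⁻¹| := by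
        rw [← abs_of_pos hi0, ← abs_mul, abs_of_pos hi0]; congr 1; ring
    _ ≤ 2 * (|s * Real.log s| + s * 2) := by
        refine mul_le_mul hi ((abs_add_le _ _).trans ?_) (abs_nonneg _) (by norm_num)
        rw [abs_mul s (Real.log c⁻¹), abs_of_pos hs']
        gcongr
    _ = _ := by ring

/-- normalised cut-offs: bounded supports, `W₂` and entropy converge -/
theorem Adm.cut (h : Adm m o γ C M f) {ε : ℝ} (hε : 0 < ε) : ∃ (R : ℝ) (C' : ℝ≥0) (ν : Measure X),
    BddProb m o R C' ν ∧ W2 ν (den m f) ≤ ε ∧ Ent m ν ≤ Ent m (den m f) + ε := by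
  have hfi := h.integrable
  obtain ⟨c, hc⟩ : ∃ c : ℕ → ℝ, c = fun n : ℕ => ∫ x in Metric.closedBall o (n : ℝ), f x ∂m := ⟨_, rfl⟩
  obtain ⟨G, hG⟩ : ∃ G : ℕ → X → ℝ,
      G = fun (n : ℕ) x => (c n)⁻¹ * (Metric.closedBall o (n : ℝ)).indicator f x := ⟨_, rfl⟩
  have hc1 : Tendsto c atTop (𝓝 1) := by
    have := tendsto_setIntegral_of_monotone (μ := m) (f := f) (s := fun n : ℕ => Metric.closedBall o (n : ℝ))
      (fun n => measurableSet_closedBall)
      (fun a b hab => Metric.closedBall_subset_closedBall (by exact_mod_cast hab)) hfi.integrableOn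
    rwa [Metric.iUnion_closedBall_nat, Measure.restrict_univ, h.mass, ← hc] at this
  have hc2 : ∀ᶠ n in atTop, 1 / 2 ≤ c n ∧ c n ≤ 2 :=
    (hc1.eventually (Icc_mem_nhds (by norm_num : (1 / 2 : ℝ) < 1) (by norm_num : (1 : ℝ) < 2))).mono
      fun n hn => hn
  have hGi : ∀ n, Integrable (G n) m := fun n => by
    rw [hG]; exact (hfi.indicator measurableSet_closedBall).const_mul _
  have hcase : ∀ (n : ℕ) x, (dist x o ≤ n ∧ G n x = (c n)⁻¹ * f x) ∨ ((n : ℝ) < dist x o ∧ G n x = 0) := by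
    intro n x
    rcases le_or_gt (dist x o) n with h1 | h1
    · exact Or.inl ⟨h1, by rw [hG]; simp only; rw [indicator_of_mem (Metric.mem_closedBall.2 h1)]⟩
    · refine Or.inr ⟨h1, ?_⟩
      rw [hG]; simp only
      rw [indicator_of_notMem (by simpa using h1), mul_zero]
  have hpt : ∀ x, Tendsto (fun n => G n x) atTop (𝓝 (f x)) := by
    intro x
    have h1 : Tendsto (fun n => (c n)⁻¹ * f x) atTop (𝓝 (f x)) := by
      simpa using (hc1.inv₀ one_ne_zero).mul_const (f x)
    refine h1.congr' ?_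
    filter_upwards [tendsto_natCast_atTop_atTop (R := ℝ) |>.eventually_ge_atTop (dist x o)] with n hn
    rcases hcase n x with h2 | h2
    · exact h2.2.symm
    · exact absurd hn (not_le.2 h2.1)
  have hbd : ∀ n, 1 / 2 ≤ c n ∧ c n ≤ 2 → ∀ x, 0 ≤ f x → 0 ≤ G n x ∧ G n x ≤ 2 * f x := by
    intro n hn x hx
    have hc0 : 0 < c n := by linarith [hn.1]
    have hi : (c n)⁻¹ ≤ 2 := by rw [inv_le_comm₀ hc0 (by norm_num)]; linarith [hn.1]
    rcases hcase n x with h2 | h2 <;> rw [h2.2]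
    · exact ⟨by positivity, mul_le_mul_of_nonneg_right hi hx⟩
    · exact ⟨le_rfl, by positivity⟩
  have hG0 : ∀ n, 1 / 2 ≤ c n ∧ c n ≤ 2 → ∀ᵐ x ∂m, 0 ≤ G n x := fun n hn =>
    h.nonneg.mono fun x hx => (hbd n hn x hx).1
  have hG1 : ∀ n, 1 / 2 ≤ c n ∧ c n ≤ 2 → ∫ x, G n x ∂m = 1 := by
    intro n hn
    have hc0 : 0 < c n := by linarith [hn.1]
    have : ∫ x, (Metric.closedBall o (n : ℝ)).indicator f x ∂m = c n := by
      rw [integral_indicator measurableSet_closedBall, hc]
    rw [hG]; simp only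
    rw [integral_const_mul, this, inv_mul_cancel₀ hc0.ne']
  have hd : Continuous fun x : X => dist x o ^ 2 := by fun_prop
  have hW : Tendsto (fun n => ∫ x, dist x o ^ 2 * |G n x - f x| ∂m) atTop (𝓝 0) := by
    have := tendsto_integral_filter_of_dominated_convergence (μ := m) (l := atTop)
      (F := fun n x => dist x o ^ 2 * |G n x - f x|) (f := fun _ => (0 : ℝ))
      (fun x => (1 + dist x o ^ 2) * f x)
      (Eventually.of_forall fun n => hd.aestronglyMeasurable.mul ((hGi n).sub hfi).abs.1) ?_ (h.int_sq hγ hg) ?_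
    · simpa using this
    · filter_upwards [hc2] with n hn
      filter_upwards [h.nonneg] with x hx
      have h1 := hbd n hn x hx
      have h3 : |G n x - f x| ≤ f x := abs_le.2 ⟨by linarith [h1.1], by linarith [h1.2]⟩
      have h4 : 0 ≤ dist x o ^ 2 := sq_nonneg _
      rw [Real.norm_of_nonneg (by positivity)]
      nlinarith [mul_le_mul_of_nonneg_left h3 h4]
    · refine Eventually.of_forall fun x => ?_
      simpa using (((hpt x).sub_const (f x)).abs).const_mul (dist x o ^ 2)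
  have hW2 : Tendsto (fun n => W2 (den m (G n)) (den m f)) atTop (𝓝 0) := by
    refine ev4b_W2_of ?_
    have h1 := ENNReal.Tendsto.const_mul (a := 2) (ENNReal.tendsto_ofReal hW) (Or.inr (by norm_num))
    rw [ENNReal.ofReal_zero, mul_zero] at h1
    refine tendsto_of_tendsto_of_tendsto_of_le_of_le' tendsto_const_nhds h1
      (Eventually.of_forall fun _ => zero_le) ?_
    filter_upwards [hc2] with n hn
    refine (W2sq_le_dens m (hGi n) hfi (hG0 n hn) h.nonneg ((hG1 n hn).trans h.mass.symm) o).trans_eq ?_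
    congr 1
    refine (ofReal_integral_eq_lintegral_ofReal ?_ (Eventually.of_forall fun x => by positivity)).symm
    refine (h.int_sq hγ hg).mono' (hd.aestronglyMeasurable.mul ((hGi n).sub hfi).abs.1) ?_
    filter_upwards [h.nonneg] with x hx
    have h1 := hbd n hn x hx
    have h3 : |G n x - f x| ≤ f x := abs_le.2 ⟨by linarith [h1.1], by linarith [h1.2]⟩
    have h4 : 0 ≤ dist x o ^ 2 := sq_nonneg _
    rw [Real.norm_of_nonneg (by positivity)]
    nlinarith [mul_le_mul_of_nonneg_left h3 h4]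
  have hE : Tendsto (fun n => ∫ x, G n x * Real.log (G n x) ∂m) atTop
      (𝓝 (∫ x, f x * Real.log (f x) ∂m)) := by
    refine tendsto_integral_filter_of_dominated_convergence (fun x => 2 * |f x * Real.log (f x)| + 4 * f x)
      (Eventually.of_forall fun n => Real.continuous_mul_log.comp_aestronglyMeasurable (hGi n).1) ?_
      (((h.int_ent hγ hg).abs.const_mul 2).add (hfi.const_mul 4))
      (Eventually.of_forall fun x => (Real.continuous_mul_log.tendsto _).comp (hpt x))
    filter_upwards [hc2] with n hn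
    filter_upwards [h.nonneg] with x hx
    rw [Real.norm_eq_abs]
    rcases hcase n x with h2 | h2 <;> rw [h2.2]
    · exact ev4b_log hn.1 hn.2 hx
    · simp only [zero_mul, abs_zero]; positivity
  obtain ⟨n, hn, hn1, hn2⟩ := (hc2.and ((hW2.eventually (ge_mem_nhds hε)).and
    (hE.eventually (ge_mem_nhds (lt_add_of_pos_right _ hε))))).exists
  have := den_prob (hG0 n hn) (hG1 n hn)
  refine ⟨n, 2 * C, den m (G n), bddProb_of (R242.den_le ?_) ?_, hn1, ?_⟩
  · filter_upwards [h.nonneg, h.le] with x h1 h2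
    have := (hbd n hn x h1).2
    push_cast
    linarith
  · unfold den
    rw [ae_withDensity_iff' (hGi n).1.aemeasurable.ennreal_ofReal]
    refine Eventually.of_forall fun x hx => ?_
    rcases hcase n x with h2 | h2
    · exact h2.1
    · rw [h2.2] at hx; simp at hx
  · rw [ent_den (hGi n).1.aemeasurable (hG0 n hn), ent_den h.meas.aemeasurable h.nonneg]
    exact hn2

end

end Crest.Agent.R242
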