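import Crest.Agent.R242.Ev4a

/-! Row 242, I-d, TASK Ev4c: admissible densities (aux names `ev4c_*`).
Cauchy-Schwarz: `∫ w f ≤ ‖exp (γ d) f‖₂ ‖w exp (-γ d)‖₂`, and `(1 + d²)² exp (-2 γ d) ≤ c exp (-γ d)`, integrable by `hg`.
Entropy: `|s log s| ≤ c (√s + s²)`-type bounds do not suffice; use `s log s ≤ s log C` (or `≤ C s`) and
`-s log s ≤ s (γ d) + exp (-γ d)` (from `t ≤ exp t - 1`), so `|f log f| ≤ C f + γ d f + exp (-γ d)`.
`Adm.W2_tendsto`: `W2sq_le_dens`, split at radius `R` (`Adm.tail`, Cauchy-Schwarz on the ball).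
`adm_J`, `adm_P`: `Heat.J_markov` (against `0`, using `J_lin` for `J h 0 = 0`), `J_mass`, `J_gaffney` with
`ψ = γ * dist · o`, `β = γ.toNNReal`. -/

set_option autoImplicit false
set_option linter.unusedSectionVars false
open MeasureTheory Filter Set Topology
open scoped ENNReal NNReal
open Crest.GeometryTopology.SyntheticRicci

namespace Crest.Agent.R242

variable {X : Type*} [MetricSpace X] [ProperSpace X] [MeasurableSpace X] [BorelSpace X] {m : Measure X}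
  [Fact (IsFiniteOnBalls m)] [m.IsOpenPosMeasure]

variable {o : X} {γ M : ℝ} {C : ℝ≥0} {f g : X → ℝ} {μ : Measure X}

variable {J P : ℝ → (X → ℝ) → X → ℝ}

theorem ev4c_lip (o : X) (hγ : 0 < γ) : LipschitzWith γ.toNNReal fun x => γ * dist x o := by
  refine LipschitzWith.of_dist_le_mul fun x y => ?_
  rw [Real.coe_toNNReal _ hγ.le, Real.dist_eq, ← mul_sub, abs_mul, abs_of_pos hγ]
  exact mul_le_mul_of_nonneg_left (abs_dist_sub_le x y o) hγ.le

theorem ev4c_bounds {T : (X → ℝ) → X → ℝ}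
    (h1 : ∀ f g, MemLp f 2 m → MemLp g 2 m → ∀ c : ℝ, 0 ≤ c →
      (∀ᵐ x ∂m, f x ≤ c + g x) → ∀ᵐ x ∂m, T f x ≤ c + T g x)
    (h2 : ∀ f g, MemLp f 2 m → MemLp g 2 m → ∀ a b : ℝ,
      T (fun x => a * f x + b * g x) =ᵐ[m] fun x => a * T f x + b * T g x)
    (hf : Adm m o γ C M f) : (∀ᵐ x ∂m, 0 ≤ T f x) ∧ ∀ᵐ x ∂m, T f x ≤ C := by
  have hz : MemLp (fun _ : X => (0 : ℝ)) 2 m := MemLp.zero
  have h0 : ∀ᵐ x ∂m, T (fun _ => 0) x = 0 := by
    have := h2 f f hf.memLp hf.memLp 0 0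
    simp only [zero_mul, add_zero] at this
    exact this
  constructor
  · filter_upwards [h0, h1 _ f hz hf.memLp 0 le_rfl (hf.nonneg.mono fun x hx => by simpa using hx)]
      with x a b
    rwa [a, zero_add] at b
  · filter_upwards [h0, h1 f _ hf.memLp hz C C.2 (hf.le.mono fun x hx => by simpa using hx)]
      with x a b
    rwa [a, add_zero] at b

theorem adm_J (hH : Heat m J P) (hγ : 0 < γ) {h : ℝ} (hh : 0 < h) (hγh : h * γ ^ 2 < 1) (hf : Adm m o γ C M f) :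
    Adm m o γ C (M / (1 - h * γ ^ 2) ^ 2) (J h f) := by
  obtain ⟨h1, h2⟩ := ev4c_bounds (hH.J_markov h hh) (hH.J_lin h hh) hf
  have h3 := hH.J_mass h hh f hf.memLp hf.integrable
  obtain ⟨h4, h5⟩ := hH.J_gaffney h hh γ.toNNReal _ (ev4c_lip o hγ)
    (by rwa [Real.coe_toNNReal _ hγ.le]) f hf.memLp hf.wt
  rw [Real.coe_toNNReal _ hγ.le] at h5
  refine ⟨h3.1.1, h1, h2, h3.2.trans hf.mass, h4, ?_⟩
  rw [le_div_iff₀ (pow_pos (sub_pos.2 hγh) 2), mul_comm]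
  exact h5.trans hf.wt_le

theorem adm_P (hH : Heat m J P) (hγ : 0 < γ) {t : ℝ} (ht : 0 ≤ t) (hf : Adm m o γ C M f) :
    Adm m o γ C (Real.exp (2 * γ ^ 2 * t) * M) (P t f) := by
  obtain ⟨h1, h2⟩ := ev4c_bounds (hH.P_markov t ht) (hH.P_lin t ht) hf
  have h3 := hH.P_mass t ht f hf.memLp hf.integrable
  obtain ⟨h4, h5⟩ := hH.P_gaffney t ht γ.toNNReal _ (ev4c_lip o hγ) f hf.memLp hf.wt
  rw [Real.coe_toNNReal _ hγ.le] at h5
  exact ⟨h3.1.1, h1, h2, h3.2.trans hf.mass, h4,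
    h5.trans (mul_le_mul_of_nonneg_left hf.wt_le (Real.exp_pos _).le)⟩

/-- `(1 - x)⁻¹ ≤ exp (2 x)` for `0 ≤ x ≤ 1/2` -/
theorem adm_iter (hH : Heat m J P) (hγ : 0 < γ) {h : ℝ} (hh : 0 < h) (hγh : h * γ ^ 2 ≤ 1 / 2)
    (hf : Adm m o γ C M f) (k : ℕ) : Adm m o γ C (Real.exp (4 * γ ^ 2 * (k * h)) * M) ((J h)^[k] f) := by
  have hM : 0 ≤ M := (integral_nonneg fun x => sq_nonneg _).trans hf.wt_le
  induction k with
  | zero => simpa using hf
  | succ k ih =>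
    rw [Function.iterate_succ_apply']
    have hx : 0 ≤ h * γ ^ 2 := by positivity
    refine (adm_J hH hγ hh (by linarith) ih).mono le_rfl ?_
    have h1 : 1 ≤ Real.exp (2 * (h * γ ^ 2)) * (1 - h * γ ^ 2) := by
      have := Real.add_one_le_exp (2 * (h * γ ^ 2))
      nlinarith
    have h2 : 1 ≤ (Real.exp (2 * (h * γ ^ 2)) * (1 - h * γ ^ 2)) ^ 2 := one_le_pow₀ h1
    have h3 : Real.exp (4 * γ ^ 2 * (((k + 1 : ℕ) : ℝ) * h)) =
        Real.exp (4 * γ ^ 2 * (k * h)) * Real.exp (2 * (h * γ ^ 2)) ^ 2 := by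
      rw [← Real.exp_nat_mul, ← Real.exp_add]
      congr 1
      push_cast
      ring
    rw [div_le_iff₀ (pow_pos (by linarith) 2), h3]
    have h4 : 0 ≤ Real.exp (4 * γ ^ 2 * (k * h)) * M := by positivity
    calc Real.exp (4 * γ ^ 2 * (k * h)) * M
        ≤ Real.exp (4 * γ ^ 2 * (k * h)) * M *
          (Real.exp (2 * (h * γ ^ 2)) * (1 - h * γ ^ 2)) ^ 2 := le_mul_of_one_le_right h4 h2
      _ = _ := by ring

end Crest.Agent.R242
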