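import Crest.Agent.R242.Ev2
import Crest.Agent.R242.Ev1
import Crest.Agent.R242.Ev3

/-! Row 242, I-d, TASK Ev5: derivative of the entropy against convexity (aux names `ev5_*`).
`A = {φ < a}` is open and inside a ball `ball o R` (`Pot.lower`), so `μ₀` is a `BddProb` (density `≤ exp B`); take a
`GoodPlan π` from `hS.good` (common radius and bound).  Its endpoint law `q'` is optimal, and
`opt_of_contact` (for `q`) + `contact_of_opt` (for `q'`) give contact `q'`-a.e. and `quadCost q' = quadCost q`.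
`Pot.along` gives `φ (γ t) ≤ φ (γ 0) < a`: the marginals live on `A`.
`gibbs` at time `s = 2⁻ᵏ` (`∫_A exp g = 1`): `∫ g dμ_s ≤ Ent μ_s`, and `Ent μ₀ = ∫ g dμ₀` (`ent_den`, `den_int`).  With
`GoodPlan.ent k`: `-s (∫ Γ(φ,g) dμ₀ + η) ≤ s (Ent μ₁ - Ent μ₀) + κ/2 s (1-s) W`; divide by `s`. -/

set_option autoImplicit false
set_option linter.unusedSectionVars false
open MeasureTheory Filter Set Topology
open scoped ENNReal NNReal
open Crest.GeometryTopology.SyntheticRicci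

namespace Crest.Agent.R242

variable {X : Type*} [MetricSpace X] [ProperSpace X] [MeasurableSpace X] [BorelSpace X] {m : Measure X}
  [Fact (IsFiniteOnBalls m)] [m.IsOpenPosMeasure]

theorem ev5_mono {o : X} {R R' : ℝ} {C C' : ℝ≥0} {μ : Measure X} (h : BddProb m o R C μ) (hR : R ≤ R')
    (hC : C ≤ C') : BddProb m o R' C' μ := by
  refine ⟨h.prob, h.le.trans (Measure.le_iff.2 fun s _ => ?_),
    measure_mono_null (compl_subset_compl.2 (Metric.closedBall_subset_closedBall hR)) h.supp⟩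
  simp only [Measure.smul_apply, smul_eq_mul]
  exact mul_le_mul_left (ENNReal.coe_le_coe.2 hC) _

omit [MeasurableSpace X] [BorelSpace X] in
theorem ev5_sub {o : X} {R₀ : ℝ} {φ ψ : X → ℝ} (hP : Pot o R₀ φ ψ) {a : ℝ} {x : X} (hx : φ x < a) :
    dist x o < 3 * R₀ + |a| + 2 := by
  by_contra h
  rw [not_lt] at h
  have h1 := hP.lower x
  have h2 := hP.R0
  have h3 := le_abs_self a
  have h4 := abs_nonneg a
  nlinarith

theorem evi_core {κ γ : ℝ} (hS : Sp m κ γ) {o : X} {R₀ : ℝ} {φ ψ : X → ℝ} (hP : Pot o R₀ φ ψ) (a : ℝ)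
    {g : X → ℝ} (hg : IsSobolevLoc m g) {B : ℝ} (hB : ∀ᵐ x ∂m, φ x < a → |g x| ≤ B)
    {μ₀ μ₁ : Measure X} (h0 : μ₀ = den m ({x | φ x < a}.indicator fun x => Real.exp (g x)))
    [IsProbabilityMeasure μ₀] {C : ℝ≥0} (h1 : BddProb m o R₀ C μ₁) {q : Measure (X × X)}
    (hq : IsCouplingOf q μ₀ μ₁) (hc : ∀ᵐ p ∂q, φ p.1 + ψ p.2 = dist p.1 p.2 ^ 2 / 2) :
    -∫ x, gradPairing m φ g x ∂μ₀ ≤ Ent m μ₁ - Ent m μ₀ + κ / 2 * (quadCost q).toReal := by
  set A : Set X := {x | φ x < a} with hA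
  have hAm : MeasurableSet A := (isOpen_lt hP.cφ continuous_const).measurableSet
  set R := 3 * R₀ + |a| + 2 with hR
  have hAR : A ⊆ Metric.ball o R := fun x hx => Metric.mem_ball.2 (ev5_sub hP hx)
  have hR0 : R₀ ≤ R := by
    have := hP.R0
    have := abs_nonneg a
    linarith
  have hmA : m A ≠ ⊤ := ((measure_mono hAR).trans_lt (Fact.out (p := IsFiniteOnBalls m) o R)).ne
  set ρ : X → ℝ := A.indicator fun x => Real.exp (g x) with hρ
  have hgm : AEMeasurable g m := sl_aemeasurable hg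
  have hρm : AEMeasurable ρ m := (Real.measurable_exp.comp_aemeasurable hgm).indicator hAm
  have hρ0 : ∀ᵐ x ∂m, 0 ≤ ρ x := ae_of_all _ fun x => indicator_nonneg (fun _ _ => (Real.exp_pos _).le) x
  set C₀ : ℝ≥0 := (Real.exp B).toNNReal with hC₀
  have hρC : ∀ᵐ x ∂m, ρ x ≤ C₀ := hB.mono fun x hx => by
    rw [hC₀, Real.coe_toNNReal _ (Real.exp_pos _).le]
    by_cases h : x ∈ A
    · rw [hρ, indicator_of_mem h]
      exact Real.exp_le_exp.2 ((le_abs_self _).trans (hx h))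
    · rw [hρ, indicator_of_notMem h]
      exact (Real.exp_pos _).le
  have hle : μ₀ ≤ (C₀ : ℝ≥0∞) • m := h0 ▸ den_le hρC
  have hμA : ∀ᵐ x ∂μ₀, x ∈ A := by
    rw [h0, den, ae_withDensity_iff' hρm.ennreal_ofReal]
    refine ae_of_all _ fun x hx => ?_
    by_contra h
    exact hx (by rw [hρ, indicator_of_notMem h, ENNReal.ofReal_zero])
  have b0 : BddProb m o R (C₀ + C) μ₀ :=
    ev5_mono (bddProb_of hle (hμA.mono fun x hx => (Metric.mem_ball.1 (hAR hx)).le)) le_rfl le_self_add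
  have b1 : BddProb m o R (C₀ + C) μ₁ := ev5_mono h1 hR0 le_add_self
  have := h1.prob
  obtain ⟨Θ, hΘ⟩ := hS.good R
  obtain ⟨π, hπ⟩ := hΘ o _ μ₀ μ₁ b0 b1
  have := hπ.test.1
  have hPl : Plan m π := ⟨hπ.test, hπ.tracks⟩
  have iφ : Integrable φ μ₀ := int_of_cont_bdd hP.cφ (bdd_ae b0)
  have iψ : Integrable ψ μ₁ := hP.int_psi (bdd_ae h1)
  obtain ⟨o1, o2, o3⟩ := opt_of_contact (A := univ) (B := {y | dist y o ≤ R₀}) hq iφ iψ
    (ae_of_all _ fun _ => trivial) (bdd_ae h1) (fun x _ y hy => hP.le x y hy) hc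
  have hsnd : ∀ᵐ p ∂(endpointLaw π), dist p.2 o ≤ R₀ := coup_ae_snd hπ.opt.1 (bdd_ae h1)
  have hc' := contact_of_opt hπ.opt o3 iφ iψ (hsnd.mono fun p hp => hP.le _ _ hp) o2.ge
  have hcon : ∀ᵐ c ∂π, dist (c.toMap 1) o ≤ R₀ ∧
      φ (c.toMap 0) + ψ (c.toMap 1) = dist (c.toMap 0) (c.toMap 1) ^ 2 / 2 :=
    ae_of_ae_map ((measurable_at 0).prodMk (measurable_at 1)).aemeasurable (hsnd.and hc')
  have hcost : quadCost (endpointLaw π) = quadCost q := (opt_cost hπ.opt).trans (opt_cost o1).symm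
  have hm0 : timeMarginal π 0 = μ₀ := (end_marg hπ.opt.1).1
  have hAt : ∀ t, ∀ᵐ x ∂(timeMarginal π t), x ∈ A := fun t => by
    refine eva_ae_marg hAm ?_
    filter_upwards [hcon, hπ.geo, s2l_ae_zero hπ.opt.1 hμA] with c k1 k2 k3
    have k4 := hP.along k1.1 k1.2 (eva_geo1 k2 t)
    have k5 : ((1 - (t : ℝ)) ^ 2 - 1) * dist (c.toMap 0) (c.toMap 1) ^ 2 ≤ 0 :=
      mul_nonpos_of_nonpos_of_nonneg (by nlinarith [t.2.1, t.2.2]) (sq_nonneg _)
    have k6 : φ (c.toMap 0) < a := k3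
    change φ (c.toMap t) < a
    linarith
  have he : IntegrableOn (fun x => Real.exp (g x)) A m := by
    refine Measure.integrableOn_of_bounded hmA
      (Real.measurable_exp.comp_aemeasurable hgm).aestronglyMeasurable (M := Real.exp B) ?_
    filter_upwards [ae_restrict_of_ae hB, ae_restrict_mem hAm] with x k1 k2
    rw [Real.norm_eq_abs, abs_of_pos (Real.exp_pos _)]
    exact Real.exp_le_exp.2 ((le_abs_self _).trans (k1 k2))
  have he1 : ∫ x in A, Real.exp (g x) ∂m = 1 := by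
    have := den_int hρm hρ0 fun _ => (1 : ℝ)
    rw [← h0] at this
    simp only [integral_const, probReal_univ, smul_eq_mul, mul_one, one_mul] at this
    rw [this, hρ, integral_indicator hAm]
  have hent0 : Ent m μ₀ = ∫ x, g x ∂μ₀ := by
    rw [h0, ent_den hρm hρ0, den_int hρm hρ0]
    refine integral_congr_ae (ae_of_all _ fun x => ?_)
    by_cases h : x ∈ A
    · simp only [hρ, indicator_of_mem h, Real.log_exp, mul_comm]
    · simp only [hρ, indicator_of_notMem h, zero_mul, mul_zero]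
  have hgib : ∀ t, ∫ x, g x ∂(timeMarginal π t) ≤ Ent m (timeMarginal π t) := fun t => by
    have := marg_prob π t
    exact gibbs (hπ.comp t) hAm hmA (hAt t)
      (eva_int (hπ.comp t) (hAt t) ((eva_l2b_on hg.1 o R).mono_set hAR)) he he1.le
  refine le_of_forall_pos_le_add fun η hη => ?_
  obtain ⟨t₀, ht₀, hv⟩ := eva_hv hS.hilb hPl hπ.geo hP hcon hg hη
  obtain ⟨k, hk⟩ := exists_pow_lt_of_lt_one ht₀ (show (1 / 2 : ℝ) < 1 by norm_num)
  have k1 := hv (dy k) hk.le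
  have k2 := hπ.ent k
  have k3 := hgib (dy k)
  rw [hm0, ← hent0] at k1
  rw [hcost] at k2
  change -((1 / 2 : ℝ) ^ k * _) ≤ _ at k1
  set s : ℝ := (1 / 2) ^ k with hs
  have hs0 : 0 < s := by positivity
  have k4 : κ / 2 * (s * (1 - s)) * (quadCost q).toReal ≤ s * (κ / 2 * (quadCost q).toReal) := by
    have : 0 ≤ κ / 2 * (s * s) * (quadCost q).toReal := by
      have := hS.κ_nonneg
      positivity
    nlinarith
  refine le_of_mul_le_mul_left ?_ hs0
  nlinarith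

end Crest.Agent.R242
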