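import Crest.Agent.R242.Ev1c

/-! Row 242, I-d, TASK Ev6a: one step of the discrete EVI with explicit errors (aux names `ev6a_*`).
`ev_test`: `v = max (a - φ) 0` is Lipschitz on balls with bounded support, so in `W^{1,2}`; `Γ(u,v) = -Γ(φ,u)` a.e. on `{φ < a}`
and `0` a.e. off it (locality of `gradPairing`, Wug8..); `v = a - min φ a`, `∫ (u - f) = 0`.
`ev_log`: `θ s = log (max s 0 + δ) - b` is Lipschitz, differentiable off `0`; on `{u = 0}` both sides vanish (`gr_level`).
`evi_step`: `exists_pot μ' ν` gives `φ, ψ, q`.  `A = {φ < a} ⊆ ball o R` by `Pot.lower` and `hR`, `o ∈ A` open so `cA > 0`;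
`qA = ofReal (c / cA) • q.restrict (A ×ˢ univ)`, first marginal `den (1_A exp g)` with `g = log (u + δ) - log cA`, second
marginal `μ₁`; `evi_core`; `quadCost qA ≤ (c / cA) W2sq μ' ν`; `Pot.dual_le` for `(den f, ν)`. -/

set_option autoImplicit false
set_option linter.unusedSectionVars false
open MeasureTheory Filter Set Topology
open scoped ENNReal NNReal
open Crest.GeometryTopology.SyntheticRicci

namespace Crest.Agent.R242

variable {X : Type*} [MetricSpace X] [ProperSpace X] [MeasurableSpace X] [BorelSpace X] {m : Measure X}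
  [Fact (IsFiniteOnBalls m)] [m.IsOpenPosMeasure]

variable {o : X} {R₀ h γ κ M : ℝ} {C : ℝ≥0} {φ ψ u f : X → ℝ}

theorem ev6a_lip (a : ℝ) : LipschitzWith 1 fun s : ℝ => max (a - s) 0 := by
  refine LipschitzWith.max_const ?_ 0
  refine LipschitzWith.of_dist_le_mul fun x y => ?_
  rw [dist_sub_left, NNReal.coe_one, one_mul]

theorem ev6a_log {δ : ℝ} (hδ : 0 < δ) (b : ℝ) :
    LipschitzWith (δ⁻¹).toNNReal fun s : ℝ => Real.log (max s 0 + δ) - b := by
  have key : ∀ x y : ℝ, δ ≤ x → δ ≤ y → Real.log x - Real.log y ≤ δ⁻¹ * |x - y| := by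
    intro x y hx hy
    have hx0 := hδ.trans_le hx
    have hy0 := hδ.trans_le hy
    rw [← Real.log_div hx0.ne' hy0.ne']
    refine (Real.log_le_sub_one_of_pos (div_pos hx0 hy0)).trans ?_
    rw [div_sub_one hy0.ne', div_eq_inv_mul]
    exact (mul_le_mul_of_nonneg_left (le_abs_self _) (inv_nonneg.2 hy0.le)).trans
      (mul_le_mul_of_nonneg_right (inv_anti₀ hδ hy) (abs_nonneg _))
  refine LipschitzWith.of_le_add_mul' _ fun x y => ?_
  have h1 := key (max x 0 + δ) (max y 0 + δ) (le_add_of_nonneg_left (le_max_right _ _))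
    (le_add_of_nonneg_left (le_max_right _ _))
  rw [add_sub_add_right_eq_sub] at h1
  have h2 := mul_le_mul_of_nonneg_left (abs_max_sub_max_le_abs x y 0) (inv_nonneg.2 hδ.le)
  rw [Real.dist_eq]
  linarith

theorem ev6a_int (h : Integrable (fun x => (1 + dist x o ^ 2) * u x) m) : Integrable u m := by
  have hc : Continuous fun x => (1 + dist x o ^ 2)⁻¹ :=
    Continuous.inv₀ (by fun_prop) fun x => by positivity
  refine (h.bdd_mul (c := 1) hc.aestronglyMeasurable (ae_of_all _ fun x => ?_)).congr (ae_of_all _ fun x => ?_)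
  · rw [Real.norm_eq_abs, abs_of_nonneg (by positivity)]
    exact inv_le_one_of_one_le₀ (le_add_of_nonneg_right (by positivity))
  · have : 1 + dist x o ^ 2 ≠ 0 := by positivity
    simp only
    field_simp

theorem ev_test (hI : IsInfHilbertian m) (hP : Pot o R₀ φ ψ) (a : ℝ) (hh : 0 < h)
    (hu : IsWeakLaplacian m u fun x => (u x - f x) / h)
    (hu2 : Integrable (fun x => (1 + dist x o ^ 2) * u x) m) (hf2 : Integrable (fun x => (1 + dist x o ^ 2) * f x) m)
    (hm : ∫ x, u x ∂m = ∫ x, f x ∂m) :
    -h * ∫ x in {x | φ x < a}, gradPairing m φ u x ∂m =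
      ∫ x, min (φ x) a * u x ∂m - ∫ x, min (φ x) a * f x ∂m := by
  have hφ : IsSobolevLoc m φ := sl_lipB hP.lipB
  have hus : IsSobolevLoc m u := hu.1.2.1
  have hL := ev6a_lip a
  have hv : IsSobolevLoc m fun x => max (a - φ x) 0 := sl_comp (φ := fun s => max (a - s) 0) hL hφ
  have hvs : IsSobolev m fun x => max (a - φ x) 0 :=
    sob_of_supp hv (o := o) (R := 3 * R₀ + |a| + 2) (ae_of_all _ fun x hx => by
      rw [Metric.mem_ball, not_lt] at hx
      have h1 := hP.lower x
      have h2 := hP.R0
      have h3 := le_abs_self a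
      have h4 := abs_nonneg a
      refine max_eq_right ?_
      nlinarith [mul_nonneg h2 h4, mul_nonneg h2 h2,
        mul_le_mul hx (show R₀ + |a| + 2 ≤ dist x o - 2 * R₀ by linarith) (by linarith) dist_nonneg])
  have hd : ∀ s, s ∉ ({a} : Set ℝ) → HasDerivAt (fun s => max (a - s) 0) (if s < a then -1 else 0) s := by
    intro s hs
    rcases lt_or_gt_of_ne (show s ≠ a from hs) with h | h
    · rw [if_pos h]
      refine ((hasDerivAt_id s).const_sub a).congr_of_eventuallyEq ?_
      filter_upwards [Iio_mem_nhds h] with r hr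
      exact max_eq_left (sub_nonneg.2 (le_of_lt hr))
    · rw [if_neg h.not_gt]
      refine (hasDerivAt_const s (0 : ℝ)).congr_of_eventuallyEq ?_
      filter_upwards [Ioi_mem_nhds h] with r hr
      exact max_eq_right (sub_nonpos.2 (le_of_lt hr))
  have hA : MeasurableSet {x | φ x < a} := (isOpen_lt hP.cφ continuous_const).measurableSet
  have e1 : ∫ x, gradPairing m u (fun x => max (a - φ x) 0) x ∂m =
      -∫ x in {x | φ x < a}, gradPairing m φ u x ∂m := by
    rw [← integral_indicator hA, ← integral_neg]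
    refine integral_congr_ae ?_
    filter_upwards [gam_comp_right hI hL.locallyLipschitz (countable_singleton a) hd
      (Measurable.ite measurableSet_Iio measurable_const measurable_const) hφ hv hus, gam_symm hus hφ]
      with x h1 h2
    rw [h1, h2]
    by_cases hx : φ x < a
    · rw [if_pos hx, indicator_of_mem (show x ∈ {x | φ x < a} from hx), neg_one_mul]
    · rw [if_neg hx, indicator_of_notMem (show x ∉ {x | φ x < a} from hx), zero_mul, neg_zero]
  have e2 := hu.2.2 _ hvs
  have iu := ev6a_int hu2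
  have jf := ev6a_int hf2
  have mu : MemLp u 2 m := hu.1.1
  have mf : MemLp f 2 m := by
    have := mu.sub (hu.2.1.const_mul h)
    refine (memLp_congr_ae (ae_of_all _ fun x => ?_)).1 this
    simp only [Pi.sub_apply]
    field_simp
    ring
  have key : ∀ g : X → ℝ, Integrable g m → MemLp g 2 m →
      ∫ x, min (φ x) a * g x ∂m = a * ∫ x, g x ∂m - ∫ x, g x * max (a - φ x) 0 ∂m := by
    intro g h1 h2
    have i2 : Integrable (fun x => g x * max (a - φ x) 0) m := h2.integrable_mul hvs.1
    rw [← integral_const_mul, ← integral_sub (h1.const_mul a) i2]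
    congr 1
    funext x
    rcases le_total (φ x) a with h | h
    · rw [min_eq_left h, max_eq_left (sub_nonneg.2 h)]
      ring
    · rw [min_eq_right h, max_eq_right (sub_nonpos.2 h)]
      ring
  have i1 : Integrable (fun x => u x * max (a - φ x) 0) m := mu.integrable_mul hvs.1
  have i2 : Integrable (fun x => f x * max (a - φ x) 0) m := mf.integrable_mul hvs.1
  have e3 : ∫ x, (u x - f x) / h * max (a - φ x) 0 ∂m =
      h⁻¹ * (∫ x, u x * max (a - φ x) 0 ∂m - ∫ x, f x * max (a - φ x) 0 ∂m) := by
    rw [← integral_sub i1 i2, ← integral_const_mul]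
    congr 1
    funext x
    ring
  rw [e1, e3, neg_inj] at e2
  rw [key u iu mu, key f jf mf, e2, hm]
  field_simp
  ring

theorem ev_log (hI : IsInfHilbertian m) (hφ : IsSobolevLoc m φ) (hu : IsSobolevLoc m u) (h0 : ∀ᵐ x ∂m, 0 ≤ u x)
    {δ : ℝ} (hδ : 0 < δ) (b : ℝ) : IsSobolevLoc m (fun x => Real.log (max (u x) 0 + δ) - b) ∧
      ∀ᵐ x ∂m, gradPairing m φ (fun x => Real.log (max (u x) 0 + δ) - b) x * (u x + δ) =
        gradPairing m φ u x := by
  have hL := ev6a_log hδ b
  have hs : IsSobolevLoc m fun x => Real.log (max (u x) 0 + δ) - b :=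
    sl_comp (φ := fun s => Real.log (max s 0 + δ) - b) hL hu
  refine ⟨hs, ?_⟩
  have hd : ∀ s, s ∉ ({0} : Set ℝ) →
      HasDerivAt (fun s => Real.log (max s 0 + δ) - b) (if s < 0 then 0 else (s + δ)⁻¹) s := by
    intro s hs
    rcases lt_or_gt_of_ne (show s ≠ 0 from hs) with h | h
    · rw [if_pos h]
      refine (hasDerivAt_const s (Real.log (0 + δ) - b)).congr_of_eventuallyEq ?_
      filter_upwards [Iio_mem_nhds h] with r hr
      rw [max_eq_right (le_of_lt hr)]
    · rw [if_neg h.not_gt]
      have h1 : HasDerivAt (fun r => Real.log (r + δ) - b) (1 / (s + δ)) s :=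
        (((hasDerivAt_id s).add_const δ).log (by positivity : s + δ ≠ 0)).sub_const b
      rw [one_div] at h1
      refine h1.congr_of_eventuallyEq ?_
      filter_upwards [Ioi_mem_nhds h] with r hr
      rw [max_eq_left (le_of_lt hr)]
  filter_upwards [gam_comp_right hI hL.locallyLipschitz (countable_singleton 0) hd
    (Measurable.ite measurableSet_Iio measurable_const (measurable_id.add_const δ).inv) hu hs hφ, h0] with x h1 h2
  have h3 : u x + δ ≠ 0 := by positivity
  rw [h1, if_neg h2.not_gt]
  field_simp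

end Crest.Agent.R242
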