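import Crest.Agent.R242.Ev5
import Crest.Agent.R242.Ev4
import Crest.Agent.R242.Ev6a

/-! Row 242, I-d, TASK Ev6: one step of the discrete EVI with explicit errors (aux names `ev6_*`).
`ev_test`: `v = max (a - φ) 0` is Lipschitz on balls with bounded support, so in `W^{1,2}`; `Γ(u,v) = -Γ(φ,u)` a.e. on `{φ < a}`
and `0` a.e. off it (locality of `gradPairing`, Wug8..); `v = a - min φ a`, `∫ (u - f) = 0`.
`ev_log`: `θ s = log (max s 0 + δ) - b` is Lipschitz, differentiable off `0`; on `{u = 0}` both sides vanish (`gr_level`).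
`evi_step`: `exists_pot μ' ν` gives `φ, ψ, q`.  `A = {φ < a} ⊆ ball o R` by `Pot.lower` and `hR`, `o ∈ A` open so `cA > 0`;
`qA = ofReal (c / cA) • q.restrict (A ×ˢ univ)`, first marginal `den (1_A exp g)` with `g = log (u + δ) - log cA`, second
marginal `μ₁`; `evi_core`; `quadCost qA ≤ (c / cA) W2sq μ' ν`; `Pot.dual_le` for `(den f, ν)`. -/

set_option autoImplicit false
set_option linter.unusedSectionVars false
open MeasureTheory Filter Set Topology
open scoped ENNReal NNReal
open Crest.GeometryTopology.SyntheticRicci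

namespace Crest.Agent.R242

variable {X : Type*} [MetricSpace X] [ProperSpace X] [MeasurableSpace X] [BorelSpace X] {m : Measure X}
  [Fact (IsFiniteOnBalls m)] [m.IsOpenPosMeasure]

variable {o : X} {R₀ h γ κ M : ℝ} {C : ℝ≥0} {φ ψ u f : X → ℝ}

theorem ev6_int (hua : Adm m o γ C M u) (δ : ℝ) {U : Set X} {R : ℝ} (hU : U ⊆ Metric.ball o R) :
    IntegrableOn (fun x => u x + δ) U m :=
  hua.integrable.integrableOn.add (integrableOn_const
    (ne_top_of_le_ne_top ((Fact.out : IsFiniteOnBalls m) o R).ne (measure_mono hU)))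

theorem ev6_pos (hua : Adm m o γ C M u) {δ : ℝ} (hδ : 0 < δ) {U : Set X} {R : ℝ} (hU : U ⊆ Metric.ball o R)
    (hUo : IsOpen U) (ho : o ∈ U) : 0 < ∫ x in U, (u x + δ) ∂m := by
  have hfin : m U ≠ ⊤ := ne_top_of_le_ne_top ((Fact.out : IsFiniteOnBalls m) o R).ne (measure_mono hU)
  have h1 : ∫ _x in U, δ ∂m ≤ ∫ x in U, (u x + δ) ∂m :=
    integral_mono_ae (integrableOn_const hfin) (ev6_int hua δ hU)
      (ae_restrict_of_ae (hua.nonneg.mono fun x hx => by simp only; linarith))
  rw [setIntegral_const, smul_eq_mul] at h1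
  have h2 : 0 < m.real U := ENNReal.toReal_pos (hUo.measure_ne_zero m ⟨o, ho⟩) hfin
  exact (mul_pos h2 hδ).trans_le h1

theorem ev6_log_bd {δ s C : ℝ} (hδ : 0 < δ) (h0 : 0 ≤ s) (h1 : s ≤ C) :
    |Real.log (s + δ)| ≤ |Real.log δ| + |Real.log (C + δ)| := by
  have a1 := Real.log_le_log hδ (by linarith : δ ≤ s + δ)
  have a2 := Real.log_le_log (by linarith : 0 < s + δ) (by linarith : s + δ ≤ C + δ)
  rw [abs_le]
  constructor <;>
    linarith [neg_abs_le (Real.log δ), le_abs_self (Real.log (C + δ)), abs_nonneg (Real.log δ),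
      abs_nonneg (Real.log (C + δ))]

theorem ev6_nonneg (hua : Adm m o γ C M u) {δ c : ℝ} (hδ : 0 < δ) (hc : 0 < c) (U : Set X) :
    ∀ᵐ x ∂m, 0 ≤ U.indicator (fun x => (u x + δ) / c) x := by
  filter_upwards [hua.nonneg] with x hx
  by_cases h : x ∈ U
  · rw [indicator_of_mem h]; positivity
  · rw [indicator_of_notMem h]

theorem ev6_prob (hua : Adm m o γ C M u) {δ c : ℝ} (hδ : 0 < δ) (hc : 0 < c) {U : Set X} (hU : MeasurableSet U)
    (h : c = ∫ x in U, (u x + δ) ∂m) : IsProbabilityMeasure (den m (U.indicator fun x => (u x + δ) / c)) :=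
  den_prob (ev6_nonneg hua hδ hc U) (by rw [integral_indicator hU, integral_div, ← h, div_self hc.ne'])

theorem ev6_restrict (hua : Adm m o γ C M u) {δ c c' : ℝ} (hc : 0 < c) (hc' : 0 < c') {U A : Set X}
    (hA : MeasurableSet A) (hAU : A ⊆ U) :
    ENNReal.ofReal (c / c') • (den m (U.indicator fun x => (u x + δ) / c)).restrict A =
      den m (A.indicator fun x => (u x + δ) / c') := by
  unfold den
  rw [restrict_withDensity hA, ← withDensity_smul' _ _ ENNReal.ofReal_ne_top, ← withDensity_indicator hA]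
  congr 1
  ext x
  by_cases h : x ∈ A
  · rw [indicator_of_mem h, indicator_of_mem h, Pi.smul_apply, indicator_of_mem (hAU h), smul_eq_mul,
      ← ENNReal.ofReal_mul (by positivity)]
    congr 1
    field_simp
  · rw [indicator_of_notMem h, indicator_of_notMem h, ENNReal.ofReal_zero]

theorem ev6_ent (hua : Adm m o γ C M u) {δ c : ℝ} (hδ : 0 < δ) (hc : 0 < c) {A : Set X} (hA : MeasurableSet A)
    {R : ℝ} (hAR : A ⊆ Metric.ball o R) (h : c = ∫ x in A, (u x + δ) ∂m) :
    Ent m (den m (A.indicator fun x => (u x + δ) / c)) =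
      (∫ x in A, (u x + δ) * Real.log (u x + δ) ∂m) / c - Real.log c := by
  have hum : AEMeasurable u m := hua.meas.aemeasurable
  have i1 := ev6_int hua δ hAR
  have i2 : IntegrableOn (fun x => (u x + δ) * Real.log (u x + δ)) A m := by
    refine Integrable.mul_bdd (c := |Real.log δ| + |Real.log (C + δ)|) i1
      ((hum.add_const δ).log.restrict.aestronglyMeasurable) (ae_restrict_of_ae ?_)
    filter_upwards [hua.nonneg, hua.le] with x h0 h1 using ev6_log_bd hδ h0 h1
  rw [ent_den (((hum.add_const δ).div_const c).indicator hA) (ev6_nonneg hua hδ hc A)]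
  have e : ∀ᵐ x ∂m, A.indicator (fun x => (u x + δ) / c) x * Real.log (A.indicator (fun x => (u x + δ) / c) x) =
      A.indicator (fun x => (u x + δ) * Real.log (u x + δ) / c - (u x + δ) * (Real.log c / c)) x := by
    filter_upwards [hua.nonneg] with x h0
    by_cases hx : x ∈ A
    · rw [indicator_of_mem hx, indicator_of_mem hx, Real.log_div (by positivity) hc.ne']; ring
    · rw [indicator_of_notMem hx, indicator_of_notMem hx, zero_mul]
  rw [integral_congr_ae e, integral_indicator hA, integral_sub (i2.div_const c) (i1.mul_const _), integral_div,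
    integral_mul_const, ← h]
  field_simp

theorem evi_step (hS : Sp m κ γ) (hh : 0 < h) (hu : IsWeakLaplacian m u fun x => (u x - f x) / h)
    (hua : Adm m o γ C M u) (hfa : Adm m o γ C M f) {ν : Measure X} {C' : ℝ≥0} (hν : BddProb m o R₀ C' ν)
    {δ a R c : ℝ} (hδ : 0 < δ) (ha : 0 < a)
    (hR : ∀ x, dist x o ^ 2 / 2 - R₀ * dist x o - R₀ ^ 2 / 2 < a → dist x o < R)
    (hc : c = ∫ x in Metric.ball o R, (u x + δ) ∂m) {μ' : Measure X}
    (hμ' : μ' = den m ((Metric.ball o R).indicator fun x => (u x + δ) / c)) :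
    ∃ (φ ψ : X → ℝ) (cA : ℝ) (μ₁ : Measure X), Pot o R₀ φ ψ ∧ cA = ∫ x in {x | φ x < a}, (u x + δ) ∂m ∧ 0 < cA ∧
      IsProbabilityMeasure μ₁ ∧ μ₁ ≤ ENNReal.ofReal (c / cA) • ν ∧
      (∫ x, min (φ x) a * u x ∂m - ∫ x, φ x ∂μ' + W2 μ' ν ^ 2 / 2 - W2 (den m f) ν ^ 2 / 2) / (h * cA) ≤
        Ent m μ₁ - ((∫ x in {x | φ x < a}, (u x + δ) * Real.log (u x + δ) ∂m) / cA - Real.log cA) +
          κ / 2 * (c / cA * W2 μ' ν ^ 2) := by
  have hν1 := hν.prob
  have hf1 := hfa.prob
  have hum : AEMeasurable u m := hua.meas.aemeasurable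
  have hfm : AEMeasurable f m := hfa.meas.aemeasurable
  have hB : MeasurableSet (Metric.ball o R) := Metric.isOpen_ball.measurableSet
  have hRo : o ∈ Metric.ball o R := hR o (by rw [dist_self]; nlinarith [sq_nonneg R₀])
  have hc0 : 0 < c := hc ▸ ev6_pos hua hδ subset_rfl Metric.isOpen_ball hRo
  have hp : IsProbabilityMeasure μ' := hμ' ▸ ev6_prob hua hδ hc0 hB hc
  have hs : ∀ᵐ x ∂μ', dist x o ≤ R := by
    rw [hμ', den, ae_withDensity_iff' (((hum.add_const δ).div_const c).indicator hB).ennreal_ofReal]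
    refine Eventually.of_forall fun x hx => ?_
    by_contra hn
    rw [indicator_of_notMem (fun h' => hn (Metric.mem_ball.1 h').le), ENNReal.ofReal_zero] at hx
    exact hx rfl
  obtain ⟨φ, ψ, hP, hdual, ⟨q, hq⟩, hcont⟩ := exists_pot μ' ν o hs (bdd_ae hν)
  set A : Set X := {x | φ x < a} with hAdef
  have hAo : IsOpen A := isOpen_lt hP.cφ continuous_const
  have hA : MeasurableSet A := hAo.measurableSet
  have hAR : A ⊆ Metric.ball o R := fun x hx => hR x ((hP.lower x).trans_lt hx)
  have hoA : o ∈ A := by show φ o < a; rwa [hP.zero]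
  set cA : ℝ := ∫ x in A, (u x + δ) ∂m with hcA
  have hcA0 : 0 < cA := ev6_pos hua hδ hAR hAo hoA
  have hk : 0 ≤ c / cA := by positivity
  set ρ : X → ℝ := A.indicator fun x => (u x + δ) / cA with hρ
  have hp0 : IsProbabilityMeasure (den m ρ) := ev6_prob hua hδ hcA0 hA hcA
  set qA : Measure (X × X) := ENNReal.ofReal (c / cA) • q.restrict (Prod.fst ⁻¹' A) with hqA
  have hqle : qA ≤ ENNReal.ofReal (c / cA) • q := fun s => by
    simp only [hqA, Measure.smul_apply, smul_eq_mul]
    gcongr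
    exact Measure.restrict_le_self
  have hq1 : qA.map Prod.fst = den m ρ := by
    rw [hqA, Measure.map_smul, ← Measure.restrict_map measurable_fst hA, hq.1.1, hμ',
      ev6_restrict hua hc0 hcA0 hA hAR]
  have hcoup : IsCouplingOf qA (den m ρ) (qA.map Prod.snd) := ⟨hq1, rfl⟩
  have hqp := coup_prob hcoup
  have hp1 : IsProbabilityMeasure (qA.map Prod.snd) := Measure.isProbabilityMeasure_map measurable_snd.aemeasurable
  have hle : qA.map Prod.snd ≤ ENNReal.ofReal (c / cA) • ν := by
    rw [← hq.1.2, ← Measure.map_smul]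
    exact Measure.map_mono hqle measurable_snd
  have hb1 : BddProb m o R₀ ((c / cA).toNNReal * C') (qA.map Prod.snd) := by
    refine bddProb_of (hle.trans fun s => ?_)
      ((Measure.absolutelyContinuous_of_le hle).ae_le (Measure.ae_smul_measure (bdd_ae hν) _))
    have := hν.le s
    simp only [Measure.smul_apply, smul_eq_mul, ENNReal.coe_mul, mul_assoc] at this ⊢
    exact mul_le_mul_right this _
  obtain ⟨hg, hΓ⟩ := ev_log hS.hilb (sl_lipB hP.lipB) hu.1.2.1 hua.nonneg hδ (Real.log cA)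
  set g : X → ℝ := fun x => Real.log (max (u x) 0 + δ) - Real.log cA with hgdef
  have hρg : ρ =ᵐ[m] A.indicator fun x => Real.exp (g x) := by
    filter_upwards [hua.nonneg] with x h0
    by_cases hx : x ∈ A
    · rw [hρ, indicator_of_mem hx, indicator_of_mem hx, hgdef]
      simp only
      rw [Real.exp_sub, max_eq_left h0, Real.exp_log (by positivity), Real.exp_log hcA0]
    · rw [hρ, indicator_of_notMem hx, indicator_of_notMem hx]
  have hBd : ∀ᵐ x ∂m, φ x < a → |g x| ≤ |Real.log δ| + |Real.log (C + δ)| + |Real.log cA| := by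
    filter_upwards [hua.nonneg, hua.le] with x h0 h1 _
    refine (abs_sub _ _).trans ?_
    rw [max_eq_left h0]
    linarith [ev6_log_bd hδ h0 h1]
  have hca : ∀ᵐ p ∂qA, φ p.1 + ψ p.2 = dist p.1 p.2 ^ 2 / 2 :=
    Measure.ae_smul_measure (ae_restrict_of_ae ((hcont q hq).mono fun p hp => hp.2)) _
  have core := evi_core hS hP a hg hBd (den_congr hρg) hb1 hcoup hca
  rw [ev6_ent hua hδ hcA0 hA hAR hcA] at core
  have hW : W2sq μ' ν ≠ ⊤ := W2sq_ne_top (moment_of_bdd hs) (moment_of_bdd (bdd_ae hν))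
  have hcost : (quadCost qA).toReal ≤ c / cA * W2 μ' ν ^ 2 := by
    have h1 := quadCost_mono hqle
    rw [quadCost_smul q, opt_cost hq] at h1
    have h2 := ENNReal.toReal_mono (ENNReal.mul_ne_top ENNReal.ofReal_ne_top hW) h1
    rwa [ENNReal.toReal_mul, ENNReal.toReal_ofReal hk, ← W2_sq] at h2
  have hI : ∫ x, gradPairing m φ g x ∂den m ρ = (∫ x in A, gradPairing m φ u x ∂m) / cA := by
    rw [den_int (((hum.add_const δ).div_const cA).indicator hA) (ev6_nonneg hua hδ hcA0 A), ← integral_div,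
      ← integral_indicator hA]
    refine integral_congr_ae ?_
    filter_upwards [hΓ] with x hx
    by_cases h' : x ∈ A
    · rw [indicator_of_mem h', indicator_of_mem h', ← hx]; ring
    · rw [indicator_of_notMem h', indicator_of_notMem h', mul_zero]
  have hT := ev_test hS.hilb hP a hh hu (hua.int_sq hS.γ_pos (hS.growth o)) (hfa.int_sq hS.γ_pos (hS.growth o))
    (hua.mass.trans hfa.mass.symm)
  have hmom := hfa.moment hS.γ_pos (hS.growth o)
  have hd2 := hP.dual_le hmom (bdd_ae hν)
  have iφ : Integrable φ (den m f) := hP.int_phi hmom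
  have hmin : ∫ x, min (φ x) a * f x ∂m ≤ ∫ x, φ x ∂den m f := by
    rw [← den_int hfm hfa.nonneg]
    exact integral_mono (iφ.inf (integrable_const a)) iφ fun x => min_le_left _ _
  refine ⟨φ, ψ, cA, qA.map Prod.snd, hP, rfl, hcA0, hp1, hle, ?_⟩
  have hκ := mul_le_mul_of_nonneg_left hcost (div_nonneg hS.κ_nonneg zero_le_two)
  refine le_trans ?_ (core.trans (by linarith))
  rw [hI, div_le_iff₀ (by positivity)]
  have e : -((∫ x in A, gradPairing m φ u x ∂m) / cA) * (h * cA) = -h * ∫ x in A, gradPairing m φ u x ∂m := by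
    field_simp
  rw [e, hT]
  linarith

end Crest.Agent.R242
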