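import Crest.Agent.R242.Ev7a

/-! Row 242, I-d, TASK Ev7: the discrete EVI (aux names `ev7_*`).
`evi_bdd`: apply `evi_step` with `a n = (n + R₀) n + 1` (so `ball o n ⊆ {φ < a n}` by `Pot.abs_le`), `R n ≥ n` as in `hR`, and
`δ n ∈ (0, 1]` so small that `δ n * ∫_{ball o (R n)} (1 + d²) ≤ 1/n` and `|(s + δ n) log (s + δ n) - s log s| * m (ball o (R n)) ≤ 1/n` for
`s ∈ [0, C]` (uniform continuity).  Then `c n → 1`, `cA n → 1` (between `∫_{ball o n} u` and `c n`), `W2 (μ' n) (den u) → 0`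
(`W2sq_le_dens`), `∫ min φ a * u - ∫ φ dμ' → 0` (`|min φ a| ≤ |φ| ≤ (d + R₀) d`, the two agree on `ball o n` up to `1/c` and `δ`),
`∫_A (u + δ) log (u + δ) → ∫ u log u` (`Adm.int_ent`), `ent_le_of_le`.
`evi_adm`: `Adm.cut`, `W2_triangle`. -/

set_option autoImplicit false
set_option linter.unusedSectionVars false
open MeasureTheory Filter Set Topology
open scoped ENNReal NNReal
open Crest.GeometryTopology.SyntheticRicci

namespace Crest.Agent.R242

variable {X : Type*} [MetricSpace X] [ProperSpace X] [MeasurableSpace X] [BorelSpace X] {m : Measure X}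
  [Fact (IsFiniteOnBalls m)] [m.IsOpenPosMeasure]

variable {o : X} {R₀ h γ κ M : ℝ} {C : ℝ≥0} {u f g : X → ℝ}

theorem ev7_abs {μ ν ρ : Measure X} [IsProbabilityMeasure μ] [IsProbabilityMeasure ν] [IsProbabilityMeasure ρ]
    (hμ : HasFiniteSecondMoment μ) (hν : HasFiniteSecondMoment ν) (hρ : HasFiniteSecondMoment ρ) :
    |W2 μ ν - W2 μ ρ| ≤ W2 ν ρ := by
  have h1 := W2_triangle (W2sq_ne_top hμ hν) (W2sq_ne_top hν hρ)
  have h2 := W2_triangle (W2sq_ne_top hμ hρ) (W2sq_ne_top hρ hν)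
  rw [W2_comm ρ ν] at h2
  exact abs_le.2 ⟨by linarith, by linarith⟩

theorem evi_adm (hS : Sp m κ γ) (hh : 0 < h) (hu : IsWeakLaplacian m u fun x => (u x - f x) / h)
    (hua : Adm m o γ C M u) (hfa : Adm m o γ C M f) (hga : Adm m o γ C M g) :
    W2 (den m u) (den m g) ^ 2 - W2 (den m f) (den m g) ^ 2 ≤
      h * (2 * Ent m (den m g) - 2 * Ent m (den m u) + κ * W2 (den m u) (den m g) ^ 2) := by
  have hε : ∀ n : ℕ, (0 : ℝ) < 1 / (n + 1) := fun n => by positivity
  choose R C' ν hν hW hE using fun n => hga.cut hS.γ_pos (hS.growth o) (hε n)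
  have := hga.prob
  have h0 := tendsto_one_div_add_atTop_nhds_zero_nat (𝕜 := ℝ)
  have key : ∀ {v : X → ℝ}, Adm m o γ C M v →
      Tendsto (fun n => W2 (den m v) (ν n)) atTop (𝓝 (W2 (den m v) (den m g))) := fun hv => by
    have := hv.prob
    refine tendsto_iff_norm_sub_tendsto_zero.2 (squeeze_zero (fun _ => norm_nonneg _) (fun n => ?_) h0)
    have := (hν n).prob
    exact (ev7_abs (hv.moment hS.γ_pos (hS.growth o)) (moment_of_bdd (bdd_ae (hν n)))
      (hga.moment hS.γ_pos (hS.growth o))).trans (hW n)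
  have h1 := ((((h0.const_add (Ent m (den m g))).const_mul 2).sub_const (2 * Ent m (den m u))).add
    (((key hua).pow 2).const_mul κ)).const_mul h
  rw [add_zero] at h1
  refine le_of_tendsto_of_tendsto' (((key hua).pow 2).sub ((key hfa).pow 2)) h1 fun n =>
    (evi_bdd hS hh hu hua hfa (hν n)).trans (mul_le_mul_of_nonneg_left ?_ hh.le)
  linarith [hE n]

end Crest.Agent.R242
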