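import Crest.Agent.R242.Ev6

/-! Row 242, I-d, TASK Ev7a: the discrete EVI (aux names `ev7a_*`).
`evi_bdd`: apply `evi_step` with `a n = (n + R₀) n + 1` (so `ball o n ⊆ {φ < a n}` by `Pot.abs_le`), `R n ≥ n` as in `hR`, and
`δ n ∈ (0, 1]` so small that `δ n * ∫_{ball o (R n)} (1 + d²) ≤ 1/n` and `|(s + δ n) log (s + δ n) - s log s| * m (ball o (R n)) ≤ 1/n` for
`s ∈ [0, C]` (uniform continuity).  Then `c n → 1`, `cA n → 1` (between `∫_{ball o n} u` and `c n`), `W2 (μ' n) (den u) → 0`
(`W2sq_le_dens`), `∫ min φ a * u - ∫ φ dμ' → 0` (`|min φ a| ≤ |φ| ≤ (d + R₀) d`, the two agree on `ball o n` up to `1/c` and `δ`),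
`∫_A (u + δ) log (u + δ) → ∫ u log u` (`Adm.int_ent`), `ent_le_of_le`.
`evi_adm`: `Adm.cut`, `W2_triangle`. -/

set_option autoImplicit false
set_option linter.unusedSectionVars false
open MeasureTheory Filter Set Topology
open scoped ENNReal NNReal
open Crest.GeometryTopology.SyntheticRicci

namespace Crest.Agent.R242

variable {X : Type*} [MetricSpace X] [ProperSpace X] [MeasurableSpace X] [BorelSpace X] {m : Measure X}
  [Fact (IsFiniteOnBalls m)] [m.IsOpenPosMeasure]

variable {o : X} {R₀ h γ κ M : ℝ} {C : ℝ≥0} {u f g : X → ℝ}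

theorem ev7a_w (o : X) (R : ℝ) : IntegrableOn (fun x => 1 + dist x o ^ 2) (Metric.ball o R) m :=
  (ContinuousOn.integrableOn_compact (isCompact_closedBall o R) (by fun_prop)).mono_set
    Metric.ball_subset_closedBall

theorem ev7a_N (hua : Adm m o γ C M u) (hw : Integrable (fun x => (1 + dist x o ^ 2) * u x) m) {r R δ c e : ℝ}
    (hrR : r ≤ R) (hδ : 0 < δ) (hc : 0 < c) (hδe : δ * ∫ x in Metric.ball o R, (1 + dist x o ^ 2) ∂m ≤ e) :
    Integrable (fun x => (1 + dist x o ^ 2) * |(Metric.ball o R).indicator (fun x => (u x + δ) / c) x - u x|) m ∧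
    ∫ x, (1 + dist x o ^ 2) * |(Metric.ball o R).indicator (fun x => (u x + δ) / c) x - u x| ∂m ≤
      ∫ x in (Metric.ball o r)ᶜ, (1 + dist x o ^ 2) * u x ∂m +
        |c⁻¹ - 1| * ∫ x, (1 + dist x o ^ 2) * u x ∂m + e * c⁻¹ := by
  have i1 := (integrable_indicator_iff (measurableSet_ball (x := o) (ε := r)).compl).2 hw.integrableOn
  have i2 := hw.const_mul |c⁻¹ - 1|
  have i3 := ((integrable_indicator_iff measurableSet_ball).2 (ev7a_w (m := m) o R)).const_mul (δ * c⁻¹)
  have hle : ∀ᵐ x ∂m, (1 + dist x o ^ 2) * |(Metric.ball o R).indicator (fun x => (u x + δ) / c) x - u x| ≤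
      (Metric.ball o r)ᶜ.indicator (fun x => (1 + dist x o ^ 2) * u x) x +
        |c⁻¹ - 1| * ((1 + dist x o ^ 2) * u x) +
        δ * c⁻¹ * (Metric.ball o R).indicator (fun x => 1 + dist x o ^ 2) x := by
    filter_upwards [hua.nonneg] with x hx
    have h0 : 0 ≤ 1 + dist x o ^ 2 := by positivity
    have h1 : 0 ≤ (Metric.ball o r)ᶜ.indicator (fun x => (1 + dist x o ^ 2) * u x) x :=
      indicator_apply_nonneg fun _ => mul_nonneg h0 hx
    by_cases hB : x ∈ Metric.ball o R
    · rw [indicator_of_mem hB, indicator_of_mem hB]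
      have h2 : |(u x + δ) / c - u x| ≤ |c⁻¹ - 1| * u x + δ * c⁻¹ := by
        rw [show (u x + δ) / c - u x = (c⁻¹ - 1) * u x + δ * c⁻¹ by ring]
        refine (abs_add_le _ _).trans (le_of_eq ?_)
        rw [abs_mul, abs_of_nonneg hx, abs_of_pos (by positivity : 0 < δ * c⁻¹)]
      nlinarith [mul_le_mul_of_nonneg_left h2 h0]
    · have hr : x ∈ (Metric.ball o r)ᶜ := fun h => hB (Metric.ball_subset_ball hrR h)
      rw [indicator_of_notMem hB, indicator_of_notMem hB, indicator_of_mem hr, zero_sub, abs_neg, abs_of_nonneg hx]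
      have := mul_nonneg (abs_nonneg (c⁻¹ - 1)) (mul_nonneg h0 hx)
      linarith
  have hm : AEStronglyMeasurable
      (fun x => (1 + dist x o ^ 2) * |(Metric.ball o R).indicator (fun x => (u x + δ) / c) x - u x|) m := by
    have h1 := hua.meas.aemeasurable
    exact ((by fun_prop : Measurable fun x => 1 + dist x o ^ 2).aemeasurable.mul (continuous_abs.measurable.comp_aemeasurable
      ((((h1.add_const δ).div_const c).indicator measurableSet_ball).sub h1))).aestronglyMeasurable
  have hi := ((i1.add i2).add i3).mono' hm (hle.mono fun x hx => by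
    rw [Real.norm_of_nonneg (by positivity)]; exact hx)
  refine ⟨hi, (integral_mono_ae hi ((i1.add i2).add i3) hle).trans ?_⟩
  rw [integral_add' (i1.add i2) i3, integral_add' i1 i2, integral_indicator measurableSet_ball.compl,
    integral_const_mul, integral_const_mul, integral_indicator measurableSet_ball]
  have := mul_le_mul_of_nonneg_right hδe (inv_pos.2 hc).le
  linarith [mul_right_comm δ c⁻¹ (∫ x in Metric.ball o R, (1 + dist x o ^ 2) ∂m)]

set_option maxHeartbeats 1000000 in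
theorem ev7a_step (hS : Sp m κ γ) (hh : 0 < h) (hu : IsWeakLaplacian m u fun x => (u x - f x) / h)
    (hua : Adm m o γ C M u) (hfa : Adm m o γ C M f) {ν : Measure X} {C' : ℝ≥0} (hν : BddProb m o R₀ C' ν)
    {r e τ τ' Q : ℝ} (hr : 0 < r) (he : 0 < e) (hτ : τ = ∫ x in (Metric.ball o r)ᶜ, (1 + dist x o ^ 2) * u x ∂m)
    (hτ' : τ' = ∫ x in (Metric.ball o r)ᶜ, |u x * Real.log (u x)| ∂m)
    (hQ : Q = ∫ x, (1 + dist x o ^ 2) * u x ∂m) :
    ∃ (c cA W : ℝ) (μ₁ : Measure X), 1 - τ ≤ cA ∧ 0 < cA ∧ cA ≤ c ∧ c ≤ 1 + e ∧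
      |W - W2 (den m u) ν| ≤ √(2 * (τ + |c⁻¹ - 1| * Q + e * c⁻¹)) ∧ IsProbabilityMeasure μ₁ ∧
      μ₁ ≤ ENNReal.ofReal (c / cA) • ν ∧
      (-((1 + R₀) * (τ + (τ + |c⁻¹ - 1| * Q + e * c⁻¹))) + W ^ 2 / 2 - W2 (den m f) ν ^ 2 / 2) / (h * cA) ≤
        Ent m μ₁ - ((Ent m (den m u) - τ' - 2 * e) / cA - Real.log cA) + κ / 2 * (c / cA * W ^ 2) := by
  have := hν.prob
  have := hua.prob
  have hR0 : 0 ≤ R₀ := kc_nonneg (bdd_ae hν)
  have hw := hua.int_sq hS.γ_pos (hS.growth o)
  have hent := hua.int_ent hS.γ_pos (hS.growth o)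
  have hui := hua.integrable
  obtain ⟨a, ha⟩ : ∃ a, a = (r + R₀) * r + 1 := ⟨_, rfl⟩
  have ha0 : 0 < a := by rw [ha]; positivity
  obtain ⟨R, hRd⟩ : ∃ R, R = 2 * R₀ + R₀ ^ 2 + 2 * a + 2 + r := ⟨_, rfl⟩
  have hrR : r ≤ R := by nlinarith [sq_nonneg R₀]
  have hR : ∀ x, dist x o ^ 2 / 2 - R₀ * dist x o - R₀ ^ 2 / 2 < a → dist x o < R := fun x hx => by
    by_contra hc
    have h1 : R ≤ dist x o := not_lt.1 hc
    have h2 : 1 ≤ dist x o := by nlinarith [sq_nonneg R₀]
    have h3 : R₀ ^ 2 / 2 + a ≤ dist x o / 2 - R₀ := by linarith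
    nlinarith [mul_le_mul h2 h3 (by positivity) dist_nonneg]
  obtain ⟨V, hV⟩ : ∃ V, V = ∫ x in Metric.ball o R, (1 + dist x o ^ 2) ∂m := ⟨_, rfl⟩
  have hV1 : m.real (Metric.ball o R) ≤ V := by
    have := setIntegral_mono_on (integrableOn_const (C := (1 : ℝ)) ((Fact.out : IsFiniteOnBalls m) o R).ne)
      (ev7a_w o R) measurableSet_ball fun x _ => le_add_of_nonneg_right (sq_nonneg _)
    rwa [setIntegral_const, smul_eq_mul, mul_one, ← hV] at this
  have hV0 : 0 ≤ V := measureReal_nonneg.trans hV1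
  have hδ' : 0 < e / (V + 1) := by positivity
  have hδ'V : e / (V + 1) * V ≤ e := by
    rw [div_mul_eq_mul_div, div_le_iff₀ (by positivity)]; nlinarith
  obtain ⟨K, hK, hun⟩ := ev3_unif (C + 1) hδ'
  obtain ⟨δ, hδ, hδ1, hδ2, hδ3⟩ : ∃ δ : ℝ, 0 < δ ∧ δ ≤ 1 ∧ δ ≤ e / (V + 1) ∧ K * δ ≤ e / (V + 1) :=
    ⟨min 1 (min (e / (V + 1)) (e / (V + 1) / K)), by positivity, min_le_left _ _,
      (min_le_right _ _).trans (min_le_left _ _),
      by rw [← le_div_iff₀' hK]; exact (min_le_right _ _).trans (min_le_right _ _)⟩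
  have hδe : δ * V ≤ e := (mul_le_mul_of_nonneg_right hδ2 hV0).trans hδ'V
  obtain ⟨c, hc⟩ : ∃ c, c = ∫ x in Metric.ball o R, (u x + δ) ∂m := ⟨_, rfl⟩
  obtain ⟨φ, ψ, cA, μ₁, hP, hcA, hcA0, hp, hle, hmain⟩ := evi_step hS hh hu hua hfa hν hδ ha0 hR hc rfl
  have hA : MeasurableSet {x | φ x < a} := (isOpen_lt hP.cφ continuous_const).measurableSet
  have hAB : {x | φ x < a} ⊆ Metric.ball o R := fun x hx => hR x ((hP.lower x).trans_lt hx)
  have hrA : Metric.ball o r ⊆ {x | φ x < a} := fun x hx => by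
    have h1 : dist x o < r := hx
    have h2 := (le_abs_self _).trans (hP.abs_le x)
    have h3 : (dist x o + R₀) * dist x o ≤ (r + R₀) * r :=
      mul_le_mul (by linarith) h1.le dist_nonneg (by positivity)
    show φ x < a
    linarith
  have hpos : ∀ᵐ x ∂m, 0 ≤ u x + δ := hua.nonneg.mono fun x hx => by linarith
  have hcc : cA ≤ c := by
    rw [hcA, hc]
    exact setIntegral_mono_set (ev6_int hua δ subset_rfl) (ae_restrict_of_ae hpos) hAB.eventuallyLE
  have hc0 : 0 < c := hcA0.trans_le hcc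
  have hτu : ∫ x in (Metric.ball o r)ᶜ, u x ∂m ≤ τ := by
    rw [hτ]
    refine setIntegral_mono_ae hui.integrableOn hw.integrableOn (hua.nonneg.mono fun x hx => ?_)
    exact le_mul_of_one_le_left hx (le_add_of_nonneg_right (sq_nonneg _))
  have hc1 : 1 - τ ≤ cA := by
    have h1 := integral_add_compl (measurableSet_ball (x := o) (ε := r)) hui
    have h2 : ∫ x in Metric.ball o r, u x ∂m ≤ ∫ x in Metric.ball o r, (u x + δ) ∂m :=
      setIntegral_mono_on hui.integrableOn (ev6_int hua δ subset_rfl) measurableSet_ball fun x _ => by linarith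
    have h3 : ∫ x in Metric.ball o r, (u x + δ) ∂m ≤ cA := by
      rw [hcA]
      exact setIntegral_mono_set (ev6_int hua δ hAB) (ae_restrict_of_ae hpos) hrA.eventuallyLE
    linarith [hua.mass]
  have hc2 : c ≤ 1 + e := by
    rw [hc, integral_add hui.integrableOn (integrableOn_const ((Fact.out : IsFiniteOnBalls m) o R).ne),
      setIntegral_const, smul_eq_mul, ← hua.mass]
    have := setIntegral_le_integral (s := Metric.ball o R) hui hua.nonneg
    linarith only [mul_le_mul_of_nonneg_left hV1 hδ.le, this, hδe]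
  obtain ⟨hNi, hN⟩ := ev7a_N hua hw hrR hδ hc0 (hV ▸ hδe)
  rw [← hτ, ← hQ] at hN
  set ρ := (Metric.ball o R).indicator fun x => (u x + δ) / c with hρ
  have hρ0 := ev6_nonneg hua hδ hc0 (Metric.ball o R)
  have hρi : Integrable ρ m :=
    (integrable_indicator_iff measurableSet_ball).2 ((ev6_int hua δ subset_rfl).div_const c)
  have hρ1 : ∫ x, ρ x ∂m = 1 := by
    rw [hρ, integral_indicator measurableSet_ball, integral_div, ← hc, div_self hc0.ne']
  have := den_prob hρ0 hρ1
  have hD : W2sq (den m ρ) (den m u) ≤ ENNReal.ofReal (2 * (τ + |c⁻¹ - 1| * Q + e * c⁻¹)) := by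
    refine (W2sq_le_dens m hρi hui hρ0 hua.nonneg (hρ1.trans hua.mass.symm) o).trans ?_
    rw [ENNReal.ofReal_mul zero_le_two, ENNReal.ofReal_ofNat]
    refine mul_le_mul_right (le_trans ?_ (ENNReal.ofReal_le_ofReal hN)) _
    rw [ofReal_integral_eq_lintegral_ofReal hNi (Eventually.of_forall fun x => by positivity)]
    exact lintegral_mono fun x => ENNReal.ofReal_le_ofReal
      (mul_le_mul_of_nonneg_right (le_add_of_nonneg_left zero_le_one) (abs_nonneg _))
  have f1 : W2sq (den m ρ) (den m u) ≠ ⊤ := ne_top_of_le_ne_top ENNReal.ofReal_ne_top hD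
  have f2 : W2sq (den m u) ν ≠ ⊤ := by
    obtain ⟨M', g, hg, rfl⟩ := hν.adm γ
    exact W2sq_ne_top (hua.moment hS.γ_pos (hS.growth o)) (hg.moment hS.γ_pos (hS.growth o))
  have hN0 : 0 ≤ τ + |c⁻¹ - 1| * Q + e * c⁻¹ := (integral_nonneg fun x => by positivity).trans hN
  have hD' : W2 (den m ρ) (den m u) ≤ √(2 * (τ + |c⁻¹ - 1| * Q + e * c⁻¹)) :=
    Real.sqrt_le_sqrt (ENNReal.toReal_le_of_le_ofReal (by positivity) hD)
  refine ⟨c, cA, W2 (den m ρ) ν, μ₁, hc1, hcA0, hcc, hc2, ?_, hp, hle, le_trans ?_ (hmain.trans ?_)⟩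
  · have t1 := W2_triangle f1 f2
    have t2 := W2_triangle (W2sq_comm (den m ρ) (den m u) ▸ f1) (W2sq_ne_top_trans f1 f2)
    rw [W2_comm (den m u) (den m ρ)] at t2
    exact abs_le.2 ⟨by linarith, by linarith⟩
  · refine div_le_div_of_nonneg_right ?_ (by positivity)
    have hφ : ∀ x, |φ x| ≤ (1 + R₀) * (1 + dist x o ^ 2) := fun x => (hP.abs_le x).trans (by
      have h1 : dist x o ≤ 1 + dist x o ^ 2 := by nlinarith [sq_nonneg (dist x o - 1)]
      nlinarith [mul_le_mul_of_nonneg_left h1 hR0])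
    have hφm := hP.cφ.aestronglyMeasurable (μ := m)
    have j0 := hw.const_mul (1 + R₀)
    have j1 : Integrable (fun x => min (φ x) a * u x) m :=
      j0.mono' ((hP.cφ.min continuous_const).aestronglyMeasurable.mul hua.meas) (hua.nonneg.mono fun x hx => by
        rw [Real.norm_eq_abs, abs_mul, abs_of_nonneg hx, ← mul_assoc]
        refine mul_le_mul_of_nonneg_right (le_trans ?_ (hφ x)) hx
        rcases le_total (φ x) a with h1 | h1
        · rw [min_eq_left h1]
        · rw [min_eq_right h1, abs_of_pos ha0]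
          exact h1.trans (le_abs_self _))
    have j2 : Integrable (fun x => φ x * ρ x) m :=
      (j0.add (hNi.const_mul (1 + R₀))).mono' (hφm.mul hρi.1) (hua.nonneg.mono fun x hx => by
        have h1 : |ρ x| ≤ u x + |ρ x - u x| := by
          have := abs_add_le (u x) (ρ x - u x)
          rwa [add_sub_cancel, abs_of_nonneg hx] at this
        rw [Real.norm_eq_abs, abs_mul]
        refine (mul_le_mul (hφ x) h1 (abs_nonneg _) (by positivity)).trans (le_of_eq ?_)
        simp only [Pi.add_apply]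
        ring)
    have j3 := (integrable_indicator_iff (measurableSet_ball (x := o) (ε := r)).compl).2 hw.integrableOn
    have key : ∫ x, -((1 + R₀) * ((Metric.ball o r)ᶜ.indicator (fun x => (1 + dist x o ^ 2) * u x) x +
        (1 + dist x o ^ 2) * |ρ x - u x|)) ∂m ≤ ∫ x, (min (φ x) a * u x - φ x * ρ x) ∂m := by
      refine integral_mono_ae ((j3.add hNi).const_mul _).neg (j1.sub j2) (hua.nonneg.mono fun x hx => ?_)
      have h1 : φ x * (ρ x - u x) ≤ (1 + R₀) * (1 + dist x o ^ 2) * |ρ x - u x| :=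
        (le_abs_self _).trans ((abs_mul _ _).le.trans (mul_le_mul_of_nonneg_right (hφ x) (abs_nonneg _)))
      have h2 : (φ x - min (φ x) a) * u x ≤
          (1 + R₀) * (Metric.ball o r)ᶜ.indicator (fun x => (1 + dist x o ^ 2) * u x) x := by
        by_cases hx' : x ∈ Metric.ball o r
        · rw [min_eq_left (le_of_lt (hrA hx')), indicator_of_notMem (notMem_compl_iff.2 hx'), sub_self, zero_mul, mul_zero]
        · rw [indicator_of_mem (show x ∈ (Metric.ball o r)ᶜ from hx'), ← mul_assoc]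
          refine mul_le_mul_of_nonneg_right (le_trans ?_ (hφ x)) hx
          rcases le_total (φ x) a with h1 | h1
          · rw [min_eq_left h1, sub_self]
            exact abs_nonneg _
          · rw [min_eq_right h1]
            linarith [le_abs_self (φ x)]
      dsimp only
      linarith only [h1, h2]
    rw [integral_sub j1 j2, integral_neg, integral_const_mul, integral_add j3 hNi,
      integral_indicator measurableSet_ball.compl, ← hτ] at key
    rw [den_int hρi.1.aemeasurable hρ0]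
    have k := mul_le_mul_of_nonneg_left hN (by positivity : 0 ≤ 1 + R₀)
    linarith only [k, key]
  · have hfin : m {x | φ x < a} ≠ ⊤ := ((measure_mono hAB).trans_lt ((Fact.out : IsFiniteOnBalls m) o R)).ne
    have j1 : IntegrableOn (fun x => (u x + δ) * Real.log (u x + δ)) {x | φ x < a} m := by
      refine Measure.integrableOn_of_bounded hfin (M := (C + δ) * (|Real.log δ| + |Real.log (C + δ)|))
        ((hua.meas.aemeasurable.add_const δ).mul (hua.meas.aemeasurable.add_const δ).log).aestronglyMeasurable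
        (ae_restrict_of_ae ?_)
      filter_upwards [hua.nonneg, hua.le] with x h1 h2
      rw [Real.norm_eq_abs, abs_mul, abs_of_nonneg (by linarith)]
      exact mul_le_mul (by linarith) (ev6_log_bd hδ h1 h2) (abs_nonneg _) (by positivity)
    have k1 : ∫ x in {x | φ x < a}, u x * Real.log (u x) ∂m ≤
        ∫ x in {x | φ x < a}, ((u x + δ) * Real.log (u x + δ) + 2 * (e / (V + 1))) ∂m := by
      refine setIntegral_mono_ae hent.integrableOn (j1.add (integrableOn_const hfin)) ?_
      filter_upwards [hua.nonneg, hua.le] with x h1 h2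
      have := hun (u x) ⟨h1, by linarith⟩ (u x + δ) ⟨by linarith, by linarith⟩
      rw [sub_add_cancel_left, abs_neg, abs_of_pos hδ] at this
      linarith
    rw [integral_add j1 (integrableOn_const hfin), setIntegral_const, smul_eq_mul] at k1
    have k2 : m.real {x | φ x < a} ≤ V :=
      (measureReal_mono hAB ((Fact.out : IsFiniteOnBalls m) o R).ne).trans hV1
    have k3 := integral_add_compl hA hent
    have k4 : ∫ x in {x | φ x < a}ᶜ, u x * Real.log (u x) ∂m ≤ τ' := by
      rw [hτ']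
      exact (setIntegral_mono_on hent.integrableOn hent.abs.integrableOn hA.compl fun x _ => le_abs_self _).trans
        (setIntegral_mono_set hent.abs.integrableOn (Eventually.of_forall fun x => abs_nonneg _)
          (compl_subset_compl.2 hrA).eventuallyLE)
    have k5 : Ent m (den m u) - τ' - 2 * e ≤ ∫ x in {x | φ x < a}, (u x + δ) * Real.log (u x + δ) ∂m := by
      rw [ent_den hua.meas.aemeasurable hua.nonneg]
      linarith only [mul_le_mul_of_nonneg_left k2 hδ'.le, k1, k3, k4, hδ'V]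
    have := div_le_div_of_nonneg_right k5 hcA0.le
    linarith only [this]

theorem ev7a_tail {g : X → ℝ} (hg : Integrable g m) (o : X) :
    Tendsto (fun n : ℕ => ∫ x in (Metric.ball o ((n : ℝ) + 1))ᶜ, g x ∂m) atTop (𝓝 0) := by
  have := tendsto_setIntegral_of_antitone (μ := m) (f := g) (s := fun n : ℕ => (Metric.ball o ((n : ℝ) + 1))ᶜ)
    (fun n => measurableSet_ball.compl)
    (fun a b hab => compl_subset_compl.2 (Metric.ball_subset_ball (by
      have : (a : ℝ) ≤ b := by exact_mod_cast hab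
      linarith))) ⟨0, hg.integrableOn⟩
  rwa [← compl_iUnion, Metric.iUnion_ball_nat_succ, compl_univ, setIntegral_empty] at this

theorem evi_bdd (hS : Sp m κ γ) (hh : 0 < h) (hu : IsWeakLaplacian m u fun x => (u x - f x) / h)
    (hua : Adm m o γ C M u) (hfa : Adm m o γ C M f) {ν : Measure X} {C' : ℝ≥0} (hν : BddProb m o R₀ C' ν) :
    W2 (den m u) ν ^ 2 - W2 (den m f) ν ^ 2 ≤
      h * (2 * Ent m ν - 2 * Ent m (den m u) + κ * W2 (den m u) ν ^ 2) := by
  have t1 := ev7a_tail (hua.int_sq hS.γ_pos (hS.growth o)) o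
  have t2 := ev7a_tail (hua.int_ent hS.γ_pos (hS.growth o)).abs o
  have t3 : Tendsto (fun n : ℕ => 1 / ((n : ℝ) + 1)) atTop (𝓝 0) := tendsto_one_div_add_atTop_nhds_zero_nat
  choose c cA W μ₁ h1 h2 h3 h4 h5 h6 h7 h8 using fun n : ℕ =>
    ev7a_step hS hh hu hua hfa hν (r := (n : ℝ) + 1) (e := 1 / ((n : ℝ) + 1)) (by positivity) (by positivity)
      rfl rfl rfl
  have lo := t1.const_sub 1
  have hi := t3.const_add 1
  rw [sub_zero] at lo
  rw [add_zero] at hi
  have tc : Tendsto c atTop (𝓝 1) :=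
    tendsto_of_tendsto_of_tendsto_of_le_of_le lo hi (fun n => (h1 n).trans (h3 n)) h4
  have tA : Tendsto cA atTop (𝓝 1) :=
    tendsto_of_tendsto_of_tendsto_of_le_of_le lo hi h1 fun n => (h3 n).trans (h4 n)
  have tN := (t1.add (((tc.inv₀ one_ne_zero).sub_const 1).abs.mul_const
    (∫ x, (1 + dist x o ^ 2) * u x ∂m))).add (t3.mul (tc.inv₀ one_ne_zero))
  rw [inv_one, sub_self, abs_zero, zero_mul, zero_mul, add_zero, add_zero] at tN
  have tW : Tendsto W atTop (𝓝 (W2 (den m u) ν)) := by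
    have := (tN.const_mul 2).sqrt
    rw [mul_zero, Real.sqrt_zero] at this
    exact tendsto_sub_nhds_zero_iff.1 (squeeze_zero_norm h5 this)
  have tq := tc.div tA one_ne_zero
  have key : ∀ ε : ℝ, 0 < ε → (W2 (den m u) ν ^ 2 / 2 - W2 (den m f) ν ^ 2 / 2) / h ≤
      Ent m ν - Ent m (den m u) + κ / 2 * W2 (den m u) ν ^ 2 + ε := fun ε hε => by
    obtain ⟨η, hη, hE⟩ := ent_le_of_le hν hε
    have l1 := ((((t1.add tN).const_mul (1 + R₀)).neg.add ((tW.pow 2).div_const 2)).sub_const
      (W2 (den m f) ν ^ 2 / 2)).div (tA.const_mul h) (by positivity)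
    have l2 := (((((t2.const_sub (Ent m (den m u))).sub (t3.const_mul 2)).div tA one_ne_zero).sub
      (tA.log one_ne_zero)).const_sub (Ent m ν + ε)).add ((tq.mul (tW.pow 2)).const_mul (κ / 2))
    have l3 := le_of_tendsto_of_tendsto l1 l2 (by
      filter_upwards [tq.eventually (eventually_le_nhds (show (1 : ℝ) / 1 < 1 + η by linarith))] with n hn
      have := hE (μ₁ n) (h6 n) ((h7 n).trans (Measure.le_iff'.2 fun s => by
        simp only [Measure.smul_apply, smul_eq_mul]
        exact mul_le_mul_left (ENNReal.ofReal_le_ofReal hn) _))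
      refine (h8 n).trans ?_
      simp only [Pi.div_apply]
      linarith)
    simp only [add_zero, mul_zero, neg_zero, zero_add, mul_one, sub_zero, div_one, Real.log_one, one_mul] at l3
    linarith
  have := (div_le_iff₀ hh).1 (le_of_forall_pos_le_add key)
  linarith

end Crest.Agent.R242
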