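import Crest.Agent.R242.Ev7

/-! Row 242, I-d, TASK Ev8: contraction (aux names `ev8_*`).
`h = t / n`, `f k = (J h)^[k] f`, `g k` likewise, all `Adm` with `M' = exp (4 γ² t) M` for `k ≤ n` (`adm_iter`; `0 ≤ M`),
`a k = W2 (f k) (g k) ^ 2`, `b k = W2 (f k) (g (k+1)) ^ 2`, `e k, e' k` the entropies (`adm_ent_bound`).  `evi_adm` twice
(`Heat.J_gen`, `W2_comm`), `ev_gronwall`, then `n → ∞` (`Heat.euler`, `adm_P`, `Adm.W2_tendsto`, `W2_triangle`,
`(1 - κ t / n)⁻¹ ^ (2 n) → exp (2 κ t)`).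
`ev_gronwall`: with `r = (1 - κ h)⁻¹ ≥ 1`, `c k = a k + 2 h (e k + B)` satisfies `c (k+1) ≤ r² c k` and `a k ≤ c k`. -/

set_option autoImplicit false
set_option linter.unusedSectionVars false
open MeasureTheory Filter Set Topology
open scoped ENNReal NNReal
open Crest.GeometryTopology.SyntheticRicci

namespace Crest.Agent.R242

variable {X : Type*} [MetricSpace X] [ProperSpace X] [MeasurableSpace X] [BorelSpace X] {m : Measure X}
  [Fact (IsFiniteOnBalls m)] [m.IsOpenPosMeasure]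

theorem ev_gronwall {a b e e' : ℕ → ℝ} {κ h B : ℝ} {n : ℕ} (hκ : 0 ≤ κ) (hh : 0 < h) (hκh : κ * h ≤ 1 / 2)
    (he : ∀ k ≤ n, |e k| ≤ B) (he' : ∀ k ≤ n, |e' k| ≤ B)
    (h1 : ∀ k < n, a (k + 1) - b k ≤ h * (2 * e' (k + 1) - 2 * e (k + 1) + κ * a (k + 1)))
    (h2 : ∀ k < n, b k - a k ≤ h * (2 * e k - 2 * e' (k + 1) + κ * b k)) :
    a n ≤ ((1 - κ * h)⁻¹) ^ (2 * n) * (a 0 + 4 * h * B) := by
  have hs : 0 < 1 - κ * h := by linarith
  set r := (1 - κ * h)⁻¹ with hr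
  have hr1 : 1 ≤ r := (one_le_inv₀ hs).2 (by nlinarith [mul_nonneg hκ hh.le])
  have hrs : r * (1 - κ * h) = 1 := inv_mul_cancel₀ hs.ne'
  have key : ∀ k ≤ n, a k + 2 * h * (e k + B) ≤ r ^ (2 * k) * (a 0 + 2 * h * (e 0 + B)) := by
    intro k
    induction k with
    | zero => intro _; simp
    | succ k ih =>
      intro hk
      have i1 := ih (by omega)
      have e1 : 0 ≤ e (k + 1) + B := by linarith [(abs_le.1 (he _ hk)).1]
      have e2 : 0 ≤ e' (k + 1) + B := by linarith [(abs_le.1 (he' _ hk)).1]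
      have s1 : a (k + 1) ≤ r * (b k + 2 * h * ((e' (k + 1) + B) - (e (k + 1) + B))) := by
        have := mul_le_mul_of_nonneg_left (show (1 - κ * h) * a (k + 1) ≤
          b k + 2 * h * ((e' (k + 1) + B) - (e (k + 1) + B)) by linarith [h1 k hk]) (zero_le_one.trans hr1)
        rwa [← mul_assoc, hrs, one_mul] at this
      have s2 : b k ≤ r * (a k + 2 * h * ((e k + B) - (e' (k + 1) + B))) := by
        have := mul_le_mul_of_nonneg_left (show (1 - κ * h) * b k ≤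
          a k + 2 * h * ((e k + B) - (e' (k + 1) + B)) by linarith [h2 k hk]) (zero_le_one.trans hr1)
        rwa [← mul_assoc, hrs, one_mul] at this
      have s3 := mul_le_mul_of_nonneg_left s2 (zero_le_one.trans hr1)
      have s4 := mul_le_mul_of_nonneg_left i1 (sq_nonneg r)
      have s5 := mul_nonneg (mul_nonneg hh.le e1) (sub_nonneg.2 hr1)
      have s6 := mul_nonneg (mul_nonneg (mul_nonneg hh.le e2) (zero_le_one.trans hr1)) (sub_nonneg.2 hr1)
      rw [show 2 * (k + 1) = 2 + 2 * k by ring, pow_add, mul_assoc (r ^ 2)]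
      nlinarith
  have e1 : 0 ≤ 2 * h * (e n + B) := mul_nonneg (by positivity) (by linarith [(abs_le.1 (he _ le_rfl)).1])
  have e2 : 2 * h * (e 0 + B) ≤ 2 * h * (B + B) :=
    mul_le_mul_of_nonneg_left (by linarith [(abs_le.1 (he 0 (Nat.zero_le _))).2]) (by positivity)
  calc a n ≤ r ^ (2 * n) * (a 0 + 2 * h * (e 0 + B)) := by linarith [key n le_rfl]
    _ ≤ _ := mul_le_mul_of_nonneg_left (by linarith) (by positivity)

theorem ev8_step {o : X} {γ κ M B h : ℝ} {C : ℝ≥0} {f g : X → ℝ} {J P : ℝ → (X → ℝ) → X → ℝ} (hS : Sp m κ γ)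
    (hH : Heat m J P) (hh : 0 < h) (hκh : κ * h ≤ 1 / 2) {n : ℕ}
    (hf : ∀ k ≤ n, Adm m o γ C M ((J h)^[k] f)) (hg : ∀ k ≤ n, Adm m o γ C M ((J h)^[k] g))
    (hB : ∀ f, Adm m o γ C M f → |Ent m (den m f)| ≤ B) :
    W2 (den m ((J h)^[n] f)) (den m ((J h)^[n] g)) ^ 2 ≤
      ((1 - κ * h)⁻¹) ^ (2 * n) * (W2 (den m f) (den m g) ^ 2 + 4 * h * B) := by
  refine ev_gronwall (a := fun k => W2 (den m ((J h)^[k] f)) (den m ((J h)^[k] g)) ^ 2)
    (b := fun k => W2 (den m ((J h)^[k] f)) (den m ((J h)^[k + 1] g)) ^ 2)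
    (e := fun k => Ent m (den m ((J h)^[k] f))) (e' := fun k => Ent m (den m ((J h)^[k] g)))
    hS.κ_nonneg hh hκh (fun k hk => hB _ (hf k hk)) (fun k hk => hB _ (hg k hk)) (fun k hk => ?_) fun k hk => ?_
  · refine evi_adm hS hh ?_ (hf (k + 1) hk) (hf k hk.le) (hg (k + 1) hk)
    rw [Function.iterate_succ_apply']
    exact hH.J_gen h hh _ (hf k hk.le).memLp
  · have := evi_adm hS hh (f := (J h)^[k] g) (by
      rw [Function.iterate_succ_apply']
      exact hH.J_gen h hh _ (hg k hk.le).memLp) (hg (k + 1) hk) (hg k hk.le) (hf k hk.le)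
    rwa [W2_comm (den m ((J h)^[k + 1] g)), W2_comm (den m ((J h)^[k] g))] at this

theorem contr {o : X} {γ κ M : ℝ} {C : ℝ≥0} {f g : X → ℝ} {J P : ℝ → (X → ℝ) → X → ℝ} (hS : Sp m κ γ)
    (hH : Heat m J P) (hf : Adm m o γ C M f) (hg : Adm m o γ C M g) {t : ℝ} (ht : 0 ≤ t) :
    W2 (den m (P t f)) (den m (P t g)) ≤ Real.exp (κ * t) * W2 (den m f) (den m g) := by
  rcases ht.eq_or_lt with rfl | ht0
  · rw [den_congr (hH.P_zero f hf.memLp), den_congr (hH.P_zero g hg.memLp)]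
    simp
  have hγ := hS.γ_pos
  have hG := hS.growth o
  have hM : 0 ≤ M := (integral_nonneg fun x => sq_nonneg _).trans hf.wt_le
  set M' := Real.exp (4 * γ ^ 2 * t) * M with hM'
  obtain ⟨B, hB⟩ := adm_ent_bound hγ hG C M'
  have h0 : Tendsto (fun n : ℕ => t / n) atTop (𝓝 0) := tendsto_const_div_atTop_nhds_zero_nat t
  have ev : ∀ᶠ n : ℕ in atTop, 0 < t / n ∧ κ * (t / n) ≤ 1 / 2 ∧
      ∀ u, Adm m o γ C M u → ∀ k ≤ n, Adm m o γ C M' ((J (t / n))^[k] u) := by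
    have a1 : Tendsto (fun n : ℕ => κ * (t / n)) atTop (𝓝 0) := by simpa using h0.const_mul κ
    have a2 : Tendsto (fun n : ℕ => t / n * γ ^ 2) atTop (𝓝 0) := by simpa using h0.mul_const (γ ^ 2)
    filter_upwards [eventually_gt_atTop 0, a1.eventually (ge_mem_nhds one_half_pos),
      a2.eventually (ge_mem_nhds one_half_pos)] with n hn b1 b2
    have hn' : (0 : ℝ) < n := Nat.cast_pos.2 hn
    refine ⟨div_pos ht0 hn', b1, fun u hu k hk => (adm_iter hH hγ (div_pos ht0 hn') b2 hu k).mono le_rfl ?_⟩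
    refine mul_le_mul_of_nonneg_right (Real.exp_le_exp.2 (mul_le_mul_of_nonneg_left ?_ (by positivity))) hM
    rw [mul_div_assoc', div_le_iff₀ hn', mul_comm]
    exact mul_le_mul_of_nonneg_left (Nat.cast_le.2 hk) ht
  have hP : ∀ u, Adm m o γ C M u → Adm m o γ C M' (P t u) := fun u hu =>
    (adm_P hH hγ ht hu).mono le_rfl (mul_le_mul_of_nonneg_right (Real.exp_le_exp.2 (by
      nlinarith [mul_nonneg (sq_nonneg γ) ht])) hM)
  have lim : ∀ u, Adm m o γ C M u →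
      Tendsto (fun n : ℕ => W2 (den m ((J (t / n))^[n] u)) (den m (P t u))) atTop (𝓝 0) := fun u hu =>
    Adm.W2_tendsto hγ hG (ev.mono fun n hn => hn.2.2 u hu n le_rfl) (hP u hu) (hH.euler t ht0 u hu.memLp)
  have l1 : Tendsto (fun n : ℕ => ((1 - κ * (t / n))⁻¹) ^ (2 * n)) atTop (𝓝 (Real.exp (κ * t) ^ 2)) := by
    have := ((Real.tendsto_one_add_div_pow_exp (-(κ * t))).inv₀ (Real.exp_pos _).ne').pow 2
    rw [← Real.exp_neg, neg_neg] at this
    refine this.congr fun n => ?_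
    rw [← inv_pow, ← pow_mul, mul_comm n 2, neg_div, ← sub_eq_add_neg, mul_div_assoc]
  have l2 : Tendsto (fun n : ℕ => W2 (den m f) (den m g) ^ 2 + 4 * (t / n) * B) atTop
      (𝓝 (W2 (den m f) (den m g) ^ 2)) := by
    simpa using ((h0.const_mul 4).mul_const B).const_add (W2 (den m f) (den m g) ^ 2)
  have l3 := ((lim f hf).add (l1.mul l2).sqrt).add (lim g hg)
  rw [zero_add, add_zero, ← mul_pow, Real.sqrt_sq (mul_nonneg (Real.exp_pos _).le (W2_nonneg _ _))] at l3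
  refine ge_of_tendsto l3 (ev.mono fun n hn => ?_)
  have c1 := hn.2.2 f hf n le_rfl
  have c2 := hn.2.2 g hg n le_rfl
  have := c1.prob
  have := c2.prob
  have := (hP f hf).prob
  have := (hP g hg).prob
  have d1 := W2_triangle (W2sq_ne_top ((hP f hf).moment hγ hG) (c1.moment hγ hG))
    (W2sq_ne_top (c1.moment hγ hG) ((hP g hg).moment hγ hG))
  have d2 := W2_triangle (W2sq_ne_top (c1.moment hγ hG) (c2.moment hγ hG))
    (W2sq_ne_top (c2.moment hγ hG) ((hP g hg).moment hγ hG))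
  have d3 := Real.le_sqrt_of_sq_le (ev8_step hS hH hn.1 hn.2.1 (hn.2.2 f hf) (hn.2.2 g hg) hB)
  rw [W2_comm (den m (P t f)) (den m ((J (t / n))^[n] f))] at d1
  linarith

end Crest.Agent.R242
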