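import Crest.Prelude.Def_SyntheticRicci

/-!
# R242 / KantB : `W₂` basics (couplings, gluing, triangle inequality, restriction, cut-offs).  Owner helper3.
-/

set_option autoImplicit false
set_option linter.unusedSectionVars false

namespace Crest.Agent.R242

open MeasureTheory Set Filter Topology
open scoped NNReal ENNReal BoundedContinuousFunction
open Crest.GeometryTopology.SyntheticRicci

variable {X : Type*} [MetricSpace X] [MeasurableSpace X]

/-- squared `W₂` distance, in `[0,∞]` -/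
noncomputable def W2sq (μ ν : Measure X) : ℝ≥0∞ :=
  ⨅ (q : Measure (X × X)) (_ : IsCouplingOf q μ ν), quadCost q

/-- the `W₂` distance (meaningful when `W2sq μ ν ≠ ⊤`) -/
noncomputable def W2 (μ ν : Measure X) : ℝ := √(W2sq μ ν).toReal

variable {μ ν ρ : Measure X} {q : Measure (X × X)}

theorem W2sq_le (h : IsCouplingOf q μ ν) : W2sq μ ν ≤ quadCost q := by
  exact iInf₂_le q h

theorem opt_cost (h : IsOptCouplingOf q μ ν) : quadCost q = W2sq μ ν := by
  exact le_antisymm (le_iInf₂ h.2) (W2sq_le h.1)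

theorem opt_of_le (h : IsCouplingOf q μ ν) (hle : quadCost q ≤ W2sq μ ν) : IsOptCouplingOf q μ ν := by
  exact ⟨h, fun q' h' => hle.trans (W2sq_le h')⟩

theorem W2_nonneg (μ ν : Measure X) : 0 ≤ W2 μ ν := by
  exact Real.sqrt_nonneg _

theorem W2_sq (μ ν : Measure X) : W2 μ ν ^ 2 = (W2sq μ ν).toReal := by
  exact Real.sq_sqrt ENNReal.toReal_nonneg

theorem ofReal_W2_sq (h : W2sq μ ν ≠ ⊤) : ENNReal.ofReal (W2 μ ν ^ 2) = W2sq μ ν := by
  rw [W2_sq, ENNReal.ofReal_toReal h]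

theorem coup_prob [IsProbabilityMeasure μ] (h : IsCouplingOf q μ ν) : IsProbabilityMeasure q := by
  refine ⟨?_⟩
  have := congrArg (fun m : Measure X => m univ) h.1
  simpa [Measure.map_apply measurable_fst] using this

theorem coup_finite [IsFiniteMeasure μ] (h : IsCouplingOf q μ ν) : IsFiniteMeasure q := by
  refine ⟨?_⟩
  have := congrArg (fun m : Measure X => m univ) h.1
  simp only [Measure.map_apply measurable_fst MeasurableSet.univ, preimage_univ] at this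
  rw [this]
  exact measure_lt_top _ _

theorem coup_swap (h : IsCouplingOf q μ ν) : IsCouplingOf (q.map Prod.swap) ν μ := by
  refine ⟨?_, ?_⟩
  · rw [Measure.map_map measurable_fst measurable_swap]; exact h.2
  · rw [Measure.map_map measurable_snd measurable_swap]; exact h.1

theorem coup_smul (h : IsCouplingOf q μ ν) (c : ℝ≥0∞) : IsCouplingOf (c • q) (c • μ) (c • ν) := by
  exact ⟨by rw [Measure.map_smul, h.1], by rw [Measure.map_smul, h.2]⟩

theorem coup_add {q' : Measure (X × X)} {μ' ν' : Measure X} (h : IsCouplingOf q μ ν)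
    (h' : IsCouplingOf q' μ' ν') : IsCouplingOf (q + q') (μ + μ') (ν + ν') := by
  exact ⟨by rw [Measure.map_add _ _ measurable_fst, h.1, h'.1], by rw [Measure.map_add _ _ measurable_snd, h.2, h'.2]⟩

theorem coup_prod (μ ν : Measure X) [IsProbabilityMeasure μ] [IsProbabilityMeasure ν] :
    IsCouplingOf (μ.prod ν) μ ν := by
  exact ⟨by simp, by simp⟩

theorem coup_ae_fst (h : IsCouplingOf q μ ν) {p : X → Prop} (hp : ∀ᵐ x ∂μ, p x) : ∀ᵐ z ∂q, p z.1 := by
  rw [← h.1] at hp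
  exact ae_of_ae_map measurable_fst.aemeasurable hp

theorem coup_ae_snd (h : IsCouplingOf q μ ν) {p : X → Prop} (hp : ∀ᵐ y ∂ν, p y) : ∀ᵐ z ∂q, p z.2 := by
  rw [← h.2] at hp
  exact ae_of_ae_map measurable_snd.aemeasurable hp

theorem coup_int_fst (h : IsCouplingOf q μ ν) {f : X → ℝ} (hf : Integrable f μ) :
    Integrable (fun z : X × X => f z.1) q ∧ ∫ z, f z.1 ∂q = ∫ x, f x ∂μ := by
  rw [← h.1] at hf ⊢
  exact ⟨(integrable_map_measure hf.1 measurable_fst.aemeasurable).1 hf,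
    (integral_map measurable_fst.aemeasurable hf.1).symm⟩

theorem coup_int_snd (h : IsCouplingOf q μ ν) {f : X → ℝ} (hf : Integrable f ν) :
    Integrable (fun z : X × X => f z.2) q ∧ ∫ z, f z.2 ∂q = ∫ y, f y ∂ν := by
  rw [← h.2] at hf ⊢
  exact ⟨(integrable_map_measure hf.1 measurable_snd.aemeasurable).1 hf,
    (integral_map measurable_snd.aemeasurable hf.1).symm⟩

theorem quadCost_smul (q : Measure (X × X)) (c : ℝ≥0∞) : quadCost (c • q) = c * quadCost q := by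
  simp [quadCost, lintegral_smul_measure]

theorem quadCost_add (q q' : Measure (X × X)) : quadCost (q + q') = quadCost q + quadCost q' := by
  simp [quadCost, lintegral_add_measure]

theorem quadCost_mono {q q' : Measure (X × X)} (h : q ≤ q') : quadCost q ≤ quadCost q' := by
  exact lintegral_mono' h le_rfl

theorem W2sq_smul_le (μ ν : Measure X) (c : ℝ≥0∞) (hc : c ≠ ⊤) : W2sq (c • μ) (c • ν) ≤ c * W2sq μ ν := by
  rcases eq_or_ne c 0 with rfl | h0
  · have : IsCouplingOf (0 : Measure (X × X)) ((0 : ℝ≥0∞) • μ) ((0 : ℝ≥0∞) • ν) := ⟨by simp, by simp⟩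
    simpa [quadCost] using W2sq_le this
  · conv_rhs => rw [W2sq, ENNReal.mul_iInf_of_ne h0 hc]
    refine le_iInf fun q => ?_
    rw [ENNReal.mul_iInf_of_ne h0 hc]
    exact le_iInf fun h => (W2sq_le (coup_smul h c)).trans_eq (quadCost_smul q c)

theorem W2sq_smul (μ ν : Measure X) {c : ℝ≥0∞} (h0 : c ≠ 0) (hc : c ≠ ⊤) :
    W2sq (c • μ) (c • ν) = c * W2sq μ ν := by
  refine le_antisymm (W2sq_smul_le μ ν c hc) ?_
  have := W2sq_smul_le (c • μ) (c • ν) c⁻¹ (ENNReal.inv_ne_top.2 h0)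
  rw [smul_smul, smul_smul, ENNReal.inv_mul_cancel h0 hc, one_smul, one_smul] at this
  calc c * W2sq μ ν ≤ c * (c⁻¹ * W2sq (c • μ) (c • ν)) := by gcongr
    _ = _ := by rw [← mul_assoc, ENNReal.mul_inv_cancel h0 hc, one_mul]

theorem opt_smul (h : IsOptCouplingOf q μ ν) {c : ℝ≥0∞} (h0 : c ≠ 0) (hc : c ≠ ⊤) :
    IsOptCouplingOf (c • q) (c • μ) (c • ν) := by
  refine opt_of_le (coup_smul h.1 c) ?_
  rw [quadCost_smul, W2sq_smul μ ν h0 hc, opt_cost h]

theorem W2sq_add_le (μ ν μ' ν' : Measure X) : W2sq (μ + μ') (ν + ν') ≤ W2sq μ ν + W2sq μ' ν' := by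
  refine ENNReal.le_iInf₂_add_iInf₂ fun q h q' h' => ?_
  exact (W2sq_le (coup_add h h')).trans_eq (quadCost_add q q')

/-- a part of an optimal coupling is optimal -/
theorem opt_of_add {q₁ q₂ : Measure (X × X)} (h : IsOptCouplingOf (q₁ + q₂) μ ν) (hfin : quadCost q₂ ≠ ⊤) :
    IsOptCouplingOf q₁ (q₁.map Prod.fst) (q₁.map Prod.snd) := by
  refine ⟨⟨rfl, rfl⟩, fun q' h' => ?_⟩
  have h1 : IsCouplingOf (q' + q₂) μ ν := by
    refine ⟨?_, ?_⟩
    · rw [Measure.map_add _ _ measurable_fst, h'.1, ← Measure.map_add _ _ measurable_fst]; exact h.1.1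
    · rw [Measure.map_add _ _ measurable_snd, h'.2, ← Measure.map_add _ _ measurable_snd]; exact h.1.2
  have h2 := h.2 _ h1
  rw [quadCost_add, quadCost_add] at h2
  exact (ENNReal.add_le_add_iff_right hfin).1 h2

/-- restriction of an optimal coupling -/
theorem opt_of_le_measure [IsFiniteMeasure q] (h : IsOptCouplingOf q μ ν) (hfin : quadCost q ≠ ⊤)
    {q' : Measure (X × X)} (hle : q' ≤ q) : IsOptCouplingOf q' (q'.map Prod.fst) (q'.map Prod.snd) := by
  have : IsFiniteMeasure q' := isFiniteMeasure_of_le q hle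
  have e : q' + (q - q') = q := by rw [add_comm]; exact Measure.sub_add_cancel_of_le hle
  refine opt_of_add (q₂ := q - q') (μ := μ) (ν := ν) (by rw [e]; exact h) ?_
  exact ne_top_of_le_ne_top hfin (quadCost_mono Measure.sub_le)

variable [BorelSpace X] [SecondCountableTopology X]

theorem measurable_edist_sq : Measurable fun p : X × X => edist p.1 p.2 ^ 2 := by
  exact (measurable_fst.edist measurable_snd).pow_const 2

theorem quadCost_swap (q : Measure (X × X)) : quadCost (q.map Prod.swap) = quadCost q := by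
  unfold quadCost
  rw [lintegral_map measurable_edist_sq measurable_swap]
  simp only [Prod.fst_swap, Prod.snd_swap, edist_comm]

theorem W2sq_comm (μ ν : Measure X) : W2sq μ ν = W2sq ν μ := by
  have key : ∀ μ ν : Measure X, W2sq μ ν ≤ W2sq ν μ := fun μ ν =>
    le_iInf₂ fun q h => (W2sq_le (coup_swap h)).trans_eq (quadCost_swap q)
  exact le_antisymm (key _ _) (key _ _)

theorem W2_comm (μ ν : Measure X) : W2 μ ν = W2 ν μ := by
  rw [W2, W2, W2sq_comm]

theorem opt_swap (h : IsOptCouplingOf q μ ν) : IsOptCouplingOf (q.map Prod.swap) ν μ := by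
  refine opt_of_le (coup_swap h.1) ?_
  rw [quadCost_swap, opt_cost h, W2sq_comm]

/-- two random variables give a coupling -/
theorem coup_map {Ω : Type*} [MeasurableSpace Ω] (P : Measure Ω) {f g : Ω → X} (hf : Measurable f)
    (hg : Measurable g) : IsCouplingOf (P.map fun ω => (f ω, g ω)) (P.map f) (P.map g) ∧
      quadCost (P.map fun ω => (f ω, g ω)) = ∫⁻ ω, edist (f ω) (g ω) ^ 2 ∂P := by
  have hm : Measurable fun ω => (f ω, g ω) := hf.prodMk hg
  refine ⟨⟨?_, ?_⟩, ?_⟩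
  · rw [Measure.map_map measurable_fst hm]; rfl
  · rw [Measure.map_map measurable_snd hm]; rfl
  · unfold quadCost
    rw [lintegral_map measurable_edist_sq hm]

theorem W2sq_map_le {Ω : Type*} [MeasurableSpace Ω] (P : Measure Ω) {f g : Ω → X} (hf : Measurable f)
    (hg : Measurable g) : W2sq (P.map f) (P.map g) ≤ ∫⁻ ω, edist (f ω) (g ω) ^ 2 ∂P := by
  exact (W2sq_le (coup_map P hf hg).1).trans_eq (coup_map P hf hg).2

theorem W2sq_self (μ : Measure X) : W2sq μ μ = 0 := by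
  have := W2sq_map_le μ (f := id) (g := id) measurable_id measurable_id
  simpa using this

theorem W2_self (μ : Measure X) : W2 μ μ = 0 := by
  simp [W2, W2sq_self]

theorem kb_edist (x y : X) : edist x y ^ 2 = ENNReal.ofReal (dist x y ^ 2) := by
  rw [edist_dist, ENNReal.ofReal_pow dist_nonneg]

theorem kb_edist_le (x y o : X) : edist x y ^ 2 ≤ 2 * edist x o ^ 2 + 2 * edist y o ^ 2 := by
  simp only [kb_edist]
  rw [← ENNReal.ofReal_ofNat 2, ← ENNReal.ofReal_mul zero_le_two, ← ENNReal.ofReal_mul zero_le_two,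
    ← ENNReal.ofReal_add (by positivity) (by positivity)]
  refine ENNReal.ofReal_le_ofReal ?_
  have h1 := dist_triangle_right x y o
  have h2 := pow_le_pow_left₀ dist_nonneg h1 2
  nlinarith [sq_nonneg (dist x o - dist y o)]

theorem kb_meas (o : X) : Measurable fun x : X => edist x o ^ 2 :=
  (measurable_id.edist measurable_const).pow_const 2

/-- the cost as a real integral -/
theorem quadCost_eq (q : Measure (X × X)) :
    quadCost q = ∫⁻ p, ENNReal.ofReal (dist p.1 p.2 ^ 2) ∂q := by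
  simp only [quadCost, kb_edist]

theorem int_dist_sq (h : quadCost q ≠ ⊤) :
    Integrable (fun p : X × X => dist p.1 p.2 ^ 2) q ∧ ∫ p, dist p.1 p.2 ^ 2 ∂q = (quadCost q).toReal := by
  have hc : Continuous fun p : X × X => dist p.1 p.2 ^ 2 := by fun_prop
  have h0 : 0 ≤ᵐ[q] fun p : X × X => dist p.1 p.2 ^ 2 := ae_of_all _ fun p => by positivity
  rw [quadCost_eq] at h ⊢
  exact ⟨(lintegral_ofReal_ne_top_iff_integrable hc.aestronglyMeasurable h0).1 h,
    integral_eq_lintegral_of_nonneg_ae h0 hc.aestronglyMeasurable⟩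

/-- every coupling costs at most twice the sum of the second moments -/
theorem quadCost_le (h : IsCouplingOf q μ ν) (o : X) :
    quadCost q ≤ 2 * ∫⁻ x, edist x o ^ 2 ∂μ + 2 * ∫⁻ y, edist y o ^ 2 ∂ν := by
  have m1 : Measurable fun p : X × X => edist p.1 o ^ 2 := (kb_meas o).comp measurable_fst
  have m2 : Measurable fun p : X × X => edist p.2 o ^ 2 := (kb_meas o).comp measurable_snd
  rw [← h.1, ← h.2, lintegral_map (kb_meas o) measurable_fst, lintegral_map (kb_meas o) measurable_snd,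
    ← lintegral_const_mul _ m1, ← lintegral_const_mul _ m2, ← lintegral_add_left (m1.const_mul _)]
  exact lintegral_mono fun p => kb_edist_le _ _ _

theorem moment_lt_top [IsFiniteMeasure μ] (h : HasFiniteSecondMoment μ) (o : X) :
    ∫⁻ x, edist x o ^ 2 ∂μ < ⊤ := by
  obtain ⟨o', ho'⟩ := h
  calc ∫⁻ x, edist x o ^ 2 ∂μ ≤ ∫⁻ x, (2 * edist x o' ^ 2 + 2 * edist o o' ^ 2) ∂μ :=
        lintegral_mono fun x => kb_edist_le _ _ _
    _ = 2 * ∫⁻ x, edist x o' ^ 2 ∂μ + 2 * edist o o' ^ 2 * μ univ := by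
        rw [lintegral_add_right _ measurable_const, lintegral_const_mul _ (kb_meas o'), lintegral_const]
    _ < ⊤ := by
        refine ENNReal.add_lt_top.2 ⟨ENNReal.mul_lt_top (by simp) ho', ENNReal.mul_lt_top
          (ENNReal.mul_lt_top (by simp) ?_) (measure_lt_top _ _)⟩
        exact ENNReal.pow_lt_top (edist_lt_top _ _)

theorem moment_of_bdd [IsFiniteMeasure μ] {o : X} {R : ℝ} (h : ∀ᵐ x ∂μ, dist x o ≤ R) :
    HasFiniteSecondMoment μ := by
  refine ⟨o, ?_⟩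
  calc ∫⁻ x, edist x o ^ 2 ∂μ ≤ ∫⁻ _x, ENNReal.ofReal (R ^ 2) ∂μ := by
        refine lintegral_mono_ae (h.mono fun x hx => ?_)
        rw [kb_edist]
        exact ENNReal.ofReal_le_ofReal (pow_le_pow_left₀ dist_nonneg hx 2)
    _ < ⊤ := by
        rw [lintegral_const]
        exact ENNReal.mul_lt_top ENNReal.ofReal_lt_top (measure_lt_top _ _)

theorem moment_int [IsFiniteMeasure μ] (h : HasFiniteSecondMoment μ) (o : X) :
    Integrable (fun x => dist x o ^ 2) μ := by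
  have hc : Continuous fun x : X => dist x o ^ 2 := by fun_prop
  have h1 := (moment_lt_top h o).ne
  simp only [kb_edist] at h1
  exact (lintegral_ofReal_ne_top_iff_integrable hc.aestronglyMeasurable
    (ae_of_all _ fun p => by positivity)).1 h1

theorem quadCost_ne_top [IsFiniteMeasure μ] [IsFiniteMeasure ν] (h : IsCouplingOf q μ ν)
    (hμ : HasFiniteSecondMoment μ) (hν : HasFiniteSecondMoment ν) : quadCost q ≠ ⊤ := by
  obtain ⟨o, ho⟩ := id hμ
  refine ne_top_of_le_ne_top ?_ (quadCost_le h o)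
  exact (ENNReal.add_lt_top.2 ⟨ENNReal.mul_lt_top (by simp) ho,
    ENNReal.mul_lt_top (by simp) (moment_lt_top hν o)⟩).ne

theorem W2sq_ne_top [IsProbabilityMeasure μ] [IsProbabilityMeasure ν] (hμ : HasFiniteSecondMoment μ)
    (hν : HasFiniteSecondMoment ν) : W2sq μ ν ≠ ⊤ := by
  exact ne_top_of_le_ne_top (quadCost_ne_top (coup_prod μ ν) hμ hν) (W2sq_le (coup_prod μ ν))

theorem W2sq_le_of_bdd [IsProbabilityMeasure μ] [IsProbabilityMeasure ν] {D : ℝ}
    (h : ∀ᵐ x ∂μ, ∀ᵐ y ∂ν, dist x y ≤ D) : W2sq μ ν ≤ ENNReal.ofReal (D ^ 2) := by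
  refine (W2sq_le (coup_prod μ ν)).trans ?_
  have hm : MeasurableSet {p : X × X | dist p.1 p.2 ≤ D} :=
    (isClosed_le (by fun_prop) continuous_const).measurableSet
  have h1 : ∀ᵐ p ∂μ.prod ν, dist p.1 p.2 ≤ D := (Measure.ae_prod_iff_ae_ae hm).2 h
  calc quadCost (μ.prod ν) ≤ ∫⁻ _p, ENNReal.ofReal (D ^ 2) ∂μ.prod ν := by
        refine lintegral_mono_ae (h1.mono fun p hp => ?_)
        rw [kb_edist]
        exact ENNReal.ofReal_le_ofReal (pow_le_pow_left₀ dist_nonneg hp 2)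
    _ = _ := by simp

/-- the common part costs nothing -/
theorem W2sq_le_parts (η α β : Measure X) [IsFiniteMeasure α] [IsFiniteMeasure β] (h : α univ = β univ)
    (o : X) : W2sq (η + α) (η + β) ≤ 2 * ∫⁻ x, edist x o ^ 2 ∂α + 2 * ∫⁻ y, edist y o ^ 2 ∂β := by
  refine (W2sq_add_le _ _ _ _).trans ?_
  rw [W2sq_self, zero_add]
  rcases eq_or_ne (α univ) 0 with h0 | h0
  · have h1 : α = 0 := Measure.measure_univ_eq_zero.1 h0
    have h2 : β = 0 := Measure.measure_univ_eq_zero.1 (h ▸ h0)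
    rw [h1, h2, W2sq_self]
    exact zero_le
  · have hc : IsCouplingOf ((α univ)⁻¹ • α.prod β) α β := by
      refine ⟨?_, ?_⟩
      · rw [Measure.map_smul, Measure.map_fst_prod, ← h, smul_smul,
          ENNReal.inv_mul_cancel h0 (measure_ne_top _ _), one_smul]
      · rw [Measure.map_smul, Measure.map_snd_prod, smul_smul,
          ENNReal.inv_mul_cancel h0 (measure_ne_top _ _), one_smul]
    exact (W2sq_le hc).trans (quadCost_le hc o)

/-- `W₂² ≤ 2 ∫ d(x,o)² |f - g| dm` -/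
theorem W2sq_le_dens (m : Measure X) {f g : X → ℝ} (hf : Integrable f m) (hg : Integrable g m)
    (hf0 : ∀ᵐ x ∂m, 0 ≤ f x) (hg0 : ∀ᵐ x ∂m, 0 ≤ g x) (h : ∫ x, f x ∂m = ∫ x, g x ∂m) (o : X) :
    W2sq (m.withDensity fun x => ENNReal.ofReal (f x)) (m.withDensity fun x => ENNReal.ofReal (g x)) ≤
      2 * ∫⁻ x, ENNReal.ofReal (dist x o ^ 2 * |f x - g x|) ∂m := by
  have mf := hf.1.aemeasurable
  have mg := hg.1.aemeasurable
  have key : ∀ {f g : X → ℝ}, AEMeasurable f m → AEMeasurable g m → (∀ᵐ x ∂m, 0 ≤ f x) → (∀ᵐ x ∂m, 0 ≤ g x) →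
      (m.withDensity fun x => ENNReal.ofReal (f x)) = (m.withDensity fun x => ENNReal.ofReal (min (f x) (g x))) +
        m.withDensity fun x => ENNReal.ofReal (f x - g x) := by
    intro f g mf mg hf0 hg0
    ext s hs
    rw [Measure.add_apply, withDensity_apply _ hs, withDensity_apply _ hs, withDensity_apply _ hs,
      ← lintegral_add_left' (mf.min mg).ennreal_ofReal.restrict]
    refine lintegral_congr_ae (ae_restrict_of_ae ?_)
    filter_upwards [hf0, hg0] with x h1 h2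
    rcases le_total (f x) (g x) with h3 | h3
    · rw [min_eq_left h3, ENNReal.ofReal_of_nonpos (sub_nonpos.2 h3), add_zero]
    · rw [min_eq_right h3, ← ENNReal.ofReal_add h2 (sub_nonneg.2 h3), add_sub_cancel]
  have i1 : IsFiniteMeasure (m.withDensity fun x => ENNReal.ofReal (f x - g x)) :=
    isFiniteMeasure_withDensity_ofReal (hf.sub hg).2
  have i2 : IsFiniteMeasure (m.withDensity fun x => ENNReal.ofReal (g x - f x)) :=
    isFiniteMeasure_withDensity_ofReal (hg.sub hf).2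
  have e1 := key mf mg hf0 hg0
  have e2 := key mg mf hg0 hf0
  simp only [min_comm (g _) (f _)] at e2
  have hu : (m.withDensity fun x => ENNReal.ofReal (f x - g x)) univ =
      (m.withDensity fun x => ENNReal.ofReal (g x - f x)) univ := by
    have u1 : (m.withDensity fun x => ENNReal.ofReal (f x)) univ =
        (m.withDensity fun x => ENNReal.ofReal (g x)) univ := by
      rw [withDensity_apply _ MeasurableSet.univ, withDensity_apply _ MeasurableSet.univ, Measure.restrict_univ,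
        ← ofReal_integral_eq_lintegral_ofReal hf hf0, ← ofReal_integral_eq_lintegral_ofReal hg hg0, h]
    have : IsFiniteMeasure (m.withDensity fun x => ENNReal.ofReal (min (f x) (g x))) :=
      isFiniteMeasure_withDensity_ofReal (hf.inf hg).2
    rw [e1, e2, Measure.add_apply, Measure.add_apply] at u1
    exact (ENNReal.add_right_inj (measure_ne_top _ _)).1 u1
  rw [e1, e2]
  refine (W2sq_le_parts _ _ _ hu o).trans_eq ?_
  have a1 : AEMeasurable (fun x => ENNReal.ofReal (f x - g x)) m := (mf.sub mg).ennreal_ofReal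
  have a2 : AEMeasurable (fun x => ENNReal.ofReal (g x - f x)) m := (mg.sub mf).ennreal_ofReal
  rw [← mul_add, lintegral_withDensity_eq_lintegral_mul₀ a1 (kb_meas o).aemeasurable,
    lintegral_withDensity_eq_lintegral_mul₀ a2 (kb_meas o).aemeasurable,
    ← lintegral_add_left' (a1.mul (kb_meas o).aemeasurable)]
  congr 1
  refine lintegral_congr fun x => ?_
  simp only [Pi.mul_apply, kb_edist]
  rw [← add_mul, ENNReal.ofReal_mul (by positivity), mul_comm]
  congr 1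
  rcases le_total (f x) (g x) with h3 | h3
  · rw [ENNReal.ofReal_of_nonpos (sub_nonpos.2 h3), zero_add, abs_sub_comm, abs_of_nonneg (sub_nonneg.2 h3)]
  · rw [ENNReal.ofReal_of_nonpos (sub_nonpos.2 h3), add_zero, abs_of_nonneg (sub_nonneg.2 h3)]

/-- weak duality -/
theorem dual_le_cost {φ ψ : X → ℝ} (h : IsCouplingOf q μ ν) (hφ : Integrable φ μ) (hψ : Integrable ψ ν)
    (hle : ∀ᵐ p ∂q, φ p.1 + ψ p.2 ≤ dist p.1 p.2 ^ 2 / 2) :
    ENNReal.ofReal (2 * (∫ x, φ x ∂μ + ∫ y, ψ y ∂ν)) ≤ quadCost q := by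
  rcases eq_or_ne (quadCost q) ⊤ with ht | ht
  · rw [ht]; exact le_top
  obtain ⟨i1, e1⟩ := coup_int_fst h hφ
  obtain ⟨i2, e2⟩ := coup_int_snd h hψ
  obtain ⟨i3, e3⟩ := int_dist_sq ht
  have := integral_mono_ae (i1.add i2) (i3.div_const 2) hle
  rw [integral_add' i1 i2, integral_div, e1, e2, e3] at this
  exact ENNReal.ofReal_le_of_le_toReal (by linarith)

theorem dual_le {φ ψ : X → ℝ} {A B : Set X} (hφ : Integrable φ μ) (hψ : Integrable ψ ν) (hA : ∀ᵐ x ∂μ, x ∈ A)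
    (hB : ∀ᵐ y ∂ν, y ∈ B) (hle : ∀ x ∈ A, ∀ y ∈ B, φ x + ψ y ≤ dist x y ^ 2 / 2) :
    ENNReal.ofReal (2 * (∫ x, φ x ∂μ + ∫ y, ψ y ∂ν)) ≤ W2sq μ ν := by
  refine le_iInf₂ fun q h => dual_le_cost h hφ hψ ?_
  filter_upwards [coup_ae_fst h hA, coup_ae_snd h hB] with p h1 h2 using hle _ h1 _ h2

theorem dual_le_real {φ ψ : X → ℝ} {A B : Set X} (hfin : W2sq μ ν ≠ ⊤) (hφ : Integrable φ μ)
    (hψ : Integrable ψ ν) (hA : ∀ᵐ x ∂μ, x ∈ A) (hB : ∀ᵐ y ∂ν, y ∈ B)
    (hle : ∀ x ∈ A, ∀ y ∈ B, φ x + ψ y ≤ dist x y ^ 2 / 2) :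
    ∫ x, φ x ∂μ + ∫ y, ψ y ∂ν ≤ W2 μ ν ^ 2 / 2 := by
  have := ENNReal.toReal_mono hfin (dual_le hφ hψ hA hB hle)
  rw [ENNReal.toReal_ofReal', ← W2_sq] at this
  linarith [le_max_left (2 * (∫ x, φ x ∂μ + ∫ y, ψ y ∂ν)) 0]

/-- sufficiency: a coupling on the contact set is optimal -/
theorem opt_of_contact {φ ψ : X → ℝ} {A B : Set X} (h : IsCouplingOf q μ ν) (hφ : Integrable φ μ)
    (hψ : Integrable ψ ν) (hA : ∀ᵐ x ∂μ, x ∈ A) (hB : ∀ᵐ y ∂ν, y ∈ B)
    (hle : ∀ x ∈ A, ∀ y ∈ B, φ x + ψ y ≤ dist x y ^ 2 / 2)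
    (heq : ∀ᵐ p ∂q, φ p.1 + ψ p.2 = dist p.1 p.2 ^ 2 / 2) :
    IsOptCouplingOf q μ ν ∧ ∫ x, φ x ∂μ + ∫ y, ψ y ∂ν = W2 μ ν ^ 2 / 2 ∧ W2sq μ ν ≠ ⊤ := by
  obtain ⟨i1, e1⟩ := coup_int_fst h hφ
  obtain ⟨i2, e2⟩ := coup_int_snd h hψ
  have a1 : (fun p : X × X => dist p.1 p.2 ^ 2) =ᵐ[q] fun p => 2 * (φ p.1 + ψ p.2) :=
    heq.mono fun p hp => by simp only; linarith
  have i3 : Integrable (fun p : X × X => dist p.1 p.2 ^ 2) q := ((i1.add i2).const_mul 2).congr a1.symm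
  have e3 : ∫ p, dist p.1 p.2 ^ 2 ∂q = 2 * (∫ x, φ x ∂μ + ∫ y, ψ y ∂ν) := by
    rw [integral_congr_ae a1, integral_const_mul, integral_add i1 i2, e1, e2]
  have e4 : quadCost q = ENNReal.ofReal (2 * (∫ x, φ x ∂μ + ∫ y, ψ y ∂ν)) := by
    rw [quadCost_eq, ← ofReal_integral_eq_lintegral_ofReal i3 (ae_of_all _ fun p => by positivity), e3]
  have ho : IsOptCouplingOf q μ ν := opt_of_le h (e4 ▸ dual_le hφ hψ hA hB hle)
  have h0 : 0 ≤ 2 * (∫ x, φ x ∂μ + ∫ y, ψ y ∂ν) := e3 ▸ integral_nonneg fun p => by positivity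
  refine ⟨ho, ?_, ?_⟩
  · rw [W2_sq, ← opt_cost ho, e4, ENNReal.toReal_ofReal h0]; ring
  · rw [← opt_cost ho, e4]; exact ENNReal.ofReal_ne_top

/-- necessity: if there is no duality gap, an optimal coupling lives on the contact set -/
theorem contact_of_opt {φ ψ : X → ℝ} (h : IsOptCouplingOf q μ ν) (hfin : W2sq μ ν ≠ ⊤) (hφ : Integrable φ μ)
    (hψ : Integrable ψ ν) (hle : ∀ᵐ p ∂q, φ p.1 + ψ p.2 ≤ dist p.1 p.2 ^ 2 / 2)
    (heq : W2 μ ν ^ 2 / 2 ≤ ∫ x, φ x ∂μ + ∫ y, ψ y ∂ν) :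
    ∀ᵐ p ∂q, φ p.1 + ψ p.2 = dist p.1 p.2 ^ 2 / 2 := by
  obtain ⟨i1, e1⟩ := coup_int_fst h.1 hφ
  obtain ⟨i2, e2⟩ := coup_int_snd h.1 hψ
  obtain ⟨i3, e3⟩ := int_dist_sq (q := q) (by rw [opt_cost h]; exact hfin)
  rw [opt_cost h, ← W2_sq] at e3
  have i4 : Integrable (fun p : X × X => dist p.1 p.2 ^ 2 / 2 - (φ p.1 + ψ p.2)) q :=
    (i3.div_const 2).sub (i1.add i2)
  have h0 : 0 ≤ᵐ[q] fun p : X × X => dist p.1 p.2 ^ 2 / 2 - (φ p.1 + ψ p.2) :=
    hle.mono fun p hp => sub_nonneg.2 hp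
  have e4 : ∫ p, (dist p.1 p.2 ^ 2 / 2 - (φ p.1 + ψ p.2)) ∂q = 0 := by
    refine le_antisymm ?_ (integral_nonneg_of_ae h0)
    have i5 : Integrable (fun p : X × X => φ p.1 + ψ p.2) q := i1.add i2
    rw [integral_sub (i3.div_const 2) i5, integral_add i1 i2, integral_div, e1, e2, e3]
    linarith
  filter_upwards [(integral_eq_zero_iff_of_nonneg_ae h0 i4).1 e4] with p hp
  simp only [Pi.zero_apply] at hp
  linarith

theorem kb_cs [IsProbabilityMeasure q] (h : quadCost q ≠ ⊤) :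
    Integrable (fun p : X × X => dist p.1 p.2) q ∧ (∫ p, dist p.1 p.2 ∂q) ^ 2 ≤ (quadCost q).toReal := by
  obtain ⟨i3, e3⟩ := int_dist_sq h
  have hc : Continuous fun p : X × X => dist p.1 p.2 := by fun_prop
  have h2 : MemLp (fun p : X × X => dist p.1 p.2) 2 q := (memLp_two_iff_integrable_sq hc.aestronglyMeasurable).2 i3
  refine ⟨h2.integrable one_le_two, ?_⟩
  have h3 := ProbabilityTheory.variance_nonneg (fun p : X × X => dist p.1 p.2) q
  rw [ProbabilityTheory.variance_eq_sub h2] at h3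
  rw [← e3]
  exact sub_nonneg.1 h3

/-- Lipschitz functions -/
theorem abs_int_sub_le [IsProbabilityMeasure μ] (hfin : W2sq μ ν ≠ ⊤) {f : X → ℝ} {L : ℝ} (hL : 0 ≤ L)
    (hf : ∀ x y, |f x - f y| ≤ L * dist x y) (h1 : Integrable f μ) (h2 : Integrable f ν) :
    |∫ x, f x ∂μ - ∫ x, f x ∂ν| ≤ L * W2 μ ν := by
  have key : ∀ q, IsCouplingOf q μ ν → quadCost q ≠ ⊤ →
      |∫ x, f x ∂μ - ∫ x, f x ∂ν| ≤ L * √(quadCost q).toReal := by
    intro q h ht
    have := coup_prob h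
    obtain ⟨i1, e1⟩ := coup_int_fst h h1
    obtain ⟨i2, e2⟩ := coup_int_snd h h2
    obtain ⟨i3, e3⟩ := kb_cs ht
    rw [← e1, ← e2, ← integral_sub i1 i2]
    calc |∫ p, (f p.1 - f p.2) ∂q| ≤ ∫ p, |f p.1 - f p.2| ∂q := abs_integral_le_integral_abs
      _ ≤ ∫ p, L * dist p.1 p.2 ∂q := integral_mono (i1.sub i2).abs (i3.const_mul L) fun p => hf _ _
      _ = L * ∫ p, dist p.1 p.2 ∂q := integral_const_mul _ _
      _ ≤ _ := mul_le_mul_of_nonneg_left (Real.le_sqrt_of_sq_le e3) hL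
  have hc : ContinuousAt (fun ε : ℝ => L * √((W2sq μ ν).toReal + ε)) 0 := by fun_prop
  have ht : Tendsto (fun ε : ℝ => L * √((W2sq μ ν).toReal + ε)) (𝓝[>] 0) (𝓝 (L * W2 μ ν)) := by
    simpa [W2] using hc.tendsto.mono_left nhdsWithin_le_nhds
  refine ge_of_tendsto ht (eventually_mem_nhdsWithin.mono fun ε hε => ?_)
  have h3 : W2sq μ ν < W2sq μ ν + ENNReal.ofReal ε :=
    ENNReal.lt_add_right hfin (ENNReal.ofReal_pos.2 hε).ne'
  obtain ⟨q, hq⟩ := iInf_lt_iff.1 h3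
  obtain ⟨h, hq⟩ := iInf_lt_iff.1 hq
  have h4 : W2sq μ ν + ENNReal.ofReal ε ≠ ⊤ := ENNReal.add_ne_top.2 ⟨hfin, ENNReal.ofReal_ne_top⟩
  refine (key q h (ne_top_of_lt hq)).trans (mul_le_mul_of_nonneg_left (Real.sqrt_le_sqrt ?_) hL)
  have := ENNReal.toReal_mono h4 hq.le
  rwa [ENNReal.toReal_add hfin ENNReal.ofReal_ne_top, ENNReal.toReal_ofReal (le_of_lt hε)] at this

/-- Chebyshev -/
theorem far_le (q : Measure (X × X)) {r : ℝ} (hr : 0 < r) :
    q {p | r ≤ dist p.1 p.2} ≤ quadCost q / ENNReal.ofReal (r ^ 2) := by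
  have h := meas_ge_le_lintegral_div (μ := q) (measurable_edist_sq (X := X)).aemeasurable
    (ε := ENNReal.ofReal (r ^ 2)) (ENNReal.ofReal_pos.2 (by positivity)).ne' ENNReal.ofReal_ne_top
  refine (measure_mono fun p hp => ?_).trans h
  simp only [mem_ofPred_eq, kb_edist] at hp ⊢
  exact ENNReal.ofReal_le_ofReal (pow_le_pow_left₀ hr.le hp 2)

variable [CompleteSpace X]

/-- gluing -/
theorem exists_glue [IsFiniteMeasure ν] {q₁ q₂ : Measure (X × X)} (h₁ : IsCouplingOf q₁ μ ν)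
    (h₂ : IsCouplingOf q₂ ν ρ) : ∃ T : Measure (X × X × X), T.map (fun p => (p.1, p.2.1)) = q₁ ∧
      T.map (fun p => (p.2.1, p.2.2)) = q₂ := by
  rcases isEmpty_or_nonempty X with hX | hX
  · exact ⟨0, Subsingleton.elim _ _, Subsingleton.elim _ _⟩
  have : IsFiniteMeasure q₂ := coup_finite h₂
  have : IsFiniteMeasure q₁ := by
    have := coup_finite (coup_swap h₁)
    exact Measure.isFiniteMeasure_of_map measurable_swap.aemeasurable
  let κ := q₂.condKernel
  have hd : ν.compProd κ = q₂ := by rw [← h₂.1]; exact q₂.disintegrate κ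
  let T := q₁.compProd (ProbabilityTheory.Kernel.prodMkLeft X κ)
  have ma : Measurable (MeasurableEquiv.prodAssoc : (X × X) × X ≃ᵐ X × X × X) := MeasurableEquiv.measurable _
  refine ⟨T.map MeasurableEquiv.prodAssoc, ?_, ?_⟩
  · rw [Measure.map_map (by fun_prop) ma]
    exact Measure.fst_compProd q₁ _
  · rw [Measure.map_map (by fun_prop) ma, ← hd, ← h₁.2]
    ext s hs
    have mm : Measurable ((fun p : X × X × X => (p.2.1, p.2.2)) ∘
      (MeasurableEquiv.prodAssoc : (X × X) × X ≃ᵐ X × X × X)) := by fun_prop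
    rw [Measure.map_apply mm hs, Measure.compProd_apply (mm hs), Measure.compProd_apply hs,
      lintegral_map (ProbabilityTheory.Kernel.measurable_kernel_prodMk_left hs) measurable_snd]
    rfl

theorem kb_tri [IsFiniteMeasure ν] {q₁ q₂ : Measure (X × X)} (h₁ : IsCouplingOf q₁ μ ν)
    (h₂ : IsCouplingOf q₂ ν ρ) :
    W2sq μ ρ ^ (1 / 2 : ℝ) ≤ quadCost q₁ ^ (1 / 2 : ℝ) + quadCost q₂ ^ (1 / 2 : ℝ) := by
  obtain ⟨T, e1, e2⟩ := exists_glue h₁ h₂
  have m1 : Measurable fun p : X × X × X => p.1 := measurable_fst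
  have m2 : Measurable fun p : X × X × X => p.2.1 := by fun_prop
  have m3 : Measurable fun p : X × X × X => p.2.2 := by fun_prop
  have a1 : T.map (fun p => p.1) = μ := by
    rw [← h₁.1, ← e1, Measure.map_map measurable_fst (m1.prodMk m2)]; rfl
  have a3 : T.map (fun p => p.2.2) = ρ := by
    rw [← h₂.2, ← e2, Measure.map_map measurable_snd (m2.prodMk m3)]; rfl
  have b := W2sq_map_le T m1 m3
  rw [a1, a3] at b
  rw [← e1, ← e2, (coup_map T m1 m2).2, (coup_map T m2 m3).2]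
  have c := ENNReal.lintegral_Lp_add_le (μ := T) (p := 2) (m1.edist m2).aemeasurable (m2.edist m3).aemeasurable
    one_le_two
  simp only [ENNReal.rpow_ofNat, Pi.add_apply] at c
  refine le_trans ?_ c
  gcongr
  refine b.trans (lintegral_mono fun p => ?_)
  gcongr
  exact edist_triangle _ _ _

theorem kb_rpow (μ ν : Measure X) : W2sq μ ν ^ (1 / 2 : ℝ) =
    ⨅ (q : Measure (X × X)) (_ : IsCouplingOf q μ ν), quadCost q ^ (1 / 2 : ℝ) := by
  have := (ENNReal.orderIsoRpow (1 / 2 : ℝ) (by norm_num)).map_iInf₂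
    (fun (q : Measure (X × X)) (_ : IsCouplingOf q μ ν) => quadCost q)
  exact this

theorem W2sq_triangle (μ ν ρ : Measure X) [IsFiniteMeasure ν] :
    W2sq μ ρ ^ (1 / 2 : ℝ) ≤ W2sq μ ν ^ (1 / 2 : ℝ) + W2sq ν ρ ^ (1 / 2 : ℝ) := by
  rw [kb_rpow μ ν, kb_rpow ν ρ]
  exact ENNReal.le_iInf₂_add_iInf₂ fun q h q' h' => kb_tri h h'

theorem W2sq_ne_top_trans [IsFiniteMeasure ν] (h₁ : W2sq μ ν ≠ ⊤) (h₂ : W2sq ν ρ ≠ ⊤) : W2sq μ ρ ≠ ⊤ := by
  intro h
  have := W2sq_triangle μ ν ρ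
  rw [h, ENNReal.top_rpow_of_pos (by norm_num), top_le_iff] at this
  exact ENNReal.add_ne_top.2 ⟨ENNReal.rpow_ne_top_of_nonneg (by norm_num) h₁,
    ENNReal.rpow_ne_top_of_nonneg (by norm_num) h₂⟩ this

theorem W2_triangle [IsFiniteMeasure ν] (h₁ : W2sq μ ν ≠ ⊤) (h₂ : W2sq ν ρ ≠ ⊤) :
    W2 μ ρ ≤ W2 μ ν + W2 ν ρ := by
  have a1 := ENNReal.rpow_ne_top_of_nonneg (y := 1 / 2) (by norm_num) h₁
  have a2 := ENNReal.rpow_ne_top_of_nonneg (y := 1 / 2) (by norm_num) h₂
  have := ENNReal.toReal_mono (ENNReal.add_ne_top.2 ⟨a1, a2⟩) (W2sq_triangle μ ν ρ)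
  rw [ENNReal.toReal_add a1 a2] at this
  simpa only [W2, Real.sqrt_eq_rpow, ENNReal.toReal_rpow] using this

end Crest.Agent.R242
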