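import Crest.Agent.R242.KantA
import Crest.Agent.R242.KantB

/-!
# R242 / KantC : Kantorovich potentials, optimal couplings, weak convergence on a proper space.  Owner helper3.
-/

set_option autoImplicit false
set_option linter.unusedSectionVars false

namespace Crest.Agent.R242

open MeasureTheory Set Filter Topology
open scoped NNReal ENNReal BoundedContinuousFunction
open Crest.GeometryTopology.SyntheticRicci

variable {X : Type*} [MetricSpace X]

/-- `φ` is the `d²/2`-transform of `ψ` over the ball `closedBall o R₀`, normalised by `φ o = 0`.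
All bounds below depend on `R₀` only. -/
structure Pot (o : X) (R₀ : ℝ) (φ ψ : X → ℝ) : Prop where
  cψ : Continuous ψ
  zero : φ o = 0
  le : ∀ x y, dist y o ≤ R₀ → φ x + ψ y ≤ dist x y ^ 2 / 2
  ex : ∀ x, ∃ y, dist y o ≤ R₀ ∧ φ x + ψ y = dist x y ^ 2 / 2

variable {o : X} {R₀ : ℝ} {φ ψ : X → ℝ}

theorem Pot.R0 (h : Pot o R₀ φ ψ) : 0 ≤ R₀ := by
  obtain ⟨y, hy, -⟩ := h.ex o
  exact dist_nonneg.trans hy

/-- one-sided slope bound at a contact point: the ascending slope of `φ` at `x` is at most `d(x,y)` -/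
theorem Pot.up (h : Pot o R₀ φ ψ) {x y : X} (hy : dist y o ≤ R₀) (hc : φ x + ψ y = dist x y ^ 2 / 2) (z : X) :
    φ z - φ x ≤ dist z x * (dist x y + dist z x / 2) := by
  have h1 := h.le z y hy
  have h2 := pow_le_pow_left₀ dist_nonneg (dist_triangle z x y) 2
  nlinarith

theorem kc_sq (x x' y : X) : dist x y ^ 2 / 2 - dist x' y ^ 2 / 2 ≤ (dist x y + dist x' y) / 2 * dist x x' := by
  have h1 := dist_triangle x x' y
  have h2 : 0 ≤ dist x y + dist x' y := by positivity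
  nlinarith [mul_le_mul_of_nonneg_left h1 h2]

theorem Pot.lip (h : Pot o R₀ φ ψ) (x x' : X) :
    |φ x - φ x'| ≤ (max (dist x o) (dist x' o) + R₀) * dist x x' := by
  have key : ∀ x x' : X, φ x - φ x' ≤ (max (dist x o) (dist x' o) + R₀) * dist x x' := by
    intro x x'
    obtain ⟨y, hy, hc⟩ := h.ex x'
    have h1 := h.le x y hy
    have h2 := kc_sq x x' y
    have h3 := dist_triangle_right x y o
    have h4 := dist_triangle_right x' y o
    have h5 : (dist x y + dist x' y) / 2 ≤ max (dist x o) (dist x' o) + R₀ := by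
      linarith [le_max_left (dist x o) (dist x' o), le_max_right (dist x o) (dist x' o)]
    linarith [mul_le_mul_of_nonneg_right h5 (dist_nonneg (x := x) (y := x'))]
  rw [abs_le]
  refine ⟨?_, key x x'⟩
  have := key x' x
  rw [max_comm, dist_comm x' x] at this
  linarith

theorem Pot.cφ (h : Pot o R₀ φ ψ) : Continuous φ := by
  refine continuous_iff_continuousAt.2 fun x => ?_
  rw [ContinuousAt, tendsto_iff_dist_tendsto_zero]
  have hc : Continuous fun z : X => (max (dist z o) (dist x o) + R₀) * dist z x := by fun_prop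
  refine squeeze_zero (fun _ => dist_nonneg) (fun z => ?_) (hc.tendsto' x 0 (by simp))
  rw [Real.dist_eq]
  exact h.lip z x

theorem Pot.lipOn (h : Pot o R₀ φ ψ) (R : ℝ) :
    LipschitzOnWith (R + R₀).toNNReal φ (Metric.closedBall o R) := by
  refine LipschitzOnWith.of_dist_le_mul fun x hx y hy => ?_
  rw [Real.dist_eq]
  refine (h.lip x y).trans (mul_le_mul_of_nonneg_right ?_ dist_nonneg)
  refine le_trans ?_ (Real.le_coe_toNNReal _)
  have := max_le (Metric.mem_closedBall.1 hx) (Metric.mem_closedBall.1 hy)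
  linarith

theorem Pot.abs_le (h : Pot o R₀ φ ψ) (x : X) : |φ x| ≤ (dist x o + R₀) * dist x o := by
  have := h.lip x o
  rwa [h.zero, sub_zero, dist_self, max_eq_left dist_nonneg] at this

theorem Pot.psi_le (h : Pot o R₀ φ ψ) {y : X} (hy : dist y o ≤ R₀) : ψ y ≤ R₀ ^ 2 / 2 := by
  have h1 := h.le o y hy
  rw [h.zero, dist_comm] at h1
  have := pow_le_pow_left₀ dist_nonneg hy 2
  linarith

/-- sublevel sets of `φ` are bounded, uniformly -/
theorem Pot.lower (h : Pot o R₀ φ ψ) (x : X) : dist x o ^ 2 / 2 - R₀ * dist x o - R₀ ^ 2 / 2 ≤ φ x := by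
  obtain ⟨y, hy, hc⟩ := h.ex x
  have h1 := h.psi_le hy
  have h2 := dist_triangle x y o
  have h0 := h.R0
  have h3 : dist x o ^ 2 / 2 - R₀ * dist x o ≤ dist x y ^ 2 / 2 := by
    rcases le_total R₀ (dist x o) with h4 | h4
    · have := pow_le_pow_left₀ (sub_nonneg.2 h4) (by linarith : dist x o - R₀ ≤ dist x y) 2
      nlinarith [sq_nonneg R₀]
    · nlinarith [mul_le_mul_of_nonneg_left h4 (dist_nonneg (x := x) (y := o)), sq_nonneg (dist x y),
        sq_nonneg (dist x o)]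
  linarith

/-- `φ` decreases along geodesics from `x` to a contact point `y` -/
theorem Pot.along (h : Pot o R₀ φ ψ) {x y z : X} (hy : dist y o ≤ R₀) (hc : φ x + ψ y = dist x y ^ 2 / 2)
    {t : ℝ} (hz : dist z y = (1 - t) * dist x y) : φ z - φ x ≤ ((1 - t) ^ 2 - 1) * dist x y ^ 2 / 2 := by
  have h1 := h.le z y hy
  rw [hz] at h1
  nlinarith

variable [MeasurableSpace X] [BorelSpace X] [ProperSpace X] {μ ν : Measure X}

theorem kc_int [IsFiniteMeasure ν] {f : X → ℝ} (hf : Continuous f) {R : ℝ}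
    (hν : ∀ᵐ y ∂ν, dist y o ≤ R) : Integrable f ν := by
  have h1 : IntegrableOn f (Metric.closedBall o R) ν :=
    hf.continuousOn.integrableOn_compact (isCompact_closedBall o R)
  rwa [IntegrableOn, Measure.restrict_eq_self_of_ae_mem (s := Metric.closedBall o R) hν] at h1

theorem Pot.int_phi (h : Pot o R₀ φ ψ) [IsFiniteMeasure μ] (hμ : HasFiniteSecondMoment μ) : Integrable φ μ := by
  refine Integrable.mono' (((moment_int hμ o).const_mul 2).add (integrable_const (R₀ ^ 2)))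
    h.cφ.aestronglyMeasurable (ae_of_all _ fun x => ?_)
  refine (h.abs_le x).trans ?_
  simp only [Pi.add_apply]
  nlinarith [sq_nonneg (dist x o - R₀), sq_nonneg R₀, sq_nonneg (dist x o)]

theorem Pot.int_psi (h : Pot o R₀ φ ψ) [IsFiniteMeasure ν] (hν : ∀ᵐ y ∂ν, dist y o ≤ R₀) : Integrable ψ ν := by
  exact kc_int h.cψ hν

theorem int_of_cont_bdd [IsFiniteMeasure ν] {f : X → ℝ} (hf : Continuous f) {R : ℝ}
    (hν : ∀ᵐ y ∂ν, dist y o ≤ R) : Integrable f ν := by
  exact kc_int hf hν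

/-- weak duality for a potential -/
theorem Pot.dual_le (h : Pot o R₀ φ ψ) [IsProbabilityMeasure μ] [IsProbabilityMeasure ν]
    (hμ : HasFiniteSecondMoment μ) (hν : ∀ᵐ y ∂ν, dist y o ≤ R₀) :
    ∫ x, φ x ∂μ + ∫ y, ψ y ∂ν ≤ W2 μ ν ^ 2 / 2 := by
  exact dual_le_real (A := univ) (B := Metric.closedBall o R₀) (W2sq_ne_top hμ (moment_of_bdd hν))
    (h.int_phi hμ) (h.int_psi hν) (ae_of_all _ fun _ => mem_univ _) hν fun x _ y hy => h.le x y hy

theorem kc_nonneg [IsProbabilityMeasure μ] {R : ℝ} (hμ : ∀ᵐ x ∂μ, dist x o ≤ R) : 0 ≤ R := by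
  obtain ⟨x, hx⟩ := hμ.exists
  exact dist_nonneg.trans hx

theorem kc_sub (μ : Measure X) [IsProbabilityMeasure μ] {K : Set X} (hK : MeasurableSet K) (hμ : ∀ᵐ x ∂μ, x ∈ K) :
    ∃ μ' : Measure K, IsProbabilityMeasure μ' ∧ μ'.map Subtype.val = μ :=
  ⟨μ.comap Subtype.val, (MeasurableEmbedding.subtype_coe hK).isProbabilityMeasure_comap
    (hμ.mono fun x hx => ⟨⟨x, hx⟩, rfl⟩),
    by rw [map_comap_subtype_coe hK, Measure.restrict_eq_self_of_ae_mem hμ]⟩

/-- (K1) Kantorovich potentials for measures with bounded supports -/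
theorem exists_pot (μ ν : Measure X) [IsProbabilityMeasure μ] [IsProbabilityMeasure ν] (o : X) {R R₀ : ℝ}
    (hμ : ∀ᵐ x ∂μ, dist x o ≤ R) (hν : ∀ᵐ y ∂ν, dist y o ≤ R₀) :
    ∃ φ ψ : X → ℝ, Pot o R₀ φ ψ ∧ ∫ x, φ x ∂μ + ∫ y, ψ y ∂ν = W2 μ ν ^ 2 / 2 ∧
      (∃ q, IsOptCouplingOf q μ ν) ∧
      ∀ q, IsOptCouplingOf q μ ν → ∀ᵐ p ∂q, dist p.2 o ≤ R₀ ∧ φ p.1 + ψ p.2 = dist p.1 p.2 ^ 2 / 2 := by
  have hR := kc_nonneg hμ
  have hR₀ := kc_nonneg hν
  set K := Metric.closedBall o R with hK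
  set K₀ := Metric.closedBall o R₀ with hK₀
  have : CompactSpace K := isCompact_iff_compactSpace.1 (isCompact_closedBall o R)
  have : CompactSpace K₀ := isCompact_iff_compactSpace.1 (isCompact_closedBall o R₀)
  have : Nonempty K := ⟨⟨o, Metric.mem_closedBall_self hR⟩⟩
  have : Nonempty K₀ := ⟨⟨o, Metric.mem_closedBall_self hR₀⟩⟩
  obtain ⟨μ', i1, e1⟩ := kc_sub μ (K := K) measurableSet_closedBall hμ
  obtain ⟨ν', i2, e2⟩ := kc_sub ν (K := K₀) measurableSet_closedBall hν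
  have hd : ∀ (x : K) (y : K₀), dist x.1 y.1 ≤ R + R₀ := fun x y =>
    (dist_triangle_right _ _ o).trans (add_le_add x.2 y.2)
  have hc : R226.OT.LipCost (R + R₀).toNNReal fun (x : K) (y : K₀) => dist x.1 y.1 ^ 2 / 2 := by
    refine ⟨fun y => LipschitzWith.of_le_add_mul _ fun x x' => ?_,
      fun x => LipschitzWith.of_le_add_mul _ fun y y' => ?_⟩
    · have h1 := kc_sq x.1 x'.1 y.1
      have h2 : (dist x.1 y.1 + dist x'.1 y.1) / 2 ≤ ((R + R₀).toNNReal : ℝ) :=
        le_trans (by linarith [hd x y, hd x' y]) (Real.le_coe_toNNReal _)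
      have h3 := mul_le_mul_of_nonneg_right h2 (dist_nonneg (x := x.1) (y := x'.1))
      rw [Subtype.dist_eq]
      linarith
    · have h1 := kc_sq y.1 y'.1 x.1
      have h2 : (dist y.1 x.1 + dist y'.1 x.1) / 2 ≤ ((R + R₀).toNNReal : ℝ) :=
        le_trans (by rw [dist_comm y.1, dist_comm y'.1]; linarith [hd x y, hd x y']) (Real.le_coe_toNNReal _)
      have h3 := mul_le_mul_of_nonneg_right h2 (dist_nonneg (x := y.1) (y := y'.1))
      rw [Subtype.dist_eq, dist_comm x.1, dist_comm x.1]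
      linarith
  obtain ⟨Φ, Ψ, hC, q', i3, m1, m2, hq'⟩ := kan_compact μ' ν' hc
  have hΦ := (hC.lip_left hc).continuous
  have hΨ := (hC.lip_right hc).continuous
  obtain ⟨ψ₀, hψ₀⟩ := ContinuousMap.exists_restrict_eq (s := K₀) Metric.isClosed_closedBall ⟨Ψ, hΨ⟩
  have hψ₁ : ∀ y : K₀, ψ₀ y.1 = Ψ y := fun y => DFunLike.congr_fun hψ₀ y
  have hT : ∀ x : X, ∃ y : K₀, ∀ y' : K₀, dist x y.1 ^ 2 / 2 - Ψ y ≤ dist x y'.1 ^ 2 / 2 - Ψ y' := fun x => by
    obtain ⟨y, -, hy⟩ := isCompact_univ.exists_isMinOn (f := fun y : K₀ => dist x y.1 ^ 2 / 2 - Ψ y)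
      univ_nonempty (by fun_prop)
    exact ⟨y, fun y' => hy (mem_univ y')⟩
  choose T hT using hT
  obtain ⟨φ₀, hφ₀⟩ : ∃ φ₀ : X → ℝ, ∀ x, φ₀ x = dist x (T x).1 ^ 2 / 2 - Ψ (T x) := ⟨_, fun _ => rfl⟩
  have hφ₁ : ∀ x : K, φ₀ x.1 = Φ x := fun x => by
    obtain ⟨y, hy⟩ := hC.exl x
    have h1 := hT x.1 y
    have h2 := hC.le x (T x.1)
    rw [hφ₀]
    linarith
  have hP : Pot o R₀ (fun x => φ₀ x - φ₀ o) fun y => ψ₀ y + φ₀ o := by
    refine ⟨by fun_prop, sub_self _, fun x y hy => ?_, fun x => ⟨(T x).1, (T x).2, ?_⟩⟩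
    · have h1 := hT x ⟨y, hy⟩
      have h2 := hψ₁ ⟨y, hy⟩
      have h3 := hφ₀ x
      simp only at h1 h2
      linarith
    · rw [hψ₁, hφ₀ x]; ring
  have mv : Measurable (Prod.map (Subtype.val : K → X) (Subtype.val : K₀ → X)) :=
    measurable_subtype_coe.prodMap measurable_subtype_coe
  have hq : IsCouplingOf (q'.map (Prod.map Subtype.val Subtype.val)) μ ν := by
    refine ⟨?_, ?_⟩
    · rw [Measure.map_map measurable_fst mv, ← e1, ← m1, Measure.map_map measurable_subtype_coe measurable_fst]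
      rfl
    · rw [Measure.map_map measurable_snd mv, ← e2, ← m2, Measure.map_map measurable_subtype_coe measurable_snd]
      rfl
  have s1 : ∫ x, (φ₀ x - φ₀ o) ∂μ = ∫ x, Φ x ∂μ' - φ₀ o := by
    rw [← e1, integral_map measurable_subtype_coe.aemeasurable hP.cφ.aestronglyMeasurable]
    simp only [hφ₁]
    rw [integral_sub (R226.OT.int_cont hΦ) (integrable_const _)]
    simp
  have s2 : ∫ y, (ψ₀ y + φ₀ o) ∂ν = ∫ y, Ψ y ∂ν' + φ₀ o := by
    rw [← e2, integral_map measurable_subtype_coe.aemeasurable hP.cψ.aestronglyMeasurable]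
    simp only [hψ₁]
    rw [integral_add (R226.OT.int_cont hΨ) (integrable_const _)]
    simp
  have hfin := W2sq_ne_top (moment_of_bdd hμ) (moment_of_bdd hν)
  have hfin' := quadCost_ne_top hq (moment_of_bdd hμ) (moment_of_bdd hν)
  have s3 : (quadCost (q'.map (Prod.map Subtype.val Subtype.val))).toReal / 2 =
      ∫ x, (φ₀ x - φ₀ o) ∂μ + ∫ y, (ψ₀ y + φ₀ o) ∂ν := by
    rw [← (int_dist_sq hfin').2, integral_map mv.aemeasurable (Continuous.aestronglyMeasurable (by fun_prop)),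
      ← integral_div, s1, s2]
    simp only [Prod.map_fst, Prod.map_snd]
    rw [hq']
    ring
  have s4 := hP.dual_le (moment_of_bdd hμ) hν
  have s5 := ENNReal.toReal_mono hfin' (W2sq_le hq)
  rw [← W2_sq] at s5
  have s6 : ∫ x, (φ₀ x - φ₀ o) ∂μ + ∫ y, (ψ₀ y + φ₀ o) ∂ν = W2 μ ν ^ 2 / 2 := by linarith
  refine ⟨_, _, hP, s6, ⟨_, opt_of_le hq ?_⟩, fun q ho => ?_⟩
  · rw [← ENNReal.toReal_le_toReal hfin' hfin, ← W2_sq]
    linarith
  · have b := coup_ae_snd ho.1 hν
    refine b.and (contact_of_opt ho hfin (hP.int_phi (moment_of_bdd hμ)) (hP.int_psi hν)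
      (b.mono fun p hp => hP.le _ _ hp) s6.ge)

theorem kc_lsc : LowerSemicontinuous fun q : ProbabilityMeasure (X × X) => quadCost (q : Measure (X × X)) := by
  let f : ℕ → (X × X →ᵇ ℝ≥0) := fun n => BoundedContinuousFunction.mkOfBound
    ⟨fun p => min (nndist p.1 p.2 ^ 2) n, by fun_prop⟩ n fun p p' => by
      rw [NNReal.dist_eq, abs_le]
      have h1 : ∀ p : X × X, ((min (nndist p.1 p.2 ^ 2) n : ℝ≥0) : ℝ) ≤ n := fun p => by
        exact_mod_cast min_le_right _ _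
      have h2 := h1 p
      have h3 := h1 p'
      have h4 := (min (nndist p.1 p.2 ^ 2) n : ℝ≥0).2
      have h5 := (min (nndist p'.1 p'.2 ^ 2) n : ℝ≥0).2
      simp only [ContinuousMap.coe_mk, NNReal.val_eq_coe] at *
      constructor <;> linarith
  have e : (fun q : ProbabilityMeasure (X × X) => quadCost (q : Measure (X × X))) =
      fun q : ProbabilityMeasure (X × X) => ⨆ n, ∫⁻ p, f n p ∂(q : Measure (X × X)) := by
    funext q
    rw [← lintegral_iSup (fun n => (f n).continuous.measurable.coe_nnreal_ennreal) fun n n' hn p => by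
      show ((min (nndist p.1 p.2 ^ 2) n : ℝ≥0) : ℝ≥0∞) ≤ (min (nndist p.1 p.2 ^ 2) n' : ℝ≥0)
      gcongr]
    refine lintegral_congr fun p => ?_
    show edist p.1 p.2 ^ 2 = ⨆ n : ℕ, ((min (nndist p.1 p.2 ^ 2) n : ℝ≥0) : ℝ≥0∞)
    rw [edist_nndist, ← ENNReal.coe_pow]
    refine le_antisymm ?_ (iSup_le fun n => ENNReal.coe_le_coe.2 (min_le_left _ _))
    obtain ⟨n, hn⟩ := exists_nat_ge (nndist p.1 p.2 ^ 2)
    exact le_iSup_of_le n (by rw [min_eq_left hn])
  rw [e]
  exact lowerSemicontinuous_iSup fun n =>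
    (ProbabilityMeasure.continuous_lintegral_boundedContinuousFunction (f n)).lowerSemicontinuous

/-- optimal couplings exist (Prokhorov) -/
theorem exists_opt (μ ν : Measure X) [IsProbabilityMeasure μ] [IsProbabilityMeasure ν] :
    ∃ q, IsOptCouplingOf q μ ν := by
  let S : Set (ProbabilityMeasure (X × X)) := {q | IsCouplingOf (q : Measure (X × X)) μ ν}
  have hcl : IsClosed S := by
    have c1 := ProbabilityMeasure.continuous_map (Ω := X × X) continuous_fst
    have c2 := ProbabilityMeasure.continuous_map (Ω := X × X) continuous_snd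
    let μ' : ProbabilityMeasure X := ⟨μ, inferInstance⟩
    let ν' : ProbabilityMeasure X := ⟨ν, inferInstance⟩
    have := (isClosed_eq c1 (continuous_const (y := μ'))).inter (isClosed_eq c2 (continuous_const (y := ν')))
    convert this using 1
    ext q
    exact ⟨fun h => ⟨Subtype.ext h.1, Subtype.ext h.2⟩,
      fun h => ⟨congrArg Subtype.val h.1, congrArg Subtype.val h.2⟩⟩
  have ht : IsTightMeasureSet {((q : ProbabilityMeasure (X × X)) : Measure (X × X)) | q ∈ S} := by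
    refine IsTightMeasureSet.prodMk ((isTightMeasureSet_singleton (μ := μ)).subset ?_)
      ((isTightMeasureSet_singleton (μ := ν)).subset ?_)
    · rintro _ ⟨_, ⟨q, hq, rfl⟩, rfl⟩
      exact hq.1
    · rintro _ ⟨_, ⟨q, hq, rfl⟩, rfl⟩
      exact hq.2
  have hK := isCompact_closure_of_isTightMeasureSet ht
  rw [hcl.closure_eq] at hK
  obtain ⟨q, hq, hmin⟩ := LowerSemicontinuousOn.exists_isMinOn
    (⟨⟨μ.prod ν, inferInstance⟩, coup_prod μ ν⟩ : S.Nonempty) hK (kc_lsc.lowerSemicontinuousOn S)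
  exact ⟨q, hq, fun q' h' => hmin (a := ⟨q', coup_prob h'⟩) h'⟩

/-- weak convergence in a ball can be tested with all continuous functions -/
theorem tendsto_int_cont {ι : Type*} {l : Filter ι} {μs : ι → Measure X} {R : ℝ}
    (hμ : ∀ᵐ x ∂μ, dist x o ≤ R) (hμs : ∀ i, ∀ᵐ x ∂μs i, dist x o ≤ R)
    (h1 : ∀ f : X →ᵇ ℝ, Tendsto (fun i => ∫ x, f x ∂μs i) l (𝓝 (∫ x, f x ∂μ))) {f : X → ℝ} (hf : Continuous f) :
    Tendsto (fun i => ∫ x, f x ∂μs i) l (𝓝 (∫ x, f x ∂μ)) := by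
  obtain ⟨M, hM⟩ := (isCompact_closedBall o R).exists_bound_of_continuousOn hf.continuousOn
  let g : X →ᵇ ℝ := BoundedContinuousFunction.ofNormedAddCommGroup (fun x => max (-|M|) (min (f x) |M|))
    (by fun_prop) |M| fun x => by
      rw [Real.norm_eq_abs, abs_le]
      exact ⟨le_max_left _ _, max_le (neg_le_self (abs_nonneg M)) (min_le_right _ _)⟩
  have hg : ∀ x, dist x o ≤ R → f x = g x := fun x hx => by
    have := abs_le.1 ((hM x hx).trans (le_abs_self M))
    show f x = max (-|M|) (min (f x) |M|)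
    rw [min_eq_left this.2, max_eq_right this.1]
  rw [integral_congr_ae (hμ.mono hg)]
  exact (h1 g).congr fun i => (integral_congr_ae ((hμs i).mono hg)).symm

/-- lower semicontinuity under weak convergence in a ball -/
theorem W2_lsc {ι : Type*} {l : Filter ι} {μs νs : ι → Measure X} [IsProbabilityMeasure μ]
    [IsProbabilityMeasure ν] [∀ i, IsProbabilityMeasure (μs i)] [∀ i, IsProbabilityMeasure (νs i)] {R : ℝ}
    (hμ : ∀ᵐ x ∂μ, dist x o ≤ R) (hν : ∀ᵐ x ∂ν, dist x o ≤ R) (hμs : ∀ i, ∀ᵐ x ∂μs i, dist x o ≤ R)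
    (hνs : ∀ i, ∀ᵐ x ∂νs i, dist x o ≤ R)
    (h1 : ∀ f : X →ᵇ ℝ, Tendsto (fun i => ∫ x, f x ∂μs i) l (𝓝 (∫ x, f x ∂μ)))
    (h2 : ∀ f : X →ᵇ ℝ, Tendsto (fun i => ∫ x, f x ∂νs i) l (𝓝 (∫ x, f x ∂ν))) {a : ℝ} (ha : a < W2 μ ν) :
    ∀ᶠ i in l, a < W2 (μs i) (νs i) := by
  rcases lt_or_ge a 0 with h0 | h0
  · exact Eventually.of_forall fun i => h0.trans_le (W2_nonneg _ _)
  obtain ⟨φ, ψ, hP, he, -⟩ := exists_pot μ ν o hμ hν
  have ht := (tendsto_int_cont hμ hμs h1 hP.cφ).add (tendsto_int_cont hν hνs h2 hP.cψ)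
  rw [he] at ht
  have h3 : a ^ 2 / 2 < W2 μ ν ^ 2 / 2 := by linarith [pow_lt_pow_left₀ ha h0 two_ne_zero]
  filter_upwards [ht.eventually (lt_mem_nhds h3)] with i hi
  have := hP.dual_le (moment_of_bdd (hμs i)) (hνs i)
  exact lt_of_pow_lt_pow_left₀ 2 (W2_nonneg _ _) (by linarith)

theorem kc_unif {ι : Type*} {l : Filter ι} {μs : ι → Measure X} [IsProbabilityMeasure μ]
    [∀ i, IsProbabilityMeasure (μs i)] {R : ℝ} (hμ : ∀ᵐ x ∂μ, dist x o ≤ R)
    (hμs : ∀ i, ∀ᵐ x ∂μs i, dist x o ≤ R)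
    (h1 : ∀ f : X →ᵇ ℝ, Tendsto (fun i => ∫ x, f x ∂μs i) l (𝓝 (∫ x, f x ∂μ))) {ε : ℝ} (hε : 0 < ε) :
    ∀ᶠ i in l, ∀ φ ψ : X → ℝ, Pot o R φ ψ →
      ∫ x, φ x ∂μs i - ∫ x, φ x ∂μ ≤ (4 * R + 2 * R ^ 2) * ε := by
  have hR := kc_nonneg hμ
  obtain ⟨t, ht1, ht2, ht3⟩ := (isCompact_closedBall o R).finite_cover_balls hε
  obtain ⟨N, e, -, he⟩ := ht2.fin_param
  obtain ⟨f, hf1, hf2, hf3, -⟩ := exists_continuous_sum_one_of_isOpen_isCompact (s := fun k => Metric.ball (e k) ε)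
    (fun _ => Metric.isOpen_ball) (isCompact_closedBall o R) (fun x hx => by
      obtain ⟨y, hy, hb⟩ := mem_iUnion₂.1 (ht3 hx)
      obtain ⟨k, rfl⟩ : y ∈ range e := he ▸ hy
      exact mem_iUnion.2 ⟨k, hb⟩)
  have hT : Tendsto (fun i => ∑ k, |∫ x, f k x ∂μs i - ∫ x, f k x ∂μ|) l (𝓝 0) := by
    have := tendsto_finsetSum Finset.univ fun k _ =>
      ((tendsto_int_cont hμ hμs h1 (f k).continuous).sub_const (∫ x, f k x ∂μ)).abs
    simpa using this
  filter_upwards [hT.eventually (gt_mem_nhds hε)] with i hi φ ψ hP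
  have he' : ∀ k, dist (e k) o ≤ R := fun k => ht1 (he ▸ mem_range_self k)
  have hc : Continuous fun x => ∑ k, φ (e k) * f k x := by fun_prop
  have hb : ∀ x, dist x o ≤ R → |φ x - ∑ k, φ (e k) * f k x| ≤ 2 * R * ε := fun x hx => by
    have h2 : ∑ k, f k x = 1 := by simpa using hf2 hx
    have h3 : φ x - ∑ k, φ (e k) * f k x = ∑ k, (φ x - φ (e k)) * f k x := by
      simp only [sub_mul, Finset.sum_sub_distrib, ← Finset.mul_sum, h2, mul_one]
    rw [h3]
    calc |∑ k, (φ x - φ (e k)) * f k x| ≤ ∑ k, |(φ x - φ (e k)) * f k x| := Finset.abs_sum_le_sum_abs _ _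
      _ ≤ ∑ k, 2 * R * ε * f k x := Finset.sum_le_sum fun k _ => by
          rcases eq_or_ne (f k x) 0 with h | h
          · simp [h]
          · have h4 : dist x (e k) < ε := hf1 k (subset_tsupport _ h)
            rw [abs_mul, abs_of_nonneg (hf3 k x).1]
            refine mul_le_mul_of_nonneg_right ((hP.lip _ _).trans ?_) (hf3 k x).1
            have := max_le hx (he' k)
            exact mul_le_mul (by linarith) h4.le dist_nonneg (by linarith)
      _ = 2 * R * ε := by rw [← Finset.mul_sum, h2, mul_one]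
  have key : ∀ (ν : Measure X) [IsProbabilityMeasure ν], (∀ᵐ x ∂ν, dist x o ≤ R) →
      |∫ x, φ x ∂ν - ∑ k, φ (e k) * ∫ x, f k x ∂ν| ≤ 2 * R * ε := by
    intro ν _ hν
    have h2 : ∑ k, φ (e k) * ∫ x, f k x ∂ν = ∫ x, ∑ k, φ (e k) * f k x ∂ν := by
      rw [integral_finsetSum _ fun k _ => (kc_int (f k).continuous hν).const_mul _]
      simp only [integral_const_mul]
    rw [h2, ← integral_sub (kc_int hP.cφ hν) (kc_int hc hν)]
    have := norm_integral_le_of_norm_le_const (μ := ν) (f := fun x => φ x - ∑ k, φ (e k) * f k x)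
      (C := 2 * R * ε) (hν.mono hb)
    simpa using this
  have k1 := (abs_le.1 (key _ (hμs i))).2
  have k2 := (abs_le.1 (key _ hμ)).1
  have k3 : ∑ k, φ (e k) * ∫ x, f k x ∂μs i - ∑ k, φ (e k) * ∫ x, f k x ∂μ ≤ 2 * R ^ 2 * ε := by
    rw [← Finset.sum_sub_distrib]
    calc ∑ k, (φ (e k) * ∫ x, f k x ∂μs i - φ (e k) * ∫ x, f k x ∂μ)
        ≤ ∑ k, 2 * R ^ 2 * |∫ x, f k x ∂μs i - ∫ x, f k x ∂μ| := Finset.sum_le_sum fun k _ => by
          rw [← mul_sub]
          refine (le_abs_self _).trans ?_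
          rw [abs_mul]
          refine mul_le_mul_of_nonneg_right ((hP.abs_le _).trans ?_) (abs_nonneg _)
          have h5 := he' k
          have h6 := dist_nonneg (x := e k) (y := o)
          nlinarith
      _ ≤ 2 * R ^ 2 * ε := by
          rw [← Finset.mul_sum]
          exact mul_le_mul_of_nonneg_left hi.le (by positivity)
  linarith

/-- weak convergence in a ball implies `W₂` convergence -/
theorem W2_tendsto_of_weak {ι : Type*} {l : Filter ι} {μs : ι → Measure X} [IsProbabilityMeasure μ]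
    [∀ i, IsProbabilityMeasure (μs i)] {R : ℝ} (hμ : ∀ᵐ x ∂μ, dist x o ≤ R)
    (hμs : ∀ i, ∀ᵐ x ∂μs i, dist x o ≤ R)
    (h1 : ∀ f : X →ᵇ ℝ, Tendsto (fun i => ∫ x, f x ∂μs i) l (𝓝 (∫ x, f x ∂μ))) :
    Tendsto (fun i => W2 (μs i) μ) l (𝓝 0) := by
  have hR := kc_nonneg hμ
  have h2 : Tendsto (fun i => W2 (μs i) μ ^ 2) l (𝓝 0) := by
    refine tendsto_order.2 ⟨fun a ha => Eventually.of_forall fun i => ha.trans_le (sq_nonneg _), fun a ha => ?_⟩
    have hA : 0 < 4 * R + 2 * R ^ 2 + 1 := by positivity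
    filter_upwards [kc_unif hμ hμs h1 (ε := a / (2 * (4 * R + 2 * R ^ 2 + 1))) (by positivity)] with i hi
    obtain ⟨φ, ψ, hP, he, -⟩ := exists_pot (μs i) μ o (hμs i) hμ
    have h3 := hi φ ψ hP
    have h4 : ∫ x, ψ x ∂μ ≤ ∫ x, -φ x ∂μ :=
      integral_mono_ae (hP.int_psi hμ) (kc_int hP.cφ hμ).neg (hμ.mono fun x hx => by
        have := hP.le x x hx
        rw [dist_self] at this
        show ψ x ≤ -φ x
        linarith)
    rw [integral_neg] at h4
    have h5 : (4 * R + 2 * R ^ 2) * (a / (2 * (4 * R + 2 * R ^ 2 + 1))) < a / 2 := by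
      rw [mul_div_assoc', div_lt_div_iff₀ (by positivity) two_pos]
      nlinarith
    linarith
  have := (Real.continuous_sqrt.tendsto 0).comp h2
  simpa [Function.comp_def, Real.sqrt_sq (W2_nonneg _ _)] using this

/-- `W₂` convergence implies weak convergence -/
theorem weak_of_W2 {ι : Type*} {l : Filter ι} {μs : ι → Measure X} [IsProbabilityMeasure μ]
    [∀ i, IsProbabilityMeasure (μs i)] (h : Tendsto (fun i => W2sq (μs i) μ) l (𝓝 0)) (f : X →ᵇ ℝ) :
    Tendsto (fun i => ∫ x, f x ∂μs i) l (𝓝 (∫ x, f x ∂μ)) := by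
  obtain ⟨o⟩ := nonempty_of_isProbabilityMeasure μ
  rw [Metric.tendsto_nhds]
  intro a ha
  have hA : 0 < 4 * ‖f‖ + 2 := by positivity
  obtain ⟨ε, hε, hεa⟩ : ∃ ε : ℝ, 0 < ε ∧ ε + 2 * ‖f‖ * (2 * ε) < a := by
    refine ⟨a / (4 * ‖f‖ + 2), by positivity, ?_⟩
    have : a / (4 * ‖f‖ + 2) * (4 * ‖f‖ + 2) = a := by field_simp
    nlinarith [div_pos ha hA]
  obtain ⟨K, hK, hKμ⟩ := isTightMeasureSet_iff_exists_isCompact_measure_compl_le.1
    (isTightMeasureSet_singleton (μ := μ)) (ENNReal.ofReal ε) (ENNReal.ofReal_pos.2 hε)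
  obtain ⟨R, hR⟩ := hK.isBounded.subset_closedBall o
  obtain ⟨δ, hδ, hu⟩ := Metric.uniformContinuousOn_iff.1
    ((isCompact_closedBall o (R + 1)).uniformContinuousOn_of_continuous f.continuous.continuousOn) ε hε
  have hδ' : 0 < min δ 1 := lt_min hδ one_pos
  have h0 : (0 : ℝ≥0∞) < ENNReal.ofReal (ε * min δ 1 ^ 2) := ENNReal.ofReal_pos.2 (by positivity)
  filter_upwards [h.eventually (gt_mem_nhds h0)] with i hi
  obtain ⟨q, hq⟩ := exists_opt (μs i) μ
  have := coup_prob hq.1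
  obtain ⟨i1, e1⟩ := coup_int_fst hq.1 (f.integrable (μs i))
  obtain ⟨i2, e2⟩ := coup_int_snd hq.1 (f.integrable μ)
  let B : Set (X × X) := {p | min δ 1 ≤ dist p.1 p.2} ∪ Prod.snd ⁻¹' Kᶜ
  have hBm : MeasurableSet B :=
    (isClosed_le continuous_const (by fun_prop)).measurableSet.union (measurable_snd hK.measurableSet.compl)
  have hB : q.real B ≤ 2 * ε := by
    refine ENNReal.toReal_le_of_le_ofReal (by positivity) ((measure_union_le _ _).trans ?_)
    rw [two_mul, ENNReal.ofReal_add hε.le hε.le]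
    refine add_le_add ((far_le q hδ').trans ?_) ?_
    · rw [opt_cost hq]
      refine ENNReal.div_le_of_le_mul ?_
      rw [← ENNReal.ofReal_mul hε.le]
      exact hi.le
    · rw [← Measure.map_apply measurable_snd hK.measurableSet.compl, hq.1.2]
      exact hKμ μ rfl
  have i3 : Integrable (fun p => ε + 2 * ‖f‖ * B.indicator (fun _ => (1 : ℝ)) p) q :=
    (integrable_const _).add (((integrable_const _).indicator hBm).const_mul _)
  rw [Real.dist_eq, ← e1, ← e2, ← integral_sub i1 i2]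
  refine lt_of_le_of_lt ?_ hεa
  calc |∫ p, (f p.1 - f p.2) ∂q| ≤ ∫ p, |f p.1 - f p.2| ∂q := abs_integral_le_integral_abs
    _ ≤ ∫ p, (ε + 2 * ‖f‖ * B.indicator (fun _ => (1 : ℝ)) p) ∂q := by
        refine integral_mono (i1.sub i2).abs i3 fun p => ?_
        show |f p.1 - f p.2| ≤ ε + 2 * ‖f‖ * B.indicator (fun _ => (1 : ℝ)) p
        by_cases hp : p ∈ B
        · rw [indicator_of_mem hp, mul_one, ← Real.dist_eq]
          linarith [f.dist_le_two_norm p.1 p.2]
        · rw [indicator_of_notMem hp, mul_zero, add_zero, ← Real.dist_eq]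
          simp only [B, mem_union, mem_ofPred_eq, mem_preimage, mem_compl_iff, not_or, not_le, not_not] at hp
          have h2 : dist p.2 o ≤ R := hR hp.2
          have h3 := dist_triangle p.1 p.2 o
          refine (hu p.1 ?_ p.2 ?_ (hp.1.trans_le (min_le_left _ _))).le
          · rw [Metric.mem_closedBall]; linarith [hp.1, min_le_right δ 1]
          · rw [Metric.mem_closedBall]; linarith
    _ = ε + 2 * ‖f‖ * q.real B := by
        rw [integral_add (integrable_const _) (((integrable_const _).indicator hBm).const_mul _),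
          integral_const_mul, integral_indicator hBm]
        simp
    _ ≤ _ := by gcongr

/-- with a common density bound, `W₂` convergence gives convergence against all `L¹(m)` functions -/
theorem L1_of_W2 {ι : Type*} {l : Filter ι} {m : Measure X} [IsLocallyFiniteMeasure m] {μs : ι → Measure X}
    [IsProbabilityMeasure μ] [∀ i, IsProbabilityMeasure (μs i)] {C : ℝ≥0} (hC : μ ≤ (C : ℝ≥0∞) • m)
    (hCs : ∀ᶠ i in l, μs i ≤ (C : ℝ≥0∞) • m) (h : Tendsto (fun i => W2sq (μs i) μ) l (𝓝 0)) {g : X → ℝ}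
    (hg : Integrable g m) : Tendsto (fun i => ∫ x, g x ∂μs i) l (𝓝 (∫ x, g x ∂μ)) := by
  rw [Metric.tendsto_nhds]
  intro a ha
  obtain ⟨ε, hε, hεa⟩ : ∃ ε : ℝ, 0 < ε ∧ ε + 2 * (C * ε) ≤ a := by
    have hA : 0 < 2 * (C : ℝ) + 1 := by positivity
    refine ⟨a / (2 * C + 1), by positivity, le_of_eq ?_⟩
    field_simp
    ring
  obtain ⟨f, hf, hfi⟩ := hg.exists_boundedContinuous_integral_sub_le hε
  have key : ∀ ν : Measure X, ν ≤ (C : ℝ≥0∞) • m → |∫ x, g x ∂ν - ∫ x, f x ∂ν| ≤ C * ε := fun ν hν => by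
    have i1 := (hg.smul_measure (c := C) ENNReal.coe_ne_top)
    have i2 := (hfi.smul_measure (c := C) ENNReal.coe_ne_top)
    rw [← integral_sub (i1.mono_measure hν) (i2.mono_measure hν)]
    calc |∫ x, (g x - f x) ∂ν| ≤ ∫ x, |g x - f x| ∂ν := abs_integral_le_integral_abs
      _ ≤ ∫ x, |g x - f x| ∂((C : ℝ≥0∞) • m) :=
          integral_mono_measure hν (ae_of_all _ fun _ => abs_nonneg _) (i1.sub i2).abs
      _ = C * ∫ x, ‖g x - f x‖ ∂m := by rw [integral_smul_measure]; simp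
      _ ≤ C * ε := by gcongr
  filter_upwards [hCs, Metric.tendsto_nhds.1 (weak_of_W2 h f) ε hε] with i h1 h2
  have k1 := abs_le.1 (key _ h1)
  have k2 := abs_le.1 (key _ hC)
  rw [Real.dist_eq, abs_lt] at h2 ⊢
  constructor <;> linarith [h2.1, h2.2, k1.1, k1.2, k2.1, k2.2]

end Crest.Agent.R242
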