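import Crest.Agent.R242.Defs
import Crest.Agent.R242.KantC
import Crest.Agent.R242.Wug9

/-! Row 242, part I-d (helper48): Lemma D and the local transport estimate. -/

set_option autoImplicit false
set_option linter.unusedSectionVars false
open MeasureTheory Filter Set Topology
open scoped ENNReal NNReal
open Crest.GeometryTopology.SyntheticRicci

namespace Crest.Agent.R242

variable {X : Type*} [MetricSpace X] [MeasurableSpace X]

/-- `W₂`-contraction of the heat flow on bounded densities with bounded support. -/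
def Contr (m : Measure X) (κ : ℝ) (P : ℝ → (X → ℝ) → X → ℝ) : Prop :=
  ∀ t : ℝ, 0 ≤ t → ∀ (o : X) (R : ℝ) (C : ℝ≥0) (f₀ f₁ : X → ℝ), MemLp f₀ 2 m → MemLp f₁ 2 m →
    (∀ᵐ x ∂m, 0 ≤ f₀ x) → (∀ᵐ x ∂m, 0 ≤ f₁ x) → BddProb m o R C (den m f₀) → BddProb m o R C (den m f₁) →
    W2sq (den m (P t f₀)) (den m (P t f₁)) ≤ ENNReal.ofReal (Real.exp (2 * κ * t)) * W2sq (den m f₀) (den m f₁)

variable [BorelSpace X] [ProperSpace X] {m : Measure X} [IsFiniteMeasureOnCompacts m]

theorem ge_int {μ : Measure X} {C : ℝ≥0} (h : μ ≤ (C : ℝ≥0∞) • m) {g : X → ℝ} (hg : Integrable g m) :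
    Integrable g μ := (hg.smul_measure ENNReal.coe_ne_top).mono_measure h

theorem ge_int_le {μ : Measure X} {C : ℝ≥0} (h : μ ≤ (C : ℝ≥0∞) • m) {g : X → ℝ} (hg : Integrable g m)
    (h0 : ∀ x, 0 ≤ g x) : ∫ x, g x ∂μ ≤ C * ∫ x, g x ∂m := by
  have := integral_mono_measure h (Eventually.of_forall h0) (hg.smul_measure ENNReal.coe_ne_top)
  rwa [integral_smul_measure, ENNReal.coe_toReal, smul_eq_mul] at this

/-- uniform modulus of continuity of `μ ↦ ∫ g dμ` on bounded densities -/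
theorem mod_cont {g : X → ℝ} (hg : Integrable g m) (C : ℝ≥0) {ε : ℝ} (hε : 0 < ε) :
    ∃ δ : ℝ, 0 < δ ∧ ∀ (μ ν : Measure X) (q : Measure (X × X)), IsProbabilityMeasure q → IsCouplingOf q μ ν →
      μ ≤ (C : ℝ≥0∞) • m → ν ≤ (C : ℝ≥0∞) • m → quadCost q ≤ ENNReal.ofReal δ →
      ∫ x, g x ∂ν ≤ ∫ x, g x ∂μ + ε := by
  have hC : (0 : ℝ) < C + 1 := by positivity
  obtain ⟨g', c1, c2, c3, c4⟩ := hg.exists_hasCompactSupport_integral_sub_le (ε := ε / (4 * (C + 1))) (by positivity)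
  obtain ⟨M, hM⟩ := c3.bounded_above_of_compact_support c1
  obtain ⟨r, hr, hu⟩ := Metric.uniformContinuous_iff.1 (c1.uniformContinuous_of_continuous c3) (ε / 4) (by positivity)
  have hM1 : 0 < |M| + 1 := by positivity
  refine ⟨ε * r ^ 2 / (8 * (|M| + 1)), by positivity, fun μ ν q hq hc hμ hν hδ => ?_⟩
  have hfin : quadCost q ≠ ⊤ := ne_top_of_le_ne_top ENNReal.ofReal_ne_top hδ
  obtain ⟨d1, d2⟩ := int_dist_sq hfin
  have d3 : ∫ p, dist p.1 p.2 ^ 2 ∂q ≤ ε * r ^ 2 / (8 * (|M| + 1)) := by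
    rw [d2]; exact ENNReal.toReal_le_of_le_ofReal (by positivity) hδ
  have a1 : ∀ {η : Measure X}, η ≤ (C : ℝ≥0∞) • m → |∫ x, g x ∂η - ∫ x, g' x ∂η| ≤ ε / 4 := by
    intro η hη
    rw [← integral_sub (ge_int hη hg) (ge_int hη c4)]
    refine (abs_integral_le_integral_abs).trans ((ge_int_le hη (hg.sub c4).abs fun x => abs_nonneg _).trans ?_)
    have : (C : ℝ) * ∫ x, |g x - g' x| ∂m ≤ C * (ε / (4 * (C + 1))) := mul_le_mul_of_nonneg_left c2 C.2
    refine this.trans ?_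
    rw [mul_div_assoc', div_le_div_iff₀ (by positivity) (by positivity)]
    nlinarith
  obtain ⟨e1, e2⟩ := coup_int_fst hc (ge_int hμ c4)
  obtain ⟨e3, e4⟩ := coup_int_snd hc (ge_int hν c4)
  have a2 : ∫ x, g' x ∂ν - ∫ x, g' x ∂μ ≤ ε / 4 + 2 * (|M| + 1) / r ^ 2 * ∫ p, dist p.1 p.2 ^ 2 ∂q := by
    rw [← e2, ← e4, ← integral_sub e3 e1, ← integral_const_mul]
    have : ε / 4 = ∫ _p, ε / 4 ∂q := by simp
    rw [this, ← integral_add (integrable_const _) (d1.const_mul _)]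
    refine integral_mono (e3.sub e1) ((integrable_const _).add (d1.const_mul _)) fun p => ?_
    have b0 : 0 ≤ 2 * (|M| + 1) / r ^ 2 * dist p.1 p.2 ^ 2 := by positivity
    by_cases hp : dist p.2 p.1 < r
    · have := hu hp
      rw [Real.dist_eq] at this
      simp only
      linarith [le_abs_self (g' p.2 - g' p.1)]
    · rw [not_lt, dist_comm] at hp
      have b1 : 2 * (|M| + 1) ≤ 2 * (|M| + 1) / r ^ 2 * dist p.1 p.2 ^ 2 := by
        rw [div_mul_eq_mul_div, le_div_iff₀ (by positivity)]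
        exact mul_le_mul_of_nonneg_left (pow_le_pow_left₀ hr.le hp 2) (by positivity)
      have b2 := abs_le.1 (show |g' p.1| ≤ M from hM p.1)
      have b3 := abs_le.1 (show |g' p.2| ≤ M from hM p.2)
      simp only
      linarith [le_abs_self M]
  have a3 : 2 * (|M| + 1) / r ^ 2 * ∫ p, dist p.1 p.2 ^ 2 ∂q ≤ ε / 4 :=
    (mul_le_mul_of_nonneg_left d3 (by positivity)).trans (le_of_eq (by field_simp; ring))
  linarith [abs_le.1 (a1 hμ), abs_le.1 (a1 hν)]

theorem ge_amgm {D g s lam : ℝ} (hlam : 0 < lam) (h : D ^ 2 ≤ g) : D * s ≤ lam / 2 * s ^ 2 + g / (2 * lam) := by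
  have h2 : lam / 2 * s ^ 2 + D ^ 2 / (2 * lam) - D * s = (lam * s - D) ^ 2 / (2 * lam) := by field_simp; ring
  have h3 : 0 ≤ (lam * s - D) ^ 2 / (2 * lam) := by positivity
  have h4 : D ^ 2 / (2 * lam) ≤ g / (2 * lam) := div_le_div_of_nonneg_right h (by positivity)
  linarith

theorem endpoint_cost (π : Measure (UCurve X)) :
    quadCost (endpointLaw π) = ∫⁻ γ, edist (γ.toMap 0) (γ.toMap 1) ^ 2 ∂π :=
  (coup_map π (measurable_at 0) (measurable_at 1)).2

/-- LEMMA D -/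
theorem lemD {π : Measure (UCurve X)} (hP : Plan m π) (hgeo : ∀ᵐ γ ∂π, IsCSGeodesic γ) {v D g : X → ℝ}
    (hD : IsWUGLoc m v D) (hgD : ∀ᵐ x ∂m, D x ^ 2 ≤ g x) (hgm : Measurable g) (hg0 : ∀ x, 0 ≤ g x)
    (hgi : Integrable g m) (hv : Integrable (fun γ : UCurve X => v (γ.toMap 1) - v (γ.toMap 0)) π)
    {B lam : ℝ} (hlam : 0 < lam) (hB : ∀ s, ∫ x, g x ∂(timeMarginal π s) ≤ B)
    (hc : quadCost (endpointLaw π) ≠ ⊤) :
    ∫ γ, (v (γ.toMap 1) - v (γ.toMap 0)) ∂π ≤ lam / 2 * (quadCost (endpointLaw π)).toReal + B / (2 * lam) := by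
  have := hP.1.1
  obtain ⟨C, hC⟩ := hP.1.2.1
  have hB0 : 0 ≤ B := (integral_nonneg hg0).trans (hB 0)
  have hmg : Measurable fun z : UCurve X × ℝ => ENNReal.ofReal (g (ev z)) :=
    (hgm.comp measurable_ev).ennreal_ofReal
  have a1 := hD.2.2 π hP.1 hP.2
  have a2 : (∫⁻ γ, (∫⁻ t in Icc (0 : ℝ) 1, ENNReal.ofReal (D (γ.ext t)) * upperSpeed γ t) ∂π) ≤
      ∫⁻ γ, (ENNReal.ofReal (lam / 2) * edist (γ.toMap 0) (γ.toMap 1) ^ 2 +
        ENNReal.ofReal (1 / (2 * lam)) * ∫⁻ t in Icc (0 : ℝ) 1, ENNReal.ofReal (g (γ.ext t))) ∂π := by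
    refine lintegral_mono_ae ?_
    filter_upwards [hgeo, hP.ae_ae hgD] with γ h1 h2
    have b1 : Measurable fun t : ℝ => ENNReal.ofReal (g (γ.ext t)) :=
      (hgm.comp (continuous_ext γ).measurable).ennreal_ofReal
    calc _ ≤ ∫⁻ t in Icc (0 : ℝ) 1, (ENNReal.ofReal (lam / 2) * edist (γ.toMap 0) (γ.toMap 1) ^ 2 +
          ENNReal.ofReal (1 / (2 * lam)) * ENNReal.ofReal (g (γ.ext t))) := by
          refine lintegral_mono_ae ?_
          filter_upwards [h2, ae_restrict_mem measurableSet_Icc] with t h3 h4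
          rw [upperSpeed_geodesic h1 h4, edist_dist, ← ENNReal.ofReal_pow dist_nonneg,
            ← ENNReal.ofReal_mul' dist_nonneg, ← ENNReal.ofReal_mul (by positivity),
            ← ENNReal.ofReal_mul (by positivity), ← ENNReal.ofReal_add (by positivity)
              (mul_nonneg (by positivity) (hg0 _))]
          refine ENNReal.ofReal_le_ofReal ((ge_amgm hlam h3).trans (le_of_eq ?_))
          ring
      _ = _ := by
          rw [lintegral_add_left measurable_const, lintegral_const_mul _ b1]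
          simp
  have a3 : (∫⁻ γ, (∫⁻ t in Icc (0 : ℝ) 1, ENNReal.ofReal (g (γ.ext t))) ∂π) ≤ ENNReal.ofReal B := by
    rw [lintegral_lintegral_swap (f := fun (γ : UCurve X) (t : ℝ) => ENNReal.ofReal (g (γ.ext t)))
      hmg.aemeasurable]
    calc _ ≤ ∫⁻ _t in Icc (0 : ℝ) 1, ENNReal.ofReal B := by
          refine lintegral_mono_ae ?_
          filter_upwards [ae_restrict_mem measurableSet_Icc] with t ht
          simp only [ext_of_mem _ ht]
          rw [← lintegral_map (f := fun x => ENNReal.ofReal (g x)) hgm.ennreal_ofReal (measurable_at _)]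
          exact (ofReal_integral_eq_lintegral_ofReal (ge_int (hC ⟨t, ht⟩) hgi)
            (Eventually.of_forall hg0)).symm.trans_le (ENNReal.ofReal_le_ofReal (hB _))
      _ = _ := by simp
  have m1 : Measurable fun γ : UCurve X => edist (γ.toMap 0) (γ.toMap 1) ^ 2 :=
    ((measurable_at 0).edist (measurable_at 1)).pow_const 2
  have m2 : Measurable fun γ : UCurve X => ∫⁻ t in Icc (0 : ℝ) 1, ENNReal.ofReal (g (γ.ext t)) :=
    hmg.lintegral_prod_right'
  rw [lintegral_add_left (m1.const_mul _), lintegral_const_mul _ m1, lintegral_const_mul _ m2,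
    ← endpoint_cost] at a2
  have a4 : ENNReal.ofReal (∫ γ, |v (γ.toMap 1) - v (γ.toMap 0)| ∂π) ≤
      ENNReal.ofReal (lam / 2 * (quadCost (endpointLaw π)).toReal + B / (2 * lam)) := by
    rw [ofReal_integral_eq_lintegral_ofReal hv.abs (Eventually.of_forall fun _ => abs_nonneg _),
      ENNReal.ofReal_add (by positivity) (by positivity), ENNReal.ofReal_mul (by positivity),
      ENNReal.ofReal_toReal hc, show B / (2 * lam) = 1 / (2 * lam) * B by ring, ENNReal.ofReal_mul (by positivity)]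
    exact (a1.trans a2).trans (add_le_add le_rfl (mul_le_mul_right a3 _))
  rw [ENNReal.ofReal_le_ofReal_iff (by positivity)] at a4
  exact ((le_abs_self _).trans abs_integral_le_integral_abs).trans a4

theorem ge_lip_int {q : Measure (X × X)} [IsFiniteMeasure q] (hq : quadCost q ≠ ⊤) {v : X → ℝ} {L : ℝ≥0}
    (hv : LipschitzWith L v) : Integrable (fun p : X × X => v p.2 - v p.1) q := by
  refine Integrable.mono' (((integrable_const (1 : ℝ)).add (int_dist_sq hq).1).const_mul L)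
    ((hv.continuous.comp continuous_snd).sub (hv.continuous.comp continuous_fst)).aestronglyMeasurable
    (Eventually.of_forall fun p => ?_)
  have h1 := hv.dist_le_mul p.2 p.1
  rw [Real.dist_eq, dist_comm] at h1
  refine h1.trans (mul_le_mul_of_nonneg_left ?_ L.2)
  simp only [Pi.add_apply]
  nlinarith [sq_nonneg (dist p.1 p.2 - 1), dist_nonneg (x := p.1) (y := p.2)]

/-- transport estimate for measures with bounded support -/
theorem loc_est0 {κ γ' : ℝ} (hS : Sp m κ γ') {v D g : X → ℝ} {L : ℝ≥0} (hv : LipschitzWith L v)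
    (hD : IsWUGLoc m v D) (hgD : ∀ᵐ x ∂m, D x ^ 2 ≤ g x) (hgm : Measurable g) (hg0 : ∀ x, 0 ≤ g x)
    (hgi : Integrable g m) (o : X) (R : ℝ) (C : ℝ≥0) {ε : ℝ} (hε : 0 < ε) :
    ∃ δ : ℝ, 0 < δ ∧ ∀ (μ₀ μ₁ : Measure X) (q : Measure (X × X)), IsCouplingOf q μ₀ μ₁ →
      BddProb m o R C μ₀ → BddProb m o R C μ₁ → quadCost q ≤ ENNReal.ofReal δ → ∀ lam : ℝ, 0 < lam →
      ∫ p, (v p.2 - v p.1) ∂q ≤ lam / 2 * (quadCost q).toReal + (∫ x, g x ∂μ₀ + ε) / (2 * lam) := by
  obtain ⟨Θ, hΘ⟩ := hS.good R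
  obtain ⟨δ, hδ, hm⟩ := mod_cont hgi (Θ * C) hε
  refine ⟨δ, hδ, fun μ₀ μ₁ q hq h0 h1 hc lam hlam => ?_⟩
  obtain ⟨π, hπ⟩ := hΘ o C μ₀ μ₁ h0 h1
  have := hπ.test.1
  have := h0.prob
  have := h1.prob
  have hfin : quadCost q ≠ ⊤ := ne_top_of_le_ne_top ENNReal.ofReal_ne_top hc
  have c1 : quadCost (endpointLaw π) ≤ quadCost q := hπ.opt.2 q hq
  have c2 : quadCost (endpointLaw π) ≠ ⊤ := ne_top_of_le_ne_top hfin c1
  have i0 : ∀ {μ : Measure X}, BddProb m o R C μ → Integrable v μ := fun h => by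
    have := h.prob
    exact int_of_cont_bdd (o := o) (R := R) hv.continuous (by rw [ae_iff]; exact h.supp)
  have e0 : ∀ {q' : Measure (X × X)}, IsCouplingOf q' μ₀ μ₁ →
      ∫ p, (v p.2 - v p.1) ∂q' = ∫ x, v x ∂μ₁ - ∫ x, v x ∂μ₀ := fun h => by
    obtain ⟨e1, e2⟩ := coup_int_fst h (i0 h0)
    obtain ⟨e3, e4⟩ := coup_int_snd h (i0 h1)
    rw [integral_sub e3 e1, e2, e4]
  have mp : Measurable fun γ : UCurve X => (γ.toMap 0, γ.toMap 1) := (measurable_at 0).prodMk (measurable_at 1)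
  have : IsProbabilityMeasure (endpointLaw π) := coup_prob hπ.opt.1
  have i1 := ge_lip_int c2 hv
  have e1 : ∫ p, (v p.2 - v p.1) ∂q = ∫ γ, (v (γ.toMap 1) - v (γ.toMap 0)) ∂π := by
    rw [e0 hq, ← e0 hπ.opt.1, endpointLaw, integral_map mp.aemeasurable i1.aestronglyMeasurable]
  have e2 : timeMarginal π 0 = μ₀ := by
    rw [← hπ.opt.1.1, endpointLaw, Measure.map_map measurable_fst mp]; rfl
  have a1 := lemD (B := ∫ x, g x ∂μ₀ + ε) ⟨hπ.test, hπ.tracks⟩ hπ.geo hD hgD hgm hg0 hgi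
    ((integrable_map_measure i1.aestronglyMeasurable mp.aemeasurable).1 i1) hlam (fun s => ?_) c2
  · rw [e1]
    refine a1.trans (add_le_add (mul_le_mul_of_nonneg_left (ENNReal.toReal_mono hfin c1) (by positivity)) le_rfl)
  · obtain ⟨b1, b2⟩ := coup_map π (measurable_at 0) (measurable_at s)
    rw [← e2]
    refine hm _ _ _ (Measure.isProbabilityMeasure_map ((measurable_at 0).prodMk (measurable_at s)).aemeasurable)
      b1 (hπ.comp 0) (hπ.comp s) ?_
    refine le_trans ?_ (c1.trans hc)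
    rw [b2, endpoint_cost]
    refine lintegral_mono_ae ?_
    filter_upwards [hπ.geo] with γ hγ
    refine pow_le_pow_left' ?_ 2
    rw [edist_dist, edist_dist, hγ 0 s]
    refine ENNReal.ofReal_le_ofReal (mul_le_of_le_one_left dist_nonneg ?_)
    have := s.2
    simp only [Icc.coe_zero, zero_sub, abs_neg]
    rw [abs_of_nonneg this.1]
    exact this.2

/-- transport estimate for measures with small tails -/
theorem loc_est {κ γ' : ℝ} (hS : Sp m κ γ') {v D g : X → ℝ} {L : ℝ≥0} (hv : LipschitzWith L v)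
    (hD : IsWUGLoc m v D) (hgD : ∀ᵐ x ∂m, D x ^ 2 ≤ g x) (hgm : Measurable g) (hg0 : ∀ x, 0 ≤ g x)
    (hgi : Integrable g m) (o : X) (R : ℝ) (C : ℝ≥0) {ε : ℝ} (hε : 0 < ε) :
    ∃ δ : ℝ, 0 < δ ∧ ∀ (μ₀ μ₁ : Measure X) (q : Measure (X × X)) (η : ℝ), IsProbabilityMeasure q →
      IsCouplingOf q μ₀ μ₁ → μ₀ ≤ (C : ℝ≥0∞) • m → μ₁ ≤ (C : ℝ≥0∞) • m →
      μ₀.real (Metric.closedBall o R)ᶜ ≤ η → μ₁.real (Metric.closedBall o R)ᶜ ≤ η → η ≤ 1 / 4 →
      quadCost q ≤ ENNReal.ofReal δ → ∀ lam : ℝ, 0 < lam →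
      ∫ p, (v p.2 - v p.1) ∂q ≤ lam / 2 * (quadCost q).toReal + (∫ x, g x ∂μ₀ + ε + 2 * L ^ 2 * η) / (2 * lam) := by
  obtain ⟨δ, hδ, hm⟩ := loc_est0 hS hv hD hgD hgm hg0 hgi o R (2 * C) hε
  refine ⟨δ / 2, by positivity, fun μ₀ μ₁ q η hq hc h0 h1 t0 t1 hη hδ' lam hlam => ?_⟩
  have hfin : quadCost q ≠ ⊤ := ne_top_of_le_ne_top ENNReal.ofReal_ne_top hδ'
  set B := Metric.closedBall o R with hB
  have mB : MeasurableSet B := Metric.isClosed_closedBall.measurableSet
  set S : Set (X × X) := B ×ˢ B with hSd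
  have mS : MeasurableSet S := mB.prod mB
  have s1 : q.real Sᶜ ≤ 2 * η := by
    have b1 : Sᶜ ⊆ Prod.fst ⁻¹' Bᶜ ∪ Prod.snd ⁻¹' Bᶜ := fun p hp => by
      by_contra h
      simp only [mem_union, mem_preimage, mem_compl_iff, not_or, not_not] at h
      exact hp h
    have b2 : q.real (Prod.fst ⁻¹' Bᶜ) = μ₀.real Bᶜ := by
      rw [← hc.1, Measure.real, Measure.real, Measure.map_apply measurable_fst mB.compl]
    have b3 : q.real (Prod.snd ⁻¹' Bᶜ) = μ₁.real Bᶜ := by
      rw [← hc.2, Measure.real, Measure.real, Measure.map_apply measurable_snd mB.compl]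
    linarith [measureReal_mono (μ := q) b1, measureReal_union_le (μ := q) (Prod.fst ⁻¹' Bᶜ) (Prod.snd ⁻¹' Bᶜ)]
  have s2 : q.real S + q.real Sᶜ = 1 := by rw [measureReal_add_measureReal_compl mS]; simp
  have s3 : 1 / 2 ≤ q.real S := by linarith
  have s4 : q.real S ≤ 1 := by linarith [measureReal_nonneg (μ := q) (s := Sᶜ)]
  set Z := q.real S with hZ
  have hZ0 : 0 < Z := by linarith
  have s5 : q S = ENNReal.ofReal Z := (ENNReal.ofReal_toReal (measure_ne_top _ _)).symm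
  have s6 : (q S)⁻¹ = ENNReal.ofReal Z⁻¹ := by rw [s5, ENNReal.ofReal_inv_of_pos hZ0]
  have s7 : Z⁻¹ ≤ 2 := by rw [inv_le_comm₀ hZ0 two_pos]; linarith
  have s8 : (q S)⁻¹ ≤ 2 := by
    rw [s6]; exact (ENNReal.ofReal_le_ofReal s7).trans (by simp)
  set q' : Measure (X × X) := (q S)⁻¹ • q.restrict S with hq'
  have p1 : IsProbabilityMeasure q' := ⟨by
    rw [hq', Measure.smul_apply, Measure.restrict_apply_univ, smul_eq_mul]
    exact ENNReal.inv_mul_cancel (by rw [s5]; simpa using hZ0) (measure_ne_top _ _)⟩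
  have p2 : ∀ {f : X × X → X} {μ : Measure X}, Measurable f → q.map f = μ → q'.map f ≤ (q S)⁻¹ • μ := by
    intro f μ hf h
    rw [hq', Measure.map_smul, ← h]
    refine Measure.le_iff.2 fun s _ => ?_
    simp only [Measure.smul_apply, smul_eq_mul]
    exact mul_le_mul_right (Measure.map_mono Measure.restrict_le_self hf s) _
  have p3 : ∀ {f : X × X → X} {μ : Measure X}, Measurable f → q.map f = μ → μ ≤ (C : ℝ≥0∞) • m →
      (∀ p ∈ S, f p ∈ B) → BddProb m o R (2 * C) (q'.map f) := by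
    intro f μ hf h hle hS'
    refine ⟨Measure.isProbabilityMeasure_map hf.aemeasurable, (p2 hf h).trans (Measure.le_iff.2 fun s _ => ?_), ?_⟩
    · simp only [Measure.smul_apply, smul_eq_mul, ENNReal.coe_mul, ENNReal.coe_ofNat, mul_assoc]
      exact mul_le_mul' s8 (hle s)
    · rw [Measure.map_apply hf mB.compl, hq', Measure.smul_apply, Measure.restrict_apply (hf mB.compl)]
      have : f ⁻¹' Bᶜ ∩ S = ∅ := eq_empty_of_forall_notMem fun p hp => hp.1 (hS' p hp.2)
      rw [this]; simp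
  have c1 : quadCost (q.restrict S) + quadCost (q.restrict Sᶜ) = quadCost q := by
    rw [← quadCost_add, Measure.restrict_add_restrict_compl mS]
  have c2 : quadCost (q.restrict S) ≠ ⊤ := ne_top_of_le_ne_top hfin (c1 ▸ le_self_add)
  have c3 : quadCost (q.restrict Sᶜ) ≠ ⊤ := ne_top_of_le_ne_top hfin (c1 ▸ le_add_self)
  have c4 : (quadCost (q.restrict S)).toReal + (quadCost (q.restrict Sᶜ)).toReal = (quadCost q).toReal := by
    rw [← ENNReal.toReal_add c2 c3, c1]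
  have a1 := hm (q'.map Prod.fst) (q'.map Prod.snd) q' ⟨rfl, rfl⟩ (p3 measurable_fst hc.1 h0 fun p hp => hp.1)
    (p3 measurable_snd hc.2 h1 fun p hp => hp.2) (by
      rw [hq', quadCost_smul]
      calc _ ≤ 2 * ENNReal.ofReal (δ / 2) := mul_le_mul' s8 ((c1 ▸ le_self_add : _ ≤ quadCost q).trans hδ')
        _ = _ := by
          rw [← ENNReal.ofReal_ofNat, ← ENNReal.ofReal_mul (by norm_num)]
          congr 1; ring) lam hlam
  have a2 : ∫ x, g x ∂(q'.map Prod.fst) ≤ Z⁻¹ * ∫ x, g x ∂μ₀ := by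
    have := integral_mono_measure (p2 measurable_fst hc.1) (Eventually.of_forall hg0)
      ((ge_int h0 hgi).smul_measure (ne_top_of_le_ne_top (by simp) s8))
    rwa [integral_smul_measure, s6, ENNReal.toReal_ofReal (by positivity), smul_eq_mul] at this
  rw [hq', integral_smul_measure, quadCost_smul, ENNReal.toReal_mul, s6, ENNReal.toReal_ofReal (by positivity),
    smul_eq_mul, ← s6, ← hq'] at a1
  have a3 : ∫ p in S, (v p.2 - v p.1) ∂q ≤
      lam / 2 * (quadCost (q.restrict S)).toReal + (∫ x, g x ∂μ₀ + ε) / (2 * lam) := by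
    have b1 := mul_le_mul_of_nonneg_left (a1.trans (add_le_add le_rfl
      (div_le_div_of_nonneg_right (add_le_add a2 le_rfl) (by positivity)))) hZ0.le
    rw [← mul_assoc, mul_inv_cancel₀ hZ0.ne', one_mul] at b1
    refine b1.trans ?_
    have b2 : Z * (lam / 2 * (Z⁻¹ * (quadCost (q.restrict S)).toReal) + (Z⁻¹ * ∫ x, g x ∂μ₀ + ε) / (2 * lam)) =
        lam / 2 * (quadCost (q.restrict S)).toReal + (∫ x, g x ∂μ₀ + Z * ε) / (2 * lam) := by field_simp
    rw [b2]
    refine add_le_add le_rfl (div_le_div_of_nonneg_right ?_ (by positivity))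
    nlinarith
  have a4 : ∫ p in Sᶜ, (v p.2 - v p.1) ∂q ≤
      lam / 2 * (quadCost (q.restrict Sᶜ)).toReal + 2 * L ^ 2 * η / (2 * lam) := by
    obtain ⟨d1, d2⟩ := int_dist_sq c3
    have b1 : ∫ p in Sᶜ, (v p.2 - v p.1) ∂q ≤ ∫ p in Sᶜ, (lam / 2 * dist p.1 p.2 ^ 2 + L ^ 2 / (2 * lam)) ∂q := by
      refine integral_mono (ge_lip_int c3 hv) ((d1.const_mul _).add (integrable_const _)) fun p => ?_
      have h1 := hv.dist_le_mul p.2 p.1
      rw [Real.dist_eq, dist_comm] at h1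
      exact ((le_abs_self _).trans h1).trans (ge_amgm hlam le_rfl)
    rw [integral_add (d1.const_mul _) (integrable_const _), integral_const_mul, d2, integral_const,
      measureReal_restrict_apply_univ, smul_eq_mul] at b1
    refine b1.trans (add_le_add le_rfl ?_)
    calc _ ≤ 2 * η * ((L : ℝ) ^ 2 / (2 * lam)) := mul_le_mul_of_nonneg_right s1 (by positivity)
      _ = _ := by ring
  rw [← integral_add_compl mS (ge_lip_int hfin hv), ← c4, add_div (∫ x, g x ∂μ₀ + ε)]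
  linarith

end Crest.Agent.R242
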