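import Crest.Agent.R242.Ev8
import Crest.Agent.R242.GeA

/-! Row 242, I-d, TASK Ev9: contraction in the form used by the gradient estimate (aux names `ev9_*`).
`BddProb.adm` gives admissible densities `g i` with `den m (g i) = den m (f i)`, hence `g i =ᵐ f i`
(`den_rnDeriv`), `Adm.congr`, `Adm.mono`, `contr`, `adm_P`, `Adm.moment`, `W2sq_ne_top`, `ofReal_W2_sq`. -/

set_option autoImplicit false
set_option linter.unusedSectionVars false
open MeasureTheory Filter Set Topology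
open scoped ENNReal NNReal
open Crest.GeometryTopology.SyntheticRicci

namespace Crest.Agent.R242

variable {X : Type*} [MetricSpace X] [ProperSpace X] [MeasurableSpace X] [BorelSpace X] {m : Measure X}
  [Fact (IsFiniteOnBalls m)] [m.IsOpenPosMeasure]

theorem ev9_adm {o : X} {R : ℝ} {C : ℝ≥0} {f : X → ℝ} (γ : ℝ) (hf : MemLp f 2 m) (h0 : ∀ᵐ x ∂m, 0 ≤ f x)
    (h : BddProb m o R C (den m f)) : ∃ M, Adm m o γ C M f := by
  obtain ⟨M, g, hg, e⟩ := h.adm γ
  refine ⟨M, hg.congr ?_⟩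
  filter_upwards [den_rnDeriv hg.meas.aemeasurable hg.nonneg, den_rnDeriv hf.1.aemeasurable h0] with x h1 h2
  rw [← h1, ← h2, e]

theorem contr_of_sp {κ γ : ℝ} {J P : ℝ → (X → ℝ) → X → ℝ} (hS : Sp m κ γ) (hH : Heat m J P) :
    Contr m κ P := by
  intro t ht o R C f₀ f₁ m0 m1 n0 n1 b0 b1
  obtain ⟨M0, a0⟩ := ev9_adm γ m0 n0 b0
  obtain ⟨M1, a1⟩ := ev9_adm γ m1 n1 b1
  have a0 := a0.mono le_rfl (le_max_left M0 M1)
  have a1 := a1.mono le_rfl (le_max_right M0 M1)
  have h := contr hS hH a0 a1 ht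
  have p0 := adm_P hH hS.γ_pos ht a0
  have p1 := adm_P hH hS.γ_pos ht a1
  have := a0.prob
  have := a1.prob
  have := p0.prob
  have := p1.prob
  rw [← ofReal_W2_sq (W2sq_ne_top (a0.moment hS.γ_pos (hS.growth o)) (a1.moment hS.γ_pos (hS.growth o))),
    ← ofReal_W2_sq (W2sq_ne_top (p0.moment hS.γ_pos (hS.growth o)) (p1.moment hS.γ_pos (hS.growth o))),
    ← ENNReal.ofReal_mul (Real.exp_nonneg _)]
  refine ENNReal.ofReal_le_ofReal ((pow_le_pow_left₀ (Real.sqrt_nonneg _) h 2).trans (le_of_eq ?_))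
  rw [mul_pow, ← Real.exp_nat_mul, Nat.cast_ofNat, mul_assoc 2]

end Crest.Agent.R242
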