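import Crest.Agent.R242.Wug3

/-! Row 242, I-b, TASK Wug4: weak upper gradients are upper gradients along almost every curve
(keep the statements; aux names `w4_*`). -/

set_option autoImplicit false
set_option linter.unusedSectionVars false
open MeasureTheory Filter Set Topology
open scoped ENNReal NNReal
open Crest.GeometryTopology.SyntheticRicci

namespace Crest.Agent.R242

variable {X : Type*} [MetricSpace X] [MeasurableSpace X] [BorelSpace X] {m : Measure X} {f g u v D : X → ℝ}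

theorem l2b_aemeasurable (h : IsL2OnBalls m f) : AEMeasurable f m := by
  rcases isEmpty_or_nonempty X with hX | ⟨⟨o⟩⟩
  · exact (measurable_of_empty f).aemeasurable
  · rw [← Measure.restrict_univ (μ := m), ← Metric.iUnion_ball_nat o, aemeasurable_iUnion_iff]
    exact fun n => (h o n).aemeasurable

theorem w4_cont {G : ℝ → ℝ} (h : AbsolutelyContinuousOnInterval G 0 1) : ContinuousOn G (Icc 0 1) := by
  simpa using h.continuousOn

theorem Rep.cd_eq {γ : UCurve X} {G : ℝ → ℝ} (h : Rep f γ G) : ∀ᵐ t ∂I01, cd f (γ, t) = deriv G t := by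
  have h1 : ∃ g, Rep f γ g := ⟨G, h⟩
  have h2 := h1.choose_spec
  have h3 := (deriv_ae_eq_of_ae_eq (w4_cont h2.ac) (w4_cont h.ac)
    (by filter_upwards [h2.ae, h.ae] with t a b using a.trans b.symm)).2
  filter_upwards [h3] with t ht
  rw [← ht]
  exact dif_pos h1

/-- FTC along almost every curve (`ac_sub_le_lintegral`, `Rep.cd_eq`, `pf_speed_ne_top`), `lintegral_mono_ae` -/
theorem UG.wug (h : UG m f D) (hD : IsL2OnBalls m D) (h0 : ∀ᵐ x ∂m, 0 ≤ D x) : IsWUGLoc m f D := by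
  refine ⟨hD, h0, fun P hP hb => lintegral_mono_ae ?_⟩
  filter_upwards [eventually_cf.1 h.1 P ⟨hP, hb⟩, eventually_cf.1 (eventually_pf.1 h.2) P ⟨hP, hb⟩]
    with γ ⟨G, hG⟩ h2
  rw [← hG.h1, ← hG.h0]
  refine (ac_sub_le_lintegral hG.ac le_rfl zero_le_one le_rfl).trans (lintegral_mono_ae ?_)
  filter_upwards [hG.cd_eq, h2] with t h3 h4
  rw [← h3]
  refine (ENNReal.ofReal_le_ofReal h4).trans ?_
  rw [ENNReal.ofReal_mul' (sp_nonneg _)]
  exact mul_le_mul_right ENNReal.ofReal_toReal_le _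

theorem w4_meas_ext (t : ℝ) : Measurable fun γ : UCurve X => γ.ext t :=
  measurable_ev.comp (measurable_id.prodMk measurable_const)

theorem w4_at (hf : AEMeasurable f m) {P : Measure (UCurve X)} (hP : Plan m P) (t : ℝ) :
    AEMeasurable (fun γ : UCurve X => f (γ.ext t)) P :=
  ⟨fun γ => hf.mk f (γ.ext t), hf.measurable_mk.comp (w4_meas_ext t), hP.ae_at hf.ae_eq_mk t⟩

theorem w4_osc (hf : AEMeasurable f m) {P : Measure (UCurve X)} (hP : Plan m P) (s t : ℝ) :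
    AEMeasurable (fun γ : UCurve X => ENNReal.ofReal |f (γ.ext t) - f (γ.ext s)|) P :=
  (((w4_at hf hP t).sub (w4_at hf hP s)).norm).ennreal_ofReal

/-- apply the definition to `((P S)⁻¹ • P.restrict S).map (restr s t)` (`Plan.cond`, `Plan.map_restr`,
`lintegral_map_le`, `upperSpeed_restr`, `lintegral_affine`), then
`ae_le_of_forall_setLIntegral_le_of_sigmaFinite₀` -/
theorem wug_ae_le (hf : AEMeasurable f m) (h : IsWUGLoc m f D) {P : Measure (UCurve X)} (hP : Plan m P)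
    {s t : ℝ} (h0 : 0 ≤ s) (hst : s ≤ t) (h1 : t ≤ 1) : ∀ᵐ γ ∂P,
    ENNReal.ofReal |f (γ.ext t) - f (γ.ext s)| ≤
      ∫⁻ r in Icc s t, ENNReal.ofReal (D (γ.ext r)) * upperSpeed γ r := by
  rcases hst.eq_or_lt with rfl | hlt
  · exact Eventually.of_forall fun γ => by simp
  have : IsProbabilityMeasure P := hP.1.1
  refine ae_le_of_forall_setLIntegral_le_of_sigmaFinite₀ (w4_osc hf hP s t) fun S _ _ => ?_
  by_cases hS : P S = 0
  · rw [Measure.restrict_eq_zero.2 hS]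
    simp
  have hQ := (hP.cond hS).map_restr h0 hlt h1
  have h2 := h.2.2 _ hQ.1 hQ.2
  have h3 := w4_osc hf hQ 0 1
  simp only [ext_zero, ext_one] at h3
  rw [lintegral_map' h3 (measurable_restr s t).aemeasurable] at h2
  have h4 := h2.trans (lintegral_map_le _ _)
  have h5 : ∀ γ : UCurve X,
      ∫⁻ r in Icc (0 : ℝ) 1, ENNReal.ofReal (D ((restr s t γ).ext r)) * upperSpeed (restr s t γ) r =
      ∫⁻ r in Icc s t, ENNReal.ofReal (D (γ.ext r)) * upperSpeed γ r := fun γ => by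
    rw [← lintegral_affine hlt, ← Measure.restrict_congr_set Ioo_ae_eq_Icc]
    refine setLIntegral_congr_fun measurableSet_Ioo fun r hr => ?_
    rw [restr_ext s t γ (Ioo_subset_Icc_self hr), upperSpeed_restr hlt γ hr, mul_left_comm]
  simp only [h5, restr_toMap, lintegral_smul_measure, smul_eq_mul, Set.Icc.coe_one, Set.Icc.coe_zero,
    one_mul, zero_mul, add_zero, add_sub_cancel] at h4
  exact (ENNReal.mul_le_mul_iff_right (ENNReal.inv_ne_zero.2 (measure_ne_top P S))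
    (ENNReal.inv_ne_top.2 hS)).1 h4

theorem w4_uIcc {s t : ℝ} (hs : s ∈ Icc (0 : ℝ) 1) (ht : t ∈ Icc (0 : ℝ) 1) {p : ℝ → Prop}
    (h : ∀ᵐ r ∂I01, p r) : ∀ᵐ r ∂(volume.restrict (uIcc s t)), p r :=
  ae_restrict_of_ae_restrict_of_subset (uIcc_subset_Icc hs ht) h

theorem w4_real {a : ℝ → ℝ} {b : ℝ → ℝ≥0∞} (ha : IntegrableOn a (Icc 0 1)) (ha0 : ∀ᵐ r ∂I01, 0 ≤ a r)
    (hb : ∀ᵐ r ∂I01, b r = ENNReal.ofReal (a r)) {s t x : ℝ} (hs : s ∈ Icc (0 : ℝ) 1) (ht : t ∈ Icc (0 : ℝ) 1)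
    (h : ENNReal.ofReal x ≤ ∫⁻ r in uIcc s t, b r) : x ≤ |∫ r in s..t, a r| := by
  rw [lintegral_congr_ae (w4_uIcc hs ht hb), ← ofReal_integral_eq_lintegral_ofReal
    (ha.mono_set (uIcc_subset_Icc hs ht)) (w4_uIcc hs ht ha0)] at h
  rw [intervalIntegral.abs_integral_eq_abs_integral_uIoc]
  have h1 : ∫ r in uIcc s t, a r = ∫ r in uIoc s t, a r := integral_Icc_eq_integral_Ioc
  rw [h1] at h
  exact (ENNReal.ofReal_le_ofReal_iff (abs_nonneg _)).1 (h.trans (ENNReal.ofReal_le_ofReal (le_abs_self _)))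

theorem w4_uae (hf : AEMeasurable f m) (h : IsWUGLoc m f D) {P : Measure (UCurve X)} (hP : Plan m P)
    {s t : ℝ} (hs : s ∈ Icc (0 : ℝ) 1) (ht : t ∈ Icc (0 : ℝ) 1) : ∀ᵐ γ ∂P,
    ENNReal.ofReal |f (γ.ext t) - f (γ.ext s)| ≤
      ∫⁻ r in uIcc s t, ENNReal.ofReal (D (γ.ext r)) * upperSpeed γ r := by
  rcases le_total s t with hst | hst
  · rw [uIcc_of_le hst]
    exact wug_ae_le hf h hP hs.1 hst ht.2
  · rw [uIcc_of_ge hst]
    simp only [abs_sub_comm (f (UCurve.ext _ t))]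
    exact wug_ae_le hf h hP ht.1 hst hs.2

theorem w4_meas_int {F : UCurve X × ℝ → ℝ≥0∞} (hF : Measurable F) (s : ℝ) :
    Measurable fun z : UCurve X × ℝ => ∫⁻ r in uIcc s z.2, F (z.1, r) := by
  have hS : MeasurableSet {w : (UCurve X × ℝ) × ℝ | w.2 ∈ uIcc s w.1.2} :=
    (measurableSet_le (measurable_const.min measurable_fst.snd) measurable_snd).inter
      (measurableSet_le measurable_snd (measurable_const.max measurable_fst.snd))
  have h1 := ((hF.comp (measurable_fst.fst.prodMk measurable_snd)).indicator hS).lintegral_prod_right'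
    (ν := (volume : Measure ℝ))
  convert h1 using 2 with z
  rw [← lintegral_indicator measurableSet_uIcc]
  rfl

/-- the inequality for almost every curve and almost every end time -/
theorem w4_fubini (hf : AEMeasurable f m) (h : IsWUGLoc m f D) {P : Measure (UCurve X)} (hP : Plan m P)
    {s : ℝ} (hs : s ∈ Icc (0 : ℝ) 1) : ∀ᵐ γ ∂P, ∀ᵐ t ∂I01,
    ENNReal.ofReal |f (γ.ext t) - f (γ.ext s)| ≤
      ∫⁻ r in uIcc s t, ENNReal.ofReal (D (γ.ext r)) * upperSpeed γ r := by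
  have : IsProbabilityMeasure P := hP.1.1
  have hD := l2b_aemeasurable h.1
  have hD' := hP.ae_ae hD.ae_eq_mk
  have e1 : ∀ᵐ γ ∂P, ∀ t ∈ Icc (0 : ℝ) 1, ∫⁻ r in uIcc s t, ENNReal.ofReal (D (γ.ext r)) * upperSpeed γ r =
      ∫⁻ r in uIcc s t, ENNReal.ofReal (hD.mk D (γ.ext r)) * upperSpeed γ r := by
    filter_upwards [hD'] with γ h1 t ht
    refine lintegral_congr_ae (w4_uIcc hs ht ?_)
    filter_upwards [h1] with r hr
    rw [hr]
  have hS : MeasurableSet {z : UCurve X × ℝ | ENNReal.ofReal |hf.mk f (z.1.ext z.2) - hf.mk f (z.1.ext s)| ≤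
      ∫⁻ r in uIcc s z.2, ENNReal.ofReal (hD.mk D (z.1.ext r)) * upperSpeed z.1 r} :=
    measurableSet_le (((hf.measurable_mk.comp measurable_ev).sub
      (hf.measurable_mk.comp ((w4_meas_ext s).comp measurable_fst))).norm.ennreal_ofReal)
      (w4_meas_int ((hD.measurable_mk.comp measurable_ev).ennreal_ofReal.mul measurable_upperSpeed) s)
  have h2 := (Measure.ae_ae_comm (μ := P) (ν := I01) (p := fun γ t =>
      ENNReal.ofReal |hf.mk f (γ.ext t) - hf.mk f (γ.ext s)| ≤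
        ∫⁻ r in uIcc s t, ENNReal.ofReal (hD.mk D (γ.ext r)) * upperSpeed γ r) hS).2 (by
    filter_upwards [ae_restrict_mem measurableSet_Icc] with t ht
    filter_upwards [w4_uae hf h hP hs ht, e1, hP.ae_at hf.ae_eq_mk t, hP.ae_at hf.ae_eq_mk s] with γ a1 a2 a3 a4
    rw [← a2 t ht, ← a3, ← a4]
    exact a1)
  filter_upwards [h2, e1, hP.ae_ae hf.ae_eq_mk, hP.ae_at hf.ae_eq_mk s] with γ a1 a2 a3 a4
  filter_upwards [a1, a3, ae_restrict_mem measurableSet_Icc] with t b1 b2 ht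
  rw [a2 t ht, b2, a4]
  exact b1

theorem w4_fin (hD : IsL2OnBalls m D) {P : Measure (UCurve X)} (hP : Plan m P) :
    ∀ᵐ γ ∂P, ∫⁻ r in Icc (0 : ℝ) 1, ENNReal.ofReal (D (γ.ext r)) * upperSpeed γ r < ⊤ := by
  have hD1 := l2b_aemeasurable hD
  obtain ⟨K, o, R, hK⟩ := hP.exists_cs
  have h1 := hK (fun x => ENNReal.ofReal (D x)) hD1.ennreal_ofReal
  have h2 : ∫⁻ x in Metric.ball o R, ENNReal.ofReal (D x) ^ 2 ∂m < ⊤ := by
    refine lt_of_le_of_lt (lintegral_mono fun x => ?_) (hD o R).integrable_sq.2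
    simp only [enorm_pow]
    exact pow_le_pow_left' (Real.ofReal_le_enorm _) 2
  have e1 : ∀ᵐ γ ∂P, ∫⁻ r in Icc (0 : ℝ) 1, ENNReal.ofReal (hD1.mk D (γ.ext r)) * upperSpeed γ r =
      ∫⁻ r in Icc (0 : ℝ) 1, ENNReal.ofReal (D (γ.ext r)) * upperSpeed γ r := by
    filter_upwards [hP.ae_ae hD1.ae_eq_mk] with γ h1
    refine lintegral_congr_ae ?_
    filter_upwards [h1] with r hr
    rw [hr]
  refine ae_lt_top' ((((hD1.measurable_mk.comp measurable_ev).ennreal_ofReal.mul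
    measurable_upperSpeed).lintegral_prod_right' (ν := I01)).aemeasurable.congr e1) (h1.trans_lt ?_).ne
  exact ENNReal.mul_lt_top ENNReal.coe_lt_top (ENNReal.rpow_lt_top_of_nonneg (by norm_num) h2.ne)

theorem w4_key (hf : AEMeasurable f m) (h : IsWUGLoc m f D) {P : Measure (UCurve X)} (hP : Plan m P) :
    ∀ᵐ γ ∂P, ∃ G, Rep f γ G ∧ ∀ᵐ t ∂I01, |deriv G t| ≤ D (γ.ext t) * sp (γ, t) := by
  have hD := l2b_aemeasurable h.1
  have h1 : ∀ᵐ γ ∂P, ∀ p q : ℚ, (p : ℝ) ∈ Icc (0 : ℝ) 1 → (q : ℝ) ∈ Icc (0 : ℝ) 1 →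
      ENNReal.ofReal |f (γ.ext q) - f (γ.ext p)| ≤
        ∫⁻ r in uIcc (p : ℝ) q, ENNReal.ofReal (D (γ.ext r)) * upperSpeed γ r := by
    refine ae_all_iff.2 fun p => ae_all_iff.2 fun q => ?_
    by_cases hp : (p : ℝ) ∈ Icc (0 : ℝ) 1
    · by_cases hq : (q : ℝ) ∈ Icc (0 : ℝ) 1
      · filter_upwards [w4_uae hf h hP hp hq] with γ a _ _ using a
      · exact Eventually.of_forall fun γ _ a => absurd a hq
    · exact Eventually.of_forall fun γ a => absurd a hp
  have h2 : ∀ᵐ γ ∂P, ∀ p : ℚ, ∀ᵐ t ∂I01, (p : ℝ) ∈ Icc (0 : ℝ) 1 →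
      ENNReal.ofReal |f (γ.ext t) - f (γ.ext p)| ≤
        ∫⁻ r in uIcc (p : ℝ) t, ENNReal.ofReal (D (γ.ext r)) * upperSpeed γ r := by
    refine ae_all_iff.2 fun p => ?_
    by_cases hp : (p : ℝ) ∈ Icc (0 : ℝ) 1
    · filter_upwards [w4_fubini hf h hP hp] with γ a
      filter_upwards [a] with t b _ using b
    · exact Eventually.of_forall fun γ => Eventually.of_forall fun t a => absurd a hp
  filter_upwards [h1, h2, w4_fin h.1 hP, hP.ae_ae hD.ae_eq_mk, hP.ae_ae h.2.1, hP.1.2.2.1]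
    with γ a1 a2 a3 a4 a5 a6
  have ha0 : ∀ᵐ r ∂I01, 0 ≤ D (γ.ext r) * sp (γ, r) := by
    filter_upwards [a5] with r hr using mul_nonneg hr (sp_nonneg _)
  have hb : ∀ᵐ r ∂I01, ENNReal.ofReal (D (γ.ext r)) * upperSpeed γ r =
      ENNReal.ofReal (D (γ.ext r) * sp (γ, r)) := by
    filter_upwards [l2speed_upperSpeed_ne_top a6] with r hr
    rw [ENNReal.ofReal_mul' (sp_nonneg _), sp, ENNReal.ofReal_toReal hr]
  have ha : IntegrableOn (fun r => D (γ.ext r) * sp (γ, r)) (Icc 0 1) := by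
    refine ⟨?_, ?_⟩
    · have b1 : Measurable fun r => hD.mk D (γ.ext r) * sp (γ, r) :=
        (hD.measurable_mk.comp (continuous_ext γ).measurable).mul (measurable_sp.comp measurable_prodMk_left)
      refine b1.aestronglyMeasurable.congr ?_
      filter_upwards [a4] with r hr
      rw [hr]
    · rw [hasFiniteIntegral_iff_ofReal ha0, ← lintegral_congr_ae hb]
      exact a3
  obtain ⟨G, g1, g2, g3⟩ := exists_ac_of_rat (h := fun t => f (γ.ext t)) ha ha0
    fun p q hp hq => w4_real ha ha0 hb hp hq (a1 p q hp hq)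
  have g4 : ∀ q : ℚ, (q : ℝ) ∈ Icc (0 : ℝ) 1 → G q = f (γ.ext q) := fun q hq =>
    g2 q hq fun p hp => w4_real ha ha0 hb hp hq (a1 p q hp hq)
  refine ⟨G, ⟨g1, ?_, ?_, ?_⟩, g3⟩
  · simpa [ext_zero] using g4 0 (by simp)
  · simpa [ext_one] using g4 1 (by simp)
  · filter_upwards [ae_all_iff.2 a2, ae_restrict_mem measurableSet_Icc] with t b1 ht
    exact g2 t ht fun p hp => w4_real ha ha0 hb hp ht (b1 p hp)

/-- Replace `f, D` by measurable versions.  For a.e. `γ`: `a r = D (γ r) * sp (γ, r)` is integrable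
(`Plan.exists_cs`), `wug_ae_le` holds for all rational `s, t` and (Fubini, `Measure.ae_ae_comm`) for a.e. `t`
and all rational `s`; `exists_ac_of_rat`. -/
theorem wug_ug (hf : AEMeasurable f m) (h : IsWUGLoc m f D) : UG m f D := by
  have key : ∀ᶠ γ in cf m, ∃ G, Rep f γ G ∧ ∀ᵐ t ∂I01, |deriv G t| ≤ D (γ.ext t) * sp (γ, t) :=
    eventually_cf.2 fun P hP => w4_key hf h hP
  refine ⟨key.mono fun γ ⟨G, hG, _⟩ => ⟨G, hG⟩, eventually_pf.2 (key.mono fun γ ⟨G, hG, h2⟩ => ?_)⟩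
  filter_upwards [hG.cd_eq, h2] with t h3 h4
  rw [h3]
  exact h4

end Crest.Agent.R242
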