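import Crest.Agent.R242.Defs
import Crest.Agent.R242.Wug4
import Crest.Agent.R242.KantB

/-! Row 242, part I-d (helper82): the Sobolev-to-Lipschitz property, global and local, from good plans. -/

set_option autoImplicit false
set_option linter.unusedSectionVars false
open MeasureTheory Filter Set Topology
open scoped ENNReal NNReal
open Crest.GeometryTopology.SyntheticRicci

namespace Crest.Agent.R242

variable {X : Type*} [MetricSpace X] [MeasurableSpace X] [BorelSpace X] {m : Measure X} {κ γ : ℝ}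

/-- the normalised restriction of `m` to a bounded set of positive finite measure -/
theorem s2l_bddProb {A : Set X} (hA : MeasurableSet A) (h0 : m A ≠ 0) (h1 : m A ≠ ⊤) {o : X} {R : ℝ}
    (hAo : A ⊆ Metric.closedBall o R) {C : ℝ≥0} (hC : (m A)⁻¹ ≤ C) :
    BddProb m o R C ((m A)⁻¹ • m.restrict A) := by
  refine ⟨⟨?_⟩, ?_, ?_⟩
  · simp only [Measure.smul_apply, Measure.restrict_apply MeasurableSet.univ, univ_inter, smul_eq_mul]
    exact ENNReal.inv_mul_cancel h0 h1
  · refine Measure.le_iff.2 fun s hs => ?_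
    simp only [Measure.smul_apply, smul_eq_mul]
    exact mul_le_mul' hC (Measure.restrict_le_self s)
  · simp only [Measure.smul_apply, smul_eq_mul]
    rw [Measure.restrict_apply' hA]
    have : (Metric.closedBall o R)ᶜ ∩ A = ∅ := by
      ext z
      simp only [mem_inter_iff, mem_compl_iff, mem_empty_iff_false, iff_false, not_and]
      exact fun h hz => h (hAo hz)
    simp [this]

omit [BorelSpace X] in
theorem s2l_ae_smul {A : Set X} (hA : MeasurableSet A) (c : ℝ≥0∞) {p : X → Prop}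
    (hp : ∀ᵐ z ∂m, z ∈ A → p z) : ∀ᵐ z ∂(c • m.restrict A), z ∈ A ∧ p z := by
  refine Measure.ae_smul_measure ?_ c
  filter_upwards [(ae_restrict_iff' hA).2 hp, ae_restrict_mem hA] with z h1 h2 using ⟨h2, h1⟩

theorem s2l_ae_zero {π : Measure (UCurve X)} {μ₀ μ₁ : Measure X}
    (h : IsCouplingOf (endpointLaw π) μ₀ μ₁) {p : X → Prop} (hp : ∀ᵐ z ∂μ₀, p z) :
    ∀ᵐ c ∂π, p (c.toMap 0) := by
  rw [← h.1] at hp
  have h1 := ae_of_ae_map measurable_fst.aemeasurable hp
  exact ae_of_ae_map ((measurable_at 0).prodMk (measurable_at 1)).aemeasurable h1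

theorem s2l_ae_one {π : Measure (UCurve X)} {μ₀ μ₁ : Measure X}
    (h : IsCouplingOf (endpointLaw π) μ₀ μ₁) {p : X → Prop} (hp : ∀ᵐ z ∂μ₁, p z) :
    ∀ᵐ c ∂π, p (c.toMap 1) := by
  rw [← h.2] at hp
  have h1 := ae_of_ae_map measurable_snd.aemeasurable hp
  exact ae_of_ae_map ((measurable_at 0).prodMk (measurable_at 1)).aemeasurable h1

omit [MeasurableSpace X] [BorelSpace X] in
theorem s2l_geo_dist {c : UCurve X} (hc : IsCSGeodesic c) (t : ℝ) :
    dist (c.ext t) (c.toMap 0) ≤ dist (c.toMap 0) (c.toMap 1) := by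
  unfold UCurve.ext
  rw [hc]
  refine mul_le_of_le_one_left dist_nonneg ?_
  have h := (projIcc (0 : ℝ) 1 zero_le_one t).2
  simp only [Icc.coe_zero, sub_zero]
  rw [abs_of_nonneg h.1]
  exact h.2

/-- essential oscillation between two small balls -/
theorem s2l_core [ProperSpace X] [IsFiniteMeasureOnCompacts m] (h : Sp m κ γ) {u D : X → ℝ}
    (hD : IsWUGLoc m u D) {L : ℝ≥0} {x y : X} {r s : ℝ} (hr : 0 ≤ r) (hs : dist x y + 3 * r ≤ s)
    (hL : ∀ᵐ z ∂m, z ∈ Metric.ball x s → D z ≤ L) {A B : Set X} (hA : MeasurableSet A)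
    (hB : MeasurableSet B) (hA0 : m A ≠ 0) (hB0 : m B ≠ 0) (hAx : A ⊆ Metric.ball x r)
    (hBy : B ⊆ Metric.ball y r) {c : ℝ} {a b : ℝ} (hc : c = 1 ∨ c = -1)
    (ha : ∀ᵐ z ∂m, z ∈ A → a ≤ c * u z) (hb : ∀ᵐ z ∂m, z ∈ B → c * u z ≤ b) :
    a - b ≤ L * (dist x y + 2 * r) := by
  have hA1 : m A ≠ ⊤ := ((measure_mono hAx).trans_lt Metric.isBounded_ball.measure_lt_top).ne
  have hB1 : m B ≠ ⊤ := ((measure_mono hBy).trans_lt Metric.isBounded_ball.measure_lt_top).ne
  obtain ⟨Θ, hΘ⟩ := h.good (dist x y + r)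
  set C : ℝ≥0 := ((m A)⁻¹ + (m B)⁻¹).toNNReal with hCdef
  have hC : (C : ℝ≥0∞) = (m A)⁻¹ + (m B)⁻¹ :=
    ENNReal.coe_toNNReal (ENNReal.add_ne_top.2 ⟨ENNReal.inv_ne_top.2 hA0, ENNReal.inv_ne_top.2 hB0⟩)
  have hAo : A ⊆ Metric.closedBall x (dist x y + r) := fun z hz => by
    have := Metric.mem_ball.1 (hAx hz)
    have := dist_nonneg (x := x) (y := y)
    exact Metric.mem_closedBall.2 (by linarith)
  have hBo : B ⊆ Metric.closedBall x (dist x y + r) := fun z hz => by
    have := Metric.mem_ball.1 (hBy hz)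
    have := dist_triangle z y x
    rw [dist_comm y x] at this
    exact Metric.mem_closedBall.2 (by linarith)
  obtain ⟨π, hπ⟩ := hΘ x C _ _ (s2l_bddProb hA hA0 hA1 hAo (hC ▸ le_self_add))
    (s2l_bddProb hB hB0 hB1 hBo (hC ▸ le_add_self))
  haveI : IsProbabilityMeasure π := hπ.test.1
  have hP : Plan m π := ⟨hπ.test, hπ.tracks⟩
  have e0 := s2l_ae_zero hπ.opt.1 (s2l_ae_smul hA _ ha)
  have e1 := s2l_ae_one hπ.opt.1 (s2l_ae_smul hB _ hb)
  have key := hD.2.2 π hπ.test hπ.tracks
  have hlo : ENNReal.ofReal (a - b) ≤ ∫⁻ c, ENNReal.ofReal |u (c.toMap 1) - u (c.toMap 0)| ∂π := by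
    calc ENNReal.ofReal (a - b) = ∫⁻ _, ENNReal.ofReal (a - b) ∂π := by simp
      _ ≤ _ := by
        refine lintegral_mono_ae ?_
        filter_upwards [e0, e1] with g g0 g1
        refine ENNReal.ofReal_le_ofReal ?_
        have h1 := le_abs_self (u (g.toMap 1) - u (g.toMap 0))
        have h2 := neg_abs_le (u (g.toMap 1) - u (g.toMap 0))
        have h3 := g0.2
        have h4 := g1.2
        rcases hc with rfl | rfl <;> linarith
  have hhi : ∫⁻ c, (∫⁻ t in Icc (0 : ℝ) 1, ENNReal.ofReal (D (c.ext t)) * upperSpeed c t) ∂π ≤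
      ENNReal.ofReal (L * (dist x y + 2 * r)) := by
    calc _ ≤ ∫⁻ _, ENNReal.ofReal (L * (dist x y + 2 * r)) ∂π := by
          refine lintegral_mono_ae ?_
          filter_upwards [e0, e1, hπ.geo, hP.ae_ae hL] with g g0 g1 gg gL
          have d0 := Metric.mem_ball.1 (hAx g0.1)
          have d1 := Metric.mem_ball.1 (hBy g1.1)
          have d01 : dist (g.toMap 0) (g.toMap 1) ≤ dist x y + 2 * r := by
            have := dist_triangle4 (g.toMap 0) x y (g.toMap 1)
            rw [dist_comm y (g.toMap 1)] at this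
            linarith
          calc _ ≤ ∫⁻ _ in Icc (0 : ℝ) 1, ENNReal.ofReal (L * (dist x y + 2 * r)) := by
                refine lintegral_mono_ae ?_
                filter_upwards [gL, ae_restrict_mem measurableSet_Icc] with t t1 t2
                have hin : g.ext t ∈ Metric.ball x s := by
                  have := s2l_geo_dist gg t
                  have := dist_triangle (g.ext t) (g.toMap 0) x
                  exact Metric.mem_ball.2 (by linarith)
                rw [upperSpeed_geodesic gg t2, ENNReal.ofReal_mul L.coe_nonneg, edist_dist]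
                exact mul_le_mul' (ENNReal.ofReal_le_ofReal (t1 hin)) (ENNReal.ofReal_le_ofReal d01)
            _ = _ := by simp
      _ = _ := by simp
  have hnn : (0 : ℝ) ≤ L * (dist x y + 2 * r) := by positivity
  exact (ENNReal.ofReal_le_ofReal_iff hnn).1 (hlo.trans (key.trans hhi))

theorem s2l_wug {u : X → ℝ} (hu : IsSobolevLoc m u) : IsWUGLoc m u (minWeakGrad m u) := by
  unfold minWeakGrad
  rw [dif_pos hu.2]
  exact (Classical.choose_spec hu.2).1

theorem s2lloc_of_sp [ProperSpace X] [IsFiniteMeasureOnCompacts m] [m.IsOpenPosMeasure]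
    (h : Sp m κ γ) : S2Lloc m := by
  intro u L x y r hu hS hL hr
  have hd := dist_nonneg (x := x) (y := y)
  have main : ∀ c : ℝ, c = 1 ∨ c = -1 → c * u x - c * u y ≤ L * dist x y := by
    intro c hc
    refine le_of_forall_pos_le_add fun ε hε => ?_
    have hcu : Continuous fun z => c * u z := continuous_const.mul hu
    obtain ⟨δ₁, hδ₁, h₁⟩ := Metric.continuousAt_iff.1 (hcu.continuousAt (x := x)) (ε / 3) (by positivity)
    obtain ⟨δ₂, hδ₂, h₂⟩ := Metric.continuousAt_iff.1 (hcu.continuousAt (x := y)) (ε / 3) (by positivity)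
    set δ := min (min δ₁ δ₂) (min ((r - dist x y) / 3) (ε / (6 * (L + 1)))) with hδ
    have hδ0 : 0 < δ := by
      refine lt_min (lt_min hδ₁ hδ₂) (lt_min (by linarith) (by positivity))
    have k1 : δ ≤ δ₁ := (min_le_left _ _).trans (min_le_left _ _)
    have k2 : δ ≤ δ₂ := (min_le_left _ _).trans (min_le_right _ _)
    have k3 : δ ≤ (r - dist x y) / 3 := (min_le_right _ _).trans (min_le_left _ _)
    have k4 : δ ≤ ε / (6 * (L + 1)) := (min_le_right _ _).trans (min_le_right _ _)
    have k5 : δ * (6 * (L + 1)) ≤ ε := (le_div_iff₀ (by positivity)).1 k4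
    have := s2l_core h (s2l_wug hS) (x := x) (y := y) (r := δ) (s := r) hδ0.le (by linarith) hL
      measurableSet_ball measurableSet_ball (Metric.measure_ball_pos m x hδ0).ne'
      (Metric.measure_ball_pos m y hδ0).ne' subset_rfl subset_rfl (a := c * u x - ε / 3)
      (b := c * u y + ε / 3) hc
      (ae_of_all _ fun z hz => by
        have := h₁ ((Metric.mem_ball.1 hz).trans_le k1)
        rw [Real.dist_eq, abs_lt] at this
        linarith [this.1])
      (ae_of_all _ fun z hz => by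
        have := h₂ ((Metric.mem_ball.1 hz).trans_le k2)
        rw [Real.dist_eq, abs_lt] at this
        linarith [this.2])
    nlinarith [L.coe_nonneg]
  have h1 := main 1 (Or.inl rfl)
  have h2 := main (-1) (Or.inr rfl)
  rw [abs_le]
  constructor <;> linarith

/-- from essential oscillation bounds to a Lipschitz representative (McShane extension) -/
theorem s2l_of_osc [ProperSpace X] {u : X → ℝ} (hum : AEMeasurable u m) {L : ℝ≥0}
    (h : ∀ (x y : X) (r : ℝ), 0 < r → ∀ A B : Set X, MeasurableSet A → MeasurableSet B → m A ≠ 0 → m B ≠ 0 →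
      A ⊆ Metric.ball x r → B ⊆ Metric.ball y r → ∀ a b : ℝ, (∀ᵐ z ∂m, z ∈ A → a ≤ u z) →
      (∀ᵐ z ∂m, z ∈ B → u z ≤ b) → a - b ≤ L * (dist x y + 2 * r)) : LipAE m L u := by
  set v := hum.mk u with hv
  have hvm : Measurable v := hum.measurable_mk
  have huv : u =ᵐ[m] v := hum.ae_eq_mk
  obtain ⟨T, hTc, hTd⟩ := TopologicalSpace.exists_countable_dense X
  have : Countable T := hTc.to_subtype
  -- the good set
  set Up : T × ℕ × ℚ → Set X := fun p =>
    Metric.ball (p.1 : X) (1 / ((p.2.1 : ℝ) + 1)) ∩ {z | (p.2.2 : ℝ) < v z} with hUp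
  set Lo : T × ℕ × ℚ → Set X := fun p =>
    Metric.ball (p.1 : X) (1 / ((p.2.1 : ℝ) + 1)) ∩ {z | v z < (p.2.2 : ℝ)} with hLo
  have hUpm : ∀ p, MeasurableSet (Up p) := fun p =>
    measurableSet_ball.inter (measurableSet_lt measurable_const hvm)
  have hLom : ∀ p, MeasurableSet (Lo p) := fun p =>
    measurableSet_ball.inter (measurableSet_lt hvm measurable_const)
  have hae : ∀ A : Set X, ∀ᵐ z ∂m, z ∈ A → m A ≠ 0 := fun A => by
    by_cases h0 : m A = 0
    · filter_upwards [measure_eq_zero_iff_ae_notMem.1 h0] with z hz hz' using absurd hz' hz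
    · exact ae_of_all _ fun _ _ => h0
  set S : Set X := {z | (∀ p, z ∈ Up p → m (Up p) ≠ 0) ∧ ∀ p, z ∈ Lo p → m (Lo p) ≠ 0} with hSdef
  have hSae : ∀ᵐ z ∂m, z ∈ S :=
    (ae_all_iff.2 fun p => hae (Up p)).and (ae_all_iff.2 fun p => hae (Lo p))
  have hlip : LipschitzOnWith L v S := by
    refine LipschitzOnWith.of_le_add_mul L fun z hz w hw => ?_
    refine le_of_forall_pos_le_add fun ε hε => ?_
    obtain ⟨k, hk⟩ := exists_nat_one_div_lt (show 0 < ε / (8 * (L + 1)) by positivity)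
    set ρ : ℝ := 1 / ((k : ℝ) + 1) with hρ
    have hρ0 : 0 < ρ := by positivity
    have k5 : ρ * (8 * (L + 1)) ≤ ε := (le_div_iff₀ (by positivity)).1 hk.le
    obtain ⟨x, hxT, hx⟩ := hTd.exists_dist_lt z hρ0
    obtain ⟨y, hyT, hy⟩ := hTd.exists_dist_lt w hρ0
    obtain ⟨a, ha1, ha2⟩ := exists_rat_btwn (show v z - ε / 4 < v z by linarith)
    obtain ⟨b, hb1, hb2⟩ := exists_rat_btwn (show v w < v w + ε / 4 by linarith)
    have hzU : z ∈ Up (⟨x, hxT⟩, k, a) := ⟨Metric.mem_ball.2 hx, ha2⟩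
    have hwL : w ∈ Lo (⟨y, hyT⟩, k, b) := ⟨Metric.mem_ball.2 hy, hb1⟩
    have := h x y ρ hρ0 _ _ (hUpm _) (hLom _) (hz.1 _ hzU) (hw.2 _ hwL) inter_subset_left
      inter_subset_left a b
      (huv.mono fun z h1 h2 => by rw [h1]; exact le_of_lt h2.2)
      (huv.mono fun z h1 h2 => by rw [h1]; exact le_of_lt h2.2)
    have hxy : dist x y ≤ dist z w + 2 * ρ := by
      have := dist_triangle4 x z w y
      rw [dist_comm x z] at this
      linarith
    have h3 : (L : ℝ) * (dist x y + 2 * ρ) ≤ L * (dist z w + 4 * ρ) :=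
      mul_le_mul_of_nonneg_left (by linarith) L.coe_nonneg
    nlinarith [L.coe_nonneg]
  obtain ⟨g, hg, hvg⟩ := hlip.extend_real
  refine ⟨g, hg, ?_⟩
  filter_upwards [huv, hSae] with z h1 h2
  rw [h1, hvg h2]

theorem s2l_of_sp [ProperSpace X] [IsFiniteMeasureOnCompacts m] (h : Sp m κ γ) : S2L m := by
  intro u L hS hL
  refine s2l_of_osc (l2b_aemeasurable hS.1) fun x y r hr A B hA hB hA0 hB0 hAx hBy a b ha hb => ?_
  exact s2l_core h (s2l_wug hS) (s := dist x y + 3 * r) hr.le le_rfl (hL.mono fun _ h1 _ => h1) hA hB hA0 hB0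
    hAx hBy (Or.inl rfl) (by simpa using ha) (by simpa using hb)

theorem s2l_int [ProperSpace X] [IsFiniteMeasureOnCompacts m] {u : X → ℝ} (hu : IsL2OnBalls m u) {A : Set X}
    (h0 : m A ≠ 0) {x : X} {r : ℝ} (hAx : A ⊆ Metric.ball x r) :
    Integrable u ((m A)⁻¹ • m.restrict A) := by
  have : IsFiniteMeasure (m.restrict (Metric.ball x r)) :=
    isFiniteMeasure_restrict.2 Metric.isBounded_ball.measure_lt_top.ne
  have h1 : IntegrableOn u (Metric.ball x r) m := (hu x r).integrable one_le_two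
  exact (h1.mono_set hAx).integrable.smul_measure (ENNReal.inv_ne_top.2 h0)

/-- a function whose averages are `L`-Lipschitz for `W₂` has an `L`-Lipschitz representative -/
theorem lipAE_of_avg [ProperSpace X] [IsFiniteMeasureOnCompacts m] {u : X → ℝ} (hu : IsL2OnBalls m u)
    {L : ℝ≥0} (h : ∀ (o : X) (R : ℝ) (C : ℝ≥0) (ν₀ ν₁ : Measure X), BddProb m o R C ν₀ →
      BddProb m o R C ν₁ → |∫ x, u x ∂ν₁ - ∫ x, u x ∂ν₀| ≤ L * W2 ν₀ ν₁) : LipAE m L u := by
  refine s2l_of_osc (l2b_aemeasurable hu) fun x y r hr A B hA hB hA0 hB0 hAx hBy a b ha hb => ?_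
  have hA1 : m A ≠ ⊤ := ((measure_mono hAx).trans_lt Metric.isBounded_ball.measure_lt_top).ne
  have hB1 : m B ≠ ⊤ := ((measure_mono hBy).trans_lt Metric.isBounded_ball.measure_lt_top).ne
  set C : ℝ≥0 := ((m A)⁻¹ + (m B)⁻¹).toNNReal with hCdef
  have hC : (C : ℝ≥0∞) = (m A)⁻¹ + (m B)⁻¹ :=
    ENNReal.coe_toNNReal (ENNReal.add_ne_top.2 ⟨ENNReal.inv_ne_top.2 hA0, ENNReal.inv_ne_top.2 hB0⟩)
  have hd := dist_nonneg (x := x) (y := y)
  have hAo : A ⊆ Metric.closedBall x (dist x y + r) := fun z hz => by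
    have := Metric.mem_ball.1 (hAx hz)
    exact Metric.mem_closedBall.2 (by linarith)
  have hBo : B ⊆ Metric.closedBall x (dist x y + r) := fun z hz => by
    have := Metric.mem_ball.1 (hBy hz)
    have := dist_triangle z y x
    rw [dist_comm y x] at this
    exact Metric.mem_closedBall.2 (by linarith)
  have b0 := s2l_bddProb hA hA0 hA1 hAo (hC ▸ le_self_add)
  have b1 := s2l_bddProb hB hB0 hB1 hBo (hC ▸ le_add_self)
  have key := h x _ C _ _ b0 b1
  have := b0.prob
  have := b1.prob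
  have e0 := s2l_ae_smul hA (m A)⁻¹ ha
  have e1 := s2l_ae_smul hB (m B)⁻¹ hb
  have i0 : a ≤ ∫ z, u z ∂((m A)⁻¹ • m.restrict A) := by
    have := integral_mono_ae (integrable_const a) (s2l_int hu hA0 hAx) (e0.mono fun _ hz => hz.2)
    simpa only [integral_const, probReal_univ, one_smul] using this
  have i1 : ∫ z, u z ∂((m B)⁻¹ • m.restrict B) ≤ b := by
    have := integral_mono_ae (s2l_int hu hB0 hBy) (integrable_const b) (e1.mono fun _ hz => hz.2)
    simpa only [integral_const, probReal_univ, one_smul] using this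
  have hW : W2 ((m A)⁻¹ • m.restrict A) ((m B)⁻¹ • m.restrict B) ≤ dist x y + 2 * r := by
    have h1 := W2sq_le_of_bdd (μ := (m A)⁻¹ • m.restrict A) (ν := (m B)⁻¹ • m.restrict B)
      (D := dist x y + 2 * r) (e0.mono fun z hz => e1.mono fun w hw => by
        have d0 := Metric.mem_ball.1 (hAx hz.1)
        have d1 := Metric.mem_ball.1 (hBy hw.1)
        have := dist_triangle4 z x y w
        rw [dist_comm y w] at this
        linarith)
    unfold W2
    exact Real.sqrt_le_iff.2 ⟨by positivity, ENNReal.toReal_le_of_le_ofReal (by positivity) h1⟩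
  have h2 := neg_abs_le (∫ z, u z ∂((m B)⁻¹ • m.restrict B) - ∫ z, u z ∂((m A)⁻¹ • m.restrict A))
  have h3 := mul_le_mul_of_nonneg_left hW L.coe_nonneg
  linarith

end Crest.Agent.R242
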