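import Crest.Agent.R242.GeA
import Crest.Agent.R242.S2l
import Crest.Agent.R242.Wug10

/-! Row 242, part I-d (helper82): horizontal and vertical derivative along a plan on the contact set. -/

set_option autoImplicit false
set_option linter.unusedSectionVars false
open MeasureTheory Filter Set Topology
open scoped ENNReal NNReal
open Crest.GeometryTopology.SyntheticRicci

namespace Crest.Agent.R242

variable {X : Type*} [MetricSpace X] [MeasurableSpace X] [BorelSpace X] [ProperSpace X] {m : Measure X}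
  [IsFiniteMeasureOnCompacts m]

theorem eva_int {μ : Measure X} {C : ℝ≥0} (hC : μ ≤ (C : ℝ≥0∞) • m) {U : Set X} (hs : ∀ᵐ x ∂μ, x ∈ U)
    {g : X → ℝ} (hg : IntegrableOn g U m) : Integrable g μ := by
  rw [← Measure.restrict_eq_self_of_ae_mem hs]
  refine (hg.integrable.smul_measure (c := (C : ℝ≥0∞)) ENNReal.coe_ne_top).mono_measure ?_
  rw [← Measure.restrict_smul]
  exact Measure.restrict_mono subset_rfl hC

theorem eva_l2b_on {f : X → ℝ} (hf : IsL2OnBalls m f) (o : X) (R : ℝ) : IntegrableOn f (Metric.ball o R) m :=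
  (hf o R).integrable one_le_two

theorem eva_l2b_sq {f : X → ℝ} (hf : IsL2OnBalls m f) (o : X) (R : ℝ) :
    IntegrableOn (fun x => f x ^ 2) (Metric.ball o R) m := (hf o R).integrable_sq

theorem eva_ae_marg {π : Measure (UCurve X)} {U : Set X} (hU : MeasurableSet U) {t : unitInterval}
    (h : ∀ᵐ c ∂π, c.toMap t ∈ U) : ∀ᵐ x ∂(timeMarginal π t), x ∈ U :=
  (ae_map_iff (measurable_at t).aemeasurable hU).2 h

theorem eva_at {π : Measure (UCurve X)} {t : unitInterval} {f : X → ℝ} (hf : Integrable f (timeMarginal π t)) :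
    Integrable (fun c : UCurve X => f (c.toMap t)) π ∧
      ∫ c, f (c.toMap t) ∂π = ∫ x, f x ∂(timeMarginal π t) :=
  ⟨(integrable_map_measure hf.aestronglyMeasurable (measurable_at t).aemeasurable).1 hf,
    (integral_map (measurable_at t).aemeasurable hf.aestronglyMeasurable).symm⟩

theorem eva_cost {π : Measure (UCurve X)} (hc : quadCost (endpointLaw π) ≠ ⊤) :
    Integrable (fun c : UCurve X => dist (c.toMap 0) (c.toMap 1) ^ 2) π ∧
      ∫ c, dist (c.toMap 0) (c.toMap 1) ^ 2 ∂π = (quadCost (endpointLaw π)).toReal := by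
  obtain ⟨h1, h2⟩ := int_dist_sq hc
  have hm : AEMeasurable (fun c : UCurve X => (c.toMap 0, c.toMap 1)) π :=
    ((measurable_at 0).prodMk (measurable_at 1)).aemeasurable
  exact ⟨(integrable_map_measure h1.aestronglyMeasurable hm).1 h1,
    (integral_map hm h1.aestronglyMeasurable).symm.trans h2⟩

/-- Lemma D on `[0, t]` -/
theorem eva_lemD {π : Measure (UCurve X)} (hP : Plan m π) (hgeo : ∀ᵐ c ∂π, IsCSGeodesic c) {v D g : X → ℝ}
    (hva : AEMeasurable v m) (hD : IsWUGLoc m v D) {U : Set X} (hU : ∀ᵐ c ∂π, ∀ s, c.ext s ∈ U)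
    (hgD : ∀ᵐ x ∂m, x ∈ U → D x ^ 2 ≤ g x) (hgm : Measurable g) (hg0 : ∀ x, 0 ≤ g x)
    (hgi : Integrable g m) (t : unitInterval)
    (hv : Integrable (fun c : UCurve X => v (c.toMap t) - v (c.toMap 0)) π)
    {B : ℝ} (hB : ∀ s : unitInterval, s ≤ t → ∫ x, g x ∂(timeMarginal π s) ≤ B)
    (hc : quadCost (endpointLaw π) ≠ ⊤) :
    ∫ c, |v (c.toMap t) - v (c.toMap 0)| ∂π ≤ t / 2 * (quadCost (endpointLaw π)).toReal + t * B / 2 := by
  have := hP.1.1
  obtain ⟨C, hC⟩ := hP.1.2.1
  have ht0 : (0 : ℝ) ≤ t := t.2.1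
  have hB0 : 0 ≤ B := (integral_nonneg hg0).trans (hB 0 t.2.1)
  have hmg : Measurable fun z : UCurve X × ℝ => ENNReal.ofReal (g (ev z)) :=
    (hgm.comp measurable_ev).ennreal_ofReal
  have a1 := wug_plan_le hva hD hP le_rfl ht0 t.2.2 (S := univ)
  simp only [Measure.restrict_univ, ext_coe, ext_zero] at a1
  have hsub : Icc (0 : ℝ) t ⊆ Icc 0 1 := Icc_subset_Icc le_rfl t.2.2
  have a2 : (∫⁻ c, (∫⁻ r in Icc (0 : ℝ) t, ENNReal.ofReal (D (c.ext r)) * upperSpeed c r) ∂π) ≤
      ∫⁻ c, (ENNReal.ofReal (t / 2) * edist (c.toMap 0) (c.toMap 1) ^ 2 +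
        ENNReal.ofReal (1 / 2) * ∫⁻ r in Icc (0 : ℝ) t, ENNReal.ofReal (g (c.ext r))) ∂π := by
    refine lintegral_mono_ae ?_
    filter_upwards [hgeo, hP.ae_ae hgD, hU] with c h1 h2 hcU
    have b1 : Measurable fun r : ℝ => ENNReal.ofReal (g (c.ext r)) :=
      (hgm.comp (continuous_ext c).measurable).ennreal_ofReal
    calc _ ≤ ∫⁻ r in Icc (0 : ℝ) t, (ENNReal.ofReal (1 / 2) * edist (c.toMap 0) (c.toMap 1) ^ 2 +
          ENNReal.ofReal (1 / 2) * ENNReal.ofReal (g (c.ext r))) := by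
          refine lintegral_mono_ae ?_
          filter_upwards [ae_restrict_of_ae_restrict_of_subset hsub h2, ae_restrict_mem measurableSet_Icc]
            with r h3 h4
          rw [upperSpeed_geodesic h1 (hsub h4), edist_dist, ← ENNReal.ofReal_pow dist_nonneg,
            ← ENNReal.ofReal_mul' dist_nonneg, ← ENNReal.ofReal_mul (by positivity),
            ← ENNReal.ofReal_mul (by positivity), ← ENNReal.ofReal_add (by positivity)
              (mul_nonneg (by positivity) (hg0 _))]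
          refine ENNReal.ofReal_le_ofReal ((ge_amgm one_pos (h3 (hcU r))).trans (le_of_eq ?_))
          ring
      _ = _ := by
          rw [lintegral_add_left measurable_const, lintegral_const_mul _ b1, setLIntegral_const,
            Real.volume_Icc, sub_zero, mul_right_comm, ← ENNReal.ofReal_mul (by positivity)]
          congr 3
          ring
  have a3 : (∫⁻ c, (∫⁻ r in Icc (0 : ℝ) t, ENNReal.ofReal (g (c.ext r))) ∂π) ≤ ENNReal.ofReal (t * B) := by
    rw [lintegral_lintegral_swap (f := fun (c : UCurve X) (r : ℝ) => ENNReal.ofReal (g (c.ext r)))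
      hmg.aemeasurable]
    calc _ ≤ ∫⁻ _r in Icc (0 : ℝ) t, ENNReal.ofReal B := by
          refine lintegral_mono_ae ?_
          filter_upwards [ae_restrict_mem measurableSet_Icc] with r hr
          simp only [ext_of_mem _ (hsub hr)]
          rw [← lintegral_map (f := fun x => ENNReal.ofReal (g x)) hgm.ennreal_ofReal (measurable_at _)]
          exact (ofReal_integral_eq_lintegral_ofReal (ge_int (hC ⟨r, hsub hr⟩) hgi)
            (Eventually.of_forall hg0)).symm.trans_le (ENNReal.ofReal_le_ofReal (hB _ hr.2))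
      _ = _ := by
          rw [setLIntegral_const, Real.volume_Icc, sub_zero, ← ENNReal.ofReal_mul hB0, mul_comm]
  have m1 : Measurable fun c : UCurve X => edist (c.toMap 0) (c.toMap 1) ^ 2 :=
    ((measurable_at 0).edist (measurable_at 1)).pow_const 2
  have m2 : Measurable fun c : UCurve X => ∫⁻ r in Icc (0 : ℝ) t, ENNReal.ofReal (g (c.ext r)) :=
    hmg.lintegral_prod_right'
  rw [lintegral_add_left (m1.const_mul _), lintegral_const_mul _ m1, lintegral_const_mul _ m2,
    ← endpoint_cost] at a2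
  have a4 : ENNReal.ofReal (∫ c, |v (c.toMap t) - v (c.toMap 0)| ∂π) ≤
      ENNReal.ofReal (t / 2 * (quadCost (endpointLaw π)).toReal + t * B / 2) := by
    rw [ofReal_integral_eq_lintegral_ofReal hv.abs (Eventually.of_forall fun _ => abs_nonneg _),
      ENNReal.ofReal_add (by positivity) (by positivity), ENNReal.ofReal_mul (by positivity),
      ENNReal.ofReal_toReal hc, show t * B / 2 = 1 / 2 * (t * B) by ring,
      ENNReal.ofReal_mul (p := 1 / 2) (by positivity)]
    exact (a1.trans a2).trans (add_le_add le_rfl (mul_le_mul_right a3 _))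
  rwa [ENNReal.ofReal_le_ofReal_iff (by positivity)] at a4

theorem eva_lipB {o : X} {R₀ : ℝ} {φ ψ : X → ℝ} (h : Pot o R₀ φ ψ) : LipB φ := fun o' R =>
  ⟨_, (h.lipOn (R + dist o' o)).mono fun x hx => by
    have := dist_triangle x o' o
    have := Metric.mem_ball.1 hx
    exact Metric.mem_closedBall.2 (by linarith)⟩

theorem eva_sl {o : X} {R₀ : ℝ} {φ ψ : X → ℝ} (h : Pot o R₀ φ ψ) : IsSobolevLoc m φ := sl_lipB (eva_lipB h)

/-- the weak gradient of a potential is bounded by the distance to any contact point -/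
theorem eva_slope {o : X} {R₀ : ℝ} {φ ψ : X → ℝ} (h : Pot o R₀ φ ψ) :
    ∀ᵐ x ∂m, ∀ y, dist y o ≤ R₀ → φ x + ψ y = dist x y ^ 2 / 2 → minWeakGrad m φ x ≤ dist x y := by
  set S : X → Set X := fun x => {y | dist y o ≤ R₀ ∧ φ x + ψ y = dist x y ^ 2 / 2} with hS
  have hφ := h.cφ
  have hψ := h.cψ
  have hSc : ∀ x, IsCompact (S x) := fun x => by
    have c1 : IsClosed {y | dist y o ≤ R₀} := isClosed_le (by fun_prop) continuous_const
    have c2 : IsClosed {y | φ x + ψ y = dist x y ^ 2 / 2} := isClosed_eq (by fun_prop) (by fun_prop)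
    exact (isCompact_closedBall o R₀).of_isClosed_subset (c1.inter c2) fun y hy => hy.1
  have hex : ∀ x, ∃ y ∈ S x, Metric.infDist x (S x) = dist x y := fun x =>
    (hSc x).exists_infDist_eq_dist (h.ex x) x
  have hG : Measurable fun x => Metric.infDist x (S x) := by
    refine measurable_of_Iic fun a => ?_
    have e : (fun x => Metric.infDist x (S x)) ⁻¹' Iic a = ⋃ n : ℕ, Prod.fst ''
        {p : X × X | dist p.1 o ≤ n ∧ dist p.2 o ≤ R₀ ∧ φ p.1 + ψ p.2 = dist p.1 p.2 ^ 2 / 2 ∧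
          dist p.1 p.2 ≤ a} := by
      ext x
      simp only [mem_preimage, mem_Iic, mem_iUnion, mem_image, mem_ofPred_eq]
      constructor
      · intro hx
        obtain ⟨y, hy, e⟩ := hex x
        obtain ⟨n, hn⟩ := exists_nat_ge (dist x o)
        exact ⟨n, (x, y), ⟨hn, hy.1, hy.2, e ▸ hx⟩, rfl⟩
      · rintro ⟨n, ⟨x', y⟩, ⟨-, h1, h2, h3⟩, rfl⟩
        exact (Metric.infDist_le_dist_of_mem (show y ∈ S x' from ⟨h1, h2⟩)).trans h3
    rw [e]
    refine MeasurableSet.iUnion fun n => (IsCompact.image ?_ continuous_fst).isClosed.measurableSet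
    refine ((isCompact_closedBall o n).prod (isCompact_closedBall o R₀)).of_isClosed_subset ?_
      fun p hp => ⟨hp.1, hp.2.1⟩
    have c1 : IsClosed {p : X × X | dist p.1 o ≤ n} := isClosed_le (by fun_prop) continuous_const
    have c2 : IsClosed {p : X × X | dist p.2 o ≤ R₀} := isClosed_le (by fun_prop) continuous_const
    have c3 : IsClosed {p : X × X | φ p.1 + ψ p.2 = dist p.1 p.2 ^ 2 / 2} :=
      isClosed_eq (by fun_prop) (by fun_prop)
    have c4 : IsClosed {p : X × X | dist p.1 p.2 ≤ a} := isClosed_le (by fun_prop) continuous_const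
    exact c1.inter (c2.inter (c3.inter c4))
  have key := gr_le_slope (m := m) (eva_lipB h) hG.aemeasurable (ae_of_all _ fun x => ⟨Metric.infDist_nonneg,
    fun ε hε => by
      obtain ⟨y, hy, e⟩ := hex x
      filter_upwards [Metric.ball_mem_nhds x hε] with z hz
      have h1 := h.up hy.1 hy.2 z
      have h2 := Metric.mem_ball.1 hz
      have h3 := dist_nonneg (x := z) (y := x)
      rw [e]
      nlinarith⟩)
  filter_upwards [key] with x hx y h1 h2
  exact hx.trans (Metric.infDist_le_dist_of_mem (show y ∈ S x from ⟨h1, h2⟩))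

omit [MeasurableSpace X] [BorelSpace X] [ProperSpace X] in
theorem eva_geo1 {c : UCurve X} (hc : IsCSGeodesic c) (t : unitInterval) :
    dist (c.toMap t) (c.toMap 1) = (1 - t) * dist (c.toMap 0) (c.toMap 1) := by
  rw [hc, Icc.coe_one, abs_sub_comm, abs_of_nonneg (sub_nonneg.2 t.2.2)]

omit [MeasurableSpace X] [BorelSpace X] [ProperSpace X] in
theorem eva_geo0 {c : UCurve X} (hc : IsCSGeodesic c) (t : unitInterval) :
    dist (c.toMap 0) (c.toMap t) = t * dist (c.toMap 0) (c.toMap 1) := by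
  rw [hc, Icc.coe_zero, zero_sub, abs_neg, abs_of_nonneg t.2.1]

/-- HORIZONTAL AND VERTICAL DERIVATIVE -/
theorem eva_hv (hH : IsInfHilbertian m) {π : Measure (UCurve X)} (hP : Plan m π)
    (hgeo : ∀ᵐ c ∂π, IsCSGeodesic c) {o : X} {R₀ : ℝ} {φ ψ : X → ℝ} (hpot : Pot o R₀ φ ψ)
    (hcon : ∀ᵐ c ∂π, dist (c.toMap 1) o ≤ R₀ ∧
      φ (c.toMap 0) + ψ (c.toMap 1) = dist (c.toMap 0) (c.toMap 1) ^ 2 / 2)
    {g : X → ℝ} (hg : IsSobolevLoc m g) {η : ℝ} (hη : 0 < η) :
    ∃ t₀ : ℝ, 0 < t₀ ∧ ∀ t : unitInterval, (t : ℝ) ≤ t₀ →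
      -(t * (∫ x, gradPairing m φ g x ∂(timeMarginal π 0) + η)) ≤
        ∫ x, g x ∂(timeMarginal π t) - ∫ x, g x ∂(timeMarginal π 0) := by
  have := hP.1.1
  obtain ⟨C, hC⟩ := hP.1.2.1
  obtain ⟨o', R', htr⟩ := hP.2
  set U := Metric.ball o' (R' + 1) with hUdef
  have hUm : MeasurableSet U := measurableSet_ball
  have hU0 : ∀ᵐ c ∂π, ∀ s, c.toMap s ∈ U := htr.mono fun c hc s =>
    Metric.closedBall_subset_ball (by linarith) (hc s)
  have hU : ∀ᵐ c ∂π, ∀ s, c.ext s ∈ U := hU0.mono fun c hc s => hc _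
  have hUt : ∀ t, ∀ᵐ x ∂(timeMarginal π t), x ∈ U := fun t => eva_ae_marg hUm (hU0.mono fun c hc => hc t)
  have hI : ∀ (t) {f : X → ℝ}, IntegrableOn f U m → Integrable f (timeMarginal π t) := fun t _ hf =>
    eva_int (hC t) (hUt t) hf
  have hac : ∀ t, timeMarginal π t ≪ m := fun t =>
    (Measure.absolutelyContinuous_of_le (hC t)).trans (Measure.smul_absolutelyContinuous)
  have hφ : IsSobolevLoc m φ := eva_sl hpot
  have hc : quadCost (endpointLaw π) ≠ ⊤ := by
    rw [endpoint_cost]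
    refine ne_top_of_le_ne_top (b := ∫⁻ _, ENNReal.ofReal ((2 * R') ^ 2) ∂π) (by simp) (lintegral_mono_ae ?_)
    filter_upwards [htr] with c h
    have h0 := Metric.mem_closedBall.1 (h 0)
    have h1 := Metric.mem_closedBall.1 (h 1)
    have h2 := dist_triangle_right (c.toMap 0) (c.toMap 1) o'
    rw [kb_edist]
    exact ENNReal.ofReal_le_ofReal (pow_le_pow_left₀ dist_nonneg (by linarith) 2)
  obtain ⟨ci, ce⟩ := eva_cost hc
  set K := (quadCost (endpointLaw π)).toReal with hK
  have hK0 : 0 ≤ K := ENNReal.toReal_nonneg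
  -- the gradient of the potential
  have iφ := hI 0 (eva_l2b_sq (gr_l2b m φ) o' (R' + 1))
  have ig := hI 0 (eva_l2b_sq (gr_l2b m g) o' (R' + 1))
  have iΓ := hI 0 (gam_integrableOn hφ hg o' (R' + 1))
  have s1 : ∫ x, minWeakGrad m φ x ^ 2 ∂(timeMarginal π 0) ≤ K := by
    rw [← (eva_at iφ).2, ← ce]
    refine integral_mono_ae (eva_at iφ).1 ci ?_
    filter_upwards [hcon, hP.ae_at (eva_slope (m := m) hpot) 0, hP.ae_at (gr_nonneg m φ) 0] with c h1 h2 h3
    rw [ext_zero] at h2 h3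
    exact pow_le_pow_left₀ h3 (h2 _ h1.1 h1.2) 2
  set a := ∫ x, minWeakGrad m g x ^ 2 ∂(timeMarginal π 0) with ha
  have ha0 : 0 ≤ a := integral_nonneg fun _ => sq_nonneg _
  set I := ∫ x, gradPairing m φ g x ∂(timeMarginal π 0) with hIdef
  set δ := η / (a + 1) with hδ
  have hδ0 : 0 < δ := by positivity
  have hδa : δ * a ≤ η := by
    rw [hδ, div_mul_eq_mul_div, div_le_iff₀ (by positivity)]
    nlinarith
  have hw : IsSobolevLoc m fun x => φ x + δ * g x := sl_add hφ (sl_const_mul δ hg)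
  set D := minWeakGrad m fun x => φ x + δ * g x with hD
  have hDm : AEMeasurable D m := gr_aemeasurable m _
  set G : X → ℝ := U.indicator fun x => hDm.mk D x ^ 2 with hG
  have hGm : Measurable G := (hDm.measurable_mk.pow_const 2).indicator hUm
  have hG0 : ∀ x, 0 ≤ G x := fun x => indicator_nonneg (fun _ _ => sq_nonneg _) x
  have hGD : ∀ᵐ x ∂m, x ∈ U → D x ^ 2 = G x := hDm.ae_eq_mk.mono fun x hx hxU => by
    rw [hG, indicator_of_mem hxU, ← hx]
  have hGi : Integrable G m := by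
    refine (integrable_indicator_iff hUm).2 ((eva_l2b_sq (gr_l2b m fun x => φ x + δ * g x) o' (R' + 1)).congr ?_)
    exact ae_restrict_of_ae (hDm.ae_eq_mk.mono fun x hx => congrArg (· ^ 2) hx)
  have s2 : ∫ x, G x ∂(timeMarginal π 0) ≤ K + 2 * δ * I + δ ^ 2 * a := by
    have e : ∫ x, G x ∂(timeMarginal π 0) = ∫ x, (minWeakGrad m φ x ^ 2 + 2 * δ * gradPairing m φ g x +
        δ ^ 2 * minWeakGrad m g x ^ 2) ∂(timeMarginal π 0) := by
      refine integral_congr_ae ?_
      filter_upwards [(hac 0).ae_le hGD, (hac 0).ae_le (gr_add_mul_sq hH δ hφ hg), hUt 0] with x h1 h2 h3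
      rw [← h1 h3, ← h2]
    have i1 : Integrable (fun x => minWeakGrad m φ x ^ 2 + 2 * δ * gradPairing m φ g x) (timeMarginal π 0) :=
      iφ.add (iΓ.const_mul _)
    rw [e, integral_add i1 (ig.const_mul _), integral_add iφ (iΓ.const_mul _),
      integral_const_mul, integral_const_mul]
    linarith
  obtain ⟨δ', hδ', hmod⟩ := mod_cont hGi C (ε := δ * η / 2) (by positivity)
  refine ⟨min (δ' / (K + 1)) (δ * η / (2 * (K + 1))), lt_min (by positivity) (by positivity), fun t ht => ?_⟩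
  have ht0 : (0 : ℝ) ≤ t := t.2.1
  have ht1 : t * (K + 1) ≤ δ' := (le_div_iff₀ (by positivity)).1 (ht.trans (min_le_left _ _))
  have ht2 : t * (2 * (K + 1)) ≤ δ * η := (le_div_iff₀ (by positivity)).1 (ht.trans (min_le_right _ _))
  have hB : ∀ s : unitInterval, s ≤ t → ∫ x, G x ∂(timeMarginal π s) ≤
      K + 2 * δ * I + δ ^ 2 * a + δ * η / 2 := fun s hs => by
    obtain ⟨q1, q2⟩ := coup_map π (measurable_at 0) (measurable_at s)
    have hq : IsProbabilityMeasure (π.map fun c : UCurve X => (c.toMap 0, c.toMap s)) :=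
      Measure.isProbabilityMeasure_map ((measurable_at 0).prodMk (measurable_at s)).aemeasurable
    refine (hmod (timeMarginal π 0) (timeMarginal π s) _ hq q1 (hC 0) (hC s) ?_).trans (by linarith)
    have hs' : (s : ℝ) ≤ t := hs
    have hs0 : (0 : ℝ) ≤ s := s.2.1
    have hs1 : (s : ℝ) ≤ 1 := s.2.2
    rw [q2]
    calc _ = ∫⁻ c, ENNReal.ofReal (s ^ 2 * dist (c.toMap 0) (c.toMap 1) ^ 2) ∂π := by
          refine lintegral_congr_ae ?_
          filter_upwards [hgeo] with c h
          rw [kb_edist, eva_geo0 h, mul_pow]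
      _ = ENNReal.ofReal (s ^ 2 * K) := by
          rw [← ofReal_integral_eq_lintegral_ofReal (ci.const_mul _) (ae_of_all _ fun _ => by positivity),
            integral_const_mul, ce]
      _ ≤ _ := by
          refine ENNReal.ofReal_le_ofReal ?_
          have : (s : ℝ) ^ 2 ≤ t := by nlinarith
          nlinarith
  have jφ := fun s => eva_at (hI s (eva_l2b_on hφ.1 o' (R' + 1)))
  have jg := fun s => eva_at (hI s (eva_l2b_on hg.1 o' (R' + 1)))
  have hv : Integrable (fun c : UCurve X => (φ (c.toMap t) + δ * g (c.toMap t)) -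
      (φ (c.toMap 0) + δ * g (c.toMap 0))) π :=
    ((jφ t).1.add ((jg t).1.const_mul δ)).sub ((jφ 0).1.add ((jg 0).1.const_mul δ))
  have s3 := eva_lemD hP hgeo (sl_aemeasurable hw) (sl_wug hw) hU (hGD.mono fun x h hx => (h hx).le) hGm hG0
    hGi t hv hB hc
  have s4 : (t - t ^ 2 / 2) * K - δ * (∫ x, g x ∂(timeMarginal π t) - ∫ x, g x ∂(timeMarginal π 0)) ≤
      ∫ c, |(φ (c.toMap t) + δ * g (c.toMap t)) - (φ (c.toMap 0) + δ * g (c.toMap 0))| ∂π := by
    have i1 : Integrable (fun c : UCurve X => δ * (g (c.toMap t) - g (c.toMap 0))) π :=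
      ((jg t).1.sub (jg 0).1).const_mul _
    rw [← ce, ← (jg t).2, ← (jg 0).2, ← integral_sub (jg t).1 (jg 0).1, ← integral_const_mul,
      ← integral_const_mul, ← integral_sub (ci.const_mul _) i1]
    refine integral_mono_ae ((ci.const_mul _).sub i1) hv.abs ?_
    filter_upwards [hcon, hgeo] with c h1 h2
    have h3 := hpot.along h1.1 h1.2 (eva_geo1 h2 t)
    have h4 := neg_abs_le ((φ (c.toMap t) + δ * g (c.toMap t)) - (φ (c.toMap 0) + δ * g (c.toMap 0)))
    linarith
  set Δ := ∫ x, g x ∂(timeMarginal π t) - ∫ x, g x ∂(timeMarginal π 0) with hΔ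
  rw [← hK] at s3
  have s5 : δ * -(t * (I + η)) ≤ δ * Δ := by
    have e1 : (t : ℝ) ^ 2 / 2 * K ≤ t * (δ * η / 4) := by nlinarith
    have e2 : t * (δ ^ 2 * a) ≤ t * (δ * η) :=
      mul_le_mul_of_nonneg_left (by nlinarith) ht0
    nlinarith
  exact le_of_mul_le_mul_left s5 hδ0

end Crest.Agent.R242
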