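import Crest.Agent.R242.Defs
import Crest.Agent.R242.KantC
import Crest.Agent.R242.Wug9
import Crest.Agent.R242.Wug10

/-! Row 242, part I-d (helper75): admissible densities. -/

set_option autoImplicit false
set_option linter.unusedSectionVars false
open MeasureTheory Filter Set Topology
open scoped ENNReal NNReal
open Crest.GeometryTopology.SyntheticRicci

namespace Crest.Agent.R242

variable {X : Type*} [MetricSpace X] [ProperSpace X] [MeasurableSpace X] [BorelSpace X] {m : Measure X}
  [Fact (IsFiniteOnBalls m)] [m.IsOpenPosMeasure]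

/-- probability density bounded by `C` with an exponential moment in `L²` bounded by `M` -/
structure Adm (m : Measure X) (o : X) (γ : ℝ) (C : ℝ≥0) (M : ℝ) (f : X → ℝ) : Prop where
  meas : AEStronglyMeasurable f m
  nonneg : ∀ᵐ x ∂m, 0 ≤ f x
  le : ∀ᵐ x ∂m, f x ≤ C
  mass : ∫ x, f x ∂m = 1
  wt : MemLp (fun x => Real.exp (γ * dist x o) * f x) 2 m
  wt_le : ∫ x, (Real.exp (γ * dist x o) * f x) ^ 2 ∂m ≤ M

end Crest.Agent.R242
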