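import Crest.Agent.R242.GEnt2

/-! Row 242, part I-a: consequences of the curvature-dimension condition at time `1/2`. -/

set_option autoImplicit false
set_option linter.unusedSectionVars false
open MeasureTheory Filter Set Topology
open scoped ENNReal NNReal BoundedContinuousFunction
open Crest.GeometryTopology.SyntheticRicci

noncomputable section
namespace Crest.Agent.R242.G

variable {X : Type*} [MetricSpace X] [SecondCountableTopology X] [MeasurableSpace X] [BorelSpace X]
  {m μ ν μ₀ μ₁ : Measure X} {P P' : Measure (UCurve X)} {o : X} {R C D : ℝ}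

theorem gcd_sigma {K n θ : ℝ} (hn : 0 < n) (hθ : 0 ≤ θ) :
    ENNReal.ofReal (1 / 2 * Real.exp (-(max (-K) 0 * θ ^ 2 / (8 * n)))) ≤
      distortSigma K n (1 / 2) θ := by
  have h0 : 0 ≤ max (-K) 0 * θ ^ 2 / (8 * n) := by positivity
  have h1 : 1 / 2 * Real.exp (-(max (-K) 0 * θ ^ 2 / (8 * n))) ≤ 1 / 2 := by
    have := Real.exp_le_one_iff.2 (neg_nonpos.2 h0)
    linarith
  unfold distortSigma
  rw [if_neg (by norm_num), if_neg (by norm_num)]
  split_ifs with c1 c2 c3 c4
  · exact ENNReal.ofReal_le_ofReal h1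
  · refine ENNReal.ofReal_le_ofReal (h1.trans ?_)
    have hθ' : 0 < θ := lt_of_le_of_ne hθ (Ne.symm c1)
    have hs : 0 < √(K / n) := Real.sqrt_pos.2 (by positivity)
    have hx : 0 < θ * √(K / n) := by positivity
    have hx2 : θ * √(K / n) < Real.pi := by
      refine lt_of_pow_lt_pow_left₀ 2 Real.pi_pos.le ?_
      rw [mul_pow, Real.sq_sqrt (by positivity), ← mul_div_assoc, div_lt_iff₀ hn]
      linarith
    rw [mul_assoc]
    generalize θ * √(K / n) = x at hx hx2
    have e : Real.sin x = 2 * Real.sin (1 / 2 * x) * Real.cos (1 / 2 * x) := by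
      rw [← Real.sin_two_mul]; congr 1; ring
    have h2 : 0 < Real.sin x := Real.sin_pos_of_pos_of_lt_pi hx hx2
    have h3 : 0 < Real.sin (1 / 2 * x) :=
      Real.sin_pos_of_pos_of_lt_pi (by positivity) (by linarith)
    rw [le_div_iff₀ h2, e]
    nlinarith [Real.cos_le_one (1 / 2 * x)]
  · exact le_top
  · exact ENNReal.ofReal_le_ofReal h1
  · refine ENNReal.ofReal_le_ofReal ?_
    have hK : 0 < -K := by
      rcases lt_or_gt_of_ne c4 with h | h
      · linarith
      · exact absurd h c2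
    have hθ' : 0 < θ := lt_of_le_of_ne hθ (Ne.symm c1)
    have hs : 0 < √(-K / n) := Real.sqrt_pos.2 (by positivity)
    have hx : 0 < θ * √(-K / n) := by positivity
    have hx2 : max (-K) 0 * θ ^ 2 / (8 * n) = (1 / 2 * (θ * √(-K / n))) ^ 2 / 2 := by
      rw [max_eq_left hK.le, mul_pow, mul_pow, Real.sq_sqrt (by positivity)]
      field_simp
      norm_num
    rw [hx2, mul_assoc]
    generalize θ * √(-K / n) = x at hx
    have e : Real.sinh x = 2 * Real.sinh (1 / 2 * x) * Real.cosh (1 / 2 * x) := by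
      rw [← Real.sinh_two_mul]; congr 1; ring
    have h2 : 0 < Real.sinh x := Real.sinh_pos_iff.2 hx
    have h3 : 0 < Real.sinh (1 / 2 * x) := Real.sinh_pos_iff.2 (by positivity)
    have h4 := Real.cosh_le_exp_half_sq (1 / 2 * x)
    have h5 : Real.exp (-((1 / 2 * x) ^ 2 / 2)) * Real.cosh (1 / 2 * x) ≤ 1 := by
      rw [Real.exp_neg, inv_mul_le_iff₀ (Real.exp_pos _), mul_one]
      exact h4
    rw [le_div_iff₀ h2, e]
    nlinarith

/-- `σ ≥ (1/2) exp (-κ θ²/(8 (N-1)))`: `sin x = 2 sin (x/2) cos (x/2)`, `sinh x = 2 sinh (x/2) cosh (x/2)`,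
`Real.cosh_le_exp_half_sq`; then `ENNReal.ofReal_rpow_of_pos`, `(1/2)^(1/N) (1/2)^((N-1)/N) = 1/2`. -/
theorem tau_half_ge {K N θ : ℝ} (hN : 1 < N) (hθ : 0 ≤ θ) :
    ENNReal.ofReal (1 / 2 * Real.exp (-(max (-K) 0 * θ ^ 2 / (8 * N)))) ≤ distortTau K N (1 / 2) θ := by
  have hN0 : 0 < N := by linarith
  have hN1 : 0 < N - 1 := by linarith
  have h := ENNReal.rpow_le_rpow (gcd_sigma (K := K) hN1 hθ) (div_pos hN1 hN0).le
  refine le_trans (le_of_eq ?_) (mul_le_mul_right h _)
  rw [ENNReal.ofReal_rpow_of_pos (by norm_num), ENNReal.ofReal_rpow_of_pos (by positivity),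
    ← ENNReal.ofReal_mul (by positivity), Real.mul_rpow (by norm_num) (Real.exp_pos _).le,
    ← mul_assoc, ← Real.rpow_add (by norm_num), ← Real.exp_mul]
  congr 2
  · rw [show 1 / N + (N - 1) / N = 1 by field_simp; ring, Real.rpow_one]
  · congr 1
    field_simp
/-- tangent line of the concave function `z ^ p`, `p = 1 - 1/N`, at `exp y` -/
theorem rpow_le_tangent {N z y : ℝ} (hN : 1 < N) (hz : 0 ≤ z) :
    z ^ (1 - 1 / N) ≤ 1 / N * Real.exp ((1 - 1 / N) * y) + (1 - 1 / N) * Real.exp (-y / N) * z := by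
  have hN0 : 0 < N := by linarith
  have h1 : 0 ≤ 1 - 1 / N := by
    rw [sub_nonneg, div_le_one hN0]; exact hN.le
  have h := Real.geom_mean_le_arith_mean2_weighted (w₁ := 1 / N) (w₂ := 1 - 1 / N)
    (p₁ := Real.exp ((1 - 1 / N) * y)) (p₂ := Real.exp (-y / N) * z) (by positivity) h1
    (Real.exp_pos _).le (by positivity) (by ring)
  rw [Real.mul_rpow (Real.exp_pos _).le hz, ← mul_assoc, ← Real.exp_mul, ← Real.exp_mul,
    ← Real.exp_add, show (1 - 1 / N) * y * (1 / N) + -y / N * (1 - 1 / N) = 0 by ring,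
    Real.exp_zero, one_mul] at h
  rwa [mul_assoc]
/-- `rnDeriv = 0` a.e. off `A`, `rnDeriv < ⊤` a.e., `m.withDensity (ν.rnDeriv m) ≤ ν` -/
theorem renyi_le [SigmaFinite m] [IsProbabilityMeasure ν] {A : Set X} (hA : MeasurableSet A) (hAm : m A ≠ ⊤)
    (hν : ν Aᶜ = 0) {N : ℝ} (hN : 1 < N) {φ : X → ℝ} (hφ : Measurable φ) {B : ℝ} (hB : ∀ x, |φ x| ≤ B) :
    renyiPower m ν N ≤ ENNReal.ofReal (1 / N * ∫ x in A, Real.exp ((1 - 1 / N) * φ x) ∂m +
      (1 - 1 / N) * ∫ x, Real.exp (-φ x / N) ∂ν) := by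
  have hN0 : 0 < N := by linarith
  have hp : 0 < 1 - 1 / N := by
    rw [sub_pos, div_lt_one hN0]; exact hN
  have hp1 : 1 - 1 / N ≤ 1 := by
    have : 0 < 1 / N := by positivity
    linarith
  have hρ : Measurable (ν.rnDeriv m) := Measure.measurable_rnDeriv ν m
  have h0 : ∀ᵐ x ∂m, x ∈ Aᶜ → ν.rnDeriv m x = 0 := by
    refine (setLIntegral_eq_zero_iff hA.compl hρ).1 (le_antisymm ?_ zero_le)
    rw [← withDensity_apply _ hA.compl, ← hν]
    exact Measure.withDensity_rnDeriv_le ν m _
  have m1 : Measurable fun x => 1 / N * Real.exp ((1 - 1 / N) * φ x) := by fun_prop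
  have m2 : Measurable fun x => (1 - 1 / N) * Real.exp (-φ x / N) := by fun_prop
  have h1 : ∀ᵐ x ∂m, ν.rnDeriv m x ^ (1 - 1 / N) ≤
      A.indicator (fun x => ENNReal.ofReal (1 / N * Real.exp ((1 - 1 / N) * φ x))) x +
        ν.rnDeriv m x * ENNReal.ofReal ((1 - 1 / N) * Real.exp (-φ x / N)) := by
    filter_upwards [h0, Measure.rnDeriv_lt_top ν m] with x hx hx'
    by_cases hxA : x ∈ A
    · rw [Set.indicator_of_mem hxA, ← ENNReal.ofReal_toReal hx'.ne,
        ENNReal.ofReal_rpow_of_nonneg ENNReal.toReal_nonneg hp.le,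
        ← ENNReal.ofReal_mul ENNReal.toReal_nonneg,
        ← ENNReal.ofReal_add (by positivity) (by positivity)]
      refine ENNReal.ofReal_le_ofReal ((rpow_le_tangent (y := φ x) hN
        ENNReal.toReal_nonneg).trans (le_of_eq ?_))
      ring
    · rw [hx hxA, ENNReal.zero_rpow_of_pos hp]
      exact zero_le
  have : IsFiniteMeasure (m.restrict A) := isFiniteMeasure_restrict.2 hAm
  have i1 : Integrable (fun x => 1 / N * Real.exp ((1 - 1 / N) * φ x)) (m.restrict A) := by
    refine Integrable.of_bound m1.aestronglyMeasurable (1 / N * Real.exp |B|)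
      (Eventually.of_forall fun x => ?_)
    rw [Real.norm_of_nonneg (by positivity)]
    refine mul_le_mul_of_nonneg_left (Real.exp_le_exp.2 ?_) (by positivity)
    have := abs_le.1 ((hB x).trans (le_abs_self B))
    nlinarith [abs_nonneg B]
  have i2 : Integrable (fun x => (1 - 1 / N) * Real.exp (-φ x / N)) ν := by
    refine Integrable.of_bound m2.aestronglyMeasurable ((1 - 1 / N) * Real.exp (|B| / N))
      (Eventually.of_forall fun x => ?_)
    rw [Real.norm_of_nonneg (by positivity)]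
    refine mul_le_mul_of_nonneg_left (Real.exp_le_exp.2 ?_) hp.le
    have := abs_le.1 ((hB x).trans (le_abs_self B))
    exact div_le_div_of_nonneg_right (by linarith) hN0.le
  refine (lintegral_mono_ae h1).trans ?_
  rw [lintegral_add_left (m1.ennreal_ofReal.indicator hA), lintegral_indicator hA,
    ← integral_const_mul, ← integral_const_mul,
    ENNReal.ofReal_add (integral_nonneg fun x => by positivity)
      (integral_nonneg fun x => by positivity),
    ofReal_integral_eq_lintegral_ofReal i1 (Eventually.of_forall fun x => by positivity),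
    ofReal_integral_eq_lintegral_ofReal i2 (Eventually.of_forall fun x => by positivity)]
  refine add_le_add le_rfl (le_trans (le_of_eq ?_)
    (lintegral_mono' (Measure.withDensity_rnDeriv_le ν m) le_rfl))
  rw [lintegral_withDensity_eq_lintegral_mul m hρ m2.ennreal_ofReal]
  rfl

end Crest.Agent.R242.G
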