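import Crest.Agent.R242.GCD

/-! Row 242, part I-a: consequences of the curvature-dimension condition at time `1/2`. -/

set_option autoImplicit false
set_option linter.unusedSectionVars false
open MeasureTheory Filter Set Topology
open scoped ENNReal NNReal BoundedContinuousFunction
open Crest.GeometryTopology.SyntheticRicci

noncomputable section
namespace Crest.Agent.R242.G

variable {X : Type*} [MetricSpace X] [SecondCountableTopology X] [MeasurableSpace X] [BorelSpace X]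
  {m μ ν μ₀ μ₁ : Measure X} {P P' : Measure (UCurve X)} {o : X} {R C D : ℝ}

theorem gcd2_ofReal_integral_le {α : Type*} [MeasurableSpace α] {Q : Measure α} {f : α → ℝ} (hf : Integrable f Q) :
    ENNReal.ofReal (∫ x, f x ∂Q) ≤ ∫⁻ x, ENNReal.ofReal (f x) ∂Q := by
  have h1 : ∫ x, f x ∂Q ≤ ∫ x, max (f x) 0 ∂Q := integral_mono hf hf.pos_part fun x => le_max_left _ _
  refine (ENNReal.ofReal_le_ofReal h1).trans ?_
  rw [ofReal_integral_eq_lintegral_ofReal hf.pos_part (Eventually.of_forall fun x => le_max_right _ _)]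
  refine lintegral_mono fun x => ?_
  rcases le_total (f x) 0 with h | h
  · simp [max_eq_right h]
  · simp [max_eq_left h]

theorem gcd2_term {K N θ : ℝ} (hN : 1 < N) (hθ : 0 ≤ θ) {ρ : ℝ≥0∞} (h0 : 0 < ρ) (h1 : ρ < ⊤) :
    ENNReal.ofReal (1 / 2 * (1 - (max (-K) 0 * θ ^ 2 / 8 + Real.log ρ.toReal) / N)) ≤
      distortTau K N (1 / 2) θ * ρ ^ (-1 / N) := by
  have hr : 0 < ρ.toReal := ENNReal.toReal_pos h0.ne' h1.ne
  have hN0 : 0 < N := by linarith
  have e1 : ρ ^ (-1 / N) = ENNReal.ofReal (Real.exp (-Real.log ρ.toReal / N)) := by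
    conv_lhs => rw [← ENNReal.ofReal_toReal h1.ne]
    rw [ENNReal.ofReal_rpow_of_pos hr, Real.rpow_def_of_pos hr]
    congr 2
    ring
  rw [e1]
  refine le_trans ?_ (mul_le_mul_left (tau_half_ge (K := K) hN hθ) _)
  rw [← ENNReal.ofReal_mul (by positivity)]
  refine ENNReal.ofReal_le_ofReal ?_
  rw [mul_assoc, ← Real.exp_add]
  have h2 := Real.add_one_le_exp (-(max (-K) 0 * θ ^ 2 / (8 * N)) + -Real.log ρ.toReal / N)
  have e2 : -(max (-K) 0 * θ ^ 2 / (8 * N)) + -Real.log ρ.toReal / N =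
      -((max (-K) 0 * θ ^ 2 / 8 + Real.log ρ.toReal) / N) := by
    field_simp
    ring
  rw [e2] at h2 ⊢
  linarith

theorem gcd2_rn_ae (hfin : IsFiniteOnBalls m) (h : BB m o R C μ) :
    ∀ᵐ x ∂μ, 0 < μ.rnDeriv m x ∧ μ.rnDeriv m x < ⊤ := by
  have := sigmaFinite_of_balls hfin
  have := h.prob
  filter_upwards [Measure.rnDeriv_pos h.ac, h.ac.ae_le (Measure.rnDeriv_lt_top μ m)] with x h1 h2 using ⟨h1, h2⟩

theorem gcd2_ent (hfin : IsFiniteOnBalls m) (h : BB m o R C μ) {t : unitInterval} (ht : timeMarginal P t = μ) :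
    Integrable (fun γ : UCurve X => llr μ m (γ.toMap t)) P ∧ ∫ γ, llr μ m (γ.toMap t) ∂P = Ent m μ := by
  have hi := h.integrable_llr hfin
  have hm : Measurable (llr μ m) := measurable_llr _ _
  have e : Measure.map (fun γ : UCurve X => γ.toMap t) P = μ := ht
  constructor
  · have h2 : Integrable (llr μ m) (Measure.map (fun γ : UCurve X => γ.toMap t) P) := by rw [e]; exact hi
    exact (integrable_map_measure hm.aestronglyMeasurable (measurable_ev t).aemeasurable).1 h2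
  · have h2 := integral_map (μ := P) (φ := fun γ : UCurve X => γ.toMap t) (f := llr μ m)
      (measurable_ev t).aemeasurable hm.aestronglyMeasurable
    rw [e] at h2
    exact h2.symm

/-- lower bound of the left side of `IsCD` at `t = 1/2`: `ρ₀(γ 0) ∈ (0,∞)` a.e., `tau_half_ge`, `exp x ≥ 1 + x`:
each term is at least `(1/2)(1 - (κ len²/8 + log ρ)/N)` -/
theorem cd_lhs_ge (hfin : IsFiniteOnBalls m) {C' : ℝ} (h0 : BB m o R C μ₀) (h1 : BB m o R C' μ₁) (hP : OptGeo μ₀ μ₁ P)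
    {K N : ℝ} (hN : 1 < N) :
    ENNReal.ofReal (1 - ((Ent m μ₀ + Ent m μ₁) / 2 + max (-K) 0 * cost P / 8) / N) ≤
      ∫⁻ γ, (distortTau K N (1 - ((half : unitInterval) : ℝ)) (dist (γ.toMap 0) (γ.toMap 1)) *
              μ₀.rnDeriv m (γ.toMap 0) ^ (-1 / N) +
            distortTau K N ((half : unitInterval) : ℝ) (dist (γ.toMap 0) (γ.toMap 1)) *
              μ₁.rnDeriv m (γ.toMap 1) ^ (-1 / N)) ∂P := by
  have := hP.prob
  have hN0 : 0 < N := by linarith
  obtain ⟨i0, e0⟩ := gcd2_ent hfin h0 hP.zero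
  obtain ⟨i1, e1⟩ := gcd2_ent hfin h1 hP.one
  have il : Integrable (fun γ => len γ ^ 2) P := integrable_len_sq (len_of_supp h0.supp h1.supp P hP)
  have a0 : ∀ᵐ γ ∂P, 0 < μ₀.rnDeriv m (γ.toMap 0) ∧ μ₀.rnDeriv m (γ.toMap 0) < ⊤ :=
    ae_timeMarginal (t := 0) (p := fun x => 0 < μ₀.rnDeriv m x ∧ μ₀.rnDeriv m x < ⊤)
      (by rw [hP.zero]; exact gcd2_rn_ae hfin h0)
  have a1 : ∀ᵐ γ ∂P, 0 < μ₁.rnDeriv m (γ.toMap 1) ∧ μ₁.rnDeriv m (γ.toMap 1) < ⊤ :=
    ae_timeMarginal (t := 1) (p := fun x => 0 < μ₁.rnDeriv m x ∧ μ₁.rnDeriv m x < ⊤)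
      (by rw [hP.one]; exact gcd2_rn_ae hfin h1)
  have ig : Integrable (fun γ : UCurve X => (llr μ₀ m (γ.toMap 0) + llr μ₁ m (γ.toMap 1)) / 2 +
      max (-K) 0 * len γ ^ 2 / 8) P := ((i0.add i1).div_const 2).add ((il.const_mul _).div_const 8)
  have eg : ∫ γ, (1 - ((llr μ₀ m (γ.toMap 0) + llr μ₁ m (γ.toMap 1)) / 2 + max (-K) 0 * len γ ^ 2 / 8) / N) ∂P =
      1 - ((Ent m μ₀ + Ent m μ₁) / 2 + max (-K) 0 * cost P / 8) / N := by
    have j1 : Integrable (fun γ : UCurve X => (llr μ₀ m (γ.toMap 0) + llr μ₁ m (γ.toMap 1)) / 2) P :=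
      (i0.add i1).div_const 2
    rw [integral_sub (integrable_const _) (ig.div_const N), integral_div,
      integral_add j1 ((il.const_mul _).div_const 8), integral_div, integral_div,
      integral_add i0 i1, integral_const_mul, e0, e1]
    simp [cost]
  rw [← eg]
  refine (gcd2_ofReal_integral_le ((integrable_const _).sub (ig.div_const N))).trans (lintegral_mono_ae ?_)
  filter_upwards [a0, a1] with γ b0 b1
  have eh : ((half : unitInterval) : ℝ) = 1 / 2 := rfl
  have eh' : (1 : ℝ) - 1 / 2 = 1 / 2 := by norm_num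
  rw [eh, eh']
  refine le_trans ?_ (add_le_add (gcd2_term (K := K) hN dist_nonneg b0.1 b0.2) (gcd2_term (K := K) hN dist_nonneg b1.1 b1.2))
  refine le_trans (le_of_eq ?_) ENNReal.ofReal_add_le
  congr 1
  simp only [Pi.sub_apply, llr, len]
  ring
theorem gcd2_lim {Φ E B H N : ℝ} (hN : 1 < N)
    (h : ∀ s : ℝ, 0 < s → s ≤ 1 / N → s * B ≤ 1 →
      (1 - s) * Φ - Real.exp (B * s) * E + 1 - (1 - s) * s * B ^ 2 ≤ H) : Φ - E + 1 ≤ H := by
  have hc : Continuous fun s : ℝ => (1 - s) * Φ - Real.exp (B * s) * E + 1 - (1 - s) * s * B ^ 2 := by fun_prop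
  have ht : Tendsto (fun s : ℝ => (1 - s) * Φ - Real.exp (B * s) * E + 1 - (1 - s) * s * B ^ 2) (𝓝[>] 0)
      (𝓝 (Φ - E + 1)) := by
    have := (hc.tendsto 0).mono_left (nhdsWithin_le_nhds (s := Ioi 0))
    simpa using this
  refine le_of_tendsto ht ?_
  have h1 : ∀ᶠ s in 𝓝 (0 : ℝ), s < 1 / N := Iio_mem_nhds (by positivity)
  have h2 : ∀ᶠ s in 𝓝 (0 : ℝ), s * B < 1 := by
    have : Tendsto (fun s : ℝ => s * B) (𝓝 0) (𝓝 (0 * B)) := (continuous_id.mul continuous_const).tendsto 0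
    exact this.eventually (Iio_mem_nhds (by simp))
  filter_upwards [self_mem_nhdsWithin, nhdsWithin_le_nhds h1, nhdsWithin_le_nhds h2] with s a b c
  exact h s a (le_of_lt b) (le_of_lt c)

theorem gcd2_int {α : Type*} [MeasurableSpace α] {Q : Measure α} [IsFiniteMeasure Q] {f : α → ℝ} (hf : Measurable f)
    {B : ℝ} (hB : ∀ x, |f x| ≤ B) : Integrable f Q :=
  Integrable.of_bound hf.aestronglyMeasurable B (Eventually.of_forall hB)

/-- **Entropy convexity at the midpoint, dual form.**  For all `N' ≥ N`: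
`N' - H ≤ ∫_A exp ((1-1/N') φ) dm + (N'-1) ∫ exp (-φ/N') dν`; use `exp (-y) ≤ 1 - y + y²` for `|y| ≤ 1`
(`Real.abs_exp_sub_one_sub_id_le`), `exp ((1-1/N') φ) ≤ exp φ · exp (B/N')`, and let `N' → ∞`. -/
theorem cd_mid (hfin : IsFiniteOnBalls m) {K N : ℝ} (hN : 1 < N) (hCD : IsCD m K N) {C' : ℝ}
    (h0 : BB m o R C μ₀) (h1 : BB m o R C' μ₁) :
    ∃ P, OptGeo μ₀ μ₁ P ∧ ∀ A : Set X, MeasurableSet A → m A ≠ ⊤ → timeMarginal P half Aᶜ = 0 →
      ∀ φ : X → ℝ, Measurable φ → ∀ B : ℝ, (∀ x, |φ x| ≤ B) →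
        Dn m A (timeMarginal P half) φ ≤ (Ent m μ₀ + Ent m μ₁) / 2 + max (-K) 0 * cost P / 8 := by
  have := sigmaFinite_of_balls hfin
  obtain ⟨P, a, b, c, d⟩ := hCD μ₀ μ₁ h0.prob h1.prob h0.moment h1.moment h0.ac h1.ac
  have hP : OptGeo μ₀ μ₁ P := ⟨a, b, c⟩
  refine ⟨P, hP, fun A hA hAm hν φ hφ B hB => ?_⟩
  have : IsProbabilityMeasure (timeMarginal P half) := timeMarginal_prob half
  have : IsFiniteMeasure (m.restrict A) := isFiniteMeasure_restrict.2 hAm
  generalize hH : (Ent m μ₀ + Ent m μ₁) / 2 + max (-K) 0 * cost P / 8 = H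
  have hB0 : 0 ≤ B := (abs_nonneg _).trans (hB o)
  unfold Dn
  refine gcd2_lim (B := B) hN fun s hs hsN hsB => ?_
  have hN0 : 0 < N := by linarith
  have hN1 : N ≤ 1 / s := by
    rw [le_div_iff₀ hs]
    rw [le_div_iff₀ hN0] at hsN
    linarith
  have hN' : 1 < 1 / s := lt_of_lt_of_le hN hN1
  have hs1 : s < 1 := by
    rw [lt_div_iff₀ hs] at hN'
    linarith
  have k1 := (cd_lhs_ge hfin h0 h1 hP (K := K) hN').trans
    ((d (1 / s) hN1 half).trans (renyi_le hA hAm hν hN' hφ hB))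
  rw [hH] at k1
  have es : 1 / (1 / s) = s := one_div_one_div s
  rw [es] at k1
  have n1 : 0 ≤ ∫ x in A, Real.exp ((1 - s) * φ x) ∂m := integral_nonneg fun x => (Real.exp_pos _).le
  have n2 : 0 ≤ ∫ x, Real.exp (-φ x / (1 / s)) ∂(timeMarginal P half) := integral_nonneg fun x => (Real.exp_pos _).le
  rw [ENNReal.ofReal_le_ofReal_iff (add_nonneg (mul_nonneg hs.le n1) (mul_nonneg (by linarith) n2))] at k1
  have iφ : Integrable φ (timeMarginal P half) := gcd2_int hφ hB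
  have iE : Integrable (fun x => Real.exp (φ x)) (m.restrict A) :=
    gcd2_int (B := Real.exp B) hφ.exp fun x => by
      rw [abs_of_pos (Real.exp_pos _)]
      exact Real.exp_le_exp.2 ((le_abs_self _).trans (hB x))
  have k2 : ∫ x in A, Real.exp ((1 - s) * φ x) ∂m ≤ Real.exp (B * s) * ∫ x in A, Real.exp (φ x) ∂m := by
    rw [← integral_const_mul]
    refine integral_mono_of_nonneg (Eventually.of_forall fun x => (Real.exp_pos _).le) (iE.const_mul _)
      (Eventually.of_forall fun x => ?_)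
    show Real.exp ((1 - s) * φ x) ≤ Real.exp (B * s) * Real.exp (φ x)
    rw [← Real.exp_add]
    refine Real.exp_le_exp.2 ?_
    have := (abs_le.1 (hB x)).1
    nlinarith
  have k3 : ∫ x, Real.exp (-φ x / (1 / s)) ∂(timeMarginal P half) ≤
      1 - s * ∫ x, φ x ∂(timeMarginal P half) + s ^ 2 * B ^ 2 := by
    have e : ∫ x, (1 - s * φ x + s ^ 2 * B ^ 2) ∂(timeMarginal P half) =
        1 - s * ∫ x, φ x ∂(timeMarginal P half) + s ^ 2 * B ^ 2 := by
      have j1 : Integrable (fun x => 1 - s * φ x) (timeMarginal P half) := (integrable_const _).sub (iφ.const_mul _)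
      rw [integral_add j1 (integrable_const _),
        integral_sub (integrable_const _) (iφ.const_mul _), integral_const_mul]
      simp
    rw [← e]
    refine integral_mono_of_nonneg (Eventually.of_forall fun x => (Real.exp_pos _).le)
      (((integrable_const _).sub (iφ.const_mul _)).add (integrable_const _)) (Eventually.of_forall fun x => ?_)
    show Real.exp (-φ x / (1 / s)) ≤ 1 - s * φ x + s ^ 2 * B ^ 2
    have e2 : -φ x / (1 / s) = -(s * φ x) := by field_simp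
    rw [e2]
    have h3 : |-(s * φ x)| ≤ s * B := by
      rw [abs_neg, abs_mul, abs_of_pos hs]
      exact mul_le_mul_of_nonneg_left (hB x) hs.le
    have h4 := (abs_le.1 (Real.abs_exp_sub_one_sub_id_le (h3.trans hsB))).2
    have h5 : (-(s * φ x)) ^ 2 ≤ (s * B) ^ 2 := by
      rw [← sq_abs]
      exact pow_le_pow_left₀ (abs_nonneg _) h3 2
    nlinarith
  have k4 : H / (1 / s) = s * H := by field_simp
  rw [k4] at k1
  generalize ∫ x in A, Real.exp ((1 - s) * φ x) ∂m = I1 at *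
  generalize ∫ x, Real.exp (-φ x / (1 / s)) ∂(timeMarginal P half) = I2 at *
  generalize ∫ x, φ x ∂(timeMarginal P half) = Φ at *
  generalize Real.exp (B * s) * ∫ x in A, Real.exp (φ x) ∂m = E at *
  have k5 : 1 - s * H ≤ s * E + (1 - s) * (1 - s * Φ + s ^ 2 * B ^ 2) :=
    k1.trans (add_le_add (mul_le_mul_of_nonneg_left k2 hs.le) (mul_le_mul_of_nonneg_left k3 (by linarith)))
  have k6 : s * ((1 - s) * Φ - E + 1 - (1 - s) * s * B ^ 2) ≤ s * H := by nlinarith
  exact le_of_mul_le_mul_left k6 hs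

end Crest.Agent.R242.G
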