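import Crest.Agent.R242.GPlan2

/-! Row 242, part I-a: weak compactness of the set of optimal geodesic plans, closed conditions. -/

set_option autoImplicit false
set_option linter.unusedSectionVars false
open MeasureTheory Filter Set Topology
open scoped ENNReal NNReal BoundedContinuousFunction
open Crest.GeometryTopology.SyntheticRicci

noncomputable section
namespace Crest.Agent.R242.G

variable {X : Type*} [MetricSpace X] [SecondCountableTopology X] [MeasurableSpace X] [BorelSpace X]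
  {m μ ν μ₀ μ₁ : Measure X} {P P' : Measure (UCurve X)} {o : X} {R C D : ℝ}

/-- `ProbabilityMeasure.continuous_integral_boundedContinuousFunction` with `φ.compContinuous ⟨_, continuous_ev t⟩`,
`integral_map` -/
theorem continuous_integral_marg (t : unitInterval) (φ : X →ᵇ ℝ) :
    Continuous fun Q : ProbabilityMeasure (UCurve X) => ∫ x, φ x ∂timeMarginal (Q : Measure (UCurve X)) t := by
  refine (ProbabilityMeasure.continuous_integral_boundedContinuousFunction
    (φ.compContinuous ⟨_, continuous_ev t⟩)).congr fun Q => ?_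
  rw [timeMarginal, integral_map (measurable_ev t).aemeasurable φ.continuous.aestronglyMeasurable]
  rfl
theorem continuous_Dn (m : Measure X) (A : Set X) (t : unitInterval) (φ : X →ᵇ ℝ) :
    Continuous fun Q : ProbabilityMeasure (UCurve X) => Dn m A (timeMarginal (Q : Measure (UCurve X)) t) φ :=
  ((continuous_integral_marg t φ).sub continuous_const).add continuous_const
/-- finite measures with the same integrals of bounded continuous functions are equal
(`ext_of_forall_integral_eq_of_IsFiniteMeasure`) -/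
theorem isClosed_marg_eq (t : unitInterval) (μ : Measure X) [IsProbabilityMeasure μ] :
    IsClosed {Q : ProbabilityMeasure (UCurve X) | timeMarginal (Q : Measure (UCurve X)) t = μ} := by
  have e : {Q : ProbabilityMeasure (UCurve X) | timeMarginal (Q : Measure (UCurve X)) t = μ} =
      ⋂ φ : X →ᵇ ℝ, {Q : ProbabilityMeasure (UCurve X) |
        ∫ x, φ x ∂timeMarginal (Q : Measure (UCurve X)) t = ∫ x, φ x ∂μ} := by
    ext Q
    simp only [mem_ofPred_eq, mem_iInter]
    have := timeMarginal_prob (P := (Q : Measure (UCurve X))) t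
    exact ⟨fun h φ => by rw [h], ext_of_forall_integral_eq_of_IsFiniteMeasure⟩
  rw [e]
  exact isClosed_iInter fun φ => isClosed_eq (continuous_integral_marg t φ) continuous_const
/-- it is enough to test `ν ≤ c • m` on open sets (outer regularity of `m`, `locallyFinite_of_balls`;
`Set.measure_eq_iInf_isOpen`, or `Set.exists_isOpen_lt_of_lt`; mind `c = 0`: then `ν univ ≤ 0 * m univ = 0`) -/
theorem le_smul_of_isOpen (hfin : IsFiniteOnBalls m) {c : ℝ≥0∞} (hc : c ≠ ⊤)
    (h : ∀ U, IsOpen U → ν U ≤ c * m U) : ν ≤ c • m := by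
  have := locallyFinite_of_balls hfin
  refine Measure.le_iff'.2 fun s => ?_
  rw [Measure.smul_apply, smul_eq_mul]
  rcases eq_or_ne c 0 with rfl | h0
  · exact (measure_mono (subset_univ s)).trans ((h univ isOpen_univ).trans (by simp))
  rw [Set.measure_eq_iInf_isOpen s m]
  simp only [ENNReal.mul_iInf_of_ne h0 hc]
  exact le_iInf fun U => le_iInf fun hs => le_iInf fun hU => (measure_mono hs).trans (h U hU)
theorem gcomp_open {G : Set (UCurve X)} (hG : IsOpen G) (c : ℝ≥0∞) :
    IsClosed {Q : ProbabilityMeasure (UCurve X) | (Q : Measure (UCurve X)) G ≤ c} :=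
  isClosed_iff_forall_filter.2 fun _ F _ hF hQ =>
    (ProbabilityMeasure.le_liminf_measure_open_of_tendsto (μs := id) hQ hG).trans
      ((liminf_le_liminf (le_principal_iff.1 hF)).trans_eq (liminf_const c))

theorem gcomp_apply (P : Measure (UCurve X)) (t : unitInterval) {U : Set X} (hU : IsOpen U) :
    timeMarginal P t U = P ((fun γ => γ.toMap t) ⁻¹' U) :=
  Measure.map_apply (measurable_ev t) hU.measurableSet

/-- portmanteau for the open set `{γ | γ t ∈ U}` (`ProbabilityMeasure.le_liminf_measure_open_of_tendsto`;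
`isClosed_iff_clusterPt`/`mem_closure_iff_nhdsWithin_neBot` or `IsSeqClosed` are fine) -/
theorem isClosed_marg_le (hfin : IsFiniteOnBalls m) (t : unitInterval) (C : ℝ) :
    IsClosed {Q : ProbabilityMeasure (UCurve X) |
      timeMarginal (Q : Measure (UCurve X)) t ≤ ENNReal.ofReal C • m} := by
  have e : {Q : ProbabilityMeasure (UCurve X) | timeMarginal (Q : Measure (UCurve X)) t ≤ ENNReal.ofReal C • m} =
      ⋂ U : {U : Set X // IsOpen U}, {Q : ProbabilityMeasure (UCurve X) |
        (Q : Measure (UCurve X)) ((fun γ => γ.toMap t) ⁻¹' U.1) ≤ ENNReal.ofReal C * m U} := by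
    ext Q
    simp only [mem_ofPred_eq, mem_iInter]
    exact ⟨fun h U => (gcomp_apply _ t U.2).ge.trans (h U), fun h => le_smul_of_isOpen hfin ENNReal.ofReal_ne_top
      fun U hU => (gcomp_apply _ t hU).le.trans (h ⟨U, hU⟩)⟩
  rw [e]
  exact isClosed_iInter fun U => gcomp_open (U.2.preimage (continuous_ev t)) _
theorem gcomp_dyadic (t : unitInterval) : ∃ s : ℕ → unitInterval,
    (∀ n, ∃ j : ℕ, (s n : ℝ) = j / 2 ^ n) ∧ Tendsto s atTop (𝓝 t) := by
  have h1 : ∀ n : ℕ, (⌊(t : ℝ) * 2 ^ n⌋₊ : ℝ) / 2 ^ n ≤ t := fun n =>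
    (div_le_iff₀ (by positivity)).2 (Nat.floor_le (mul_nonneg t.2.1 (by positivity)))
  refine ⟨fun n => ⟨(⌊(t : ℝ) * 2 ^ n⌋₊ : ℝ) / 2 ^ n, by positivity, (h1 n).trans t.2.2⟩, fun n => ⟨_, rfl⟩,
    tendsto_subtype_rng.2 ?_⟩
  exact (tendsto_nat_floor_mul_div_atTop t.2.1).comp (tendsto_pow_atTop_atTop_of_one_lt one_lt_two)

/-- dyadic times are dense; for `t_n → t` and `U` open `1_{γ t ∈ U} ≤ liminf 1_{γ t_n ∈ U}`, Fatou
(e.g. `{γ t ∈ U} ⊆ ⋃ n, ⋂ k ≥ n, {γ t_k ∈ U}` and `measure_iUnion_eq_iSup`/monotone union) -/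
theorem marg_le_of_dyadic (hfin : IsFiniteOnBalls m)
    (h : ∀ (n j : ℕ) (t : unitInterval), (t : ℝ) = j / 2 ^ n → timeMarginal P t ≤ ENNReal.ofReal C • m)
    (t : unitInterval) : timeMarginal P t ≤ ENNReal.ofReal C • m := by
  obtain ⟨s, hs, hst⟩ := gcomp_dyadic t
  refine le_smul_of_isOpen hfin ENNReal.ofReal_ne_top fun U hU => ?_
  have hm : Monotone fun n : ℕ => {γ : UCurve X | ∀ k, n ≤ k → γ.toMap (s k) ∈ U} :=
    fun a b hab γ hγ k hk => hγ k (hab.trans hk)
  rw [gcomp_apply _ t hU]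
  refine (measure_mono fun γ hγ => mem_iUnion.2 (eventually_atTop.1
    (((γ.toMap.continuous.tendsto t).comp hst).eventually (hU.mem_nhds hγ)))).trans
      (hm.measure_iUnion.trans_le (iSup_le fun n => ?_))
  obtain ⟨j, hj⟩ := hs n
  exact le_trans (measure_mono fun γ hγ => hγ n le_rfl) ((gcomp_apply _ _ hU).ge.trans (h n j _ hj U))
/-- closed subset of `{Q | Q Kᶜ = 0}`, `K` from `isCompact_geoBall`
(`isCompact_setOfPred_probabilityMeasure_mass_eq_compl_isCompact_le` with `u = 0`, constant `K`).  If the set is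
nonempty fix an element `P₀`: membership is equivalent to `Q Kᶜ = 0`, the two marginal equations and
`∫ min (len γ ^ 2) ((2R)^2) dQ ≤ cost P₀` (bounded continuous integrand; `OptGeo.of_cost_le`, `quadCost_eq_cost`). -/
theorem isCompact_optGeo [ProperSpace X] [IsProbabilityMeasure μ₀] [IsProbabilityMeasure μ₁]
    (h0 : ∀ᵐ x ∂μ₀, x ∈ Metric.closedBall o R) (h1 : ∀ᵐ x ∂μ₁, x ∈ Metric.closedBall o R) :
    IsCompact {Q : ProbabilityMeasure (UCurve X) | OptGeo μ₀ μ₁ (Q : Measure (UCurve X))} := by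
  rcases eq_empty_or_nonempty {Q : ProbabilityMeasure (UCurve X) | OptGeo μ₀ μ₁ (Q : Measure (UCurve X))} with
    h | ⟨P₀, hP₀⟩
  · rw [h]; exact isCompact_empty
  obtain ⟨K, hK⟩ : ∃ K, K = {γ : UCurve X | IsCSGeodesic γ ∧ γ.toMap 0 ∈ Metric.closedBall o R ∧
      γ.toMap 1 ∈ Metric.closedBall o R} := ⟨_, rfl⟩
  have hKc : IsCompact K := hK ▸ isCompact_geoBall o R
  let ψ : UCurve X →ᵇ ℝ := BoundedContinuousFunction.ofNormedAddCommGroup (fun γ => min (len γ ^ 2) ((2 * R) ^ 2))
    ((continuous_len.pow 2).min continuous_const) ((2 * R) ^ 2) fun γ => by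
      rw [Real.norm_of_nonneg (le_min (sq_nonneg _) (sq_nonneg _))]
      exact min_le_right _ _
  have a1 : ∀ Q : Measure (UCurve X), OptGeo μ₀ μ₁ Q → ∀ᵐ γ ∂Q, γ ∈ K := fun Q h => by
    filter_upwards [h.geo, ae_timeMarginal (h.zero.symm ▸ h0), ae_timeMarginal (h.one.symm ▸ h1)] with γ a b c
    exact hK ▸ ⟨a, b, c⟩
  have a2 : ∀ γ ∈ K, len γ ≤ 2 * R := fun γ hγ => by
    rw [hK] at hγ
    refine (dist_triangle_right _ _ o).trans ?_
    linarith [Metric.mem_closedBall.1 hγ.2.1, Metric.mem_closedBall.1 hγ.2.2]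
  have a3 : ∀ Q : Measure (UCurve X), (∀ᵐ γ ∂Q, γ ∈ K) → ∫ γ, ψ γ ∂Q = cost Q := fun Q h =>
    integral_congr_ae (h.mono fun γ hγ => min_eq_left (pow_le_pow_left₀ (len_nonneg γ) (a2 γ hγ) 2))
  have a4 : ∀ Q : ProbabilityMeasure (UCurve X), (∀ᵐ γ ∂(Q : Measure (UCurve X)), γ ∈ K) →
      quadCost (endpointLaw (Q : Measure (UCurve X))) = ENNReal.ofReal (cost (Q : Measure (UCurve X))) := fun Q h =>
    quadCost_eq_cost (integrable_len_sq (h.mono a2))
  have a5 : ∀ Q : ProbabilityMeasure (UCurve X), Q Kᶜ ≤ 0 ↔ ∀ᵐ γ ∂(Q : Measure (UCurve X)), γ ∈ K := fun Q => by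
    rw [nonpos_iff_eq_zero, ProbabilityMeasure.null_iff_toMeasure_null]
    rfl
  have hc := (isCompact_setOfPred_probabilityMeasure_mass_eq_compl_isCompact_le (u := fun _ => 0) (K := fun _ => K)
    tendsto_const_nhds (fun _ => hKc) (Or.inr monotone_const)).inter_right
      (((isClosed_marg_eq 0 μ₀).inter (isClosed_marg_eq 1 μ₁)).inter (isClosed_le
        (ProbabilityMeasure.continuous_integral_boundedContinuousFunction ψ)
        (continuous_const (y := cost (P₀ : Measure (UCurve X))))))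
  convert hc using 1
  ext Q
  simp only [mem_ofPred_eq, mem_inter_iff, a5, forall_const]
  refine ⟨fun h => ⟨a1 _ h, ⟨h.zero, h.one⟩, (a3 _ (a1 _ h)).trans_le (h.cost_eq hP₀).le⟩,
    fun ⟨b1, ⟨b2, b3⟩, b4⟩ => OptGeo.of_cost_le hP₀ (b1.mono fun γ hγ => (hK ▸ hγ).1) b2 b3 ?_⟩
  rw [a4 _ b1, a4 _ (a1 _ hP₀), ← a3 _ b1]
  exact ENNReal.ofReal_le_ofReal b4

end Crest.Agent.R242.G
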