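import Crest.Agent.R242.GDefs

/-! Row 242, part I-a: the space of curves, geodesics. -/

set_option autoImplicit false
open MeasureTheory Filter Set Topology
open scoped ENNReal NNReal BoundedContinuousFunction
open Crest.GeometryTopology.SyntheticRicci

noncomputable section
namespace Crest.Agent.R242.G

variable {X : Type*} [MetricSpace X]

/-- curves are continuous maps -/
def curveHomeo (X : Type*) [MetricSpace X] : UCurve X ≃ₜ C(unitInterval, X) where
  toFun := UCurve.toMap
  invFun := UCurve.mk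
  left_inv _ := rfl
  right_inv _ := rfl
  continuous_toFun := continuous_induced_dom
  continuous_invFun := continuous_induced_rng.2 continuous_id

instance instPolishCurve [CompleteSpace X] [SecondCountableTopology X] : PolishSpace (UCurve X) :=
  (curveHomeo X).isClosedEmbedding.polishSpace

instance instSecondCountableCurve [SecondCountableTopology X] : SecondCountableTopology (UCurve X) :=
  (curveHomeo X).isEmbedding.secondCountableTopology

instance instT2Curve : T2Space (UCurve X) := (curveHomeo X).isEmbedding.t2Space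

instance instMetrizableCurve : TopologicalSpace.MetrizableSpace (UCurve X) :=
  (curveHomeo X).isEmbedding.metrizableSpace

theorem continuous_ev (t : unitInterval) : Continuous fun γ : UCurve X => γ.toMap t :=
  (continuous_eval_const t).comp (curveHomeo X).continuous
/-- joint continuity (`ContinuousMap.continuous_eval`/`continuous_eval`) -/
theorem continuous_ext2 : Continuous fun p : UCurve X × ℝ => p.1.ext p.2 := by
  have h1 : Continuous fun p : UCurve X × ℝ => p.1.toMap :=
    (curveHomeo X).continuous.comp continuous_fst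
  have h2 : Continuous fun p : UCurve X × ℝ => Set.projIcc (0 : ℝ) 1 zero_le_one p.2 :=
    continuous_projIcc.comp continuous_snd
  exact h1.eval h2
theorem ext_coe (γ : UCurve X) (t : unitInterval) : γ.ext t = γ.toMap t := by
  rw [UCurve.ext, Set.projIcc_val]
theorem continuous_len : Continuous (len : UCurve X → ℝ) :=
  (continuous_ev 0).dist (continuous_ev 1)
theorem len_nonneg (γ : UCurve X) : 0 ≤ len γ := dist_nonneg
/-- `ContinuousMap.continuous_precomp` -/
theorem continuous_sub (a b : ℝ) : Continuous (sub a b : UCurve X → UCurve X) := by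
  refine continuous_induced_rng.2 (ContinuousMap.continuous_of_continuous_uncurry _ ?_)
  have h1 : Continuous fun p : UCurve X × unitInterval =>
      ((p.1, a + (p.2 : ℝ) * (b - a)) : UCurve X × ℝ) := by fun_prop
  exact continuous_ext2.comp h1
theorem continuous_fstH : Continuous (fstH : UCurve X → UCurve X) := continuous_sub _ _
theorem continuous_sndH : Continuous (sndH : UCurve X → UCurve X) := continuous_sub _ _
theorem fstH_apply (γ : UCurve X) (s t : unitInterval) (h : (t : ℝ) = s / 2) : (fstH γ).toMap s = γ.toMap t := by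
  rw [← ext_coe γ t, h]
  show γ.ext (0 + (s : ℝ) * (1 / 2 - 0)) = _
  congr 1
  ring
theorem sndH_apply (γ : UCurve X) (s t : unitInterval) (h : (t : ℝ) = (1 + s) / 2) :
    (sndH γ).toMap s = γ.toMap t := by
  rw [← ext_coe γ t, h]
  show γ.ext (1 / 2 + (s : ℝ) * (1 - 1 / 2)) = _
  congr 1
  ring
theorem isClosed_geo : IsClosed {γ : UCurve X | IsCSGeodesic γ} := by
  have : {γ : UCurve X | IsCSGeodesic γ} = ⋂ s : unitInterval, ⋂ t : unitInterval,
      {γ : UCurve X | dist (γ.toMap s) (γ.toMap t) = |(s : ℝ) - (t : ℝ)| * len γ} := by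
    ext γ
    simp only [mem_ofPred_eq, mem_iInter]
    rfl
  rw [this]
  refine isClosed_iInter fun s => isClosed_iInter fun t => isClosed_eq ?_ ?_
  · exact (continuous_ev s).dist (continuous_ev t)
  · exact continuous_const.mul continuous_len
theorem geo_dist_ext {γ : UCurve X} (h : IsCSGeodesic γ) {s t : ℝ} (hs : s ∈ Icc (0 : ℝ) 1) (ht : t ∈ Icc (0 : ℝ) 1) :
    dist (γ.ext s) (γ.ext t) = |s - t| * len γ := by
  have h1 := h ⟨s, hs⟩ ⟨t, ht⟩
  rw [← ext_coe, ← ext_coe γ ⟨t, ht⟩] at h1
  exact h1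
theorem geo_dist_ext_le {γ : UCurve X} (h : IsCSGeodesic γ) (s t : ℝ) :
    dist (γ.ext s) (γ.ext t) ≤ |s - t| * len γ := by
  have h1 := h (Set.projIcc (0 : ℝ) 1 zero_le_one s) (Set.projIcc (0 : ℝ) 1 zero_le_one t)
  refine h1.le.trans (mul_le_mul_of_nonneg_right ?_ (len_nonneg γ))
  exact Set.abs_projIcc_sub_projIcc zero_le_one
theorem geo_sub {γ : UCurve X} (h : IsCSGeodesic γ) {a b : ℝ} (ha : a ∈ Icc (0 : ℝ) 1) (hb : b ∈ Icc (0 : ℝ) 1) :
    IsCSGeodesic (sub a b γ) ∧ len (sub a b γ) = |b - a| * len γ := by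
  have hm : ∀ t : unitInterval, a + (t : ℝ) * (b - a) ∈ Icc (0 : ℝ) 1 := by
    intro t
    have h0 := t.2.1
    have h1 := t.2.2
    constructor
    · nlinarith [ha.1, hb.1, mul_nonneg h0 hb.1, mul_nonneg (sub_nonneg.2 h1) ha.1]
    · nlinarith [ha.2, hb.2, mul_nonneg h0 (sub_nonneg.2 hb.2),
        mul_nonneg (sub_nonneg.2 h1) (sub_nonneg.2 ha.2)]
  have hd : ∀ s t : unitInterval, dist ((sub a b γ).toMap s) ((sub a b γ).toMap t) =
      |(s : ℝ) - (t : ℝ)| * (|b - a| * len γ) := by
    intro s t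
    have := geo_dist_ext h (hm s) (hm t)
    rw [show a + (s : ℝ) * (b - a) - (a + (t : ℝ) * (b - a)) = ((s : ℝ) - t) * (b - a) by ring,
      abs_mul, mul_assoc] at this
    exact this
  have hl : len (sub a b γ) = |b - a| * len γ := by
    have := hd 0 1
    simpa [len] using this
  refine ⟨fun s t => ?_, hl⟩
  rw [hd s t, ← hl]
  rfl
theorem geo_fstH {γ : UCurve X} (h : IsCSGeodesic γ) : IsCSGeodesic (fstH γ) ∧ len (fstH γ) = len γ / 2 := by
  have := geo_sub h (a := 0) (b := 1 / 2) ⟨le_rfl, zero_le_one⟩ ⟨by norm_num, by norm_num⟩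
  refine ⟨this.1, this.2.trans ?_⟩
  rw [abs_of_nonneg (by norm_num)]
  ring
theorem geo_sndH {γ : UCurve X} (h : IsCSGeodesic γ) : IsCSGeodesic (sndH γ) ∧ len (sndH γ) = len γ / 2 := by
  have := geo_sub h (a := 1 / 2) (b := 1) ⟨by norm_num, by norm_num⟩ ⟨zero_le_one, le_rfl⟩
  refine ⟨this.1, this.2.trans ?_⟩
  rw [abs_of_nonneg (by norm_num)]
  ring
/-- for `s ≤ 1/2 ≤ t`: `≤` through the midpoint, `≥` from `d(γ0,γ1) ≤ d(γ0,γs) + d(γs,γt) + d(γt,γ1)` -/
theorem geo_of_halves {γ : UCurve X} (h1 : IsCSGeodesic (fstH γ)) (h2 : IsCSGeodesic (sndH γ))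
    (l1 : len (fstH γ) = len γ / 2) (l2 : len (sndH γ) = len γ / 2) : IsCSGeodesic γ := by
  have a1 : ∀ s t : unitInterval, (s : ℝ) ≤ 1 / 2 → (t : ℝ) ≤ 1 / 2 →
      dist (γ.toMap s) (γ.toMap t) = |(s : ℝ) - t| * len γ := by
    intro s t hs ht
    have := h1 ⟨2 * s, by linarith [s.2.1], by linarith⟩ ⟨2 * t, by linarith [t.2.1], by linarith⟩
    rw [fstH_apply γ _ s (by simp), fstH_apply γ _ t (by simp)] at this
    rw [this]
    show |2 * (s : ℝ) - 2 * t| * len (fstH γ) = _
    rw [l1, ← mul_sub, abs_mul, abs_two]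
    ring
  have a2 : ∀ s t : unitInterval, 1 / 2 ≤ (s : ℝ) → 1 / 2 ≤ (t : ℝ) →
      dist (γ.toMap s) (γ.toMap t) = |(s : ℝ) - t| * len γ := by
    intro s t hs ht
    have := h2 ⟨2 * s - 1, by linarith, by linarith [s.2.2]⟩
      ⟨2 * t - 1, by linarith, by linarith [t.2.2]⟩
    rw [sndH_apply γ _ s (by simp), sndH_apply γ _ t (by simp)] at this
    rw [this]
    show |2 * (s : ℝ) - 1 - (2 * t - 1)| * len (sndH γ) = _
    rw [l2, show 2 * (s : ℝ) - 1 - (2 * t - 1) = 2 * (s - t) by ring, abs_mul, abs_two]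
    ring
  have a3 : ∀ s t : unitInterval, (s : ℝ) ≤ 1 / 2 → 1 / 2 ≤ (t : ℝ) →
      dist (γ.toMap s) (γ.toMap t) = |(s : ℝ) - t| * len γ := by
    intro s t hs ht
    have hh : ((half : unitInterval) : ℝ) = 1 / 2 := rfl
    have b1 := a1 s half hs hh.le
    have b2 := a2 half t hh.ge ht
    have b3 := a1 0 s (by simp) hs
    have b4 := a2 t 1 ht (by norm_num)
    have c1 := dist_triangle (γ.toMap s) (γ.toMap half) (γ.toMap t)
    have c2 : len γ ≤ _ := dist_triangle4 (γ.toMap 0) (γ.toMap s) (γ.toMap t) (γ.toMap 1)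
    rw [hh, abs_of_nonpos (by linarith)] at b1 b2
    rw [abs_of_nonpos (by simpa using s.2.1)] at b3
    rw [abs_of_nonpos (by simpa using t.2.2)] at b4
    rw [abs_of_nonpos (by linarith)]
    simp only [Set.Icc.coe_zero, Set.Icc.coe_one] at b3 b4
    linarith
  intro s t
  show _ = _ * len γ
  rcases le_total (s : ℝ) (1 / 2) with hs | hs <;> rcases le_total (t : ℝ) (1 / 2) with ht | ht
  · exact a1 s t hs ht
  · exact a3 s t hs ht
  · rw [dist_comm, abs_sub_comm]
    exact a3 t s ht hs
  · exact a2 s t hs ht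
theorem len_le_halves (γ : UCurve X) : len γ ≤ len (fstH γ) + len (sndH γ) := by
  have hh : ((half : unitInterval) : ℝ) = 1 / 2 := rfl
  unfold len
  rw [fstH_apply γ 0 0 (by simp), fstH_apply γ 1 half (by simp [hh]),
    sndH_apply γ 0 half (by simp [hh]), sndH_apply γ 1 1 (by simp)]
  exact dist_triangle _ _ _

end Crest.Agent.R242.G
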