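import Crest.Agent.R242.GCurve

/-! Row 242, part I-a: the space of curves, geodesics. -/

set_option autoImplicit false
open MeasureTheory Filter Set Topology
open scoped ENNReal NNReal BoundedContinuousFunction
open Crest.GeometryTopology.SyntheticRicci

noncomputable section
namespace Crest.Agent.R242.G

variable {X : Type*} [MetricSpace X]

/-- `a = ofReal (len γ)` constant -/
theorem geo_hasL2Speed {γ : UCurve X} (h : IsCSGeodesic γ) : HasL2Speed γ := by
  refine ⟨fun _ => ENNReal.ofReal (len γ), measurable_const, ?_, fun s t hst => ?_⟩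
  · rw [setLIntegral_const, Real.volume_Icc]
    exact ENNReal.mul_lt_top (ENNReal.pow_lt_top ENNReal.ofReal_lt_top) ENNReal.ofReal_lt_top
  · rw [setLIntegral_const, Real.volume_Icc, edist_dist, h s t, ← ENNReal.ofReal_mul (len_nonneg γ),
      abs_of_nonpos (by linarith), mul_comm, neg_sub]
    rfl
theorem geo_upperSpeed_le {γ : UCurve X} (h : IsCSGeodesic γ) (t : ℝ) : upperSpeed γ t ≤ ENNReal.ofReal (len γ) := by
  refine limsup_le_of_le (by isBoundedDefault) ?_
  filter_upwards [self_mem_nhdsWithin] with s hs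
  refine ENNReal.ofReal_le_ofReal ?_
  rw [div_le_iff₀' (abs_pos.2 (sub_ne_zero.2 hs))]
  exact geo_dist_ext_le h s t
theorem geo_upperSpeed {γ : UCurve X} (h : IsCSGeodesic γ) {t : ℝ} (ht : t ∈ Ioo (0 : ℝ) 1) :
    upperSpeed γ t = ENNReal.ofReal (len γ) := by
  refine Tendsto.limsup_eq (tendsto_const_nhds.congr' ?_)
  filter_upwards [self_mem_nhdsWithin, mem_nhdsWithin_of_mem_nhds (Ioo_mem_nhds ht.1 ht.2)] with s hs hs'
  rw [geo_dist_ext h (Ioo_subset_Icc_self hs') (Ioo_subset_Icc_self ht),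
    mul_div_cancel_left₀ _ (abs_pos.2 (sub_ne_zero.2 hs)).ne']
theorem geo_mem_ball {γ : UCurve X} (h : IsCSGeodesic γ) {o : X} {R D : ℝ} (h0 : γ.toMap 0 ∈ Metric.closedBall o R)
    (hD : len γ ≤ D) (t : unitInterval) : γ.toMap t ∈ Metric.closedBall o (R + t * D) := by
  rw [Metric.mem_closedBall] at h0 ⊢
  have h1 : dist (γ.toMap t) (γ.toMap 0) ≤ t * D := by
    rw [h t 0]
    simp only [Icc.coe_zero, sub_zero, abs_of_nonneg t.2.1]
    exact mul_le_mul_of_nonneg_left hD t.2.1
  linarith [dist_triangle (γ.toMap t) (γ.toMap 0) o]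
/-- Arzelà–Ascoli: these curves are `2R`-Lipschitz with values in `closedBall o (3R)`
(`BoundedContinuousFunction.arzela_ascoli₂` through `ContinuousMap.isometryEquivBoundedOfCompact`, or
`ArzelaAscoli.isCompact_of_equicontinuous`). -/
theorem isCompact_geoBall [ProperSpace X] (o : X) (R : ℝ) :
    IsCompact {γ : UCurve X | IsCSGeodesic γ ∧ γ.toMap 0 ∈ Metric.closedBall o R ∧
      γ.toMap 1 ∈ Metric.closedBall o R} := by
  set S := {γ : UCurve X | IsCSGeodesic γ ∧ γ.toMap 0 ∈ Metric.closedBall o R ∧ γ.toMap 1 ∈ Metric.closedBall o R}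
    with hS
  have hc : IsClosed S := isClosed_geo.inter ((Metric.isClosed_closedBall.preimage (continuous_ev 0)).inter
    (Metric.isClosed_closedBall.preimage (continuous_ev 1)))
  have hl : ∀ γ ∈ S, len γ ≤ 2 * |R| := fun γ hγ => by
    have a1 := Metric.mem_closedBall.1 hγ.2.1
    have a2 := Metric.mem_closedBall.1 hγ.2.2
    have a3 := dist_triangle_right (γ.toMap 0) (γ.toMap 1) o
    unfold len
    linarith [le_abs_self R]
  let e : UCurve X ≃ₜ (unitInterval →ᵇ X) :=
    (curveHomeo X).trans (ContinuousMap.isometryEquivBoundedOfCompact unitInterval X).toHomeomorph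
  rw [← e.isCompact_image]
  refine BoundedContinuousFunction.arzela_ascoli₂ (Metric.closedBall o (R + 2 * |R|)) (isCompact_closedBall _ _) _
    (e.isClosed_image.2 hc) ?_ ?_
  · rintro _ t ⟨γ, hγ, rfl⟩
    refine Metric.closedBall_subset_closedBall ?_ (geo_mem_ball hγ.1 hγ.2.1 (hl γ hγ) t)
    nlinarith [t.2.2, abs_nonneg R]
  · refine Metric.equicontinuous_of_continuity_modulus (fun r => r * (2 * |R|)) ?_ _ ?_
    · exact Continuous.tendsto' (by fun_prop) _ _ (by simp)
    · rintro s t ⟨_, γ, hγ, rfl⟩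
      change dist (γ.toMap s) (γ.toMap t) ≤ _
      rw [hγ.1 s t, Subtype.dist_eq, Real.dist_eq]
      exact mul_le_mul_of_nonneg_left (hl γ hγ) (abs_nonneg _)

end Crest.Agent.R242.G
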