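import Crest.Prelude.Def_SyntheticRicci

/-! Row 242, part I-a (helper15): definitions for optimal geodesic plans and the entropy. -/

set_option autoImplicit false
open MeasureTheory Filter Set Topology
open scoped ENNReal NNReal BoundedContinuousFunction
open Crest.GeometryTopology.SyntheticRicci

noncomputable section
namespace Crest.Agent.R242.G

section
variable {X : Type*} [MetricSpace X]

/-- distance between the end points of a curve -/
def len (γ : UCurve X) : ℝ := dist (γ.toMap 0) (γ.toMap 1)

/-- the piece of `γ` between the times `a` and `b`, reparametrised on the unit interval -/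
def sub (a b : ℝ) (γ : UCurve X) : UCurve X :=
  ⟨⟨fun t => γ.ext (a + (t : ℝ) * (b - a)),
    γ.toMap.continuous.comp (continuous_projIcc.comp (by fun_prop))⟩⟩

/-- first half -/
def fstH (γ : UCurve X) : UCurve X := sub 0 (1 / 2) γ
/-- second half -/
def sndH (γ : UCurve X) : UCurve X := sub (1 / 2) 1 γ

/-- the time `2⁻ᵏ` -/
def dy (k : ℕ) : unitInterval := ⟨(1 / 2) ^ k, by positivity, pow_le_one₀ (by norm_num) (by norm_num)⟩
/-- the time `1/2` -/
def half : unitInterval := ⟨1 / 2, by norm_num, by norm_num⟩

variable [MeasurableSpace X]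

/-- probability measure with density at most `C`, concentrated on `closedBall o R` -/
structure BB (m : Measure X) (o : X) (R C : ℝ) (μ : Measure X) : Prop where
  prob : IsProbabilityMeasure μ
  le : μ ≤ ENNReal.ofReal C • m
  supp : ∀ᵐ x ∂μ, x ∈ Metric.closedBall o R

/-- optimal geodesic plan between `μ₀` and `μ₁` -/
structure OptGeo (μ₀ μ₁ : Measure X) (P : Measure (UCurve X)) : Prop where
  prob : IsProbabilityMeasure P
  geo : ∀ᵐ γ ∂P, IsCSGeodesic γ
  opt : IsOptCouplingOf (endpointLaw P) μ₀ μ₁

/-- every optimal geodesic plan between `μ₀` and `μ₁` lives on curves of length at most `D` -/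
def Len (μ₀ μ₁ : Measure X) (D : ℝ) : Prop := ∀ P, OptGeo μ₀ μ₁ P → ∀ᵐ γ ∂P, len γ ≤ D

/-- real quadratic cost of a plan (`W₂²` for an optimal plan) -/
def cost (P : Measure (UCurve X)) : ℝ := ∫ γ, len γ ^ 2 ∂P

/-- relative entropy `∫ ρ log ρ dm` -/
def Ent (m μ : Measure X) : ℝ := ∫ x, llr μ m x ∂μ

/-- the dual expression of the entropy -/
def Dn (m : Measure X) (A : Set X) (ν : Measure X) (φ : X → ℝ) : ℝ :=
  ∫ x, φ x ∂ν - ∫ x in A, Real.exp (φ x) ∂m + 1

/-- the entropy truncated at the level `exp L`, in dual form -/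
def EM (m : Measure X) (A : Set X) (L : ℝ) (ν : Measure X) : ℝ :=
  ⨆ φ : {φ : X →ᵇ ℝ // ∀ x, φ x ≤ L}, Dn m A ν φ.1

end

/-- the convex function whose integral is the truncated entropy: `sup_{y ≤ log M} (y z - exp y)` -/
def UM (M z : ℝ) : ℝ := if z ≤ M then z * Real.log z - z else Real.log M * z - M

end Crest.Agent.R242.G
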