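import Crest.Agent.R242.GPlan2

/-! Row 242, part I-a: entropy and its dual form. -/

set_option autoImplicit false
set_option linter.unusedSectionVars false
open MeasureTheory Filter Set Topology
open scoped ENNReal NNReal BoundedContinuousFunction
open Crest.GeometryTopology.SyntheticRicci

noncomputable section
namespace Crest.Agent.R242.G

variable {X : Type*} [MetricSpace X] [SecondCountableTopology X] [MeasurableSpace X] [BorelSpace X]
  {m μ ν μ₀ μ₁ : Measure X} {P P' : Measure (UCurve X)} {o : X} {R C D : ℝ}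

/-- density of a `BB` measure -/
theorem BB.rn_le (hfin : IsFiniteOnBalls m) (h : BB m o R C μ) : ∀ᵐ x ∂m, (μ.rnDeriv m x).toReal ≤ C := by
  have := sigmaFinite_of_balls hfin
  have h1 : μ.rnDeriv m ≤ᵐ[m] fun _ => ENNReal.ofReal C := by
    refine ae_le_of_forall_setLIntegral_le_of_sigmaFinite (μ.measurable_rnDeriv m) fun s _ _ => ?_
    rw [setLIntegral_const]
    exact (Measure.setLIntegral_rnDeriv_le s).trans (h.le s)
  filter_upwards [h1] with x hx
  exact ENNReal.toReal_le_of_le_ofReal h.pos.le hx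

theorem gent_abs {z : ℝ} (hz : 0 ≤ z) : |z * Real.log z| ≤ z ^ 2 + 1 := by
  rcases hz.eq_or_lt with rfl | hz
  · simp
  have h1 := Real.log_le_sub_one_of_pos hz
  have h2 := Real.one_sub_inv_le_log_of_pos hz
  have h3 : z * (1 - z⁻¹) ≤ z * Real.log z := mul_le_mul_of_nonneg_left h2 hz.le
  have h4 : z * Real.log z ≤ z * (z - 1) := mul_le_mul_of_nonneg_left h1 hz.le
  rw [mul_sub, mul_inv_cancel₀ hz.ne'] at h3
  rw [abs_le]
  constructor <;> nlinarith

/-- `integrable_rnDeriv_mul_log_iff`/`integrable_rnDeriv_smul_iff`; `ρ log ρ` is bounded and vanishes off the ball -/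
theorem BB.integrable_llr (hfin : IsFiniteOnBalls m) (h : BB m o R C μ) : Integrable (llr μ m) μ := by
  have := sigmaFinite_of_balls hfin
  have := h.prob
  rw [← integrable_rnDeriv_mul_log_iff h.ac]
  have hB : MeasurableSet (Metric.closedBall o R) := Metric.isClosed_closedBall.measurableSet
  have h0 : ∀ᵐ x ∂m, x ∈ (Metric.closedBall o R)ᶜ → μ.rnDeriv m x = 0 := by
    rw [← ae_restrict_iff' hB.compl]
    refine (lintegral_eq_zero_iff (μ.measurable_rnDeriv m)).1 (le_antisymm ?_ bot_le)
    refine (Measure.setLIntegral_rnDeriv_le _).trans (le_of_eq ?_)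
    exact ae_iff.1 h.supp
  have hi : Integrable ((Metric.closedBall o R).indicator fun _ => C ^ 2 + 1) m :=
    (integrable_indicator_iff hB).2 (integrableOn_const (closedBall_lt_top hfin o R).ne)
  have hm : Measurable fun x => (μ.rnDeriv m x).toReal := (μ.measurable_rnDeriv m).ennreal_toReal
  refine hi.mono' (hm.mul hm.log).aestronglyMeasurable ?_
  filter_upwards [h0, h.rn_le hfin] with x hx0 hx
  by_cases hxB : x ∈ Metric.closedBall o R
  · rw [indicator_of_mem hxB, Real.norm_eq_abs]
    refine (gent_abs ENNReal.toReal_nonneg).trans ?_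
    have := pow_le_pow_left₀ ENNReal.toReal_nonneg hx 2
    linarith
  · rw [indicator_of_notMem hxB, hx0 hxB]
    simp

theorem BB.ent_eq (hfin : IsFiniteOnBalls m) (h : BB m o R C μ) :
    Ent m μ = ∫ x, (μ.rnDeriv m x).toReal * Real.log (μ.rnDeriv m x).toReal ∂m := by
  have := sigmaFinite_of_balls hfin
  have := h.prob
  rw [integral_rnDeriv_mul_log h.ac]
  rfl

theorem BB.gent_pos (hfin : IsFiniteOnBalls m) (h : BB m o R C μ) : ∀ᵐ x ∂μ, 0 < (μ.rnDeriv m x).toReal := by
  have := sigmaFinite_of_balls hfin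
  have := h.prob
  filter_upwards [Measure.rnDeriv_pos h.ac, h.ac.ae_le (Measure.rnDeriv_lt_top μ m)] with x h1 h2
  exact ENNReal.toReal_pos h1.ne' h2.ne

theorem BB.ent_le_log (hfin : IsFiniteOnBalls m) (h : BB m o R C μ) : Ent m μ ≤ Real.log C := by
  have := sigmaFinite_of_balls hfin
  have := h.prob
  have h1 : ∀ᵐ x ∂μ, llr μ m x ≤ Real.log C := by
    filter_upwards [h.ac.ae_le (h.rn_le hfin), h.gent_pos hfin] with x hx hx0
    exact Real.log_le_log hx0 hx
  calc Ent m μ ≤ ∫ _, Real.log C ∂μ := integral_mono_ae (h.integrable_llr hfin) (integrable_const _) h1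
    _ = Real.log C := by simp

theorem gent_young {z : ℝ} (hz : 0 ≤ z) (y : ℝ) : y * z - Real.exp y ≤ z * Real.log z - z := by
  rcases hz.eq_or_lt with rfl | hz
  · simpa using (Real.exp_pos y).le
  have h1 : y - Real.log z + 1 ≤ Real.exp (y - Real.log z) := Real.add_one_le_exp _
  rw [Real.exp_sub, Real.exp_log hz, le_div_iff₀ hz] at h1
  nlinarith

/-- `y z - exp y ≤ UM M z` -/
theorem UM_young {M z y : ℝ} (hM : 0 < M) (hz : 0 ≤ z) (hy : y ≤ Real.log M) : y * z - Real.exp y ≤ UM M z := by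
  rw [UM]
  split_ifs with h
  · exact gent_young hz y
  · have h1 : y - Real.log M + 1 ≤ Real.exp (y - Real.log M) := Real.add_one_le_exp _
    rw [Real.exp_sub, Real.exp_log hM, le_div_iff₀ hM] at h1
    have h2 : 0 ≤ (Real.log M - y) * (z - M) := mul_nonneg (by linarith) (by linarith)
    nlinarith

theorem UM_le {M z : ℝ} (hM : 0 < M) (hz : 0 ≤ z) : UM M z ≤ z * Real.log z - z := by
  rw [UM]
  split_ifs with h
  · exact le_rfl
  · have := gent_young hz (Real.log M)
    rwa [Real.exp_log hM] at this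

theorem abs_UM_le {M z : ℝ} (hM : 0 < M) (hz : 0 ≤ z) : |UM M z| ≤ (|Real.log M| + 1) * z + M + 1 := by
  have h1 := le_abs_self (Real.log M)
  have h2 := neg_abs_le (Real.log M)
  have h3 : 0 ≤ |Real.log M| * z := mul_nonneg (abs_nonneg _) hz
  rw [UM]
  split_ifs with h
  · rcases hz.eq_or_lt with rfl | hz'
    · simp only [zero_mul, sub_zero, abs_zero, mul_zero, zero_add]
      positivity
    have h4 : z * Real.log z ≤ z * |Real.log M| :=
      mul_le_mul_of_nonneg_left ((Real.log_le_log hz' h).trans h1) hz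
    have h5 := gent_young hz 0
    rw [Real.exp_zero] at h5
    rw [abs_le]
    constructor <;> nlinarith
  · have h4 : Real.log M * z ≤ |Real.log M| * z := mul_le_mul_of_nonneg_right h1 hz
    have h5 : -|Real.log M| * z ≤ Real.log M * z := mul_le_mul_of_nonneg_right h2 hz
    rw [abs_le]
    constructor <;> nlinarith

theorem measurable_UM (M : ℝ) : Measurable (UM M) := by
  unfold UM
  refine Measurable.ite measurableSet_Iic ?_ ?_
  · exact (measurable_id.mul Real.measurable_log).sub measurable_id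
  · fun_prop

theorem BB.gent_main (hfin : IsFiniteOnBalls m) (h : BB m o R C ν) {w : X → ℝ}
    (h0 : ∀ᵐ x ∂m, 0 ≤ w x) (hpos : ∀ᵐ x ∂ν, 0 < w x) (hi : Integrable w m)
    (hl : Integrable (fun x => Real.log (w x)) ν) :
    ∫ x, Real.log (w x) ∂ν - ∫ x, w x ∂m + 1 ≤ Ent m ν := by
  have := sigmaFinite_of_balls hfin
  have := h.prob
  have hm : Measurable fun x => (ν.rnDeriv m x).toReal := (ν.measurable_rnDeriv m).ennreal_toReal
  have hle : ∀ᵐ x ∂m, 0 ≤ (ν.rnDeriv m x).toReal * (w x / (ν.rnDeriv m x).toReal) ∧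
      (ν.rnDeriv m x).toReal * (w x / (ν.rnDeriv m x).toReal) ≤ w x := by
    filter_upwards [h0] with x hx
    by_cases hz : (ν.rnDeriv m x).toReal = 0
    · rw [hz, zero_mul]
      exact ⟨le_rfl, hx⟩
    · rw [mul_div_cancel₀ _ hz]
      exact ⟨hx, le_rfl⟩
  have hi1 : Integrable (fun x => (ν.rnDeriv m x).toReal * (w x / (ν.rnDeriv m x).toReal)) m := by
    refine hi.mono' (hm.aemeasurable.mul (hi.aemeasurable.div hm.aemeasurable)).aestronglyMeasurable ?_
    filter_upwards [hle] with x hx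
    rw [Real.norm_eq_abs, abs_of_nonneg hx.1]
    exact hx.2
  have hi2 : Integrable (fun x => w x / (ν.rnDeriv m x).toReal) ν :=
    (integrable_toReal_rnDeriv_mul_iff h.ac).1 hi1
  have h3 : ∫ x, w x / (ν.rnDeriv m x).toReal ∂ν ≤ ∫ x, w x ∂m := by
    rw [← integral_toReal_rnDeriv_mul h.ac]
    exact integral_mono_ae hi1 hi (hle.mono fun x hx => hx.2)
  have h4 : ∫ x, (Real.log (w x) - llr ν m x) ∂ν ≤ ∫ x, (w x / (ν.rnDeriv m x).toReal - 1) ∂ν := by
    refine integral_mono_ae (hl.sub (h.integrable_llr hfin)) (hi2.sub (integrable_const _)) ?_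
    filter_upwards [hpos, h.gent_pos hfin] with x hx hx'
    rw [llr, ← Real.log_div hx.ne' hx'.ne']
    exact Real.log_le_sub_one_of_pos (div_pos hx hx')
  rw [integral_sub hl (h.integrable_llr hfin), integral_sub hi2 (integrable_const _)] at h4
  simp only [integral_const, probReal_univ, smul_eq_mul, mul_one] at h4
  rw [Ent]
  linarith

/-- Young inequality `φ ρ - exp φ ≤ ρ log ρ - ρ` integrated on `A` -/
theorem BB.young (hfin : IsFiniteOnBalls m) (h : BB m o R C ν) {A : Set X} (hA : MeasurableSet A) (hAm : m A ≠ ⊤)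
    (hν : ν Aᶜ = 0) {φ : X → ℝ} (hφ : Measurable φ) {B : ℝ} (hB : ∀ x, |φ x| ≤ B) : Dn m A ν φ ≤ Ent m ν := by
  have := h.prob
  have hνA : ∀ᵐ x ∂ν, x ∈ A := by
    rw [ae_iff]
    exact hν
  have hi : IntegrableOn (fun x => Real.exp (φ x)) A m := by
    refine Measure.integrableOn_of_bounded (M := Real.exp B) hAm hφ.exp.aestronglyMeasurable
      (ae_of_all _ fun x => ?_)
    rw [Real.norm_eq_abs, abs_of_pos (Real.exp_pos _)]
    exact Real.exp_le_exp.2 ((le_abs_self _).trans (hB x))
  have he : (fun x => Real.log (A.indicator (fun x => Real.exp (φ x)) x)) =ᵐ[ν] φ := by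
    filter_upwards [hνA] with x hx
    rw [indicator_of_mem hx, Real.log_exp]
  have hφi : Integrable φ ν :=
    (integrable_const B).mono' hφ.aestronglyMeasurable (ae_of_all _ fun x => hB x)
  have := h.gent_main hfin (w := A.indicator fun x => Real.exp (φ x))
    (ae_of_all _ fun x => indicator_nonneg (fun x _ => (Real.exp_pos _).le) x)
    (by
      filter_upwards [hνA] with x hx
      rw [indicator_of_mem hx]
      exact Real.exp_pos _)
    ((integrable_indicator_iff hA).2 hi) (hφi.congr he.symm)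
  rwa [integral_congr_ae he, integral_indicator hA] at this

/-- Gibbs inequality: `log (w/ρ) ≤ w/ρ - 1` -/
theorem BB.gibbs (hfin : IsFiniteOnBalls m) (h : BB m o R C ν) {w : X → ℝ} (hw : AEMeasurable w m)
    (h0 : ∀ᵐ x ∂m, 0 ≤ w x) (hpos : ∀ᵐ x ∂ν, 0 < w x) (hi : Integrable w m) (h1 : ∫ x, w x ∂m ≤ 1)
    (hl : Integrable (fun x => Real.log (w x)) ν) : ∫ x, Real.log (w x) ∂ν ≤ Ent m ν := by
  have _ := hw
  have := h.gent_main hfin h0 hpos hi hl
  linarith


end Crest.Agent.R242.G
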