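import Crest.Agent.R242.GEnt

/-! Row 242, part I-a: entropy and its dual form. -/

set_option autoImplicit false
set_option linter.unusedSectionVars false
open MeasureTheory Filter Set Topology
open scoped ENNReal NNReal BoundedContinuousFunction
open Crest.GeometryTopology.SyntheticRicci

noncomputable section
namespace Crest.Agent.R242.G

variable {X : Type*} [MetricSpace X] [SecondCountableTopology X] [MeasurableSpace X] [BorelSpace X]
  {m μ ν μ₀ μ₁ : Measure X} {P P' : Measure (UCurve X)} {o : X} {R C D : ℝ}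

theorem bddAbove_Dn [IsProbabilityMeasure ν] (A : Set X) (L : ℝ) :
    BddAbove (range fun φ : {φ : X →ᵇ ℝ // ∀ x, φ x ≤ L} => Dn m A ν φ.1) := by
  refine ⟨L + 1, ?_⟩
  rintro _ ⟨φ, rfl⟩
  have h1 : ∫ x, φ.1 x ∂ν ≤ ∫ _, L ∂ν := integral_mono (φ.1.integrable ν) (integrable_const L) φ.2
  have h2 : 0 ≤ ∫ x in A, Real.exp (φ.1 x) ∂m := integral_nonneg fun x => (Real.exp_pos _).le
  simp only [integral_const, probReal_univ, one_smul] at h1
  simp only [Dn]
  linarith
theorem EM_le {A : Set X} {L H : ℝ} (h : ∀ φ : X →ᵇ ℝ, (∀ x, φ x ≤ L) → Dn m A ν φ ≤ H) : EM m A L ν ≤ H :=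
  haveI : Nonempty {φ : X →ᵇ ℝ // ∀ x, φ x ≤ L} := ⟨⟨BoundedContinuousFunction.const X L, fun _ => le_rfl⟩⟩
  ciSup_le fun φ => h φ.1 φ.2

theorem gent2_exp {a b L : ℝ} (ha : a ≤ L) : Real.exp a - Real.exp b ≤ Real.exp L * |a - b| := by
  have h1 : Real.exp a * (1 + (b - a)) ≤ Real.exp b := by
    have := mul_le_mul_of_nonneg_left (Real.add_one_le_exp (b - a)) (Real.exp_pos a).le
    rwa [← Real.exp_add, add_sub_cancel, add_comm] at this
  have h2 : Real.exp a * (a - b) ≤ Real.exp L * |a - b| :=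
    (mul_le_mul_of_nonneg_left (le_abs_self _) (Real.exp_pos a).le).trans
      (mul_le_mul_of_nonneg_right (Real.exp_le_exp.2 ha) (abs_nonneg _))
  linarith

/-- approximate `φ` in `L¹(ν + m.restrict A)` by a bounded continuous `g`
(`Integrable.exists_boundedContinuous_integral_sub_le`), take `g ⊓ const L`; `exp` is `exp L`-Lipschitz on `(-∞, L]` -/
theorem Dn_le_EM [IsProbabilityMeasure ν] {A : Set X} (hAm : m A ≠ ⊤) {L : ℝ} {φ : X → ℝ} (hφ : Measurable φ)
    {B : ℝ} (hB : ∀ x, |φ x| ≤ B) (hL : ∀ x, φ x ≤ L) : Dn m A ν φ ≤ EM m A L ν := by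
  have : IsFiniteMeasure (m.restrict A) := isFiniteMeasure_restrict.2 hAm
  have hi : ∀ (μ : Measure X) [IsFiniteMeasure μ], Integrable φ μ := fun μ _ =>
    Integrable.of_bound hφ.aestronglyMeasurable B (ae_of_all _ hB)
  have he : ∀ {ψ : X → ℝ}, Measurable ψ → (∀ x, ψ x ≤ L) → Integrable (fun x => Real.exp (ψ x)) (m.restrict A) :=
    fun hψ h => Integrable.of_bound hψ.exp.aestronglyMeasurable (Real.exp L) (ae_of_all _ fun x => by
      rw [Real.norm_eq_abs, abs_of_pos (Real.exp_pos _)]; exact Real.exp_le_exp.2 (h x))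
  refine le_of_forall_pos_le_add fun ε hε => ?_
  have hE := Real.exp_pos L
  obtain ⟨g, hg, -⟩ := (hi (ν + m.restrict A)).exists_boundedContinuous_integral_sub_le
    (ε := ε / (1 + Real.exp L)) (by positivity)
  set g' : X →ᵇ ℝ := g ⊓ BoundedContinuousFunction.const X L with hg'
  have h1 : ∀ x, g' x ≤ L := fun x => min_le_right _ _
  have h2 : ∀ x, |φ x - g' x| ≤ ‖φ x - g x‖ := fun x => by
    have := abs_min_sub_min_le_max (φ x) L (g x) L
    rwa [min_eq_left (hL x), sub_self, abs_zero, max_eq_left (abs_nonneg _)] at this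
  have hn : ∀ (μ : Measure X) [IsFiniteMeasure μ], Integrable (fun x => ‖φ x - g x‖) μ := fun μ _ =>
    ((hi μ).sub (g.integrable μ)).norm
  rw [integral_add_measure (hn _) (hn _), le_div_iff₀ (by positivity)] at hg
  have h3 : ∫ x, φ x ∂ν - ∫ x, g' x ∂ν ≤ ∫ x, ‖φ x - g x‖ ∂ν := by
    rw [← integral_sub (hi ν) (g'.integrable ν)]
    exact integral_mono ((hi ν).sub (g'.integrable ν)) (hn ν) fun x => (le_abs_self _).trans (h2 x)
  have h4 : ∫ x in A, Real.exp (g' x) ∂m - ∫ x in A, Real.exp (φ x) ∂m ≤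
      Real.exp L * ∫ x in A, ‖φ x - g x‖ ∂m := by
    rw [← integral_sub (he g'.continuous.measurable h1) (he hφ hL), ← integral_const_mul]
    refine integral_mono ((he g'.continuous.measurable h1).sub (he hφ hL)) ((hn _).const_mul _) fun x => ?_
    exact (gent2_exp (h1 x)).trans (mul_le_mul_of_nonneg_left ((abs_sub_comm _ _).trans_le (h2 x)) hE.le)
  have h5 : Dn m A ν g' ≤ EM m A L ν := le_ciSup (bddAbove_Dn A L) ⟨g', h1⟩
  have h6 : 0 ≤ ∫ x, ‖φ x - g x‖ ∂ν := integral_nonneg fun x => norm_nonneg _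
  have h7 : 0 ≤ ∫ x in A, ‖φ x - g x‖ ∂m := integral_nonneg fun x => norm_nonneg _
  simp only [Dn] at h5 ⊢
  nlinarith [mul_nonneg hE.le h6]

end Crest.Agent.R242.G
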