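import Crest.Agent.R242.GPlan2

/-! Row 242, part I-a: gluing of plans. -/

set_option autoImplicit false
set_option linter.unusedSectionVars false
open MeasureTheory Filter Set Topology
open scoped ENNReal NNReal BoundedContinuousFunction
open Crest.GeometryTopology.SyntheticRicci

noncomputable section
namespace Crest.Agent.R242.G

variable {X : Type*} [MetricSpace X] [SecondCountableTopology X] [MeasurableSpace X] [BorelSpace X]
  {m μ ν μ₀ μ₁ : Measure X} {P P' : Measure (UCurve X)} {o : X} {R C D : ℝ}

/-- general gluing lemma: `ν = π₂.map b`, `κ = condDistrib id b π₂` (or `(π₂.map fun v => (b v, v)).condKernel`),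
`π = π₁ ⊗ₘ (κ.comap a)`; `b v = z` for `κ z`-a.e. `v`, for `ν`-a.e. `z`. -/
theorem exists_glue_gen {A B Z : Type*} [MeasurableSpace A] [MeasurableSpace B] [StandardBorelSpace B]
    [MeasurableSpace Z] [MeasurableEq Z] (π₁ : Measure A) (π₂ : Measure B) [IsProbabilityMeasure π₁]
    [IsProbabilityMeasure π₂] {a : A → Z} {b : B → Z} (ha : Measurable a) (hb : Measurable b)
    (h : π₁.map a = π₂.map b) :
    ∃ π : Measure (A × B), IsProbabilityMeasure π ∧ π.map Prod.fst = π₁ ∧ π.map Prod.snd = π₂ ∧
      ∀ᵐ p ∂π, a p.1 = b p.2 := by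
  have : Nonempty B := π₂.nonempty_of_neZero
  let κ := ProbabilityTheory.condDistrib (id : B → B) b π₂
  have hm : Measurable (Prod.map a (id : B → B)) := ha.prodMap measurable_id
  have hm' : Measurable fun v => (b v, id v) := hb.prodMk measurable_id
  have key : (π₁.compProd (κ.comap a ha)).map (Prod.map a id) = π₂.map fun v => (b v, id v) := by
    rw [← ProbabilityTheory.compProd_map_condDistrib aemeasurable_id, ← h]
    ext s hs
    rw [Measure.map_apply hm hs, Measure.compProd_apply (hm hs), Measure.compProd_apply hs,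
      lintegral_map (ProbabilityTheory.Kernel.measurable_kernel_prodMk_left hs) ha]
    rfl
  refine ⟨π₁.compProd (κ.comap a ha), inferInstance, Measure.fst_compProd _ _, ?_, ?_⟩
  · have h1 := congrArg (Measure.map Prod.snd) key
    rw [Measure.map_map measurable_snd hm, Measure.map_map measurable_snd hm'] at h1
    exact h1.trans Measure.map_id
  · have hS : MeasurableSet {p : Z × B | p.1 = b p.2} := measurableSet_eq_fun measurable_fst (hb.comp measurable_snd)
    have h1 : ∀ᵐ p ∂(π₁.compProd (κ.comap a ha)).map (Prod.map a id), p.1 = b p.2 := by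
      rw [key, ae_map_iff hm'.aemeasurable hS]
      exact Eventually.of_forall fun _ => rfl
    exact ae_of_ae_map hm.aemeasurable h1
theorem gglue_cont (X : Type*) [MetricSpace X] :
    Continuous fun z : {p : UCurve X × UCurve X | p.1.toMap 1 = p.2.toMap 0} × unitInterval =>
      if (z.2 : ℝ) ≤ 1 / 2 then z.1.1.1.ext (2 * z.2) else z.1.1.2.ext (2 * z.2 - 1) := by
  refine Continuous.if_le (continuous_ext2.comp (f := fun z : {p : UCurve X × UCurve X |
      p.1.toMap 1 = p.2.toMap 0} × unitInterval => (z.1.1.1, 2 * (z.2 : ℝ))) (by fun_prop))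
    (continuous_ext2.comp (f := fun z : {p : UCurve X × UCurve X |
      p.1.toMap 1 = p.2.toMap 0} × unitInterval => (z.1.1.2, 2 * (z.2 : ℝ) - 1)) (by fun_prop))
    (by fun_prop) continuous_const fun z hz => ?_
  rw [hz, show (2 : ℝ) * (1 / 2) = 1 by norm_num, sub_self]
  exact (ext_coe _ 1).trans (z.1.2.trans (ext_coe _ 0).symm)
/-- concatenation: a measurable map on pairs of curves (on the closed set `γ 1 = η 0` it is the continuous map
`t ↦ if t ≤ 1/2 then γ.ext (2t) else η.ext (2t-1)`, `Continuous.if_le`; elsewhere it is `γ`).  Continuity on the subtype: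
`ContinuousMap.continuous_of_continuous_uncurry` + `continuous_ext2`; then `measurable_of_restrict_of_restrict_compl`
or `ContinuousOn.measurable_piecewise`. -/
theorem exists_concat (X : Type*) [MetricSpace X] [SecondCountableTopology X] :
    ∃ c : UCurve X × UCurve X → UCurve X, Measurable c ∧
      ∀ p : UCurve X × UCurve X, p.1.toMap 1 = p.2.toMap 0 → fstH (c p) = p.1 ∧ sndH (c p) = p.2 := by
  classical
  let S : Set (UCurve X × UCurve X) := {p | p.1.toMap 1 = p.2.toMap 0}
  have hS : MeasurableSet S :=
    (isClosed_eq ((continuous_ev 1).comp continuous_fst) ((continuous_ev 0).comp continuous_snd)).measurableSet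
  let c0 : S → UCurve X := fun p => ⟨(ContinuousMap.curry ⟨_, gglue_cont X⟩) p⟩
  have hc0 : Continuous c0 := (curveHomeo X).symm.continuous.comp (ContinuousMap.curry ⟨_, gglue_cont X⟩).continuous
  have hv : ∀ (p : S) (t : unitInterval), (c0 p).toMap t =
      if (t : ℝ) ≤ 1 / 2 then p.1.1.ext (2 * t) else p.1.2.ext (2 * t - 1) := fun _ _ => rfl
  refine ⟨fun p => if h : p ∈ S then c0 ⟨p, h⟩ else p.1,
    Measurable.dite hc0.measurable (measurable_fst.comp measurable_subtype_coe) hS, fun p hp => ?_⟩
  simp only [dif_pos (show p ∈ S from hp)]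
  constructor
  · refine (curveHomeo X).injective (ContinuousMap.ext fun s => ?_)
    have h0 := s.2.1
    have h1 := s.2.2
    refine (fstH_apply _ s ⟨s / 2, by linarith, by linarith⟩ rfl).trans ?_
    rw [hv, if_pos (by simp only; linarith), show 2 * ((s : ℝ) / 2) = s by ring]
    exact ext_coe _ s
  · refine (curveHomeo X).injective (ContinuousMap.ext fun s => ?_)
    have h0 := s.2.1
    have h1 := s.2.2
    refine (sndH_apply _ s ⟨(1 + s) / 2, by linarith, by linarith⟩ rfl).trans ?_
    rw [hv]
    split_ifs with h2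
    · have h3 : s = 0 := Subtype.ext (le_antisymm (by simp only at h2; simp only [Icc.coe_zero]; linarith) h0)
      subst h3
      rw [show 2 * ((1 + ((0 : unitInterval) : ℝ)) / 2) = ((1 : unitInterval) : ℝ) by simp]
      exact (ext_coe _ 1).trans hp
    · rw [show 2 * ((1 + (s : ℝ)) / 2) - 1 = s by ring]
      exact ext_coe _ s
theorem exists_glue [CompleteSpace X] {P₁ P₂ : Measure (UCurve X)} [IsProbabilityMeasure P₁] [IsProbabilityMeasure P₂]
    (h : timeMarginal P₁ 1 = timeMarginal P₂ 0) :
    ∃ P : Measure (UCurve X), IsProbabilityMeasure P ∧ P.map fstH = P₁ ∧ P.map sndH = P₂ := by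
  obtain ⟨π, hπ, h1, h2, h3⟩ := exists_glue_gen P₁ P₂ (measurable_ev 1) (measurable_ev 0) h
  obtain ⟨c, hc, h4⟩ := exists_concat X
  refine ⟨π.map c, Measure.isProbabilityMeasure_map hc.aemeasurable, ?_, ?_⟩
  · rw [Measure.map_map continuous_fstH.measurable hc, ← h1]
    exact Measure.map_congr (h3.mono fun p hp => (h4 p hp).1)
  · rw [Measure.map_map continuous_sndH.measurable hc, ← h2]
    exact Measure.map_congr (h3.mono fun p hp => (h4 p hp).2)

end Crest.Agent.R242.G
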