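import Crest.Agent.R242.GGlue

/-! Row 242, part I-a: gluing of plans. -/

set_option autoImplicit false
set_option linter.unusedSectionVars false
open MeasureTheory Filter Set Topology
open scoped ENNReal NNReal BoundedContinuousFunction
open Crest.GeometryTopology.SyntheticRicci

noncomputable section
namespace Crest.Agent.R242.G

variable {X : Type*} [MetricSpace X] [SecondCountableTopology X] [MeasurableSpace X] [BorelSpace X]
  {m μ ν μ₀ μ₁ : Measure X} {P P' : Measure (UCurve X)} {o : X} {R C D : ℝ}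

theorem gglue2_meas : Measurable fun γ : UCurve X => ENNReal.ofReal (len γ ^ 2) :=
  (continuous_len.pow 2).measurable.ennreal_ofReal

theorem gglue2_fin (hD : ∀ᵐ γ ∂P, len γ ≤ D) [IsFiniteMeasure P] : quadCost (endpointLaw P) ≠ ⊤ := by
  rw [quadCost_eq_cost (integrable_len_sq hD)]; exact ENNReal.ofReal_ne_top

/-- `c ≤ a + b`, so `c² ≤ 2a² + 2b²`; the integrals give `∫ (2a²+2b²) ≤ quadCost(P') ≤ ∫ c² ≤ ∫ (2a²+2b²) < ⊤`,
hence equality a.e. (`ae_eq_of_ae_le_of_lintegral_le`), `a = b = c/2`, `geo_of_halves`, `OptGeo.of_cost_le`. -/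
theorem optGeo_of_halves [IsProbabilityMeasure P] (hP' : OptGeo μ₀ μ₁ P') (hfin : quadCost (endpointLaw P') ≠ ⊤)
    (g1 : ∀ᵐ γ ∂P.map fstH, IsCSGeodesic γ) (g2 : ∀ᵐ γ ∂P.map sndH, IsCSGeodesic γ)
    (h0 : timeMarginal P 0 = μ₀) (h1 : timeMarginal P 1 = μ₁)
    (c1 : 4 * quadCost (endpointLaw (P.map fstH)) ≤ quadCost (endpointLaw P'))
    (c2 : 4 * quadCost (endpointLaw (P.map sndH)) ≤ quadCost (endpointLaw P')) : OptGeo μ₀ μ₁ P := by
  have mf : Measurable (fstH : UCurve X → UCurve X) := continuous_fstH.measurable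
  have ms : Measurable (sndH : UCurve X → UCurve X) := continuous_sndH.measurable
  let F : UCurve X → ℝ≥0∞ := fun γ => ENNReal.ofReal (len γ ^ 2)
  have hF : Measurable F := gglue2_meas
  have e1 : quadCost (endpointLaw (P.map fstH)) = ∫⁻ γ, F (fstH γ) ∂P := by
    rw [quadCost_endpointLaw, lintegral_map hF mf]
  have e2 : quadCost (endpointLaw (P.map sndH)) = ∫⁻ γ, F (sndH γ) ∂P := by
    rw [quadCost_endpointLaw, lintegral_map hF ms]
  let G : UCurve X → ℝ≥0∞ := fun γ => 2 * F (fstH γ) + 2 * F (sndH γ)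
  have hG : Measurable G := ((hF.comp mf).const_mul 2).add ((hF.comp ms).const_mul 2)
  have hGe : ∀ γ, G γ = ENNReal.ofReal (2 * len (fstH γ) ^ 2 + 2 * len (sndH γ) ^ 2) := fun γ => by
    simp only [G, F]
    rw [ENNReal.ofReal_add (by positivity) (by positivity), ENNReal.ofReal_mul zero_le_two,
      ENNReal.ofReal_mul zero_le_two, ENNReal.ofReal_ofNat]
  have hle : ∀ γ, F γ ≤ G γ := fun γ => by
    rw [hGe]
    refine ENNReal.ofReal_le_ofReal ?_
    have := pow_le_pow_left₀ (len_nonneg γ) (len_le_halves γ) 2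
    nlinarith [sq_nonneg (len (fstH γ) - len (sndH γ))]
  have hGi : ∫⁻ γ, G γ ∂P ≤ quadCost (endpointLaw P') := by
    have k1 : Measurable fun γ => F (fstH γ) := hF.comp mf
    have k2 : Measurable fun γ => F (sndH γ) := hF.comp ms
    simp only [G]
    rw [lintegral_add_left (k1.const_mul 2), lintegral_const_mul _ k1, lintegral_const_mul _ k2]
    refine (ENNReal.mul_le_mul_iff_right (a := 2) two_ne_zero ENNReal.ofNat_ne_top).1 ?_
    rw [e1] at c1
    rw [e2] at c2
    calc _ = 4 * ∫⁻ γ, F (fstH γ) ∂P + 4 * ∫⁻ γ, F (sndH γ) ∂P := by ring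
      _ ≤ _ := add_le_add c1 c2
      _ = _ := (two_mul _).symm
  have hc : IsCouplingOf (endpointLaw P) μ₀ μ₁ := h0 ▸ h1 ▸ isCouplingOf_endpointLaw P
  have hFi : quadCost (endpointLaw P') ≤ ∫⁻ γ, F γ ∂P := by
    rw [← quadCost_endpointLaw]; exact hP'.opt.2 _ hc
  have hFG : ∫⁻ γ, F γ ∂P ≤ ∫⁻ γ, G γ ∂P := lintegral_mono hle
  have hae : F =ᵐ[P] G := ae_eq_of_ae_le_of_lintegral_le (Eventually.of_forall hle)
    (ne_top_of_le_ne_top hfin (hFG.trans hGi)) hG.aemeasurable (hGi.trans hFi)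
  refine hP'.of_cost_le ?_ h0 h1 (by rw [quadCost_endpointLaw P]; exact hFG.trans hGi)
  filter_upwards [hae, ae_of_ae_map mf.aemeasurable g1, ae_of_ae_map ms.aemeasurable g2] with γ h a b
  rw [hGe] at h
  have h2 := (ENNReal.ofReal_eq_ofReal_iff (by positivity) (by positivity)).1 h
  have h3 := pow_le_pow_left₀ (len_nonneg γ) (len_le_halves γ) 2
  have h4 : len (fstH γ) = len (sndH γ) := by nlinarith [sq_nonneg (len (fstH γ) - len (sndH γ))]
  have h5 : len γ = 2 * len (sndH γ) := by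
    rw [h4] at h2
    refine (pow_left_inj₀ (len_nonneg γ) (by linarith [len_nonneg (sndH γ)]) two_ne_zero).1 (by linarith)
  exact geo_of_halves a b (by linarith) (by linarith)
theorem gglue2_marg (P : Measure (UCurve X)) :
    timeMarginal (P.map fstH) 0 = timeMarginal P 0 ∧ timeMarginal (P.map fstH) 1 = timeMarginal P half ∧
      timeMarginal (P.map sndH) 0 = timeMarginal P half ∧ timeMarginal (P.map sndH) 1 = timeMarginal P 1 :=
  ⟨timeMarginal_fstH P 0 0 (by simp), timeMarginal_fstH P 1 half (by simp [half]),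
    timeMarginal_sndH P 0 half (by simp [half]), timeMarginal_sndH P 1 1 (by norm_num)⟩

theorem gglue2_c1 (hP' : OptGeo μ₀ μ₁ P') {P₁ : Measure (UCurve X)} (h1 : OptGeo μ₀ (timeMarginal P' half) P₁) :
    4 * quadCost (endpointLaw P₁) ≤ quadCost (endpointLaw P') := by
  rw [← quadCost_fstH hP'.geo]
  refine mul_le_mul_right (h1.opt.2 _ ?_) _
  have := isCouplingOf_endpointLaw (P'.map fstH)
  rwa [(gglue2_marg P').1, (gglue2_marg P').2.1, hP'.zero] at this

theorem gglue2_c2 (hP' : OptGeo μ₀ μ₁ P') {P₂ : Measure (UCurve X)} (h2 : OptGeo (timeMarginal P' half) μ₁ P₂) :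
    4 * quadCost (endpointLaw P₂) ≤ quadCost (endpointLaw P') := by
  rw [← quadCost_sndH hP'.geo]
  refine mul_le_mul_right (h2.opt.2 _ ?_) _
  have := isCouplingOf_endpointLaw (P'.map sndH)
  rwa [(gglue2_marg P').2.2.1, (gglue2_marg P').2.2.2, hP'.one] at this

theorem gglue2_main [CompleteSpace X] (hP' : OptGeo μ₀ μ₁ P') (hfin : quadCost (endpointLaw P') ≠ ⊤)
    {P₁ P₂ : Measure (UCurve X)} [IsProbabilityMeasure P₁] [IsProbabilityMeasure P₂]
    (g1 : ∀ᵐ γ ∂P₁, IsCSGeodesic γ) (g2 : ∀ᵐ γ ∂P₂, IsCSGeodesic γ) (h0 : timeMarginal P₁ 0 = μ₀)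
    (hm : timeMarginal P₁ 1 = timeMarginal P₂ 0) (h1 : timeMarginal P₂ 1 = μ₁)
    (c1 : 4 * quadCost (endpointLaw P₁) ≤ quadCost (endpointLaw P'))
    (c2 : 4 * quadCost (endpointLaw P₂) ≤ quadCost (endpointLaw P')) :
    ∃ P, OptGeo μ₀ μ₁ P ∧ P.map fstH = P₁ ∧ P.map sndH = P₂ := by
  obtain ⟨P, hp, rfl, rfl⟩ := exists_glue hm
  exact ⟨P, optGeo_of_halves hP' hfin g1 g2 ((gglue2_marg P).1.symm.trans h0) ((gglue2_marg P).2.2.2.symm.trans h1)
    c1 c2, rfl, rfl⟩

/-- glue optimal plans `μ₀ → ν → μ₁`, `ν` the midpoint of an optimal plan `P'`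
(`quadCost_fstH`: the halves of `P'` are competitors) -/
theorem glue_optGeo [CompleteSpace X] (hP' : OptGeo μ₀ μ₁ P') (hfin : quadCost (endpointLaw P') ≠ ⊤)
    {P₁ P₂ : Measure (UCurve X)} (h1 : OptGeo μ₀ (timeMarginal P' half) P₁)
    (h2 : OptGeo (timeMarginal P' half) μ₁ P₂) :
    ∃ P, OptGeo μ₀ μ₁ P ∧ P.map fstH = P₁ ∧ P.map sndH = P₂ := by
  have := h1.prob
  have := h2.prob
  exact gglue2_main hP' hfin h1.geo h2.geo h1.zero (h1.one.trans h2.zero.symm) h2.one (gglue2_c1 hP' h1)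
    (gglue2_c2 hP' h2)
/-- glue an arbitrary optimal `P₁` with the second half of `P'` (`exists_glue`, `optGeo_of_halves`), use `Len` for
the glued plan and `geo_fstH`; symmetric for the second claim -/
theorem len_halves [CompleteSpace X] (hP' : OptGeo μ₀ μ₁ P') (hL : Len μ₀ μ₁ D) :
    Len μ₀ (timeMarginal P' half) (D / 2) ∧ Len (timeMarginal P' half) μ₁ (D / 2) := by
  have := hP'.prob
  have mf : Measurable (fstH : UCurve X → UCurve X) := continuous_fstH.measurable
  have ms : Measurable (sndH : UCurve X → UCurve X) := continuous_sndH.measurable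
  have hfin := gglue2_fin (hL P' hP')
  have hm : MeasurableSet {γ : UCurve X | len γ ≤ D / 2} := (isClosed_le continuous_len continuous_const).measurableSet
  have p1 : IsProbabilityMeasure (P'.map fstH) := Measure.isProbabilityMeasure_map mf.aemeasurable
  have p2 : IsProbabilityMeasure (P'.map sndH) := Measure.isProbabilityMeasure_map ms.aemeasurable
  obtain ⟨m1, m2, m3, m4⟩ := gglue2_marg P'
  refine ⟨fun P₁ h1 => ?_, fun P₂ h2 => ?_⟩
  · have := h1.prob
    obtain ⟨P, hP, e, -⟩ := gglue2_main hP' hfin h1.geo (ae_geo_sndH hP'.geo) h1.zero (h1.one.trans m3.symm)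
      (m4.trans hP'.one) (gglue2_c1 hP' h1) (quadCost_sndH hP'.geo).le
    rw [← e, ae_map_iff mf.aemeasurable hm]
    filter_upwards [hL P hP, hP.geo] with γ a b
    rw [(geo_fstH b).2]; linarith
  · have := h2.prob
    obtain ⟨P, hP, -, e⟩ := gglue2_main hP' hfin (ae_geo_fstH hP'.geo) h2.geo (m1.trans hP'.zero)
      (m2.trans h2.zero.symm) h2.one (quadCost_fstH hP'.geo).le (gglue2_c2 hP' h2)
    rw [← e, ae_map_iff ms.aemeasurable hm]
    filter_upwards [hL P hP, hP.geo] with γ a b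
    rw [(geo_sndH b).2]; linarith

end Crest.Agent.R242.G
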