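import Crest.Agent.R242.GMid
import Crest.Agent.R242.GGlue2

/-! Row 242, part I-a: good geodesics (bounded compression, entropy convexity at the times `2⁻ᵏ`). -/

set_option autoImplicit false
set_option linter.unusedSectionVars false
open MeasureTheory Filter Set Topology
open scoped ENNReal NNReal BoundedContinuousFunction
open Crest.GeometryTopology.SyntheticRicci

noncomputable section
namespace Crest.Agent.R242.G

variable {X : Type*} [MetricSpace X] [SecondCountableTopology X] [MeasurableSpace X] [BorelSpace X]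
  {m μ ν μ₀ μ₁ : Measure X} {P P' : Measure (UCurve X)} {o : X} {R C D : ℝ}

theorem ggood_dy0 : dy 0 = 1 := Subtype.ext (by simp [dy])

theorem good_level [ProperSpace X] (hfin : IsFiniteOnBalls m) {K N : ℝ} (hN : 1 < N) (hCD : IsCD m K N) (o : X) (n : ℕ) :
    ∀ (R C D : ℝ) (μ₀ μ₁ : Measure X), BB m o R C μ₀ → BB m o R C μ₁ → 0 < D → Len μ₀ μ₁ D →
      ∃ P, OptGeo μ₀ μ₁ P ∧
        (∀ (j : ℕ) (t : unitInterval), (t : ℝ) = j / 2 ^ n →
          timeMarginal P t ≤ ENNReal.ofReal (C * Real.exp ((max (-K) 0 + 1) * D ^ 2 / 6)) • m) ∧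
        ∀ k ≤ n, Ent m (timeMarginal P (dy k)) ≤
          (1 - (1 / 2) ^ k) * Ent m μ₀ + (1 / 2) ^ k * Ent m μ₁ +
            max (-K) 0 / 2 * ((1 / 2) ^ k * (1 - (1 / 2) ^ k)) * cost P := by
  have hκ0 : 0 ≤ max (-K) 0 := le_max_right _ _
  induction n with
  | zero =>
    intro R C D μ₀ μ₁ h0 h1 hD hL
    obtain ⟨P, hP⟩ := exists_optGeo hCD h0 h1
    have hC := h0.pos
    have hle : C ≤ C * Real.exp ((max (-K) 0 + 1) * D ^ 2 / 6) :=
      le_mul_of_one_le_right hC.le (Real.one_le_exp (by positivity))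
    refine ⟨P, hP, fun j t ht => ?_, fun k hk => ?_⟩
    · have h2 : (j : ℝ) ≤ 1 := by have := t.2.2; simpa [ht] using this
      have h3 : j ≤ 1 := by exact_mod_cast h2
      rcases Nat.le_one_iff_eq_zero_or_eq_one.1 h3 with rfl | rfl
      · rw [show t = 0 from Subtype.ext (by simpa using ht), hP.zero]
        exact (h0.mono le_rfl hle).le
      · rw [show t = 1 from Subtype.ext (by simpa using ht), hP.one]
        exact (h1.mono le_rfl hle).le
    · obtain rfl : k = 0 := by omega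
      rw [ggood_dy0, hP.one]; simp
  | succ n ih =>
    intro R C D μ₀ μ₁ h0 h1 hD hL
    obtain ⟨Q, hQ, hb, hent⟩ := exists_mid hfin hN hCD h0 h1 hD hL
    have := hQ.prob
    have hC := h0.pos
    have hle : C ≤ C * Real.exp ((max (-K) 0 + 1) * D ^ 2 / 8) :=
      le_mul_of_one_le_right hC.le (Real.one_le_exp (by positivity))
    have hR : R ≤ R + D / 2 := by linarith
    obtain ⟨l1, l2⟩ := len_halves hQ hL
    obtain ⟨P₁, hP₁, d1, e1⟩ := ih _ _ _ _ _ (h0.mono hR hle) hb (half_pos hD) l1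
    obtain ⟨P₂, hP₂, d2, -⟩ := ih _ _ _ _ _ hb (h1.mono hR hle) (half_pos hD) l2
    have hf : quadCost (endpointLaw Q) ≠ ⊤ := by
      rw [quadCost_eq_cost (integrable_len_sq (hL Q hQ))]; exact ENNReal.ofReal_ne_top
    obtain ⟨P, hP, f1, f2⟩ := glue_optGeo hQ hf hP₁ hP₂
    have hc : C * Real.exp ((max (-K) 0 + 1) * D ^ 2 / 8) * Real.exp ((max (-K) 0 + 1) * (D / 2) ^ 2 / 6) =
        C * Real.exp ((max (-K) 0 + 1) * D ^ 2 / 6) := by
      rw [mul_assoc, ← Real.exp_add]; congr 2; ring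
    rw [hc] at d1 d2
    have h2n : (0 : ℝ) < 2 ^ n := by positivity
    refine ⟨P, hP, fun j t ht => ?_, fun k hk => ?_⟩
    · by_cases hj : j ≤ 2 ^ n
      · have hj' : (j : ℝ) ≤ 2 ^ n := by exact_mod_cast hj
        let s : unitInterval := ⟨j / 2 ^ n, by positivity, (div_le_one h2n).2 hj'⟩
        rw [← timeMarginal_fstH P s t (by rw [ht]; simp only [s]; rw [pow_succ]; field_simp), f1]
        exact d1 j s rfl
      · obtain ⟨i, rfl⟩ : ∃ i, j = 2 ^ n + i := ⟨j - 2 ^ n, by omega⟩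
        have h3 := t.2.2
        rw [ht, div_le_one (by positivity), pow_succ] at h3
        push_cast at h3 ht
        let s : unitInterval := ⟨i / 2 ^ n, by positivity, (div_le_one h2n).2 (by linarith)⟩
        rw [← timeMarginal_sndH P s t (by rw [ht]; simp only [s]; rw [pow_succ]; field_simp), f2]
        exact d2 i s rfl
    · rcases k with _ | k
      · rw [ggood_dy0, hP.one]; simp
      · rw [← timeMarginal_fstH P (dy k) (dy (k + 1)) (by simp only [dy]; rw [pow_succ]; ring), f1]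
        have c1 : cost P₁ = cost P / 4 := by rw [← f1]; exact cost_fstH hP.geo
        have c2 : cost Q = cost P := hQ.cost_eq hP
        have e2 := e1 k (by omega)
        rw [c1] at e2
        rw [c2] at hent
        have hs : (0 : ℝ) ≤ (1 / 2) ^ k := by positivity
        have e3 := mul_le_mul_of_nonneg_left hent hs
        rw [pow_succ]
        linarith

/-- **Good geodesics.** -/
theorem exists_good [ProperSpace X] (hfin : IsFiniteOnBalls m) {K N : ℝ} (hN : 1 < N) (hCD : IsCD m K N)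
    (h0 : BB m o R C μ₀) (h1 : BB m o R C μ₁) :
    ∃ P, OptGeo μ₀ μ₁ P ∧ IsTestPlan2 m P ∧ HasBoundedTracks P ∧ (∀ᵐ γ ∂P, len γ ≤ 2 * R) ∧
      (∀ t, BB m o (3 * R) (C * Real.exp ((max (-K) 0 + 1) * (2 * R + 1) ^ 2 / 6)) (timeMarginal P t)) ∧
      ∀ k, Ent m (timeMarginal P (dy k)) ≤
        (1 - (1 / 2) ^ k) * Ent m μ₀ + (1 / 2) ^ k * Ent m μ₁ +
          max (-K) 0 / 2 * ((1 / 2) ^ k * (1 - (1 / 2) ^ k)) * cost P := by
  have := h0.prob
  have := h1.prob
  have hR := h0.nonneg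
  set A := Metric.closedBall o (3 * R) with hAdef
  have hA : MeasurableSet A := Metric.isClosed_closedBall.measurableSet
  have hAm : m A ≠ ⊤ := (closedBall_lt_top hfin _ _).ne
  set C' := C * Real.exp ((max (-K) 0 + 1) * (2 * R + 1) ^ 2 / 6) with hC'
  have hL0 : Len μ₀ μ₁ (2 * R) := len_of_supp h0.supp h1.supp
  have hL : Len μ₀ μ₁ (2 * R + 1) := hL0.mono (by linarith)
  have htr : ∀ P, OptGeo μ₀ μ₁ P → ∀ᵐ γ ∂P, ∀ t : unitInterval, γ.toMap t ∈ A := fun P hP => by
    filter_upwards [hP.tracks h0.supp (hL0 P hP)] with γ hγ t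
    refine Metric.closedBall_subset_closedBall ?_ (hγ t)
    nlinarith [t.2.2]
  have hsupp : ∀ P, OptGeo μ₀ μ₁ P → ∀ t, ∀ᵐ x ∂timeMarginal P t, x ∈ A := fun P hP t =>
    (ae_timeMarginal_iff (p := fun x => x ∈ A) hA).2 ((htr P hP).mono fun γ hγ => hγ t)
  obtain ⟨P₀, hP₀⟩ := exists_optGeo hCD h0 h1
  set E : ℕ → ℝ := fun k => (1 - (1 / 2) ^ k) * Ent m μ₀ + (1 / 2) ^ k * Ent m μ₁ +
    max (-K) 0 / 2 * ((1 / 2) ^ k * (1 - (1 / 2) ^ k)) * cost P₀ with hE
  let G : ℕ → Set (ProbabilityMeasure (UCurve X)) := fun n =>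
    {Q | OptGeo μ₀ μ₁ (Q : Measure (UCurve X))} ∩
      ((⋂ (j : ℕ) (t : unitInterval) (_ : (t : ℝ) = j / 2 ^ n),
          {Q | timeMarginal (Q : Measure (UCurve X)) t ≤ ENNReal.ofReal C' • m}) ∩
        ⋂ (k : ℕ) (_ : k ≤ n) (φ : X →ᵇ ℝ), {Q | Dn m A (timeMarginal (Q : Measure (UCurve X)) (dy k)) φ ≤ E k})
  have hcl : ∀ n, IsCompact (G n) := fun n => (isCompact_optGeo h0.supp h1.supp).inter_right
    ((isClosed_iInter fun j => isClosed_iInter fun t => isClosed_iInter fun _ => isClosed_marg_le hfin t C').inter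
      (isClosed_iInter fun k => isClosed_iInter fun _ => isClosed_iInter fun φ =>
        isClosed_le (continuous_Dn m A (dy k) φ) continuous_const))
  have hdy : ∀ k n : ℕ, k ≤ n → ((dy k : unitInterval) : ℝ) = ((2 ^ (n - k) : ℕ) : ℝ) / 2 ^ n := fun k n hk => by
    obtain ⟨i, rfl⟩ := Nat.exists_eq_add_of_le hk
    simp only [dy, Nat.add_sub_cancel_left]
    push_cast
    rw [pow_add, one_div, inv_pow]
    field_simp
  have hne : ∀ n, (G n).Nonempty := fun n => by
    obtain ⟨P, hP, d, e⟩ := good_level hfin hN hCD o n R C (2 * R + 1) μ₀ μ₁ h0 h1 (by linarith) hL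
    have := hP.prob
    refine ⟨⟨P, hP.prob⟩, hP, ?_, ?_⟩
    · exact mem_iInter.2 fun j => mem_iInter.2 fun t => mem_iInter.2 fun ht => d j t ht
    · refine mem_iInter.2 fun k => mem_iInter.2 fun hk => mem_iInter.2 fun φ => ?_
      have hb : BB m o (3 * R) C' (timeMarginal P (dy k)) :=
        ⟨timeMarginal_prob _, d _ _ (hdy k n hk), hsupp P hP _⟩
      have h2 := (hb.young hfin hA hAm (hsupp P hP _) φ.continuous.measurable
        fun x => φ.norm_coe_le_norm x).trans (e k hk)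
      rw [hP.cost_eq hP₀] at h2
      exact h2
  have hdec : ∀ n, G (n + 1) ⊆ G n := fun n Q hQ => by
    refine ⟨hQ.1, ?_, ?_⟩
    · have h2 := hQ.2.1
      simp only [mem_iInter] at h2 ⊢
      intro j t ht
      exact h2 (2 * j) t (by rw [ht, pow_succ]; push_cast; field_simp)
    · have h2 := hQ.2.2
      simp only [mem_iInter] at h2 ⊢
      exact fun k hk φ => h2 k (by omega) φ
  obtain ⟨Q, hQ⟩ := IsCompact.nonempty_iInter_of_sequence_nonempty_isCompact_isClosed G hdec hne (hcl 0)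
    fun n => (hcl n).isClosed
  rw [mem_iInter] at hQ
  have hP : OptGeo μ₀ μ₁ (Q : Measure (UCurve X)) := (hQ 0).1
  have hd : ∀ t, timeMarginal (Q : Measure (UCurve X)) t ≤ ENNReal.ofReal C' • m :=
    marg_le_of_dyadic hfin fun n j t ht => by
      have h2 := (hQ n).2.1
      simp only [mem_iInter] at h2
      exact h2 j t ht
  have hb : ∀ t, BB m o (3 * R) C' (timeMarginal (Q : Measure (UCurve X)) t) := fun t =>
    ⟨timeMarginal_prob _, hd t, hsupp _ hP t⟩
  refine ⟨Q, hP, isTestPlan2_of_geo hP.geo (hL0 _ hP) hd, ⟨o, 3 * R, htr _ hP⟩, hL0 _ hP, hb, fun k => ?_⟩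
  rw [hP.cost_eq hP₀]
  refine ((hb _).ent_le_EM hfin hA hAm (hsupp _ hP _)).trans (EM_le fun φ _ => ?_)
  have h2 := (hQ k).2.2
  simp only [mem_iInter] at h2
  exact h2 k le_rfl φ

end Crest.Agent.R242.G
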