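import Crest.Agent.R242.GCD

/-! Row 242, part I-a: exponential volume growth. -/

set_option autoImplicit false
set_option linter.unusedSectionVars false
open MeasureTheory Filter Set Topology
open scoped ENNReal NNReal BoundedContinuousFunction
open Crest.GeometryTopology.SyntheticRicci

noncomputable section
namespace Crest.Agent.R242.G

variable {X : Type*} [MetricSpace X] [SecondCountableTopology X] [MeasurableSpace X] [BorelSpace X]
  {m μ ν μ₀ μ₁ : Measure X} {P P' : Measure (UCurve X)} {o : X} {R C D : ℝ}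

theorem ggrow_sigma {K n θ : ℝ} (hn : 0 < n) (hθ : 0 ≤ θ) :
    ENNReal.ofReal (1 / 2 * Real.exp (-(Real.sqrt (max (-K) 0 / n) / 2 * θ))) ≤
      distortSigma K n (1 / 2) θ := by
  by_cases hK : 0 ≤ K
  · simpa [max_eq_right (neg_nonpos.2 hK)] using gcd_sigma (K := K) hn hθ
  have hK' : 0 < -K := by linarith
  rcases hθ.eq_or_lt with rfl | hθ'
  · simpa using gcd_sigma (K := K) hn le_rfl
  unfold distortSigma
  rw [if_neg (by norm_num), if_neg (by norm_num), if_neg hθ'.ne', if_neg (by linarith), if_neg (by linarith),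
    max_eq_left hK'.le]
  refine ENNReal.ofReal_le_ofReal ?_
  have hs : 0 < √(-K / n) := Real.sqrt_pos.2 (by positivity)
  have hx : 0 < θ * √(-K / n) := by positivity
  rw [show √(-K / n) / 2 * θ = 1 / 2 * (θ * √(-K / n)) by ring, mul_assoc]
  generalize θ * √(-K / n) = x at hx
  have e : Real.sinh x = 2 * Real.sinh (1 / 2 * x) * Real.cosh (1 / 2 * x) := by
    rw [← Real.sinh_two_mul]; congr 1; ring
  have h2 : 0 < Real.sinh x := Real.sinh_pos_iff.2 hx
  have h3 : 0 < Real.sinh (1 / 2 * x) := Real.sinh_pos_iff.2 (by positivity)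
  have h4 : Real.cosh (1 / 2 * x) ≤ Real.exp (1 / 2 * x) := by
    rw [← Real.cosh_add_sinh]; linarith
  have h5 : Real.exp (-(1 / 2 * x)) * Real.cosh (1 / 2 * x) ≤ 1 := by
    rw [Real.exp_neg, inv_mul_le_iff₀ (Real.exp_pos _), mul_one]
    exact h4
  rw [le_div_iff₀ h2, e]
  nlinarith

/-- as `tau_half_ge`, with `cosh y ≤ exp |y|`: `σ ≥ (1/2) exp (-a θ)`, `a = √(κ/(N-1))/2`, and `(N-1)/N ≤ 1` -/
theorem tau_half_ge' {K N θ : ℝ} (hN : 1 < N) (hθ : 0 ≤ θ) :
    ENNReal.ofReal (1 / 2 * Real.exp (-(Real.sqrt (max (-K) 0 / (N - 1)) / 2 * θ))) ≤ distortTau K N (1 / 2) θ := by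
  have hN0 : 0 < N := by linarith
  have hN1 : 0 < N - 1 := by linarith
  have h := ENNReal.rpow_le_rpow (ggrow_sigma (K := K) hN1 hθ) (div_pos hN1 hN0).le
  refine le_trans ?_ (mul_le_mul_right h _)
  rw [ENNReal.ofReal_rpow_of_pos (by norm_num), ENNReal.ofReal_rpow_of_pos (by positivity),
    ← ENNReal.ofReal_mul (by positivity), Real.mul_rpow (by norm_num) (Real.exp_pos _).le,
    ← mul_assoc, ← Real.rpow_add (by norm_num), ← Real.exp_mul,
    show 1 / N + (N - 1) / N = 1 by field_simp; ring, Real.rpow_one]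
  refine ENNReal.ofReal_le_ofReal (mul_le_mul_of_nonneg_left (Real.exp_le_exp.2 ?_) (by norm_num))
  have h1 : 0 ≤ Real.sqrt (max (-K) 0 / (N - 1)) / 2 * θ := by positivity
  have h2 : (N - 1) / N ≤ 1 := by rw [div_le_one hN0]; linarith
  nlinarith

/-- `IsCD` with `μ₀`, `μ₁` uniform on `ball x (s/8)`, `ball x s` (`BB.unif`), `N' = N`, `t = half`: midpoints lie in
`A = ball x (3s/4)` (`d(γ ½, x) < (9s/8)/2 + s/8`); left side `≥ (1/2) exp (-2 a s) m(ball x s)^(1/N)` (drop the first
term, `tau_half_ge'`, `len ≤ 2s`, `ρ₁ ≤ m(ball x s)⁻¹` by `BB.rn_le` + `rnDeriv_lt_top`), right side `≤ m(A)^(1/N)`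
(`renyi_le` with the constant `φ = -log m(A)`); raise to the power `N`. -/
theorem cd_ball_exp [m.IsOpenPosMeasure] (hfin : IsFiniteOnBalls m) {K N : ℝ} (hN : 1 < N) (hCD : IsCD m K N) :
    ∃ c a : ℝ, 0 < c ∧ 0 ≤ a ∧ ∀ (x : X) (s : ℝ), 0 < s →
      m.real (Metric.ball x s) ≤ c * Real.exp (a * s) * m.real (Metric.ball x (3 / 4 * s)) := by
  have := sigmaFinite_of_balls hfin
  have hN0 : 0 < N := by linarith
  set α : ℝ := Real.sqrt (max (-K) 0 / (N - 1)) / 2 with hα
  have hα0 : 0 ≤ α := by positivity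
  refine ⟨Real.exp (N * Real.log 2), N * (α * 2), Real.exp_pos _, by positivity, fun x s hs => ?_⟩
  set c0 : ℝ := 1 / 2 * Real.exp (-(α * (2 * s))) with hc0
  have hc0p : 0 < c0 := by positivity
  have hpos : ∀ r : ℝ, 0 < r → m (Metric.ball x r) ≠ 0 := fun r hr => (Metric.measure_ball_pos m x hr).ne'
  have hrpos : ∀ r : ℝ, 0 < r → 0 < m.real (Metric.ball x r) := fun r hr =>
    ENNReal.toReal_pos (hpos r hr) (hfin x r).ne
  have b0 := BB.unif (m := m) (o := x) (R := s / 8) measurableSet_ball (hpos (s / 8) (by positivity))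
    (hfin x _).ne Metric.ball_subset_closedBall
  have b1 := BB.unif (m := m) (o := x) (R := s) measurableSet_ball (hpos s hs) (hfin x _).ne
    Metric.ball_subset_closedBall
  set μ₀ := (m (Metric.ball x (s / 8)))⁻¹ • m.restrict (Metric.ball x (s / 8))
  set μ₁ := (m (Metric.ball x s))⁻¹ • m.restrict (Metric.ball x s)
  obtain ⟨P, hP, hg, ho, hin⟩ := hCD μ₀ μ₁ b0.prob b1.prob b0.moment b1.moment b0.ac b1.ac
  have hO : OptGeo μ₀ μ₁ P := ⟨hP, hg, ho⟩
  have := b1.prob
  set a := m.real (Metric.ball x (3 / 4 * s)) with ha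
  set b := m.real (Metric.ball x s) with hb
  have hap : 0 < a := hrpos _ (by positivity)
  have hbp : 0 < b := hrpos _ hs
  have e0 : ∀ᵐ γ ∂P, γ.toMap 0 ∈ Metric.closedBall x (s / 8) :=
    ae_timeMarginal (t := 0) (p := fun z => z ∈ Metric.closedBall x (s / 8)) (by rw [hO.zero]; exact b0.supp)
  have e1 : ∀ᵐ γ ∂P, γ.toMap 1 ∈ Metric.closedBall x s :=
    ae_timeMarginal (t := 1) (p := fun z => z ∈ Metric.closedBall x s) (by rw [hO.one]; exact b1.supp)
  have eL : ∀ᵐ γ ∂P, dist (γ.toMap 0) (γ.toMap 1) ≤ 9 / 8 * s := by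
    filter_upwards [e0, e1] with γ h0 h1
    rw [Metric.mem_closedBall] at h0 h1
    have := dist_triangle_right (γ.toMap 0) (γ.toMap 1) x
    linarith
  have eH : ∀ᵐ γ ∂P, γ.toMap half ∈ Metric.ball x (3 / 4 * s) := by
    filter_upwards [e0, eL, hg] with γ h0 h1 h2
    have h3 := geo_mem_ball h2 h0 (D := 9 / 8 * s) h1 half
    rw [Metric.mem_closedBall] at h3
    rw [Metric.mem_ball]
    have : (half : ℝ) = 1 / 2 := rfl
    rw [this] at h3
    linarith
  have : IsProbabilityMeasure (timeMarginal P half) := timeMarginal_prob half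
  have hν : timeMarginal P half (Metric.ball x (3 / 4 * s))ᶜ = 0 :=
    (ae_timeMarginal_iff (P := P) (t := half) (p := fun z => z ∈ Metric.ball x (3 / 4 * s))
      measurableSet_ball).2 eH
  have hR := renyi_le (m := m) (ν := timeMarginal P half) measurableSet_ball (hfin x _).ne hν hN
    (φ := fun _ => -Real.log a) measurable_const (B := |Real.log a|) (fun _ => by rw [abs_neg])
  have hR' : 1 / N * ∫ _ in Metric.ball x (3 / 4 * s), Real.exp ((1 - 1 / N) * -Real.log a) ∂m +
      (1 - 1 / N) * ∫ _, Real.exp (- -Real.log a / N) ∂timeMarginal P half = Real.exp (Real.log a / N) := by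
    simp only [integral_const, smul_eq_mul, probReal_univ, one_mul, neg_neg,
      measureReal_restrict_apply_univ]
    rw [← ha]
    have : a * Real.exp ((1 - 1 / N) * -Real.log a) = Real.exp (Real.log a / N) := by
      conv_lhs => rw [← Real.exp_log hap]
      rw [Real.log_exp, ← Real.exp_add]
      congr 1
      ring
    rw [this]
    ring
  rw [hR'] at hR
  have eρ : ∀ᵐ γ ∂P, μ₁.rnDeriv m (γ.toMap 1) ≤ ENNReal.ofReal b⁻¹ := by
    refine ae_timeMarginal (t := 1) (p := fun z => μ₁.rnDeriv m z ≤ ENNReal.ofReal b⁻¹) ?_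
    rw [hO.one]
    refine b1.ac.ae_le ?_
    filter_upwards [b1.rn_le hfin, Measure.rnDeriv_lt_top μ₁ m] with z h1 h2
    rw [← ENNReal.ofReal_toReal h2.ne]
    exact ENNReal.ofReal_le_ofReal h1
  have hL : ENNReal.ofReal (c0 * Real.exp (Real.log b / N)) ≤ ENNReal.ofReal (Real.exp (Real.log a / N)) := by
    refine le_trans ?_ ((hin N le_rfl half).trans hR)
    have : ENNReal.ofReal (c0 * Real.exp (Real.log b / N)) =
        ∫⁻ _, ENNReal.ofReal (c0 * Real.exp (Real.log b / N)) ∂P := by simp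
    rw [this]
    refine lintegral_mono_ae ?_
    filter_upwards [eL, eρ] with γ h1 h2
    refine le_trans ?_ le_add_self
    rw [ENNReal.ofReal_mul hc0p.le]
    refine mul_le_mul' ?_ ?_
    · refine le_trans (ENNReal.ofReal_le_ofReal ?_) (tau_half_ge' (K := K) hN dist_nonneg)
      rw [hc0, ← hα]
      have h3 : dist (γ.toMap 0) (γ.toMap 1) ≤ 2 * s := by linarith
      gcongr
    · rw [neg_div, ENNReal.rpow_neg, ENNReal.le_inv_iff_le_inv]
      refine (ENNReal.rpow_le_rpow h2 (by positivity)).trans (le_of_eq ?_)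
      rw [ENNReal.ofReal_rpow_of_pos (inv_pos.2 hbp), ← ENNReal.ofReal_inv_of_pos (Real.exp_pos _),
        Real.rpow_def_of_pos (inv_pos.2 hbp), Real.log_inv, ← Real.exp_neg]
      congr 2
      ring
  have h1 := (ENNReal.ofReal_le_ofReal_iff (Real.exp_pos _).le).1 hL
  have h2 : Real.log c0 + Real.log b / N ≤ Real.log a / N := by
    rw [← Real.exp_le_exp, Real.exp_add, Real.exp_log hc0p]
    exact h1
  have h3 : N * Real.log c0 + Real.log b ≤ Real.log a := by
    have := mul_le_mul_of_nonneg_left h2 hN0.le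
    rwa [mul_add, mul_div_cancel₀ _ hN0.ne', mul_div_cancel₀ _ hN0.ne'] at this
  have h4 : Real.log c0 = -Real.log 2 - α * (2 * s) := by
    rw [hc0, Real.log_mul (by norm_num) (Real.exp_pos _).ne', Real.log_exp, one_div, Real.log_inv]; ring
  rw [← Real.exp_log hbp, ← Real.exp_log hap, ← Real.exp_add, ← Real.exp_add]
  refine Real.exp_le_exp.2 ?_
  rw [h4] at h3
  linarith

/-- choose `b ≥ 4a + 4 log⁺ c`; by induction on `k`, for `s ≤ (4/3)^k`: `m(ball x s) ≤ exp (b s) m(ball x 1)`
(for `s ≤ 1` trivial; for `s > 1`: `c exp (a s) exp (3 b s/4) ≤ exp (b s)`) -/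
theorem cd_ball_growth [m.IsOpenPosMeasure] (hfin : IsFiniteOnBalls m) {K N : ℝ} (hN : 1 < N) (hCD : IsCD m K N) :
    ∃ b : ℝ, 0 ≤ b ∧ ∀ (x : X) (s : ℝ), 0 < s →
      m.real (Metric.ball x s) ≤ Real.exp (b * s) * m.real (Metric.ball x 1) := by
  obtain ⟨c, a, hc, ha, h⟩ := cd_ball_exp hfin hN hCD
  have hl := abs_nonneg (Real.log c)
  refine ⟨4 * a + 4 * |Real.log c|, by positivity, fun x s hs => ?_⟩
  have small : ∀ s : ℝ, 0 < s → s ≤ 1 → m.real (Metric.ball x s) ≤
      Real.exp ((4 * a + 4 * |Real.log c|) * s) * m.real (Metric.ball x 1) := fun s hs h1 =>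
    (measureReal_mono (Metric.ball_subset_ball h1) (hfin _ _).ne).trans
      (le_mul_of_one_le_left measureReal_nonneg (Real.one_le_exp (by positivity)))
  have key : ∀ k : ℕ, ∀ s : ℝ, 0 < s → s ≤ (4 / 3) ^ k → m.real (Metric.ball x s) ≤
      Real.exp ((4 * a + 4 * |Real.log c|) * s) * m.real (Metric.ball x 1) := by
    intro k
    induction k with
    | zero => exact fun s hs h1 => small s hs (by simpa using h1)
    | succ k ih =>
      intro s hs h1
      rcases le_or_gt s 1 with h2 | h2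
      · exact small s hs h2
      have h3 := ih (3 / 4 * s) (by positivity) (by rw [pow_succ] at h1; linarith)
      refine (h x s hs).trans ((mul_le_mul_of_nonneg_left h3 (by positivity)).trans ?_)
      rw [← mul_assoc]
      refine mul_le_mul_of_nonneg_right ?_ measureReal_nonneg
      calc _ = Real.exp (Real.log c + a * s + (4 * a + 4 * |Real.log c|) * (3 / 4 * s)) := by
            rw [Real.exp_add, Real.exp_add, Real.exp_log hc]
        _ ≤ _ := Real.exp_le_exp.2 (by nlinarith [le_abs_self (Real.log c)])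
  obtain ⟨k, hk⟩ := pow_unbounded_of_one_lt s (by norm_num : (1 : ℝ) < 4 / 3)
  exact key k s hs hk.le

/-- `γ = b + 1`: `exp (-γ d) ≤ ∑ n, exp (-γ n) 1_{ball o (n+1)}`, geometric series (`lintegral_tsum`) -/
theorem cd_growth [m.IsOpenPosMeasure] (hfin : IsFiniteOnBalls m) {K N : ℝ} (hN : 1 < N) (hCD : IsCD m K N) :
    ∃ γ : ℝ, 0 < γ ∧ ∀ o : X, Integrable (fun x => Real.exp (-γ * dist x o)) m := by
  obtain ⟨b, hb, h⟩ := cd_ball_growth hfin hN hCD
  refine ⟨b + 1, by positivity, fun o => ⟨(by fun_prop : Continuous fun x => Real.exp (-(b + 1) * dist x o)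
    ).aestronglyMeasurable, ?_⟩⟩
  rw [hasFiniteIntegral_iff_ofReal (ae_of_all _ fun x => (Real.exp_pos _).le)]
  set M := m.real (Metric.ball o 1)
  have hM : 0 ≤ M := measureReal_nonneg
  calc _ ≤ ∫⁻ x, ∑' n : ℕ, (Metric.ball o (n + 1)).indicator
        (fun _ => ENNReal.ofReal (Real.exp (-(b + 1) * n))) x ∂m := by
        refine lintegral_mono fun x => le_trans ?_ (ENNReal.le_tsum ⌊dist x o⌋₊)
        rw [indicator_of_mem (Metric.mem_ball.2 (Nat.lt_floor_add_one _))]
        refine ENNReal.ofReal_le_ofReal (Real.exp_le_exp.2 ?_)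
        have := Nat.floor_le (dist_nonneg (x := x) (y := o))
        nlinarith
    _ = ∑' n : ℕ, ENNReal.ofReal (Real.exp (-(b + 1) * n)) * m (Metric.ball o (n + 1)) := by
        rw [lintegral_tsum fun n => (measurable_const.indicator measurableSet_ball).aemeasurable]
        exact tsum_congr fun n => lintegral_indicator_const measurableSet_ball _
    _ ≤ ∑' n : ℕ, ENNReal.ofReal (Real.exp b * M * Real.exp (-1) ^ n) := by
        refine ENNReal.tsum_le_tsum fun n => ?_
        rw [← ENNReal.ofReal_toReal (hfin o (n + 1)).ne, ← ENNReal.ofReal_mul (Real.exp_pos _).le]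
        refine ENNReal.ofReal_le_ofReal ((mul_le_mul_of_nonneg_left (h o (n + 1) (by positivity))
          (Real.exp_pos _).le).trans (le_of_eq ?_))
        rw [← mul_assoc, ← Real.exp_add, ← Real.exp_nat_mul, mul_right_comm, ← Real.exp_add]
        congr 2; ring
    _ < ⊤ := by
        rw [← ENNReal.ofReal_tsum_of_nonneg (fun n => by positivity) ((summable_geometric_of_lt_one
          (Real.exp_pos _).le (Real.exp_lt_one_iff.2 (by norm_num))).mul_left _)]
        exact ENNReal.ofReal_lt_top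

end Crest.Agent.R242.G
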