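import Crest.Agent.R242.GVar

/-! Row 242, part I-a: the truncated entropy: integral formula and first variation. -/

set_option autoImplicit false
set_option linter.unusedSectionVars false
open MeasureTheory Filter Set Topology
open scoped ENNReal NNReal BoundedContinuousFunction
open Crest.GeometryTopology.SyntheticRicci

noncomputable section
namespace Crest.Agent.R242.G

variable {X : Type*} [MetricSpace X] [SecondCountableTopology X] [MeasurableSpace X] [BorelSpace X]
  {m μ ν μ₀ μ₁ : Measure X} {P P' : Measure (UCurve X)} {o : X} {R C D : ℝ}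

theorem gvar2_int {μ : Measure X} [IsFiniteMeasure μ] {M : ℝ} (hM : 0 < M) {g : X → ℝ} (hg : Measurable g)
    (hg0 : ∀ x, 0 ≤ g x) (hi : Integrable g μ) : Integrable (fun x => UM M (g x)) μ :=
  (((hi.const_mul (|Real.log M| + 1)).add (integrable_const M)).add (integrable_const 1)).mono'
    ((measurable_UM M).comp hg).aestronglyMeasurable
    (Eventually.of_forall fun x => by simpa [Real.norm_eq_abs] using abs_UM_le hM (hg0 x))

theorem gvar2_real {μ : Measure X} {g : X → ℝ} (hg0 : ∀ x, 0 ≤ g x) (hi : Integrable g μ) {S : Set X}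
    (hS : MeasurableSet S) :
    (μ.withDensity fun x => ENNReal.ofReal (g x)) S = ENNReal.ofReal (∫ x, S.indicator g x ∂μ) := by
  rw [withDensity_apply _ hS, integral_indicator hS,
    ofReal_integral_eq_lintegral_ofReal hi.integrableOn (Eventually.of_forall hg0)]

theorem gvar2_dens {μ η : Measure X} {ρ s : X → ℝ} (hρ : Measurable ρ) (hρ0 : ∀ x, 0 ≤ ρ x)
    (hs0 : ∀ x, 0 ≤ s x) {H : Set X} (hH : MeasurableSet H) (hη : η Hᶜ = 0) {ε f : ℝ} (h0 : 0 ≤ ε)
    (h1 : ε ≤ 1) (hf : 0 ≤ f) :
    (μ.withDensity (fun x => ENNReal.ofReal (ρ x)) + η).restrict Hᶜ +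
      ENNReal.ofReal (1 - ε) • (μ.withDensity (fun x => ENNReal.ofReal (ρ x)) + η).restrict H +
      (ENNReal.ofReal ε * ENNReal.ofReal f) • μ.withDensity (fun x => ENNReal.ofReal (s x)) =
    μ.withDensity (fun x => ENNReal.ofReal (ρ x - ε * H.indicator ρ x + ε * f * s x)) +
      ENNReal.ofReal (1 - ε) • η := by
  have e1 : η.restrict Hᶜ = 0 := Measure.restrict_eq_zero.2 hη
  have e2 : η.restrict H = η := Measure.restrict_eq_self_of_ae_mem hη
  have m1 : Measurable fun x => ENNReal.ofReal (ρ x) := hρ.ennreal_ofReal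
  have e3 : (fun x => ENNReal.ofReal (ρ x - ε * H.indicator ρ x + ε * f * s x)) =
      Hᶜ.indicator (fun x => ENNReal.ofReal (ρ x)) +
        (ENNReal.ofReal (1 - ε) • H.indicator (fun x => ENNReal.ofReal (ρ x)) +
          (ENNReal.ofReal ε * ENNReal.ofReal f) • fun x => ENNReal.ofReal (s x)) := by
    funext x
    have a1 : 0 ≤ ε * f * s x := mul_nonneg (mul_nonneg h0 hf) (hs0 x)
    have a2 : ENNReal.ofReal ε * ENNReal.ofReal f * ENNReal.ofReal (s x) = ENNReal.ofReal (ε * f * s x) := by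
      rw [ENNReal.ofReal_mul (mul_nonneg h0 hf), ENNReal.ofReal_mul h0]
    simp only [Pi.add_apply, Pi.smul_apply, smul_eq_mul, a2]
    by_cases hx : x ∈ H
    · rw [indicator_of_mem hx, indicator_of_mem hx, indicator_of_notMem (not_not.2 hx), zero_add,
        ← ENNReal.ofReal_mul (by linarith), ← ENNReal.ofReal_add (mul_nonneg (by linarith) (hρ0 x)) a1]
      congr 1
      ring
    · rw [indicator_of_notMem hx, indicator_of_notMem hx, indicator_of_mem (mem_compl hx), mul_zero,
        mul_zero, zero_add, sub_zero, ENNReal.ofReal_add (hρ0 x) a1]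
  rw [e3, withDensity_add_left (m1.indicator hH.compl),
    withDensity_add_left ((m1.indicator hH).const_smul _),
    withDensity_smul' _ _ ENNReal.ofReal_ne_top,
    withDensity_smul' _ _ (ENNReal.mul_ne_top ENNReal.ofReal_ne_top ENNReal.ofReal_ne_top),
    withDensity_indicator hH.compl, withDensity_indicator hH, Measure.restrict_add, Measure.restrict_add,
    e1, e2, restrict_withDensity hH, restrict_withDensity hH.compl, smul_add]
  abel

theorem gvar2_pt {M ε f δ r s : ℝ} (hM : 0 < M) (h0 : 0 < ε) (hf : 0 ≤ f) (hr : 0 ≤ r) (hs : 0 ≤ s)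
    (hδ : 0 ≤ δ) (h1 : r ≤ M - 2 * δ) (h2 : ε * f * s ≤ δ) :
    UM M (r + ε * f * s) ≤ UM M r + Real.log M * (ε * f * s) -
      ε * f * (Real.log M - Real.log (M - δ)) * s := by
  have a1 : 0 ≤ ε * f * s := by positivity
  have a2 := UM_add_le' (M := M) hr a1 (by linarith)
  rcases a1.eq_or_lt with h | h
  · have : ε * f * (Real.log M - Real.log (M - δ)) * s = (ε * f * s) * (Real.log M - Real.log (M - δ)) := by
      ring
    rw [this, ← h]
    simp
  · have a3 : Real.log (r + ε * f * s) ≤ Real.log (M - δ) := Real.log_le_log (by linarith) (by linarith)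
    have a4 := mul_le_mul_of_nonneg_right a3 a1
    nlinarith

/-- **First variation.**  Lebesgue decomposition `ν = ρ m|_A + η`, `η` carried by the `m`-null set `Z`;
`H = A ∩ ({ρ ≥ M} ∪ Z)`, `f = ν.real H`.  For `σ = s m|_A` the competitor has density
`ρ_ε = (1 - ε 1_H) ρ + ε f s` and singular part `(1-ε) η`; by `UM_add_le`, `UM_add_le'`, `UM_sub_le`
`EM ν_ε - EM ν ≤ ε (|log (1-ε)| - ∫ gain_ε)` with `gain_ε = f s (log M - log (ρ + ε f s))` on
`{ρ + ε f s ≤ M, s > 0} \ H`, `0` elsewhere.  As `σ Hᶜ ≠ 0` there are `δ > 0`, `T` with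
`θ := σ ({ρ ≤ M - 2δ, s ≤ T} \ H) > 0`, and for `ε f T ≤ δ`: `∫ gain_ε ≥ f θ (log M - log (M - δ)) > 0`. -/
theorem variation [IsProbabilityMeasure ν] [SigmaFinite m] {A : Set X} (hA : MeasurableSet A) (hAm : m A ≠ ⊤)
    (hν : ν Aᶜ = 0) {M : ℝ} (hM : 0 < M) :
    ∃ H : Set X, MeasurableSet H ∧ H ⊆ A ∧ ENNReal.ofReal M * m H ≤ ν H ∧ (ν H = 0 → ν ≤ ENNReal.ofReal M • m) ∧
      ∀ σ : Measure X, IsProbabilityMeasure σ → σ ≪ m → σ Aᶜ = 0 → ν H ≠ 0 → σ Hᶜ ≠ 0 →
        ∃ ε : ℝ, 0 < ε ∧ ε < 1 ∧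
          EM m A (Real.log M) (ν.restrict Hᶜ + ENNReal.ofReal (1 - ε) • ν.restrict H +
            (ENNReal.ofReal ε * ν H) • σ) < EM m A (Real.log M) ν := by
  set μ := m.restrict A with hμ
  have : IsFiniteMeasure μ := isFiniteMeasure_restrict.2 hAm
  set η := ν.singularPart μ with hηd
  set ρ : X → ℝ := fun x => (ν.rnDeriv μ x).toReal with hρd
  have hρ : Measurable ρ := (Measure.measurable_rnDeriv ν μ).ennreal_toReal
  have hρ0 : ∀ x, 0 ≤ ρ x := fun x => ENNReal.toReal_nonneg
  have hρi : Integrable ρ μ := Measure.integrable_toReal_rnDeriv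
  have hdec : ν = μ.withDensity (fun x => ENNReal.ofReal (ρ x)) + η := by
    have e : μ.withDensity (fun x => ENNReal.ofReal (ρ x)) = μ.withDensity (ν.rnDeriv μ) :=
      withDensity_congr_ae ((Measure.rnDeriv_lt_top ν μ).mono fun x hx => ENNReal.ofReal_toReal hx.ne)
    rw [e, add_comm]
    exact ν.haveLebesgueDecomposition_add μ
  obtain ⟨S, hS, hS1, hS2⟩ := ν.mutuallySingular_singularPart μ
  set Z := Sᶜ ∩ A with hZd
  have hZ : MeasurableSet Z := hS.compl.inter hA
  have hZm : m Z = 0 := by rwa [hμ, Measure.restrict_apply hS.compl] at hS2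
  have hηZ : η Zᶜ = 0 := by
    rw [hZd, compl_inter, compl_compl]
    exact measure_union_null hS1 (le_antisymm ((Measure.singularPart_le ν μ _).trans hν.le) zero_le)
  set H := A ∩ ({x | M ≤ ρ x} ∪ Z) with hHd
  have hH : MeasurableSet H := hA.inter ((measurableSet_le measurable_const hρ).union hZ)
  have hηH : η Hᶜ = 0 := measure_mono_null (compl_subset_compl.2 fun x hx => ⟨hx.2, Or.inr hx⟩) hηZ
  have haeZ : ∀ᵐ x ∂μ, x ∉ Z := ae_restrict_of_ae (measure_eq_zero_iff_ae_notMem.1 hZm)
  have haeA : ∀ᵐ x ∂μ, x ∈ A := ae_restrict_mem hA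
  have hin : ∀ᵐ x ∂μ, x ∈ H → M ≤ ρ x := haeZ.mono fun x hx h => h.2.resolve_right hx
  have hout : ∀ x, x ∈ A → x ∉ H → ρ x < M := fun x hx h => not_le.1 fun h' => h ⟨hx, Or.inl h'⟩
  refine ⟨H, hH, inter_subset_left, ?_, fun h0 => ?_, fun σ hσ hσm hσA hνH hσH => ?_⟩
  · have e : m H = μ H := (Measure.restrict_eq_self m inter_subset_left).symm
    calc ENNReal.ofReal M * m H = ∫⁻ _ in H, ENNReal.ofReal M ∂μ := by rw [setLIntegral_const, e]
      _ ≤ ∫⁻ x in H, ENNReal.ofReal (ρ x) ∂μ :=
          setLIntegral_mono_ae' hH (hin.mono fun x hx h => ENNReal.ofReal_le_ofReal (hx h))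
      _ = μ.withDensity (fun x => ENNReal.ofReal (ρ x)) H := (withDensity_apply _ hH).symm
      _ ≤ ν H := by
          conv_rhs => rw [hdec]
          exact le_self_add
  · refine Measure.le_iff.2 fun t ht => ?_
    have ht' : MeasurableSet (t \ H) := ht.diff hH
    calc ν t ≤ ν (t \ H) + ν H := (measure_mono (subset_sdiff_union t H)).trans (measure_union_le _ _)
      _ = ∫⁻ x in t \ H, ENNReal.ofReal (ρ x) ∂μ := by
          rw [h0, add_zero]
          conv_lhs => rw [hdec]
          rw [Measure.add_apply, measure_mono_null (fun x hx => hx.2) hηH, add_zero,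
            withDensity_apply _ ht']
      _ ≤ ∫⁻ _ in t \ H, ENNReal.ofReal M ∂μ :=
          setLIntegral_mono_ae' ht' (haeA.mono fun x hx h =>
            ENNReal.ofReal_le_ofReal (hout x hx h.2).le)
      _ ≤ (ENNReal.ofReal M • m) t := by
          rw [setLIntegral_const, Measure.smul_apply, smul_eq_mul]
          have e : μ (t \ H) ≤ m t := (Measure.restrict_le_self _).trans (measure_mono sdiff_subset)
          exact mul_le_mul_of_nonneg_left e zero_le
  have hσμ : σ ≪ μ := by
    have e : σ.restrict A = σ := Measure.restrict_eq_self_of_ae_mem hσA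
    rw [← e]
    exact hσm.restrict A
  set s : X → ℝ := fun x => (σ.rnDeriv μ x).toReal with hsd
  have hs : Measurable s := (Measure.measurable_rnDeriv σ μ).ennreal_toReal
  have hs0 : ∀ x, 0 ≤ s x := fun x => ENNReal.toReal_nonneg
  have hsi : Integrable s μ := Measure.integrable_toReal_rnDeriv
  have hσd : σ = μ.withDensity (fun x => ENNReal.ofReal (s x)) := by
    have e : μ.withDensity (fun x => ENNReal.ofReal (s x)) = μ.withDensity (σ.rnDeriv μ) :=
      withDensity_congr_ae ((Measure.rnDeriv_lt_top σ μ).mono fun x hx => ENNReal.ofReal_toReal hx.ne)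
    rw [e, Measure.withDensity_rnDeriv_eq _ _ hσμ]
  have hs1 : ∫ x, s x ∂μ = 1 := by
    rw [hsd, Measure.integral_toReal_rnDeriv hσμ]
    simp
  set f := ν.real H with hfd
  have hfe : ν H = ENNReal.ofReal f := (ENNReal.ofReal_toReal (measure_ne_top _ _)).symm
  have hf0 : 0 < f := ENNReal.toReal_pos hνH (measure_ne_top _ _)
  have hf1 : f ≤ 1 := measureReal_le_one
  set a := ∫ x, H.indicator ρ x ∂μ with had
  have ha0 : 0 ≤ a := integral_nonneg fun x => indicator_nonneg (fun y _ => hρ0 y) x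
  have hfa : f = a + η.real univ := by
    have e : ν H = ENNReal.ofReal a + η univ := by
      conv_lhs => rw [hdec]
      rw [Measure.add_apply, gvar2_real hρ0 hρi hH, ← measure_add_measure_compl hH (μ := η), hηH, add_zero]
    rw [hfd, Measure.real, e, ENNReal.toReal_add ENNReal.ofReal_ne_top (measure_ne_top _ _),
      ENNReal.toReal_ofReal ha0]
    rfl
  have hη0 : 0 ≤ η.real univ := measureReal_nonneg
  -- the set where one gains
  obtain ⟨n, hn⟩ : ∃ n : ℕ, σ (Hᶜ ∩ ({x | ρ x ≤ M - 2 * (M / (n + 2))} ∩ {x | s x ≤ n})) ≠ 0 := by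
    by_contra hc
    push Not at hc
    refine hσH (measure_mono_null (t := Aᶜ ∪ ⋃ n : ℕ,
      Hᶜ ∩ ({x | ρ x ≤ M - 2 * (M / (n + 2))} ∩ {x | s x ≤ n})) (fun x hx => ?_)
      (measure_union_null hσA (measure_iUnion_null hc)))
    by_cases hxA : x ∈ A
    · have h1 := sub_pos.2 (hout x hxA hx)
      obtain ⟨n, hn⟩ := exists_nat_ge (max (s x) (2 * M / (M - ρ x)))
      refine Or.inr (mem_iUnion.2 ⟨n, hx, ?_, (le_max_left _ _).trans hn⟩)
      have h2 := (le_max_right _ _).trans hn
      rw [div_le_iff₀ h1] at h2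
      have h3 : 2 * (M / (n + 2)) ≤ M - ρ x := by
        rw [← mul_div_assoc, div_le_iff₀ (by positivity)]
        nlinarith
      show ρ x ≤ _
      linarith
    · exact Or.inl hxA
  set δ : ℝ := M / (n + 2) with hδd
  set B := Hᶜ ∩ ({x | ρ x ≤ M - 2 * δ} ∩ {x | s x ≤ n}) with hBd
  have hB : MeasurableSet B :=
    hH.compl.inter ((measurableSet_le hρ measurable_const).inter (measurableSet_le hs measurable_const))
  have hδ0 : 0 < δ := by positivity
  have hδM : δ < M := by
    rw [hδd, div_lt_iff₀ (by positivity)]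
    have : (0 : ℝ) ≤ n := Nat.cast_nonneg n
    nlinarith
  set c := Real.log M - Real.log (M - δ) with hcd
  have hc0 : 0 < c := sub_pos.2 (Real.log_lt_log (by linarith) (by linarith))
  set θ := ∫ x, B.indicator s x ∂μ with hθd
  have hθ : 0 < θ := by
    rw [hσd, gvar2_real hs0 hsi hB] at hn
    exact ENNReal.ofReal_pos.1 (pos_iff_ne_zero.2 hn)
  set ε := min (1 / 2) (min (δ / (n + 1)) (c * θ / 4)) with hεd
  have hε0 : 0 < ε := by positivity
  have hε1 : ε ≤ 1 / 2 := min_le_left _ _
  have hε2 : ε ≤ δ / (n + 1) := (min_le_right _ _).trans (min_le_left _ _)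
  have hε3 : ε ≤ c * θ / 4 := (min_le_right _ _).trans (min_le_right _ _)
  refine ⟨ε, hε0, by linarith, ?_⟩
  set g : X → ℝ := fun x => ρ x - ε * H.indicator ρ x + ε * f * s x with hgd
  have hg : Measurable g := (hρ.sub ((hρ.indicator hH).const_mul _)).add (hs.const_mul _)
  have hgH : ∀ x, x ∈ H → g x = (1 - ε) * ρ x + ε * f * s x := fun x hx => by
    simp only [hgd, indicator_of_mem hx]
    ring
  have hgH' : ∀ x, x ∉ H → g x = ρ x + ε * f * s x := fun x hx => by
    simp only [hgd, indicator_of_notMem hx]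
    ring
  have hes : ∀ x, 0 ≤ ε * f * s x := fun x => mul_nonneg (mul_nonneg hε0.le hf0.le) (hs0 x)
  have hg0 : ∀ x, 0 ≤ g x := fun x => by
    by_cases hx : x ∈ H
    · rw [hgH x hx]
      exact add_nonneg (mul_nonneg (by linarith) (hρ0 x)) (hes x)
    · rw [hgH' x hx]
      exact add_nonneg (hρ0 x) (hes x)
  have hgi : Integrable g μ := (hρi.sub ((hρi.indicator hH).const_mul _)).add (hsi.const_mul _)
  have : IsFiniteMeasure (ENNReal.ofReal (1 - ε) • η) := Measure.smul_finite η ENNReal.ofReal_ne_top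
  have hcomp : ν.restrict Hᶜ + ENNReal.ofReal (1 - ε) • ν.restrict H + (ENNReal.ofReal ε * ν H) • σ =
      μ.withDensity (fun x => ENNReal.ofReal (g x)) + ENNReal.ofReal (1 - ε) • η := by
    rw [hfe, ← gvar2_dens hρ hρ0 hs0 hH hηH hε0.le (by linarith) hf0.le, ← hdec, ← hσd]
  have U1 := EM_le_UM hAm hM hg hg0 hgi _ hcomp
  have U2 := UM_le_EM hAm hM hρ hρ0 hρi η hZ hZm hηZ hdec
  have e1 : (ENNReal.ofReal (1 - ε) • η).real univ = (1 - ε) * η.real univ := by
    rw [measureReal_ennreal_smul_apply, ENNReal.toReal_ofReal (by linarith)]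
  have i1 := gvar2_int hM hρ hρ0 hρi
  have i2 := (hρi.indicator hH).const_mul (ε * Real.log ((1 - ε) * M))
  have i3 := hsi.const_mul (Real.log M * (ε * f))
  have i4 := (hsi.indicator hB).const_mul (ε * f * c)
  have key : ∫ x, UM M (g x) ∂μ ≤ ∫ x, (UM M (ρ x) - ε * Real.log ((1 - ε) * M) * H.indicator ρ x +
      Real.log M * (ε * f) * s x - ε * f * c * B.indicator s x) ∂μ := by
    refine integral_mono_ae (gvar2_int hM hg hg0 hgi) (((i1.sub i2).add i3).sub i4) ?_
    filter_upwards [hin] with x hx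
    by_cases hxH : x ∈ H
    · have hxB : x ∉ B := fun h => h.1 hxH
      rw [hgH x hxH, indicator_of_mem hxH, indicator_of_notMem hxB]
      have b1 := UM_add_le hM (mul_nonneg (by linarith : 0 ≤ 1 - ε) (hρ0 x)) (hes x)
      have b2 := UM_sub_le hM (hx hxH) hε0.le (by linarith)
      linarith
    · rw [hgH' x hxH, indicator_of_notMem hxH]
      by_cases hxB : x ∈ B
      · rw [indicator_of_mem hxB]
        have b1 : ε * f * s x ≤ δ := by
          have c1 : s x ≤ n := hxB.2.2
          have c2 : ε * (n + 1) ≤ δ := (le_div_iff₀ (by positivity)).1 hε2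
          have c3 : f * s x ≤ n + 1 := by nlinarith [hs0 x]
          calc ε * f * s x = ε * (f * s x) := by ring
            _ ≤ ε * (n + 1) := mul_le_mul_of_nonneg_left c3 hε0.le
            _ ≤ δ := c2
        have b2 := gvar2_pt hM hε0 hf0.le (hρ0 x) (hs0 x) hδ0.le hxB.2.1 b1
        linarith
      · rw [indicator_of_notMem hxB]
        have b1 := UM_add_le hM (hρ0 x) (hes x)
        linarith
  have j1 : Integrable (fun x => UM M (ρ x) - ε * Real.log ((1 - ε) * M) * H.indicator ρ x) μ := i1.sub i2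
  have j2 : Integrable (fun x => UM M (ρ x) - ε * Real.log ((1 - ε) * M) * H.indicator ρ x +
      Real.log M * (ε * f) * s x) μ := j1.add i3
  rw [integral_sub j2 i4, integral_add j1 i3, integral_sub i1 i2,
    integral_const_mul, integral_const_mul, integral_const_mul, hs1, ← had, ← hθd,
    Real.log_mul (by linarith) hM.ne'] at key
  have l1 : -(2 * ε) ≤ Real.log (1 - ε) := by
    have h1 : 0 < 1 - ε := by linarith
    have h2 := Real.one_sub_inv_le_log_of_pos h1
    have h3 : (1 - ε)⁻¹ ≤ 1 + 2 * ε := by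
      rw [inv_le_iff_one_le_mul₀ h1]
      nlinarith
    linarith
  have l2 : -(Real.log (1 - ε)) * a < f * c * θ := by
    have h1 : -(Real.log (1 - ε)) * a ≤ 2 * ε * a := mul_le_mul_of_nonneg_right (by linarith) ha0
    have h2 : 2 * ε * a ≤ 2 * ε * f := mul_le_mul_of_nonneg_left (by linarith) (by positivity)
    have h3 : 2 * ε * f ≤ c * θ / 2 * f := mul_le_mul_of_nonneg_right (by linarith) hf0.le
    have h4 : 0 < f * c * θ := by positivity
    linarith
  have l3 := mul_lt_mul_of_pos_left l2 hε0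
  rw [e1] at U1
  have l4 : Real.log M * (ε * f) = Real.log M * (ε * a) + Real.log M * (ε * η.real univ) := by
    rw [hfa]
    ring
  refine U1.trans_lt (lt_of_lt_of_le ?_ U2)
  nlinarith

end Crest.Agent.R242.G
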