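import Crest.Agent.R242.GCD2
import Crest.Agent.R242.GVar2
import Crest.Agent.R242.GComp

/-! Row 242, part I-a: the midpoint that minimises the truncated entropy. -/

set_option autoImplicit false
set_option linter.unusedSectionVars false
open MeasureTheory Filter Set Topology
open scoped ENNReal NNReal BoundedContinuousFunction
open Crest.GeometryTopology.SyntheticRicci

noncomputable section
namespace Crest.Agent.R242.G

variable {X : Type*} [MetricSpace X] [SecondCountableTopology X] [MeasurableSpace X] [BorelSpace X]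
  {m μ ν μ₀ μ₁ : Measure X} {P P' : Measure (UCurve X)} {o : X} {R C D : ℝ}

theorem gmid_marg (P : Measure (UCurve X)) (S : Set (UCurve X)) (P' : Measure (UCurve X)) (a b : ℝ≥0∞)
    (t : unitInterval) :
    timeMarginal (P.restrict Sᶜ + a • P.restrict S + b • P') t =
      timeMarginal (P.restrict Sᶜ) t + a • timeMarginal (P.restrict S) t + b • timeMarginal P' t := by
  unfold timeMarginal
  rw [Measure.map_add _ _ (measurable_ev t), Measure.map_add _ _ (measurable_ev t), Measure.map_smul,
    Measure.map_smul]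

theorem gmid_eps {ε : ℝ} (h0 : 0 < ε) (h1 : ε < 1) : ENNReal.ofReal (1 - ε) + ENNReal.ofReal ε = 1 := by
  rw [← ENNReal.ofReal_add (by linarith) h0.le]; simp

/-- surgery: replace the fraction `ε` of the curves of `P` in `S` by an optimal plan `P'` between the end marginals of
the normalised restriction (`OptGeo.of_cost_le`: costs are additive, `P'` is cheaper than the normalised restriction) -/
theorem surgery (hP : OptGeo μ₀ μ₁ P) {S : Set (UCurve X)} (hS : MeasurableSet S) (hS0 : P S ≠ 0)
    (hP' : OptGeo (timeMarginal ((P S)⁻¹ • P.restrict S) 0) (timeMarginal ((P S)⁻¹ • P.restrict S) 1) P')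
    {ε : ℝ} (h0 : 0 < ε) (h1 : ε < 1) :
    OptGeo μ₀ μ₁ (P.restrict Sᶜ + ENNReal.ofReal (1 - ε) • P.restrict S + (ENNReal.ofReal ε * P S) • P') := by
  have := hP.prob
  have := hP'.prob
  have hne : P S ≠ ⊤ := measure_ne_top _ _
  have hc : ∀ x : ℝ≥0∞, ENNReal.ofReal ε * P S * ((P S)⁻¹ * x) = ENNReal.ofReal ε * x := fun x => by
    rw [mul_assoc, ← mul_assoc (P S), ENNReal.mul_inv_cancel hS0 hne, one_mul]
  have hm : ∀ t : unitInterval, timeMarginal P' t = timeMarginal ((P S)⁻¹ • P.restrict S) t →
      timeMarginal (P.restrict Sᶜ + ENNReal.ofReal (1 - ε) • P.restrict S +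
        (ENNReal.ofReal ε * P S) • P') t = timeMarginal P t := fun t ht => by
    rw [gmid_marg, ht]
    unfold timeMarginal
    rw [Measure.map_smul, smul_smul, mul_assoc, ENNReal.mul_inv_cancel hS0 hne, mul_one, add_assoc, ← add_smul,
      gmid_eps h0 h1, one_smul, ← Measure.map_add _ _ (measurable_ev t), add_comm,
      Measure.restrict_add_restrict_compl hS]
  have : IsProbabilityMeasure (P.restrict Sᶜ + ENNReal.ofReal (1 - ε) • P.restrict S +
      (ENNReal.ofReal ε * P S) • P') := ⟨by
    simp only [Measure.add_apply, Measure.smul_apply, smul_eq_mul, Measure.restrict_apply MeasurableSet.univ,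
      univ_inter, measure_univ, mul_one]
    rw [add_assoc, ← add_mul, gmid_eps h0 h1, one_mul, add_comm, measure_add_measure_compl hS, measure_univ]⟩
  refine hP.of_cost_le ?_ ((hm 0 hP'.zero).trans hP.zero) ((hm 1 hP'.one).trans hP.one) ?_
  · rw [ae_add_measure_iff, ae_add_measure_iff]
    exact ⟨⟨ae_restrict_of_ae hP.geo, Measure.ae_smul_measure (ae_restrict_of_ae hP.geo) _⟩,
      Measure.ae_smul_measure hP'.geo _⟩
  · have h2 := hP'.opt.2 _ (isCouplingOf_endpointLaw _)
    rw [quadCost_endpointLaw, quadCost_endpointLaw, lintegral_smul_measure, smul_eq_mul] at h2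
    rw [quadCost_endpointLaw, quadCost_endpointLaw, lintegral_add_measure, lintegral_add_measure,
      lintegral_smul_measure, lintegral_smul_measure, smul_eq_mul, smul_eq_mul,
      ← lintegral_add_compl (μ := P) _ hS]
    calc _ ≤ ∫⁻ γ in Sᶜ, ENNReal.ofReal (len γ ^ 2) ∂P +
          ENNReal.ofReal (1 - ε) * ∫⁻ γ in S, ENNReal.ofReal (len γ ^ 2) ∂P +
          ENNReal.ofReal ε * P S * ((P S)⁻¹ * ∫⁻ γ in S, ENNReal.ofReal (len γ ^ 2) ∂P) := by gcongr
      _ = _ := by rw [hc, add_assoc, ← add_mul, gmid_eps h0 h1, one_mul, add_comm]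
theorem bb_restrict [IsProbabilityMeasure P] {t : unitInterval} (h : BB m o R C (timeMarginal P t))
    {S : Set (UCurve X)} (hS : MeasurableSet S) (hS0 : P S ≠ 0) :
    BB m o R (C / P.real S) (timeMarginal ((P S)⁻¹ • P.restrict S) t) := by
  have hne : P S ≠ ⊤ := measure_ne_top _ _
  have : IsProbabilityMeasure ((P S)⁻¹ • P.restrict S) := ⟨by
    simp only [Measure.smul_apply, smul_eq_mul, Measure.restrict_apply MeasurableSet.univ, univ_inter]
    exact ENNReal.inv_mul_cancel hS0 hne⟩
  have hle : timeMarginal ((P S)⁻¹ • P.restrict S) t ≤ (P S)⁻¹ • timeMarginal P t := by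
    unfold timeMarginal
    rw [Measure.map_smul]
    intro s
    simp only [Measure.smul_apply, smul_eq_mul]
    gcongr
    exacts [measurable_ev t, Measure.restrict_le_self]
  refine ⟨timeMarginal_prob t, hle.trans ?_, ?_⟩
  · intro s
    have hp : 0 < P.real S := ENNReal.toReal_pos hS0 hne
    have := h.le s
    simp only [Measure.smul_apply, smul_eq_mul] at this ⊢
    rw [ENNReal.ofReal_div_of_pos hp, ofReal_measureReal, ENNReal.div_eq_inv_mul, mul_assoc]
    gcongr
  · exact (Measure.absolutelyContinuous_of_le hle).ae_le (Measure.ae_smul_measure h.supp _)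
/-- a measure with a finite dual entropy is absolutely continuous (`φ = T · 1_Z`, `T → ∞`) -/
theorem ac_of_Dn [IsProbabilityMeasure ν] {A : Set X} (hAm : m A ≠ ⊤) {H : ℝ}
    (h : ∀ φ : X → ℝ, Measurable φ → ∀ B : ℝ, (∀ x, |φ x| ≤ B) → Dn m A ν φ ≤ H) : ν ≪ m := by
  refine Measure.AbsolutelyContinuous.mk fun Z hZ hZ0 => ?_
  by_contra hne
  have hp : 0 < ν.real Z := ENNReal.toReal_pos hne (measure_ne_top _ _)
  set T : ℝ := (|H| + m.real A) / ν.real Z with hT
  have hT0 : 0 ≤ T := by positivity
  have := h (Z.indicator fun _ => T) (measurable_const.indicator hZ) T fun x => by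
    by_cases hx : x ∈ Z <;> simp [hx, abs_of_nonneg hT0, hT0]
  unfold Dn at this
  have e1 : ∫ x, Z.indicator (fun _ => T) x ∂ν = |H| + m.real A := by
    rw [integral_indicator hZ, setIntegral_const, smul_eq_mul, hT]; field_simp
  have e2 : ∫ x in A, Real.exp (Z.indicator (fun _ => T) x) ∂m = m.real A := by
    rw [integral_congr_ae (g := fun _ => (1 : ℝ))]
    · simp
    · refine ae_restrict_of_ae ?_
      filter_upwards [measure_eq_zero_iff_ae_notMem.1 hZ0] with x hx
      simp [hx]
  rw [e1, e2] at this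
  linarith [le_abs_self H]
theorem gmid_supp (hP : OptGeo μ₀ μ₁ P) (h0 : ∀ᵐ x ∂μ₀, x ∈ Metric.closedBall o R) (hD : ∀ᵐ γ ∂P, len γ ≤ D) :
    ∀ᵐ x ∂timeMarginal P half, x ∈ Metric.closedBall o (R + D / 2) := by
  refine (ae_timeMarginal_iff (p := fun x => x ∈ Metric.closedBall o (R + D / 2))
    Metric.isClosed_closedBall.measurableSet).2 ?_
  filter_upwards [hP.tracks h0 hD] with γ hγ
  have := hγ half
  rwa [show R + (half : ℝ) * D = R + D / 2 by simp [half]; ring] at this

theorem gmid_supp' (hP : OptGeo μ₀ μ₁ P) (h0 : ∀ᵐ x ∂μ₀, x ∈ Metric.closedBall o R)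
    (h1 : ∀ᵐ x ∂μ₁, x ∈ Metric.closedBall o R) : timeMarginal P half (Metric.closedBall o (2 * R))ᶜ = 0 := by
  have := gmid_supp hP h0 (len_of_supp h0 h1 P hP)
  rwa [show R + 2 * R / 2 = 2 * R by ring] at this

theorem exists_mid [ProperSpace X] (hfin : IsFiniteOnBalls m) {K N : ℝ} (hN : 1 < N) (hCD : IsCD m K N)
    (h0 : BB m o R C μ₀) (h1 : BB m o R C μ₁) (hD : 0 < D) (hL : Len μ₀ μ₁ D) :
    ∃ P, OptGeo μ₀ μ₁ P ∧
      BB m o (R + D / 2) (C * Real.exp ((max (-K) 0 + 1) * D ^ 2 / 8)) (timeMarginal P half) ∧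
      Ent m (timeMarginal P half) ≤ (Ent m μ₀ + Ent m μ₁) / 2 + max (-K) 0 * cost P / 8 := by
  have := h0.prob
  have := h1.prob
  have := sigmaFinite_of_balls hfin
  set κ := max (-K) 0 with hκ
  have hκ0 : 0 ≤ κ := le_max_right _ _
  set A := Metric.closedBall o (2 * R) with hAdef
  have hA : MeasurableSet A := Metric.isClosed_closedBall.measurableSet
  have hAm : m A ≠ ⊤ := (closedBall_lt_top hfin _ _).ne
  set M := C * Real.exp ((κ + 1) * D ^ 2 / 8) with hMdef
  have hC := h0.pos
  have hM : 0 < M := by positivity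
  obtain ⟨Pc, hPc, hDc⟩ := cd_mid hfin hN hCD h0 h1
  have hlsc : LowerSemicontinuous fun Q : ProbabilityMeasure (UCurve X) =>
      EM m A (Real.log M) (timeMarginal (Q : Measure (UCurve X)) half) := by
    refine lowerSemicontinuous_ciSup (fun Q => ?_) fun φ => (continuous_Dn m A half φ.1).lowerSemicontinuous
    have := timeMarginal_prob (P := (Q : Measure (UCurve X))) half
    exact bddAbove_Dn A _
  have hne0 : {Q : ProbabilityMeasure (UCurve X) | OptGeo μ₀ μ₁ (Q : Measure (UCurve X))}.Nonempty :=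
    ⟨⟨Pc, hPc.prob⟩, hPc⟩
  obtain ⟨Q, hQ, hmin⟩ := LowerSemicontinuousOn.exists_isMinOn hne0 (isCompact_optGeo h0.supp h1.supp)
    (hlsc.lowerSemicontinuousOn _)
  have hmin' : ∀ P', OptGeo μ₀ μ₁ P' → EM m A (Real.log M) (timeMarginal (Q : Measure (UCurve X)) half) ≤
      EM m A (Real.log M) (timeMarginal P' half) := fun P' hP' =>
    hmin (a := (⟨P', hP'.prob⟩ : ProbabilityMeasure (UCurve X))) hP'
  replace hQ : OptGeo μ₀ μ₁ (Q : Measure (UCurve X)) := hQ
  generalize (Q : Measure (UCurve X)) = P at hQ hmin'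
  clear hmin hlsc Q
  have := hQ.prob
  have := timeMarginal_prob (P := P) half
  have hνA := gmid_supp' hQ h0.supp h1.supp
  obtain ⟨H, hH, hHA, hMH, hle, hvar⟩ := variation (m := m) (ν := timeMarginal P half) hA hAm hνA hM
  have hH0 : timeMarginal P half H = 0 := by
    by_contra hne
    set S : Set (UCurve X) := (fun γ : UCurve X => γ.toMap half) ⁻¹' H with hSdef
    have hS : MeasurableSet S := measurable_ev half hH
    have hPS : timeMarginal P half H = P S := Measure.map_apply (measurable_ev half) hH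
    have hS0 : P S ≠ 0 := hPS ▸ hne
    have b0 := bb_restrict (t := 0) (by rw [hQ.zero]; exact h0) hS hS0
    have b1 := bb_restrict (t := 1) (by rw [hQ.one]; exact h1) hS hS0
    obtain ⟨P', hP', hD'⟩ := cd_mid hfin hN hCD b0 b1
    have := hP'.prob
    have := timeMarginal_prob (P := P') half
    have hσA := gmid_supp' hP' b0.supp b1.supp
    have hac : timeMarginal P' half ≪ m := ac_of_Dn hAm (hD' A hA hAm hσA)
    by_cases hσH : timeMarginal P' half Hᶜ = 0
    · have hf : 0 < P.real S := ENNReal.toReal_pos hS0 (measure_ne_top _ _)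
      have hHm : m H ≠ ⊤ := ne_top_of_le_ne_top hAm (measure_mono hHA)
      have h2 := hD' H hH hHm hσH (fun _ => Real.log (M / P.real S)) measurable_const _ fun _ => le_rfl
      have : IsProbabilityMeasure ((P S)⁻¹ • P.restrict S) := ⟨by
        simp only [Measure.smul_apply, smul_eq_mul, Measure.restrict_apply MeasurableSet.univ, univ_inter]
        exact ENNReal.inv_mul_cancel hS0 (measure_ne_top _ _)⟩
      have hlen : ∀ᵐ γ ∂((P S)⁻¹ • P.restrict S), len γ ≤ D :=
        Measure.ae_smul_measure (ae_restrict_of_ae (hL P hQ)) _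
      have hc : cost P' ≤ D ^ 2 := (hP'.cost_le rfl rfl (integrable_len_sq hlen)).2.trans (cost_le hlen)
      have e0 := b0.ent_le_log hfin
      have e1 := b1.ent_le_log hfin
      unfold Dn at h2
      rw [integral_const, setIntegral_const, Real.exp_log (by positivity)] at h2
      simp only [probReal_univ, smul_eq_mul, one_mul] at h2
      have h3 : M * m.real H ≤ P.real S := by
        have := ENNReal.toReal_mono (measure_ne_top _ _) hMH
        rwa [ENNReal.toReal_mul, ENNReal.toReal_ofReal hM.le, hPS] at this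
      have h4 : m.real H * (M / P.real S) ≤ 1 := by
        rw [← mul_div_assoc, div_le_one hf]; linarith
      have h5 : Real.log (M / P.real S) = Real.log (C / P.real S) + (κ + 1) * D ^ 2 / 8 := by
        rw [hMdef, mul_div_right_comm, Real.log_mul (by positivity) (by positivity), Real.log_exp]
      have h6 : κ * cost P' ≤ κ * D ^ 2 := mul_le_mul_of_nonneg_left hc hκ0
      have h7 : 0 < D ^ 2 := by positivity
      rw [← hκ] at h2
      linarith
    · obtain ⟨ε, e0, e1, hlt⟩ := hvar _ inferInstance hac hσA hne hσH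
      have h2 := hmin' _ (surgery hQ hS hS0 hP' e0 e1)
      rw [gmid_marg] at h2
      have r1 : timeMarginal (P.restrict S) half = (timeMarginal P half).restrict H :=
        (Measure.restrict_map (measurable_ev half) hH).symm
      have r2 : timeMarginal (P.restrict Sᶜ) half = (timeMarginal P half).restrict Hᶜ :=
        (Measure.restrict_map (measurable_ev half) hH.compl).symm
      rw [r1, r2, ← hPS] at h2
      exact absurd hlt (not_lt.2 h2)
  have hBB : BB m o (R + D / 2) M (timeMarginal P half) :=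
    ⟨inferInstance, hle hH0, gmid_supp hQ h0.supp (hL P hQ)⟩
  refine ⟨P, hQ, hBB, (hBB.ent_le_EM hfin hA hAm hνA).trans ((hmin' Pc hPc).trans ?_)⟩
  rw [hQ.cost_eq hPc]
  exact EM_le fun φ _ => hDc A hA hAm (gmid_supp' hPc h0.supp h1.supp) φ φ.continuous.measurable ‖φ‖
    fun x => φ.norm_coe_le_norm x

end Crest.Agent.R242.G
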