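import Crest.Agent.R242.GCurve2

/-! Row 242, part I-a: elementary facts on plans. -/

set_option autoImplicit false
set_option linter.unusedSectionVars false
open MeasureTheory Filter Set Topology
open scoped ENNReal NNReal BoundedContinuousFunction
open Crest.GeometryTopology.SyntheticRicci

noncomputable section
namespace Crest.Agent.R242.G

variable {X : Type*} [MetricSpace X] [SecondCountableTopology X] [MeasurableSpace X] [BorelSpace X]
  {m μ μ₀ μ₁ : Measure X} {P P' : Measure (UCurve X)} {o : X} {R C D : ℝ}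

theorem measurable_ev (t : unitInterval) : Measurable fun γ : UCurve X => γ.toMap t := (continuous_ev t).measurable
theorem sigmaFinite_of_balls (hfin : IsFiniteOnBalls m) : SigmaFinite m := by
  have : IsLocallyFiniteMeasure m := ⟨fun x => ⟨Metric.ball x 1, Metric.ball_mem_nhds x one_pos, hfin x 1⟩⟩
  infer_instance
theorem locallyFinite_of_balls (hfin : IsFiniteOnBalls m) : IsLocallyFiniteMeasure m := 
  ⟨fun x => ⟨Metric.ball x 1, Metric.ball_mem_nhds x one_pos, hfin x 1⟩⟩
theorem closedBall_lt_top (hfin : IsFiniteOnBalls m) (o : X) (R : ℝ) : m (Metric.closedBall o R) < ⊤ := 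
  (measure_mono (Metric.closedBall_subset_ball (lt_add_one R))).trans_lt (hfin o (R + 1))
theorem BB.pos (h : BB m o R C μ) : 0 < C := by
  have := h.prob
  by_contra hn
  have h1 := Measure.le_iff'.1 h.le univ
  rw [ENNReal.ofReal_of_nonpos (not_lt.1 hn)] at h1
  simp at h1
theorem BB.nonneg (h : BB m o R C μ) : 0 ≤ R := by
  have := h.prob
  obtain ⟨x, hx⟩ := h.supp.exists
  exact dist_nonneg.trans hx
theorem BB.mono (h : BB m o R C μ) {R' C' : ℝ} (hR : R ≤ R') (hC : C ≤ C') : BB m o R' C' μ := by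
  refine ⟨h.prob, h.le.trans (Measure.le_iff'.2 fun S => ?_),
    h.supp.mono fun x hx => Metric.closedBall_subset_closedBall hR hx⟩
  rw [Measure.smul_apply, Measure.smul_apply, smul_eq_mul, smul_eq_mul]
  exact mul_le_mul_left (ENNReal.ofReal_le_ofReal hC) _
theorem BB.ac (h : BB m o R C μ) : μ ≪ m := Measure.absolutelyContinuous_of_le_smul h.le
theorem BB.moment (h : BB m o R C μ) : HasFiniteSecondMoment μ := by
  have := h.prob
  have h1 : ∀ᵐ x ∂μ, edist x o ^ 2 ≤ ENNReal.ofReal R ^ 2 := h.supp.mono fun x hx => by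
    rw [edist_dist]
    gcongr
    exact hx
  refine ⟨o, (lintegral_mono_ae h1).trans_lt ?_⟩
  rw [lintegral_const, measure_univ, mul_one]
  exact ENNReal.pow_lt_top ENNReal.ofReal_lt_top
/-- normalised restriction of `m` -/
theorem BB.unif {A : Set X} (hA : MeasurableSet A) (h0 : m A ≠ 0) (h1 : m A ≠ ⊤) (hAR : A ⊆ Metric.closedBall o R) :
    BB m o R (m.real A)⁻¹ ((m A)⁻¹ • m.restrict A) := by
  refine ⟨ProbabilityTheory.cond_isProbabilityMeasure_of_finite h0 h1, Measure.le_iff'.2 fun S => ?_,
    Measure.ae_smul_measure ((ae_restrict_mem hA).mono fun x hx => hAR hx) _⟩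
  rw [Measure.smul_apply, Measure.smul_apply, smul_eq_mul, smul_eq_mul, Measure.real,
    ENNReal.ofReal_inv_of_pos (ENNReal.toReal_pos h0 h1), ENNReal.ofReal_toReal h1]
  exact mul_le_mul_right (Measure.le_iff'.1 Measure.restrict_le_self S) _
theorem timeMarginal_prob [IsProbabilityMeasure P] (t : unitInterval) : IsProbabilityMeasure (timeMarginal P t) := 
  Measure.isProbabilityMeasure_map (measurable_ev t).aemeasurable
theorem ae_timeMarginal {t : unitInterval} {p : X → Prop} (h : ∀ᵐ x ∂timeMarginal P t, p x) :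
    ∀ᵐ γ ∂P, p (γ.toMap t) := ae_of_ae_map (measurable_ev t).aemeasurable h
theorem ae_timeMarginal_iff {t : unitInterval} {p : X → Prop} (hp : MeasurableSet {x | p x}) :
    (∀ᵐ x ∂timeMarginal P t, p x) ↔ ∀ᵐ γ ∂P, p (γ.toMap t) := ae_map_iff (measurable_ev t).aemeasurable hp
theorem isCouplingOf_endpointLaw (P : Measure (UCurve X)) :
    IsCouplingOf (endpointLaw P) (timeMarginal P 0) (timeMarginal P 1) := 
  ⟨Measure.map_map measurable_fst ((measurable_ev 0).prodMk (measurable_ev 1)),
    Measure.map_map measurable_snd ((measurable_ev 0).prodMk (measurable_ev 1))⟩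
theorem OptGeo.zero (h : OptGeo μ₀ μ₁ P) : timeMarginal P 0 = μ₀ := (isCouplingOf_endpointLaw P).1.symm.trans h.opt.1.1
theorem OptGeo.one (h : OptGeo μ₀ μ₁ P) : timeMarginal P 1 = μ₁ := (isCouplingOf_endpointLaw P).2.symm.trans h.opt.1.2
theorem quadCost_endpointLaw (P : Measure (UCurve X)) :
    quadCost (endpointLaw P) = ∫⁻ γ, ENNReal.ofReal (len γ ^ 2) ∂P := by
  unfold quadCost endpointLaw
  rw [lintegral_map (measurable_edist.pow_const 2) ((measurable_ev 0).prodMk (measurable_ev 1))]
  refine lintegral_congr fun γ => ?_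
  rw [edist_dist, ENNReal.ofReal_pow (len_nonneg γ)]
  rfl
theorem integrable_len_sq [IsFiniteMeasure P] (hD : ∀ᵐ γ ∂P, len γ ≤ D) : Integrable (fun γ => len γ ^ 2) P := by
  refine Integrable.of_bound (continuous_len.pow 2).aestronglyMeasurable (D ^ 2) (hD.mono fun γ hγ => ?_)
  rw [Real.norm_of_nonneg (sq_nonneg _)]
  exact pow_le_pow_left₀ (len_nonneg γ) hγ 2
theorem quadCost_eq_cost (h : Integrable (fun γ => len γ ^ 2) P) :
    quadCost (endpointLaw P) = ENNReal.ofReal (cost P) := by
  rw [quadCost_endpointLaw, cost,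
    ofReal_integral_eq_lintegral_ofReal h (Eventually.of_forall fun γ => sq_nonneg _)]
theorem cost_nonneg (P : Measure (UCurve X)) : 0 ≤ cost P := integral_nonneg fun _ => sq_nonneg _
theorem cost_le [IsProbabilityMeasure P] (hD : ∀ᵐ γ ∂P, len γ ≤ D) : cost P ≤ D ^ 2 := by
  have h := integral_mono_ae (integrable_len_sq hD) (integrable_const (D ^ 2))
    (hD.mono fun γ hγ => pow_le_pow_left₀ (len_nonneg γ) hγ 2)
  simpa [cost] using h

end Crest.Agent.R242.G
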