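import Crest.Agent.R242.GPlan

/-! Row 242, part I-a: elementary facts on plans. -/

set_option autoImplicit false
set_option linter.unusedSectionVars false
open MeasureTheory Filter Set Topology
open scoped ENNReal NNReal BoundedContinuousFunction
open Crest.GeometryTopology.SyntheticRicci

noncomputable section
namespace Crest.Agent.R242.G

variable {X : Type*} [MetricSpace X] [SecondCountableTopology X] [MeasurableSpace X] [BorelSpace X]
  {m μ μ₀ μ₁ : Measure X} {P P' : Measure (UCurve X)} {o : X} {R C D : ℝ}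

/-- an optimal plan is cheaper than every plan with the same end marginals -/
theorem OptGeo.cost_le (h : OptGeo μ₀ μ₁ P) (h0 : timeMarginal P' 0 = μ₀) (h1 : timeMarginal P' 1 = μ₁)
    (hi : Integrable (fun γ => len γ ^ 2) P') : Integrable (fun γ => len γ ^ 2) P ∧ cost P ≤ cost P' := by
  have h2 : quadCost (endpointLaw P) ≤ ENNReal.ofReal (cost P') := by
    rw [← quadCost_eq_cost hi]
    exact h.opt.2 _ (h0 ▸ h1 ▸ isCouplingOf_endpointLaw P')
  have h3 : Integrable (fun γ => len γ ^ 2) P := by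
    refine ⟨(continuous_len.pow 2).aestronglyMeasurable, ?_⟩
    rw [hasFiniteIntegral_iff_ofReal (Eventually.of_forall fun γ => sq_nonneg _), ← quadCost_endpointLaw]
    exact h2.trans_lt ENNReal.ofReal_lt_top
  refine ⟨h3, ?_⟩
  rw [quadCost_eq_cost h3] at h2
  exact (ENNReal.ofReal_le_ofReal_iff (cost_nonneg _)).1 h2
theorem OptGeo.cost_eq (h : OptGeo μ₀ μ₁ P) (h' : OptGeo μ₀ μ₁ P') : cost P = cost P' := by
  have e : quadCost (endpointLaw P) = quadCost (endpointLaw P') :=
    le_antisymm (h.opt.2 _ h'.opt.1) (h'.opt.2 _ h.opt.1)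
  have k : ∀ Q : Measure (UCurve X), cost Q = (quadCost (endpointLaw Q)).toReal := fun Q => by
    rw [quadCost_endpointLaw, cost]
    exact integral_eq_lintegral_of_nonneg_ae (Eventually.of_forall fun γ => sq_nonneg _)
      (continuous_len.pow 2).aestronglyMeasurable
  rw [k, k, e]
/-- a geodesic plan with the same marginals that is not more expensive than an optimal one -/
theorem OptGeo.of_cost_le (h : OptGeo μ₀ μ₁ P) [IsProbabilityMeasure P'] (hg : ∀ᵐ γ ∂P', IsCSGeodesic γ)
    (h0 : timeMarginal P' 0 = μ₀) (h1 : timeMarginal P' 1 = μ₁)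
    (hc : quadCost (endpointLaw P') ≤ quadCost (endpointLaw P)) : OptGeo μ₀ μ₁ P' := ⟨inferInstance, hg, h0 ▸ h1 ▸ isCouplingOf_endpointLaw P', fun q hq => hc.trans (h.opt.2 q hq)⟩
theorem len_of_supp (h0 : ∀ᵐ x ∂μ₀, x ∈ Metric.closedBall o R) (h1 : ∀ᵐ x ∂μ₁, x ∈ Metric.closedBall o R) :
    Len μ₀ μ₁ (2 * R) := fun P hP => by
  rw [← hP.zero] at h0
  rw [← hP.one] at h1
  filter_upwards [ae_timeMarginal h0, ae_timeMarginal h1] with γ a b
  rw [Metric.mem_closedBall] at a b
  have := dist_triangle_right (γ.toMap 0) (γ.toMap 1) o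
  unfold len
  linarith
theorem Len.mono (h : Len μ₀ μ₁ D) {D' : ℝ} (hD : D ≤ D') : Len μ₀ μ₁ D' := fun P hP => (h P hP).mono fun _ a => a.trans hD
theorem OptGeo.tracks (h : OptGeo μ₀ μ₁ P) (h0 : ∀ᵐ x ∂μ₀, x ∈ Metric.closedBall o R) (hD : ∀ᵐ γ ∂P, len γ ≤ D) :
    ∀ᵐ γ ∂P, ∀ t : unitInterval, γ.toMap t ∈ Metric.closedBall o (R + t * D) := by
  rw [← h.zero] at h0
  filter_upwards [ae_timeMarginal h0, hD, h.geo] with γ a b c t
  exact geo_mem_ball c a b t
theorem timeMarginal_fstH (P : Measure (UCurve X)) (s t : unitInterval) (h : (t : ℝ) = s / 2) :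
    timeMarginal (P.map fstH) s = timeMarginal P t := by
  unfold timeMarginal
  rw [Measure.map_map (measurable_ev s) continuous_fstH.measurable]
  congr 1
  funext γ
  exact fstH_apply γ s t h
theorem timeMarginal_sndH (P : Measure (UCurve X)) (s t : unitInterval) (h : (t : ℝ) = (1 + s) / 2) :
    timeMarginal (P.map sndH) s = timeMarginal P t := by
  unfold timeMarginal
  rw [Measure.map_map (measurable_ev s) continuous_sndH.measurable]
  congr 1
  funext γ
  exact sndH_apply γ s t h
theorem ae_geo_fstH (h : ∀ᵐ γ ∂P, IsCSGeodesic γ) : ∀ᵐ γ ∂P.map fstH, IsCSGeodesic γ := (ae_map_iff continuous_fstH.aemeasurable isClosed_geo.measurableSet).2 (h.mono fun _ a => (geo_fstH a).1)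
theorem ae_geo_sndH (h : ∀ᵐ γ ∂P, IsCSGeodesic γ) : ∀ᵐ γ ∂P.map sndH, IsCSGeodesic γ := (ae_map_iff continuous_sndH.aemeasurable isClosed_geo.measurableSet).2 (h.mono fun _ a => (geo_sndH a).1)
theorem cost_fstH (h : ∀ᵐ γ ∂P, IsCSGeodesic γ) : cost (P.map fstH) = cost P / 4 := by
  unfold cost
  rw [integral_map (f := fun γ : UCurve X => len γ ^ 2) continuous_fstH.aemeasurable
    (continuous_len.pow 2).aestronglyMeasurable, ← integral_div]
  refine integral_congr_ae (h.mono fun γ a => ?_)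
  simp only [(geo_fstH a).2]
  ring
theorem cost_sndH (h : ∀ᵐ γ ∂P, IsCSGeodesic γ) : cost (P.map sndH) = cost P / 4 := by
  unfold cost
  rw [integral_map (f := fun γ : UCurve X => len γ ^ 2) continuous_sndH.aemeasurable
    (continuous_len.pow 2).aestronglyMeasurable, ← integral_div]
  refine integral_congr_ae (h.mono fun γ a => ?_)
  simp only [(geo_sndH a).2]
  ring
theorem quadCost_fstH (h : ∀ᵐ γ ∂P, IsCSGeodesic γ) :
    4 * quadCost (endpointLaw (P.map fstH)) = quadCost (endpointLaw P) := by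
  have hm : Measurable fun γ : UCurve X => ENNReal.ofReal (len γ ^ 2) :=
    (continuous_len.pow 2).measurable.ennreal_ofReal
  rw [quadCost_endpointLaw, quadCost_endpointLaw, lintegral_map hm continuous_fstH.measurable,
    ← lintegral_const_mul' _ _ (by norm_num)]
  refine lintegral_congr_ae (h.mono fun γ a => ?_)
  simp only [(geo_fstH a).2]
  rw [← ENNReal.ofReal_ofNat 4, ← ENNReal.ofReal_mul (by norm_num)]
  congr 1
  ring
theorem quadCost_sndH (h : ∀ᵐ γ ∂P, IsCSGeodesic γ) :
    4 * quadCost (endpointLaw (P.map sndH)) = quadCost (endpointLaw P) := by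
  have hm : Measurable fun γ : UCurve X => ENNReal.ofReal (len γ ^ 2) :=
    (continuous_len.pow 2).measurable.ennreal_ofReal
  rw [quadCost_endpointLaw, quadCost_endpointLaw, lintegral_map hm continuous_sndH.measurable,
    ← lintegral_const_mul' _ _ (by norm_num)]
  refine lintegral_congr_ae (h.mono fun γ a => ?_)
  simp only [(geo_sndH a).2]
  rw [← ENNReal.ofReal_ofNat 4, ← ENNReal.ofReal_mul (by norm_num)]
  congr 1
  ring
/-- a geodesic plan with bounded lengths and bounded compression is a test plan -/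
theorem isTestPlan2_of_geo [IsProbabilityMeasure P] (hg : ∀ᵐ γ ∂P, IsCSGeodesic γ) (hD : ∀ᵐ γ ∂P, len γ ≤ D)
    (hC : ∀ t, timeMarginal P t ≤ ENNReal.ofReal C • m) : IsTestPlan2 m P := by
  refine ⟨inferInstance, ⟨C.toNNReal, hC⟩, hg.mono fun _ a => geo_hasL2Speed a, ?_⟩
  refine lt_of_le_of_lt (lintegral_mono_ae (g := fun _ => ENNReal.ofReal D ^ 2) ?_) ?_
  · filter_upwards [hg, hD] with γ a b
    refine le_trans (lintegral_mono (g := fun _ => ENNReal.ofReal D ^ 2) fun t => ?_) ?_
    · exact pow_le_pow_left' ((geo_upperSpeed_le a t).trans (ENNReal.ofReal_le_ofReal b)) 2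
    · simp
  · rw [lintegral_const, measure_univ, mul_one]
    exact ENNReal.pow_lt_top ENNReal.ofReal_lt_top
/-- the plan given by the curvature-dimension condition -/
theorem exists_optGeo {K N : ℝ} (hCD : IsCD m K N) (h0 : BB m o R C μ₀) (h1 : BB m o R C μ₁) :
    ∃ P, OptGeo μ₀ μ₁ P := by
  obtain ⟨P, a, b, c, -⟩ := hCD μ₀ μ₁ h0.prob h1.prob h0.moment h1.moment h0.ac h1.ac
  exact ⟨P, a, b, c⟩

end Crest.Agent.R242.G
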