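import Crest.Agent.R242.GCD
import Crest.Agent.R242.GComp

/-! Row 242, part I-a: doubling, properness, geodesics. -/

set_option autoImplicit false
set_option linter.unusedSectionVars false
open MeasureTheory Filter Set Topology
open scoped ENNReal NNReal BoundedContinuousFunction
open Crest.GeometryTopology.SyntheticRicci

noncomputable section
namespace Crest.Agent.R242.G

variable {X : Type*} [MetricSpace X] [SecondCountableTopology X] [MeasurableSpace X] [BorelSpace X]
  {m μ ν μ₀ μ₁ : Measure X} {P P' : Measure (UCurve X)} {o : X} {R C D : ℝ}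

/-- `IsCD` with `μ₀`, `μ₁` uniform on `ball x (s/8)`, `ball x s` (`BB.unif`), `N' = N`, `t = 1/2`: midpoints lie in
`A = ball x (3s/4)`; left side `≥ (1/2) exp (-κ (2S)²/(8N)) m(ball x s)^(1/N)` (drop the first term, `tau_half_ge`,
`ρ₁ = m(ball x s)⁻¹` `μ₁`-a.e.; `≤` from `BB.rn_le` is enough), right side `≤ m(A)^(1/N)` (`renyi_le` with the constant
`φ = -log m(A)`). -/
theorem cd_ball [m.IsOpenPosMeasure] (hfin : IsFiniteOnBalls m) {K N : ℝ} (hN : 1 < N) (hCD : IsCD m K N) (S : ℝ) :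
    ∃ c : ℝ, 0 < c ∧ ∀ (x : X) (s : ℝ), 0 < s → s ≤ S →
      c * m.real (Metric.ball x s) ≤ m.real (Metric.ball x (3 / 4 * s)) := by
  haveI := sigmaFinite_of_balls hfin
  have hN0 : 0 < N := by linarith
  set c0 : ℝ := 1 / 2 * Real.exp (-(max (-K) 0 * (2 * S) ^ 2 / (8 * N))) with hc0
  have hc0p : 0 < c0 := by positivity
  refine ⟨Real.exp (N * Real.log c0), Real.exp_pos _, fun x s hs hsS => ?_⟩
  have hpos : ∀ r : ℝ, 0 < r → m (Metric.ball x r) ≠ 0 := fun r hr => (Metric.measure_ball_pos m x hr).ne'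
  have hrpos : ∀ r : ℝ, 0 < r → 0 < m.real (Metric.ball x r) := fun r hr =>
    ENNReal.toReal_pos (hpos r hr) (hfin x r).ne
  have b0 := BB.unif (m := m) (o := x) (R := s / 8) measurableSet_ball (hpos (s / 8) (by positivity))
    (hfin x _).ne Metric.ball_subset_closedBall
  have b1 := BB.unif (m := m) (o := x) (R := s) measurableSet_ball (hpos s hs) (hfin x _).ne
    Metric.ball_subset_closedBall
  set μ₀ := (m (Metric.ball x (s / 8)))⁻¹ • m.restrict (Metric.ball x (s / 8))
  set μ₁ := (m (Metric.ball x s))⁻¹ • m.restrict (Metric.ball x s)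
  obtain ⟨P, hP, hg, ho, hin⟩ := hCD μ₀ μ₁ b0.prob b1.prob b0.moment b1.moment b0.ac b1.ac
  have hO : OptGeo μ₀ μ₁ P := ⟨hP, hg, ho⟩
  haveI := b1.prob
  set a := m.real (Metric.ball x (3 / 4 * s)) with ha
  set b := m.real (Metric.ball x s) with hb
  have hap : 0 < a := hrpos _ (by positivity)
  have hbp : 0 < b := hrpos _ hs
  have e0 : ∀ᵐ γ ∂P, γ.toMap 0 ∈ Metric.closedBall x (s / 8) :=
    ae_timeMarginal (t := 0) (p := fun z => z ∈ Metric.closedBall x (s / 8)) (by rw [hO.zero]; exact b0.supp)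
  have e1 : ∀ᵐ γ ∂P, γ.toMap 1 ∈ Metric.closedBall x s :=
    ae_timeMarginal (t := 1) (p := fun z => z ∈ Metric.closedBall x s) (by rw [hO.one]; exact b1.supp)
  have eL : ∀ᵐ γ ∂P, dist (γ.toMap 0) (γ.toMap 1) ≤ 9 / 8 * s := by
    filter_upwards [e0, e1] with γ h0 h1
    rw [Metric.mem_closedBall] at h0 h1
    have := dist_triangle_right (γ.toMap 0) (γ.toMap 1) x
    linarith
  have eH : ∀ᵐ γ ∂P, γ.toMap half ∈ Metric.ball x (3 / 4 * s) := by
    filter_upwards [e0, eL, hg] with γ h0 h1 h2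
    have h3 := geo_mem_ball h2 h0 (D := 9 / 8 * s) h1 half
    rw [Metric.mem_closedBall] at h3
    rw [Metric.mem_ball]
    have : (half : ℝ) = 1 / 2 := rfl
    rw [this] at h3
    linarith
  haveI : IsProbabilityMeasure (timeMarginal P half) := timeMarginal_prob half
  have hν : timeMarginal P half (Metric.ball x (3 / 4 * s))ᶜ = 0 :=
    (ae_timeMarginal_iff (P := P) (t := half) (p := fun z => z ∈ Metric.ball x (3 / 4 * s))
      measurableSet_ball).2 eH
  have hR := renyi_le (m := m) (ν := timeMarginal P half) measurableSet_ball (hfin x _).ne hν hN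
    (φ := fun _ => -Real.log a) measurable_const (B := |Real.log a|) (fun _ => by rw [abs_neg])
  have hR' : 1 / N * ∫ _ in Metric.ball x (3 / 4 * s), Real.exp ((1 - 1 / N) * -Real.log a) ∂m +
      (1 - 1 / N) * ∫ _, Real.exp (- -Real.log a / N) ∂timeMarginal P half = Real.exp (Real.log a / N) := by
    simp only [integral_const, smul_eq_mul, probReal_univ, one_mul, neg_neg,
      measureReal_restrict_apply_univ]
    rw [← ha]
    have : a * Real.exp ((1 - 1 / N) * -Real.log a) = Real.exp (Real.log a / N) := by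
      conv_lhs => rw [← Real.exp_log hap]
      rw [Real.log_exp, ← Real.exp_add]
      congr 1
      ring
    rw [this]
    ring
  rw [hR'] at hR
  have eρ : ∀ᵐ γ ∂P, μ₁.rnDeriv m (γ.toMap 1) ≤ ENNReal.ofReal b⁻¹ := by
    refine ae_timeMarginal (t := 1) (p := fun z => μ₁.rnDeriv m z ≤ ENNReal.ofReal b⁻¹) ?_
    rw [hO.one]
    refine b1.ac.ae_le ?_
    filter_upwards [b1.rn_le hfin, Measure.rnDeriv_lt_top μ₁ m] with z h1 h2
    rw [← ENNReal.ofReal_toReal h2.ne]
    exact ENNReal.ofReal_le_ofReal h1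
  have hL : ENNReal.ofReal (c0 * Real.exp (Real.log b / N)) ≤ ENNReal.ofReal (Real.exp (Real.log a / N)) := by
    refine le_trans ?_ ((hin N le_rfl half).trans hR)
    have : ENNReal.ofReal (c0 * Real.exp (Real.log b / N)) =
        ∫⁻ _, ENNReal.ofReal (c0 * Real.exp (Real.log b / N)) ∂P := by simp
    rw [this]
    refine lintegral_mono_ae ?_
    filter_upwards [eL, eρ] with γ h1 h2
    refine le_trans ?_ le_add_self
    rw [ENNReal.ofReal_mul hc0p.le]
    refine mul_le_mul' ?_ ?_
    · refine le_trans (ENNReal.ofReal_le_ofReal ?_) (tau_half_ge (K := K) hN dist_nonneg)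
      rw [hc0]
      have h3 : dist (γ.toMap 0) (γ.toMap 1) ^ 2 ≤ (2 * S) ^ 2 :=
        pow_le_pow_left₀ dist_nonneg (by linarith) 2
      have h4 : 0 ≤ max (-K) 0 := le_max_right _ _
      gcongr
    · rw [neg_div, ENNReal.rpow_neg, ENNReal.le_inv_iff_le_inv]
      refine (ENNReal.rpow_le_rpow h2 (by positivity)).trans (le_of_eq ?_)
      rw [ENNReal.ofReal_rpow_of_pos (inv_pos.2 hbp), ← ENNReal.ofReal_inv_of_pos (Real.exp_pos _),
        Real.rpow_def_of_pos (inv_pos.2 hbp), Real.log_inv, ← Real.exp_neg]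
      congr 2
      ring
  have h1 := (ENNReal.ofReal_le_ofReal_iff (Real.exp_pos _).le).1 hL
  have h2 : Real.log c0 + Real.log b / N ≤ Real.log a / N := by
    rw [← Real.exp_le_exp, Real.exp_add, Real.exp_log hc0p]
    exact h1
  have h3 : N * Real.log c0 + Real.log b ≤ Real.log a := by
    have := mul_le_mul_of_nonneg_left h2 hN0.le
    rwa [mul_add, mul_div_cancel₀ _ hN0.ne', mul_div_cancel₀ _ hN0.ne'] at this
  have h4 := Real.exp_le_exp.2 h3
  rwa [Real.exp_add, Real.exp_log hbp, Real.exp_log hap] at h4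

theorem gproper_iter {c S : ℝ} (hc : 0 < c) (h : ∀ (x : X) (s : ℝ), 0 < s → s ≤ S →
      c * m.real (Metric.ball x s) ≤ m.real (Metric.ball x (3 / 4 * s))) (k : ℕ) (x : X) (s : ℝ) (hs : 0 < s)
    (hsS : s ≤ S) : c ^ k * m.real (Metric.ball x s) ≤ m.real (Metric.ball x ((3 / 4) ^ k * s)) := by
  induction k with
  | zero => simp
  | succ k ih =>
    have h1 : (3 / 4 : ℝ) ^ k ≤ 1 := pow_le_one₀ (by norm_num) (by norm_num)
    have h2 := h x ((3 / 4) ^ k * s) (by positivity) (by nlinarith)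
    have h3 : (3 / 4 : ℝ) ^ (k + 1) * s = 3 / 4 * ((3 / 4) ^ k * s) := by ring
    rw [h3, pow_succ', mul_assoc]
    exact (mul_le_mul_of_nonneg_left ih hc.le).trans h2

/-- iterate `cd_ball` -/
theorem cd_ball_lower [m.IsOpenPosMeasure] (hfin : IsFiniteOnBalls m) {K N : ℝ} (hN : 1 < N) (hCD : IsCD m K N)
    (o : X) (R : ℝ) {ε : ℝ} (hε : 0 < ε) :
    ∃ c : ℝ, 0 < c ∧ ∀ x ∈ Metric.closedBall o R, c ≤ m.real (Metric.ball x ε) := by
  obtain ⟨c, hc, h⟩ := cd_ball hfin hN hCD (|R| + 1)
  have hS : 0 < |R| + 1 := by positivity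
  obtain ⟨k, hk⟩ := exists_pow_lt_of_lt_one (div_pos hε hS) (by norm_num : (3 / 4 : ℝ) < 1)
  have h1 : 0 < m.real (Metric.ball o 1) :=
    ENNReal.toReal_pos (Metric.measure_ball_pos m o one_pos).ne' (hfin o 1).ne
  refine ⟨c ^ k * m.real (Metric.ball o 1), by positivity, fun x hx => ?_⟩
  have h2 := gproper_iter hc h k x (|R| + 1) hS le_rfl
  have h3 : m.real (Metric.ball o 1) ≤ m.real (Metric.ball x (|R| + 1)) := by
    refine measureReal_mono (Metric.ball_subset ?_) (hfin _ _).ne
    rw [Metric.mem_closedBall] at hx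
    rw [dist_comm]
    have := le_abs_self R
    linarith
  have h4 : m.real (Metric.ball x ((3 / 4) ^ k * (|R| + 1))) ≤ m.real (Metric.ball x ε) := by
    refine measureReal_mono (Metric.ball_subset_ball ?_) (hfin _ _).ne
    exact ((lt_div_iff₀ hS).1 hk).le
  exact (mul_le_mul_of_nonneg_left h3 (by positivity)).trans (h2.trans h4)

/-- local doubling -/
theorem cd_doubling [m.IsOpenPosMeasure] (hfin : IsFiniteOnBalls m) {K N : ℝ} (hN : 1 < N) (hCD : IsCD m K N) (S : ℝ) :
    ∃ c : ℝ, 0 < c ∧ ∀ (x : X) (s : ℝ), 0 < s → s ≤ S →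
      m.real (Metric.ball x (2 * s)) ≤ c * m.real (Metric.ball x s) := by
  obtain ⟨c, hc, h⟩ := cd_ball hfin hN hCD (2 * S)
  refine ⟨(c ^ 3)⁻¹, by positivity, fun x s hs hsS => ?_⟩
  have h2 := gproper_iter hc h 3 x (2 * s) (by positivity) (by linarith)
  rw [le_inv_mul_iff₀ (by positivity)]
  refine h2.trans (measureReal_mono (Metric.ball_subset_ball ?_) (hfin _ _).ne)
  norm_num
  linarith

/-- closed balls are totally bounded: an `ε`-separated set in `closedBall o R` has at most
`m(ball o (R+ε))/c` points (disjoint balls of radius `ε/2`); `Metric.totallyBounded_iff`, `seq_frontier`-type choice or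
a maximal separated finset; `ProperSpace.of_isCompact_closedBall_of_le`/constructor. -/
theorem properSpace_of_cd {X : Type*} [MetricSpace X] [CompleteSpace X] [TopologicalSpace.SeparableSpace X]
    [MeasurableSpace X] [BorelSpace X] {m : Measure X} [m.IsOpenPosMeasure] (hfin : IsFiniteOnBalls m) {K N : ℝ}
    (hN : 1 < N) (hCD : IsCD m K N) : ProperSpace X := by
  haveI : SecondCountableTopology X := UniformSpace.secondCountable_of_separable X
  refine ⟨fun o R => ?_⟩
  refine isCompact_iff_totallyBounded_isComplete.2 ⟨?_, Metric.isClosed_closedBall.isComplete⟩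
  rw [Metric.totallyBounded_iff]
  intro ε hε
  by_contra hcon
  push Not at hcon
  obtain ⟨c, hc, h⟩ := cd_ball_lower hfin hN hCD o R (half_pos hε)
  obtain ⟨u, hu⟩ := Set.seq_of_forall_finite_exists
    (P := fun (z : X) (t : Set X) => z ∈ Metric.closedBall o R ∧ ∀ y ∈ t, ε ≤ dist z y) (fun t ht => by
      obtain ⟨z, hz, hz'⟩ := Set.not_subset.1 (hcon t ht)
      refine ⟨z, hz, fun y hy => ?_⟩
      by_contra hlt
      exact hz' (Set.mem_biUnion hy (not_le.1 hlt)))
  have hd : Pairwise (Function.onFun Disjoint fun n => Metric.ball (u n) (ε / 2)) := by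
    intro i j hij
    refine Metric.ball_disjoint_ball ?_
    rw [add_halves]
    rcases lt_or_gt_of_ne hij with hlt | hlt
    · rw [dist_comm]
      exact (hu j).2 _ ⟨i, hlt, rfl⟩
    · exact (hu i).2 _ ⟨j, hlt, rfl⟩
  have hsub : (⋃ n, Metric.ball (u n) (ε / 2)) ⊆ Metric.ball o (R + ε) := by
    refine Set.iUnion_subset fun n => Metric.ball_subset ?_
    have := (hu n).1
    rw [Metric.mem_closedBall] at this
    linarith
  have hf := Measure.finite_const_le_meas_of_disjoint_iUnion m (ENNReal.ofReal_pos.2 hc)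
    (fun n => measurableSet_ball) hd ((measure_mono hsub).trans_lt (hfin _ _)).ne
  refine Set.infinite_univ (α := ℕ) (hf.subset fun n _ => ?_)
  exact (ENNReal.ofReal_le_iff_le_toReal (hfin _ _).ne).2 (h _ (hu n).1)

/-- the closed sets `{γ geodesic, γ 0 ∈ closedBall x (1/(n+1)), γ 1 ∈ closedBall y (1/(n+1))}` are nonempty
(`exists_optGeo`, `BB.unif`), decreasing, inside the compact set of `isCompact_geoBall` -/
theorem exists_geodesic [ProperSpace X] [m.IsOpenPosMeasure] (hfin : IsFiniteOnBalls m) {K N : ℝ} (hCD : IsCD m K N)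
    (x y : X) : ∃ γ : UCurve X, IsCSGeodesic γ ∧ γ.toMap 0 = x ∧ γ.toMap 1 = y := by
  set T : ℕ → Set (UCurve X) := fun n => {γ | IsCSGeodesic γ ∧ γ.toMap 0 ∈ Metric.closedBall x (1 / ((n : ℝ) + 1)) ∧
    γ.toMap 1 ∈ Metric.closedBall y (1 / ((n : ℝ) + 1))} with hT
  have hcl : ∀ n, IsClosed (T n) := fun n =>
    isClosed_geo.inter ((Metric.isClosed_closedBall.preimage (continuous_ev 0)).inter
      (Metric.isClosed_closedBall.preimage (continuous_ev 1)))
  have hne : ∀ n, (T n).Nonempty := by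
    intro n
    set r : ℝ := 1 / ((n : ℝ) + 1) with hr
    have hr0 : 0 < r := by positivity
    have b0 := BB.unif (m := m) (o := x) (R := r) measurableSet_ball (Metric.measure_ball_pos m x hr0).ne'
      (hfin x _).ne Metric.ball_subset_closedBall
    have b1 := BB.unif (m := m) (o := y) (R := r) measurableSet_ball (Metric.measure_ball_pos m y hr0).ne'
      (hfin y _).ne Metric.ball_subset_closedBall
    obtain ⟨P, hP, hg, ho, -⟩ := hCD _ _ b0.prob b1.prob b0.moment b1.moment b0.ac b1.ac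
    have hO : OptGeo _ _ P := ⟨hP, hg, ho⟩
    have e0 : ∀ᵐ γ ∂P, γ.toMap 0 ∈ Metric.closedBall x r :=
      ae_timeMarginal (t := 0) (p := fun z => z ∈ Metric.closedBall x r) (by rw [hO.zero]; exact b0.supp)
    have e1 : ∀ᵐ γ ∂P, γ.toMap 1 ∈ Metric.closedBall y r :=
      ae_timeMarginal (t := 1) (p := fun z => z ∈ Metric.closedBall y r) (by rw [hO.one]; exact b1.supp)
    exact (hg.and (e0.and e1)).exists
  have hdec : ∀ n, T (n + 1) ⊆ T n := by
    intro n γ hγ
    have : 1 / (((n + 1 : ℕ) : ℝ) + 1) ≤ 1 / ((n : ℝ) + 1) := Nat.one_div_le_one_div (Nat.le_succ n)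
    exact ⟨hγ.1, Metric.closedBall_subset_closedBall this hγ.2.1, Metric.closedBall_subset_closedBall this hγ.2.2⟩
  have hc0 : IsCompact (T 0) := by
    refine (isCompact_geoBall x (1 + dist y x)).of_isClosed_subset (hcl 0) fun γ hγ => ⟨hγ.1, ?_, ?_⟩
    · refine Metric.closedBall_subset_closedBall ?_ hγ.2.1
      simp
    · refine Metric.closedBall_subset_closedBall' ?_ hγ.2.2
      simp
  obtain ⟨γ, hγ⟩ := IsCompact.nonempty_iInter_of_sequence_nonempty_isCompact_isClosed T hdec hne hc0 hcl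
  rw [Set.mem_iInter] at hγ
  have key : ∀ z w : X, (∀ n : ℕ, z ∈ Metric.closedBall w (1 / ((n : ℝ) + 1))) → z = w := by
    intro z w h
    refine dist_le_zero.1 (ge_of_tendsto' tendsto_one_div_add_atTop_nhds_zero_nat fun n => h n)
  exact ⟨γ, (hγ 0).1, key _ _ fun n => (hγ n).2.1, key _ _ fun n => (hγ n).2.2⟩


end Crest.Agent.R242.G
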