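import Crest.Agent.R242.IIDefs
import Crest.Agent.R242.GGood
import Crest.Agent.R242.GProper
import Crest.Agent.R242.GGrow

/-! Row 242, part I-a: the contracts (a1)-(a3). -/

set_option autoImplicit false
set_option linter.unusedSectionVars false
open MeasureTheory Filter Set Topology
open scoped ENNReal NNReal BoundedContinuousFunction
open Crest.GeometryTopology.SyntheticRicci

noncomputable section
namespace Crest.Agent.R242

theorem proper_of_cd {X : Type*} [MetricSpace X] [CompleteSpace X] [TopologicalSpace.SeparableSpace X]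
    [MeasurableSpace X] [BorelSpace X] {m : Measure X} [m.IsOpenPosMeasure] (hfin : IsFiniteOnBalls m) {K N : ℝ}
    (hN : 1 < N) (hCD : IsCD m K N) : ProperSpace X := G.properSpace_of_cd hfin hN hCD

variable {X : Type*} [MetricSpace X] [ProperSpace X] [MeasurableSpace X] [BorelSpace X] {m : Measure X}
  [m.IsOpenPosMeasure]

theorem finiteOnCompacts_of_balls (hfin : IsFiniteOnBalls m) : IsFiniteMeasureOnCompacts m := by
  have := G.locallyFinite_of_balls hfin
  infer_instance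

theorem geod_of_cd (hfin : IsFiniteOnBalls m) {K N : ℝ} (hCD : IsCD m K N) : II.Geod X := fun x y => by
  obtain ⟨γ, hγ, h0, h1⟩ := G.exists_geodesic hfin hCD x y
  refine ⟨γ.ext, (G.ext_coe γ 0).trans h0, (G.ext_coe γ 1).trans h1, fun s hs t ht => ?_⟩
  rw [G.geo_dist_ext hγ hs ht, G.len, h0, h1]

theorem BddProb.toBB {o : X} {R : ℝ} {C : ℝ≥0} {μ : Measure X} (h : BddProb m o R C μ) : G.BB m o R C μ :=
  ⟨h.prob, by rw [ENNReal.ofReal_coe_nnreal]; exact h.le, h.supp⟩

theorem G.BB.ent_eq' (hfin : IsFiniteOnBalls m) {o : X} {R C : ℝ} {μ : Measure X} (h : G.BB m o R C μ) :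
    R242.Ent m μ = G.Ent m μ := (h.ent_eq hfin).symm

theorem sp_of_rcd (hfin : IsFiniteOnBalls m) {K N : ℝ} (hN : 1 < N) (h : IsRCD m K N) :
    ∃ κ γ : ℝ, Sp m κ γ := by
  obtain ⟨γ, hγ, hg⟩ := G.cd_growth hfin hN h.1
  refine ⟨max (-K) 0, γ, le_max_right _ _, hγ, h.2, hg, fun R =>
    ⟨(Real.exp ((max (-K) 0 + 1) * (2 * R + 1) ^ 2 / 6)).toNNReal, fun o C μ₀ μ₁ h0 h1 => ?_⟩⟩
  obtain ⟨P, hP, ht, hb, hl, hB, he⟩ := G.exists_good hfin hN h.1 h0.toBB h1.toBB
  have := hP.prob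
  refine ⟨P, ht, hb, hP.geo, hP.opt, fun t => ?_, fun k => ?_⟩
  · have h2 := (hB t).le
    rwa [ENNReal.ofReal_mul C.coe_nonneg, ENNReal.ofReal_coe_nnreal, mul_comm, ENNReal.ofReal,
      ← ENNReal.coe_mul] at h2
  · rw [h0.toBB.ent_eq' hfin, h1.toBB.ent_eq' hfin, G.quadCost_eq_cost (G.integrable_len_sq hl),
      ENNReal.toReal_ofReal (G.cost_nonneg P)]
    exact ((hB (G.dy k)).ent_eq' hfin).trans_le (he k)

end Crest.Agent.R242
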