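import Crest.Agent.R242.GEnt2

/-! Row 242, part I-a: the truncated entropy: integral formula and first variation. -/

set_option autoImplicit false
set_option linter.unusedSectionVars false
open MeasureTheory Filter Set Topology
open scoped ENNReal NNReal BoundedContinuousFunction
open Crest.GeometryTopology.SyntheticRicci

noncomputable section
namespace Crest.Agent.R242.G

variable {X : Type*} [MetricSpace X] [SecondCountableTopology X] [MeasurableSpace X] [BorelSpace X]
  {m μ ν μ₀ μ₁ : Measure X} {P P' : Measure (UCurve X)} {o : X} {R C D : ℝ}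

theorem gvar_int_UM {A : Set X} (hAm : m A ≠ ⊤) {M : ℝ} (hM : 0 < M) {g : X → ℝ} (hg : Measurable g)
    (hg0 : ∀ x, 0 ≤ g x) (hi : IntegrableOn g A m) : Integrable (fun x => UM M (g x)) (m.restrict A) := by
  have : IsFiniteMeasure (m.restrict A) := isFiniteMeasure_restrict.2 hAm
  refine Integrable.mono' (((Integrable.const_mul hi (|Real.log M| + 1)).add (integrable_const M)).add (integrable_const 1))
    ((measurable_UM M).comp hg).aestronglyMeasurable (Eventually.of_forall fun x => ?_)
  exact abs_UM_le hM (hg0 x)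

theorem gvar_Dn {A : Set X} (hAm : m A ≠ ⊤) {g : X → ℝ} (hg : Measurable g)
    (hg0 : ∀ x, 0 ≤ g x) (hi : IntegrableOn g A m) (η : Measure X) [IsFiniteMeasure η]
    (hν : ν = (m.restrict A).withDensity (fun x => ENNReal.ofReal (g x)) + η) {φ : X → ℝ} (hφ : Measurable φ) {B : ℝ}
    (hB : ∀ x, |φ x| ≤ B) : Integrable (fun x => φ x * g x - Real.exp (φ x)) (m.restrict A) ∧ Integrable φ η ∧
      Dn m A ν φ = ∫ x in A, (φ x * g x - Real.exp (φ x)) ∂m + ∫ x, φ x ∂η + 1 := by
  have : IsFiniteMeasure (m.restrict A) := isFiniteMeasure_restrict.2 hAm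
  have := isFiniteMeasure_withDensity_ofReal hi.2
  have i0 : ∀ (μ : Measure X) [IsFiniteMeasure μ], Integrable φ μ := fun μ _ =>
    Integrable.of_bound hφ.aestronglyMeasurable B (Eventually.of_forall hB)
  have i1 : Integrable (fun x => φ x * g x) (m.restrict A) :=
    Integrable.bdd_mul hi hφ.aestronglyMeasurable (Eventually.of_forall hB)
  have i2 : Integrable (fun x => Real.exp (φ x)) (m.restrict A) :=
    Integrable.of_bound hφ.exp.aestronglyMeasurable (Real.exp B) (Eventually.of_forall fun x => by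
      rw [Real.norm_eq_abs, abs_of_pos (Real.exp_pos _)]
      exact Real.exp_le_exp.2 ((le_abs_self _).trans (hB x)))
  refine ⟨i1.sub i2, i0 η, ?_⟩
  rw [Dn, hν, integral_add_measure (i0 _) (i0 _), integral_withDensity_eq_integral_toReal_smul hg.ennreal_ofReal
    (Eventually.of_forall fun x => ENNReal.ofReal_lt_top), integral_sub i1 i2]
  simp only [ENNReal.toReal_ofReal (hg0 _), smul_eq_mul, mul_comm (g _)]
  ring

theorem gvar_pt {M ε z : ℝ} (h0 : 0 < ε) (hM : ε ≤ M) (hz : 0 ≤ z) :
    UM M z - ε ≤ Real.log (min (max z ε) M) * z - Real.exp (Real.log (min (max z ε) M)) := by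
  rw [Real.exp_log (lt_min (lt_max_of_lt_right h0) (h0.trans_le hM)), UM]
  split_ifs with h
  · rcases le_total z ε with h1 | h1
    · rw [max_eq_right h1, min_eq_left hM]
      rcases hz.eq_or_lt with h2 | h2
      · simp [← h2]
      · nlinarith [mul_le_mul_of_nonneg_left (Real.log_le_log h2 h1) hz]
    · rw [max_eq_left h1, min_eq_left h]
      linarith
  · rw [min_eq_right (le_max_of_le_left (le_of_not_ge h))]
    linarith

/-- `UM_young` pointwise; `ν = (m.restrict A).withDensity g + η` -/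
theorem EM_le_UM {A : Set X} (hAm : m A ≠ ⊤) {M : ℝ} (hM : 0 < M) {g : X → ℝ} (hg : Measurable g)
    (hg0 : ∀ x, 0 ≤ g x) (hi : IntegrableOn g A m) (η : Measure X) [IsFiniteMeasure η]
    (hν : ν = (m.restrict A).withDensity (fun x => ENNReal.ofReal (g x)) + η) :
    EM m A (Real.log M) ν ≤ ∫ x in A, UM M (g x) ∂m + Real.log M * η.real univ + 1 := by
  refine EM_le fun φ hφ => ?_
  obtain ⟨i1, i2, e⟩ := gvar_Dn hAm hg hg0 hi η hν φ.continuous.measurable (B := ‖φ‖) fun x => φ.norm_coe_le_norm x
  have h1 := integral_mono i1 (gvar_int_UM hAm hM hg hg0 hi) fun x => UM_young hM (hg0 x) (hφ x)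
  have h2 := integral_mono i2 (integrable_const (Real.log M)) hφ
  rw [integral_const, smul_eq_mul, mul_comm] at h2
  rw [e]
  linarith
/-- `Dn_le_EM` with `φ_T = log M` on `Z`, `max (log (min g M)) (-T)` (value `-T` where `g = 0`; `T ≥ -log M`) off `Z`;
`φ_T g - exp φ_T ≥ UM M g - exp (-T)`; let `T → ∞`. -/
theorem UM_le_EM [IsProbabilityMeasure ν] {A : Set X} (hAm : m A ≠ ⊤) {M : ℝ} (hM : 0 < M) {g : X → ℝ}
    (hg : Measurable g) (hg0 : ∀ x, 0 ≤ g x) (hi : IntegrableOn g A m) (η : Measure X) [IsFiniteMeasure η]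
    {Z : Set X} (hZ : MeasurableSet Z) (hZm : m Z = 0) (hη : η Zᶜ = 0)
    (hν : ν = (m.restrict A).withDensity (fun x => ENNReal.ofReal (g x)) + η) :
    ∫ x in A, UM M (g x) ∂m + Real.log M * η.real univ + 1 ≤ EM m A (Real.log M) ν := by
  classical
  have : IsFiniteMeasure (m.restrict A) := isFiniteMeasure_restrict.2 hAm
  refine le_of_forall_pos_le_add fun δ hδ => ?_
  have hp : 0 < m.real A + 1 := by positivity
  set ε := min M (δ / (m.real A + 1)) with hε
  have h0 : 0 < ε := lt_min hM (by positivity)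
  have h1 : ε ≤ M := min_le_left _ _
  have h2 : ε * (m.real A + 1) ≤ δ := (le_div_iff₀ hp).1 (min_le_right _ _)
  let φ : X → ℝ := fun x => Real.log (if x ∈ Z then M else min (max (g x) ε) M)
  have hφ : Measurable φ :=
    (Measurable.ite hZ measurable_const ((hg.max measurable_const).min measurable_const)).log
  have hb : ∀ x, Real.log ε ≤ φ x ∧ φ x ≤ Real.log M := fun x => by
    have : ε ≤ (if x ∈ Z then M else min (max (g x) ε) M) ∧ (if x ∈ Z then M else min (max (g x) ε) M) ≤ M := by
      split_ifs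
      exacts [⟨h1, le_rfl⟩, ⟨le_min (le_max_right _ _) h1, min_le_right _ _⟩]
    exact ⟨Real.log_le_log h0 this.1, Real.log_le_log (h0.trans_le this.1) this.2⟩
  have hB : ∀ x, |φ x| ≤ |Real.log ε| + |Real.log M| := fun x => abs_le.2
    ⟨by linarith [(hb x).1, neg_abs_le (Real.log ε), abs_nonneg (Real.log M)],
      by linarith [(hb x).2, le_abs_self (Real.log M), abs_nonneg (Real.log ε)]⟩
  obtain ⟨i1, -, e⟩ := gvar_Dn hAm hg hg0 hi η hν hφ hB
  have h3 := Dn_le_EM (ν := ν) hAm hφ hB fun x => (hb x).2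
  have h4 : ∫ x, φ x ∂η = Real.log M * η.real univ := by
    rw [mul_comm, ← smul_eq_mul, ← integral_const]
    refine integral_congr_ae ?_
    filter_upwards [show ∀ᵐ x ∂η, x ∈ Z from hη] with x hx
    simp only [φ, if_pos hx]
  have i2 := gvar_int_UM hAm hM hg hg0 hi
  have h5 := integral_mono_ae (i2.sub (integrable_const ε)) i1 (by
    filter_upwards [ae_restrict_of_ae (s := A) (measure_eq_zero_iff_ae_notMem.1 hZm)] with x hx
    simp only [φ, if_neg hx, Pi.sub_apply]
    exact gvar_pt h0 h1 (hg0 x))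
  simp only [Pi.sub_apply] at h5
  rw [integral_sub i2 (integrable_const ε), integral_const, smul_eq_mul, measureReal_restrict_apply_univ] at h5
  rw [e, h4] at h3
  nlinarith
/-- `UM_le_EM` with `η = 0`, `g = min ρ C`; `BB.ent_eq` -/
theorem BB.ent_le_EM (hfin : IsFiniteOnBalls m) (h : BB m o R C ν) {A : Set X} (hA : MeasurableSet A)
    (hAm : m A ≠ ⊤) (hν : ν Aᶜ = 0) : Ent m ν ≤ EM m A (Real.log C) ν := by
  have := h.prob
  have := sigmaFinite_of_balls hfin
  have hg : Measurable fun x => (ν.rnDeriv m x).toReal := (Measure.measurable_rnDeriv ν m).ennreal_toReal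
  have hi : IntegrableOn (fun x => (ν.rnDeriv m x).toReal) A m := Measure.integrable_toReal_rnDeriv.integrableOn
  have e : ν = (m.restrict A).withDensity (fun x => ENNReal.ofReal (ν.rnDeriv m x).toReal) := by
    rw [← restrict_withDensity hA, withDensity_congr_ae (g := ν.rnDeriv m) (by
      filter_upwards [Measure.rnDeriv_lt_top ν m] with x hx using ENNReal.ofReal_toReal hx.ne),
      Measure.withDensity_rnDeriv_eq ν m h.ac, Measure.restrict_eq_self_of_ae_mem (show ∀ᵐ x ∂ν, x ∈ A from hν)]
  have h1 := UM_le_EM hAm h.pos hg (fun _ => ENNReal.toReal_nonneg) hi 0 MeasurableSet.empty measure_empty rfl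
    (e.trans (add_zero _).symm)
  have h2 : ∀ f : X → ℝ, ∫ x, f x ∂ν = ∫ x in A, (ν.rnDeriv m x).toReal * f x ∂m := fun f => by
    conv_lhs => rw [e]
    rw [integral_withDensity_eq_integral_toReal_smul hg.ennreal_ofReal
      (Eventually.of_forall fun x => ENNReal.ofReal_lt_top)]
    simp
  have h3 := h2 fun _ => 1
  simp only [integral_const, probReal_univ, smul_eq_mul, mul_one] at h3
  have h4 : Ent m ν = ∫ x in A, (UM C (ν.rnDeriv m x).toReal + (ν.rnDeriv m x).toReal) ∂m := by
    rw [Ent, h2]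
    refine integral_congr_ae ?_
    filter_upwards [ae_restrict_of_ae (s := A) (h.rn_le hfin)] with x hx
    rw [UM, if_pos hx, llr, sub_add_cancel]
  rw [h4, integral_add (gvar_int_UM hAm h.pos hg (fun _ => ENNReal.toReal_nonneg) hi) hi, ← h3]
  simpa using h1

theorem gvar_add {M a b : ℝ} (ha : 0 ≤ a) (hb : 0 ≤ b) (h : a + b ≤ M) :
    UM M (a + b) ≤ UM M a + Real.log (a + b) * b := by
  rw [UM, UM, if_pos h, if_pos (by linarith)]
  rcases ha.eq_or_lt with h1 | h1
  · rw [← h1]
    simp only [zero_add, zero_mul, sub_zero]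
    linarith
  · have h2 := Real.log_le_sub_one_of_pos (show 0 < (a + b) / a by positivity)
    rw [Real.log_div (by positivity) h1.ne'] at h2
    have h3 := mul_le_mul_of_nonneg_left h2 ha
    rw [mul_sub a (_ / _), mul_div_cancel₀ _ h1.ne'] at h3
    linarith

theorem UM_add_le {M a b : ℝ} (hM : 0 < M) (ha : 0 ≤ a) (hb : 0 ≤ b) : UM M (a + b) ≤ UM M a + Real.log M * b := by
  rcases le_or_gt (a + b) M with h | h
  · refine (gvar_add ha hb h).trans ?_
    rcases hb.eq_or_lt with h1 | h1
    · simp [← h1]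
    · linarith [mul_le_mul_of_nonneg_right (Real.log_le_log (by linarith) h) hb]
  · have := UM_young hM ha le_rfl
    rw [Real.exp_log hM] at this
    rw [UM, if_neg (not_le.2 h)]
    linarith

/-- convexity at the point `a + b`: `UM a ≥ UM (a+b) - b log (a+b)` -/
theorem UM_add_le' {M a b : ℝ} (ha : 0 ≤ a) (hb : 0 ≤ b) (h : a + b ≤ M) :
    UM M (a + b) ≤ UM M a + Real.log (a + b) * b := gvar_add ha hb h

theorem UM_sub_le {M z ε : ℝ} (hM : 0 < M) (hz : M ≤ z) (h0 : 0 ≤ ε) (h1 : ε < 1) :
    UM M ((1 - ε) * z) ≤ UM M z - ε * z * Real.log ((1 - ε) * M) := by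
  have h2 : 0 < 1 - ε := by linarith
  have hz0 : 0 < z := hM.trans_le hz
  have h3 : 0 ≤ ε * z := by positivity
  rw [UM]
  split_ifs with h
  · have h4 := UM_young hM hz0.le (Real.log_le_log (by positivity) h)
    rw [Real.exp_log (by positivity)] at h4
    have h5 := mul_le_mul_of_nonneg_left
      (Real.log_le_log (show 0 < (1 - ε) * M by positivity) (mul_le_mul_of_nonneg_left hz h2.le)) h3
    linarith
  · have h4 := UM_young hM hz0.le le_rfl
    rw [Real.exp_log hM] at h4
    have h5 := mul_le_mul_of_nonneg_left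
      (Real.log_le_log (show 0 < (1 - ε) * M by positivity) (show (1 - ε) * M ≤ M by nlinarith)) h3
    linarith

end Crest.Agent.R242.G
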