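import Crest.Agent.R242.GeA

/-! Row 242, part I-d (helper48): Kuwada duality along test plans. -/

set_option autoImplicit false
set_option linter.unusedSectionVars false
open MeasureTheory Filter Set Topology
open scoped ENNReal NNReal
open Crest.GeometryTopology.SyntheticRicci

namespace Crest.Agent.R242

variable {X : Type*} [MetricSpace X] [MeasurableSpace X]

/-- an abstract contracting flow on measures -/
structure HFlow (m : Measure X) (E : ℝ) (H : Measure X → Measure X) : Prop where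
  pos : 0 < E
  prob : ∀ o R C ν, BddProb m o R C ν → IsProbabilityMeasure (H ν)
  le : ∀ o R (C : ℝ≥0) ν, BddProb m o R C ν → H ν ≤ (C : ℝ≥0∞) • m
  tail : ∀ o R C (η : ℝ), 0 < η → ∃ R', ∀ ν, BddProb m o R C ν → (H ν).real (Metric.closedBall o R')ᶜ ≤ η
  contr : ∀ o R C ν₀ ν₁, BddProb m o R C ν₀ → BddProb m o R C ν₁ →
    W2sq (H ν₀) (H ν₁) ≤ ENNReal.ofReal E * W2sq ν₀ ν₁

/-- `F` is the image of `f` under the dual flow -/
def HDual (m : Measure X) (H : Measure X → Measure X) (f F : X → ℝ) : Prop :=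
  ∀ o R C ν, BddProb m o R C ν → Integrable f (H ν) ∧ ∫ x, f x ∂(H ν) = ∫ x, F x ∂ν

variable [BorelSpace X] [ProperSpace X] {m : Measure X} [IsFiniteMeasureOnCompacts m]

theorem step_est {κ γ' : ℝ} (hS : Sp m κ γ') {E : ℝ} {H : Measure X → Measure X} (hH : HFlow m E H)
    {v D g V G : X → ℝ} {L : ℝ≥0} (hv : LipschitzWith L v)
    (hD : IsWUGLoc m v D) (hgD : ∀ᵐ x ∂m, D x ^ 2 ≤ g x) (hgm : Measurable g) (hg0 : ∀ x, 0 ≤ g x)
    (hgi : Integrable g m) (hV : HDual m H v V) (hG : HDual m H g G)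
    (o : X) (R : ℝ) (C : ℝ≥0) {ε : ℝ} (hε : 0 < ε) :
    ∃ δ : ℝ, 0 < δ ∧ ∀ (ν₀ ν₁ : Measure X), BddProb m o R C ν₀ → BddProb m o R C ν₁ → ∀ w : ℝ, 0 ≤ w → w ≤ δ →
      W2sq ν₀ ν₁ ≤ ENNReal.ofReal w → ∀ lam : ℝ, 0 < lam →
      ∫ x, V x ∂ν₁ - ∫ x, V x ∂ν₀ ≤ lam / 2 * (E * w) + (∫ x, G x ∂ν₀ + ε) / (2 * lam) := by
  have hE := hH.pos
  have hη : 0 < min (1 / 4) (ε / (4 * ((L : ℝ) ^ 2 + 1))) := lt_min (by norm_num) (by positivity)
  obtain ⟨R', hR'⟩ := hH.tail o R C _ hη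
  obtain ⟨δ, hδ, h⟩ := loc_est hS hv hD hgD hgm hg0 hgi o R' C (half_pos hε)
  refine ⟨δ / E, by positivity, fun ν₀ ν₁ h0 h1 w hw0 hw hW lam hlam => ?_⟩
  have := hH.prob o R C ν₀ h0
  have := hH.prob o R C ν₁ h1
  obtain ⟨q, hq⟩ := exists_opt (H ν₀) (H ν₁)
  have c1 : quadCost q ≤ ENNReal.ofReal (E * w) := by
    rw [opt_cost hq, ENNReal.ofReal_mul hE.le]
    exact (hH.contr o R C ν₀ ν₁ h0 h1).trans (mul_le_mul_right hW _)
  have c2 : E * w ≤ δ := by rwa [le_div_iff₀ hE, mul_comm] at hw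
  have a1 := h (H ν₀) (H ν₁) q _ (coup_prob hq.1) hq.1 (hH.le o R C ν₀ h0) (hH.le o R C ν₁ h1) (hR' ν₀ h0)
    (hR' ν₁ h1) (min_le_left _ _) (c1.trans (ENNReal.ofReal_le_ofReal c2)) lam hlam
  obtain ⟨e1, e2⟩ := coup_int_fst hq.1 (hV o R C ν₀ h0).1
  obtain ⟨e3, e4⟩ := coup_int_snd hq.1 (hV o R C ν₁ h1).1
  rw [integral_sub e3 e1, e2, e4, (hV o R C ν₀ h0).2, (hV o R C ν₁ h1).2, (hG o R C ν₀ h0).2] at a1
  refine a1.trans (add_le_add (mul_le_mul_of_nonneg_left
    (ENNReal.toReal_le_of_le_ofReal (by positivity) c1) (by positivity)) (div_le_div_of_nonneg_right ?_ (by positivity)))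
  have b1 : 2 * (L : ℝ) ^ 2 * min (1 / 4) (ε / (4 * ((L : ℝ) ^ 2 + 1))) ≤ ε / 2 := by
    refine (mul_le_mul_of_nonneg_left (min_le_right _ _) (by positivity)).trans ?_
    rw [mul_div_assoc', div_le_div_iff₀ (by positivity) two_pos]
    nlinarith
  linarith

theorem ge_chain {Ψ : ℝ → ℝ} {s t δ : ℝ} (hδ : 0 < δ) (hst : s ≤ t)
    (h : ∀ a b, s ≤ a → a < b → b ≤ t → b - a ≤ δ → Ψ b ≤ Ψ a) : Ψ t ≤ Ψ s := by
  rcases hst.eq_or_lt with rfl | hst
  · exact le_rfl
  obtain ⟨n, hn⟩ := exists_nat_gt ((t - s) / δ)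
  have hn0 : (0 : ℝ) < n := lt_trans (div_pos (by linarith) hδ) hn
  have hd : 0 < (t - s) / n := div_pos (by linarith) hn0
  have hd' : (t - s) / n ≤ δ := by
    rw [div_le_iff₀ hn0]
    rw [div_lt_iff₀ hδ] at hn
    linarith
  have key : ∀ i : ℕ, i ≤ n → Ψ (s + i * ((t - s) / n)) ≤ Ψ s := by
    intro i
    induction i with
    | zero => intro _; simp
    | succ i ih =>
      intro hi
      refine le_trans (h _ _ ?_ ?_ ?_ ?_) (ih (by omega))
      · have : (0 : ℝ) ≤ i * ((t - s) / n) := by positivity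
        linarith
      · push_cast; linarith
      · have h1 : ((i + 1 : ℕ) : ℝ) * ((t - s) / n) ≤ n * ((t - s) / n) :=
          mul_le_mul_of_nonneg_right (by exact_mod_cast hi) hd.le
        rw [mul_div_cancel₀ _ hn0.ne'] at h1
        linarith
      · push_cast; linarith
  have := key n le_rfl
  rwa [mul_div_cancel₀ _ hn0.ne', add_sub_cancel] at this

theorem ge_sub {s t : ℝ} (h0 : 0 ≤ s) (h1 : t ≤ 1) : volume.restrict (Ioc s t) ≤ I01 :=
  Measure.restrict_mono (Ioc_subset_Icc_self.trans (Icc_subset_Icc h0 h1)) le_rfl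

theorem ge_fub {π : Measure (UCurve X)} [SFinite π] {a : UCurve X × ℝ → ℝ} (ha : Integrable a (π.prod I01))
    {s t : ℝ} (h0 : 0 ≤ s) (hst : s ≤ t) (h1 : t ≤ 1) :
    IntervalIntegrable (fun r => ∫ γ, a (γ, r) ∂π) volume s t ∧
      Integrable (fun γ => ∫ r in s..t, a (γ, r)) π ∧
      ∫ r in s..t, ∫ γ, a (γ, r) ∂π = ∫ γ, (∫ r in s..t, a (γ, r)) ∂π := by
  have hle : π.prod (volume.restrict (Ioc s t)) ≤ π.prod I01 := by
    exact Measure.prod_mono le_rfl (ge_sub h0 h1)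
  have ha' := ha.mono_measure hle
  simp only [intervalIntegral.integral_of_le hst]
  exact ⟨(intervalIntegrable_iff_integrableOn_Ioc_of_le hst).2 ha'.integral_prod_right, ha'.integral_prod_left,
    (integral_integral_swap (f := fun γ r => a (γ, r)) ha').symm⟩

theorem Plan.int_sp {π : Measure (UCurve X)} (hP : Plan m π) :
    Integrable (fun z : UCurve X × ℝ => sp z ^ 2) (π.prod I01) := by
  have := hP.1.1
  refine ⟨(measurable_sp.pow_const 2).aestronglyMeasurable, ?_⟩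
  refine lt_of_le_of_lt ?_ hP.1.2.2.2
  rw [← lintegral_prod (fun z : UCurve X × ℝ => upperSpeed z.1 z.2 ^ 2)
    (measurable_upperSpeed.pow_const 2).aemeasurable]
  refine lintegral_mono fun z => ?_
  rw [Real.enorm_of_nonneg (sq_nonneg _), ENNReal.ofReal_pow (sp_nonneg z)]
  exact pow_le_pow_left' ENNReal.ofReal_toReal_le 2

theorem Plan.int_ev {π : Measure (UCurve X)} (hP : Plan m π) {G : X → ℝ} (hm : Measurable G)
    (hG : Integrable G m) : Integrable (fun z : UCurve X × ℝ => G (ev z)) (π.prod I01) := by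
  have := hP.1.1
  refine ⟨(hm.comp measurable_ev).aestronglyMeasurable, ?_⟩
  obtain ⟨C, o, R, -, h⟩ := hP.exists_bound
  have h1 := (h (fun x => ‖G x‖ₑ) hm.enorm.aemeasurable).2
  rw [HasFiniteIntegral, lintegral_prod (fun z : UCurve X × ℝ => ‖G (ev z)‖ₑ)
    (hm.comp measurable_ev).enorm.aemeasurable]
  exact h1.trans_lt (ENNReal.mul_lt_top ENNReal.coe_lt_top
    ((setLIntegral_le_lintegral _ _).trans_lt hG.2))

theorem edist_sq_le {γ : UCurve X} (h : HasL2Speed γ) (hi : Integrable (fun r => sp (γ, r) ^ 2) I01)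
    {a b : ℝ} (h0 : 0 ≤ a) (hab : a ≤ b) (h1 : b ≤ 1) :
    edist (γ.ext a) (γ.ext b) ^ 2 ≤ ENNReal.ofReal ((b - a) * ∫ r in a..b, sp (γ, r) ^ 2) := by
  have hsub : Icc a b ⊆ Icc 0 1 := Icc_subset_Icc h0 h1
  have a1 := l2speed_edist_le h ⟨a, h0, hab.trans h1⟩ ⟨b, h0.trans hab, h1⟩ hab
  rw [← ext_of_mem γ, ← ext_of_mem γ] at a1
  have mu : Measurable (upperSpeed γ) := w2_meas γ
  have cs := ENNReal.lintegral_mul_le_Lp_mul_Lq (volume.restrict (Icc a b)) Real.HolderConjugate.two_two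
    (f := upperSpeed γ) (g := fun _ => 1) mu.aemeasurable aemeasurable_const
  simp only [ENNReal.rpow_two, Pi.mul_apply, mul_one, one_pow, lintegral_const, Measure.restrict_apply_univ,
    Real.volume_Icc, one_mul] at cs
  have a2 : ∫⁻ r in Icc a b, upperSpeed γ r ^ 2 = ENNReal.ofReal (∫ r in a..b, sp (γ, r) ^ 2) := by
    rw [intervalIntegral.integral_of_le hab, ← integral_Icc_eq_integral_Ioc,
      ofReal_integral_eq_lintegral_ofReal (hi.mono_measure (Measure.restrict_mono hsub le_rfl))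
        (Eventually.of_forall fun _ => sq_nonneg _)]
    refine lintegral_congr_ae ?_
    filter_upwards [ae_restrict_of_ae_restrict_of_subset hsub (l2speed_upperSpeed_ne_top h)] with r hr
    rw [ENNReal.ofReal_pow (sp_nonneg _), sp, ENNReal.ofReal_toReal hr]
  refine (pow_le_pow_left' (a1.trans cs) 2).trans (le_of_eq ?_)
  rw [a2, ← ENNReal.mul_rpow_of_nonneg _ _ (by norm_num), ← ENNReal.rpow_two, ← ENNReal.rpow_mul,
    ENNReal.ofReal_mul (by linarith), mul_comm]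
  norm_num

theorem Plan.cost_le {π : Measure (UCurve X)} (hP : Plan m π) {a b : ℝ} (h0 : 0 ≤ a) (hab : a ≤ b) (h1 : b ≤ 1) :
    ∫⁻ γ, edist (γ.ext a) (γ.ext b) ^ 2 ∂π ≤
      ENNReal.ofReal ((b - a) * ∫ r in a..b, ∫ γ, sp (γ, r) ^ 2 ∂π) := by
  have := hP.1.1
  obtain ⟨-, f2, f3⟩ := ge_fub hP.int_sp h0 hab h1
  rw [f3, ← integral_const_mul, ofReal_integral_eq_lintegral_ofReal (f2.const_mul _)
    (Eventually.of_forall fun γ => mul_nonneg (by linarith)
      (intervalIntegral.integral_nonneg hab fun _ _ => sq_nonneg _))]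
  refine lintegral_mono_ae ?_
  filter_upwards [hP.1.2.2.1, hP.int_sp.prod_right_ae] with γ g1 g2
  exact edist_sq_le g1 g2 h0 hab h1

theorem ge_meas_ext (s : ℝ) : Measurable fun γ : UCurve X => γ.ext s := measurable_at _

theorem Plan.bddProb {π : Measure (UCurve X)} (hP : Plan m π) :
    ∃ (o : X) (R : ℝ) (C : ℝ≥0), ∀ s : ℝ, BddProb m o R C (π.map fun γ => γ.ext s) := by
  have := hP.1.1
  obtain ⟨C, hC⟩ := hP.1.2.1
  obtain ⟨o, R, h⟩ := hP.2
  refine ⟨o, R, C, fun s => ⟨Measure.isProbabilityMeasure_map (ge_meas_ext s).aemeasurable, hC _, ?_⟩⟩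
  rw [Measure.map_apply (ge_meas_ext s) Metric.isClosed_closedBall.measurableSet.compl]
  exact measure_mono_null (fun γ hγ => fun h' => hγ (h' _)) (ae_iff.1 h)

/-- the integrated gradient estimate along a plan -/
theorem plan_est {κ γ' : ℝ} (hS : Sp m κ γ') {E : ℝ} {H : Measure X → Measure X} (hH : HFlow m E H)
    {v D g V G : X → ℝ} {L : ℝ≥0} (hv : LipschitzWith L v)
    (hD : IsWUGLoc m v D) (hgD : ∀ᵐ x ∂m, D x ^ 2 ≤ g x) (hgm : Measurable g) (hg0 : ∀ x, 0 ≤ g x)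
    (hgi : Integrable g m) (hV : HDual m H v V) (hG : HDual m H g G) (hVc : Continuous V)
    (hGm : Measurable G) (hGi : Integrable G m) {π : Measure (UCurve X)} (hP : Plan m π)
    {s t : ℝ} (h0 : 0 ≤ s) (hst : s ≤ t) (h1 : t ≤ 1) {lam : ℝ} (hlam : 0 < lam) :
    ∫ γ, V (γ.ext t) ∂π - ∫ γ, V (γ.ext s) ∂π ≤
      ∫ γ, (∫ r in s..t, (lam / 2 * sp (γ, r) ^ 2 + E / (2 * lam) * G (γ.ext r))) ∂π := by
  have := hP.1.1
  have hE := hH.pos
  obtain ⟨o, R, C, hν⟩ := hP.bddProb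
  have i1 := hP.int_sp
  have i2 := hP.int_ev hGm hGi
  set k : ℝ → ℝ := fun r => ∫ γ, sp (γ, r) ^ 2 ∂π with hk
  set h : ℝ → ℝ := fun r => ∫ γ, G (γ.ext r) ∂π with hh
  set Φ : ℝ → ℝ := fun r => ∫ γ, V (γ.ext r) ∂π with hΦ
  have k1 : ∀ {a b : ℝ}, 0 ≤ a → a ≤ b → b ≤ 1 → IntervalIntegrable k volume a b := fun a1 a2 a3 =>
    (ge_fub i1 a1 a2 a3).1
  have h1' : ∀ {a b : ℝ}, 0 ≤ a → a ≤ b → b ≤ 1 → IntervalIntegrable h volume a b := fun a1 a2 a3 =>
    (ge_fub i2 a1 a2 a3).1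
  have k0 : ∀ r, 0 ≤ k r := fun r => integral_nonneg fun _ => sq_nonneg _
  set K := ∫ r in (0 : ℝ)..1, k r with hK
  have k2 : ∀ {a b : ℝ}, 0 ≤ a → a ≤ b → b ≤ 1 → 0 ≤ ∫ r in a..b, k r ∧ ∫ r in a..b, k r ≤ K := fun a1 a2 a3 =>
    ⟨intervalIntegral.integral_nonneg a2 fun r _ => k0 r,
      intervalIntegral.integral_mono_interval a1 a2 a3 (Eventually.of_forall k0) (k1 le_rfl zero_le_one le_rfl)⟩
  have K0 : 0 < K + 1 := by linarith [(k2 le_rfl zero_le_one le_rfl).1]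
  have e1 : ∀ r, ∫ x, V x ∂(π.map fun γ => γ.ext r) = Φ r := fun r =>
    integral_map (ge_meas_ext r).aemeasurable hVc.aestronglyMeasurable
  have e2 : ∀ r, ∫ x, G x ∂(π.map fun γ => γ.ext r) = h r := fun r =>
    integral_map (ge_meas_ext r).aemeasurable hGm.aestronglyMeasurable
  have e3 : ∫ γ, (∫ r in s..t, (lam / 2 * sp (γ, r) ^ 2 + E / (2 * lam) * G (γ.ext r))) ∂π =
      lam / 2 * (∫ r in s..t, k r) + E / (2 * lam) * ∫ r in s..t, h r := by
    have f2 : ∫ r in s..t, h r = ∫ γ, (∫ r in s..t, G (ev (γ, r))) ∂π := (ge_fub i2 h0 hst h1).2.2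
    rw [(ge_fub i1 h0 hst h1).2.2, f2, ← integral_const_mul, ← integral_const_mul,
      ← integral_add ((ge_fub i1 h0 hst h1).2.1.const_mul _) ((ge_fub i2 h0 hst h1).2.1.const_mul _)]
    refine integral_congr_ae ?_
    filter_upwards [i1.prod_right_ae, i2.prod_right_ae] with γ g1 g2
    have hsub := ge_sub h0 h1
    have j1 := (intervalIntegrable_iff_integrableOn_Ioc_of_le hst).2 (g1.mono_measure hsub)
    have j2 := (intervalIntegrable_iff_integrableOn_Ioc_of_le hst).2 (g2.mono_measure hsub)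
    rw [← intervalIntegral.integral_const_mul, ← intervalIntegral.integral_const_mul]
    exact intervalIntegral.integral_add (j1.const_mul _) (j2.const_mul _)
  rw [e3]
  refine le_of_forall_pos_le_add fun ε' hε' => ?_
  obtain ⟨ε, hε, hεe⟩ : ∃ ε : ℝ, 0 < ε ∧ E / lam * ε = ε' := ⟨ε' * lam / E, by positivity, by field_simp⟩
  obtain ⟨δ₁, hδ₁, s1⟩ := step_est hS hH hv hD hgD hgm hg0 hgi hV hG o R C hε
  obtain ⟨δ₂, hδ₂, s2⟩ := mod_cont hGi C hε
  have key := ge_chain (Ψ := fun r => Φ r - (lam / 2 * (∫ u in s..r, k u) + E / (2 * lam) * ∫ u in s..r, h u) -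
    ε' * r) (δ := min δ₁ δ₂ / (K + 1)) (div_pos (lt_min hδ₁ hδ₂) K0) hst fun a b a1 a2 a3 a4 => ?_
  · simp only [intervalIntegral.integral_same, mul_zero, add_zero, sub_zero] at key
    have : ε' * (t - s) ≤ ε' := mul_le_of_le_one_right hε'.le (by linarith)
    simp only [hΦ] at key
    linarith
  have a0 : 0 ≤ a := h0.trans a1
  have b1 : b ≤ 1 := a3.trans h1
  have hba : 0 < b - a := by linarith
  have c0 : ∀ r, a ≤ r → r ≤ b → (r - a) * ∫ u in a..r, k u ≤ min δ₁ δ₂ := fun r r1 r2 => by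
    obtain ⟨c1, c2⟩ := k2 a0 r1 (r2.trans b1)
    rw [le_div_iff₀ K0] at a4
    nlinarith
  have c1 := s1 _ _ (hν a) (hν b) ((b - a) * ∫ u in a..b, k u) (mul_nonneg hba.le (k2 a0 a2.le b1).1)
    ((c0 b a2.le le_rfl).trans (min_le_left _ _))
    ((W2sq_map_le π (ge_meas_ext a) (ge_meas_ext b)).trans (hP.cost_le a0 a2.le b1)) (lam / (E * (b - a)))
    (by positivity)
  rw [e1, e1, e2] at c1
  have c2 : (b - a) * h a ≤ (∫ u in a..b, h u) + (b - a) * ε := by
    have d1 : ∫ _u in a..b, (h a - ε) ≤ ∫ u in a..b, h u := by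
      refine intervalIntegral.integral_mono_on a2.le intervalIntegrable_const (h1' a0 a2.le b1) fun r hr => ?_
      obtain ⟨q1, q2⟩ := coup_map π (ge_meas_ext r) (ge_meas_ext a)
      have := s2 _ _ _ (Measure.isProbabilityMeasure_map ((ge_meas_ext r).prodMk (ge_meas_ext a)).aemeasurable)
        q1 (hν r).le (hν a).le (by
          rw [q2]
          simp only [edist_comm (UCurve.ext _ r)]
          exact (hP.cost_le a0 hr.1 (hr.2.trans b1)).trans
            (ENNReal.ofReal_le_ofReal ((c0 r hr.1 hr.2).trans (min_le_right _ _))))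
      rw [e2, e2] at this
      linarith
    rw [intervalIntegral.integral_const, smul_eq_mul] at d1
    linarith
  have c3 : lam / (E * (b - a)) / 2 * (E * ((b - a) * ∫ u in a..b, k u)) + (h a + ε) / (2 * (lam / (E * (b - a)))) =
      lam / 2 * (∫ u in a..b, k u) + E / (2 * lam) * ((b - a) * h a + (b - a) * ε) := by field_simp
  have c4 : E / (2 * lam) * ((b - a) * h a + (b - a) * ε) ≤
      E / (2 * lam) * ((∫ u in a..b, h u) + 2 * ((b - a) * ε)) :=
    mul_le_mul_of_nonneg_left (by linarith) (by positivity)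
  have c5 : E / (2 * lam) * (2 * ((b - a) * ε)) = ε' * (b - a) := by rw [← hεe]; field_simp
  rw [← intervalIntegral.integral_add_adjacent_intervals (k1 h0 a1 (a2.le.trans b1)) (k1 a0 a2.le b1),
    ← intervalIntegral.integral_add_adjacent_intervals (h1' h0 a1 (a2.le.trans b1)) (h1' a0 a2.le b1)]
  rw [c3] at c1
  linarith

end Crest.Agent.R242
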