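import Crest.Agent.R242.GeB

/-! Row 242, part I-d (helper48): from the integrated estimate to the pointwise gradient bound. -/

set_option autoImplicit false
set_option linter.unusedSectionVars false
open MeasureTheory Filter Set Topology
open scoped ENNReal NNReal
open Crest.GeometryTopology.SyntheticRicci

namespace Crest.Agent.R242

variable {X : Type*} [MetricSpace X] [MeasurableSpace X]
variable [BorelSpace X] [ProperSpace X] {m : Measure X} [IsFiniteMeasureOnCompacts m]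

theorem Plan.int_at {π : Measure (UCurve X)} (hP : Plan m π) {V : X → ℝ} (hV : Continuous V) (s : ℝ) :
    Integrable (fun γ : UCurve X => V (γ.ext s)) π := by
  obtain ⟨o, R, C, h⟩ := hP.bddProb
  have := (h s).prob
  exact (integrable_map_measure hV.aestronglyMeasurable (ge_meas_ext s).aemeasurable).1
    (int_of_cont_bdd (o := o) (R := R) hV (by rw [ae_iff]; exact (h s).supp))

theorem curve_est {κ γ' : ℝ} (hS : Sp m κ γ') {E : ℝ} {H : Measure X → Measure X} (hH : HFlow m E H)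
    {v D g V G : X → ℝ} {L : ℝ≥0} (hv : LipschitzWith L v)
    (hD : IsWUGLoc m v D) (hgD : ∀ᵐ x ∂m, D x ^ 2 ≤ g x) (hgm : Measurable g) (hg0 : ∀ x, 0 ≤ g x)
    (hgi : Integrable g m) (hV : HDual m H v V) (hG : HDual m H g G) (hVc : Continuous V)
    (hGm : Measurable G) (hGi : Integrable G m)
    {s t : ℝ} (h0 : 0 ≤ s) (hst : s ≤ t) (h1 : t ≤ 1) {lam : ℝ} (hlam : 0 < lam) :
    ∀ᶠ γ in cf m, V (γ.ext t) - V (γ.ext s) ≤
      ∫ r in s..t, (lam / 2 * sp (γ, r) ^ 2 + E / (2 * lam) * G (γ.ext r)) := by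
  refine eventually_cf.2 fun π hP => ?_
  have := hP.1.1
  have i0 : Integrable (fun z : UCurve X × ℝ => lam / 2 * sp z ^ 2 + E / (2 * lam) * G (ev z)) (π.prod I01) :=
    (hP.int_sp.const_mul _).add ((hP.int_ev hGm hGi).const_mul _)
  refine ae_le_of_forall_setIntegral_le ((hP.int_at hVc t).sub (hP.int_at hVc s)) (ge_fub i0 h0 hst h1).2.1
    fun S _ _ => ?_
  by_cases hS0 : π S = 0
  · rw [Measure.restrict_eq_zero.2 hS0]; simp
  have a1 := plan_est hS hH hv hD hgD hgm hg0 hgi hV hG hVc hGm hGi (hP.cond hS0) h0 hst h1 hlam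
  simp only [integral_smul_measure, smul_eq_mul] at a1
  rw [← mul_sub, ← integral_sub (hP.int_at hVc t).integrableOn (hP.int_at hVc s).integrableOn] at a1
  exact le_of_mul_le_mul_left a1
    (ENNReal.toReal_pos (ENNReal.inv_ne_zero.2 (measure_ne_top _ _)) (ENNReal.inv_ne_top.2 hS0))

theorem ge_deriv {h a : ℝ → ℝ} (hc : Continuous h) (ha : Integrable a I01) (ha0 : ∀ t, 0 ≤ a t)
    (hq : ∀ p q : ℚ, 0 ≤ (p : ℝ) → (p : ℝ) ≤ q → (q : ℝ) ≤ 1 → |h q - h p| ≤ ∫ r in (p : ℝ)..(q : ℝ), a r) :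
    ∃ g : ℝ → ℝ, AbsolutelyContinuousOnInterval g 0 1 ∧ (∀ t ∈ Icc (0 : ℝ) 1, g t = h t) ∧
      ∀ᵐ t ∂I01, |deriv g t| ≤ a t := by
  have hq' : ∀ p q : ℚ, (p : ℝ) ∈ Icc (0 : ℝ) 1 → (q : ℝ) ∈ Icc (0 : ℝ) 1 →
      |h q - h p| ≤ |∫ r in (p : ℝ)..(q : ℝ), a r| := fun p q hp hq1 => by
    rcases le_total (p : ℝ) q with hpq | hpq
    · exact (hq p q hp.1 hpq hq1.2).trans (le_abs_self _)
    · rw [abs_sub_comm, intervalIntegral.integral_symm, abs_neg]
      exact (hq q p hq1.1 hpq hp.2).trans (le_abs_self _)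
  obtain ⟨g, g1, g2, g3⟩ := exists_ac_of_rat ha (Eventually.of_forall ha0) hq'
  refine ⟨g, g1, fun t ht => g2 t ht fun p hp => ?_, g3⟩
  have hi : IntervalIntegrable a volume 0 1 := (intervalIntegrable_iff_integrableOn_Icc_of_le zero_le_one).2 ha
  have c1 := intervalIntegral.continuousOn_primitive_interval' hi (a := p) (by rwa [uIcc_of_le zero_le_one])
  rw [uIcc_of_le zero_le_one] at c1
  have hsub : Ioo (0 : ℝ) 1 ∩ range ((↑) : ℚ → ℝ) ⊆ Icc 0 1 := fun y hy => Ioo_subset_Icc_self hy.1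
  have c2 : t ∈ closure (Ioo (0 : ℝ) 1 ∩ range ((↑) : ℚ → ℝ)) := by
    rw [← closure_Ioo zero_ne_one] at ht
    exact closure_minimal (Rat.denseRange_cast.open_subset_closure_inter isOpen_Ioo) isClosed_closure ht
  refine ContinuousWithinAt.closure_le (f := fun t => |h t - h p|) (g := fun t => |∫ r in (p : ℝ)..t, a r|) c2
    (hc.sub continuous_const).abs.continuousWithinAt ((c1 t ht).mono hsub).abs ?_
  rintro y ⟨hy, q, rfl⟩
  exact hq' p q hp (Ioo_subset_Icc_self hy)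

theorem ge_opt {c s b : ℝ} (hs : 0 ≤ s) (hb : 0 ≤ b)
    (h : ∀ lam : ℚ, 0 < (lam : ℝ) → c ≤ lam / 2 * s ^ 2 + b / (2 * lam)) : c ≤ √b * s := by
  have h' : ∀ lam : ℝ, 0 < lam → c ≤ lam / 2 * s ^ 2 + b / (2 * lam) := fun lam hlam => by
    have c2 : lam ∈ closure (Ioi (0 : ℝ) ∩ range ((↑) : ℚ → ℝ)) :=
      Rat.denseRange_cast.open_subset_closure_inter isOpen_Ioi hlam
    refine ContinuousWithinAt.closure_le (f := fun _ => c) (g := fun l : ℝ => l / 2 * s ^ 2 + b / (2 * l)) c2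
      continuousWithinAt_const (ContinuousAt.continuousWithinAt ?_) ?_
    · have : 2 * lam ≠ 0 := by positivity
      fun_prop (disch := assumption)
    · rintro y ⟨hy, q, rfl⟩
      exact h q hy
  refine le_of_forall_pos_le_add fun ε hε => ?_
  set r := √b with hr
  have r0 : 0 ≤ r := Real.sqrt_nonneg _
  have rb : b = r ^ 2 := (Real.sq_sqrt hb).symm
  obtain ⟨η, hη, hηe⟩ : ∃ η : ℝ, 0 < η ∧ η * (r + s) ≤ ε :=
    ⟨ε / (r + s + 1), by positivity, by
      rw [div_mul_eq_mul_div, div_le_iff₀ (by positivity)]; nlinarith⟩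
  have a1 := h' ((r + η) / (s + η)) (by positivity)
  have a2 : (r + η) / (s + η) / 2 * s ^ 2 ≤ (r + η) * s / 2 := by
    rw [div_div, div_mul_eq_mul_div, div_le_div_iff₀ (by positivity) two_pos]
    have : 0 ≤ (r + η) * s * η := by positivity
    nlinarith
  have a3 : b / (2 * ((r + η) / (s + η))) ≤ (s + η) * r / 2 := by
    rw [rb, mul_div_assoc', div_div_eq_mul_div, div_le_div_iff₀ (by positivity) two_pos]
    have : 0 ≤ (s + η) * r * η := by positivity
    nlinarith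
  nlinarith [mul_nonneg hη.le (add_nonneg r0 hs)]

theorem gr_le_of_flow {κ γ' : ℝ} (hS : Sp m κ γ') {E : ℝ} {H : Measure X → Measure X} (hH : HFlow m E H)
    {v D g V G : X → ℝ} {L L' : ℝ≥0} (hv : LipschitzWith L v)
    (hD : IsWUGLoc m v D) (hgD : ∀ᵐ x ∂m, D x ^ 2 ≤ g x) (hgm : Measurable g) (hg0 : ∀ x, 0 ≤ g x)
    (hgi : Integrable g m) (hV : HDual m H v V) (hG : HDual m H g G) (hVl : LipschitzWith L' V)
    (hGm : Measurable G) (hGi : Integrable G m) (hG0 : ∀ x, 0 ≤ G x) :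
    ∀ᵐ x ∂m, minWeakGrad m V x ≤ √(E * G x) := by
  have hE := hH.pos
  have hVc := hVl.continuous
  have hD' : IsWUGLoc m (fun x => - v x) D := ⟨hD.1, hD.2.1, fun P h1 h2 => by
    simpa only [neg_sub_neg, abs_sub_comm] using hD.2.2 P h1 h2⟩
  have hV' : HDual m H (fun x => - v x) (fun x => - V x) := fun o R C ν h =>
    ⟨(hV o R C ν h).1.neg, by rw [integral_neg, integral_neg, (hV o R C ν h).2]⟩
  have a1 : ∀ᶠ γ in cf m, ∀ p q lam : ℚ, 0 ≤ (p : ℝ) → (p : ℝ) ≤ q → (q : ℝ) ≤ 1 → 0 < (lam : ℝ) →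
      |V (γ.ext q) - V (γ.ext p)| ≤
        ∫ r in (p : ℝ)..q, ((lam : ℝ) / 2 * sp (γ, r) ^ 2 + E / (2 * lam) * G (γ.ext r)) := by
    simp only [eventually_countable_forall]
    intro p q lam h0 h1 h2 h3
    filter_upwards [curve_est hS hH hv hD hgD hgm hg0 hgi hV hG hVc hGm hGi h0 h1 h2 h3,
      curve_est hS hH hv.neg hD' hgD hgm hg0 hgi hV' hG hVc.neg hGm hGi h0 h1 h2 h3] with γ b1 b2
    rw [abs_le]
    constructor <;> linarith
  have a2 : ∀ᶠ γ in cf m, Integrable (fun r => sp (γ, r) ^ 2) I01 :=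
    eventually_cf.2 fun π hP => by have := hP.1.1; exact hP.int_sp.prod_right_ae
  have a3 : ∀ᶠ γ in cf m, Integrable (fun r => G (γ.ext r)) I01 :=
    eventually_cf.2 fun π hP => by have := hP.1.1; exact (hP.int_ev hGm hGi).prod_right_ae
  refine gr_le (sl_lip hVl) ((hGm.const_mul E).sqrt.aemeasurable) (Eventually.of_forall fun _ => Real.sqrt_nonneg _)
    (eventually_pf.2 ?_)
  filter_upwards [a1, a2, a3] with γ b1 b2 b3
  have b4 : ∀ᵐ t ∂I01, ∀ lam : ℚ, 0 < (lam : ℝ) →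
      |cd V (γ, t)| ≤ (lam : ℝ) / 2 * sp (γ, t) ^ 2 + E / (2 * lam) * G (γ.ext t) := by
    rw [ae_all_iff]
    intro lam
    by_cases hlam : 0 < (lam : ℝ)
    · obtain ⟨u, u1, u2, u3⟩ := ge_deriv (h := fun r => V (γ.ext r))
        (a := fun r => (lam : ℝ) / 2 * sp (γ, r) ^ 2 + E / (2 * lam) * G (γ.ext r))
        (hVc.comp (continuous_ext γ)) ((b2.const_mul _).add (b3.const_mul _))
        (fun t => add_nonneg (by positivity) (mul_nonneg (by positivity) (hG0 _)))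
        fun p q h0 h1 h2 => b1 p q lam h0 h1 h2 hlam
      have hr : Rep V γ u := ⟨u1, by rw [u2 0 (by simp), ext_zero], by rw [u2 1 (by simp), ext_one],
        (ae_restrict_mem measurableSet_Icc).mono u2⟩
      filter_upwards [hr.cd_eq, u3] with t c1 c2 _
      rwa [c1]
    · exact Eventually.of_forall fun t h => absurd h hlam
  filter_upwards [b4] with t ht
  refine ge_opt (sp_nonneg _) (mul_nonneg hE.le (hG0 _)) fun lam hlam => (ht lam hlam).trans (le_of_eq ?_)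
  simp only [ev]
  ring

end Crest.Agent.R242
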