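import Crest.Agent.R242.GeC
import Crest.Agent.R242.S2l
import Crest.Agent.R242.Ev3a

/-! Row 242, part I-d (helper48): contraction implies the gradient estimate. -/

set_option autoImplicit false
set_option linter.unusedSectionVars false
open MeasureTheory Filter Set Topology
open scoped ENNReal NNReal
open Crest.GeometryTopology.SyntheticRicci

namespace Crest.Agent.R242

variable {X : Type*} [MetricSpace X] [ProperSpace X] [MeasurableSpace X] [BorelSpace X] {m : Measure X}
  [Fact (IsFiniteOnBalls m)] [m.IsOpenPosMeasure]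

/-- density of a measure -/
noncomputable def geRho (m ν : Measure X) (x : X) : ℝ := (ν.rnDeriv m x).toReal

/-- the bound for densities -/
noncomputable def geBd (o : X) (R : ℝ) (C : ℝ≥0) : X → ℝ := (Metric.closedBall o R).indicator fun _ => (C : ℝ)

theorem geBd_mem (o : X) (R : ℝ) (C : ℝ≥0) (p : ℝ≥0∞) : MemLp (geBd o R C) p m :=
  memLp_indicator_const p Metric.isClosed_closedBall.measurableSet _
    (Or.inr (isCompact_closedBall o R).measure_lt_top.ne)

theorem geRho_spec {o : X} {R : ℝ} {C : ℝ≥0} {ν : Measure X} (h : BddProb m o R C ν) :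
    den m (geRho m ν) = ν ∧ (∀ᵐ x ∂m, geRho m ν x ≤ geBd o R C x) ∧ MemLp (geRho m ν) 2 m ∧
      Integrable (geRho m ν) m ∧ ∫ x, geRho m ν x ∂m = 1 := by
  have := h.prob
  have hac : ν ≪ m := Measure.absolutelyContinuous_of_le_smul h.le
  have mB : MeasurableSet (Metric.closedBall o R) := Metric.isClosed_closedBall.measurableSet
  have a1 : den m (geRho m ν) = ν := by
    rw [den, ← Measure.withDensity_rnDeriv_eq ν m hac]
    refine withDensity_congr_ae ?_
    rw [Measure.withDensity_rnDeriv_eq ν m hac]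
    filter_upwards [Measure.rnDeriv_lt_top ν m] with x hx
    exact ENNReal.ofReal_toReal hx.ne
  have a2 : ν.rnDeriv m ≤ᵐ[m] (Metric.closedBall o R).indicator fun _ => (C : ℝ≥0∞) := by
    refine ae_le_of_forall_setLIntegral_le_of_sigmaFinite (Measure.measurable_rnDeriv _ _) fun s hs _ => ?_
    rw [Measure.setLIntegral_rnDeriv hac, lintegral_indicator mB, lintegral_const, Measure.restrict_restrict mB,
      Measure.restrict_apply_univ]
    have b1 : ν s ≤ ν (Metric.closedBall o R ∩ s) + ν (Metric.closedBall o R)ᶜ :=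
      (measure_mono fun x hx => by by_cases h' : x ∈ Metric.closedBall o R <;> simp_all).trans (measure_union_le _ _)
    rw [h.supp, add_zero] at b1
    exact b1.trans (h.le _)
  have a3 : ∀ᵐ x ∂m, geRho m ν x ≤ geBd o R C x := by
    filter_upwards [a2] with x hx
    by_cases h' : x ∈ Metric.closedBall o R
    · rw [indicator_of_mem h'] at hx
      rw [geBd, indicator_of_mem h']
      exact ENNReal.toReal_le_coe_of_le_coe hx
    · rw [indicator_of_notMem h', nonpos_iff_eq_zero] at hx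
      rw [geBd, indicator_of_notMem h', geRho, hx]
      exact le_rfl
  have a4 : ∀ p, MemLp (geRho m ν) p m := fun p =>
    (geBd_mem o R C p).mono' (Measure.measurable_rnDeriv ν m).ennreal_toReal.aestronglyMeasurable
      (a3.mono fun x hx => by rwa [Real.norm_of_nonneg (show 0 ≤ geRho m ν x from ENNReal.toReal_nonneg)])
  refine ⟨a1, a3, a4 2, memLp_one_iff_integrable.1 (a4 1), ?_⟩
  simp only [geRho]
  rw [Measure.integral_toReal_rnDeriv hac]
  simp

variable {J P : ℝ → (X → ℝ) → X → ℝ}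

theorem Heat.ge_zero (hH : Heat m J P) {t : ℝ} (ht : 0 ≤ t) : ∀ᵐ x ∂m, P t (fun _ => 0) x = 0 := by
  have := hH.P_lin t ht (fun _ => 0) (fun _ => 0) MemLp.zero MemLp.zero 0 0
  simp only [zero_mul, add_zero] at this
  exact this

theorem Heat.ge_mono (hH : Heat m J P) {t : ℝ} (ht : 0 ≤ t) {f g : X → ℝ} (hf : MemLp f 2 m) (hg : MemLp g 2 m)
    (h : ∀ᵐ x ∂m, f x ≤ g x) : ∀ᵐ x ∂m, P t f x ≤ P t g x := by
  simpa only [zero_add] using hH.P_markov t ht f g hf hg 0 le_rfl (by simpa only [zero_add] using h)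

theorem Heat.ge_nonneg (hH : Heat m J P) {t : ℝ} (ht : 0 ≤ t) {f : X → ℝ} (hf : MemLp f 2 m)
    (h : ∀ᵐ x ∂m, 0 ≤ f x) : ∀ᵐ x ∂m, 0 ≤ P t f x := by
  filter_upwards [hH.ge_mono ht MemLp.zero hf h, hH.ge_zero ht] with x h1 h2
  exact h2.symm.le.trans h1

theorem Heat.ge_flow {κ : ℝ} (hH : Heat m J P) (hc : Contr m κ P) {t : ℝ} (ht : 0 ≤ t) :
    HFlow m (Real.exp (2 * κ * t)) fun ν => den m (P t (geRho m ν)) := by
  have r0 : ∀ ν : Measure X, ∀ᵐ x ∂m, 0 ≤ geRho m ν x := fun ν => Eventually.of_forall fun _ => ENNReal.toReal_nonneg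
  refine ⟨Real.exp_pos _, fun o R C ν h => ?_, fun o R C ν h => ?_, fun o R C η hη => ?_, fun o R C ν₀ ν₁ h0 h1 => ?_⟩
  · obtain ⟨-, -, a3, a4, a5⟩ := geRho_spec h
    exact den_prob (hH.ge_nonneg ht a3 (r0 ν)) ((hH.P_mass t ht _ a3 a4).2.trans a5)
  · obtain ⟨-, a2, a3, -, -⟩ := geRho_spec h
    refine den_le ?_
    filter_upwards [hH.P_markov t ht _ (fun _ => 0) a3 MemLp.zero C C.2 (a2.mono fun x hx => by
      rw [add_zero]
      exact hx.trans (indicator_le_self' (fun _ _ => C.2) x)), hH.ge_zero ht] with x h1 h2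
    rwa [h2, add_zero] at h1
  · have b1 := geBd_mem (m := m) o R C 2
    have b2 := (hH.P_mass t ht _ b1 (memLp_one_iff_integrable.1 (geBd_mem o R C 1))).1
    have : IsFiniteMeasure (den m (P t (geBd o R C))) := isFiniteMeasure_withDensity_ofReal b2.2
    have b3 := tendsto_measure_iInter_atTop (μ := den m (P t (geBd o R C)))
      (s := fun n : ℕ => (Metric.closedBall o n)ᶜ)
      (fun n => Metric.isClosed_closedBall.measurableSet.compl.nullMeasurableSet)
      (fun i j hij => compl_subset_compl.2 (Metric.closedBall_subset_closedBall (by exact_mod_cast hij)))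
      ⟨0, measure_ne_top _ _⟩
    rw [← compl_iUnion, Metric.iUnion_closedBall_nat, compl_univ, measure_empty] at b3
    obtain ⟨n, hn⟩ := (b3.eventually (ge_mem_nhds (ENNReal.ofReal_pos.2 hη))).exists
    refine ⟨n, fun ν h => ENNReal.toReal_le_of_le_ofReal hη.le (le_trans ?_ hn)⟩
    obtain ⟨-, a2, a3, -, -⟩ := geRho_spec h
    exact withDensity_mono ((hH.ge_mono ht a3 b1 a2).mono fun x hx => ENNReal.ofReal_le_ofReal hx) _
  · obtain ⟨a1, -, a3, -, -⟩ := geRho_spec h0
    obtain ⟨b1, -, b3, -, -⟩ := geRho_spec h1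
    have := hc t ht o R C _ _ a3 b3 (r0 ν₀) (r0 ν₁) (by rwa [a1]) (by rwa [b1])
    rwa [a1, b1] at this

theorem Heat.ge_dual (hH : Heat m J P) {t : ℝ} (ht : 0 ≤ t) {f f' F : X → ℝ} (hf : MemLp f 2 m)
    (e1 : f =ᵐ[m] f') (e2 : P t f =ᵐ[m] F) : HDual m (fun ν => den m (P t (geRho m ν))) f' F := by
  intro o R C ν h
  obtain ⟨a1, -, a3, -, -⟩ := geRho_spec h
  have r0 : ∀ᵐ x ∂m, 0 ≤ geRho m ν x := Eventually.of_forall fun _ => ENNReal.toReal_nonneg
  have b1 := hH.P_mem t ht _ a3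
  have b2 := hH.ge_nonneg ht a3 r0
  have hf' := hf.ae_eq e1
  refine ⟨(den_integrable b1.aemeasurable b2 hf'.aestronglyMeasurable).2 (hf'.integrable_mul b1), ?_⟩
  conv_rhs => rw [← a1]
  rw [den_int b1.aemeasurable b2, den_int a3.aemeasurable r0]
  calc _ = ∫ x, f x * P t (geRho m ν) x ∂m := integral_congr_ae (e1.mono fun x hx => by simp only [hx])
    _ = ∫ x, P t f x * geRho m ν x ∂m := (hH.P_symm t ht f _ hf a3).symm
    _ = _ := integral_congr_ae (e2.mono fun x hx => by simp only [hx])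

theorem ge_of_contr {κ γ : ℝ} {J P : ℝ → (X → ℝ) → X → ℝ} (hS : Sp m κ γ) (hH : Heat m J P)
    (hc : Contr m κ P) : GE m κ P := by
  rintro t ht f L ⟨v, hv, hfv⟩ hf
  have hF := hH.ge_flow hc ht
  have hPf := hH.P_mem t ht f hf.1
  have l1 : LipAE m (Real.toNNReal (Real.exp (κ * t)) * L) (P t f) := by
    refine lipAE_of_avg (l2b_of_memLp hPf) fun o R C ν₀ ν₁ h0 h1 => ?_
    have d := hH.ge_dual ht hf.1 hfv EventuallyEq.rfl
    have := h0.prob
    have := h1.prob
    have := hF.prob o R C ν₀ h0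
    have c0 : W2sq ν₀ ν₁ ≠ ⊤ := W2sq_ne_top (moment_of_bdd (bdd_ae h0)) (moment_of_bdd (bdd_ae h1))
    have c1 := hF.contr o R C ν₀ ν₁ h0 h1
    have c2 := ENNReal.mul_ne_top (a := ENNReal.ofReal (Real.exp (2 * κ * t))) ENNReal.ofReal_ne_top c0
    have c3 := abs_int_sub_le (ne_top_of_le_ne_top c2 c1) L.2 (fun x y => hv.dist_le_mul x y)
      (d o R C ν₀ h0).1 (d o R C ν₁ h1).1
    rw [(d o R C ν₀ h0).2, (d o R C ν₁ h1).2, abs_sub_comm] at c3
    refine c3.trans ?_
    rw [NNReal.coe_mul, Real.coe_toNNReal _ (Real.exp_pos _).le, mul_comm (Real.exp _), mul_assoc]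
    refine mul_le_mul_of_nonneg_left ?_ L.2
    refine (Real.sqrt_le_sqrt (ENNReal.toReal_mono c2 c1)).trans (le_of_eq ?_)
    rw [ENNReal.toReal_mul, ENNReal.toReal_ofReal (Real.exp_pos _).le, Real.sqrt_mul (Real.exp_pos _).le,
      ← Real.exp_half, show 2 * κ * t / 2 = κ * t by ring]
    rfl
  refine ⟨l1, ?_⟩
  obtain ⟨V, hV, hPV⟩ := l1
  have hvs := sl_lip (m := m) hv
  have g1 : gradPairing m f f =ᵐ[m] fun x => minWeakGrad m v x ^ 2 := by
    filter_upwards [gam_self hf.2.1, gr_congr hf.2.1 hfv] with x h1 h2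
    rw [h1, h2]
  have g2 : Integrable (gradPairing m f f) m := gam_integrable hf hf
  have g3 : MemLp (gradPairing m f f) 2 m := by
    refine (hf.2.2.const_mul L).mono' g2.aestronglyMeasurable ?_
    filter_upwards [g1, gr_congr hf.2.1 hfv, gr_le_lip (m := m) hv, gr_nonneg m v] with x h1 h2 h3 h4
    rw [h1, h2, Real.norm_of_nonneg (sq_nonneg _), sq]
    exact mul_le_mul_of_nonneg_right h3 h4
  obtain ⟨D', mD, eD⟩ := gr_aemeasurable m v
  have g4 : gradPairing m f f =ᵐ[m] fun x => D' x ^ 2 := by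
    filter_upwards [g1, eD] with x h1 h2
    rw [h1, h2]
  have p1 := (hH.P_mass t ht _ g3 g2).1
  have p2 := hH.ge_nonneg ht g3 (gam_self_nonneg hf.2.1)
  obtain ⟨G', mG, eG⟩ := p1.aemeasurable
  have p3 : P t (gradPairing m f f) =ᵐ[m] fun x => |G' x| := by
    filter_upwards [p2, eG] with x h1 h2
    rw [← h2, abs_of_nonneg h1]
  have key := gr_le_of_flow hS hF hv (sl_wug hvs) (g := fun x => D' x ^ 2) (eD.mono fun x hx => by rw [hx])
    (mD.pow_const 2) (fun _ => sq_nonneg _) (g2.congr g4) (hH.ge_dual ht hf.1 hfv hPV) (hH.ge_dual ht g3 g4 p3) hV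
    mG.abs (p1.congr p3) fun _ => abs_nonneg _
  have s1 := (hH.P_sob t ht f hf).1.2.1
  filter_upwards [key, gam_self s1, gr_congr s1 hPV, p3, gr_nonneg m V] with x h1 h2 h3 h4 h5
  rw [h2, h3, h4]
  exact (pow_le_pow_left₀ h5 h1 2).trans (le_of_eq (Real.sq_sqrt (by positivity)))

end Crest.Agent.R242
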