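import Crest.Agent.R242.IIDefs

/-! Row 242, part II (helper16), TASK IIA0: algebra of `Γ`, (pointwise).
Keep the statements; auxiliary names `iia0_*`.  Definitions: `R242/IIDefs.lean`; paper proof: `R242/IIRead.lean`. -/

set_option autoImplicit false
set_option linter.unusedSectionVars false
set_option linter.unusedVariables false

open MeasureTheory Filter Set
open scoped ENNReal NNReal Topology

noncomputable section

namespace Crest.Agent.R242.II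

variable {X : Type*} [MetricSpace X] [MeasurableSpace X] [BorelSpace X] [ProperSpace X]
  {μ : Measure X} [IsFiniteMeasureOnCompacts μ] [μ.IsOpenPosMeasure] {D : Cal μ}
  {T R : ℝ → (X → ℝ) → X → ℝ} {u v w f g η ψ L : X → ℝ}

namespace Cal

theorem Γ_congr₂ {u' v' : X → ℝ} (hu : D.S u) (hv : D.S v) (h1 : u =ᵐ[μ] u') (h2 : v =ᵐ[μ] v') :
    D.Γ u v =ᵐ[μ] D.Γ u' v' := by
  have hu' := D.S_congr u u' hu h1
  have hv' := D.S_congr v v' hv h2
  exact (D.Γ_congr u u' v hu hv h1).trans ((D.Γ_comm u' v hu' hv).trans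
    ((D.Γ_congr v v' u' hv hu' h2).trans (D.Γ_comm v' u' hv' hu')))
theorem S_const (D : Cal μ) (c : ℝ) : D.S fun _ => c := (D.lip _ 0 (LipschitzWith.const c)).1
theorem S_add (hu : D.S u) (hv : D.S v) : D.S fun x => u x + v x := by
  simpa using D.S_lin u v 1 1 hu hv
theorem S_sub (hu : D.S u) (hv : D.S v) : D.S fun x => u x - v x := by
  simpa [sub_eq_add_neg] using D.S_lin u v 1 (-1) hu hv
theorem S_smul (c : ℝ) (hu : D.S u) : D.S fun x => c * u x := by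
  simpa using D.S_lin u u c 0 hu hu
theorem Γ_lin_right (a b : ℝ) (hu : D.S u) (hv : D.S v) (hw : D.S w) :
    D.Γ w (fun x => a * u x + b * v x) =ᵐ[μ] fun x => a * D.Γ w u x + b * D.Γ w v x := by
  filter_upwards [D.Γ_comm w _ hw (D.S_lin u v a b hu hv), D.Γ_lin u v w a b hu hv hw, D.Γ_comm u w hu hw,
    D.Γ_comm v w hv hw] with x h1 h2 h3 h4
  rw [h1, h2, h3, h4]
theorem Γ_add (hu : D.S u) (hv : D.S v) (hw : D.S w) :
    D.Γ (fun x => u x + v x) w =ᵐ[μ] fun x => D.Γ u w x + D.Γ v w x := by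
  simpa using D.Γ_lin u v w 1 1 hu hv hw
theorem Γ_sub (hu : D.S u) (hv : D.S v) (hw : D.S w) :
    D.Γ (fun x => u x - v x) w =ᵐ[μ] fun x => D.Γ u w x - D.Γ v w x := by
  simpa [sub_eq_add_neg] using D.Γ_lin u v w 1 (-1) hu hv hw
theorem Γ_smul (c : ℝ) (hu : D.S u) (hw : D.S w) :
    D.Γ (fun x => c * u x) w =ᵐ[μ] fun x => c * D.Γ u w x := by
  simpa using D.Γ_lin u u w c 0 hu hu hw
theorem Γ_add_right (hu : D.S u) (hv : D.S v) (hw : D.S w) :
    D.Γ w (fun x => u x + v x) =ᵐ[μ] fun x => D.Γ w u x + D.Γ w v x := by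
  simpa using Γ_lin_right 1 1 hu hv hw
theorem Γ_sub_right (hu : D.S u) (hv : D.S v) (hw : D.S w) :
    D.Γ w (fun x => u x - v x) =ᵐ[μ] fun x => D.Γ w u x - D.Γ w v x := by
  simpa [sub_eq_add_neg] using Γ_lin_right 1 (-1) hu hv hw
theorem Γ_smul_right (c : ℝ) (hu : D.S u) (hw : D.S w) :
    D.Γ w (fun x => c * u x) =ᵐ[μ] fun x => c * D.Γ w u x := by
  simpa using Γ_lin_right c 0 hu hu hw
theorem Γ_expand (a b : ℝ) (hu : D.S u) (hv : D.S v) :
    D.Γ (fun x => a * u x + b * v x) (fun x => a * u x + b * v x) =ᵐ[μ]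
      fun x => a ^ 2 * D.Γ u u x + 2 * a * b * D.Γ u v x + b ^ 2 * D.Γ v v x := by
  filter_upwards [D.Γ_lin u v _ a b hu hv (D.S_lin u v a b hu hv), Γ_lin_right a b hu hv hu,
    Γ_lin_right a b hu hv hv, D.Γ_comm v u hv hu] with x h1 h2 h3 h4
  rw [h1, h2, h3, h4]
  ring
/-- `Γ_expand` for all rational `a` and `b = 1`, discriminant -/
theorem Γ_sq_le (hu : D.S u) (hv : D.S v) : ∀ᵐ x ∂μ, D.Γ u v x ^ 2 ≤ D.Γ u u x * D.Γ v v x := by
  have h1 : ∀ᵐ x ∂μ, ∀ a : ℚ, 0 ≤ D.Γ u u x * ((a : ℝ) * a) + 2 * D.Γ u v x * a + D.Γ v v x := by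
    rw [ae_all_iff]
    intro a
    filter_upwards [Γ_expand (a : ℝ) 1 hu hv, D.Γ_nonneg _ (D.S_lin u v (a : ℝ) 1 hu hv)] with x h1 h2
    rw [h1] at h2
    linarith
  filter_upwards [h1] with x hx
  have h2 : ∀ a : ℝ, 0 ≤ D.Γ u u x * (a * a) + 2 * D.Γ u v x * a + D.Γ v v x := fun a =>
    Rat.denseRange_cast.induction_on a (isClosed_le continuous_const (by fun_prop)) hx
  have h3 := discrim_le_zero h2
  rw [discrim] at h3
  nlinarith
theorem abs_Γ_le (hu : D.S u) (hv : D.S v) :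
    ∀ᵐ x ∂μ, |D.Γ u v x| ≤ Real.sqrt (D.Γ u u x) * Real.sqrt (D.Γ v v x) := by
  filter_upwards [Γ_sq_le hu hv, D.Γ_nonneg u hu] with x h1 h2
  rw [← Real.sqrt_mul h2]
  exact Real.abs_le_sqrt h1
theorem two_abs_Γ_le (hu : D.S u) (hv : D.S v) : ∀ᵐ x ∂μ, 2 * |D.Γ u v x| ≤ D.Γ u u x + D.Γ v v x := by
  filter_upwards [abs_Γ_le hu hv, D.Γ_nonneg u hu, D.Γ_nonneg v hv] with x h1 h2 h3
  nlinarith [sq_nonneg (Real.sqrt (D.Γ u u x) - Real.sqrt (D.Γ v v x)), Real.sq_sqrt h2, Real.sq_sqrt h3]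
theorem Γ_add_le (hu : D.S u) (hv : D.S v) :
    ∀ᵐ x ∂μ, D.Γ (fun x => u x + v x) (fun x => u x + v x) x ≤ 2 * D.Γ u u x + 2 * D.Γ v v x := by
  have h := Γ_expand 1 1 hu hv
  simp only [one_mul] at h
  filter_upwards [h, two_abs_Γ_le hu hv] with x h1 h2
  rw [h1]
  have := le_abs_self (D.Γ u v x)
  linarith
theorem Γ_const (c : ℝ) (hv : D.S v) : ∀ᵐ x ∂μ, D.Γ (fun _ => c) v x = 0 := by
  filter_upwards [Γ_sq_le (D.S_const c) hv, (D.lip _ 0 (LipschitzWith.const c)).2, D.Γ_nonneg _ (D.S_const c)]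
    with x h1 h2 h3
  have h4 : D.Γ (fun _ => c) (fun _ => c) x = 0 := le_antisymm (by simpa using h2) h3
  rw [h4, zero_mul] at h1
  exact pow_eq_zero_iff two_ne_zero |>.1 (le_antisymm h1 (sq_nonneg _))
theorem Γ_chain_right {φ φ' : ℝ → ℝ} {K : ℝ} (hu : D.S u) (hv : D.S v) (h1 : ∀ s, HasDerivAt φ (φ' s) s)
    (h2 : Continuous φ') (h3 : ∀ s, |φ' s| ≤ K) :
    D.Γ v (fun x => φ (u x)) =ᵐ[μ] fun x => φ' (u x) * D.Γ v u x := by
  obtain ⟨a, b⟩ := D.chain u φ φ' K hu h1 h2 h3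
  filter_upwards [D.Γ_comm v _ hv a, b v hv, D.Γ_comm u v hu hv] with x e1 e2 e3
  rw [e1, e2, e3]
theorem Γ_chain_self {φ φ' : ℝ → ℝ} {K : ℝ} (hu : D.S u) (h1 : ∀ s, HasDerivAt φ (φ' s) s)
    (h2 : Continuous φ') (h3 : ∀ s, |φ' s| ≤ K) :
    D.Γ (fun x => φ (u x)) (fun x => φ (u x)) =ᵐ[μ] fun x => φ' (u x) ^ 2 * D.Γ u u x := by
  obtain ⟨a, b⟩ := D.chain u φ φ' K hu h1 h2 h3
  filter_upwards [b _ a, Γ_chain_right hu hu h1 h2 h3] with x e1 e2
  rw [e1, e2]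
  ring
/-- locality: `u = χ * u` with `χ = min 1 (infDist x B')`-type cut-offs, or `χ x = min 1 (n * infDist x O)`:
on `O` both terms of `mul_lip` vanish.  (`u` vanishes on the open set `O`; use `h x = min 1 (infDist x Oᶜ)`,
`h * u = 0`, so `0 = h Γ u w + u Γ h w`, and `h > 0`, `u = 0` on `O`; `O = univ` separately.) -/
theorem Γ_zero_on {O : Set X} (hO : IsOpen O) (hu : D.S u) (hw : D.S w) (h : ∀ᵐ x ∂μ, x ∈ O → u x = 0) :
    ∀ᵐ x ∂μ, x ∈ O → D.Γ u w x = 0 := by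
  rcases eq_empty_or_nonempty Oᶜ with hc | hc
  · have h0 : u =ᵐ[μ] fun _ => 0 := by
      filter_upwards [h] with x hx
      exact hx (by rw [compl_empty_iff.1 hc]; trivial)
    filter_upwards [D.Γ_congr u _ w hu hw h0, Γ_const 0 hw] with x e1 e2 _
    rw [e1, e2]
  · have hl : LipschitzWith 1 fun x => min 1 (Metric.infDist x Oᶜ) := (Metric.lipschitz_infDist_pt Oᶜ).const_min 1
    have hb : ∀ x, |min 1 (Metric.infDist x Oᶜ)| ≤ 1 := fun x => by
      rw [abs_of_nonneg (le_min zero_le_one Metric.infDist_nonneg)]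
      exact min_le_left _ _
    obtain ⟨a, b⟩ := D.mul_lip _ u 1 1 hl hb hu
    have h0 : (fun x => min 1 (Metric.infDist x Oᶜ) * u x) =ᵐ[μ] fun _ => 0 := by
      filter_upwards [h] with x hx
      by_cases hxO : x ∈ O
      · rw [hx hxO, mul_zero]
      · rw [Metric.infDist_zero_of_mem (show x ∈ Oᶜ from hxO), min_eq_right zero_le_one, zero_mul]
    filter_upwards [D.Γ_congr _ _ w a hw h0, Γ_const 0 hw, b w hw, h] with x e1 e2 e3 e4 hx
    rw [e1, e2, e4 hx, zero_mul, add_zero] at e3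
    have hp : 0 < min 1 (Metric.infDist x Oᶜ) :=
      lt_min one_pos ((hO.isClosed_compl.notMem_iff_infDist_pos hc).1 fun h' => h' hx)
    exact (mul_eq_zero.1 e3.symm).resolve_left hp.ne'

theorem Γ_sum {ι : Type*} (s : Finset ι) {a : ι → X → ℝ} (h : ∀ i ∈ s, D.S (a i)) (hw : D.S w) :
    D.Γ (fun x => ∑ i ∈ s, a i x) w =ᵐ[μ] fun x => ∑ i ∈ s, D.Γ (a i) w x := by
  classical
  suffices H : D.S (fun x => ∑ i ∈ s, a i x) ∧
      D.Γ (fun x => ∑ i ∈ s, a i x) w =ᵐ[μ] fun x => ∑ i ∈ s, D.Γ (a i) w x from H.2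
  induction s using Finset.induction_on with
  | empty =>
    simp only [Finset.sum_empty]
    exact ⟨D.S_const 0, Γ_const 0 hw⟩
  | insert i s hi ih =>
    obtain ⟨h1, h2⟩ := ih fun j hj => h j (Finset.mem_insert_of_mem hj)
    have h3 := h i (Finset.mem_insert_self i s)
    simp only [Finset.sum_insert hi]
    refine ⟨S_add h3 h1, ?_⟩
    filter_upwards [Γ_add h3 h1 hw, h2] with x e1 e2
    rw [e1, e2]

end Cal

end Crest.Agent.R242.II
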