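import Crest.Agent.R242.IIDefs

/-! Row 242, part II (helper16), TASK IIA2: `L²` tools, weights (no calculus).
Keep the statements; auxiliary names `iia2_*`.  Definitions: `R242/IIDefs.lean`; paper proof: `R242/IIRead.lean`. -/

set_option autoImplicit false
set_option linter.unusedSectionVars false
set_option linter.unusedVariables false

open MeasureTheory Filter Set
open scoped ENNReal NNReal Topology

noncomputable section

namespace Crest.Agent.R242.II

variable {X : Type*} [MetricSpace X] [MeasurableSpace X] [BorelSpace X] [ProperSpace X]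
  {μ : Measure X} [IsFiniteMeasureOnCompacts μ] [μ.IsOpenPosMeasure] {D : Cal μ}
  {T R : ℝ → (X → ℝ) → X → ℝ} {u v w f g η ψ L : X → ℝ}

theorem n2_nonneg (μ : Measure X) (f : X → ℝ) : 0 ≤ n2 μ f := by
  exact integral_nonneg fun x => sq_nonneg _
theorem n2_congr (h : f =ᵐ[μ] g) : n2 μ f = n2 μ g := by
  exact integral_congr_ae (h.mono fun x hx => by simp only [hx])
theorem n2_mono (hg : MemLp g 2 μ) (h : ∀ᵐ x ∂μ, |f x| ≤ |g x|) : n2 μ f ≤ n2 μ g := by
  refine integral_mono_of_nonneg (Eventually.of_forall fun x => sq_nonneg _) hg.integrable_sq ?_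
  filter_upwards [h] with x hx
  exact sq_le_sq.2 hx
theorem n2_smul (c : ℝ) (f : X → ℝ) : n2 μ (fun x => c * f x) = c ^ 2 * n2 μ f := by
  unfold n2
  rw [← integral_const_mul]
  simp only [mul_pow]
theorem n2_sub_comm (f g : X → ℝ) : n2 μ (fun x => f x - g x) = n2 μ fun x => g x - f x := by
  unfold n2
  congr 1
  funext x
  ring
theorem n2_add_le (hf : MemLp f 2 μ) (hg : MemLp g 2 μ) :
    n2 μ (fun x => f x + g x) ≤ 2 * n2 μ f + 2 * n2 μ g := by
  unfold n2
  rw [← integral_const_mul, ← integral_const_mul, ← integral_add (hf.integrable_sq.const_mul _)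
    (hg.integrable_sq.const_mul _)]
  refine integral_mono (hf.add hg).integrable_sq ((hf.integrable_sq.const_mul _).add (hg.integrable_sq.const_mul _)) ?_
  intro x
  simp only
  nlinarith [sq_nonneg (f x - g x)]
theorem ae_zero_of_n2 (hf : MemLp f 2 μ) (h : n2 μ f ≤ 0) : ∀ᵐ x ∂μ, f x = 0 := by
  have := (integral_eq_zero_iff_of_nonneg (fun x => sq_nonneg (f x)) hf.integrable_sq).1
    (le_antisymm h (n2_nonneg μ f))
  filter_upwards [this] with x hx
  exact pow_eq_zero_iff two_ne_zero |>.1 hx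
theorem integrable_mul2 (hf : MemLp f 2 μ) (hg : MemLp g 2 μ) : Integrable (fun x => f x * g x) μ := by
  exact hf.integrable_mul hg
theorem memLp_mul_bdd {A : ℝ} (hf : MemLp f 2 μ) (hη : AEStronglyMeasurable η μ) (hA : ∀ᵐ x ∂μ, |η x| ≤ A) :
    MemLp (fun x => η x * f x) 2 μ := by
  refine (hf.const_mul A).mono (hη.mul hf.1) ?_
  filter_upwards [hA] with x hx
  rw [Real.norm_eq_abs, Real.norm_eq_abs, abs_mul, abs_mul]
  exact mul_le_mul_of_nonneg_right (hx.trans (le_abs_self A)) (abs_nonneg _)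
theorem memLp_of_bdd {A : ℝ} (hf : Integrable f μ) (hA : ∀ᵐ x ∂μ, |f x| ≤ A) : MemLp f 2 μ := by
  refine (memLp_two_iff_integrable_sq hf.1).2 ?_
  refine (hf.abs.const_mul A).mono' (hf.1.pow 2) ?_
  filter_upwards [hA] with x hx
  rw [Real.norm_eq_abs, abs_pow, sq]
  exact mul_le_mul_of_nonneg_right hx (abs_nonneg _)
theorem iia2_cs (hf : MemLp f 2 μ) (hg : MemLp g 2 μ) :
    |∫ x, f x * g x ∂μ| ≤ Real.sqrt (n2 μ f) * Real.sqrt (n2 μ g) := by
  have key : ∀ t : ℝ, 0 ≤ n2 μ g * (t * t) + (2 * ∫ x, f x * g x ∂μ) * t + n2 μ f := by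
    intro t
    have h0 : 0 ≤ ∫ x, (f x + t * g x) ^ 2 ∂μ := integral_nonneg fun x => sq_nonneg _
    have h1 : ∫ x, (f x + t * g x) ^ 2 ∂μ =
        ∫ x, ((t * t) * g x ^ 2 + (2 * t) * (f x * g x) + f x ^ 2) ∂μ := by
      congr 1
      funext x
      ring
    rw [h1, integral_add, integral_add, integral_const_mul, integral_const_mul] at h0
    · unfold n2
      linarith
    · exact hg.integrable_sq.const_mul _
    · exact (hf.integrable_mul hg).const_mul _
    · exact (hg.integrable_sq.const_mul _).add ((hf.integrable_mul hg).const_mul _)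
    · exact hf.integrable_sq
  have := discrim_le_zero key
  unfold discrim at this
  rw [← Real.sqrt_mul (n2_nonneg μ f)]
  exact Real.abs_le_sqrt (by nlinarith)

/-- Cauchy-Schwarz (discriminant) -/
theorem int_abs_mul_le (hf : MemLp f 2 μ) (hg : MemLp g 2 μ) :
    ∫ x, |f x * g x| ∂μ ≤ Real.sqrt (n2 μ f) * Real.sqrt (n2 μ g) := by
  have := iia2_cs (f := fun x => |f x|) (g := fun x => |g x|) hf.abs hg.abs
  simp only [n2, sq_abs, ← abs_mul] at this ⊢
  exact (le_abs_self _).trans this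
theorem abs_int_mul_le (hf : MemLp f 2 μ) (hg : MemLp g 2 μ) :
    |∫ x, f x * g x ∂μ| ≤ Real.sqrt (n2 μ f) * Real.sqrt (n2 μ g) := by
  exact iia2_cs hf hg
theorem sqrt_n2_add_le (hf : MemLp f 2 μ) (hg : MemLp g 2 μ) :
    Real.sqrt (n2 μ fun x => f x + g x) ≤ Real.sqrt (n2 μ f) + Real.sqrt (n2 μ g) := by
  refine Real.sqrt_le_iff.2 ⟨by positivity, ?_⟩
  have e : n2 μ (fun x => f x + g x) = n2 μ f + 2 * ∫ x, f x * g x ∂μ + n2 μ g := by
    have i1 : Integrable (fun x => 2 * (f x * g x)) μ := (hf.integrable_mul hg).const_mul 2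
    have i2 : Integrable (fun x => f x ^ 2 + 2 * (f x * g x)) μ := hf.integrable_sq.add i1
    unfold n2
    rw [← integral_const_mul, ← integral_add hf.integrable_sq i1, ← integral_add i2 hg.integrable_sq]
    congr 1
    funext x
    ring
  have := (le_abs_self _).trans (iia2_cs hf hg)
  rw [e, add_sq, Real.sq_sqrt (n2_nonneg μ f), Real.sq_sqrt (n2_nonneg μ g)]
  linarith
theorem n2_eq_eLpNorm (hf : MemLp f 2 μ) : n2 μ f = (eLpNorm f 2 μ).toReal ^ 2 := by
  rw [← Lp.norm_toLp f hf, ← real_inner_self_eq_norm_sq, L2.inner_def]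
  refine integral_congr_ae ?_
  filter_upwards [hf.coeFn_toLp] with x h1
  rw [h1]
  simp
theorem tendsto_n2_iff {ι : Type*} {p : Filter ι} {a : ι → X → ℝ} (ha : ∀ i, MemLp (a i) 2 μ) :
    Tendsto (fun i => n2 μ (a i)) p (𝓝 0) ↔ Tendsto (fun i => eLpNorm (a i) 2 μ) p (𝓝 0) := by
  rw [← ENNReal.tendsto_toReal_zero_iff fun i => (ha i).2.ne]
  simp only [fun i => n2_eq_eLpNorm (ha i)]
  constructor
  · intro h
    have := h.sqrt
    simpa [Real.sqrt_sq ENNReal.toReal_nonneg] using this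
  · intro h
    simpa using h.pow 2

theorem tendsto_n2_add {ι : Type*} {p : Filter ι} {a b : ι → X → ℝ} (ha : ∀ᶠ i in p, MemLp (a i) 2 μ)
    (hb : ∀ᶠ i in p, MemLp (b i) 2 μ) (h1 : Tendsto (fun i => n2 μ (a i)) p (𝓝 0))
    (h2 : Tendsto (fun i => n2 μ (b i)) p (𝓝 0)) :
    Tendsto (fun i => n2 μ fun x => a i x + b i x) p (𝓝 0) := by
  have l : Tendsto (fun i => 2 * n2 μ (a i) + 2 * n2 μ (b i)) p (𝓝 0) := by
    simpa using (h1.const_mul 2).add (h2.const_mul 2)
  refine squeeze_zero' (Eventually.of_forall fun i => n2_nonneg _ _) ?_ l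
  filter_upwards [ha, hb] with i x y using n2_add_le x y
/-- both factors converge in `L²` -/
theorem tendsto_int_mul {ι : Type*} {p : Filter ι} {a b : ι → X → ℝ} (ha : ∀ᶠ i in p, MemLp (a i) 2 μ)
    (hb : ∀ᶠ i in p, MemLp (b i) 2 μ) (hf : MemLp f 2 μ) (hg : MemLp g 2 μ)
    (h1 : Tendsto (fun i => n2 μ fun x => a i x - f x) p (𝓝 0))
    (h2 : Tendsto (fun i => n2 μ fun x => b i x - g x) p (𝓝 0)) :
    Tendsto (fun i => ∫ x, a i x * b i x ∂μ) p (𝓝 (∫ x, f x * g x ∂μ)) := by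
  rw [tendsto_iff_norm_sub_tendsto_zero]
  have l : Tendsto (fun i => √(n2 μ fun x => a i x - f x) * √(n2 μ fun x => b i x - g x) +
      √(n2 μ fun x => a i x - f x) * √(n2 μ g) + √(n2 μ f) * √(n2 μ fun x => b i x - g x)) p (𝓝 0) := by
    simpa using ((h1.sqrt.mul h2.sqrt).add (h1.sqrt.mul_const √(n2 μ g))).add (h2.sqrt.const_mul √(n2 μ f))
  refine squeeze_zero' (Eventually.of_forall fun i => norm_nonneg _) ?_ l
  filter_upwards [ha, hb] with i x y
  have m1 : MemLp (fun z => a i z - f z) 2 μ := x.sub hf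
  have m2 : MemLp (fun z => b i z - g z) 2 μ := y.sub hg
  have i1 := integrable_mul2 m1 m2
  have i2 := integrable_mul2 m1 hg
  have i3 := integrable_mul2 hf m2
  have i4 : Integrable (fun z => (a i z - f z) * (b i z - g z) + (a i z - f z) * g z) μ := i1.add i2
  have e : ∫ z, a i z * b i z ∂μ - ∫ z, f z * g z ∂μ = ∫ z, (a i z - f z) * (b i z - g z) ∂μ +
      ∫ z, (a i z - f z) * g z ∂μ + ∫ z, f z * (b i z - g z) ∂μ := by
    rw [← integral_sub (integrable_mul2 x y) (integrable_mul2 hf hg), ← integral_add i1 i2, ← integral_add i4 i3]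
    congr 1
    funext z
    ring
  rw [e, Real.norm_eq_abs]
  refine (abs_add_three _ _ _).trans ?_
  linarith [iia2_cs m1 m2, iia2_cs m1 hg, iia2_cs hf m2]
theorem iia2_bd {A : ℝ} (hη : AEStronglyMeasurable η μ) (hA : ∀ᵐ x ∂μ, |η x| ≤ A) (hf : Integrable f μ) :
    Integrable (fun x => η x * f x) μ ∧ |∫ x, η x * f x ∂μ| ≤ A * ∫ x, |f x| ∂μ := by
  refine ⟨hf.bdd_mul hη hA, ?_⟩
  rw [← integral_const_mul, ← Real.norm_eq_abs]
  refine norm_integral_le_of_norm_le (hf.abs.const_mul A) ?_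
  filter_upwards [hA] with x hx
  rw [Real.norm_eq_abs, abs_mul]
  exact mul_le_mul_of_nonneg_right hx (abs_nonneg _)

theorem iia2_split (hg : Integrable g μ) {ε : ℝ} (hε : 0 < ε) :
    ∃ k : X → ℝ, MemLp k 2 μ ∧ Integrable k μ ∧ ∫ x, |g x - k x| ∂μ ≤ ε := by
  obtain ⟨k, h1, h2⟩ := (memLp_one_iff_integrable.2 hg).exists_simpleFunc_eLpNorm_sub_lt ENNReal.one_ne_top
    (ε := ENNReal.ofReal ε) (by simpa using hε)
  have hi : Integrable k μ := memLp_one_iff_integrable.1 h2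
  obtain ⟨C, hC⟩ := k.exists_forall_norm_le
  refine ⟨k, memLp_of_bdd hi (Eventually.of_forall hC), hi, ?_⟩
  rw [eLpNorm_one_eq_lintegral_enorm, ← ofReal_integral_norm_eq_lintegral_enorm (hg.sub hi)] at h1
  exact ((ENNReal.ofReal_lt_ofReal_iff hε).1 h1).le

/-- bounded and `L²`-convergent against `L¹`-convergent: split `g = g₁ + g₂`, `g₁ = max (-N) (min N g) ∈ L²`,
`∫ |g₂| ≤ ε`; `|f| ≤ A` a.e. is assumed -/
theorem tendsto_int_mul_bdd {ι : Type*} {p : Filter ι} {a b : ι → X → ℝ} {A : ℝ}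
    (ha : ∀ᶠ i in p, MemLp (a i) 2 μ ∧ ∀ᵐ x ∂μ, |a i x| ≤ A) (hf : MemLp f 2 μ) (hfA : ∀ᵐ x ∂μ, |f x| ≤ A)
    (hb : ∀ᶠ i in p, Integrable (b i) μ) (hg : Integrable g μ)
    (h1 : Tendsto (fun i => n2 μ fun x => a i x - f x) p (𝓝 0))
    (h2 : Tendsto (fun i => ∫ x, |b i x - g x| ∂μ) p (𝓝 0)) :
    Tendsto (fun i => ∫ x, a i x * b i x ∂μ) p (𝓝 (∫ x, f x * g x ∂μ)) := by
  rw [Metric.tendsto_nhds]
  intro ε hε
  have hA : 0 < |A| + 1 := by positivity
  obtain ⟨k, k2, k1, hk⟩ := iia2_split hg (ε := ε / (8 * (|A| + 1))) (by positivity)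
  have l : Tendsto (fun i => A * ∫ x, |b i x - g x| ∂μ + √(n2 μ fun x => a i x - f x) * √(n2 μ k)) p (𝓝 0) := by
    simpa using (h2.const_mul A).add (h1.sqrt.mul_const √(n2 μ k))
  filter_upwards [ha, hb, (tendsto_order.1 l).2 _ (half_pos hε)] with i x y hl
  have m1 : MemLp (fun z => a i z - f z) 2 μ := x.1.sub hf
  have b1 : ∀ᵐ z ∂μ, |a i z - f z| ≤ 2 * (|A| + 1) := by
    filter_upwards [x.2, hfA] with z u v
    linarith [abs_sub (a i z) (f z), le_abs_self A]
  obtain ⟨i1, c1⟩ := iia2_bd x.1.1 x.2 (f := fun z => b i z - g z) (y.sub hg)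
  obtain ⟨i2, c2⟩ := iia2_bd m1.1 b1 (f := fun z => g z - k z) (hg.sub k1)
  have i3 := integrable_mul2 m1 k2
  have i4 : Integrable (fun z => a i z * (b i z - g z) + (a i z - f z) * (g z - k z)) μ := i1.add i2
  have e : ∫ z, a i z * b i z ∂μ - ∫ z, f z * g z ∂μ = ∫ z, a i z * (b i z - g z) ∂μ +
      ∫ z, (a i z - f z) * (g z - k z) ∂μ + ∫ z, (a i z - f z) * k z ∂μ := by
    rw [← integral_sub (iia2_bd x.1.1 x.2 y).1 (iia2_bd hf.1 hfA hg).1, ← integral_add i1 i2, ← integral_add i4 i3]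
    congr 1
    funext z
    ring
  have c3 : 2 * (|A| + 1) * ∫ z, |g z - k z| ∂μ ≤ ε / 4 :=
    (mul_le_mul_of_nonneg_left hk (by positivity)).trans (le_of_eq (by field_simp; ring))
  rw [Real.dist_eq, e]
  refine (abs_add_three _ _ _).trans_lt ?_
  linarith [iia2_cs m1 k2]


end Crest.Agent.R242.II
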