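import Crest.Agent.R242.IIA0
import Crest.Agent.R242.IIA2

/-! Row 242, part II (helper16), TASK IIA1: algebra of `Γ`, `W`, `E`.
Keep the statements; auxiliary names `iia1_*`.  Definitions: `R242/IIDefs.lean`; paper proof: `R242/IIRead.lean`. -/

set_option autoImplicit false
set_option linter.unusedSectionVars false
set_option linter.unusedVariables false

open MeasureTheory Filter Set
open scoped ENNReal NNReal Topology

noncomputable section

namespace Crest.Agent.R242.II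

variable {X : Type*} [MetricSpace X] [MeasurableSpace X] [BorelSpace X] [ProperSpace X]
  {μ : Measure X} [IsFiniteMeasureOnCompacts μ] [μ.IsOpenPosMeasure] {D : Cal μ}
  {T R : ℝ → (X → ℝ) → X → ℝ} {u v w f g η ψ L : X → ℝ}

namespace Cal

theorem iia1_quad {a b c : ℝ} (p q : ℝ) (ha : 0 ≤ a) (hb : 0 ≤ b) (hc : c ^ 2 ≤ a * b) :
    2 * p * q * c ≤ p ^ 2 * a + q ^ 2 * b := by
  refine (abs_le_of_sq_le_sq' ?_ (by positivity)).2
  nlinarith [mul_le_mul_of_nonneg_left hc (show 0 ≤ 4 * p ^ 2 * q ^ 2 by positivity), sq_nonneg (p ^ 2 * a - q ^ 2 * b)]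

theorem iia1_int (hu : D.S u) (hg : Integrable g μ) (h : ∀ᵐ x ∂μ, D.Γ u u x ≤ g x) : Integrable (D.Γ u u) μ := by
  refine hg.mono' (D.Γ_meas u u hu hu) ?_
  filter_upwards [h, D.Γ_nonneg u hu] with x h1 h2
  rwa [Real.norm_of_nonneg h2]

theorem W.congr (hu : D.W u) (h : u =ᵐ[μ] v) : D.W v := by
  exact ⟨D.S_congr u v hu.1 h, hu.2.1.ae_eq h, hu.2.2.congr (Γ_congr₂ hu.1 hu.1 h h)⟩
theorem W.integrable_Γ (hu : D.W u) (hv : D.W v) : Integrable (D.Γ u v) μ := by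
  refine (hu.2.2.add hv.2.2).mono' (D.Γ_meas u v hu.1 hv.1) ?_
  filter_upwards [two_abs_Γ_le hu.1 hv.1] with x h1
  have := abs_nonneg (D.Γ u v x)
  simp only [Real.norm_eq_abs, Pi.add_apply]
  linarith
theorem W.lin (a b : ℝ) (hu : D.W u) (hv : D.W v) : D.W fun x => a * u x + b * v x := by
  refine ⟨D.S_lin u v a b hu.1 hv.1, (hu.2.1.const_mul a).add (hv.2.1.const_mul b), ?_⟩
  exact (((hu.2.2.const_mul _).add ((hu.integrable_Γ hv).const_mul _)).add (hv.2.2.const_mul _)).congr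
    (Γ_expand a b hu.1 hv.1).symm
theorem W.add (hu : D.W u) (hv : D.W v) : D.W fun x => u x + v x := by
  simpa using hu.lin 1 1 hv
theorem W.sub (hu : D.W u) (hv : D.W v) : D.W fun x => u x - v x := by
  simpa [sub_eq_add_neg] using hu.lin 1 (-1) hv
theorem W.smul (c : ℝ) (hu : D.W u) : D.W fun x => c * u x := by
  simpa using hu.lin c 0 hu
theorem W.div (c : ℝ) (hu : D.W u) : D.W fun x => u x / c := by
  simpa [div_eq_inv_mul] using hu.smul c⁻¹
theorem W_zero (D : Cal μ) : D.W fun _ => 0 := by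
  refine ⟨D.S_const 0, MemLp.zero, iia1_int (D.S_const 0) (integrable_zero _ _ _) ?_⟩
  filter_upwards [Γ_const 0 (D.S_const 0)] with x hx
  exact hx.le
theorem W.sum {ι : Type*} (s : Finset ι) {a : ι → X → ℝ} (h : ∀ i ∈ s, D.W (a i)) :
    D.W fun x => ∑ i ∈ s, a i x := by
  classical
  induction s using Finset.induction_on with
  | empty => simpa using D.W_zero
  | insert i s hi ih =>
    simp only [Finset.sum_insert hi]
    exact (h i (Finset.mem_insert_self i s)).add (ih fun j hj => h j (Finset.mem_insert_of_mem hj))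
theorem W.chain {φ φ' : ℝ → ℝ} {K : ℝ} (hu : D.W u) (h1 : ∀ s, HasDerivAt φ (φ' s) s)
    (h2 : Continuous φ') (h3 : ∀ s, |φ' s| ≤ K) (h0 : φ 0 = 0) : D.W fun x => φ (u x) := by
  have hS := (D.chain u φ φ' K hu.1 h1 h2 h3).1
  refine ⟨hS, hu.2.1.of_le_mul (c := K) (D.S_meas _ hS) (Eventually.of_forall fun x => ?_), ?_⟩
  · have := convex_univ.norm_image_sub_le_of_norm_hasDerivWithin_le (f := φ) (f' := φ') (C := K)
      (fun s _ => (h1 s).hasDerivWithinAt) (fun s _ => h3 s) (mem_univ 0) (mem_univ (u x))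
    simpa [h0] using this
  · refine iia1_int hS (hu.2.2.const_mul (K ^ 2)) ?_
    filter_upwards [Γ_chain_self hu.1 h1 h2 h3, D.Γ_nonneg u hu.1] with x e1 e2
    rw [e1]
    exact mul_le_mul_of_nonneg_right (sq_le_sq' (abs_le.1 (h3 _)).1 (abs_le.1 (h3 _)).2) e2
theorem W.mul {A : ℝ} (hu : D.W u) (hv : D.W v) (h1 : ∀ᵐ x ∂μ, |u x| ≤ A) (h2 : ∀ᵐ x ∂μ, |v x| ≤ A) :
    D.W fun x => u x * v x := by
  obtain ⟨hS, hΓ⟩ := D.mul u v A hu.1 hv.1 h1 h2
  refine ⟨hS, memLp_mul_bdd hv.2.1 (D.S_meas u hu.1) h1, ?_⟩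
  refine iia1_int hS ((hu.2.2.add hv.2.2).const_mul (2 * A ^ 2)) ?_
  filter_upwards [hΓ _ hS, hΓ u hu.1, hΓ v hv.1, D.Γ_comm v _ hv.1 hS, D.Γ_comm u _ hu.1 hS, D.Γ_comm v u hv.1 hu.1,
    Γ_sq_le hu.1 hv.1, D.Γ_nonneg u hu.1, D.Γ_nonneg v hv.1, h1, h2] with x e1 e2 e3 e4 e5 e6 e7 e8 e9 b1 b2
  rw [e1, e4, e5, e2, e3, e6]
  have q := iia1_quad (v x) (u x) e8 e9 e7
  have b1' := mul_le_mul_of_nonneg_right (sq_le_sq' (abs_le.1 b1).1 (abs_le.1 b1).2) e9
  have b2' := mul_le_mul_of_nonneg_right (sq_le_sq' (abs_le.1 b2).1 (abs_le.1 b2).2) e8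
  simp only [Pi.add_apply]
  nlinarith
theorem W.mul_lip {h : X → ℝ} {K : ℝ≥0} {A : ℝ} (hh : LipschitzWith K h) (hA : ∀ x, |h x| ≤ A) (hu : D.W u) :
    D.W fun x => h x * u x := by
  obtain ⟨hS, hΓ⟩ := D.mul_lip h u K A hh hA hu.1
  obtain ⟨hh1, hh2⟩ := D.lip h K hh
  refine ⟨hS, memLp_mul_bdd hu.2.1 (D.S_meas h hh1) (Eventually.of_forall hA), ?_⟩
  refine iia1_int hS ((hu.2.2.const_mul (2 * A ^ 2)).add (hu.2.1.integrable_sq.const_mul (2 * (K : ℝ) ^ 2))) ?_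
  filter_upwards [hΓ _ hS, hΓ u hu.1, hΓ h hh1, D.Γ_comm h _ hh1 hS, D.Γ_comm u _ hu.1 hS, D.Γ_comm h u hh1 hu.1,
    Γ_sq_le hu.1 hh1, D.Γ_nonneg u hu.1, D.Γ_nonneg h hh1, hh2] with x e1 e2 e3 e4 e5 e6 e7 e8 e9 b1
  rw [e1, e4, e5, e2, e3, e6]
  have q := iia1_quad (h x) (u x) e8 e9 e7
  have b1' := mul_le_mul_of_nonneg_left b1 (sq_nonneg (u x))
  have b2' := mul_le_mul_of_nonneg_right (sq_le_sq' (abs_le.1 (hA x)).1 (abs_le.1 (hA x)).2) e8
  simp only [Pi.add_apply]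
  nlinarith
/-- `Γ_zero_on` for the complement of `tsupport u` -/
theorem W_of_lip (D : Cal μ) {K : ℝ≥0} (hu : LipschitzWith K u) (hc : HasCompactSupport u) : D.W u := by
  obtain ⟨h1, h2⟩ := D.lip u K hu
  refine ⟨h1, hu.continuous.memLp_of_hasCompactSupport hc, ?_⟩
  have hi : Integrable ((tsupport u).indicator fun _ => (K : ℝ) ^ 2) μ :=
    (integrable_indicator_iff (isClosed_tsupport u).measurableSet).2
      (integrableOn_const hc.isCompact.measure_lt_top.ne)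
  refine iia1_int h1 hi ?_
  filter_upwards [h2, Γ_zero_on (isClosed_tsupport u).isOpen_compl h1 h1
    (Eventually.of_forall fun x hx => image_eq_zero_of_notMem_tsupport hx)] with x e1 e2
  by_cases hx : x ∈ tsupport u
  · rwa [indicator_of_mem hx]
  · rw [indicator_of_notMem hx, e2 hx]
theorem W.memLp_Γ {A : ℝ} (hv : D.W v) (hu : D.S u) (hA : ∀ᵐ x ∂μ, D.Γ u u x ≤ A) :
    MemLp (D.Γ u v) 2 μ := by
  have hm := D.Γ_meas u v hu hv.1
  refine (memLp_two_iff_integrable_sq hm).2 ((hv.2.2.const_mul A).mono' (hm.pow 2) ?_)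
  filter_upwards [Γ_sq_le hu hv.1, D.Γ_nonneg v hv.1, hA] with x e1 e2 e3
  rw [Real.norm_of_nonneg (sq_nonneg _)]
  exact e1.trans (mul_le_mul_of_nonneg_right e3 e2)
theorem W.integrable_mul_Γ {A : ℝ} (hu : D.W u) (hv : D.W v) (hη : AEStronglyMeasurable η μ)
    (hA : ∀ᵐ x ∂μ, |η x| ≤ A) : Integrable (fun x => η x * D.Γ u v x) μ := by
  exact (hu.integrable_Γ hv).bdd_mul hη hA

theorem E_congr {u' v' : X → ℝ} (hu : D.S u) (hv : D.S v) (h1 : u =ᵐ[μ] u') (h2 : v =ᵐ[μ] v') :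
    D.E u v = D.E u' v' := by
  exact integral_congr_ae (Γ_congr₂ hu hv h1 h2)
theorem E_comm (hu : D.S u) (hv : D.S v) : D.E u v = D.E v u := by
  exact integral_congr_ae (D.Γ_comm u v hu hv)
theorem E_nonneg (hu : D.S u) : 0 ≤ D.E u u := by
  exact integral_nonneg_of_ae (D.Γ_nonneg u hu)
theorem E_lin (a b : ℝ) (hu : D.W u) (hv : D.W v) (hw : D.W w) :
    D.E (fun x => a * u x + b * v x) w = a * D.E u w + b * D.E v w := by
  unfold E
  rw [integral_congr_ae (D.Γ_lin u v w a b hu.1 hv.1 hw.1),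
    integral_add ((hu.integrable_Γ hw).const_mul a) ((hv.integrable_Γ hw).const_mul b),
    integral_const_mul, integral_const_mul]
theorem E_sub (hu : D.W u) (hv : D.W v) (hw : D.W w) :
    D.E (fun x => u x - v x) w = D.E u w - D.E v w := by
  simpa [sub_eq_add_neg] using E_lin 1 (-1) hu hv hw
theorem E_expand (a b : ℝ) (hu : D.W u) (hv : D.W v) :
    D.E (fun x => a * u x + b * v x) (fun x => a * u x + b * v x) =
      a ^ 2 * D.E u u + 2 * a * b * D.E u v + b ^ 2 * D.E v v := by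
  unfold E
  have i12 : Integrable (fun x => a ^ 2 * D.Γ u u x + 2 * a * b * D.Γ u v x) μ :=
    (hu.2.2.const_mul _).add ((hu.integrable_Γ hv).const_mul _)
  rw [integral_congr_ae (Γ_expand a b hu.1 hv.1), integral_add i12 (hv.2.2.const_mul _),
    integral_add (hu.2.2.const_mul _) ((hu.integrable_Γ hv).const_mul _),
    integral_const_mul, integral_const_mul, integral_const_mul]
/-- weighted Cauchy-Schwarz (discriminant of `t ↦ ∫ η Γ (t u + v)`) -/
theorem wt_sq_le {A : ℝ} (hu : D.W u) (hv : D.W v) (hη : AEStronglyMeasurable η μ)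
    (hA : ∀ᵐ x ∂μ, 0 ≤ η x ∧ η x ≤ A) :
    (∫ x, η x * D.Γ u v x ∂μ) ^ 2 ≤ (∫ x, η x * D.Γ u u x ∂μ) * ∫ x, η x * D.Γ v v x ∂μ := by
  have hA' : ∀ᵐ x ∂μ, |η x| ≤ A := hA.mono fun x hx => by rw [abs_of_nonneg hx.1]; exact hx.2
  have i1 := hu.integrable_mul_Γ hu hη hA'
  have i2 := hu.integrable_mul_Γ hv hη hA'
  have i3 := hv.integrable_mul_Γ hv hη hA'
  have h2 : ∀ t : ℝ, 0 ≤ (∫ x, η x * D.Γ u u x ∂μ) * (t * t) + (2 * ∫ x, η x * D.Γ u v x ∂μ) * t +
      ∫ x, η x * D.Γ v v x ∂μ := by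
    intro t
    have h3 : 0 ≤ ∫ x, (t ^ 2 * (η x * D.Γ u u x) + 2 * t * (η x * D.Γ u v x) + η x * D.Γ v v x) ∂μ := by
      refine integral_nonneg_of_ae ?_
      filter_upwards [Γ_expand t 1 hu.1 hv.1, D.Γ_nonneg _ (D.S_lin u v t 1 hu.1 hv.1), hA] with x e1 e2 e3
      rw [e1] at e2
      have := mul_nonneg e3.1 e2
      simp only [Pi.zero_apply]
      linarith
    have i12 : Integrable (fun x => t ^ 2 * (η x * D.Γ u u x) + 2 * t * (η x * D.Γ u v x)) μ :=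
      (i1.const_mul _).add (i2.const_mul _)
    rw [integral_add i12 i3, integral_add (i1.const_mul _) (i2.const_mul _),
      integral_const_mul, integral_const_mul] at h3
    linarith
  have h3 := discrim_le_zero h2
  rw [discrim] at h3
  nlinarith
theorem iia1_sqrt (hu : D.W u) :
    MemLp (fun x => Real.sqrt (D.Γ u u x)) 2 μ ∧ n2 μ (fun x => Real.sqrt (D.Γ u u x)) = D.E u u := by
  have h1 : (fun x => Real.sqrt (D.Γ u u x) ^ 2) =ᵐ[μ] D.Γ u u := by
    filter_upwards [D.Γ_nonneg u hu.1] with x hx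
    exact Real.sq_sqrt hx
  refine ⟨(memLp_two_iff_integrable_sq ?_).2 (hu.2.2.congr h1.symm), integral_congr_ae h1⟩
  exact Real.continuous_sqrt.comp_aestronglyMeasurable (D.Γ_meas u u hu.1 hu.1)

/-- `∫ |Γ u v| ≤ √E √E` -/
theorem int_abs_Γ_le (hu : D.W u) (hv : D.W v) :
    ∫ x, |D.Γ u v x| ∂μ ≤ Real.sqrt (D.E u u) * Real.sqrt (D.E v v) := by
  obtain ⟨m1, e1⟩ := iia1_sqrt hu
  obtain ⟨m2, e2⟩ := iia1_sqrt hv
  rw [← e1, ← e2]
  refine le_trans ?_ (int_abs_mul_le m1 m2)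
  refine integral_mono_ae (hu.integrable_Γ hv).abs (integrable_mul2 m1 m2).abs ?_
  filter_upwards [abs_Γ_le hu.1 hv.1] with x hx
  exact hx.trans (le_abs_self _)
theorem abs_wt_le {A : ℝ} (hu : D.W u) (hv : D.W v) (hη : AEStronglyMeasurable η μ) (h0 : 0 ≤ A)
    (hA : ∀ᵐ x ∂μ, |η x| ≤ A) :
    |∫ x, η x * D.Γ u v x ∂μ| ≤ A * (Real.sqrt (D.E u u) * Real.sqrt (D.E v v)) := by
  refine abs_integral_le_integral_abs.trans ?_
  refine le_trans ?_ (mul_le_mul_of_nonneg_left (int_abs_Γ_le hu hv) h0)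
  rw [← integral_const_mul]
  refine integral_mono_ae (hu.integrable_mul_Γ hv hη hA).abs ((hu.integrable_Γ hv).abs.const_mul A) ?_
  filter_upwards [hA] with x hx
  rw [abs_mul]
  exact mul_le_mul_of_nonneg_right hx (abs_nonneg _)
theorem abs_E_le (hu : D.W u) (hv : D.W v) : |D.E u v| ≤ Real.sqrt (D.E u u) * Real.sqrt (D.E v v) := by
  exact abs_integral_le_integral_abs.trans (int_abs_Γ_le hu hv)
theorem sqrt_E_add_le (hu : D.W u) (hv : D.W v) :
    Real.sqrt (D.E (fun x => u x + v x) fun x => u x + v x) ≤ Real.sqrt (D.E u u) + Real.sqrt (D.E v v) := by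
  have h1 := E_expand 1 1 hu hv
  simp only [one_mul, one_pow, mul_one] at h1
  rw [h1, Real.sqrt_le_iff]
  refine ⟨by positivity, ?_⟩
  have h2 := (le_abs_self _).trans (abs_E_le hu hv)
  nlinarith [Real.sq_sqrt (E_nonneg hu.1), Real.sq_sqrt (E_nonneg hv.1)]
/-- convexity of the energy -/
theorem E_avg_le {n : ℕ} (hn : 0 < n) {a : ℕ → X → ℝ} {C₀ : ℝ} (h : ∀ i < n, D.W (a i))
    (hE : ∀ i < n, D.E (a i) (a i) ≤ C₀) :
    D.E (fun x => (n : ℝ)⁻¹ * ∑ i ∈ Finset.range n, a i x) (fun x => (n : ℝ)⁻¹ * ∑ i ∈ Finset.range n, a i x) ≤ C₀ := by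
  have hC : 0 ≤ C₀ := (E_nonneg (h 0 hn).1).trans (hE 0 hn)
  have key : ∀ k ≤ n, Real.sqrt (D.E (fun x => ∑ i ∈ Finset.range k, a i x) fun x => ∑ i ∈ Finset.range k, a i x) ≤
      k * Real.sqrt C₀ := by
    intro k hk
    induction k with
    | zero =>
      simp only [Finset.range_zero, Finset.sum_empty, Nat.cast_zero, zero_mul]
      have : D.E (fun _ => 0) (fun _ => 0) = 0 :=
        integral_eq_zero_of_ae (Γ_const 0 (D.S_const 0))
      rw [this, Real.sqrt_zero]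
    | succ k ih =>
      simp only [Finset.sum_range_succ]
      have h1 := sqrt_E_add_le (W.sum (Finset.range k) fun i hi => h i (by have := Finset.mem_range.1 hi; omega))
        (h k hk)
      have h2 := Real.sqrt_le_sqrt (hE k hk)
      have h3 := ih (by omega)
      push_cast
      linarith
  have hW := W.sum (Finset.range n) fun i hi => h i (Finset.mem_range.1 hi)
  have h1 := E_expand (n : ℝ)⁻¹ 0 hW hW
  simp only [zero_mul, add_zero, mul_zero, ne_eq, OfNat.ofNat_ne_zero, not_false_eq_true, zero_pow] at h1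
  rw [h1]
  have h2 := key n le_rfl
  rw [Real.sqrt_le_iff, mul_pow, Real.sq_sqrt hC] at h2
  have hn' : (0 : ℝ) < n := by exact_mod_cast hn
  calc (n : ℝ)⁻¹ ^ 2 * _ ≤ (n : ℝ)⁻¹ ^ 2 * ((n : ℝ) ^ 2 * C₀) := mul_le_mul_of_nonneg_left h2.2 (by positivity)
    _ = C₀ := by field_simp

end Cal

end Crest.Agent.R242.II
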