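import Crest.Agent.R242.IIA2

/-! Row 242, part II (helper16), TASK IIA4: `L²` tools, weights (no calculus).
Keep the statements; auxiliary names `iia4_*`.  Definitions: `R242/IIDefs.lean`; paper proof: `R242/IIRead.lean`. -/

set_option autoImplicit false
set_option linter.unusedSectionVars false
set_option linter.unusedVariables false

open MeasureTheory Filter Set
open scoped ENNReal NNReal Topology

noncomputable section

namespace Crest.Agent.R242.II

variable {X : Type*} [MetricSpace X] [MeasurableSpace X] [BorelSpace X] [ProperSpace X]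
  {μ : Measure X} [IsFiniteMeasureOnCompacts μ] [μ.IsOpenPosMeasure] {D : Cal μ}
  {T R : ℝ → (X → ℝ) → X → ℝ} {u v w f g η ψ L : X → ℝ}

theorem Wt.mono {B B' : Set X} (h : Wt B η) (hB : B ⊆ B') : Wt B' η := ⟨h.meas, h.mem, fun x hx => h.supp x fun h' => hx (hB h')⟩
theorem wt_indicator {B s : Set X} (hs : MeasurableSet s) (h : s ⊆ B) : Wt B (s.indicator fun _ => (1 : ℝ)) := by
  refine ⟨measurable_const.indicator hs, fun x => ?_, fun x hx => indicator_of_notMem (fun h' => hx (h h')) _⟩
  by_cases hx : x ∈ s <;> simp [hx]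
theorem Wt.integrable {z : X} {ρ : ℝ} (h : Wt (Metric.ball z ρ) η) : Integrable η μ := by
  refine IntegrableOn.integrable_of_forall_notMem_eq_zero (s := Metric.ball z ρ) ?_ h.supp
  exact Measure.integrableOn_of_bounded (M := 1) measure_ball_lt_top.ne h.meas.aestronglyMeasurable
    (ae_of_all _ fun x => by rw [Real.norm_eq_abs, abs_of_nonneg (h.mem x).1]; exact (h.mem x).2)
theorem Wt.memLp {z : X} {ρ : ℝ} (h : Wt (Metric.ball z ρ) η) : MemLp η 2 μ := by
  rw [memLp_two_iff_integrable_sq h.meas.aestronglyMeasurable]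
  refine h.integrable.mono' (h.meas.pow_const 2).aestronglyMeasurable (ae_of_all _ fun x => ?_)
  rw [Real.norm_eq_abs, abs_of_nonneg (sq_nonneg _)]
  nlinarith [(h.mem x).1, (h.mem x).2]
theorem Wt.abs_le {B : Set X} (h : Wt B η) (x : X) : |η x| ≤ 1 := by
  rw [abs_of_nonneg (h.mem x).1]; exact (h.mem x).2
theorem Wt.integrable_mul {z : X} {ρ : ℝ} (h : Wt (Metric.ball z ρ) η) (hf : IntegrableOn f (Metric.ball z ρ) μ) :
    Integrable (fun x => η x * f x) μ := by
  refine IntegrableOn.integrable_of_forall_notMem_eq_zero (s := Metric.ball z ρ) ?_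
    (fun x hx => by rw [h.supp x hx, zero_mul])
  exact Integrable.bdd_mul (c := 1) hf h.meas.aestronglyMeasurable (ae_of_all _ fun x => h.abs_le x)
theorem integrableOn_ball_of_cont (hf : Continuous f) (z : X) (ρ : ℝ) : IntegrableOn f (Metric.ball z ρ) μ := (hf.continuousOn.integrableOn_compact (isCompact_closedBall z ρ)).mono_set Metric.ball_subset_closedBall
theorem integrableOn_ball_of_memLp (hf : MemLp f 2 μ) (z : X) (ρ : ℝ) : IntegrableOn f (Metric.ball z ρ) μ := by
  have : IsFiniteMeasure (μ.restrict (Metric.ball z ρ)) := isFiniteMeasure_restrict.2 measure_ball_lt_top.ne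
  exact (hf.restrict _).integrable (by norm_num)
/-- indicators of measurable subsets of the ball (`ae_le_of_forall_setIntegral_le` on `μ.restrict`) -/
theorem ae_le_of_wt {z : X} {ρ : ℝ} (hf : IntegrableOn f (Metric.ball z ρ) μ)
    (hg : IntegrableOn g (Metric.ball z ρ) μ)
    (h : ∀ η, Wt (Metric.ball z ρ) η → ∫ x, η x * f x ∂μ ≤ ∫ x, η x * g x ∂μ) :
    ∀ᵐ x ∂μ, x ∈ Metric.ball z ρ → f x ≤ g x := by
  rw [← ae_restrict_iff' measurableSet_ball]
  refine ae_le_of_forall_setIntegral_le hf hg fun s hs _ => ?_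
  have hm : MeasurableSet (s ∩ Metric.ball z ρ) := hs.inter measurableSet_ball
  have e : ∀ φ : X → ℝ, ∫ x, (s ∩ Metric.ball z ρ).indicator (fun _ => (1 : ℝ)) x * φ x ∂μ =
      ∫ x in s, φ x ∂(μ.restrict (Metric.ball z ρ)) := by
    intro φ
    rw [Measure.restrict_restrict hs, ← integral_indicator hm]
    refine integral_congr_ae (ae_of_all _ fun x => ?_)
    by_cases hx : x ∈ s ∩ Metric.ball z ρ
    · simp only [indicator_of_mem hx, one_mul]
    · simp only [indicator_of_notMem hx, zero_mul]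
  rw [← e, ← e]
  exact h _ (wt_indicator hm inter_subset_right)
/-- from all balls around one point (or the empty space) to the whole space -/
theorem ae_of_balls {p : X → Prop} (h : ∀ (z : X) (ρ : ℝ), ∀ᵐ x ∂μ, x ∈ Metric.ball z ρ → p x) :
    ∀ᵐ x ∂μ, p x := by
  rcases isEmpty_or_nonempty X with hX | ⟨⟨z⟩⟩
  · exact ae_of_all _ fun x => isEmptyElim x
  · filter_upwards [ae_all_iff.2 fun n : ℕ => h z n] with x hx
    obtain ⟨n, hn⟩ := exists_nat_gt (dist x z)
    exact hx n hn
theorem le_of_ae_le_on {O : Set X} (hO : IsOpen O) (hf : Continuous f) (hg : Continuous g)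
    (h : ∀ᵐ x ∂μ, x ∈ O → f x ≤ g x) : ∀ x ∈ O, f x ≤ g x := by
  intro x hx
  have h1 : EqOn (fun x => max (f x) (g x)) g O := by
    refine Measure.eqOn_open_of_ae_eq (μ := μ) ?_ hO (hf.max hg).continuousOn hg.continuousOn
    rw [EventuallyEq, ae_restrict_iff' hO.measurableSet]
    filter_upwards [h] with y hy hyO using max_eq_right (hy hyO)
  exact max_eq_right_iff.1 (h1 hx)
theorem eq_of_ae_eq_cont (hf : Continuous f) (hg : Continuous g) (h : f =ᵐ[μ] g) : f = g := Measure.eq_of_ae_eq h hf hg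
theorem ball_pos (μ : Measure X) [IsFiniteMeasureOnCompacts μ] [μ.IsOpenPosMeasure] (z : X) {ρ : ℝ}
    (h : 0 < ρ) : 0 < (μ (Metric.ball z ρ)).toReal := ENNReal.toReal_pos (Metric.measure_ball_pos μ z h).ne' measure_ball_lt_top.ne
/-- a continuous function whose averages over all small balls are `≥ c` -/
theorem le_of_avg {z : X} {c ρ : ℝ} (hρ : 0 < ρ) (hf : Continuous f)
    (h : ∀ ε, 0 < ε → ε ≤ ρ → c * (μ (Metric.ball z ε)).toReal ≤ ∫ x in Metric.ball z ε, f x ∂μ) : c ≤ f z := by
  refine le_of_forall_pos_le_add fun e he => ?_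
  obtain ⟨δ, hδ, hd⟩ := Metric.continuous_iff.1 hf z e he
  have h0 : 0 < min δ ρ := lt_min hδ hρ
  have h1 := h (min δ ρ) h0 (min_le_right _ _)
  have h2 : ∫ x in Metric.ball z (min δ ρ), f x ∂μ ≤ ∫ _ in Metric.ball z (min δ ρ), (f z + e) ∂μ := by
    refine setIntegral_mono_on (integrableOn_ball_of_cont hf _ _) (integrableOn_ball_of_cont continuous_const _ _)
      measurableSet_ball fun x hx => ?_
    have := hd x (lt_of_lt_of_le hx (min_le_left _ _))
    rw [Real.dist_eq] at this
    linarith [(abs_lt.1 this).2]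
  rw [setIntegral_const, smul_eq_mul, mul_comm, Measure.real] at h2
  exact le_of_mul_le_mul_right (h1.trans h2) (ball_pos μ z h0)
/-- a Lipschitz function is small at a point if it is small in `L²` -/
theorem abs_le_of_n2 {K : ℝ≥0} (hf : LipschitzWith K f) (h2 : MemLp f 2 μ) (z : X) {ε : ℝ} (hε : 0 < ε) :
    |f z| ≤ K * ε + Real.sqrt (n2 μ f / (μ (Metric.ball z ε)).toReal) := by
  have hp := ball_pos μ z hε
  rcases le_or_gt (|f z| - K * ε) 0 with h0 | h0
  · linarith [Real.sqrt_nonneg (n2 μ f / (μ (Metric.ball z ε)).toReal)]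
  have h1 : (|f z| - K * ε) ^ 2 * μ.real (Metric.ball z ε) ≤ ∫ x in Metric.ball z ε, f x ^ 2 ∂μ := by
    refine setIntegral_ge_of_const_le_real measurableSet_ball measure_ball_lt_top.ne (fun x hx => ?_)
      h2.integrable_sq.integrableOn
    have h3 := hf.dist_le_mul x z
    have h4 : (K : ℝ) * dist x z ≤ K * ε := mul_le_mul_of_nonneg_left (le_of_lt hx) K.2
    rw [Real.dist_eq, abs_sub_comm] at h3
    have h5 := abs_sub_abs_le_abs_sub (f z) (f x)
    rw [← sq_abs (f x)]
    exact pow_le_pow_left₀ h0.le (by linarith) 2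
  have h3 : ∫ x in Metric.ball z ε, f x ^ 2 ∂μ ≤ n2 μ f :=
    setIntegral_le_integral h2.integrable_sq (ae_of_all _ fun x => sq_nonneg _)
  have h4 : |f z| - K * ε ≤ Real.sqrt (n2 μ f / (μ (Metric.ball z ε)).toReal) :=
    Real.le_sqrt_of_sq_le ((le_div_iff₀ hp).2 (h1.trans h3))
  linarith

end Crest.Agent.R242.II
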