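import Crest.Agent.R242.IIA1
import Crest.Agent.R242.IIA4

/-! Row 242, part II (helper16), TASK IIA3: truncation, integration by parts, generator, weak closure, resolvent.
Keep the statements; auxiliary names `iia3_*`.  Definitions: `R242/IIDefs.lean`; paper proof: `R242/IIRead.lean`. -/

set_option autoImplicit false
set_option linter.unusedSectionVars false
set_option linter.unusedVariables false

open MeasureTheory Filter Set
open scoped ENNReal NNReal Topology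

noncomputable section

namespace Crest.Agent.R242.II

variable {X : Type*} [MetricSpace X] [MeasurableSpace X] [BorelSpace X] [ProperSpace X]
  {μ : Measure X} [IsFiniteMeasureOnCompacts μ] [μ.IsOpenPosMeasure] {D : Cal μ}
  {T R : ℝ → (X → ℝ) → X → ℝ} {u v w f g η ψ L : X → ℝ}

namespace Cal

theorem iia3_deriv {c : ℝ} (hc : 0 < c) (s : ℝ) :
    HasDerivAt (fun s => c * Real.sin (s / c)) (Real.cos (s / c)) s := by
  refine (((hasDerivAt_id' s).div_const c).sin.const_mul c).congr_deriv ?_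
  field_simp

theorem iia3_abs {c : ℝ} (hc : 0 < c) (s : ℝ) : |c * Real.sin (s / c) - s| ≤ 2 * |s| := by
  have h1 : |c * Real.sin (s / c)| ≤ |s| := by
    rw [abs_mul, abs_of_pos hc]
    refine (mul_le_mul_of_nonneg_left Real.abs_sin_le_abs hc.le).trans_eq ?_
    rw [abs_div, abs_of_pos hc]
    field_simp
  linarith [abs_sub (c * Real.sin (s / c)) s]

theorem iia3_inv (s : ℝ) : Tendsto (fun n : ℕ => s / ((n : ℝ) + 1)) atTop (𝓝 0) :=
  tendsto_const_nhds.div_atTop (tendsto_natCast_atTop_atTop.atTop_add tendsto_const_nhds)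

theorem iia3_lim (s : ℝ) :
    Tendsto (fun n : ℕ => ((n : ℝ) + 1) * Real.sin (s / ((n : ℝ) + 1)) - s) atTop (𝓝 0) := by
  have h1 : HasDerivAt (fun t : ℝ => Real.sin (s * t)) s 0 := by
    refine ((hasDerivAt_id' (0 : ℝ)).const_mul s).sin.congr_deriv ?_
    simp
  have h2 : Tendsto (fun n : ℕ => 1 / ((n : ℝ) + 1)) atTop (𝓝[≠] 0) :=
    tendsto_nhdsWithin_iff.2 ⟨iia3_inv 1, Eventually.of_forall fun n => by
      have : (0 : ℝ) < 1 / ((n : ℝ) + 1) := by positivity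
      exact this.ne'⟩
  have h3 := (h1.tendsto_slope_zero.comp h2).sub_const s
  rw [sub_self] at h3
  refine h3.congr fun n => ?_
  simp [div_eq_mul_inv]

/-- `e n = τ n ∘ v`, `τ n s = (n+1) * arctan (s / (n+1))`: `0 ≤ τ' ≤ 1`, `τ' → 1`; dominated convergence with
`Γ_chain_self` for `s ↦ τ n s - s` -/
theorem W.exists_trunc (hv : D.W v) : ∃ e : ℕ → X → ℝ, (∀ n, D.W (e n) ∧ ∃ A : ℝ, ∀ x, |e n x| ≤ A) ∧
    Tendsto (fun n => n2 μ fun x => e n x - v x) atTop (𝓝 0) ∧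
    Tendsto (fun n => D.E (fun x => e n x - v x) fun x => e n x - v x) atTop (𝓝 0) := by
  have hp : ∀ n : ℕ, (0 : ℝ) < (n : ℝ) + 1 := fun n => by positivity
  have hm := D.S_meas v hv.1
  refine ⟨fun n x => ((n : ℝ) + 1) * Real.sin (v x / ((n : ℝ) + 1)), fun n => ⟨?_, (n : ℝ) + 1, fun x => ?_⟩,
    ?_, ?_⟩
  · exact hv.chain (φ := fun s => ((n : ℝ) + 1) * Real.sin (s / ((n : ℝ) + 1))) (K := 1) (iia3_deriv (hp n))
      (by fun_prop) (fun s => Real.abs_cos_le_one _) (by simp)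
  · rw [abs_mul, abs_of_pos (hp n)]
    exact mul_le_of_le_one_right (hp n).le (Real.abs_sin_le_one _)
  · have := tendsto_integral_of_dominated_convergence (μ := μ)
      (F := fun (n : ℕ) x => (((n : ℝ) + 1) * Real.sin (v x / ((n : ℝ) + 1)) - v x) ^ 2) (f := fun _ => (0 : ℝ))
      (fun x => 4 * v x ^ 2) (fun n => Continuous.comp_aestronglyMeasurable
        (g := fun s : ℝ => (((n : ℝ) + 1) * Real.sin (s / ((n : ℝ) + 1)) - s) ^ 2) (by fun_prop) hm)
      (hv.2.1.integrable_sq.const_mul 4) (fun n => ae_of_all _ fun x => ?_) (ae_of_all _ fun x => ?_)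
    · simpa [n2] using this
    · rw [Real.norm_eq_abs, abs_pow]
      refine (pow_le_pow_left₀ (abs_nonneg _) (iia3_abs (hp n) (v x)) 2).trans_eq ?_
      rw [mul_pow, sq_abs]
      norm_num
    · simpa using (iia3_lim (v x)).pow 2
  · have hb : ∀ (n : ℕ) (s : ℝ), |Real.cos (s / ((n : ℝ) + 1)) - 1| ≤ 2 := fun n s => by
      have := abs_sub (Real.cos (s / ((n : ℝ) + 1))) 1
      rw [abs_one] at this
      linarith [Real.abs_cos_le_one (s / ((n : ℝ) + 1))]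
    have := tendsto_integral_of_dominated_convergence (μ := μ)
      (F := fun (n : ℕ) x => (Real.cos (v x / ((n : ℝ) + 1)) - 1) ^ 2 * D.Γ v v x) (f := fun _ => (0 : ℝ))
      (fun x => 4 * D.Γ v v x) (fun n => (Continuous.comp_aestronglyMeasurable
        (g := fun s : ℝ => (Real.cos (s / ((n : ℝ) + 1)) - 1) ^ 2) (by fun_prop) hm).mul hv.2.2.1)
      (hv.2.2.const_mul 4) (fun n => ?_) (ae_of_all _ fun x => ?_)
    · rw [integral_zero] at this
      refine this.congr fun n => (integral_congr_ae ?_).symm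
      exact Γ_chain_self (φ := fun s => ((n : ℝ) + 1) * Real.sin (s / ((n : ℝ) + 1)) - s)
        (φ' := fun s => Real.cos (s / ((n : ℝ) + 1)) - 1) (K := 2) hv.1
        (fun s => (iia3_deriv (hp n) s).sub (hasDerivAt_id s)) (by fun_prop) (hb n)
    · filter_upwards [D.Γ_nonneg v hv.1] with x hx
      rw [Real.norm_eq_abs, abs_mul, abs_of_nonneg hx, abs_pow]
      refine mul_le_mul_of_nonneg_right ((pow_le_pow_left₀ (abs_nonneg _) (hb n (v x)) 2).trans_eq ?_) hx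
      norm_num
    · have h1 := ((((Real.continuous_cos.tendsto 0).comp (iia3_inv (v x))).sub_const 1).pow 2).mul_const
        (D.Γ v v x)
      simpa using h1

theorem Gen.congr {u' L' : X → ℝ} (h : D.Gen u L) (h1 : u =ᵐ[μ] u') (h2 : L =ᵐ[μ] L') : D.Gen u' L' := by
  refine ⟨h.1.congr h1, h.2.1.ae_eq h2, fun v hv => ?_⟩
  rw [← E_congr h.1.1 hv.1 h1 EventuallyEq.rfl, h.2.2 v hv]
  congr 1
  exact integral_congr_ae (h2.mul EventuallyEq.rfl)
theorem Gen.lin {L' : X → ℝ} (a b : ℝ) (h : D.Gen u L) (h' : D.Gen v L') :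
    D.Gen (fun x => a * u x + b * v x) fun x => a * L x + b * L' x := by
  refine ⟨h.1.lin a b h'.1, (h.2.1.const_mul a).add (h'.2.1.const_mul b), fun w hw => ?_⟩
  rw [E_lin a b h.1 h'.1 hw, h.2.2 w hw, h'.2.2 w hw]
  simp only [add_mul, mul_assoc]
  rw [integral_add ((integrable_mul2 h.2.1 hw.2.1).const_mul a) ((integrable_mul2 h'.2.1 hw.2.1).const_mul b),
    integral_const_mul, integral_const_mul]
  ring
theorem Gen.symm {L' : X → ℝ} (h : D.Gen u L) (h' : D.Gen v L') :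
    ∫ x, L x * v x ∂μ = ∫ x, u x * L' x ∂μ := by
  have h1 := h.2.2 v h'.1
  have h2 := h'.2.2 u h.1
  rw [E_comm h.1.1 h'.1.1, h2, neg_inj] at h1
  rw [← h1]
  simp only [mul_comm]

theorem iia3_ibp {A' B : ℝ} (h : D.Gen u L) (hη : D.W η) (hA' : ∀ᵐ x ∂μ, |η x| ≤ A') (hv : D.W v)
    (hB : ∀ x, |v x| ≤ B) :
    ∫ x, v x * (η x * L x + D.Γ η u x) ∂μ = -∫ x, η x * D.Γ u v x ∂μ := by
  have b1 : ∀ᵐ x ∂μ, |η x| ≤ max A' B := hA'.mono fun x hx => hx.trans (le_max_left _ _)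
  have b2 : ∀ᵐ x ∂μ, |v x| ≤ max A' B := ae_of_all _ fun x => (hB x).trans (le_max_right _ _)
  have hw := hη.mul hv b1 b2
  have h1 := h.2.2 _ hw
  have i1 := h.1.integrable_mul_Γ hv hη.2.1.1 hA'
  have i2 := hη.integrable_mul_Γ h.1 hv.2.1.1 b2
  have i3 := integrable_mul2 h.2.1 hw.2.1
  have h2 : D.E u (fun x => η x * v x) = ∫ x, η x * D.Γ u v x ∂μ + ∫ x, v x * D.Γ η u x ∂μ := by
    rw [← integral_add i1 i2]
    refine integral_congr_ae ?_
    filter_upwards [D.Γ_comm _ _ h.1.1 hw.1, (D.mul η v _ hη.1 hv.1 b1 b2).2 u h.1.1, D.Γ_comm _ _ hv.1 h.1.1]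
      with x a1 a2 a3
    rw [a1, a2, a3]
  have h3 : ∫ x, v x * (η x * L x + D.Γ η u x) ∂μ =
      ∫ x, L x * (η x * v x) ∂μ + ∫ x, v x * D.Γ η u x ∂μ := by
    rw [← integral_add i3 i2]
    exact integral_congr_ae (ae_of_all _ fun x => by ring)
  linarith

/-- for bounded `v` test `Gen` with `η * v` (`W.mul`, Leibniz); both sides are continuous in `v`
(`W.exists_trunc`, `tendsto_int_mul`, `abs_wt_le`, `W.memLp_Γ`) -/
theorem Gen.ibp {A A' : ℝ} (h : D.Gen u L) (hA : ∀ᵐ x ∂μ, D.Γ u u x ≤ A) (hη : D.W η)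
    (hA' : ∀ᵐ x ∂μ, |η x| ≤ A') (hv : D.W v) :
    ∫ x, v x * (η x * L x + D.Γ η u x) ∂μ = -∫ x, η x * D.Γ u v x ∂μ := by
  obtain ⟨e, he, t1, t2⟩ := hv.exists_trunc
  have hg : MemLp (fun x => η x * L x + D.Γ η u x) 2 μ :=
    (memLp_mul_bdd h.2.1 hη.2.1.1 hA').add ((hη.memLp_Γ h.1.1 hA).ae_eq (D.Γ_comm _ _ h.1.1 hη.1))
  have l1 := tendsto_int_mul (b := fun _ : ℕ => fun x => η x * L x + D.Γ η u x)
    (Eventually.of_forall fun n => (he n).1.2.1) (Eventually.of_forall fun _ => hg) hv.2.1 hg t1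
    (by simp [n2])
  have b1 : ∀ᵐ x ∂μ, |η x| ≤ max A' 0 := hA'.mono fun x hx => hx.trans (le_max_left _ _)
  have l2 : Tendsto (fun n => ∫ x, η x * D.Γ u (e n) x ∂μ) atTop (𝓝 (∫ x, η x * D.Γ u v x ∂μ)) := by
    rw [← tendsto_sub_nhds_zero_iff]
    have l3 := (t2.sqrt.const_mul (Real.sqrt (D.E u u))).const_mul (max A' 0)
    rw [Real.sqrt_zero, mul_zero, mul_zero] at l3
    refine squeeze_zero_norm (fun n => ?_) l3
    rw [← integral_sub (h.1.integrable_mul_Γ (he n).1 hη.2.1.1 hA') (h.1.integrable_mul_Γ hv hη.2.1.1 hA'),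
      Real.norm_eq_abs]
    refine le_trans (le_of_eq ?_) (abs_wt_le h.1 ((he n).1.sub hv) hη.2.1.1 (le_max_right _ _) b1)
    congr 1
    refine integral_congr_ae ?_
    filter_upwards [Γ_sub_right (he n).1.1 hv.1 h.1.1] with x hx
    rw [hx]
    ring
  refine tendsto_nhds_unique l1 (l2.neg.congr fun n => ?_)
  obtain ⟨B, hB⟩ := (he n).2
  exact (iia3_ibp h hη hA' (he n).1 hB).symm

/-- test `Gen` with `φ' (u x) * v x` (`W.mul_lip`: `φ' ∘ u` is bounded and Lipschitz) -/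
theorem Gen.chain_lip {φ φ' φ'' : ℝ → ℝ} {K : ℝ} {K' : ℝ≥0} (h : D.Gen u L) (hu : LipschitzWith K' u)
    (h1 : ∀ s, HasDerivAt φ (φ' s) s) (h2 : ∀ s, HasDerivAt φ' (φ'' s) s) (h3 : Continuous φ'')
    (h4 : ∀ s, |φ' s| ≤ K) (h5 : ∀ s, |φ'' s| ≤ K) (h0 : φ 0 = 0) :
    D.Gen (fun x => φ (u x)) fun x => φ' (u x) * L x + φ'' (u x) * D.Γ u u x := by
  have hK : 0 ≤ K := (abs_nonneg _).trans (h4 0)
  have c1 : Continuous φ' := continuous_iff_continuousAt.2 fun s => (h2 s).continuousAt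
  have l1 : LipschitzWith ⟨K, hK⟩ φ' := lipschitzWith_of_nnnorm_deriv_le (fun s => (h2 s).differentiableAt)
    fun s => by
      rw [(h2 s).deriv]
      exact h5 s
  have l2 : LipschitzWith _ fun x => φ' (u x) := l1.comp hu
  have hm := h.1.2.1.1
  have m1 : AEStronglyMeasurable (fun x => φ' (u x)) μ := c1.comp_aestronglyMeasurable hm
  have m2 : AEStronglyMeasurable (fun x => φ'' (u x)) μ := h3.comp_aestronglyMeasurable hm
  have g0 : MemLp (D.Γ u u) 2 μ := h.1.memLp_Γ h.1.1 (D.lip u K' hu).2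
  have g1 : MemLp (fun x => φ' (u x) * L x) 2 μ := memLp_mul_bdd h.2.1 m1 (ae_of_all _ fun x => h4 _)
  have g2 : MemLp (fun x => φ'' (u x) * D.Γ u u x) 2 μ := memLp_mul_bdd g0 m2 (ae_of_all _ fun x => h5 _)
  refine ⟨h.1.chain h1 c1 h4 h0, g1.add g2, fun v hv => ?_⟩
  have hw := hv.mul_lip l2 fun x => h4 _
  have e1 := h.2.2 _ hw
  have i1 := h.1.integrable_mul_Γ hv m1 (ae_of_all _ fun x => h4 _)
  have i2 := integrable_mul2 g2 hv.2.1
  have i3 := integrable_mul2 h.2.1 hw.2.1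
  have e2 : D.E u (fun x => φ' (u x) * v x) =
      ∫ x, φ' (u x) * D.Γ u v x ∂μ + ∫ x, φ'' (u x) * D.Γ u u x * v x ∂μ := by
    rw [← integral_add i1 i2]
    refine integral_congr_ae ?_
    filter_upwards [D.Γ_comm _ _ h.1.1 hw.1, (D.mul_lip _ v _ K l2 (fun x => h4 _) hv.1).2 u h.1.1,
      D.Γ_comm _ _ hv.1 h.1.1, (D.chain u φ' φ'' K h.1.1 h2 h3 h5).2 u h.1.1] with x a1 a2 a3 a4
    rw [a1, a2, a3, a4]
    ring
  have e3 : D.E (fun x => φ (u x)) v = ∫ x, φ' (u x) * D.Γ u v x ∂μ :=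
    integral_congr_ae ((D.chain u φ φ' K h.1.1 h1 c1 h4).2 v hv.1)
  have e4 : ∫ x, (φ' (u x) * L x + φ'' (u x) * D.Γ u u x) * v x ∂μ =
      ∫ x, L x * (φ' (u x) * v x) ∂μ + ∫ x, φ'' (u x) * D.Γ u u x * v x ∂μ := by
    rw [← integral_add i3 i2]
    exact integral_congr_ae (ae_of_all _ fun x => by ring)
  linarith

end Cal

namespace Flow

theorem iia3_expand (t : ℝ) (hu : D.W u) (hψ : D.W ψ) (hη : AEStronglyMeasurable η μ)
    (hA : ∀ᵐ x ∂μ, |η x| ≤ 1) :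
    ∫ x, η x * D.Γ (fun x => 1 * u x + t * ψ x) (fun x => 1 * u x + t * ψ x) x ∂μ =
      ∫ x, η x * D.Γ u u x ∂μ + 2 * t * ∫ x, η x * D.Γ u ψ x ∂μ + t ^ 2 * ∫ x, η x * D.Γ ψ ψ x ∂μ := by
  have i1 := hu.integrable_mul_Γ hu hη hA
  have i2 := (hu.integrable_mul_Γ hψ hη hA).const_mul (2 * t)
  have i3 := (hψ.integrable_mul_Γ hψ hη hA).const_mul (t ^ 2)
  have i4 : Integrable (fun x => η x * D.Γ u u x + 2 * t * (η x * D.Γ u ψ x)) μ := i1.add i2
  rw [← integral_const_mul, ← integral_const_mul, ← integral_add i1 i2, ← integral_add i4 i3]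
  refine integral_congr_ae ?_
  filter_upwards [Cal.Γ_expand 1 t hu.1 hψ.1] with x hx
  rw [hx]
  ring

/-- Let `b n = ∫ η Γ (a n) ψ`, `c n = ∫ η Γ (a n) (a n)` (bounded).  `tendsto_of_subseq_tendsto`: along a
subsequence `b → β`, `c → γ`; `lsc` for `a n + t ψ → v + t ψ` gives `Q v + 2 t B ≤ γ + 2 t β` for all real `t`,
so `B = β`. -/
theorem wc (h : Flow D T R) {a : ℕ → X → ℝ} {C₀ : ℝ} (ha : ∀ n, D.W (a n)) (hE : ∀ n, D.E (a n) (a n) ≤ C₀)
    (hv : MemLp v 2 μ) (hc : Tendsto (fun n => n2 μ fun x => a n x - v x) atTop (𝓝 0))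
    (hψ : D.W ψ) (hη : AEStronglyMeasurable η μ) (h01 : ∀ x, 0 ≤ η x ∧ η x ≤ 1) :
    Tendsto (fun n => ∫ x, η x * D.Γ (a n) ψ x ∂μ) atTop (𝓝 (∫ x, η x * D.Γ v ψ x ∂μ)) := by
  have hA : ∀ᵐ x ∂μ, |η x| ≤ 1 := ae_of_all _ fun x => by rw [abs_of_nonneg (h01 x).1]; exact (h01 x).2
  have hvW := (h.lsc a v C₀ ha hE hv hc).1
  have s1 : ∀ n, Real.sqrt (D.E (a n) (a n)) ≤ Real.sqrt C₀ := fun n => Real.sqrt_le_sqrt (hE n)
  refine tendsto_of_subseq_tendsto fun ns hns => ?_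
  obtain ⟨⟨β, γ⟩, -, ms, hms, ht⟩ := tendsto_subseq_of_bounded
    (s := Metric.closedBall (0 : ℝ) (Real.sqrt C₀ * Real.sqrt (D.E ψ ψ)) ×ˢ
      Metric.closedBall (0 : ℝ) (Real.sqrt C₀ * Real.sqrt C₀))
    (Metric.isBounded_closedBall.prod Metric.isBounded_closedBall)
    (x := fun n => (∫ x, η x * D.Γ (a (ns n)) ψ x ∂μ, ∫ x, η x * D.Γ (a (ns n)) (a (ns n)) x ∂μ))
    fun n => by
      constructor
      · rw [mem_closedBall_zero_iff, Real.norm_eq_abs]
        refine (Cal.abs_wt_le (ha _) hψ hη zero_le_one hA).trans ?_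
        rw [one_mul]
        exact mul_le_mul_of_nonneg_right (s1 _) (Real.sqrt_nonneg _)
      · rw [mem_closedBall_zero_iff, Real.norm_eq_abs]
        refine (Cal.abs_wt_le (ha _) (ha _) hη zero_le_one hA).trans ?_
        rw [one_mul]
        exact mul_le_mul (s1 _) (s1 _) (Real.sqrt_nonneg _) (Real.sqrt_nonneg _)
  have tb : Tendsto (fun n => ∫ x, η x * D.Γ (a (ns (ms n))) ψ x ∂μ) atTop (𝓝 β) := (continuous_fst.tendsto _).comp ht
  have tc : Tendsto (fun n => ∫ x, η x * D.Γ (a (ns (ms n))) (a (ns (ms n))) x ∂μ) atTop (𝓝 γ) :=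
    (continuous_snd.tendsto _).comp ht
  have key : ∀ t : ℝ, ∫ x, η x * D.Γ v v x ∂μ + 2 * t * ∫ x, η x * D.Γ v ψ x ∂μ ≤ γ + 2 * t * β := by
    intro t
    have h1 := (h.lsc (fun n x => 1 * a (ns (ms n)) x + t * ψ x) (fun x => 1 * v x + t * ψ x)
      (C₀ + 2 * |t| * (Real.sqrt C₀ * Real.sqrt (D.E ψ ψ)) + t ^ 2 * D.E ψ ψ)
      (fun n => (ha _).lin 1 t hψ) (fun n => ?_) (hvW.lin 1 t hψ).2.1 ?_).2 η hη h01
      (γ + 2 * t * β + t ^ 2 * ∫ x, η x * D.Γ ψ ψ x ∂μ) fun ε hε => ?_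
    · rw [iia3_expand t hvW hψ hη hA] at h1
      linarith
    · rw [Cal.E_expand 1 t (ha _) hψ]
      have a1 := (Cal.abs_E_le (ha (ns (ms n))) hψ).trans
        (mul_le_mul_of_nonneg_right (s1 _) (Real.sqrt_nonneg _))
      have a2 : t * D.E (a (ns (ms n))) ψ ≤ |t| * (Real.sqrt C₀ * Real.sqrt (D.E ψ ψ)) :=
        (le_abs_self _).trans ((abs_mul _ _).trans_le (mul_le_mul_of_nonneg_left a1 (abs_nonneg _)))
      linarith [hE (ns (ms n))]
    · refine (hc.comp (hns.comp hms.tendsto_atTop)).congr fun n => ?_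
      simp only [Function.comp]
      congr 1
      funext x
      ring
    · have := ((tc.add (tb.const_mul (2 * t))).add_const (t ^ 2 * ∫ x, η x * D.Γ ψ ψ x ∂μ)).eventually
        (ge_mem_nhds (lt_add_of_pos_right _ hε))
      filter_upwards [this] with n hn
      rwa [iia3_expand t (ha _) hψ hη hA]
  have e : ∫ x, η x * D.Γ v ψ x ∂μ = β := by
    by_contra hne
    have hd : ∫ x, η x * D.Γ v ψ x ∂μ - β ≠ 0 := sub_ne_zero.2 hne
    have := key ((γ - ∫ x, η x * D.Γ v v x ∂μ + 1) / (2 * (∫ x, η x * D.Γ v ψ x ∂μ - β)))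
    have e2 : 2 * ((γ - ∫ x, η x * D.Γ v v x ∂μ + 1) / (2 * (∫ x, η x * D.Γ v ψ x ∂μ - β))) *
        (∫ x, η x * D.Γ v ψ x ∂μ - β) = γ - ∫ x, η x * D.Γ v v x ∂μ + 1 := by
      field_simp
    rw [mul_sub] at e2
    linarith
  exact ⟨ms, e ▸ tb⟩

/-- `lsc` with weights in balls, `ae_le_of_wt`, `ae_of_balls` -/
theorem Γ_le_of_lim (h : Flow D T R) {a : ℕ → X → ℝ} {C₀ M : ℝ} (ha : ∀ n, D.W (a n))
    (hE : ∀ n, D.E (a n) (a n) ≤ C₀) (hv : MemLp v 2 μ)
    (hc : Tendsto (fun n => n2 μ fun x => a n x - v x) atTop (𝓝 0))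
    (hM : ∀ᶠ n in atTop, ∀ᵐ x ∂μ, D.Γ (a n) (a n) x ≤ M) : ∀ᵐ x ∂μ, D.Γ v v x ≤ M := by
  obtain ⟨hvW, hl⟩ := h.lsc a v C₀ ha hE hv hc
  refine ae_of_balls fun z ρ => ae_le_of_wt (g := fun _ => M) hvW.2.2.integrableOn
    (integrableOn_ball_of_cont continuous_const z ρ) fun η hη => ?_
  refine hl η hη.meas.aestronglyMeasurable hη.mem _ fun ε hε => ?_
  filter_upwards [hM] with n hn
  refine le_trans (integral_mono_ae ((ha n).integrable_mul_Γ (ha n) hη.meas.aestronglyMeasurable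
    (ae_of_all _ hη.abs_le)) (hη.integrable.mul_const M) ?_) (le_add_of_nonneg_right hε.le)
  filter_upwards [hn] with x hx using mul_le_mul_of_nonneg_left hx (hη.mem x).1

theorem R_W (h : Flow D T R) {t : ℝ} (ht : 0 < t) (hf : MemLp f 2 μ) : D.W (R t f) := (h.R_gen t ht f hf).1
/-- the difference `w` has `E w w = -∫ w² / t` -/
theorem R_uniq (h : Flow D T R) {t : ℝ} (ht : 0 < t) (hf : MemLp f 2 μ)
    (hu : D.Gen u fun x => (u x - f x) / t) : u =ᵐ[μ] R t f := by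
  have hw := hu.lin 1 (-1) (h.R_gen t ht f hf)
  have e1 := hw.2.2 _ hw.1
  have e2 : ∫ x, (1 * ((u x - f x) / t) + -1 * ((R t f x - f x) / t)) * (1 * u x + -1 * R t f x) ∂μ =
      t⁻¹ * n2 μ fun x => 1 * u x + -1 * R t f x := by
    unfold n2
    rw [← integral_const_mul]
    exact integral_congr_ae (ae_of_all _ fun x => by ring)
  have e3 := Cal.E_nonneg hw.1.1
  rw [e1, e2] at e3
  have e4 : n2 μ (fun x => 1 * u x + -1 * R t f x) ≤ 0 := by
    by_contra hc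
    have := mul_pos (inv_pos.2 ht) (not_le.1 hc)
    linarith
  filter_upwards [ae_zero_of_n2 hw.1.2.1 e4] with x hx
  linarith
theorem R_congr (h : Flow D T R) {t : ℝ} (ht : 0 < t) (hf : MemLp f 2 μ) (hfg : f =ᵐ[μ] g) :
    R t f =ᵐ[μ] R t g := by
  refine h.R_uniq ht (hf.ae_eq hfg) ((h.R_gen t ht f hf).congr EventuallyEq.rfl ?_)
  filter_upwards [hfg] with x hx
  rw [hx]
theorem R_sub (h : Flow D T R) {t : ℝ} (ht : 0 < t) (hf : MemLp f 2 μ) (hg : MemLp g 2 μ) :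
    R t (fun x => f x - g x) =ᵐ[μ] fun x => R t f x - R t g x := by
  have h1 := h.R_lin t ht f g hf hg 1 (-1)
  simpa only [one_mul, neg_one_mul, ← sub_eq_add_neg] using h1
theorem R_bound (h : Flow D T R) {t A : ℝ} (ht : 0 < t) (hf : MemLp f 2 μ) (h0 : 0 ≤ A)
    (hA : ∀ᵐ x ∂μ, |f x| ≤ A) : ∀ᵐ x ∂μ, |R t f x| ≤ A := by
  have z : MemLp (fun _ : X => (0 : ℝ)) 2 μ := MemLp.zero
  have h1 := h.R_lin t ht f f hf hf 0 0
  simp only [zero_mul, add_zero] at h1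
  have h2 := h.R_markov t ht f _ hf z A h0 (hA.mono fun x hx => by linarith [(abs_le.1 hx).2])
  have h3 := h.R_markov t ht _ f z hf A h0 (hA.mono fun x hx => by linarith [(abs_le.1 hx).1])
  filter_upwards [h1, h2, h3] with x a1 a2 a3
  rw [a1] at a2 a3
  exact abs_le.2 ⟨by linarith, by linarith⟩
/-- `t E u u + ∫ u² = ∫ f u ≤ ∫ f² / 4 + ∫ u²` -/
theorem R_energy0 (h : Flow D T R) {t : ℝ} (ht : 0 < t) (hf : MemLp f 2 μ) :
    4 * t * D.E (R t f) (R t f) ≤ n2 μ f := by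
  have hg := h.R_gen t ht f hf
  rw [hg.2.2 _ hg.1, mul_neg, ← neg_mul, ← integral_const_mul]
  refine integral_mono ((integrable_mul2 hg.2.1 hg.1.2.1).const_mul _) hf.integrable_sq fun x => ?_
  have e : -(4 * t) * ((R t f x - f x) / t * R t f x) = f x ^ 2 - (2 * R t f x - f x) ^ 2 := by
    field_simp
    ring
  beta_reduce
  rw [e]
  linarith [sq_nonneg (2 * R t f x - f x)]
/-- `E u f - E u u = ∫ (f - u)² / t ≥ 0`, Cauchy-Schwarz -/
theorem R_energy (h : Flow D T R) {t : ℝ} (ht : 0 < t) (hf : D.W f) : D.E (R t f) (R t f) ≤ D.E f f := by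
  have hg := h.R_gen t ht f hf.2.1
  have e1 := hg.2.2 _ hg.1
  have e2 := hg.2.2 _ hf
  have e3 : ∫ x, (R t f x - f x) / t * f x ∂μ ≤ ∫ x, (R t f x - f x) / t * R t f x ∂μ := by
    refine integral_mono (integrable_mul2 hg.2.1 hf.2.1) (integrable_mul2 hg.2.1 hg.1.2.1) fun x => ?_
    have e : (R t f x - f x) / t * R t f x - (R t f x - f x) / t * f x = (R t f x - f x) ^ 2 / t := by ring
    have : 0 ≤ (R t f x - f x) ^ 2 / t := by positivity
    beta_reduce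
    linarith
  have e4 := Cal.E_nonneg (hg.1.lin 1 (-1) hf).1
  rw [Cal.E_expand 1 (-1) hg.1 hf] at e4
  linarith

end Flow

end Crest.Agent.R242.II
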