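import Crest.Agent.R242.IIA3

/-! Row 242, part II (helper16), TASK IIB1: elementary facts on the semigroup.
Keep the statements; auxiliary names `iib1_*`.  Definitions: `R242/IIDefs.lean`; paper proof: `R242/IIRead.lean`. -/

set_option autoImplicit false
set_option linter.unusedSectionVars false
set_option linter.unusedVariables false

open MeasureTheory Filter Set
open scoped ENNReal NNReal Topology

noncomputable section

namespace Crest.Agent.R242.II

variable {X : Type*} [MetricSpace X] [MeasurableSpace X] [BorelSpace X] [ProperSpace X]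
  {μ : Measure X} [IsFiniteMeasureOnCompacts μ] [μ.IsOpenPosMeasure] {D : Cal μ}
  {T R : ℝ → (X → ℝ) → X → ℝ} {u v w f g η ψ L : X → ℝ}

/-- `L` is the generator at `T t f` and the derivative of the orbit in `L²` and in energy -/
structure TG (D : Cal μ) (T : ℝ → (X → ℝ) → X → ℝ) (t : ℝ) (f L : X → ℝ) : Prop where
  gen : D.Gen (T t f) L
  W : D.W L
  d2 : Tendsto (fun s => n2 μ fun x => (T s f x - T t f x) / (s - t) - L x) (𝓝[≠] t) (𝓝 0)
  dE : Tendsto (fun s => D.E (fun x => (T s f x - T t f x) / (s - t) - L x)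
      fun x => (T s f x - T t f x) / (s - t) - L x) (𝓝[≠] t) (𝓝 0)

namespace Flow

theorem tg (h : Flow D T R) {t : ℝ} (ht : 0 < t) (hf : MemLp f 2 μ) : ∃ L, TG D T t f L := by
  obtain ⟨L, h1, h2, h3, h4⟩ := h.T_gen t ht f hf
  exact ⟨L, h1, h2, h3, h4⟩
theorem T_W0 (h : Flow D T R) {t : ℝ} (ht : 0 < t) (hf : MemLp f 2 μ) : D.W (T t f) :=
  (h.tg ht hf).choose_spec.gen.1
theorem T_mono (h : Flow D T R) {t : ℝ} (ht : 0 ≤ t) (hf : MemLp f 2 μ) (hg : MemLp g 2 μ)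
    (hfg : ∀ᵐ x ∂μ, f x ≤ g x) : ∀ᵐ x ∂μ, T t f x ≤ T t g x := by
  simpa using h.T_markov t ht f g hf hg 0 le_rfl (by simpa using hfg)
theorem T_congr (h : Flow D T R) {t : ℝ} (ht : 0 ≤ t) (hf : MemLp f 2 μ) (hfg : f =ᵐ[μ] g) :
    T t f =ᵐ[μ] T t g := by
  filter_upwards [h.T_mono ht hf (hf.ae_eq hfg) hfg.le, h.T_mono ht (hf.ae_eq hfg) hf hfg.symm.le] with x h1 h2
  exact le_antisymm h1 h2
theorem T_smul (h : Flow D T R) {t : ℝ} (ht : 0 ≤ t) (c : ℝ) (hf : MemLp f 2 μ) :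
    T t (fun x => c * f x) =ᵐ[μ] fun x => c * T t f x := by
  simpa using h.T_lin t ht f f hf hf c 0
theorem T_add (h : Flow D T R) {t : ℝ} (ht : 0 ≤ t) (hf : MemLp f 2 μ) (hg : MemLp g 2 μ) :
    T t (fun x => f x + g x) =ᵐ[μ] fun x => T t f x + T t g x := by
  simpa using h.T_lin t ht f g hf hg 1 1
theorem T_sub (h : Flow D T R) {t : ℝ} (ht : 0 ≤ t) (hf : MemLp f 2 μ) (hg : MemLp g 2 μ) :
    T t (fun x => f x - g x) =ᵐ[μ] fun x => T t f x - T t g x := by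
  simpa [sub_eq_add_neg] using h.T_lin t ht f g hf hg 1 (-1)
theorem T_zero_fun (h : Flow D T R) {t : ℝ} (ht : 0 ≤ t) : ∀ᵐ x ∂μ, T t (fun _ => 0) x = 0 := by
  filter_upwards [h.T_smul ht 0 (f := fun _ => 0) MemLp.zero'] with x hx
  simpa using hx
theorem T_sum (h : Flow D T R) {t : ℝ} (ht : 0 ≤ t) {ι : Type*} (s : Finset ι) {a : ι → X → ℝ}
    (ha : ∀ i ∈ s, MemLp (a i) 2 μ) :
    T t (fun x => ∑ i ∈ s, a i x) =ᵐ[μ] fun x => ∑ i ∈ s, T t (a i) x := by
  classical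
  induction s using Finset.induction_on with
  | empty => exact h.T_zero_fun ht
  | insert i s hi ih =>
    have h1 : ∀ j ∈ s, MemLp (a j) 2 μ := fun j hj => ha j (Finset.mem_insert_of_mem hj)
    simp only [Finset.sum_insert hi]
    filter_upwards [h.T_add ht (ha i (Finset.mem_insert_self _ _)) (memLp_finsetSum s h1), ih h1] with x h2 h3
    rw [h2, h3]
theorem T_nonneg (h : Flow D T R) {t : ℝ} (ht : 0 ≤ t) (hf : MemLp f 2 μ) (h0 : ∀ᵐ x ∂μ, 0 ≤ f x) :
    ∀ᵐ x ∂μ, 0 ≤ T t f x := by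
  filter_upwards [h.T_mono ht (f := fun _ => 0) MemLp.zero' hf h0, h.T_zero_fun ht] with x h1 h2
  rwa [h2] at h1
theorem T_le (h : Flow D T R) {t A : ℝ} (ht : 0 ≤ t) (hf : MemLp f 2 μ) (h0 : 0 ≤ A) (hA : ∀ᵐ x ∂μ, f x ≤ A) :
    ∀ᵐ x ∂μ, T t f x ≤ A := by
  filter_upwards [h.T_markov t ht f (fun _ => 0) hf MemLp.zero' A h0 (by simpa using hA), h.T_zero_fun ht] with x h1 h2
  rwa [h2, add_zero] at h1
theorem T_bound (h : Flow D T R) {t A : ℝ} (ht : 0 ≤ t) (hf : MemLp f 2 μ) (h0 : 0 ≤ A)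
    (hA : ∀ᵐ x ∂μ, |f x| ≤ A) : ∀ᵐ x ∂μ, |T t f x| ≤ A := by
  filter_upwards [h.T_le ht hf h0 (hA.mono fun x hx => (abs_le.1 hx).2), h.T_le ht (hf.const_mul (-1)) h0
    (hA.mono fun x hx => by linarith [(abs_le.1 hx).1]), h.T_smul ht (-1) hf] with x h1 h2 h3
  rw [h3] at h2
  exact abs_le.2 ⟨by linarith, h1⟩
/-- `∫ 1_(ball o n) T η = ∫ T (1_(ball o n)) η ≤ ∫ η`; monotone convergence
(`lintegral_iSup` / `integrable_of_intervalIntegral_norm_bounded`-like: `AECover`) -/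
theorem T_submass (h : Flow D T R) {t : ℝ} (ht : 0 ≤ t) (hη : MemLp η 2 μ) (hi : Integrable η μ)
    (h0 : ∀ᵐ x ∂μ, 0 ≤ η x) : Integrable (T t η) μ ∧ ∫ x, T t η x ∂μ ≤ ∫ x, η x ∂μ := by
  rcases isEmpty_or_nonempty X with hX | ⟨⟨o⟩⟩
  · simp [Measure.eq_zero_of_isEmpty μ]
  have hm := h.T_mem t ht η hη
  have hc : AECover μ atTop fun r : ℝ => Metric.ball o r := aecover_ball tendsto_id
  have hb : ∀ r : ℝ, ∫ x in Metric.ball o r, T t η x ∂μ ≤ ∫ x, η x ∂μ := fun r => by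
    have hw := wt_indicator (B := Metric.ball o r) measurableSet_ball Subset.rfl
    have h1 : ∫ x in Metric.ball o r, T t η x ∂μ =
        ∫ x, T t η x * (Metric.ball o r).indicator (fun _ => (1 : ℝ)) x ∂μ := by
      rw [← integral_indicator measurableSet_ball]
      refine integral_congr_ae (Eventually.of_forall fun x => ?_)
      by_cases hx : x ∈ Metric.ball o r <;> simp [hx]
    rw [h1, h.T_symm t ht _ _ hη hw.memLp]
    refine integral_mono_ae (integrable_mul2 hη (h.T_mem t ht _ hw.memLp)) hi ?_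
    filter_upwards [h0, h.T_le ht hw.memLp zero_le_one (Eventually.of_forall fun x => (hw.mem x).2)] with x h2 h3
    exact mul_le_of_le_one_right h2 h3
  have hI := hc.integrable_of_integral_bounded_of_nonneg_ae _ (fun r => integrableOn_ball_of_memLp hm o r)
    (h.T_nonneg ht hη h0) (Eventually.of_forall hb)
  exact ⟨hI, le_of_tendsto' (hc.integral_tendsto_of_countably_generated hI) hb⟩
theorem T_dist (h : Flow D T R) {t : ℝ} (ht : 0 ≤ t) (hf : MemLp f 2 μ) (hg : MemLp g 2 μ) :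
    n2 μ (fun x => T t f x - T t g x) ≤ n2 μ fun x => f x - g x :=
  (n2_congr (h.T_sub ht hf hg).symm).trans_le (h.T_contr t ht _ (hf.sub hg))
theorem continuousOn_int (h : Flow D T R) (hf : MemLp f 2 μ) (hg : MemLp g 2 μ) :
    ContinuousOn (fun s => ∫ x, g x * T s f x ∂μ) (Ici 0) := fun t ht =>
  tendsto_int_mul (Eventually.of_forall fun _ => hg) (eventually_mem_nhdsWithin.mono fun s hs => h.T_mem s hs f hf) hg
    (h.T_mem t ht f hf) (by simpa [n2] using tendsto_const_nhds) (h.T_cont t ht f hf)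
/-- `hasDerivAt_iff_tendsto_slope`, `tendsto_int_mul` -/
theorem hasDerivAt_int (h : Flow D T R) {t : ℝ} (ht : 0 < t) (hf : MemLp f 2 μ) (hL : TG D T t f L)
    (hg : MemLp g 2 μ) : HasDerivAt (fun s => ∫ x, g x * T s f x ∂μ) (∫ x, g x * L x ∂μ) t := by
  have hp : ∀ᶠ s in 𝓝[≠] t, 0 ≤ s := nhdsWithin_le_nhds (Ici_mem_nhds ht)
  have hm := h.T_mem t ht.le f hf
  refine hasDerivAt_iff_tendsto_slope.2 ((tendsto_int_mul (Eventually.of_forall fun _ => hg) ?_ hg hL.gen.2.1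
    (by simp [n2]) hL.d2).congr' ?_)
  · filter_upwards [hp] with s hs
    simp only [div_eq_mul_inv]
    exact ((h.T_mem s hs f hf).sub hm).mul_const _
  · filter_upwards [hp] with s hs
    rw [slope_def_field, ← integral_sub (integrable_mul2 hg (h.T_mem s hs f hf)) (integrable_mul2 hg hm),
      ← integral_div]
    refine integral_congr_ae (Eventually.of_forall fun x => ?_)
    ring
theorem hasDerivAt_gen (h : Flow D T R) {t : ℝ} (ht : 0 < t) (hf : MemLp f 2 μ) (hg : D.Gen g L) :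
    HasDerivAt (fun s => ∫ x, g x * T s f x ∂μ) (∫ x, L x * T t f x ∂μ) t := by
  obtain ⟨L', hL⟩ := h.tg ht hf
  rw [hg.symm hL.gen]
  exact h.hasDerivAt_int ht hf hL hg.1.2.1
/-- continuity of `s ↦ T (a s) (b s)` in `L²` -/
theorem tendsto_T (h : Flow D T R) {ι : Type*} {p : Filter ι} {a : ι → ℝ} {b : ι → X → ℝ} {t : ℝ} (ht : 0 ≤ t)
    (ha : Tendsto a p (𝓝[Ici 0] t)) (hb : ∀ᶠ i in p, MemLp (b i) 2 μ) (hf : MemLp f 2 μ)
    (hc : Tendsto (fun i => n2 μ fun x => b i x - f x) p (𝓝 0)) :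
    Tendsto (fun i => n2 μ fun x => T (a i) (b i) x - T t f x) p (𝓝 0) := by
  have hp : ∀ᶠ i in p, 0 ≤ a i := ha.eventually eventually_mem_nhdsWithin
  have h1 := tendsto_n2_add (p := p) (a := fun i x => T (a i) (b i) x - T (a i) f x)
    (b := fun i x => T (a i) f x - T t f x)
    ((hp.and hb).mono fun i hi => (h.T_mem _ hi.1 _ hi.2).sub (h.T_mem _ hi.1 _ hf))
    (hp.mono fun i hi => (h.T_mem _ hi _ hf).sub (h.T_mem _ ht _ hf))
    (squeeze_zero' (Eventually.of_forall fun _ => n2_nonneg _ _) ((hp.and hb).mono fun i hi => h.T_dist hi.1 hi.2 hf) hc)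
    ((h.T_cont t ht f hf).comp ha)
  simpa only [sub_add_sub_cancel] using h1
/-- `Γ (T s v) → Γ (T t v)` in `L¹` (`Γ a a - Γ b b = Γ (a - b) (a + b)`, `int_abs_Γ_le`, `T_contW`, `T_W`) -/
theorem tendsto_Γ (h : Flow D T R) {t : ℝ} (ht : 0 ≤ t) (hv : D.W v) :
    Tendsto (fun s => ∫ x, |D.Γ (T s v) (T s v) x - D.Γ (T t v) (T t v) x| ∂μ) (𝓝[Ici 0] t) (𝓝 0) := by
  have h1 := ((h.T_contW t ht v hv).sqrt).mul_const (2 * Real.sqrt (D.E v v))
  rw [Real.sqrt_zero, zero_mul] at h1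
  refine squeeze_zero' (Eventually.of_forall fun _ => integral_nonneg fun _ => abs_nonneg _)
    (eventually_mem_nhdsWithin.mono fun s hs => ?_) h1
  obtain ⟨a1, a2⟩ := h.T_W s hs v hv
  obtain ⟨b1, b2⟩ := h.T_W t ht v hv
  have e : ∫ x, |D.Γ (T s v) (T s v) x - D.Γ (T t v) (T t v) x| ∂μ =
      ∫ x, |D.Γ (fun x => T s v x - T t v x) (fun x => T s v x + T t v x) x| ∂μ := by
    refine integral_congr_ae ?_
    filter_upwards [Cal.Γ_sub a1.1 b1.1 (a1.add b1).1, Cal.Γ_add_right a1.1 b1.1 a1.1, Cal.Γ_add_right a1.1 b1.1 b1.1,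
      D.Γ_comm _ _ a1.1 b1.1] with x h2 h3 h4 h5
    rw [h2, h3, h4, h5]
    congr 1
    ring
  rw [e]
  refine (Cal.int_abs_Γ_le (a1.sub b1) (a1.add b1)).trans (mul_le_mul_of_nonneg_left ?_ (Real.sqrt_nonneg _))
  linarith [Cal.sqrt_E_add_le a1 b1, Real.sqrt_le_sqrt a2, Real.sqrt_le_sqrt b2]

end Flow

end Crest.Agent.R242.II
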