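import Crest.Agent.R242.IIB1

/-! Row 242, part II (helper16), TASK IIB2: derivative of `w ↦ ∫ T (s-w) η * Γ (T w v)`.
Keep the statements; auxiliary names `iib2_*`.  Definitions: `R242/IIDefs.lean`; paper proof: `R242/IIRead.lean`. -/

set_option autoImplicit false
set_option linter.unusedSectionVars false
set_option linter.unusedVariables false

open MeasureTheory Filter Set
open scoped ENNReal NNReal Topology

noncomputable section

namespace Crest.Agent.R242.II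

variable {X : Type*} [MetricSpace X] [MeasurableSpace X] [BorelSpace X] [ProperSpace X]
  {μ : Measure X} [IsFiniteMeasureOnCompacts μ] [μ.IsOpenPosMeasure] {D : Cal μ}
  {T R : ℝ → (X → ℝ) → X → ℝ} {u v w f g η ψ L : X → ℝ}

theorem iib2_slope (c : ℝ) (hu : D.S u) (hv : D.S v) :
    D.Γ (fun x => (u x - v x) / c) (fun x => u x + v x) =ᵐ[μ] fun x => (D.Γ u u x - D.Γ v v x) / c := by
  have e : (fun x => (u x - v x) / c) = fun x => c⁻¹ * u x + -c⁻¹ * v x := by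
    funext x
    ring
  rw [e]
  filter_upwards [D.Γ_lin u v _ c⁻¹ (-c⁻¹) hu hv (Cal.S_add hu hv), Cal.Γ_add_right hu hv hu,
    Cal.Γ_add_right hu hv hv, D.Γ_comm u v hu hv] with x h1 h2 h3 h4
  rw [h1, h2, h3, h4]
  ring

theorem iib2_bound (hw : D.W w) (hu : D.W u) (hv : D.W v) (hL : D.W L) :
    ∫ x, |D.Γ w (fun x => u x + v x) x - 2 * D.Γ v L x| ∂μ ≤
      √(D.E (fun x => w x - L x) fun x => w x - L x) * (√(D.E u u) + √(D.E v v)) +
        √(D.E L L) * √(D.E (fun x => u x - v x) fun x => u x - v x) := by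
  have i1 := ((hw.sub hL).integrable_Γ (hu.add hv)).abs
  have i2 := (hL.integrable_Γ (hu.sub hv)).abs
  refine le_trans ?_ (add_le_add ((Cal.int_abs_Γ_le (hw.sub hL) (hu.add hv)).trans
    (mul_le_mul_of_nonneg_left (Cal.sqrt_E_add_le hu hv) (Real.sqrt_nonneg _))) (Cal.int_abs_Γ_le hL (hu.sub hv)))
  rw [← integral_add i1 i2]
  refine integral_mono_of_nonneg (Eventually.of_forall fun _ => abs_nonneg _) (i1.add i2) ?_
  filter_upwards [Cal.Γ_sub hw.1 hL.1 (hu.add hv).1, Cal.Γ_add_right hu.1 hv.1 hL.1,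
    Cal.Γ_sub_right hu.1 hv.1 hL.1, D.Γ_comm v L hv.1 hL.1] with x h1 h2 h3 h4
  refine le_trans (le_of_eq ?_) (abs_add_le _ _)
  rw [h1, h2, h3, h4]
  congr 1
  ring

/-- `tendsto_int_mul_bdd`, `Flow.tendsto_Γ`, `T_cont`, `T_bound` -/
theorem Flow.dE_cont (h : Flow D T R) {s A : ℝ} (hη : MemLp η 2 μ) (h0 : 0 ≤ A) (hA : ∀ᵐ x ∂μ, |η x| ≤ A)
    (hv : D.W v) :
    ContinuousOn (fun t => ∫ x, T (s - t) η x * D.Γ (T t v) (T t v) x ∂μ) (Icc 0 s) := by
  intro t ht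
  have hW := fun t (ht : t ∈ Icc 0 s) => (h.T_W t ht.1 v hv).1
  have hl : Tendsto (fun t' => s - t') (𝓝[Icc 0 s] t) (𝓝[Ici 0] (s - t)) :=
    tendsto_nhdsWithin_iff.2 ⟨((continuous_const.sub continuous_id).tendsto t).mono_left nhdsWithin_le_nhds,
      eventually_mem_nhdsWithin.mono fun x hx => sub_nonneg.2 hx.2⟩
  refine tendsto_int_mul_bdd (A := A) ?_ (h.T_mem _ (sub_nonneg.2 ht.2) η hη)
    (h.T_bound (sub_nonneg.2 ht.2) hη h0 hA) ?_ (hW t ht).2.2 ((h.T_cont _ (sub_nonneg.2 ht.2) η hη).comp hl)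
    ((h.tendsto_Γ ht.1 hv).mono_left (nhdsWithin_mono _ Icc_subset_Ici_self))
  · exact eventually_mem_nhdsWithin.mono fun x hx =>
      ⟨h.T_mem _ (sub_nonneg.2 hx.2) η hη, h.T_bound (sub_nonneg.2 hx.2) hη h0 hA⟩
  · exact eventually_mem_nhdsWithin.mono fun x hx => (hW x hx).2.2

/-- With `u = T t v`, `u' = T t' v`, `e = T (s-t) η`, `e' = T (s-t') η` the slope is
`∫ ((e' - e)/(t'-t)) Γ u u + ∫ e' Γ ((u'-u)/(t'-t)) (u'+u)`.  First term: `Γ u u ∈ L²` (`W.memLp_Γ`), `TG.d2`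
composed with `t' ↦ s - t'`; second: `tendsto_int_mul_bdd`, the `Γ` term converges in `L¹` to `2 Γ L u`
(`int_abs_Γ_le`, `TG.dE`, `T_contW`). -/
theorem Flow.dE_deriv (h : Flow D T R) {s t A M : ℝ} {Lη : X → ℝ} (hη : MemLp η 2 μ) (h0 : 0 ≤ A)
    (hA : ∀ᵐ x ∂μ, |η x| ≤ A) (hv : D.W v) (ht : t ∈ Ioo 0 s)
    (hM : ∀ᵐ x ∂μ, D.Γ (T t v) (T t v) x ≤ M) (h1 : TG D T (s - t) η Lη) (h2 : TG D T t v L) :
    HasDerivAt (fun t => ∫ x, T (s - t) η x * D.Γ (T t v) (T t v) x ∂μ)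
      (-(∫ x, Lη x * D.Γ (T t v) (T t v) x ∂μ) + 2 * ∫ x, T (s - t) η x * D.Γ (T t v) L x ∂μ) t := by
  have hW := fun t (ht : t ∈ Ioo 0 s) => (h.T_W t ht.1.le v hv).1
  have hm := fun t (ht : t ∈ Ioo 0 s) => h.T_mem _ (sub_nonneg.2 ht.2.le) η hη
  have hb := fun t (ht : t ∈ Ioo 0 s) => h.T_bound (sub_nonneg.2 ht.2.le) hη h0 hA
  have hu := hW t ht
  have hΓ : MemLp (D.Γ (T t v) (T t v)) 2 μ := hu.memLp_Γ hu.1 hM
  have hev : ∀ᶠ t' in 𝓝[≠] t, t' ∈ Ioo 0 s := mem_nhdsWithin_of_mem_nhds (isOpen_Ioo.mem_nhds ht)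
  have hl0 : Tendsto (fun t' => s - t') (𝓝[≠] t) (𝓝 (s - t)) :=
    ((continuous_const.sub continuous_id).tendsto t).mono_left nhdsWithin_le_nhds
  have hl1 : Tendsto (fun t' => s - t') (𝓝[≠] t) (𝓝[≠] (s - t)) :=
    tendsto_nhdsWithin_iff.2 ⟨hl0, eventually_mem_nhdsWithin.mono fun x hx e => hx (sub_right_injective e)⟩
  have hl2 : Tendsto (fun t' => s - t') (𝓝[≠] t) (𝓝[Ici 0] (s - t)) :=
    tendsto_nhdsWithin_iff.2 ⟨hl0, hev.mono fun x hx => sub_nonneg.2 hx.2.le⟩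
  have hl3 : 𝓝[≠] t ≤ 𝓝[Ici 0] t :=
    le_inf nhdsWithin_le_nhds (le_principal_iff.2 (hev.mono fun x hx => hx.1.le))
  have hm' : ∀ t' ∈ Ioo 0 s, MemLp (fun x => (T (s - t') η x - T (s - t) η x) / (s - t' - (s - t))) 2 μ :=
    fun t' ht' => by
      simpa only [div_eq_mul_inv, Pi.sub_apply] using ((hm t' ht').sub (hm t ht)).mul_const (s - t' - (s - t))⁻¹
  have J1 : Tendsto (fun t' => ∫ x, (T (s - t') η x - T (s - t) η x) / (s - t' - (s - t)) *
      D.Γ (T t v) (T t v) x ∂μ) (𝓝[≠] t) (𝓝 (∫ x, Lη x * D.Γ (T t v) (T t v) x ∂μ)) :=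
    tendsto_int_mul (b := fun _ => D.Γ (T t v) (T t v)) (hev.mono hm') (Eventually.of_forall fun _ => hΓ)
      h1.W.2.1 hΓ (h1.d2.comp hl1) (by simp [n2])
  have hq : ∀ t' ∈ Ioo 0 s, D.W fun x => (T t' v x - T t v x) / (t' - t) :=
    fun t' ht' => ((hW t' ht').sub hu).div _
  have J2 : Tendsto (fun t' => ∫ x, T (s - t') η x *
      D.Γ (fun x => (T t' v x - T t v x) / (t' - t)) (fun x => T t' v x + T t v x) x ∂μ) (𝓝[≠] t)
      (𝓝 (∫ x, T (s - t) η x * (2 * D.Γ (T t v) L x) ∂μ)) := by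
    refine tendsto_int_mul_bdd (A := A) (hev.mono fun x hx => ⟨hm x hx, hb x hx⟩) (hm t ht) (hb t ht)
      (hev.mono fun x hx => (hq x hx).integrable_Γ ((hW x hx).add hu)) ((hu.integrable_Γ h2.W).const_mul 2)
      ((h.T_cont _ (sub_nonneg.2 ht.2.le) η hη).comp hl2) ?_
    have l := (h2.dE.sqrt.mul_const (√(D.E v v) + √(D.E v v))).add
      (((h.T_contW t ht.1.le v hv).mono_left hl3).sqrt.const_mul √(D.E L L))
    simp only [Real.sqrt_zero, zero_mul, mul_zero, add_zero] at l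
    refine squeeze_zero' (Eventually.of_forall fun _ => integral_nonneg fun _ => abs_nonneg _) ?_ l
    filter_upwards [hev] with t' ht'
    refine (iib2_bound (hq t' ht') (hW t' ht') hu h2.W).trans (add_le_add_left ?_ _)
    exact mul_le_mul_of_nonneg_left (add_le_add (Real.sqrt_le_sqrt (h.T_W t' ht'.1.le v hv).2)
      (Real.sqrt_le_sqrt (h.T_W t ht.1.le v hv).2)) (Real.sqrt_nonneg _)
  have e2 : ∫ x, T (s - t) η x * (2 * D.Γ (T t v) L x) ∂μ = 2 * ∫ x, T (s - t) η x * D.Γ (T t v) L x ∂μ := by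
    rw [← integral_const_mul]
    congr 1
    funext x
    ring
  rw [hasDerivAt_iff_tendsto_slope, ← e2]
  refine (J1.neg.add J2).congr' ?_
  filter_upwards [hev, self_mem_nhdsWithin] with t' ht' hne
  have hne' : t' - t ≠ 0 := sub_ne_zero.2 hne
  have i1 := integrable_mul2 (hm' t' ht') hΓ
  have i2 := (hq t' ht').integrable_mul_Γ ((hW t' ht').add hu) (hm t' ht').1 (hb t' ht')
  have i3 := (hW t' ht').integrable_mul_Γ (hW t' ht') (hm t' ht').1 (hb t' ht')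
  have i4 := hu.integrable_mul_Γ hu (hm t ht).1 (hb t ht)
  rw [slope_def_field, neg_add_eq_sub, ← integral_sub i2 i1, ← integral_sub i3 i4, ← integral_div]
  refine integral_congr_ae ?_
  filter_upwards [iib2_slope (t' - t) (hW t' ht').1 hu.1] with x hx
  rw [hx, show s - t' - (s - t) = -(t' - t) by ring]
  field_simp
  ring

end Crest.Agent.R242.II
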