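import Crest.Agent.R242.IIB1

/-! Row 242, part II (helper16), TASK IIB3: derivative of `s ↦ ∫ T s η * ℓ (T (r-s) f)`.
Keep the statements; auxiliary names `iib3_*`.  Definitions: `R242/IIDefs.lean`; paper proof: `R242/IIRead.lean`. -/

set_option autoImplicit false
set_option linter.unusedSectionVars false
set_option linter.unusedVariables false

open MeasureTheory Filter Set
open scoped ENNReal NNReal Topology

noncomputable section

namespace Crest.Agent.R242.II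

variable {X : Type*} [MetricSpace X] [MeasurableSpace X] [BorelSpace X] [ProperSpace X]
  {μ : Measure X} [IsFiniteMeasureOnCompacts μ] [μ.IsOpenPosMeasure] {D : Cal μ}
  {T R : ℝ → (X → ℝ) → X → ℝ} {u v w f g η ψ L : X → ℝ}

theorem iib3_lip {ℓ ℓ' : ℝ → ℝ} {K : ℝ} (h1 : ∀ s, HasDerivAt ℓ (ℓ' s) s) (h4 : ∀ s, |ℓ' s| ≤ K) (x y : ℝ) :
    |ℓ y - ℓ x| ≤ K * |y - x| :=
  convex_univ.norm_image_sub_le_of_norm_hasDerivWithin_le (fun z _ => (h1 z).hasDerivWithinAt)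
    (fun z _ => h4 z) (mem_univ x) (mem_univ y)

theorem iib3_taylor {ℓ ℓ' ℓ'' : ℝ → ℝ} {K : ℝ} (h1 : ∀ s, HasDerivAt ℓ (ℓ' s) s)
    (h2 : ∀ s, HasDerivAt ℓ' (ℓ'' s) s) (h5 : ∀ s, |ℓ'' s| ≤ K) (x y : ℝ) :
    |ℓ y - ℓ x - ℓ' x * (y - x)| ≤ K * (y - x) ^ 2 := by
  have hK : 0 ≤ K := (abs_nonneg _).trans (h5 0)
  have h := (convex_uIcc x y).norm_image_sub_le_of_norm_hasDerivWithin_le (f := fun z => ℓ z - ℓ' x * z)
    (f' := fun z => ℓ' z - ℓ' x) (C := K * |y - x|)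
    (fun z _ => (((h1 z).sub ((hasDerivAt_id z).const_mul (ℓ' x))).congr_deriv (by simp)).hasDerivWithinAt)
    (fun z hz => (iib3_lip h2 h5 x z).trans (mul_le_mul_of_nonneg_left (abs_sub_left_of_mem_uIcc hz) hK))
    left_mem_uIcc right_mem_uIcc
  rw [Real.norm_eq_abs, Real.norm_eq_abs, mul_assoc, abs_mul_abs_self] at h
  convert h using 2 <;> ring

theorem iib3_mem {ℓ ℓ' : ℝ → ℝ} {K : ℝ} (h1 : ∀ s, HasDerivAt ℓ (ℓ' s) s) (h4 : ∀ s, |ℓ' s| ≤ K) (h6 : ℓ 0 = 0)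
    (hu : MemLp u 2 μ) : MemLp (fun x => ℓ (u x)) 2 μ := by
  have hc : Continuous ℓ := continuous_iff_continuousAt.2 fun s => (h1 s).continuousAt
  refine hu.of_le_mul (c := K) (hc.comp_aestronglyMeasurable hu.1) (Eventually.of_forall fun x => ?_)
  simpa [h6] using iib3_lip h1 h4 0 (u x)

/-- the value of the derivative -/
theorem iib3_val {e Le Lu : X → ℝ} {A K : ℝ} {ℓ ℓ' ℓ'' : ℝ → ℝ} (he : D.Gen e Le) (hu : D.Gen u Lu)
    (hA : ∀ᵐ x ∂μ, |e x| ≤ A) (h1 : ∀ s, HasDerivAt ℓ (ℓ' s) s) (h2 : ∀ s, HasDerivAt ℓ' (ℓ'' s) s)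
    (h3 : Continuous ℓ'') (h4 : ∀ s, |ℓ' s| ≤ K) (h5 : ∀ s, |ℓ'' s| ≤ K) (h6 : ℓ 0 = 0) :
    ∫ x, Le x * ℓ (u x) ∂μ + ∫ x, e x * ℓ' (u x) * -Lu x ∂μ = ∫ x, e x * (ℓ'' (u x) * D.Γ u u x) ∂μ := by
  have hK : 0 ≤ K := (abs_nonneg _).trans (h5 0)
  have c1 : Continuous ℓ' := continuous_iff_continuousAt.2 fun s => (h2 s).continuousAt
  have w1 : D.W fun x => ℓ (u x) := hu.1.chain h1 c1 h4 h6
  have w2 : D.W fun x => ℓ' (u x) - ℓ' 0 :=
    hu.1.chain (φ := fun s => ℓ' s - ℓ' 0) (fun s => (h2 s).sub_const _) h3 h5 (sub_self _)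
  have w3 : D.W fun x => e x * (ℓ' (u x) - ℓ' 0) :=
    he.1.mul (A := max A (2 * K)) w2 (hA.mono fun x hx => hx.trans (le_max_left _ _))
      (Eventually.of_forall fun x => ((abs_sub _ _).trans (by linarith [h4 (u x), h4 0])).trans (le_max_right _ _))
  have w4 : D.W fun x => e x * ℓ' (u x) :=
    (w3.lin 1 (ℓ' 0) he.1).congr (Eventually.of_forall fun x => by ring)
  obtain ⟨s1, g1⟩ := D.chain u ℓ' ℓ'' K hu.1.1 h2 h3 h5
  obtain ⟨-, g2⟩ := D.mul e (fun x => ℓ' (u x)) (max A K) he.1.1 s1 (hA.mono fun x hx => hx.trans (le_max_left _ _))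
    (Eventually.of_forall fun x => (h4 _).trans (le_max_right _ _))
  have m1 : AEStronglyMeasurable (fun x => ℓ' (u x)) μ := c1.comp_aestronglyMeasurable hu.1.2.1.1
  have m2 : AEStronglyMeasurable (fun x => e x * ℓ'' (u x)) μ :=
    he.1.2.1.1.mul (h3.comp_aestronglyMeasurable hu.1.2.1.1)
  have i1 : Integrable (fun x => ℓ' (u x) * D.Γ e u x) μ :=
    he.1.integrable_mul_Γ hu.1 m1 (Eventually.of_forall fun x => h4 _)
  have i2 : Integrable (fun x => e x * (ℓ'' (u x) * D.Γ u u x)) μ := by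
    have := hu.1.integrable_mul_Γ (A := A * K) hu.1 m2 (hA.mono fun x hx => by
      rw [abs_mul]
      exact mul_le_mul hx (h5 _) (abs_nonneg _) ((abs_nonneg _).trans hx))
    simpa only [mul_assoc] using this
  have e1 : ∫ x, ℓ' (u x) * D.Γ e u x ∂μ = -∫ x, Le x * ℓ (u x) ∂μ := by
    rw [← he.2.2 _ w1]
    exact (integral_congr_ae (Cal.Γ_chain_right hu.1.1 he.1.1 h1 c1 h4)).symm
  have e2 : ∫ x, e x * ℓ' (u x) * -Lu x ∂μ =
      ∫ x, e x * (ℓ'' (u x) * D.Γ u u x) ∂μ + ∫ x, ℓ' (u x) * D.Γ e u x ∂μ := by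
    rw [← integral_add i2 i1]
    have a1 : ∫ x, e x * ℓ' (u x) * -Lu x ∂μ = -∫ x, Lu x * (e x * ℓ' (u x)) ∂μ := by
      rw [← integral_neg]
      exact integral_congr_ae (Eventually.of_forall fun x => by ring)
    rw [a1, ← hu.2.2 _ w4, Cal.E_comm hu.1.1 w4.1]
    refine integral_congr_ae ?_
    filter_upwards [g2 u hu.1.1, g1 u hu.1.1] with x a2 a3
    rw [a2, a3]
  linarith

/-- With `u = T (r-s) f`, `e = T s η` and primes at `s'` the slope is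
`∫ ((e'-e)/(s'-s)) ℓ u' + ∫ e (ℓ u' - ℓ u)/(s'-s)`; `|ℓ y - ℓ x - ℓ' x (y - x)| ≤ K (y-x)²`, so the limit is
`∫ Lη ℓ(u) - ∫ e ℓ'(u) Lu = -E e (ℓ u) + E u (e ℓ'(u)) = ∫ e ℓ''(u) Γ u u`
(`e * ℓ'(u) = e * (ℓ'(u) - ℓ' 0) + ℓ' 0 * e ∈ W`, Leibniz `D.mul`, chain rule). -/
theorem Flow.dC_deriv (h : Flow D T R) {r s A K : ℝ} {ℓ ℓ' ℓ'' : ℝ → ℝ} (hη : MemLp η 2 μ) (h0 : 0 ≤ A)
    (hA : ∀ᵐ x ∂μ, |η x| ≤ A) (hf : MemLp f 2 μ) (hs : s ∈ Ioo 0 r)
    (h1 : ∀ s, HasDerivAt ℓ (ℓ' s) s) (h2 : ∀ s, HasDerivAt ℓ' (ℓ'' s) s) (h3 : Continuous ℓ'')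
    (h4 : ∀ s, |ℓ' s| ≤ K) (h5 : ∀ s, |ℓ'' s| ≤ K) (h6 : ℓ 0 = 0) :
    HasDerivAt (fun s => ∫ x, T s η x * ℓ (T (r - s) f x) ∂μ)
      (∫ x, T s η x * (ℓ'' (T (r - s) f x) * D.Γ (T (r - s) f) (T (r - s) f) x) ∂μ) s := by
  have hK : 0 ≤ K := (abs_nonneg _).trans (h5 0)
  have hrs : 0 < r - s := sub_pos.2 hs.2
  obtain ⟨Le, he⟩ := h.tg hs.1 hη
  obtain ⟨Lu, hu⟩ := h.tg hrs hf
  have hb := h.T_bound hs.1.le hη h0 hA
  rw [← iib3_val he.gen hu.gen hb h1 h2 h3 h4 h5 h6, hasDerivAt_iff_tendsto_slope]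
  have c1 : Continuous ℓ' := continuous_iff_continuousAt.2 fun s => (h2 s).continuousAt
  have me : MemLp (T s η) 2 μ := he.gen.1.2.1
  have mu : MemLp (T (r - s) f) 2 μ := hu.gen.1.2.1
  have ev : ∀ᶠ t in 𝓝[≠] s, t ∈ Ioo 0 r := nhdsWithin_le_nhds (isOpen_Ioo.mem_nhds hs)
  have me' : ∀ᶠ t in 𝓝[≠] s, MemLp (T t η) 2 μ := ev.mono fun t ht => h.T_mem t ht.1.le η hη
  have mu' : ∀ᶠ t in 𝓝[≠] s, MemLp (T (r - t) f) 2 μ := ev.mono fun t ht => h.T_mem _ (sub_pos.2 ht.2).le f hf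
  have tc : Tendsto (fun t => r - t) (𝓝[≠] s) (𝓝 (r - s)) :=
    ((continuous_const.sub continuous_id).tendsto s).mono_left nhdsWithin_le_nhds
  have t1 : Tendsto (fun t => r - t) (𝓝[≠] s) (𝓝[≠] (r - s)) :=
    tendsto_nhdsWithin_iff.2 ⟨tc, eventually_mem_nhdsWithin.mono fun t ht h' => ht (sub_right_injective h')⟩
  have t2 : Tendsto (fun t => r - t) (𝓝[≠] s) (𝓝[Ici 0] (r - s)) :=
    tendsto_nhdsWithin_iff.2 ⟨tc, ev.mono fun t ht => (sub_pos.2 ht.2).le⟩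
  have ma : ∀ᶠ t in 𝓝[≠] s, MemLp (fun x => (T t η x - T s η x) / (t - s)) 2 μ := me'.mono fun t ht => by
    simpa only [div_eq_mul_inv, Pi.sub_apply] using (ht.sub me).mul_const (t - s)⁻¹
  have mb : ∀ᶠ t in 𝓝[≠] s, MemLp (fun x => (T (r - t) f x - T (r - s) f x) / (t - s)) 2 μ := mu'.mono fun t ht => by
    simpa only [div_eq_mul_inv, Pi.sub_apply] using (ht.sub mu).mul_const (t - s)⁻¹
  have ml := iib3_mem h1 h4 h6 mu
  have ml' : ∀ᶠ t in 𝓝[≠] s, MemLp (fun x => ℓ (T (r - t) f x)) 2 μ := mu'.mono fun t ht => iib3_mem h1 h4 h6 ht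
  have mc : MemLp (fun x => T s η x * ℓ' (T (r - s) f x)) 2 μ := by
    simpa only [mul_comm] using memLp_mul_bdd me (c1.comp_aestronglyMeasurable mu.1)
      (Eventually.of_forall fun x => h4 _)
  have mL : MemLp (fun x => -Lu x) 2 μ := hu.gen.2.1.neg
  have d1 : Tendsto (fun t => n2 μ fun x => ℓ (T (r - t) f x) - ℓ (T (r - s) f x)) (𝓝[≠] s) (𝓝 0) := by
    have a1 := ((h.T_cont _ hrs.le f hf).comp t2).const_mul (K ^ 2)
    rw [mul_zero] at a1
    refine squeeze_zero' (Eventually.of_forall fun t => n2_nonneg _ _) (mu'.mono fun t ht => ?_) a1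
    rw [Function.comp_apply, ← n2_smul]
    refine n2_mono ((ht.sub mu).const_mul K) (Eventually.of_forall fun x => ?_)
    rw [abs_mul, abs_of_nonneg hK]
    exact iib3_lip h1 h4 _ _
  have d2 : Tendsto (fun t => n2 μ fun x => (T (r - t) f x - T (r - s) f x) / (t - s) - -Lu x) (𝓝[≠] s) (𝓝 0) := by
    refine (hu.d2.comp t1).congr fun t => integral_congr_ae (Eventually.of_forall fun x => ?_)
    have : r - t - (r - s) = -(t - s) := by ring
    simp only [this, div_neg]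
    ring
  have l1 := tendsto_int_mul ma ml' he.gen.2.1 ml he.d2 d1
  have l2 := tendsto_int_mul (p := 𝓝[≠] s) (a := fun _ x => T s η x * ℓ' (T (r - s) f x))
    (Eventually.of_forall fun _ => mc) mb mc mL (by simp [n2]) d2
  have l3 := tendsto_int_mul mb mb mL mL d2 d2
  have l4 : Tendsto (fun t => |t - s|) (𝓝[≠] s) (𝓝 0) := by
    have : Tendsto (fun t => |t - s|) (𝓝 s) (𝓝 |s - s|) := (continuous_id.sub continuous_const).abs.tendsto s
    rw [sub_self, abs_zero] at this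
    exact this.mono_left nhdsWithin_le_nhds
  have l5 := (l4.const_mul (A * K)).mul l3
  rw [mul_zero, zero_mul] at l5
  refine (l1.add l2).congr_dist (squeeze_zero' (Eventually.of_forall fun t => dist_nonneg) ?_ l5)
  filter_upwards [ma, mb, me', ml', self_mem_nhdsWithin] with t a1 a2 a3 a4 a5
  have ne : t - s ≠ 0 := sub_ne_zero.2 a5
  have i1 := integrable_mul2 a1 a4
  have i2 := integrable_mul2 mc a2
  have i3 := integrable_mul2 a3 a4
  have i4 := integrable_mul2 me ml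
  rw [slope_def_field, ← integral_sub i3 i4, ← integral_div, ← integral_add i1 i2, Real.dist_eq,
    ← integral_sub (by exact i1.add i2) (by exact (i3.sub i4).div_const _), ← integral_const_mul, ← Real.norm_eq_abs]
  refine norm_integral_le_of_norm_le ((integrable_mul2 a2 a2).const_mul _) (hb.mono fun x hx => ?_)
  have b1 := iib3_taylor h1 h2 h5 (T (r - s) f x) (T (r - t) f x)
  have hp : 0 < |t - s| := abs_pos.2 ne
  have b2 : (T t η x - T s η x) / (t - s) * ℓ (T (r - t) f x) +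
      T s η x * ℓ' (T (r - s) f x) * ((T (r - t) f x - T (r - s) f x) / (t - s)) -
      (T t η x * ℓ (T (r - t) f x) - T s η x * ℓ (T (r - s) f x)) / (t - s) =
      -(T s η x * (ℓ (T (r - t) f x) - ℓ (T (r - s) f x) -
        ℓ' (T (r - s) f x) * (T (r - t) f x - T (r - s) f x)) / (t - s)) := by
    field_simp
    ring
  have b3 : A * K * |t - s| * ((T (r - t) f x - T (r - s) f x) / (t - s) *
      ((T (r - t) f x - T (r - s) f x) / (t - s))) = A * (K * (T (r - t) f x - T (r - s) f x) ^ 2) / |t - s| := by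
    rw [div_mul_div_comm, ← abs_mul_abs_self (t - s)]
    field_simp
  rw [b2, b3, Real.norm_eq_abs, abs_neg, abs_div, abs_mul]
  exact div_le_div_of_nonneg_right (mul_le_mul hx b1 (abs_nonneg _) h0) hp.le

/-- a `C²` extension of `log (1 + x)` from `[0, ∞)`: for `x < 0` take `x - log (1 - x) + ...`, e.g.
`ℓ x = 2 * x + log (1 - x)` (`ℓ' = 2 - 1/(1-x)`, `ℓ'' = -1/(1-x)²`); `ℓ'' x = -1/(1+|x|)²`. -/
theorem exists_ell : ∃ ℓ ℓ' ℓ'' : ℝ → ℝ, (∀ s, HasDerivAt ℓ (ℓ' s) s) ∧ (∀ s, HasDerivAt ℓ' (ℓ'' s) s) ∧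
    Continuous ℓ'' ∧ (∀ s, |ℓ' s| ≤ 2) ∧ (∀ s, |ℓ'' s| ≤ 2) ∧ ℓ 0 = 0 ∧
    ∀ s, 0 ≤ s → ℓ s = Real.log (1 + s) ∧ ℓ' s = (1 + s)⁻¹ ∧ ℓ'' s = -(ℓ' s) ^ 2 := by
  set a : ℝ → ℝ := fun t => -((1 + |t|)⁻¹) ^ 2 with ha
  have ca : Continuous a :=
    ((Continuous.inv₀ (f := fun t : ℝ => 1 + |t|) (by fun_prop) fun t => by positivity).pow 2).neg
  set b : ℝ → ℝ := fun s => 1 + ∫ t in (0 : ℝ)..s, a t with hb
  have db : ∀ s, HasDerivAt b (a s) s := fun s => (ca.integral_hasStrictDerivAt 0 s).hasDerivAt.const_add 1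
  have cb : Continuous b := continuous_iff_continuousAt.2 fun s => (db s).continuousAt
  have p1 : ∀ s, 0 ≤ s → b s = (1 + s)⁻¹ := fun s hs => by
    simp only [hb]
    rw [intervalIntegral.integral_eq_sub_of_hasDerivAt (f := fun t => (1 + t)⁻¹) (fun t ht => ?_)
      (ca.intervalIntegrable _ _)]
    · simp
    · rw [uIcc_of_le hs] at ht
      have h1 : 1 + t ≠ 0 := by linarith [ht.1]
      refine (((hasDerivAt_id t).const_add 1).inv h1).congr_deriv ?_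
      simp [ha, abs_of_nonneg ht.1, neg_div]
  have p2 : ∀ s, s ≤ 0 → b s = 2 - (1 - s)⁻¹ := fun s hs => by
    simp only [hb]
    rw [intervalIntegral.integral_eq_sub_of_hasDerivAt (f := fun t => -(1 - t)⁻¹) (fun t ht => ?_)
      (ca.intervalIntegrable _ _)]
    · simp only [sub_zero, inv_one]
      ring
    · rw [uIcc_of_ge hs] at ht
      have h1 : 1 - t ≠ 0 := by linarith [ht.2]
      refine (((hasDerivAt_id t).const_sub 1).inv h1).neg.congr_deriv ?_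
      simp [ha, abs_of_nonpos ht.2, sub_eq_add_neg]
  refine ⟨fun s => ∫ t in (0 : ℝ)..s, b t, b, a, fun s => (cb.integral_hasStrictDerivAt 0 s).hasDerivAt, db, ca,
    fun s => ?_, fun s => ?_, by simp, fun s hs => ⟨?_, p1 s hs, ?_⟩⟩
  · rcases le_total 0 s with hs | hs
    · have h1 : 0 < (1 + s)⁻¹ := by positivity
      have h2 : (1 + s)⁻¹ ≤ 1 := inv_le_one_of_one_le₀ (by linarith)
      rw [p1 s hs, abs_le]
      constructor <;> linarith
    · have h1 : 0 < (1 - s)⁻¹ := inv_pos.2 (by linarith)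
      have h2 : (1 - s)⁻¹ ≤ 1 := inv_le_one_of_one_le₀ (by linarith)
      rw [p2 s hs, abs_le]
      constructor <;> linarith
  · have h1 : 0 < (1 + |s|)⁻¹ := by positivity
    have h2 : (1 + |s|)⁻¹ ≤ 1 := inv_le_one_of_one_le₀ (by linarith [abs_nonneg s])
    simp only [ha]
    rw [abs_le]
    constructor <;> nlinarith
  · beta_reduce
    rw [intervalIntegral.integral_eq_sub_of_hasDerivAt (f := fun t => Real.log (1 + t)) (fun t ht => ?_)
      (cb.intervalIntegrable _ _)]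
    · simp
    · rw [uIcc_of_le hs] at ht
      have h1 : 1 + t ≠ 0 := by linarith [ht.1]
      refine (((hasDerivAt_id t).const_add 1).log h1).congr_deriv ?_
      simp [p1 t ht.1]
  · rw [p1 s hs]
    simp only [ha, abs_of_nonneg hs]

end Crest.Agent.R242.II
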