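import Crest.Agent.R242.IIB1

/-! Row 242, part II (helper16), TASK IIC: the semigroup preserves bounded gradients.
Keep the statements; auxiliary names `iic_*`.  Definitions: `R242/IIDefs.lean`; paper proof: `R242/IIRead.lean`. -/

set_option autoImplicit false
set_option linter.unusedSectionVars false
set_option linter.unusedVariables false

open MeasureTheory Filter Set
open scoped ENNReal NNReal Topology

noncomputable section

namespace Crest.Agent.R242.II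

variable {X : Type*} [MetricSpace X] [MeasurableSpace X] [BorelSpace X] [ProperSpace X]
  {μ : Measure X} [IsFiniteMeasureOnCompacts μ] [μ.IsOpenPosMeasure] {D : Cal μ}
  {T R : ℝ → (X → ℝ) → X → ℝ} {u v w f g η ψ L : X → ℝ} {κ : X → ℝ} {κ₁ : ℝ}

theorem WB.κ₁_nonneg [Nonempty X] (h : WB D T R κ κ₁) : 0 ≤ κ₁ :=
  (abs_nonneg _).trans (h.κ_le (Classical.arbitrary X))

theorem iic_theta {c : ℝ} (hc : 0 ≤ c) : ∃ Θ Θ' : ℝ → ℝ, (∀ s, HasDerivAt Θ (Θ' s) s) ∧ Continuous Θ' ∧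
    (∀ s, 0 ≤ Θ' s) ∧ (∀ s, |Θ' s| ≤ 1) ∧ (∀ s, s ≤ c → Θ s = 0) ∧ (∀ s, c < s → 0 < Θ s) ∧
    ∀ s, Θ s ≤ |s - c| := by
  set b : ℝ → ℝ := fun s => min 1 (max (s - c) 0) with hb
  have cb : Continuous b := by fun_prop
  have b0 : ∀ s, 0 ≤ b s := fun s => le_min zero_le_one (le_max_right _ _)
  have b1 : ∀ s, |b s| ≤ 1 := fun s => by
    rw [abs_of_nonneg (b0 s)]
    exact min_le_left _ _
  refine ⟨fun s => ∫ t in c..s, b t, b, fun s => (cb.integral_hasStrictDerivAt c s).hasDerivAt, cb, b0, b1,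
    fun s hs => ?_, fun s hs => ?_, fun s => ?_⟩
  · beta_reduce
    rw [intervalIntegral.integral_congr (g := fun _ => 0) fun t ht => ?_]
    · simp
    · rw [uIcc_of_ge hs] at ht
      simp only [hb]
      rw [max_eq_right (sub_nonpos.2 ht.2), min_eq_right zero_le_one]
  · exact intervalIntegral.intervalIntegral_pos_of_pos_on (cb.intervalIntegrable _ _)
      (fun t ht => lt_min one_pos (lt_max_of_lt_left (sub_pos.2 ht.1))) hs
  · have := intervalIntegral.norm_integral_le_of_norm_le_const (a := c) (b := s) (f := b) (C := 1) fun t _ => b1 t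
    rw [one_mul] at this
    exact (le_abs_self _).trans this

/-- `u = R t f`, `L = (u - f)/t ∈ W`, `w = Γ u u ∈ W` bounded (`reg`, `boch`).  For bounded `η ≥ 0` in `W`:
`boch` + `Gen.ibp` (with `v = L`) + `Γ f f = Γ (u - t L) ≥ w - 2 t Γ u L` give
`∫ η w + t E η w ≤ ∫ η Γ f f + 2 t κ₁ ∫ η w`.  Take `η = Θ ∘ w` with `Θ` of class `C¹`, bounded, `0 ≤ Θ' ≤ K`,
`Θ = 0` on `(-∞, c]`, `Θ > 0` on `(c, ∞)`, `c = M / (1 - 2 t κ₁) ≥ 0`
(e.g. `Θ s = arctan ((max (s - c) 0)^2)`, or `Real.smoothTransition (s - c)` with `monotone`): `E η w = ∫ Θ'(w) Γ w w ≥ 0`,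
so `∫ η ((1 - 2 t κ₁) w - M) ≤ 0` with a non-negative integrand. -/
theorem WB.res_step (h : WB D T R κ κ₁) : ∃ h₀ : ℝ, 0 < h₀ ∧ ∀ (t A M : ℝ) (f : X → ℝ), 0 < t → t ≤ h₀ →
    2 * t * κ₁ < 1 → D.W f → 0 ≤ A → (∀ᵐ x ∂μ, |f x| ≤ A) → 0 ≤ M → (∀ᵐ x ∂μ, D.Γ f f x ≤ M) →
    ∀ᵐ x ∂μ, D.Γ (R t f) (R t f) x ≤ M / (1 - 2 * t * κ₁) := by
  obtain ⟨h₀, hp, hreg⟩ := h.reg
  refine ⟨h₀, hp, fun t A M f ht ht0 hκ hf hA0 hA hM0 hM => ?_⟩
  obtain ⟨M₀, hM₀⟩ := hreg t A f ht ht0 hf.2.1 hA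
  have hg := h.flow.R_gen t ht f hf.2.1
  have hb := h.flow.R_bound ht hf.2.1 hA0 hA
  set u := R t f with hu
  set L : X → ℝ := fun x => (u x - f x) / t with hL
  have wL : D.W L := (hg.1.sub hf).div t
  obtain ⟨ww, hbo⟩ := h.boch u L (max A M₀) hg (hb.mono fun x hx => hx.trans (le_max_left _ _))
    (hM₀.mono fun x hx => hx.trans (le_max_right _ _))
  have hq : 0 < 1 - 2 * t * κ₁ := sub_pos.2 hκ
  set c := M / (1 - 2 * t * κ₁) with hc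
  have hc0 : 0 ≤ c := div_nonneg hM0 hq.le
  have hcM : (1 - 2 * t * κ₁) * c = M := by rw [hc]; field_simp
  obtain ⟨Θ, Θ', d1, d2, d3, d4, d5, d6, d7⟩ := iic_theta hc0
  have d8 : ∀ s, 0 ≤ Θ s := fun s => (le_or_gt s c).elim (fun hs => (d5 s hs).ge) fun hs => (d6 s hs).le
  have w0 := D.Γ_nonneg u hg.1.1
  have wη : D.W fun x => Θ (D.Γ u u x) := ww.chain d1 d2 d4 (d5 0 hc0)
  have bη : ∀ᵐ x ∂μ, 0 ≤ Θ (D.Γ u u x) ∧ Θ (D.Γ u u x) ≤ M₀ + c := by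
    filter_upwards [w0, hM₀] with x h1 h2
    exact ⟨d8 _, (d7 _).trans (abs_le.2 ⟨by linarith, by linarith⟩)⟩
  have bη' : ∀ᵐ x ∂μ, |Θ (D.Γ u u x)| ≤ M₀ + c := bη.mono fun x hx => by rw [abs_of_nonneg hx.1]; exact hx.2
  have k1 := hbo _ _ wη bη
  rw [hg.ibp hM₀ wη bη' wL] at k1
  have k2 : 0 ≤ D.E (fun x => Θ (D.Γ u u x)) (D.Γ u u) := by
    refine integral_nonneg_of_ae ?_
    filter_upwards [(D.chain _ Θ Θ' 1 ww.1 d1 d2 d4).2 _ ww.1, D.Γ_nonneg _ ww.1] with x h1 h2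
    rw [h1]
    exact mul_nonneg (d3 _) h2
  have mη := wη.2.1.1
  have i1 := hg.1.integrable_mul_Γ hg.1 mη bη'
  have i2 := hg.1.integrable_mul_Γ wL mη bη'
  have i3 := hf.integrable_mul_Γ hf mη bη'
  have i4 : Integrable (fun x => κ x * (Θ (D.Γ u u x) * D.Γ u u x)) μ :=
    i1.bdd_mul h.κ_cont.aestronglyMeasurable (Eventually.of_forall h.κ_le)
  have e1 : ∀ᵐ x ∂μ, D.Γ u u x - 2 * t * D.Γ u L x ≤ D.Γ f f x := by
    have e : f = fun x => 1 * u x + -t * L x := funext fun x => by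
      simp only [hL]
      field_simp
      ring
    filter_upwards [Cal.Γ_expand 1 (-t) hg.1.1 wL.1, D.Γ_nonneg L wL.1] with x h1 h2
    rw [← e] at h1
    rw [h1]
    nlinarith [mul_nonneg (sq_nonneg t) h2]
  have i5 : Integrable (fun x => (1 - 2 * t * κ₁) * (Θ (D.Γ u u x) * D.Γ u u x) - Θ (D.Γ u u x) * D.Γ f f x) μ :=
    (i1.const_mul _).sub i3
  have k3 : ∫ x, ((1 - 2 * t * κ₁) * (Θ (D.Γ u u x) * D.Γ u u x) - Θ (D.Γ u u x) * D.Γ f f x) ∂μ ≤ 0 := by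
    refine (integral_mono_ae i5 ((i2.sub i4).const_mul (2 * t)) ?_).trans ?_
    · filter_upwards [e1, w0] with x h1 h2
      have a1 := mul_le_mul_of_nonneg_left h1 (d8 (D.Γ u u x))
      have a2 := mul_le_mul_of_nonneg_right ((le_abs_self _).trans (h.κ_le x)) (mul_nonneg (d8 (D.Γ u u x)) h2)
      have a3 := mul_le_mul_of_nonneg_left a2 ht.le
      simp only [Pi.sub_apply]
      nlinarith
    · simp only [Pi.sub_apply]
      rw [integral_const_mul, integral_sub i2 i4]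
      exact mul_nonpos_of_nonneg_of_nonpos (by linarith) (by linarith)
  have k4 : ∀ᵐ x ∂μ, Θ (D.Γ u u x) * ((1 - 2 * t * κ₁) * (D.Γ u u x - c)) ≤
      (1 - 2 * t * κ₁) * (Θ (D.Γ u u x) * D.Γ u u x) - Θ (D.Γ u u x) * D.Γ f f x := hM.mono fun x hx => by
    have a1 := mul_le_mul_of_nonneg_left hx (d8 (D.Γ u u x))
    rw [← hcM] at a1
    nlinarith
  have k5 : 0 ≤ᵐ[μ] fun x => (1 - 2 * t * κ₁) * (Θ (D.Γ u u x) * D.Γ u u x) - Θ (D.Γ u u x) * D.Γ f f x :=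
    k4.mono fun x hx => le_trans (by
      rcases le_or_gt (D.Γ u u x) c with hs | hs
      · simp [d5 _ hs]
      · exact mul_nonneg (d8 _) (mul_nonneg hq.le (sub_pos.2 hs).le)) hx
  have k6 := (integral_eq_zero_iff_of_nonneg_ae k5 i5).1 (le_antisymm k3 (integral_nonneg_of_ae k5))
  filter_upwards [k4, k6] with x h1 h2
  by_contra hs
  rw [not_le] at hs
  rw [h2] at h1
  exact absurd h1 (not_le.2 (mul_pos (d6 _ hs) (mul_pos hq (sub_pos.2 hs))))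

theorem iic_iter (h : Flow D T R) {t A : ℝ} (ht : 0 < t) (hv : D.W v) (h0 : 0 ≤ A) (hA : ∀ᵐ x ∂μ, |v x| ≤ A)
    (k : ℕ) : D.W ((R t)^[k] v) ∧ D.E ((R t)^[k] v) ((R t)^[k] v) ≤ D.E v v ∧ ∀ᵐ x ∂μ, |(R t)^[k] v x| ≤ A := by
  induction k with
  | zero => exact ⟨hv, le_rfl, hA⟩
  | succ k ih =>
    rw [Function.iterate_succ_apply']
    exact ⟨h.R_W ht ih.1.2.1, (h.R_energy ht ih.1).trans ih.2.1, h.R_bound ht ih.1.2.1 h0 ih.2.2⟩

/-- iterate `res_step` (`R_bound`, `R_energy`, `(1 - x)⁻¹ ≤ exp (2 x)` for `0 ≤ x ≤ 1/2`), `euler`,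
`Γ_le_of_lim` (apply it to the shifted sequence `n + 1`); `s = 0` by `T_zero`. -/
theorem WB.lipT (h : WB D T R κ κ₁) (h1 : 0 ≤ κ₁) {A M s : ℝ} (hv : D.W v) (h0 : 0 ≤ A)
    (hA : ∀ᵐ x ∂μ, |v x| ≤ A) (hM0 : 0 ≤ M) (hM : ∀ᵐ x ∂μ, D.Γ v v x ≤ M) (hs : 0 ≤ s) :
    ∀ᵐ x ∂μ, D.Γ (T s v) (T s v) x ≤ Real.exp (4 * κ₁ * s) * M := by
  rcases hs.eq_or_lt with rfl | hs
  · have e := (h.flow.T_zero v hv.2.1).symm
    filter_upwards [Cal.Γ_congr₂ hv.1 hv.1 e e, hM] with x a1 a2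
    rw [← a1]
    simpa using a2
  obtain ⟨h₀, hp, hr⟩ := h.res_step
  have key : ∀ t, 0 < t → t ≤ h₀ → 2 * t * κ₁ ≤ 1 / 2 → ∀ k : ℕ,
      ∀ᵐ x ∂μ, D.Γ ((R t)^[k] v) ((R t)^[k] v) x ≤ Real.exp (4 * κ₁ * (t * k)) * M := by
    intro t ht ht0 hκ k
    induction k with
    | zero => simpa using hM
    | succ k ih =>
      obtain ⟨a1, -, a2⟩ := iic_iter h.flow ht hv h0 hA k
      rw [Function.iterate_succ_apply']
      have hp : 0 ≤ Real.exp (4 * κ₁ * (t * k)) * M := by positivity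
      refine (hr t A _ _ ht ht0 (by linarith) a1 h0 a2 hp ih).mono fun x hx => hx.trans ?_
      rw [div_le_iff₀ (by linarith), show 4 * κ₁ * (t * (k + 1 : ℕ)) = 4 * κ₁ * (t * k) + 2 * (2 * t * κ₁) by
        push_cast; ring, Real.exp_add]
      have b0 : 0 ≤ 2 * t * κ₁ := by positivity
      have b1 := Real.add_one_le_exp (2 * (2 * t * κ₁))
      have b2 : 1 ≤ Real.exp (2 * (2 * t * κ₁)) * (1 - 2 * t * κ₁) := by nlinarith
      nlinarith [mul_le_mul_of_nonneg_left b2 hp]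
  have tp : ∀ n : ℕ, 0 < s / (n + 1 : ℕ) := fun n => by positivity
  have tl : Tendsto (fun n : ℕ => s / (n + 1 : ℕ)) atTop (𝓝 0) :=
    (tendsto_add_atTop_iff_nat (f := fun n : ℕ => s / n) 1).2 (tendsto_const_div_atTop_nhds_zero_nat s)
  have tl' : Tendsto (fun n : ℕ => 2 * (s / (n + 1 : ℕ)) * κ₁) atTop (𝓝 0) := by
    simpa only [mul_zero, zero_mul] using (tl.const_mul 2).mul_const κ₁
  refine h.flow.Γ_le_of_lim (a := fun n => (R (s / (n + 1 : ℕ)))^[n + 1] v) (C₀ := D.E v v)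
    (fun n => (iic_iter h.flow (tp n) hv h0 hA _).1) (fun n => (iic_iter h.flow (tp n) hv h0 hA _).2.1)
    (h.flow.T_mem s hs.le v hv.2.1) ((tendsto_add_atTop_iff_nat 1).2 (h.flow.euler s hs v hv.2.1)) ?_
  filter_upwards [tl.eventually (ge_mem_nhds hp), tl'.eventually (ge_mem_nhds one_half_pos)] with n a1 a2
  have := key _ (tp n) a1 a2 (n + 1)
  rwa [div_mul_cancel₀ _ (by positivity)] at this

/-- continuous representative (`SL.glob` with `K = √(exp (4 κ₁ s) M)`) -/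
theorem WB.exists_rep (h : WB D T R κ κ₁) (h1 : 0 ≤ κ₁) {A M s : ℝ} (hv : D.W v) (h0 : 0 ≤ A)
    (hA : ∀ᵐ x ∂μ, |v x| ≤ A) (hM0 : 0 ≤ M) (hM : ∀ᵐ x ∂μ, D.Γ v v x ≤ M) (hs : 0 ≤ s) :
    ∃ U : X → ℝ, LipschitzWith (Real.sqrt (Real.exp (4 * κ₁ * s) * M)).toNNReal U ∧ T s v =ᵐ[μ] U := by
  refine h.sl.glob _ _ (h.flow.T_W s hs v hv).1.1 ((h.lipT h1 hv h0 hA hM0 hM hs).mono fun x hx => ?_)
  rwa [Real.coe_toNNReal _ (Real.sqrt_nonneg _), Real.sq_sqrt (by positivity)]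

end Crest.Agent.R242.II
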