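import Crest.Agent.R242.IIB2
import Crest.Agent.R242.IIC

/-! Row 242, part II (helper16), TASK IID: localised gradient estimate.
Keep the statements; auxiliary names `iid_*`.  Definitions: `R242/IIDefs.lean`; paper proof: `R242/IIRead.lean`. -/

set_option autoImplicit false
set_option linter.unusedSectionVars false
set_option linter.unusedVariables false

open MeasureTheory Filter Set
open scoped ENNReal NNReal Topology

noncomputable section

namespace Crest.Agent.R242.II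

variable {X : Type*} [MetricSpace X] [MeasurableSpace X] [BorelSpace X] [ProperSpace X]
  {μ : Measure X} [IsFiniteMeasureOnCompacts μ] [μ.IsOpenPosMeasure] {D : Cal μ}
  {T R : ℝ → (X → ℝ) → X → ℝ} {u v w f g η ψ L : X → ℝ} {κ : X → ℝ} {κ₁ : ℝ}

/-- Gronwall: `a` continuous on `[0,s]`, `a' ≤ c a + b` on `(0,s)`, `b ≥ 0`
(monotonicity of `exp (-c t) a t - b t exp (|c| s)`, `antitoneOn_of_deriv_nonpos`) -/
theorem gronwall_simple {a a' : ℝ → ℝ} {s c b : ℝ} (hs : 0 ≤ s) (hb : 0 ≤ b) (h1 : ContinuousOn a (Icc 0 s))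
    (h2 : ∀ t ∈ Ioo 0 s, HasDerivAt a (a' t) t ∧ a' t ≤ c * a t + b) :
    a s ≤ Real.exp (c * s) * a 0 + b * s * Real.exp (2 * |c| * s) := by
  have hd : ∀ t ∈ Ioo 0 s, HasDerivAt (fun t => Real.exp (-c * t) * a t - b * Real.exp (|c| * s) * t)
      (Real.exp (-c * t) * (a' t - c * a t) - b * Real.exp (|c| * s)) t := fun t ht => by
    have e1 := ((((hasDerivAt_id t).const_mul (-c)).exp).mul (h2 t ht).1).sub
      ((hasDerivAt_id t).const_mul (b * Real.exp (|c| * s)))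
    refine e1.congr_deriv ?_
    simp only [id]
    ring
  have hm : AntitoneOn (fun t => Real.exp (-c * t) * a t - b * Real.exp (|c| * s) * t) (Icc 0 s) := by
    refine antitoneOn_of_deriv_nonpos (convex_Icc 0 s) ?_ ?_ ?_
    · exact ((by fun_prop : Continuous fun t => Real.exp (-c * t)).continuousOn.mul h1).sub (by fun_prop)
    · rw [interior_Icc]
      exact fun t ht => (hd t ht).differentiableAt.differentiableWithinAt
    · rw [interior_Icc]
      intro t ht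
      rw [(hd t ht).deriv]
      have e1 : Real.exp (-c * t) ≤ Real.exp (|c| * s) := by
        refine Real.exp_le_exp.2 ?_
        have := neg_le_abs c
        nlinarith [ht.1, ht.2, abs_nonneg c]
      have e2 : Real.exp (-c * t) * (a' t - c * a t) ≤ Real.exp (-c * t) * b :=
        mul_le_mul_of_nonneg_left (by linarith [(h2 t ht).2]) (Real.exp_pos _).le
      nlinarith [mul_le_mul_of_nonneg_left e1 hb]
  have e := hm (left_mem_Icc.2 hs) (right_mem_Icc.2 hs) hs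
  simp only [mul_zero, Real.exp_zero, one_mul, sub_zero] at e
  have e1 : Real.exp (c * s) * Real.exp (-c * s) = 1 := by
    rw [← Real.exp_add]
    simp
  have e2 : Real.exp (c * s) * Real.exp (|c| * s) ≤ Real.exp (2 * |c| * s) := by
    rw [← Real.exp_add]
    refine Real.exp_le_exp.2 ?_
    nlinarith [le_abs_self c]
  have e3 := mul_le_mul_of_nonneg_left e (Real.exp_pos (c * s)).le
  have e4 := mul_le_mul_of_nonneg_left e2 (mul_nonneg hb hs)
  have e5 : a s = Real.exp (c * s) * Real.exp (-c * s) * a s := by rw [e1, one_mul]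
  nlinarith

/-- the derivative of `dE_deriv` is at most `2 ∫ κ e Γ u u` : `boch` with `η := e = T (s-t) η`
(`∫ Lη Γuu = -E e (Γuu)` by `Gen`, `Gen.ibp` with `v = L`) -/
theorem WB.dE_le (h : WB D T R κ κ₁) {s t A A' M : ℝ} {Lη : X → ℝ} (hη : MemLp η 2 μ) (h0 : 0 ≤ A)
    (hA : ∀ᵐ x ∂μ, 0 ≤ η x ∧ η x ≤ A) (hv : D.W v) (h0' : 0 ≤ A') (hA' : ∀ᵐ x ∂μ, |v x| ≤ A') (ht : t ∈ Ioo 0 s)
    (hM : ∀ᵐ x ∂μ, D.Γ (T t v) (T t v) x ≤ M) (h1 : TG D T (s - t) η Lη) (h2 : TG D T t v L) :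
    -(∫ x, Lη x * D.Γ (T t v) (T t v) x ∂μ) + 2 * ∫ x, T (s - t) η x * D.Γ (T t v) L x ∂μ ≤
      2 * ∫ x, κ x * (T (s - t) η x * D.Γ (T t v) (T t v) x) ∂μ := by
  have hst : 0 ≤ s - t := (sub_pos.2 ht.2).le
  have hb := h.flow.T_bound ht.1.le hv.2.1 h0' hA'
  have e0 : ∀ᵐ x ∂μ, 0 ≤ T (s - t) η x ∧ T (s - t) η x ≤ A :=
    (h.flow.T_nonneg hst hη (hA.mono fun x hx => hx.1)).and (h.flow.T_le hst hη h0 (hA.mono fun x hx => hx.2))
  obtain ⟨w1, w2⟩ := h.boch (T t v) L (max A' M) h2.gen (hb.mono fun x hx => hx.trans (le_max_left _ _))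
    (hM.mono fun x hx => hx.trans (le_max_right _ _))
  have e1 := w2 _ A h1.gen.1 e0
  rw [h1.gen.2.2 _ w1, h2.gen.ibp (A' := A) hM h1.gen.1
    (e0.mono fun x hx => by rw [abs_of_nonneg hx.1]; exact hx.2) h2.W] at e1
  linarith

/-- `a t = ∫ T (s-t) η Γ (T t v)`, `a' ≤ 2 κ₀ a + 2 (κ₁ - κ₀) M' ∫_{B₂ᶜ} T (s-t) η`, `M' = exp (4 κ₁ r) M`
(`lipT`, `T_submass` for integrability), `gronwall_simple`; `a s`, `a 0` by `T_zero`. -/
theorem WB.grad_loc (h : WB D T R κ κ₁) (h1 : 0 ≤ κ₁) {z : X} {ρ r e κ₀ A M s : ℝ} {B₂ : Set X}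
    (hB : MeasurableSet B₂) (hκ : ∀ x ∈ B₂, κ x ≤ κ₀) (h01 : κ₀ ≤ κ₁) (he : 0 ≤ e)
    (hesc : Esc μ T (Metric.ball z ρ) B₂ r e) (hη : Wt (Metric.ball z ρ) η)
    (hv : D.W v) (h0 : 0 ≤ A) (hA : ∀ᵐ x ∂μ, |v x| ≤ A) (hM0 : 0 ≤ M) (hM : ∀ᵐ x ∂μ, D.Γ v v x ≤ M)
    (hs : s ∈ Icc 0 r) :
    ∫ x, η x * D.Γ (T s v) (T s v) x ∂μ ≤
      Real.exp (2 * κ₀ * s) * ∫ x, T s η x * D.Γ v v x ∂μ +
        2 * (κ₁ - κ₀) * (Real.exp (4 * κ₁ * r) * M) * e * r * Real.exp (4 * |κ₀| * r) * ∫ x, η x ∂μ := by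
  have m2 : MemLp η 2 μ := hη.memLp
  have mi : Integrable η μ := hη.integrable
  have η0 : ∀ᵐ x ∂μ, 0 ≤ η x ∧ η x ≤ 1 := Eventually.of_forall hη.mem
  have η1 : ∀ᵐ x ∂μ, |η x| ≤ 1 := Eventually.of_forall hη.abs_le
  have I0 : 0 ≤ ∫ x, η x ∂μ := integral_nonneg fun x => (hη.mem x).1
  set M' : ℝ := Real.exp (4 * κ₁ * r) * M with hM'
  have M'0 : 0 ≤ M' := mul_nonneg (Real.exp_pos _).le hM0
  have k0 : 0 ≤ κ₁ - κ₀ := sub_nonneg.2 h01
  have b0 : 0 ≤ 2 * (κ₁ - κ₀) * M' * e * ∫ x, η x ∂μ := by positivity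
  have key : ∀ t ∈ Ioo 0 s, ∃ d : ℝ,
      HasDerivAt (fun t => ∫ x, T (s - t) η x * D.Γ (T t v) (T t v) x ∂μ) d t ∧
      d ≤ 2 * κ₀ * (∫ x, T (s - t) η x * D.Γ (T t v) (T t v) x ∂μ) + 2 * (κ₁ - κ₀) * M' * e * ∫ x, η x ∂μ := by
    intro t ht
    have hst : 0 < s - t := sub_pos.2 ht.2
    obtain ⟨Lη, g1⟩ := h.flow.tg hst m2
    obtain ⟨L, g2⟩ := h.flow.tg ht.1 hv.2.1
    have hΓ : ∀ᵐ x ∂μ, D.Γ (T t v) (T t v) x ≤ M' := by
      filter_upwards [h.lipT h1 hv h0 hA hM0 hM ht.1.le] with x hx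
      refine hx.trans (mul_le_mul_of_nonneg_right (Real.exp_le_exp.2 ?_) hM0)
      exact mul_le_mul_of_nonneg_left (ht.2.le.trans hs.2) (by positivity)
    refine ⟨_, h.flow.dE_deriv m2 zero_le_one η1 hv ht hΓ g1 g2,
      (h.dE_le m2 zero_le_one η0 hv h0 hA ht hΓ g1 g2).trans ?_⟩
    have wu : D.W (T t v) := g2.gen.1
    have me : MemLp (T (s - t) η) 2 μ := g1.gen.1.2.1
    have e1 := h.flow.T_bound hst.le m2 zero_le_one η1
    have e0 := h.flow.T_nonneg hst.le m2 (η0.mono fun x hx => hx.1)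
    have ie := (h.flow.T_submass hst.le m2 mi (η0.mono fun x hx => hx.1)).1
    have i1 : Integrable (fun x => T (s - t) η x * D.Γ (T t v) (T t v) x) μ := wu.integrable_mul_Γ wu me.1 e1
    have i2 : Integrable (fun x => κ x * (T (s - t) η x * D.Γ (T t v) (T t v) x)) μ :=
      i1.bdd_mul (c := κ₁) h.κ_cont.aestronglyMeasurable (Eventually.of_forall h.κ_le)
    have i3 : Integrable (fun x => B₂ᶜ.indicator (T (s - t) η) x) μ := ie.indicator hB.compl
    have e2 : ∫ x, κ x * (T (s - t) η x * D.Γ (T t v) (T t v) x) ∂μ ≤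
        ∫ x, (κ₀ * (T (s - t) η x * D.Γ (T t v) (T t v) x) +
          (κ₁ - κ₀) * M' * B₂ᶜ.indicator (T (s - t) η) x) ∂μ := by
      refine integral_mono_ae i2 ((i1.const_mul _).add (i3.const_mul _)) ?_
      filter_upwards [e0, hΓ, D.Γ_nonneg _ wu.1] with x a1 a2 a3
      have a4 : 0 ≤ T (s - t) η x * D.Γ (T t v) (T t v) x := mul_nonneg a1 a3
      by_cases hx : x ∈ B₂
      · rw [indicator_of_notMem (by simpa using hx), mul_zero, add_zero]
        exact mul_le_mul_of_nonneg_right (hκ x hx) a4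
      · rw [indicator_of_mem (by simpa using hx)]
        have a5 : κ x ≤ κ₁ := (le_abs_self _).trans (h.κ_le x)
        have a6 := mul_le_mul_of_nonneg_right a5 a4
        have a7 := mul_le_mul_of_nonneg_left (mul_le_mul_of_nonneg_left a2 a1) k0
        nlinarith
    rw [integral_add (i1.const_mul _) (i3.const_mul _), integral_const_mul, integral_const_mul,
      integral_indicator hB.compl] at e2
    have e3 := (hesc η hη (s - t) ⟨hst.le, by linarith [ht.1, hs.2]⟩).2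
    have e4 := mul_le_mul_of_nonneg_left e3 (mul_nonneg k0 M'0)
    nlinarith
  choose! a' ha' using key
  have g := gronwall_simple (c := 2 * κ₀) hs.1 b0 (h.flow.dE_cont m2 zero_le_one η1 hv) ha'
  simp only [sub_self, sub_zero] at g
  have e1 : ∫ x, T 0 η x * D.Γ (T s v) (T s v) x ∂μ = ∫ x, η x * D.Γ (T s v) (T s v) x ∂μ := by
    refine integral_congr_ae ?_
    filter_upwards [h.flow.T_zero η m2] with x hx
    rw [hx]
  have e2 : ∫ x, T s η x * D.Γ (T 0 v) (T 0 v) x ∂μ = ∫ x, T s η x * D.Γ v v x ∂μ := by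
    refine integral_congr_ae ?_
    have z0 := (h.flow.T_zero v hv.2.1).symm
    filter_upwards [Cal.Γ_congr₂ hv.1 hv.1 z0 z0] with x hx
    rw [hx]
  rw [e1, e2] at g
  refine g.trans (add_le_add le_rfl ?_)
  have e3 : s * Real.exp (2 * |2 * κ₀| * s) ≤ r * Real.exp (4 * |κ₀| * r) := by
    refine mul_le_mul hs.2 (Real.exp_le_exp.2 ?_) (Real.exp_pos _).le (hs.1.trans hs.2)
    rw [abs_mul, abs_two]
    nlinarith [abs_nonneg κ₀, hs.2]
  have e4 := mul_le_mul_of_nonneg_left e3 b0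
  nlinarith

end Crest.Agent.R242.II
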