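import Crest.Agent.R242.IIB1
import Crest.Agent.R242.IID

/-! Row 242, part II (helper16), TASK IIE: escape estimate.
Keep the statements; auxiliary names `iie_*`.  Definitions: `R242/IIDefs.lean`; paper proof: `R242/IIRead.lean`. -/

set_option autoImplicit false
set_option linter.unusedSectionVars false
set_option linter.unusedVariables false

open MeasureTheory Filter Set
open scoped ENNReal NNReal Topology

noncomputable section

namespace Crest.Agent.R242.II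

variable {X : Type*} [MetricSpace X] [MeasurableSpace X] [BorelSpace X] [ProperSpace X]
  {μ : Measure X} [IsFiniteMeasureOnCompacts μ] [μ.IsOpenPosMeasure] {D : Cal μ}
  {T R : ℝ → (X → ℝ) → X → ℝ} {u v w f g η ψ L : X → ℝ}

/-- a `C²` function with bounded derivatives that equals `1 - exp (-β s)` near `[0,1]` -/
theorem iie_phi (β : ℝ) : ∃ (φ φ' φ'' : ℝ → ℝ) (K : ℝ), (∀ s, HasDerivAt φ (φ' s) s) ∧
    (∀ s, HasDerivAt φ' (φ'' s) s) ∧ Continuous φ'' ∧ (∀ s, |φ' s| ≤ K) ∧ (∀ s, |φ'' s| ≤ K) ∧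
    ∀ s, 0 ≤ s → s ≤ 1 → φ s = 1 - Real.exp (-β * s) ∧ φ' s = β * Real.exp (-β * s) ∧
      φ'' s = -(β ^ 2 * Real.exp (-β * s)) := by
  let χ : ContDiffBump (0 : ℝ) := ⟨2, 3, by norm_num, by norm_num⟩
  let φ : ℝ → ℝ := fun s => χ s * (1 - Real.exp (-β * s))
  have hφ : ContDiff ℝ 2 φ := χ.contDiff.mul (by fun_prop)
  have hc : HasCompactSupport φ := χ.hasCompactSupport.mul_right
  have hφ1 : ContDiff ℝ 1 (deriv φ) := hφ.deriv'
  have hφ2 : Continuous (deriv (deriv φ)) := hφ1.continuous_deriv le_rfl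
  obtain ⟨K1, hK1⟩ := hφ1.continuous.bounded_above_of_compact_support hc.deriv
  obtain ⟨K2, hK2⟩ := hφ2.bounded_above_of_compact_support hc.deriv.deriv
  refine ⟨φ, deriv φ, deriv (deriv φ), max K1 K2, fun s => (hφ.differentiable (by norm_num) s).hasDerivAt,
    fun s => (hφ1.differentiable (by norm_num) s).hasDerivAt, hφ2, fun s => (hK1 s).trans (le_max_left _ _),
    fun s => (hK2 s).trans (le_max_right _ _), fun s h0 h1 => ?_⟩
  have e0 : φ =ᶠ[𝓝 s] fun s => 1 - Real.exp (-β * s) := by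
    filter_upwards [Ioo_mem_nhds (show (-2 : ℝ) < s by linarith) (show s < 2 by linarith)] with t ht
    have : χ t = 1 := χ.one_of_mem_closedBall (by
      rw [Metric.mem_closedBall, Real.dist_eq, sub_zero]
      exact abs_le.2 ⟨ht.1.le, ht.2.le⟩)
    simp only [φ, this, one_mul]
  have hd : ∀ t, HasDerivAt (fun s => Real.exp (-β * s)) (-β * Real.exp (-β * t)) t := fun t => by
    simpa [mul_comm] using ((hasDerivAt_id t).const_mul (-β)).exp
  have d1 : deriv (fun s => 1 - Real.exp (-β * s)) = fun s => β * Real.exp (-β * s) := funext fun t => by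
    rw [((hd t).const_sub 1).deriv]
    ring
  have d2 : deriv (fun s => β * Real.exp (-β * s)) s = -(β ^ 2 * Real.exp (-β * s)) := by
    rw [((hd s).const_mul β).deriv]
    ring
  have e1 := e0.deriv
  rw [d1] at e1
  exact ⟨e0.eq_of_nhds, e1.eq_of_nhds, by rw [e1.deriv_eq, d2]⟩

/-- `g = 1 - exp (-β ζ)` (use `Gen.chain_lip` with a function `φ` that equals `1 - exp (-β s)` on `[0,1]` and has
bounded derivatives, e.g. `φ s = 1 - exp (-β * χ s)` is not needed: take `φ s = 1 - exp (-β * ψ s)` with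
`ψ` smooth, `ψ s = s` near `[0,1]`, constant outside `[-2,3]` (`ContDiffBump`/`exists_contDiff...`), or any other
`C²` extension).  `L g = β e^{-βζ} Lζ - β² e^{-βζ} Γ ζ ζ ≥ -c e^{-βζ}`, `c = β C₁ + β² K²`.
`y s = ∫ η - ∫ g T s η ≥ ∫ (1 - g) T s η` (`T_submass`), `y' = -∫ (L g) T s η ≤ c y` (`hasDerivAt_gen`),
`y 0 = exp (-β) ∫ η`, `gronwall_simple` with `b = 0`.  Finally `∫_{B₂} T η ≥ ∫ g T η` (`0 ≤ g ≤ 1`, `g = 0` off `B₂`)
and `∫_{B₂ᶜ} T η = ∫ T η - ∫_{B₂} T η`. -/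
theorem Flow.esc (h : Flow D T R) {ζ Lζ : X → ℝ} {K : ℝ≥0} {C₁ β r ρ : ℝ} {z : X} {B₂ : Set X}
    (hB : MeasurableSet B₂) (hζ : LipschitzWith K ζ) (h01 : ∀ x, 0 ≤ ζ x ∧ ζ x ≤ 1)
    (h1 : ∀ x ∈ Metric.ball z ρ, ζ x = 1) (h2 : ∀ x, x ∉ B₂ → ζ x = 0) (hg : D.Gen ζ Lζ) (hC0 : 0 ≤ C₁)
    (hC : ∀ᵐ x ∂μ, |Lζ x| ≤ C₁) (hβ : 0 ≤ β) :
    Esc μ T (Metric.ball z ρ) B₂ r (Real.exp (-β + r * (β * C₁ + β ^ 2 * (K : ℝ) ^ 2))) := by
  intro η hη w hw
  obtain ⟨φ, φ', φ'', K', p1, p2, p3, p4, p5, p6⟩ := iie_phi β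
  have hG := hg.chain_lip hζ p1 p2 p3 p4 p5 (by rw [(p6 0 le_rfl zero_le_one).1]; simp)
  set c := β * C₁ + β ^ 2 * (K : ℝ) ^ 2 with hc
  have hc0 : 0 ≤ c := by positivity
  set g : X → ℝ := fun x => φ (ζ x) with hgd
  set Lg : X → ℝ := fun x => φ' (ζ x) * Lζ x + φ'' (ζ x) * D.Γ ζ ζ x with hLd
  have hgx : ∀ x, g x = 1 - Real.exp (-β * ζ x) := fun x => (p6 _ (h01 x).1 (h01 x).2).1
  have hg0 : ∀ x, 0 ≤ g x ∧ g x ≤ 1 := fun x => by
    rw [hgx]
    have h3 : Real.exp (-β * ζ x) ≤ 1 := Real.exp_le_one_iff.2 (by nlinarith [(h01 x).1])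
    exact ⟨by linarith, by linarith [Real.exp_pos (-β * ζ x)]⟩
  have hL : ∀ᵐ x ∂μ, -Lg x ≤ c * (1 - g x) := by
    filter_upwards [hC, (D.lip ζ K hζ).2] with x a1 a2
    have b := p6 _ (h01 x).1 (h01 x).2
    rw [hgx]
    simp only [hLd, b.2.1, b.2.2]
    have hE := Real.exp_pos (-β * ζ x)
    have a3 : -Lζ x ≤ C₁ := by linarith [(abs_le.1 a1).1]
    have a4 := mul_le_mul_of_nonneg_left a3 (mul_nonneg hβ hE.le)
    have a5 := mul_le_mul_of_nonneg_left a2 (mul_nonneg (sq_nonneg β) hE.le)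
    rw [hc]
    nlinarith
  have hm : MemLp η 2 μ := hη.memLp
  have hi : Integrable η μ := hη.integrable
  have hη0 : ∀ᵐ x ∂μ, 0 ≤ η x := ae_of_all _ fun x => (hη.mem x).1
  have hI0 : 0 ≤ ∫ x, η x ∂μ := integral_nonneg fun x => (hη.mem x).1
  have hgm : MemLp g 2 μ := hG.1.2.1
  have key := gronwall_simple (a := fun s => (∫ x, η x ∂μ) - ∫ x, g x * T s η x ∂μ)
    (a' := fun s => -∫ x, Lg x * T s η x ∂μ) (c := c) (b := 0) hw.1 le_rfl
    (continuousOn_const.sub ((h.continuousOn_int hm hgm).mono fun s hs => hs.1)) (fun t ht => by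
      refine ⟨(h.hasDerivAt_gen ht.1 hm hG).const_sub _, ?_⟩
      have hT := h.T_mem t ht.1.le η hm
      obtain ⟨i1, i2⟩ := h.T_submass ht.1.le hm hi hη0
      have i3 := integrable_mul2 hgm hT
      have i4 := integrable_mul2 hG.2.1 hT
      have i5 : -∫ x, Lg x * T t η x ∂μ ≤ c * ((∫ x, T t η x ∂μ) - ∫ x, g x * T t η x ∂μ) := by
        rw [← integral_neg, ← integral_sub i1 i3, ← integral_const_mul]
        refine integral_mono_ae i4.neg ((i1.sub i3).const_mul c) ?_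
        filter_upwards [hL, h.T_nonneg ht.1.le hm hη0] with x a1 a2
        have := mul_le_mul_of_nonneg_right a1 a2
        show -(Lg x * T t η x) ≤ c * (T t η x - g x * T t η x)
        linarith
      have i6 := mul_le_mul_of_nonneg_left i2 hc0
      show -∫ x, Lg x * T t η x ∂μ ≤ c * ((∫ x, η x ∂μ) - ∫ x, g x * T t η x ∂μ) + 0
      linarith)
  have e0 : (∫ x, η x ∂μ) - ∫ x, g x * T 0 η x ∂μ = Real.exp (-β) * ∫ x, η x ∂μ := by
    rw [← integral_sub hi (integrable_mul2 hgm (h.T_mem 0 le_rfl η hm)), ← integral_const_mul]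
    refine integral_congr_ae ?_
    filter_upwards [h.T_zero η hm] with x a1
    rw [a1, hgx]
    by_cases hx : x ∈ Metric.ball z ρ
    · rw [h1 x hx, mul_one]
      ring
    · rw [hη.supp x hx]
      ring
  simp only [e0, zero_mul, add_zero] at key
  have e1 : Real.exp (c * w) * (Real.exp (-β) * ∫ x, η x ∂μ) ≤ Real.exp (-β + r * c) * ∫ x, η x ∂μ := by
    rw [← mul_assoc, ← Real.exp_add]
    refine mul_le_mul_of_nonneg_right (Real.exp_le_exp.2 ?_) hI0
    nlinarith [hw.2]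
  obtain ⟨i1, i2⟩ := h.T_submass hw.1 hm hi hη0
  have e2 : ∫ x, g x * T w η x ∂μ ≤ ∫ x in B₂, T w η x ∂μ := by
    rw [← integral_indicator hB]
    refine integral_mono_ae (integrable_mul2 hgm (h.T_mem w hw.1 η hm)) (i1.indicator hB) ?_
    filter_upwards [h.T_nonneg hw.1 hm hη0] with x a1
    by_cases hx : x ∈ B₂
    · rw [indicator_of_mem hx]
      exact mul_le_of_le_one_left a1 (hg0 x).2
    · rw [indicator_of_notMem hx, hgx, h2 x hx]
      simp
  have e3 := integral_add_compl hB i1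
  constructor <;> linarith

end Crest.Agent.R242.II
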