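import Crest.Agent.R242.IIA3

/-! Row 242, part II (helper16), TASK IIF1: Hamilton-Jacobi lemma, continuity and time averages.
Keep the statements; auxiliary names `iif1_*`.  Definitions: `R242/IIDefs.lean`; paper proof: `R242/IIRead.lean`. -/

set_option autoImplicit false
set_option linter.unusedSectionVars false
set_option linter.unusedVariables false

open MeasureTheory Filter Set
open scoped ENNReal NNReal Topology

noncomputable section

namespace Crest.Agent.R242.II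

variable {X : Type*} [MetricSpace X] [MeasurableSpace X] [BorelSpace X] [ProperSpace X]
  {μ : Measure X} [IsFiniteMeasureOnCompacts μ] [μ.IsOpenPosMeasure] {D : Cal μ}
  {T R : ℝ → (X → ℝ) → X → ℝ} {u v w f g η ψ L : X → ℝ} {Φ : ℝ → X → ℝ} {r C₀ : ℝ} {L₀ : ℝ≥0}

/-- `abs_le_of_n2` for `Φ s' - Φ s` (Lipschitz with `2 L₀`) -/
theorem HJ.cont_t (h : HJ D Φ r L₀ C₀) (x : X) : ContinuousOn (fun s => Φ s x) (Icc 0 r) := by
  intro s hs
  refine Metric.tendsto_nhds.2 fun δ hδ => ?_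
  have hL : (0 : ℝ) ≤ L₀ := L₀.coe_nonneg
  obtain ⟨ε, hε⟩ : ∃ ε : ℝ, ε = δ / (2 * (2 * L₀ + 1)) := ⟨_, rfl⟩
  have hε0 : 0 < ε := by rw [hε]; positivity
  have h1 : ((L₀ + L₀ : ℝ≥0) : ℝ) * ε ≤ δ / 2 := by
    have : δ / 2 = (2 * L₀ + 1) * ε := by rw [hε]; field_simp
    rw [this]
    push_cast
    nlinarith
  have h2 := ((h.cont s hs).div_const (μ (Metric.ball x ε)).toReal).sqrt
  rw [zero_div, Real.sqrt_zero] at h2
  filter_upwards [h2.eventually (gt_mem_nhds (half_pos hδ)), self_mem_nhdsWithin] with s' h3 hs'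
  have h4 := abs_le_of_n2 (μ := μ) (f := fun y => Φ s' y - Φ s y) ((h.lip s').sub (h.lip s))
    ((h.W s' hs').2.1.sub (h.W s hs).2.1) x hε0
  rw [Real.dist_eq]
  linarith
theorem HJ.cont₂ (h : HJ D Φ r L₀ C₀) : ContinuousOn (fun p : ℝ × X => Φ p.1 p.2) (Icc 0 r ×ˢ univ) := by
  exact continuousOn_prod_of_continuousOn_lipschitzOnWith' _ L₀ (fun s _ => (h.lip s).lipschitzOnWith)
    fun x _ => h.cont_t x
theorem HJ.iif1_int (h : HJ D Φ r L₀ C₀) (x : X) {a b : ℝ} (ha : a ∈ Icc (0 : ℝ) r) (hb : b ∈ Icc (0 : ℝ) r) :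
    IntervalIntegrable (fun s => Φ s x) volume a b :=
  ((h.cont_t x).mono (uIcc_subset_Icc ha hb)).intervalIntegrable
theorem HJ.avg_lip (h : HJ D Φ r L₀ C₀) {s δ : ℝ} (hs : 0 ≤ s) (hδ : 0 < δ) (hr : s + δ ≤ r) :
    LipschitzWith L₀ (avg Φ s δ) := by
  refine LipschitzWith.of_dist_le_mul fun x y => ?_
  have hs' : s ∈ Icc (0 : ℝ) r := ⟨hs, by linarith⟩
  have hs'' : s + δ ∈ Icc (0 : ℝ) r := ⟨by linarith, hr⟩
  rw [Real.dist_eq, avg, avg, ← mul_sub,
    ← intervalIntegral.integral_sub (h.iif1_int x hs' hs'') (h.iif1_int y hs' hs''), abs_mul,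
    abs_of_pos (inv_pos.2 hδ)]
  have h1 := intervalIntegral.norm_integral_le_of_norm_le_const (a := s) (b := s + δ)
    (C := L₀ * dist x y) (f := fun w => Φ w x - Φ w y) fun w _ => (h.lip w).dist_le_mul x y
  rw [add_sub_cancel_left, abs_of_pos hδ, Real.norm_eq_abs] at h1
  rw [inv_mul_le_iff₀ hδ, mul_comm δ]
  exact h1
/-- `avg Φ s' δ x - avg Φ s δ x = δ⁻¹ ∫ w in s..s', (Φ (w + δ) x - Φ w x)` -/
theorem HJ.avg_sub (h : HJ D Φ r L₀ C₀) {s s' δ : ℝ} (hs : 0 ≤ s) (hss : s ≤ s') (hδ : 0 < δ) (hr : s' + δ ≤ r)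
    (x : X) : avg Φ s' δ x - avg Φ s δ x = δ⁻¹ * ∫ w in s..s', (Φ (w + δ) x - Φ w x) := by
  have h1 : s ∈ Icc (0 : ℝ) r := ⟨hs, by linarith⟩
  have h2 : s + δ ∈ Icc (0 : ℝ) r := ⟨by linarith, by linarith⟩
  have h3 : s' ∈ Icc (0 : ℝ) r := ⟨by linarith, by linarith⟩
  have h4 : s' + δ ∈ Icc (0 : ℝ) r := ⟨by linarith, hr⟩
  have h5 : IntervalIntegrable (fun w => Φ (w + δ) x) volume s s' := by
    have := (h.iif1_int x h2 h4).comp_add_right δ
    simpa using this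
  rw [avg, avg, ← mul_sub, intervalIntegral.integral_interval_sub_interval_comm' (h.iif1_int x h3 h4)
    (h.iif1_int x h1 h2) (h.iif1_int x h3 h1), intervalIntegral.integral_sub h5 (h.iif1_int x h1 h3),
    intervalIntegral.integral_comp_add_right (fun w => Φ w x)]
/-- uniform continuity in `L²` on the compact interval (`t ↦ toLp (Φ t)` or a Lebesgue number argument with
`sqrt_n2_add_le`) -/
theorem HJ.unif (h : HJ D Φ r L₀ C₀) {ε : ℝ} (hε : 0 < ε) : ∃ τ : ℝ, 0 < τ ∧ ∀ s ∈ Icc (0 : ℝ) r,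
    ∀ s' ∈ Icc (0 : ℝ) r, |s - s'| ≤ τ → n2 μ (fun x => Φ s x - Φ s' x) ≤ ε := by
  classical
  obtain ⟨G, hG⟩ : ∃ G : ℝ → Lp ℝ 2 μ, ∀ s (hs : s ∈ Icc (0 : ℝ) r), G s = (h.W s hs).2.1.toLp (Φ s) :=
    ⟨fun s => if hs : s ∈ Icc (0 : ℝ) r then (h.W s hs).2.1.toLp (Φ s) else 0, fun s hs => dif_pos hs⟩
  have hd : ∀ s ∈ Icc (0 : ℝ) r, ∀ s' ∈ Icc (0 : ℝ) r,
      dist (G s) (G s') = Real.sqrt (n2 μ fun x => Φ s x - Φ s' x) := by
    intro s hs s' hs'
    have h1 : MemLp (fun x => Φ s x - Φ s' x) 2 μ := (h.W s hs).2.1.sub (h.W s' hs').2.1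
    rw [n2_eq_eLpNorm h1, Real.sqrt_sq ENNReal.toReal_nonneg, hG s hs, hG s' hs', dist_eq_norm,
      ← MemLp.toLp_sub, Lp.norm_toLp]
    rfl
  have hc : ContinuousOn G (Icc 0 r) := by
    intro s hs
    refine tendsto_iff_dist_tendsto_zero.2 ?_
    have h2 := (h.cont s hs).sqrt
    rw [Real.sqrt_zero] at h2
    refine h2.congr' ?_
    filter_upwards [self_mem_nhdsWithin] with s' hs'
    exact (hd s' hs' s hs).symm
  obtain ⟨τ, hτ, H⟩ := Metric.uniformContinuousOn_iff_le.1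
    (isCompact_Icc.uniformContinuousOn_of_continuous hc) _ (Real.sqrt_pos.2 hε)
  refine ⟨τ, hτ, fun s hs s' hs' hss => ?_⟩
  have h3 := H s hs s' hs' hss
  rw [hd s hs s' hs'] at h3
  exact (Real.sqrt_le_sqrt_iff hε.le).1 h3
/-- Riemann sums converge pointwise for a continuous function -/
theorem riemann_tendsto {a : ℝ → ℝ} {s δ : ℝ} (hδ : 0 < δ) (ha : ContinuousOn a (Icc s (s + δ))) :
    Tendsto (fun n : ℕ => ((n + 1 : ℕ) : ℝ)⁻¹ * ∑ i ∈ Finset.range (n + 1), a (s + i * (δ / (n + 1 : ℕ)))) atTop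
      (𝓝 (δ⁻¹ * ∫ w in s..(s + δ), a w)) := by
  refine Metric.tendsto_atTop.2 fun ε hε => ?_
  obtain ⟨τ, hτ, H⟩ := Metric.uniformContinuousOn_iff_le.1
    (isCompact_Icc.uniformContinuousOn_of_continuous ha) _ (half_pos hε)
  obtain ⟨N, hN⟩ := exists_nat_ge (δ / τ)
  refine ⟨N, fun n hn => ?_⟩
  obtain ⟨m, hm⟩ : ∃ m : ℕ, m = n + 1 := ⟨_, rfl⟩
  rw [← hm]
  have hm0 : (0 : ℝ) < m := by rw [hm]; positivity
  obtain ⟨k, hk⟩ : ∃ k : ℝ, k = δ / m := ⟨_, rfl⟩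
  rw [← hk]
  have hk0 : 0 < k := by rw [hk]; positivity
  have hmk : m * k = δ := by rw [hk]; field_simp
  have hkτ : k ≤ τ := by
    have h1 : (N : ℝ) ≤ m := by exact_mod_cast (by omega : N ≤ m)
    rw [hk, div_le_iff₀ hm0]
    have h2 := (div_le_iff₀ hτ).1 (hN.trans h1)
    linarith
  have hmem : ∀ i : ℕ, i ≤ m → s + i * k ∈ Icc s (s + δ) := fun i hi => by
    have h1 : (i : ℝ) ≤ m := by exact_mod_cast hi
    have h2 : (0 : ℝ) ≤ i * k := by positivity
    have h3 : i * k ≤ m * k := mul_le_mul_of_nonneg_right h1 hk0.le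
    exact ⟨by linarith, by linarith⟩
  have hint : ∀ i < m, IntervalIntegrable a volume (s + i * k) (s + (i + 1 : ℕ) * k) := fun i hi =>
    (ha.mono (uIcc_subset_Icc (hmem i hi.le) (hmem (i + 1) hi))).intervalIntegrable
  have hsum := intervalIntegral.sum_integral_adjacent_intervals (f := a) (μ := volume)
    (a := fun i : ℕ => s + i * k) hint
  simp only [Nat.cast_zero, zero_mul, add_zero, hmk] at hsum
  have hone : ∀ i ∈ Finset.range m,
      |k * a (s + i * k) - ∫ w in (s + i * k)..(s + (i + 1 : ℕ) * k), a w| ≤ ε / 2 * k := by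
    intro i hi
    have hi' := Finset.mem_range.1 hi
    have e1 : s + (i + 1 : ℕ) * k - (s + i * k) = k := by push_cast; ring
    have h1 := intervalIntegral.norm_integral_le_of_norm_le_const (a := s + i * k) (b := s + (i + 1 : ℕ) * k)
      (C := ε / 2) (f := fun w => a (s + i * k) - a w) fun w hw => by
        rw [uIoc_of_le (by linarith)] at hw
        have h2 := hmem i hi'.le
        have h3 := hmem (i + 1) hi'
        refine H _ h2 w ⟨h2.1.trans hw.1.le, hw.2.trans h3.2⟩ ?_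
        rw [Real.dist_eq, abs_le]
        constructor <;> linarith [hw.1, hw.2]
    rw [e1, abs_of_pos hk0, intervalIntegral.integral_sub intervalIntegrable_const (hint i hi'),
      intervalIntegral.integral_const, e1, smul_eq_mul, Real.norm_eq_abs] at h1
    exact h1
  have e2 : (m : ℝ)⁻¹ * ∑ i ∈ Finset.range m, a (s + i * k) - δ⁻¹ * ∫ w in s..(s + δ), a w =
      δ⁻¹ * ∑ i ∈ Finset.range m,
        (k * a (s + i * k) - ∫ w in (s + i * k)..(s + (i + 1 : ℕ) * k), a w) := by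
    have e0 : (m : ℝ)⁻¹ = δ⁻¹ * k := by rw [hk]; field_simp
    rw [Finset.sum_sub_distrib, hsum, ← Finset.mul_sum, e0]
    ring
  rw [Real.dist_eq, e2, abs_mul, abs_of_pos (inv_pos.2 hδ), inv_mul_lt_iff₀ hδ]
  refine ((Finset.abs_sum_le_sum_abs _ _).trans (Finset.sum_le_sum hone)).trans_lt ?_
  rw [Finset.sum_const, Finset.card_range, nsmul_eq_mul]
  have e3 : (m : ℝ) * (ε / 2 * k) = δ * (ε / 2) := by rw [← hmk]; ring
  rw [e3]
  exact mul_lt_mul_of_pos_left (half_lt_self hε) hδ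

end Crest.Agent.R242.II
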