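import Crest.Agent.R242.IIF1

/-! Row 242, part II (helper16), TASK IIF2: the time average is Sobolev and `Γ` commutes with the average.
Keep the statements; auxiliary names `iif2_*`.  Definitions: `R242/IIDefs.lean`; paper proof: `R242/IIRead.lean`. -/

set_option autoImplicit false
set_option linter.unusedSectionVars false
set_option linter.unusedVariables false

open MeasureTheory Filter Set
open scoped ENNReal NNReal Topology

noncomputable section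

namespace Crest.Agent.R242.II

variable {X : Type*} [MetricSpace X] [MeasurableSpace X] [BorelSpace X] [ProperSpace X]
  {μ : Measure X} [IsFiniteMeasureOnCompacts μ] [μ.IsOpenPosMeasure] {D : Cal μ}
  {T R : ℝ → (X → ℝ) → X → ℝ} {u v w f g η ψ L : X → ℝ} {Φ : ℝ → X → ℝ} {r C₀ : ℝ} {L₀ : ℝ≥0}

/-- Riemann average -/
def rie (Φ : ℝ → X → ℝ) (s δ : ℝ) (n : ℕ) (x : X) : ℝ :=
  ((n + 1 : ℕ) : ℝ)⁻¹ * ∑ i ∈ Finset.range (n + 1), Φ (s + i * (δ / (n + 1 : ℕ))) x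

theorem iif2_mem {s δ : ℝ} (hδ : 0 < δ) (n : ℕ) {i : ℕ} (hi : i ≤ n + 1) :
    s + i * (δ / (n + 1 : ℕ)) ∈ Icc s (s + δ) :=
  ⟨le_add_of_nonneg_right (by positivity), add_le_add_right (by
    rw [mul_div_assoc', div_le_iff₀ (by positivity), mul_comm]
    exact mul_le_mul_of_nonneg_left (Nat.cast_le.2 hi) hδ.le) _⟩

/-- Riemann sums in a Banach space -/
theorem iif2_riemann {E : Type*} [NormedAddCommGroup E] [NormedSpace ℝ E] [CompleteSpace E] {a : ℝ → E} {s δ : ℝ}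
    (hδ : 0 < δ) (ha : ContinuousOn a (Icc s (s + δ))) :
    Tendsto (fun n : ℕ => ((n + 1 : ℕ) : ℝ)⁻¹ • ∑ i ∈ Finset.range (n + 1), a (s + i * (δ / (n + 1 : ℕ)))) atTop
      (𝓝 (δ⁻¹ • ∫ w in s..(s + δ), a w)) := by
  refine Metric.nhds_basis_closedBall.tendsto_right_iff.2 fun ε hε => ?_
  obtain ⟨τ, hτ, h⟩ := Metric.uniformContinuousOn_iff_le.1 (isCompact_Icc.uniformContinuousOn_of_continuous ha) ε hε
  filter_upwards [((tendsto_const_div_atTop_nhds_zero_nat δ).comp (tendsto_add_atTop_nat 1)).eventually_le_const hτ]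
    with n (hn : δ / (n + 1 : ℕ) ≤ τ)
  obtain ⟨t, ht⟩ : ∃ t : ℕ → ℝ, ∀ i, t i = s + i * (δ / (n + 1 : ℕ)) := ⟨_, fun _ => rfl⟩
  have h0 : 0 < δ / (n + 1 : ℕ) := by positivity
  have h1 : ∀ i, t (i + 1) - t i = δ / (n + 1 : ℕ) := fun i => by rw [ht, ht, Nat.cast_succ i]; ring
  have h2 : ∀ i, t i ≤ t (i + 1) := fun i => by linarith [h1 i]
  have h3 : ∀ i < n + 1, Icc (t i) (t (i + 1)) ⊆ Icc s (s + δ) := fun i hi =>
    Icc_subset_Icc (ht i ▸ iif2_mem hδ n hi.le).1 (ht (i + 1) ▸ iif2_mem hδ n hi).2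
  have h4 : ∀ i < n + 1, IntervalIntegrable a volume (t i) (t (i + 1)) := fun i hi =>
    (ha.mono (h3 i hi)).intervalIntegrable_of_Icc (h2 i)
  have h5 := intervalIntegral.sum_integral_adjacent_intervals h4
  rw [ht 0, ht (n + 1), Nat.cast_zero, zero_mul, add_zero, mul_div_cancel₀ _ (by positivity)] at h5
  have h6 : ((n + 1 : ℕ) : ℝ)⁻¹ = δ⁻¹ * (δ / (n + 1 : ℕ)) := by field_simp
  simp only [← ht]
  rw [mem_closedBall_iff_norm, ← h5, h6, mul_smul, ← smul_sub, Finset.smul_sum, ← Finset.sum_sub_distrib, norm_smul,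
    Real.norm_of_nonneg (by positivity), inv_mul_le_iff₀ hδ]
  refine (norm_sum_le_of_le _ (n := fun _ => ε * (δ / (n + 1 : ℕ))) fun i hi => ?_).trans_eq (by simp; field_simp)
  rw [Finset.mem_range] at hi
  rw [← h1 i, ← intervalIntegral.integral_const, ← intervalIntegral.integral_sub intervalIntegrable_const (h4 i hi),
    ← abs_of_nonneg (sub_nonneg.2 (h2 i))]
  refine intervalIntegral.norm_integral_le_of_norm_le_const fun w hw => ?_
  rw [uIoc_of_le (h2 i)] at hw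
  rw [← dist_eq_norm]
  refine h _ (h3 i hi (left_mem_Icc.2 (h2 i))) _ (h3 i hi (Ioc_subset_Icc_self hw)) ?_
  rw [Real.dist_eq, abs_sub_comm, abs_of_pos (sub_pos.2 hw.1)]
  linarith [h1 i, hw.2]

theorem iif2_norm {F : Lp ℝ 2 μ} (h : F =ᵐ[μ] f) : n2 μ f = ‖F‖ ^ 2 := by
  rw [n2_eq_eLpNorm ((Lp.memLp F).ae_eq h), Lp.norm_def, eLpNorm_congr_ae h]

/-- `rie n → avg` pointwise (`riemann_tendsto`, `cont_t`).  `rie` is Cauchy in `L²`: compare `rie n` and `rie n'`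
with the common refinement, or avoid it: for fixed `n`, `rie n - rie ((n+1)(j+1) - 1)` is an average of differences
`Φ w - Φ w'` with `|w - w'| ≤ δ/(n+1)`, so its `n2` is `≤ ε` (`unif`, convexity of the square); Fatou
(`lintegral_liminf_le`) as `j → ∞`.
Alternative: Jensen in `w` and Tonelli (`cont₂` gives measurability on `Icc ×ˢ univ`). -/
theorem HJ.rie_tendsto (h : HJ D Φ r L₀ C₀) {s δ : ℝ} (hs : 0 ≤ s) (hδ : 0 < δ) (hr : s + δ ≤ r) :
    MemLp (avg Φ s δ) 2 μ ∧ Tendsto (fun n => n2 μ fun x => rie Φ s δ n x - avg Φ s δ x) atTop (𝓝 0) := by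
  classical
  obtain ⟨U, hU⟩ : ∃ U : ℝ → Lp ℝ 2 μ, ∀ w ∈ Icc 0 r, U w =ᵐ[μ] Φ w :=
    ⟨fun w => if hw : MemLp (Φ w) 2 μ then hw.toLp _ else 0, fun w hw => by
      simp only [dif_pos (h.W w hw).2.1]
      exact MemLp.coeFn_toLp _⟩
  have hI : Icc s (s + δ) ⊆ Icc 0 r := Icc_subset_Icc hs hr
  have a1 : ContinuousOn U (Icc 0 r) := fun w hw => tendsto_iff_norm_sub_tendsto_zero.2 <| by
    have := (h.cont w hw).sqrt
    rw [Real.sqrt_zero] at this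
    refine this.congr' (eventually_nhdsWithin_of_forall fun w' hw' => ?_)
    exact (congrArg Real.sqrt (iif2_norm (F := U w' - U w)
      ((Lp.coeFn_sub _ _).trans ((hU w' hw').sub (hU w hw))))).trans (Real.sqrt_sq (norm_nonneg _))
  have a2 := iif2_riemann hδ (a1.mono hI)
  have a3 : ∀ n : ℕ, ⇑(((n + 1 : ℕ) : ℝ)⁻¹ • ∑ i ∈ Finset.range (n + 1), U (s + i * (δ / (n + 1 : ℕ)))) =ᵐ[μ]
      rie Φ s δ n := fun n => by
    filter_upwards [Lp.coeFn_smul ((n + 1 : ℕ) : ℝ)⁻¹ (∑ i ∈ Finset.range (n + 1), U (s + i * (δ / (n + 1 : ℕ)))),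
      Lp.coeFn_finsetSum (Finset.range (n + 1)) fun i => U (s + i * (δ / (n + 1 : ℕ))), (ae_ball_iff
      (Finset.range (n + 1)).countable_toSet).2 fun i hi => hU _ (hI (iif2_mem hδ n (Finset.mem_range.1 hi).le))]
      with x b1 b2 b3
    rw [b1, Pi.smul_apply, b2, Finset.sum_apply, Finset.sum_congr rfl b3]
    rfl
  obtain ⟨k, hk, a4⟩ := (tendstoInMeasure_of_tendsto_Lp a2).exists_seq_tendsto_ae
  have a5 : ⇑(δ⁻¹ • ∫ w in s..(s + δ), U w) =ᵐ[μ] avg Φ s δ := by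
    filter_upwards [a4, ae_all_iff.2 a3] with x b1 b2
    exact tendsto_nhds_unique (b1.congr fun n => b2 _)
      ((riemann_tendsto hδ ((h.cont_t x).mono hI)).comp hk.tendsto_atTop)
  refine ⟨(Lp.memLp _).ae_eq a5, ?_⟩
  have a6 := (tendsto_iff_norm_sub_tendsto_zero.1 a2).pow 2
  rw [zero_pow two_ne_zero] at a6
  exact a6.congr fun n => (iif2_norm ((Lp.coeFn_sub _ _).trans ((a3 n).sub a5))).symm

/-- sequential continuity from `Flow.wc` -/
theorem HJ.wt_cont (h : HJ D Φ r L₀ C₀) (hF : Flow D T R) (hψ : D.W ψ) (hη : AEStronglyMeasurable η μ)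
    (h01 : ∀ x, 0 ≤ η x ∧ η x ≤ 1) :
    ContinuousOn (fun s => ∫ x, η x * D.Γ (Φ s) ψ x ∂μ) (Icc 0 r) := by
  refine continuousOn_iff_continuous_domRestrict.2 (continuous_iff_seqContinuous.2 fun x s hx => ?_)
  exact hF.wc (fun n => h.W _ (x n).2) (fun n => h.E _ (x n).2) (h.W _ s.2).2.1 ((h.cont _ s.2).comp
    (tendsto_nhdsWithin_iff.2 ⟨(continuous_subtype_val.tendsto s).comp hx, .of_forall fun n => (x n).2⟩)) hψ hη h01

/-- `lsc` and `wc` for `rie n → avg` (`W.sum`, `E_avg_le`, `Γ_sum`), `riemann_tendsto` with `wt_cont` -/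
theorem HJ.avg_W (h : HJ D Φ r L₀ C₀) (hF : Flow D T R) {s δ : ℝ} (hs : 0 ≤ s) (hδ : 0 < δ) (hr : s + δ ≤ r) :
    D.W (avg Φ s δ) ∧ ∀ ψ η : X → ℝ, D.W ψ → AEStronglyMeasurable η μ → (∀ x, 0 ≤ η x ∧ η x ≤ 1) →
      ∫ x, η x * D.Γ (avg Φ s δ) ψ x ∂μ = δ⁻¹ * ∫ w in s..(s + δ), ∫ x, η x * D.Γ (Φ w) ψ x ∂μ := by
  obtain ⟨a1, a2⟩ := h.rie_tendsto hs hδ hr
  have hI : Icc s (s + δ) ⊆ Icc 0 r := Icc_subset_Icc hs hr
  have a3 := fun (n i : ℕ) (hi : i < n + 1) => hI (iif2_mem hδ n hi.le)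
  have a4 := fun (n i : ℕ) (hi : i ∈ Finset.range (n + 1)) => h.W _ (a3 n i (Finset.mem_range.1 hi))
  have a5 : ∀ n, D.W (rie Φ s δ n) := fun n => (Cal.W.sum _ (a4 n)).smul _
  have a6 : ∀ n, D.E (rie Φ s δ n) (rie Φ s δ n) ≤ C₀ := fun n =>
    Cal.E_avg_le n.succ_pos (fun i hi => h.W _ (a3 n i hi)) fun i hi => h.E _ (a3 n i hi)
  refine ⟨(hF.lsc _ _ _ a5 a6 a1 a2).1, fun ψ η hψ hη h01 => tendsto_nhds_unique (hF.wc a5 a6 a1 a2 hψ hη h01)
    ((riemann_tendsto hδ ((h.wt_cont hF hψ hη h01).mono hI)).congr fun n => ?_)⟩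
  rw [← integral_finsetSum _ fun i hi => (a4 n i hi).integrable_mul_Γ hψ hη (A := 1)
    (.of_forall fun x => abs_le.2 ⟨by linarith [(h01 x).1], (h01 x).2⟩), ← integral_const_mul]
  refine integral_congr_ae ?_
  filter_upwards [Cal.Γ_smul ((n + 1 : ℕ) : ℝ)⁻¹ (Cal.W.sum _ (a4 n)).1 hψ.1,
    Cal.Γ_sum _ (fun i hi => (a4 n i hi).1) hψ.1] with x b1 b2
  rw [← Finset.mul_sum, ← b2, mul_left_comm, ← b1]
  rfl

end Crest.Agent.R242.II
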