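import Crest.Agent.R242.IIF2

/-! Row 242, part II (helper16), TASK IIF3: the averaged Hamilton-Jacobi inequality.
Keep the statements; auxiliary names `iif3_*`.  Definitions: `R242/IIDefs.lean`; paper proof: `R242/IIRead.lean`. -/

set_option autoImplicit false
set_option linter.unusedSectionVars false
set_option linter.unusedVariables false

open MeasureTheory Filter Set
open scoped ENNReal NNReal Topology

noncomputable section

namespace Crest.Agent.R242.II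

variable {X : Type*} [MetricSpace X] [MeasurableSpace X] [BorelSpace X] [ProperSpace X]
  {μ : Measure X} [IsFiniteMeasureOnCompacts μ] [μ.IsOpenPosMeasure] {D : Cal μ}
  {T R : ℝ → (X → ℝ) → X → ℝ} {u v w f g η ψ L : X → ℝ} {Φ : ℝ → X → ℝ} {r C₀ : ℝ} {L₀ : ℝ≥0}

theorem HJ.int_cont (h : HJ D Φ r L₀ C₀) (hη : MemLp η 2 μ) :
    ContinuousOn (fun s => ∫ x, η x * Φ s x ∂μ) (Icc 0 r) := by
  intro s hs
  refine tendsto_int_mul (a := fun _ => η) (b := Φ) (Eventually.of_forall fun _ => hη) ?_ hη (h.W s hs).2.1 ?_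
    (h.cont s hs)
  · filter_upwards [self_mem_nhdsWithin] with s' hs' using (h.W s' hs').2.1
  · simpa [n2] using tendsto_const_nhds

theorem iif3_two (hu : D.W u) (hv : D.W v) (hη : AEStronglyMeasurable η μ) (h01 : ∀ x, 0 ≤ η x ∧ η x ≤ 1) :
    2 * ∫ x, η x * D.Γ u v x ∂μ ≤ ∫ x, η x * D.Γ u u x ∂μ + ∫ x, η x * D.Γ v v x ∂μ := by
  have hb : ∀ᵐ x ∂μ, |η x| ≤ 1 := ae_of_all _ fun x => by rw [abs_of_nonneg (h01 x).1]; exact (h01 x).2
  have i1 := hu.integrable_mul_Γ hv hη hb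
  have i2 := hu.integrable_mul_Γ hu hη hb
  have i3 := hv.integrable_mul_Γ hv hη hb
  rw [← integral_const_mul, ← integral_add i2 i3]
  refine integral_mono_ae (i1.const_mul 2) (i2.add i3) ?_
  filter_upwards [Cal.two_abs_Γ_le hu.1 hv.1] with x hx
  have h1 : 2 * D.Γ u v x ≤ D.Γ u u x + D.Γ v v x := by linarith [le_abs_self (D.Γ u v x)]
  have h2 := mul_le_mul_of_nonneg_left h1 (h01 x).1
  linarith

/-- For a weight `η`, `ψ = avg`, `a w = ∫ η Γ (Φ w) ψ` (continuous), `Q = ∫ η Γ ψ ψ`: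
`2 a w - Q ≤ ∫ η Γ (Φ w) (Φ w) ≤ θ' q w + e ∫ η`.  Apply
`intervalIntegral.integral_le_sub_of_hasDeriv_right_of_le` to `w ↦ -θ' ∫ η Φ w` and `φ w = 2 a w - Q - e ∫ η`;
`avg_W` gives `δ⁻¹ ∫ a = Q`.  Then `ae_le_of_wt`. -/
theorem HJ.avg_Γ (h : HJ D Φ r L₀ C₀) (hF : Flow D T R) {z : X} {ρ e θ' s δ : ℝ} {θ : ℝ → ℝ}
    (hsub : HJsub D Φ r (Metric.ball z ρ) θ e) (hs : 0 ≤ s) (hδ : 0 < δ) (hr : s + δ ≤ r)
    (hθ : ∀ w ∈ Icc s (s + δ), θ w ≤ θ') :
    ∀ᵐ x ∂μ, x ∈ Metric.ball z ρ →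
      D.Γ (avg Φ s δ) (avg Φ s δ) x ≤ θ' * ((Φ s x - Φ (s + δ) x) / δ) + e := by
  have hsI : s ∈ Icc (0 : ℝ) r := ⟨hs, by linarith⟩
  have hsδI : s + δ ∈ Icc (0 : ℝ) r := ⟨by linarith, hr⟩
  have hsub' : Icc s (s + δ) ⊆ Icc (0 : ℝ) r := Icc_subset_Icc hs hr
  obtain ⟨hW, hav⟩ := h.avg_W hF hs hδ hr
  have hc : Continuous fun x => θ' * ((Φ s x - Φ (s + δ) x) / δ) + e :=
    (continuous_const.mul ((((h.lip s).continuous).sub (h.lip (s + δ)).continuous).div_const δ)).add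
      continuous_const
  refine ae_le_of_wt hW.2.2.integrableOn (integrableOn_ball_of_cont hc z ρ) fun η hη => ?_
  obtain ⟨q, hq⟩ := hsub η hη
  have hηm : AEStronglyMeasurable η μ := hη.meas.aestronglyMeasurable
  have hη2 : MemLp η 2 μ := hη.memLp
  have hQ := hav (avg Φ s δ) η hW hηm hη.mem
  have hac : ContinuousOn (fun w => ∫ x, η x * D.Γ (Φ w) (avg Φ s δ) x ∂μ) (Icc s (s + δ)) :=
    (h.wt_cont hF hW hηm hη.mem).mono hsub'
  have hGc : ContinuousOn (fun w => -θ' * ∫ x, η x * Φ w x ∂μ) (Icc s (s + δ)) :=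
    continuousOn_const.mul ((h.int_cont hη2).mono hsub')
  set Q := ∫ x, η x * D.Γ (avg Φ s δ) (avg Φ s δ) x ∂μ with hQdef
  set a : ℝ → ℝ := fun w => ∫ x, η x * D.Γ (Φ w) (avg Φ s δ) x ∂μ with hadef
  set m := ∫ x, η x ∂μ with hmdef
  have hle : s ≤ s + δ := by linarith
  have hφc : ContinuousOn (fun w => 2 * a w - (Q + e * m)) (Icc s (s + δ)) :=
    (continuousOn_const.mul hac).sub continuousOn_const
  have key := intervalIntegral.integral_le_sub_of_hasDeriv_right_of_le (g' := fun w => -θ' * -q w) hle hGc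
    (fun w hw => ((hq w ⟨lt_of_le_of_lt hs hw.1, lt_of_lt_of_le hw.2 hr⟩).2.1.const_mul (-θ')).hasDerivWithinAt)
    (hφc.integrableOn_Icc) (fun w hw => by
      have hwI : w ∈ Icc s (s + δ) := Ioo_subset_Icc_self hw
      obtain ⟨hq0, -, hq2⟩ := hq w ⟨lt_of_le_of_lt hs hw.1, lt_of_lt_of_le hw.2 hr⟩
      have h1 := iif3_two (h.W w (hsub' hwI)) hW hηm hη.mem
      have h2 := mul_le_mul_of_nonneg_right (hθ w hwI) hq0
      simp only [hadef]
      linarith)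
  have hai : IntervalIntegrable a volume s (s + δ) := (hac.mono (by rw [uIcc_of_le hle])).intervalIntegrable
  rw [intervalIntegral.integral_sub (hai.const_mul 2) intervalIntegrable_const,
    intervalIntegral.integral_const_mul, intervalIntegral.integral_const, smul_eq_mul] at key
  have hA : ∫ w in s..(s + δ), a w = δ * Q := by
    rw [hQ, ← mul_assoc, mul_inv_cancel₀ hδ.ne', one_mul]
  rw [hA] at key
  have i1 : Integrable (fun x => η x * Φ s x) μ := integrable_mul2 hη2 (h.W s hsI).2.1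
  have i2 : Integrable (fun x => η x * Φ (s + δ) x) μ := integrable_mul2 hη2 (h.W _ hsδI).2.1
  have e1 : ∫ x, η x * (θ' * ((Φ s x - Φ (s + δ) x) / δ) + e) ∂μ =
      θ' / δ * (∫ x, η x * Φ s x ∂μ - ∫ x, η x * Φ (s + δ) x ∂μ) + e * m := by
    have i3 : Integrable (fun x => η x * Φ s x - η x * Φ (s + δ) x) μ := i1.sub i2
    rw [← integral_sub i1 i2, hmdef, ← integral_const_mul, ← integral_const_mul,
      ← integral_add (i3.const_mul _) (hη.integrable.const_mul _)]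
    refine integral_congr_ae (ae_of_all _ fun x => ?_)
    ring
  rw [e1]
  have h3 : δ * Q ≤ δ * (θ' / δ * (∫ x, η x * Φ s x ∂μ - ∫ x, η x * Φ (s + δ) x ∂μ) + e * m) := by
    have : δ * (θ' / δ * (∫ x, η x * Φ s x ∂μ - ∫ x, η x * Φ (s + δ) x ∂μ) + e * m) =
        θ' * (∫ x, η x * Φ s x ∂μ - ∫ x, η x * Φ (s + δ) x ∂μ) + δ * (e * m) := by
      field_simp
    rw [this]
    linarith
  exact le_of_mul_le_mul_left h3 hδ

/-- local Lipschitz bound from a continuous bound for `Γ` (`SL.loc` on a small ball around `x`,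
`K = √(max (g x) 0 + ε)`) -/
theorem SL.slope (h : SL D) (hu : Continuous u) (hS : D.S u) (hg : Continuous g) {O : Set X} (hO : IsOpen O)
    (hΓ : ∀ᵐ x ∂μ, x ∈ O → D.Γ u u x ≤ g x) {x : X} (hx : x ∈ O) {ε : ℝ} (hε : 0 < ε) :
    0 ≤ g x ∧ ∀ᶠ y in 𝓝 x, |u y - u x| ≤ Real.sqrt (g x + ε) * dist y x := by
  have h0 : 0 ≤ g x := by
    refine le_of_ae_le_on (μ := μ) (f := fun _ => (0 : ℝ)) hO continuous_const hg ?_ x hx
    filter_upwards [hΓ, D.Γ_nonneg u hS] with y h1 h2 hy using h2.trans (h1 hy)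
  refine ⟨h0, ?_⟩
  have h1 : ∀ᶠ y in 𝓝 x, y ∈ O ∧ g y < g x + ε :=
    (hO.eventually_mem hx).and (hg.continuousAt.eventually (gt_mem_nhds (by linarith)))
  obtain ⟨ρ, hρ, hb⟩ := Metric.eventually_nhds_iff_ball.1 h1
  have hK : ((Real.sqrt (g x + ε)).toNNReal : ℝ) = Real.sqrt (g x + ε) :=
    Real.coe_toNNReal _ (Real.sqrt_nonneg _)
  have h2 : ∀ᵐ y ∂μ, y ∈ Metric.ball x ρ → D.Γ u u y ≤ ((Real.sqrt (g x + ε)).toNNReal : ℝ) ^ 2 := by
    filter_upwards [hΓ] with y hy hyb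
    rw [hK, Real.sq_sqrt (by linarith)]
    exact (hy (hb y hyb).1).trans (hb y hyb).2.le
  filter_upwards [Metric.ball_mem_nhds x (half_pos hρ)] with y hy
  have h3 := h.loc u _ x y ρ hu hS h2 (by rw [dist_comm]; linarith [Metric.mem_ball.1 hy])
  rwa [hK, abs_sub_comm, dist_comm] at h3

end Crest.Agent.R242.II
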