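import Crest.Agent.R242.IIF3

/-! Row 242, part II (helper16), TASK IIF4: Hamilton-Jacobi lemma along a curve.
Keep the statements; auxiliary names `iif4_*`.  Definitions: `R242/IIDefs.lean`; paper proof: `R242/IIRead.lean`. -/

set_option autoImplicit false
set_option linter.unusedSectionVars false
set_option linter.unusedVariables false

open MeasureTheory Filter Set
open scoped ENNReal NNReal Topology

noncomputable section

namespace Crest.Agent.R242.II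

variable {X : Type*} [MetricSpace X] [MeasurableSpace X] [BorelSpace X] [ProperSpace X]
  {μ : Measure X} [IsFiniteMeasureOnCompacts μ] [μ.IsOpenPosMeasure] {D : Cal μ}
  {T R : ℝ → (X → ℝ) → X → ℝ} {u v w f g η ψ L : X → ℝ} {Φ : ℝ → X → ℝ} {r C₀ : ℝ} {L₀ : ℝ≥0}

theorem iif4_le {a b K : ℝ} (hK : 0 ≤ K) (h : ∀ ε : ℝ, 0 < ε → a ≤ b + K * ε) : a ≤ b := by
  refine le_of_forall_pos_le_add fun ε hε => (h (ε / (K + 1)) (by positivity)).trans ?_
  have : K * (ε / (K + 1)) ≤ ε := by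
    rw [← mul_div_assoc, div_le_iff₀ (by positivity)]; nlinarith
  linarith

theorem iif4_alg {θ p e a : ℝ} (hθ : 0 < θ) (h : 0 ≤ θ * p + e) :
    -p + Real.sqrt (θ * p + e) * a ≤ θ * a ^ 2 / 4 + e / θ := by
  have h1 := Real.sq_sqrt h
  set S := Real.sqrt (θ * p + e)
  have h2 : p = (S ^ 2 - e) / θ := by rw [h1]; field_simp; ring
  have h3 : θ * a ^ 2 / 4 + e / θ - (-p + S * a) = (S - θ * a / 2) ^ 2 / θ := by rw [h2]; field_simp; ring
  have : 0 ≤ (S - θ * a / 2) ^ 2 / θ := by positivity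
  linarith

theorem HJ.iif4_int (h : HJ D Φ r L₀ C₀) {s t : ℝ} (hs : 0 ≤ s) (hst : s ≤ t) (ht : t ≤ r) (x : X) :
    IntervalIntegrable (fun w => Φ w x) volume s t :=
  ((h.cont_t x).mono (by rw [uIcc_of_le hst]; exact Icc_subset_Icc hs ht)).intervalIntegrable

theorem HJ.iif4_avg (h : HJ D Φ r L₀ C₀) {s δ a ε : ℝ} (hs : 0 ≤ s) (hδ : 0 < δ) (hr : s + δ ≤ r) {x : X}
    (ha : ∀ w ∈ Icc s (s + δ), |Φ w x - a| ≤ ε) : |avg Φ s δ x - a| ≤ ε := by
  have hi := h.iif4_int hs (by linarith : s ≤ s + δ) hr x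
  have h1 := intervalIntegral.integral_mono_on (by linarith : s ≤ s + δ) hi
    (intervalIntegrable_const (c := a + ε)) fun w hw => by linarith [(abs_le.1 (ha w hw)).2]
  have h2 := intervalIntegral.integral_mono_on (by linarith : s ≤ s + δ)
    (intervalIntegrable_const (c := a - ε)) hi fun w hw => by linarith [(abs_le.1 (ha w hw)).1]
  simp only [intervalIntegral.integral_const, add_sub_cancel_left, smul_eq_mul] at h1 h2
  rw [← inv_mul_le_iff₀ hδ] at h1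
  rw [← le_inv_mul_iff₀ hδ] at h2
  rw [avg, abs_le]
  constructor <;> linarith

theorem iif4_dist {c : ℝ → X} {d : ℝ} (hr : 0 < r)
    (hcd : ∀ s ∈ Icc (0 : ℝ) 1, ∀ t ∈ Icc (0 : ℝ) 1, dist (c s) (c t) ≤ |s - t| * d) {s t : ℝ}
    (hs : s ∈ Icc 0 r) (ht : t ∈ Icc 0 r) : dist (c (s / r)) (c (t / r)) ≤ |s - t| * (d / r) := by
  refine (hcd _ ⟨div_nonneg hs.1 hr.le, (div_le_one hr).2 hs.2⟩ _
    ⟨div_nonneg ht.1 hr.le, (div_le_one hr).2 ht.2⟩).trans (le_of_eq ?_)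
  rw [← sub_div, abs_div, abs_of_pos hr]; ring

theorem iif4_cont {c : ℝ → X} {d : ℝ} (hr : 0 < r) (hd : 0 ≤ d)
    (hcd : ∀ s ∈ Icc (0 : ℝ) 1, ∀ t ∈ Icc (0 : ℝ) 1, dist (c s) (c t) ≤ |s - t| * d) :
    ContinuousOn (fun s => c (s / r)) (Icc 0 r) :=
  (LipschitzOnWith.of_dist_le_mul (K := ⟨d / r, by positivity⟩) fun s hs t ht => by
    rw [mul_comm]; exact iif4_dist hr hcd hs ht).continuousOn

theorem HJ.iif4_G (h : HJ D Φ r L₀ C₀) {δ : ℝ} (hδ : 0 < δ) :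
    ContinuousOn (fun p : ℝ × X => Φ (p.1 + δ) p.2 - Φ p.1 p.2) (Icc 0 (r - δ) ×ˢ univ) :=
  (h.cont₂.comp (f := fun p : ℝ × X => (p.1 + δ, p.2)) (by fun_prop) fun p hp =>
    ⟨⟨by linarith [hp.1.1], by linarith [hp.1.2]⟩, trivial⟩).sub
    (h.cont₂.mono (prod_mono (Icc_subset_Icc_right (by linarith)) subset_rfl))

theorem HJ.iif4_Gint (h : HJ D Φ r L₀ C₀) {δ s t : ℝ} (hδ : 0 < δ) (hs : 0 ≤ s) (hst : s ≤ t) (ht : t ≤ r - δ)
    (x : X) : IntervalIntegrable (fun w => Φ (w + δ) x - Φ w x) volume s t := by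
  refine ContinuousOn.intervalIntegrable ?_
  rw [uIcc_of_le hst]
  exact (h.iif4_G hδ).comp (f := fun w : ℝ => (w, x)) (by fun_prop) fun w hw =>
    ⟨⟨hs.trans hw.1, hw.2.trans ht⟩, trivial⟩

theorem HJ.iif4_b (h : HJ D Φ r L₀ C₀) {δ : ℝ} (hδ : 0 < δ) (hδr : δ < r) {γ : ℝ → X}
    (hγ : ContinuousOn γ (Icc 0 r)) : ContinuousOn (fun s => avg Φ s δ (γ s)) (Icc 0 (r - δ)) := by
  intro s hs
  have h1 : ContinuousOn (fun t => avg Φ t δ (γ s)) (Icc 0 (r - δ)) := by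
    have h0 : (0 : ℝ) ≤ r - δ := by linarith
    have := (intervalIntegral.continuousOn_primitive_interval' (h.iif4_Gint hδ le_rfl h0 le_rfl (γ s))
      left_mem_uIcc)
    rw [uIcc_of_le h0] at this
    refine (continuousOn_const (c := avg Φ 0 δ (γ s)).add (continuousOn_const (c := δ⁻¹).mul this)).congr
      fun t ht => ?_
    have := h.avg_sub le_rfl ht.1 hδ (by linarith [ht.2]) (γ s)
    simp only [Pi.add_apply, Pi.mul_apply]
    linarith
  have h2 : Tendsto (fun t => avg Φ t δ (γ t) - avg Φ t δ (γ s)) (𝓝[Icc 0 (r - δ)] s) (𝓝 0) := by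
    have h3 : ContinuousWithinAt γ (Icc 0 (r - δ)) s :=
      (hγ.mono (Icc_subset_Icc_right (by linarith))) s hs
    refine squeeze_zero_norm' (a := fun t => L₀ * dist (γ t) (γ s)) ?_ ?_
    · filter_upwards [self_mem_nhdsWithin] with t ht
      exact (h.avg_lip ht.1 hδ (by linarith [ht.2])).dist_le_mul _ _
    · simpa using (tendsto_iff_dist_tendsto_zero.1 h3).const_mul (L₀ : ℝ)
  simpa [ContinuousWithinAt] using h2.add (h1 s hs)

/-- `b s = avg Φ s δ (c (s / r))` on `[0, r - δ]`.  For `s < s'`: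
`b s' - b s = [avg s' - avg s](c (s'/r)) + [avg s (c (s'/r)) - avg s (c (s/r))]`; the first bracket is
`(s'-s) (-p + o(1))`, `p = (Φ s - Φ (s+δ))(c (s/r))/δ` (`avg_sub`, `cont₂`), the second is at most
`√(θ' p + e + ε) (d/r) (s'-s)` (`avg_Γ`, `SL.slope`) with `θ' = θ s + ω`, and
`-p + (d/r) √(θ' p + e + ε) ≤ θ' d²/(4 r²) + (e + ε)/θ'`.  Use `image_le_of_liminf_slope_right_le_deriv_boundary`
with the bound `B s = b 0 + ∫ w in 0..s, ((θ w + ω) d²/(4r²) + e/θ w)`. -/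
theorem HJ.path_avg (h : HJ D Φ r L₀ C₀) (hF : Flow D T R) (hS : SL D) {z : X} {ρ e d δ ω : ℝ} {θ : ℝ → ℝ}
    (hsub : HJsub D Φ r (Metric.ball z ρ) θ e) (he : 0 ≤ e) (hθc : Continuous θ) (hθ : ∀ s, 0 < θ s)
    {c : ℝ → X} (hc : ∀ s ∈ Icc (0 : ℝ) 1, c s ∈ Metric.ball z ρ) (hd : 0 ≤ d)
    (hcd : ∀ s ∈ Icc (0 : ℝ) 1, ∀ t ∈ Icc (0 : ℝ) 1, dist (c s) (c t) ≤ |s - t| * d)
    (hδ : 0 < δ) (hδr : δ < r) (hω : 0 ≤ ω)
    (hmod : ∀ s ∈ Icc 0 (r - δ), ∀ w ∈ Icc s (s + δ), θ w ≤ θ s + ω) :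
    avg Φ (r - δ) δ (c ((r - δ) / r)) ≤ avg Φ 0 δ (c 0) +
      ∫ w in (0 : ℝ)..(r - δ), ((θ w + ω) * d ^ 2 / (4 * r ^ 2) + e / θ w) := by
  have hr := h.r_pos
  have hγ := iif4_cont hr hd hcd
  have hB : Continuous fun w => (θ w + ω) * d ^ 2 / (4 * r ^ 2) + e / θ w :=
    (((hθc.add continuous_const).mul continuous_const).div_const _).add
      (continuous_const.div hθc fun s => (hθ s).ne')
  have hD : ∀ s, HasDerivAt (fun s => avg Φ 0 δ (c 0) +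
      ∫ w in (0 : ℝ)..s, ((θ w + ω) * d ^ 2 / (4 * r ^ 2) + e / θ w))
      ((θ s + ω) * d ^ 2 / (4 * r ^ 2) + e / θ s) s := fun s =>
    (hB.integral_hasStrictDerivAt 0 s).hasDerivAt.const_add _
  refine image_le_of_liminf_slope_right_le_deriv_boundary (f := fun s => avg Φ s δ (c (s / r)))
    (h.iif4_b hδ hδr hγ) (by simp) (fun s _ => (hD s).continuousAt.continuousWithinAt)
    (fun s _ => (hD s).hasDerivWithinAt) (fun s hs ρ' hρ' => Eventually.frequently ?_)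
    (right_mem_Icc.2 (by linarith))
  have hs' : s ∈ Icc 0 (r - δ) := Ico_subset_Icc_self hs
  have hsr : s ∈ Icc 0 r := ⟨hs.1, by linarith [hs.2]⟩
  have hθs := hθ s
  obtain ⟨ε, hε, hε'⟩ : ∃ ε : ℝ, 0 < ε ∧
      (θ s + ω) * d ^ 2 / (4 * r ^ 2) + e / θ s + ε + ε / θ s < ρ' := by
    have : ContinuousAt (fun ε : ℝ => (θ s + ω) * d ^ 2 / (4 * r ^ 2) + e / θ s + ε + ε / θ s) 0 := by fun_prop
    have h2 := (this.eventually (gt_mem_nhds (by simpa using hρ'))).filter_mono (nhdsWithin_le_nhds (s := Ioi 0))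
    obtain ⟨ε, h3, h4⟩ := (h2.and self_mem_nhdsWithin).exists
    exact ⟨ε, h4, h3⟩
  set x₀ := c (s / r) with hx₀
  set p := (Φ s x₀ - Φ (s + δ) x₀) / δ with hp
  have hsδ : s + δ ≤ r := by linarith [hs.2]
  obtain ⟨h0, h1⟩ := hS.slope (h.avg_lip hs.1 hδ hsδ).continuous (h.avg_W hF hs.1 hδ hsδ).1.1
    (g := fun x => (θ s + ω) * ((Φ s x - Φ (s + δ) x) / δ) + e)
    ((continuous_const.mul (((h.lip s).continuous.sub (h.lip _).continuous).div_const _)).add continuous_const)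
    Metric.isOpen_ball (h.avg_Γ hF hsub hs.1 hδ hsδ (hmod s hs'))
    (hc (s / r) ⟨div_nonneg hs.1 hr.le, (div_le_one hr).2 hsr.2⟩) hε
  obtain ⟨τ, hτ, h2⟩ := Metric.continuousWithinAt_iff.1 (h.iif4_G hδ (s, x₀) ⟨hs', trivial⟩) (δ * ε)
    (by positivity)
  have hm : Ioo s (r - δ) ∈ 𝓝[>] s := Ioo_mem_nhdsGT hs.2
  have hT : Tendsto (fun t => c (t / r)) (𝓝[>] s) (𝓝 x₀) :=
    (hγ s hsr).mono_of_mem_nhdsWithin (mem_of_superset hm fun t ht => ⟨hs.1.trans ht.1.le, by linarith [ht.2]⟩)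
  filter_upwards [hm, hT.eventually h1, hT.eventually (Metric.ball_mem_nhds x₀ hτ),
    Ioo_mem_nhdsGT (show s < s + τ by linarith)] with t ht a1 a2 a3
  have hts : 0 < t - s := sub_pos.2 ht.1
  have b1 := h.avg_sub hs.1 ht.1.le hδ (by linarith [ht.2]) (c (t / r))
  have b2 := intervalIntegral.integral_mono_on ht.1.le (h.iif4_Gint hδ hs.1 ht.1.le ht.2.le (c (t / r)))
    (intervalIntegrable_const (c := δ * (-p + ε))) fun w hw => by
      have := h2 (x := (w, c (t / r))) ⟨⟨hs.1.trans hw.1, hw.2.trans ht.2.le⟩, trivial⟩ (by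
        rw [Prod.dist_eq, max_lt_iff, Real.dist_eq, abs_lt]
        exact ⟨⟨by linarith [hw.1], by linarith [hw.2, a3.2]⟩, a2⟩)
      rw [Real.dist_eq, abs_lt] at this
      have e1 : δ * (-p + ε) = Φ (s + δ) x₀ - Φ s x₀ + δ * ε := by rw [hp]; field_simp; ring
      rw [e1]; linarith [this.2]
  rw [intervalIntegral.integral_const, smul_eq_mul, mul_left_comm, ← inv_mul_le_iff₀ hδ, ← b1] at b2
  have b3 := iif4_dist hr hcd (s := t) (t := s) ⟨hs.1.trans ht.1.le, by linarith [ht.2]⟩ hsr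
  rw [abs_of_pos hts] at b3
  have b4 := (le_abs_self _).trans (a1.trans (mul_le_mul_of_nonneg_left b3 (Real.sqrt_nonneg _)))
  have hθ' : 0 < θ s + ω := by linarith
  have b5 := iif4_alg (p := p) (e := e + ε) (a := d / r) hθ' (by linarith)
  have b6 : (e + ε) / (θ s + ω) ≤ e / θ s + ε / θ s := by
    rw [← add_div]; exact div_le_div_of_nonneg_left (by linarith) hθs (by linarith)
  have b7 : (θ s + ω) * (d / r) ^ 2 / 4 = (θ s + ω) * d ^ 2 / (4 * r ^ 2) := by field_simp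
  rw [slope_def_field, div_lt_iff₀ hts]
  rw [← add_assoc] at b5
  have b8 : -p + ε + Real.sqrt ((θ s + ω) * p + e + ε) * (d / r) < ρ' := by linarith
  nlinarith [mul_lt_mul_of_pos_right b8 hts]


/-- `δ → 0` (uniform continuity of `θ` on `[0,r]`, `cont₂`; the integrand is non-negative) -/
theorem HJ.path (h : HJ D Φ r L₀ C₀) (hF : Flow D T R) (hS : SL D) {z : X} {ρ e d : ℝ} {θ : ℝ → ℝ}
    (hsub : HJsub D Φ r (Metric.ball z ρ) θ e) (he : 0 ≤ e) (hθc : Continuous θ) (hθ : ∀ s, 0 < θ s)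
    {c : ℝ → X} (hc : ∀ s ∈ Icc (0 : ℝ) 1, c s ∈ Metric.ball z ρ) (hd : 0 ≤ d)
    (hcd : ∀ s ∈ Icc (0 : ℝ) 1, ∀ t ∈ Icc (0 : ℝ) 1, dist (c s) (c t) ≤ |s - t| * d) :
    Φ r (c 1) ≤ Φ 0 (c 0) + ∫ w in (0 : ℝ)..r, (θ w * d ^ 2 / (4 * r ^ 2) + e / θ w) := by
  have hr := h.r_pos
  refine iif4_le (K := 2 + L₀ * (d / r) + r * (d ^ 2 / (4 * r ^ 2))) (by positivity) fun ε hε => ?_
  obtain ⟨τ₁, hτ₁, h1⟩ := Metric.uniformContinuousOn_iff.1
    (isCompact_Icc.uniformContinuousOn_of_continuous (hθc.continuousOn (s := Icc 0 r))) ε hε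
  obtain ⟨τ₂, hτ₂, h2⟩ := Metric.continuousWithinAt_iff.1 (h.cont_t (c 0) 0 (left_mem_Icc.2 hr.le)) ε hε
  obtain ⟨τ₃, hτ₃, h3⟩ := Metric.continuousWithinAt_iff.1 (h.cont_t (c 1) r (right_mem_Icc.2 hr.le)) ε hε
  obtain ⟨δ, hδ, d1, d2, d3, d4, d5⟩ : ∃ δ : ℝ, 0 < δ ∧ δ < τ₁ ∧ δ < τ₂ ∧ δ < τ₃ ∧ δ < r ∧ δ < ε := by
    have : ∀ᶠ δ in 𝓝[>] (0 : ℝ), 0 < δ ∧ δ < τ₁ ∧ δ < τ₂ ∧ δ < τ₃ ∧ δ < r ∧ δ < ε := by
      filter_upwards [Ioo_mem_nhdsGT hτ₁, Ioo_mem_nhdsGT hτ₂, Ioo_mem_nhdsGT hτ₃, Ioo_mem_nhdsGT hr,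
        Ioo_mem_nhdsGT hε] with δ a1 a2 a3 a4 a5 using ⟨a1.1, a1.2, a2.2, a3.2, a4.2, a5.2⟩
    exact this.exists
  have key := h.path_avg hF hS hsub he hθc hθ hc hd hcd hδ d4 hε.le fun s hs w hw => by
    have := h1 w ⟨hs.1.trans hw.1, by linarith [hs.2, hw.2]⟩ s ⟨hs.1, by linarith [hs.2]⟩ (by
      rw [Real.dist_eq, abs_lt]; constructor <;> linarith [hw.1, hw.2])
    rw [Real.dist_eq, abs_lt] at this
    linarith [this.2]
  have a1 := h.iif4_avg (s := 0) (a := Φ 0 (c 0)) (ε := ε) (x := c 0) le_rfl hδ (by linarith) fun w hw =>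
    (h2 ⟨hw.1, by linarith [hw.2]⟩ (by rw [Real.dist_eq, abs_lt]; constructor <;> linarith [hw.1, hw.2])).le
  have a2 := h.iif4_avg (s := r - δ) (a := Φ r (c 1)) (ε := ε) (x := c 1) (by linarith) hδ (by linarith)
    fun w hw => (h3 ⟨by linarith [hw.1], by linarith [hw.2]⟩
      (by rw [Real.dist_eq, abs_lt]; constructor <;> linarith [hw.1, hw.2])).le
  have a3 := (h.avg_lip (s := r - δ) (by linarith) hδ (by linarith)).dist_le_mul (c (r / r)) (c ((r - δ) / r))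
  have a4 := iif4_dist hr hcd (s := r) (t := r - δ) (right_mem_Icc.2 hr.le) ⟨by linarith, by linarith⟩
  rw [sub_sub_cancel, abs_of_pos hδ] at a4
  have a5 : (L₀ : ℝ) * dist (c (r / r)) (c ((r - δ) / r)) ≤ L₀ * (d / r) * ε := by
    rw [mul_assoc, mul_comm (d / r)]
    exact mul_le_mul_of_nonneg_left (a4.trans (mul_le_mul_of_nonneg_right d5.le (by positivity))) L₀.2
  rw [div_self hr.ne'] at a3 a5
  have hB : Continuous fun w => θ w * d ^ 2 / (4 * r ^ 2) + e / θ w :=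
    ((hθc.mul continuous_const).div_const _).add (continuous_const.div hθc fun s => (hθ s).ne')
  have a6 : ∫ w in (0 : ℝ)..(r - δ), ((θ w + ε) * d ^ 2 / (4 * r ^ 2) + e / θ w) =
      (∫ w in (0 : ℝ)..(r - δ), (θ w * d ^ 2 / (4 * r ^ 2) + e / θ w)) + (r - δ) * (ε * (d ^ 2 / (4 * r ^ 2))) := by
    have := intervalIntegral.integral_add (hB.intervalIntegrable (μ := volume) 0 (r - δ))
      (intervalIntegrable_const (c := ε * (d ^ 2 / (4 * r ^ 2))))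
    rw [intervalIntegral.integral_const, smul_eq_mul, sub_zero] at this
    rw [← this]
    congr 1; ext w; ring
  have a7 : ∫ w in (0 : ℝ)..(r - δ), (θ w * d ^ 2 / (4 * r ^ 2) + e / θ w) ≤
      ∫ w in (0 : ℝ)..r, (θ w * d ^ 2 / (4 * r ^ 2) + e / θ w) :=
    intervalIntegral.integral_mono_interval le_rfl (by linarith) (by linarith)
      (ae_of_all _ fun w => by have := hθ w; positivity) (hB.intervalIntegrable _ _)
  have a8 : δ * (ε * (d ^ 2 / (4 * r ^ 2))) ≥ 0 := by positivity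
  rw [Real.dist_eq] at a3
  have := abs_le.1 a1
  have := abs_le.1 a2
  have := abs_le.1 (a3.trans a5)
  nlinarith

end Crest.Agent.R242.II
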