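import Crest.Agent.R242.IIF4
import Crest.Agent.R242.IID
import Crest.Agent.R242.IIB3

/-! Row 242, part II (helper16), TASK IIG: log-Harnack inequality.
Keep the statements; auxiliary names `iig_*`.  Definitions: `R242/IIDefs.lean`; paper proof: `R242/IIRead.lean`. -/

set_option autoImplicit false
set_option linter.unusedSectionVars false
set_option linter.unusedVariables false

open MeasureTheory Filter Set
open scoped ENNReal NNReal Topology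

noncomputable section

namespace Crest.Agent.R242.II

variable {X : Type*} [MetricSpace X] [MeasurableSpace X] [BorelSpace X] [ProperSpace X]
  {μ : Measure X} [IsFiniteMeasureOnCompacts μ] [μ.IsOpenPosMeasure] {D : Cal μ}
  {T R : ℝ → (X → ℝ) → X → ℝ} {u v w f g η ψ L : X → ℝ} {κ : X → ℝ} {κ₁ : ℝ}

/-- `exp x ≤ 1 + x + x²` for `|x| ≤ 1` (`Real.abs_exp_sub_one_sub_id_le`), `exp (-2 κ₀ w) ≤ exp 1 ≤ 3` -/
theorem int_theta_le {κ₀ r d e : ℝ} (hr : 0 < r) (hκ : |κ₀| * r ≤ 1 / 2) (he : 0 ≤ e) :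
    ∫ w in (0 : ℝ)..r, (Real.exp (2 * κ₀ * w) * d ^ 2 / (4 * r ^ 2) + e / Real.exp (2 * κ₀ * w)) ≤
      (1 + κ₀ * r + 2 * (κ₀ * r) ^ 2) * d ^ 2 / (4 * r) + 3 * r * e := by
  have hG : ∀ w : ℝ, HasDerivAt (fun w : ℝ => (w + κ₀ * w ^ 2 + 4 / 3 * κ₀ ^ 2 * w ^ 3) * (d ^ 2 / (4 * r ^ 2)) + 3 * e * w)
      ((1 + 2 * κ₀ * w + (2 * κ₀ * w) ^ 2) * (d ^ 2 / (4 * r ^ 2)) + 3 * e) w := by
    intro w
    have h1 := (((hasDerivAt_id w).add ((hasDerivAt_pow 2 w).const_mul κ₀)).add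
      ((hasDerivAt_pow 3 w).const_mul (4 / 3 * κ₀ ^ 2))).mul_const (d ^ 2 / (4 * r ^ 2))
    have h2 := h1.add ((hasDerivAt_id w).const_mul (3 * e))
    refine h2.congr_deriv ?_
    simp only [Nat.cast_ofNat, Nat.add_one_sub_one, pow_one]
    ring
  have hI : ∫ w in (0 : ℝ)..r, ((1 + 2 * κ₀ * w + (2 * κ₀ * w) ^ 2) * (d ^ 2 / (4 * r ^ 2)) + 3 * e) =
      (r + κ₀ * r ^ 2 + 4 / 3 * κ₀ ^ 2 * r ^ 3) * (d ^ 2 / (4 * r ^ 2)) + 3 * e * r := by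
    rw [intervalIntegral.integral_eq_sub_of_hasDerivAt (fun w _ => hG w)
      (Continuous.intervalIntegrable (by fun_prop) _ _)]
    simp
  have hc : Continuous fun w : ℝ =>
      Real.exp (2 * κ₀ * w) * d ^ 2 / (4 * r ^ 2) + e / Real.exp (2 * κ₀ * w) := by
    refine Continuous.add (by fun_prop) (Continuous.div continuous_const (by fun_prop) fun w => (Real.exp_pos _).ne')
  have hle : ∫ w in (0 : ℝ)..r, (Real.exp (2 * κ₀ * w) * d ^ 2 / (4 * r ^ 2) + e / Real.exp (2 * κ₀ * w)) ≤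
      ∫ w in (0 : ℝ)..r, ((1 + 2 * κ₀ * w + (2 * κ₀ * w) ^ 2) * (d ^ 2 / (4 * r ^ 2)) + 3 * e) := by
    refine intervalIntegral.integral_mono_on hr.le (hc.intervalIntegrable _ _)
      (Continuous.intervalIntegrable (by fun_prop) _ _) fun w hw => ?_
    have hx : |2 * κ₀ * w| ≤ 1 := by
      rw [abs_mul, abs_mul, abs_of_nonneg hw.1, abs_two]
      have := mul_le_mul_of_nonneg_left hw.2 (abs_nonneg κ₀)
      linarith
    have h1 : Real.exp (2 * κ₀ * w) ≤ 1 + 2 * κ₀ * w + (2 * κ₀ * w) ^ 2 := by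
      have := (abs_le.1 (Real.abs_exp_sub_one_sub_id_le hx)).2
      linarith
    have h2 : e / Real.exp (2 * κ₀ * w) ≤ 3 * e := by
      rw [div_eq_mul_inv, ← Real.exp_neg, mul_comm]
      refine mul_le_mul_of_nonneg_right ?_ he
      have h3 : Real.exp (-(2 * κ₀ * w)) ≤ Real.exp 1 := Real.exp_le_exp.2 (by have := (abs_le.1 hx).1; linarith)
      have h4 := Real.exp_one_lt_d9
      linarith
    have h5 : Real.exp (2 * κ₀ * w) * d ^ 2 / (4 * r ^ 2) ≤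
        (1 + 2 * κ₀ * w + (2 * κ₀ * w) ^ 2) * (d ^ 2 / (4 * r ^ 2)) := by
      rw [mul_div_assoc]
      exact mul_le_mul_of_nonneg_right h1 (by positivity)
    linarith
  refine hle.trans (hI.le.trans ?_)
  have h6 : (r + κ₀ * r ^ 2 + 4 / 3 * κ₀ ^ 2 * r ^ 3) * (d ^ 2 / (4 * r ^ 2)) =
      (1 + κ₀ * r + 4 / 3 * (κ₀ * r) ^ 2) * (d ^ 2 / (4 * r)) := by
    field_simp
  rw [h6, mul_div_assoc]
  have h7 : (1 + κ₀ * r + 4 / 3 * (κ₀ * r) ^ 2) * (d ^ 2 / (4 * r)) ≤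
      (1 + κ₀ * r + 2 * (κ₀ * r) ^ 2) * (d ^ 2 / (4 * r)) :=
    mul_le_mul_of_nonneg_right (by nlinarith [sq_nonneg (κ₀ * r)]) (by positivity)
  linarith

/-- The family `Φ s =ᵐ T s (ℓ ∘ T (r-s) f)` of Lipschitz representatives (`ℓ` from `exists_ell`; for `s ∉ [0,r]` put
`Φ s = 0`).  `u = T (r-s) f ≥ 0`, `|u| ≤ A`, `Γ u u ≤ exp (4κ₁r) M` (`lipT`), `v = ℓ ∘ u ∈ W`, `|v| ≤ 2 A`,
`Γ v v = ℓ'(u)² Γ u u ≤ Γ u u`; `exists_rep` (weaken the constants); `HJ.cont` from `tendsto_T`;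
`HJsub` with `q s = ∫ T s η Γ v v` from `dC_deriv` (`∫ η Φ s = ∫ T s η ℓ(u)` by `T_symm` for `s` near the point;
`ℓ'' = -ℓ'²` on `[0,∞)`) and `grad_loc` (`exp (4 |κ₀| r) ≤ exp 2 ≤ 9`). -/
theorem WB.exists_HJ (h : WB D T R κ κ₁) (h1 : 0 ≤ κ₁) {z : X} {ρ r e κ₀ A M : ℝ} {B₂ : Set X}
    (hB : MeasurableSet B₂) (hκ : ∀ x ∈ B₂, κ x ≤ κ₀) (h01 : κ₀ ≤ κ₁) (hr : 0 < r) (hκr : |κ₀| * r ≤ 1 / 2)
    (he : 0 ≤ e) (hesc : Esc μ T (Metric.ball z ρ) B₂ r e) (hf : D.W f) (h0 : 0 ≤ A)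
    (hA : ∀ᵐ x ∂μ, 0 ≤ f x ∧ f x ≤ A) (hM0 : 0 ≤ M) (hM : ∀ᵐ x ∂μ, D.Γ f f x ≤ M) :
    ∃ (Φ : ℝ → X → ℝ) (L₀ : ℝ≥0) (C₀ : ℝ), HJ D Φ r L₀ C₀ ∧
      HJsub D Φ r (Metric.ball z ρ) (fun s => Real.exp (2 * κ₀ * s))
        (18 * (κ₁ - κ₀) * (Real.exp (8 * κ₁ * r) * M) * e * r) ∧
      (Φ r =ᵐ[μ] T r fun x => Real.log (1 + f x)) ∧ Φ 0 =ᵐ[μ] fun x => Real.log (1 + T r f x) := by
  classical
  obtain ⟨ℓ, ℓ', ℓ'', l1, l2, l3, l4, l5, l6, l7⟩ := exists_ell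
  have F := h.flow
  have l2c : Continuous ℓ' := continuous_iff_continuousAt.2 fun s => (l2 s).continuousAt
  have hf2 : MemLp f 2 μ := hf.2.1
  have hAa : ∀ᵐ x ∂μ, |f x| ≤ A := hA.mono fun x hx => by rw [abs_of_nonneg hx.1]; exact hx.2
  set M' : ℝ := Real.exp (4 * κ₁ * r) * M with hM'
  have hM'0 : 0 ≤ M' := by positivity
  -- facts on `u s = T (r - s) f`, `v s = ℓ ∘ u s`
  have uW : ∀ s ∈ Icc (0 : ℝ) r, D.W (T (r - s) f) := fun s hs => (F.T_W _ (by linarith [hs.2]) f hf).1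
  have uE : ∀ s ∈ Icc (0 : ℝ) r, D.E (T (r - s) f) (T (r - s) f) ≤ D.E f f :=
    fun s hs => (F.T_W _ (by linarith [hs.2]) f hf).2
  have u0 : ∀ s ∈ Icc (0 : ℝ) r, ∀ᵐ x ∂μ, 0 ≤ T (r - s) f x :=
    fun s hs => F.T_nonneg (by linarith [hs.2]) hf2 (hA.mono fun x hx => hx.1)
  have uA : ∀ s ∈ Icc (0 : ℝ) r, ∀ᵐ x ∂μ, |T (r - s) f x| ≤ A :=
    fun s hs => F.T_bound (by linarith [hs.2]) hf2 h0 hAa
  have uM : ∀ s ∈ Icc (0 : ℝ) r, ∀ᵐ x ∂μ, D.Γ (T (r - s) f) (T (r - s) f) x ≤ M' := by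
    intro s hs
    filter_upwards [h.lipT h1 hf h0 hAa hM0 hM (show 0 ≤ r - s by linarith [hs.2])] with x hx
    refine hx.trans (mul_le_mul_of_nonneg_right (Real.exp_le_exp.2 ?_) hM0)
    nlinarith [hs.1]
  have vW : ∀ s ∈ Icc (0 : ℝ) r, D.W fun x => ℓ (T (r - s) f x) :=
    fun s hs => (uW s hs).chain l1 l2c l4 l6
  have vA : ∀ s ∈ Icc (0 : ℝ) r, ∀ᵐ x ∂μ, |ℓ (T (r - s) f x)| ≤ 2 * A := by
    intro s hs
    filter_upwards [uA s hs] with x hx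
    have := iib3_lip l1 l4 0 (T (r - s) f x)
    rw [l6, sub_zero, sub_zero] at this
    linarith
  have vΓ : ∀ s ∈ Icc (0 : ℝ) r, D.Γ (fun x => ℓ (T (r - s) f x)) (fun x => ℓ (T (r - s) f x)) =ᵐ[μ]
      fun x => ℓ' (T (r - s) f x) ^ 2 * D.Γ (T (r - s) f) (T (r - s) f) x :=
    fun s hs => Cal.Γ_chain_self (uW s hs).1 l1 l2c l4
  have vle : ∀ s ∈ Icc (0 : ℝ) r, ∀ᵐ x ∂μ,
      D.Γ (fun x => ℓ (T (r - s) f x)) (fun x => ℓ (T (r - s) f x)) x ≤ D.Γ (T (r - s) f) (T (r - s) f) x := by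
    intro s hs
    filter_upwards [vΓ s hs, u0 s hs, D.Γ_nonneg _ (uW s hs).1] with x hx hx0 hx1
    rw [hx, (l7 _ hx0).2.1]
    have h2 : (1 + T (r - s) f x)⁻¹ ≤ 1 := inv_le_one_of_one_le₀ (by linarith)
    have h3 : 0 ≤ (1 + T (r - s) f x)⁻¹ := by positivity
    have h4 : (1 + T (r - s) f x)⁻¹ ^ 2 ≤ 1 := pow_le_one₀ h3 h2
    nlinarith
  have vM : ∀ s ∈ Icc (0 : ℝ) r, ∀ᵐ x ∂μ,
      D.Γ (fun x => ℓ (T (r - s) f x)) (fun x => ℓ (T (r - s) f x)) x ≤ M' := by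
    intro s hs
    filter_upwards [vle s hs, uM s hs] with x h2 h3 using h2.trans h3
  have vE : ∀ s ∈ Icc (0 : ℝ) r,
      D.E (fun x => ℓ (T (r - s) f x)) (fun x => ℓ (T (r - s) f x)) ≤ D.E f f :=
    fun s hs => (integral_mono_ae (vW s hs).2.2 (uW s hs).2.2 (vle s hs)).trans (uE s hs)
  set L₀ : ℝ≥0 := (Real.sqrt (Real.exp (4 * κ₁ * r) * M')).toNNReal with hL₀
  have hrep : ∀ s : ℝ, ∃ U : X → ℝ, LipschitzWith L₀ U ∧
      (s ∈ Icc (0 : ℝ) r → T s (fun x => ℓ (T (r - s) f x)) =ᵐ[μ] U) := by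
    intro s
    by_cases hs : s ∈ Icc (0 : ℝ) r
    · obtain ⟨U, hU1, hU2⟩ := h.exists_rep h1 (vW s hs) (by positivity : 0 ≤ 2 * A) (vA s hs) hM'0 (vM s hs) hs.1
      refine ⟨U, hU1.weaken ?_, fun _ => hU2⟩
      refine Real.toNNReal_le_toNNReal (Real.sqrt_le_sqrt ?_)
      refine mul_le_mul_of_nonneg_right (Real.exp_le_exp.2 ?_) hM'0
      nlinarith [hs.2]
    · exact ⟨fun _ => 0, (LipschitzWith.const (0 : ℝ)).weaken (zero_le), fun h' => absurd h' hs⟩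
  choose Φ hΦ1 hΦ2 using hrep
  have TW : ∀ s ∈ Icc (0 : ℝ) r, D.W (T s fun x => ℓ (T (r - s) f x)) :=
    fun s hs => (F.T_W s hs.1 _ (vW s hs)).1
  refine ⟨Φ, L₀, D.E f f, ⟨hr, hΦ1, fun s hs => (TW s hs).congr (hΦ2 s hs), fun s hs => ?_, fun s hs => ?_⟩,
    fun η hη => ?_, ?_, ?_⟩
  · rw [← Cal.E_congr (TW s hs).1 (TW s hs).1 (hΦ2 s hs) (hΦ2 s hs)]
    exact (F.T_W s hs.1 _ (vW s hs)).2.trans (vE s hs)
  · have ha : Tendsto (fun s' : ℝ => s') (𝓝[Icc 0 r] s) (𝓝[Ici 0] s) :=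
      nhdsWithin_mono s Icc_subset_Ici_self
    have ha' : Tendsto (fun s' : ℝ => r - s') (𝓝[Icc 0 r] s) (𝓝[Ici 0] (r - s)) := by
      refine tendsto_nhdsWithin_iff.2 ⟨?_, ?_⟩
      · exact ((continuous_const.sub continuous_id).tendsto s).mono_left nhdsWithin_le_nhds
      · filter_upwards [self_mem_nhdsWithin] with s' hs'
        exact sub_nonneg.2 hs'.2
    have hu := (F.T_cont (r - s) (by linarith [hs.2]) f hf2).comp ha'
    have hv : Tendsto (fun s' => n2 μ fun x => ℓ (T (r - s') f x) - ℓ (T (r - s) f x)) (𝓝[Icc 0 r] s) (𝓝 0) := by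
      have h4 := hu.const_mul ((2 : ℝ) ^ 2)
      rw [mul_zero] at h4
      refine squeeze_zero' (Eventually.of_forall fun _ => n2_nonneg _ _) ?_ h4
      filter_upwards [self_mem_nhdsWithin] with s' hs'
      have hm : MemLp (fun x => T (r - s') f x - T (r - s) f x) 2 μ := (uW s' hs').2.1.sub (uW s hs).2.1
      simp only [Function.comp_apply]
      rw [← n2_smul]
      refine n2_mono (hm.const_mul 2) (Eventually.of_forall fun x => ?_)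
      rw [abs_mul, abs_two]
      exact iib3_lip l1 l4 _ _
    have hT := F.tendsto_T (b := fun s' x => ℓ (T (r - s') f x)) hs.1 ha
      (by filter_upwards [self_mem_nhdsWithin] with s' hs' using (vW s' hs').2.1) (vW s hs).2.1 hv
    refine hT.congr' ?_
    filter_upwards [self_mem_nhdsWithin] with s' hs'
    refine n2_congr ?_
    filter_upwards [hΦ2 s' hs', hΦ2 s hs] with x e1 e2
    rw [e1, e2]
  · have hη2 : MemLp η 2 μ := hη.memLp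
    refine ⟨fun s => ∫ x, T s η x * D.Γ (fun x => ℓ (T (r - s) f x)) (fun x => ℓ (T (r - s) f x)) x ∂μ,
      fun s hs => ?_⟩
    have hs' : s ∈ Icc (0 : ℝ) r := Ioo_subset_Icc_self hs
    refine ⟨?_, ?_, ?_⟩
    · refine integral_nonneg_of_ae ?_
      filter_upwards [F.T_nonneg hs'.1 hη2 (Eventually.of_forall fun x => (hη.mem x).1),
        D.Γ_nonneg _ (vW s hs').1] with x e1 e2
      exact mul_nonneg e1 e2
    · have hd := F.dC_deriv (r := r) (s := s) (A := 1) (K := 2) hη2 zero_le_one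
        (Eventually.of_forall fun x => hη.abs_le x) hf2 hs l1 l2 l3 l4 l5 l6
      have e1 : (∫ x, T s η x * (ℓ'' (T (r - s) f x) * D.Γ (T (r - s) f) (T (r - s) f) x) ∂μ) =
          -∫ x, T s η x * D.Γ (fun x => ℓ (T (r - s) f x)) (fun x => ℓ (T (r - s) f x)) x ∂μ := by
        rw [← integral_neg]
        refine integral_congr_ae ?_
        filter_upwards [vΓ s hs', u0 s hs'] with x e2 e3
        rw [e2, (l7 _ e3).2.2]
        ring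
      rw [e1] at hd
      refine hd.congr_of_eventuallyEq ?_
      filter_upwards [isOpen_Ioo.mem_nhds hs] with t ht
      have ht' : t ∈ Icc (0 : ℝ) r := Ioo_subset_Icc_self ht
      rw [F.T_symm t ht'.1 η _ hη2 (vW t ht').2.1]
      refine integral_congr_ae ?_
      filter_upwards [hΦ2 t ht'] with x e2
      rw [e2]
    · have hg := h.grad_loc h1 hB hκ h01 he hesc hη (vW s hs') (by positivity : 0 ≤ 2 * A) (vA s hs') hM'0
        (vM s hs') hs'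
      have e1 : ∫ x, η x * D.Γ (Φ s) (Φ s) x ∂μ =
          ∫ x, η x * D.Γ (T s fun x => ℓ (T (r - s) f x)) (T s fun x => ℓ (T (r - s) f x)) x ∂μ := by
        refine integral_congr_ae ?_
        filter_upwards [Cal.Γ_congr₂ (TW s hs').1 (TW s hs').1 (hΦ2 s hs') (hΦ2 s hs')] with x e2
        rw [e2]
      rw [e1]
      refine hg.trans ?_
      have hη0 : 0 ≤ ∫ x, η x ∂μ := integral_nonneg fun x => (hη.mem x).1
      have e2 : Real.exp (4 * κ₁ * r) * M' = Real.exp (8 * κ₁ * r) * M := by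
        rw [hM', ← mul_assoc, ← Real.exp_add]
        congr 2
        ring
      have e3 : Real.exp (4 * |κ₀| * r) ≤ 9 := by
        have e4 : Real.exp (4 * |κ₀| * r) ≤ Real.exp (1 + 1) := Real.exp_le_exp.2 (by linarith)
        rw [Real.exp_add] at e4
        have e5 := Real.exp_one_lt_d9
        have e6 := Real.exp_pos 1
        nlinarith
      rw [e2]
      have e7 : 0 ≤ 2 * (κ₁ - κ₀) * (Real.exp (8 * κ₁ * r) * M) * e * r := by
        have : 0 ≤ κ₁ - κ₀ := sub_nonneg.2 h01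
        positivity
      have e8 := mul_le_mul_of_nonneg_right (mul_le_mul_of_nonneg_left e3 e7) hη0
      simp only
      linarith
  · have hr' : r ∈ Icc (0 : ℝ) r := ⟨hr.le, le_rfl⟩
    refine (hΦ2 r hr').symm.trans (F.T_congr hr.le (vW r hr').2.1 ?_)
    rw [sub_self]
    filter_upwards [F.T_zero f hf2, hA] with x e1 e2
    rw [e1, (l7 _ e2.1).1]
  · have hr' : (0 : ℝ) ∈ Icc (0 : ℝ) r := ⟨le_rfl, hr.le⟩
    refine (hΦ2 0 hr').symm.trans ((F.T_zero _ (vW 0 hr').2.1).trans ?_)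
    filter_upwards [u0 0 hr'] with x e1
    rw [(l7 _ e1).1, sub_zero]

/-- `exists_HJ`, `HJ.path`, `int_theta_le`, `eq_of_ae_eq_cont` -/
theorem WB.logHarnack (h : WB D T R κ κ₁) (h1 : 0 ≤ κ₁) {z : X} {ρ r e κ₀ A M d : ℝ} {B₂ : Set X}
    (hB : MeasurableSet B₂) (hκ : ∀ x ∈ B₂, κ x ≤ κ₀) (h01 : κ₀ ≤ κ₁) (hr : 0 < r) (hκr : |κ₀| * r ≤ 1 / 2)
    (he : 0 ≤ e) (hesc : Esc μ T (Metric.ball z ρ) B₂ r e) (hf : D.W f) (h0 : 0 ≤ A)
    (hA : ∀ᵐ x ∂μ, 0 ≤ f x ∧ f x ≤ A) (hM0 : 0 ≤ M) (hM : ∀ᵐ x ∂μ, D.Γ f f x ≤ M)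
    {U V : X → ℝ} (hU : Continuous U) (hV : Continuous V) (hU' : U =ᵐ[μ] T r fun x => Real.log (1 + f x))
    (hV' : V =ᵐ[μ] fun x => Real.log (1 + T r f x))
    {c : ℝ → X} (hc : ∀ s ∈ Icc (0 : ℝ) 1, c s ∈ Metric.ball z ρ) (hd : 0 ≤ d)
    (hcd : ∀ s ∈ Icc (0 : ℝ) 1, ∀ t ∈ Icc (0 : ℝ) 1, dist (c s) (c t) ≤ |s - t| * d) :
    U (c 1) ≤ V (c 0) + (1 + κ₀ * r + 2 * (κ₀ * r) ^ 2) * d ^ 2 / (4 * r) +
      54 * (κ₁ - κ₀) * (Real.exp (8 * κ₁ * r) * M) * e * r ^ 2 := by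
  obtain ⟨Φ, L₀, C₀, hHJ, hsub, e1, e2⟩ := h.exists_HJ h1 hB hκ h01 hr hκr he hesc hf h0 hA hM0 hM
  have hU1 : Φ r = U := eq_of_ae_eq_cont (hHJ.lip r).continuous hU (e1.trans hU'.symm)
  have hV1 : Φ 0 = V := eq_of_ae_eq_cont (hHJ.lip 0).continuous hV (e2.trans hV'.symm)
  have he' : 0 ≤ 18 * (κ₁ - κ₀) * (Real.exp (8 * κ₁ * r) * M) * e * r := by
    have : 0 ≤ κ₁ - κ₀ := sub_nonneg.2 h01
    positivity
  have hp := hHJ.path h.flow h.sl hsub he' (by fun_prop) (fun s => Real.exp_pos _) hc hd hcd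
  have hi := int_theta_le (d := d) hr hκr he'
  rw [hU1, hV1] at hp
  have e3 : 3 * r * (18 * (κ₁ - κ₀) * (Real.exp (8 * κ₁ * r) * M) * e * r) =
      54 * (κ₁ - κ₀) * (Real.exp (8 * κ₁ * r) * M) * e * r ^ 2 := by ring
  linarith

end Crest.Agent.R242.II
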