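import Crest.Agent.R242.IIB1

/-! Row 242, part II (helper16), TASK IIH: Davies-Gaffney bound.
Keep the statements; auxiliary names `iih_*`.  Definitions: `R242/IIDefs.lean`; paper proof: `R242/IIRead.lean`. -/

set_option autoImplicit false
set_option linter.unusedSectionVars false
set_option linter.unusedVariables false

open MeasureTheory Filter Set
open scoped ENNReal NNReal Topology

noncomputable section

namespace Crest.Agent.R242.II

variable {X : Type*} [MetricSpace X] [MeasurableSpace X] [BorelSpace X] [ProperSpace X]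
  {μ : Measure X} [IsFiniteMeasureOnCompacts μ] [μ.IsOpenPosMeasure] {D : Cal μ}
  {T R : ℝ → (X → ℝ) → X → ℝ} {u v w f g η ψ L : X → ℝ}

theorem iih_sqrt_le {c : ℝ} (hc : 0 ≤ c) (hg : MemLp g 2 μ) (h : ∀ᵐ x ∂μ, |f x| ≤ c * |g x|) :
    Real.sqrt (n2 μ f) ≤ c * Real.sqrt (n2 μ g) := by
  have h1 : n2 μ f ≤ n2 μ fun x => c * g x :=
    n2_mono (hg.const_mul c) (h.mono fun x hx => by rwa [abs_mul, abs_of_nonneg hc])
  rw [n2_smul] at h1
  calc _ ≤ Real.sqrt (c ^ 2 * n2 μ g) := Real.sqrt_le_sqrt h1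
    _ = _ := by rw [Real.sqrt_mul (sq_nonneg c), Real.sqrt_sq hc]

/-- `∫ g T f = ∫ (e^{ψ} g) (e^{-ψ} T f)`, Cauchy-Schwarz, `T_gaffney` for `-ψ` -/
theorem Flow.dg_pair (h : Flow D T R) {t : ℝ} (ht : 0 ≤ t) {β : ℝ≥0} (hψ : LipschitzWith β ψ)
    (hb : ∃ B : ℝ, ∀ x, |ψ x| ≤ B) (hf : MemLp f 2 μ) (hg : MemLp g 2 μ) :
    ∫ x, g x * T t f x ∂μ ≤ Real.exp ((β : ℝ) ^ 2 * t) * Real.sqrt (n2 μ fun x => Real.exp (-ψ x) * f x) *
      Real.sqrt (n2 μ fun x => Real.exp (ψ x) * g x) := by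
  obtain ⟨B, hB⟩ := hb
  have hc : Continuous ψ := hψ.continuous
  have m1 : MemLp (fun x => Real.exp (-ψ x) * T t f x) 2 μ :=
    memLp_mul_bdd (A := Real.exp B) (h.T_mem t ht f hf)
      (show Continuous fun x => Real.exp (-ψ x) by fun_prop).aestronglyMeasurable (ae_of_all _ fun x => by
        rw [abs_of_pos (Real.exp_pos _)]
        exact Real.exp_le_exp.2 (by linarith [(abs_le.1 (hB x)).1]))
  have m2 : MemLp (fun x => Real.exp (ψ x) * g x) 2 μ :=
    memLp_mul_bdd (A := Real.exp B) hg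
      (show Continuous fun x => Real.exp (ψ x) by fun_prop).aestronglyMeasurable (ae_of_all _ fun x => by
        rw [abs_of_pos (Real.exp_pos _)]
        exact Real.exp_le_exp.2 (abs_le.1 (hB x)).2)
  have e : ∫ x, g x * T t f x ∂μ = ∫ x, (Real.exp (-ψ x) * T t f x) * (Real.exp (ψ x) * g x) ∂μ := by
    refine integral_congr_ae (ae_of_all _ fun x => ?_)
    have h1 : Real.exp (-ψ x) * Real.exp (ψ x) = 1 := by rw [← Real.exp_add]; simp
    calc g x * T t f x = (Real.exp (-ψ x) * Real.exp (ψ x)) * (g x * T t f x) := by rw [h1, one_mul]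
      _ = _ := by ring
  have hG := h.T_gaffney t ht β (fun x => -ψ x) hψ.neg ⟨B, fun x => by simpa using hB x⟩ f hf
  rw [e]
  refine (le_abs_self _).trans ((abs_int_mul_le m1 m2).trans (mul_le_mul_of_nonneg_right ?_ (Real.sqrt_nonneg _)))
  refine (Real.sqrt_le_sqrt hG).trans_eq ?_
  rw [Real.sqrt_mul (Real.exp_pos _).le, show 2 * (β : ℝ) ^ 2 * t = (β : ℝ) ^ 2 * t + (β : ℝ) ^ 2 * t by ring,
    Real.exp_add, Real.sqrt_mul_self (Real.exp_pos _).le]

/-- one shell -/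
theorem iih_shell (h : Flow D T R) {t l ε ρ : ℝ} {y : X} {f₁ : X → ℝ} (ht : 0 < t) (hl : 0 < l) (hε : 0 < ε)
    (hf : MemLp f 2 μ) (hf₁ : MemLp f₁ 2 μ) (hg : MemLp g 2 μ) (i : ℕ)
    (hle : ∀ᵐ x ∂μ, f x = 0 ∨ ((i : ℝ) * ε ≤ dist x y ∧
      |f x| ≤ Real.exp (l * ((((i : ℝ) + 1) * ε) ^ 2 / (4 * t))) * |f₁ x|))
    (hg0 : ∀ x, x ∉ Metric.ball y ε → g x = 0) :
    ∫ x, g x * T (t / l) f x ∂μ ≤ Real.exp (l * ((4 * (i : ℝ) + 1) * ε ^ 2 / (4 * t))) *
      (Real.sqrt (n2 μ f₁) * Real.sqrt (n2 μ g)) := by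
  have hi : (0 : ℝ) ≤ i := Nat.cast_nonneg i
  obtain ⟨c, hcd⟩ : ∃ c : ℝ≥0, (c : ℝ) = l * (i * ε / (2 * t)) := ⟨⟨_, by positivity⟩, rfl⟩
  have hc : (0 : ℝ) ≤ c := c.2
  have hL : LipschitzWith c fun x => (c : ℝ) * min (dist x y) (i * ε) := by
    refine LipschitzWith.of_dist_le_mul fun a b => ?_
    have h1 := ((LipschitzWith.dist_left y).min_const ((i : ℝ) * ε)).dist_le_mul a b
    rw [Real.dist_eq] at h1 ⊢
    rw [← mul_sub, abs_mul, abs_of_nonneg hc]
    exact mul_le_mul_of_nonneg_left (by simpa using h1) hc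
  have hb : ∃ B : ℝ, ∀ x, |(c : ℝ) * min (dist x y) (i * ε)| ≤ B := ⟨c * (i * ε), fun x => by
    rw [abs_of_nonneg (mul_nonneg hc (le_min dist_nonneg (by positivity)))]
    exact mul_le_mul_of_nonneg_left (min_le_right _ _) hc⟩
  have h1 := h.dg_pair (t := t / l) (by positivity) hL hb hf hg
  have h2 : Real.sqrt (n2 μ fun x => Real.exp (-((c : ℝ) * min (dist x y) (i * ε))) * f x) ≤
      Real.exp (-((c : ℝ) * (i * ε)) + l * ((((i : ℝ) + 1) * ε) ^ 2 / (4 * t))) * Real.sqrt (n2 μ f₁) := by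
    refine iih_sqrt_le (Real.exp_pos _).le hf₁ (hle.mono fun x hx => ?_)
    rcases hx with hx | ⟨hx1, hx2⟩
    · rw [hx, mul_zero, abs_zero]
      positivity
    · rw [min_eq_right hx1, abs_mul, abs_of_pos (Real.exp_pos _), Real.exp_add, mul_assoc (Real.exp _)]
      exact mul_le_mul_of_nonneg_left hx2 (Real.exp_pos _).le
  have h3 : Real.sqrt (n2 μ fun x => Real.exp ((c : ℝ) * min (dist x y) (i * ε)) * g x) ≤
      Real.exp ((c : ℝ) * ε) * Real.sqrt (n2 μ g) := by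
    refine iih_sqrt_le (Real.exp_pos _).le hg (ae_of_all _ fun x => ?_)
    by_cases hx : x ∈ Metric.ball y ε
    · rw [abs_mul, abs_of_pos (Real.exp_pos _)]
      exact mul_le_mul_of_nonneg_right (Real.exp_le_exp.2 (mul_le_mul_of_nonneg_left
        ((min_le_left _ _).trans (le_of_lt hx)) hc)) (abs_nonneg _)
    · rw [hg0 x hx]
      simp
  refine h1.trans ((mul_le_mul (mul_le_mul_of_nonneg_left h2 (Real.exp_pos _).le) h3 (Real.sqrt_nonneg _)
    (by positivity)).trans_eq ?_)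
  have e : l * ((4 * (i : ℝ) + 1) * ε ^ 2 / (4 * t)) =
      (c : ℝ) ^ 2 * (t / l) + (-((c : ℝ) * (i * ε)) + l * ((((i : ℝ) + 1) * ε) ^ 2 / (4 * t))) + c * ε := by
    rw [hcd]
    field_simp
    ring
  rw [e]
  simp only [Real.exp_add]
  ring

/-- `N = ⌈ρ/ε⌉₊`; shells `A i = {i ε ≤ d(·,y) < (i+1) ε}` for `i < N`, `A N = {N ε ≤ d(·,y)}`;
`f = ∑_{i ≤ N} 1_{A i} f` (`T_sum`); `dg_pair` with `ψ i = l (i ε/(2t)) min (d(·,y)) (N ε)`, `β = l i ε/(2t)`:
on `A i`, `ψ i ≥ l (iε)²/(2t)` and `min d² ρ² ≤ ((i+1)ε)²`; on the ball `ψ i ≤ l i ε²/(2t)`; `β² (t/l) = l (iε)²/(4t)`.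
The exponents add up to `l (4i+1) ε²/(4t) ≤ l (4ρε + 5ε²)/(4t)` and `N + 1 ≤ ρ/ε + 2`. -/
theorem Flow.dg_shell (h : Flow D T R) {t l ε ρ : ℝ} {y : X} {f₁ : X → ℝ} (ht : 0 < t) (hl : 0 < l) (hε : 0 < ε)
    (hρ : 0 ≤ ρ) (hf : MemLp f 2 μ) (hf₁ : MemLp f₁ 2 μ) (hg : MemLp g 2 μ)
    (hle : ∀ᵐ x ∂μ, |f x| ≤ Real.exp (l * (min (dist x y ^ 2) (ρ ^ 2) / (4 * t))) * |f₁ x|)
    (hg0 : ∀ x, x ∉ Metric.ball y ε → g x = 0) :
    ∫ x, g x * T (t / l) f x ∂μ ≤ (ρ / ε + 2) * Real.exp (l * ((4 * ρ * ε + 5 * ε ^ 2) / (4 * t))) *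
      (Real.sqrt (n2 μ f₁) * Real.sqrt (n2 μ g)) := by
  classical
  set N : ℕ := ⌈ρ / ε⌉₊ with hN
  have hN1 : ρ ≤ N * ε := (div_le_iff₀ hε).1 (Nat.le_ceil _)
  have hN2 : (N : ℝ) ≤ ρ / ε + 1 := (Nat.ceil_lt_add_one (by positivity)).le
  have hN3 : (N : ℝ) * ε ≤ ρ + ε := by
    have := mul_le_mul_of_nonneg_right hN2 hε.le
    rwa [add_mul, div_mul_cancel₀ _ hε.ne', one_mul] at this
  set k : X → ℕ := fun x => min N ⌊dist x y / ε⌋₊ with hk
  have hkm : Measurable k := by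
    have h1 : Measurable fun x => ⌊dist x y / ε⌋₊ :=
      Measurable.nat_floor (show Continuous fun x => dist x y / ε by fun_prop).measurable
    exact (measurable_from_top (f := fun n : ℕ => min N n)).comp h1
  set a : ℕ → X → ℝ := fun i => (k ⁻¹' {i}).indicator f with ha
  have ham : ∀ i, MemLp (a i) 2 μ := fun i => hf.indicator (hkm (measurableSet_singleton i))
  have hs : f = fun x => ∑ i ∈ Finset.range (N + 1), a i x := by
    funext x
    rw [Finset.sum_eq_single (k x)]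
    · simp [ha]
    · intro j _ hj
      exact indicator_of_notMem (s := k ⁻¹' {j}) (fun h' => hj (Eq.symm h')) f
    · intro h'
      exact absurd (Finset.mem_range.2 (Nat.lt_succ_of_le (min_le_left _ _))) h'
  have ht' : 0 ≤ t / l := by positivity
  have e : ∫ x, g x * T (t / l) f x ∂μ = ∑ i ∈ Finset.range (N + 1), ∫ x, g x * T (t / l) (a i) x ∂μ := by
    rw [← integral_finsetSum _ fun i _ => integrable_mul2 hg (h.T_mem _ ht' _ (ham i))]
    refine integral_congr_ae ?_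
    filter_upwards [h.T_sum ht' (Finset.range (N + 1)) fun i _ => ham i] with x hx
    rw [← hs] at hx
    rw [hx, Finset.mul_sum]
  have hb : ∀ i ∈ Finset.range (N + 1), ∫ x, g x * T (t / l) (a i) x ∂μ ≤
      Real.exp (l * ((4 * ρ * ε + 5 * ε ^ 2) / (4 * t))) * (Real.sqrt (n2 μ f₁) * Real.sqrt (n2 μ g)) := by
    intro i hi
    have hiN : (i : ℝ) ≤ N := Nat.cast_le.2 (Nat.lt_succ_iff.1 (Finset.mem_range.1 hi))
    have hi0 : (0 : ℝ) ≤ i := Nat.cast_nonneg i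
    refine (iih_shell (ρ := ρ) h ht hl hε (ham i) hf₁ hg i (hle.mono fun x hx => ?_) hg0).trans ?_
    · by_cases hx' : k x = i
      · right
        have h0 : 0 ≤ dist x y / ε := by positivity
        have h1 : (i : ℝ) ≤ dist x y / ε := by
          refine le_trans ?_ (Nat.floor_le h0)
          exact Nat.cast_le.2 (hx' ▸ min_le_right _ _)
        refine ⟨(le_div_iff₀ hε).1 h1, ?_⟩
        rw [show a i x = f x from indicator_of_mem (s := k ⁻¹' {i}) hx' f]
        refine hx.trans (mul_le_mul_of_nonneg_right (Real.exp_le_exp.2 (mul_le_mul_of_nonneg_left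
          (div_le_div_of_nonneg_right ?_ (by positivity)) hl.le)) (abs_nonneg _))
        rcases min_choice N ⌊dist x y / ε⌋₊ with h2 | h2
        · have h3 : (N : ℝ) = i := by exact_mod_cast h2.symm.trans hx'
          refine (min_le_right _ _).trans (pow_le_pow_left₀ hρ ?_ 2)
          rw [← h3]
          nlinarith
        · have h3 : (⌊dist x y / ε⌋₊ : ℝ) = i := by exact_mod_cast h2.symm.trans hx'
          refine (min_le_left _ _).trans (pow_le_pow_left₀ dist_nonneg ?_ 2)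
          rw [← h3]
          exact ((div_lt_iff₀ hε).1 (Nat.lt_floor_add_one _)).le
      · exact Or.inl (indicator_of_notMem (s := k ⁻¹' {i}) hx' f)
    · refine mul_le_mul_of_nonneg_right (Real.exp_le_exp.2 (mul_le_mul_of_nonneg_left
        (div_le_div_of_nonneg_right ?_ (by positivity)) hl.le)) (by positivity)
      have h1 : (i : ℝ) * ε ≤ ρ + ε := (mul_le_mul_of_nonneg_right hiN hε.le).trans hN3
      nlinarith [mul_le_mul_of_nonneg_right h1 hε.le]
  rw [e]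
  refine (Finset.sum_le_card_nsmul _ _ _ hb).trans ?_
  rw [Finset.card_range, nsmul_eq_mul, mul_assoc (ρ / ε + 2)]
  refine mul_le_mul_of_nonneg_right ?_ (by positivity)
  push_cast
  linarith

end Crest.Agent.R242.II
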