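import Crest.Agent.R242.Wug1

/-! Row 242, I-b, TASK Wug2: curves and their speed (keep the statements; aux names `w2_*`). -/

set_option autoImplicit false
set_option linter.unusedSectionVars false
open MeasureTheory Filter Set Topology
open scoped ENNReal NNReal
open Crest.GeometryTopology.SyntheticRicci

namespace Crest.Agent.R242

variable {X : Type*} [MetricSpace X]

theorem continuous_toMap : Continuous (UCurve.toMap : UCurve X → C(unitInterval, X)) := continuous_induced_dom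
theorem continuous_ev : Continuous (ev : UCurve X × ℝ → X) :=
  (continuous_toMap.comp continuous_fst).eval (continuous_projIcc.comp continuous_snd)
theorem continuous_at (t : unitInterval) : Continuous fun γ : UCurve X => γ.toMap t := continuous_toMap.eval_const t
theorem continuous_ext (γ : UCurve X) : Continuous γ.ext := γ.toMap.continuous.comp continuous_projIcc
theorem ext_coe (γ : UCurve X) (t : unitInterval) : γ.ext t = γ.toMap t := by rw [UCurve.ext, projIcc_val]
theorem ext_of_mem (γ : UCurve X) {t : ℝ} (ht : t ∈ Icc (0 : ℝ) 1) : γ.ext t = γ.toMap ⟨t, ht⟩ := by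
  rw [UCurve.ext, projIcc_of_mem _ ht]
theorem ext_zero (γ : UCurve X) : γ.ext 0 = γ.toMap 0 := ext_coe γ 0
theorem ext_one (γ : UCurve X) : γ.ext 1 = γ.toMap 1 := ext_coe γ 1

theorem w2_eq (γ : UCurve X) (t : ℝ) : upperSpeed γ t = ⨅ n : ℕ, ⨆ q : ℚ,
    ⨆ _ : q ≠ 0 ∧ |(q : ℝ)| < 1 / (n + 1), ENNReal.ofReal (dist (γ.ext (t + q)) (γ.ext t) / |(q : ℝ)|) := by
  rw [upperSpeed, (nhdsWithin_hasBasis Metric.nhds_basis_ball_inv_nat_succ _).limsup_eq_iInf_iSup]
  refine iInf_congr fun n => ?_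
  rw [iInf_true]
  refine le_antisymm (iSup₂_le fun s hs => le_of_forall_lt fun c hc => ?_) (iSup₂_le fun q hq => ?_)
  · have h1 : ContinuousAt (fun s : ℝ => ENNReal.ofReal (dist (γ.ext s) (γ.ext t) / |s - t|)) s :=
      ENNReal.continuous_ofReal.continuousAt.comp
        (((continuous_ext γ).dist continuous_const).continuousAt.div (by fun_prop) (abs_pos.2 (sub_ne_zero.2 hs.2)).ne')
    have h2 := (h1.eventually (lt_mem_nhds hc)).and ((Metric.isOpen_ball.inter isOpen_compl_singleton).mem_nhds hs)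
    obtain ⟨q, h3, h4, h5⟩ := (((Homeomorph.addLeft t).surjective.denseRange).comp Rat.denseRange_cast
      (Homeomorph.addLeft t).continuous).mem_nhds h2
    simp only [Function.comp, Homeomorph.coe_addLeft, add_sub_cancel_left, Metric.mem_ball, Real.dist_eq,
      mem_compl_iff, mem_singleton_iff, add_eq_left, Rat.cast_eq_zero] at h3 h4 h5
    exact h3.trans_le (le_iSup₂_of_le q ⟨h5, h4⟩ le_rfl)
  · refine le_iSup₂_of_le (t + q) ⟨by rw [Metric.mem_ball, Real.dist_eq, add_sub_cancel_left]; exact hq.2,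
      by simpa using hq.1⟩ ?_
    rw [add_sub_cancel_left]

/-- `upperSpeed γ t = ⨅ n, ⨆ q : ℚ, ⨆ (0 < |q| < 1/(n+1)), ofReal (dist (γ.ext (t+q)) (γ.ext t) / |q|)`
(the quotient is continuous in `s ≠ t`, so the supremum over a punctured interval is that over `t + ℚ`) -/
theorem measurable_upperSpeed : Measurable fun z : UCurve X × ℝ => upperSpeed z.1 z.2 := by
  simp only [w2_eq]
  refine Measurable.iInf fun n => Measurable.iSup fun q => Measurable.iSup_Prop _ (Continuous.measurable ?_)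
  refine ENNReal.continuous_ofReal.comp (Continuous.div_const (Continuous.dist ?_ continuous_ev) _)
  exact continuous_ev.comp (continuous_fst.prodMk (continuous_snd.add continuous_const))
theorem measurable_sp : Measurable (sp : UCurve X × ℝ → ℝ) := measurable_upperSpeed.ennreal_toReal

/-- If `g s - g t ≤ (G + ε) dist (γ s) (γ t)` near `t` for every `ε`, then `|g' t| ≤ G * speed`
(look at the side of `t` on which `g` increases). -/
theorem abs_deriv_le_speed {γ : UCurve X} {g : ℝ → ℝ} {t G : ℝ} (hG : 0 ≤ G) (hfin : upperSpeed γ t ≠ ⊤)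
    (h : ∀ ε : ℝ, 0 < ε → ∀ᶠ s in 𝓝 t, g s - g t ≤ (G + ε) * dist (γ.ext s) (γ.ext t)) :
    |deriv g t| ≤ G * sp (γ, t) := by
  have hS : 0 ≤ sp (γ, t) := sp_nonneg _
  by_cases hd : DifferentiableAt ℝ g t
  swap
  · rw [deriv_zero_of_not_differentiableAt hd, abs_zero]
    positivity
  obtain ⟨hl, hr⟩ := hasDerivAt_iff_tendsto_slope_left_right.1 hd.hasDerivAt
  have key : ∀ ε : ℝ, 0 < ε → |deriv g t| ≤ (G + ε) * (sp (γ, t) + ε) := fun ε hε => by
    have h1 : upperSpeed γ t < ENNReal.ofReal (sp (γ, t) + ε) := by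
      rw [ENNReal.lt_ofReal_iff_toReal_lt hfin]
      exact lt_add_of_pos_right _ hε
    have h2 : ∀ᶠ s in 𝓝[≠] t, g s - g t ≤ (G + ε) * (sp (γ, t) + ε) * |s - t| := by
      filter_upwards [eventually_lt_of_limsup_lt h1, nhdsWithin_le_nhds (h ε hε), self_mem_nhdsWithin]
        with s h3 h4 h5
      rw [ENNReal.ofReal_lt_ofReal_iff (by positivity), div_lt_iff₀ (abs_pos.2 (sub_ne_zero.2 h5))] at h3
      rw [mul_assoc]
      exact h4.trans (mul_le_mul_of_nonneg_left h3.le (by positivity))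
    refine abs_le.2 ⟨ge_of_tendsto hl ?_, le_of_tendsto hr ?_⟩
    · filter_upwards [nhdsLT_le_nhdsNE t h2, self_mem_nhdsWithin] with s h3 h4
      have h5 : s - t < 0 := sub_neg.2 h4
      rw [abs_of_neg h5] at h3
      rw [slope_def_field, le_div_iff_of_neg h5]
      linarith
    · filter_upwards [nhdsGT_le_nhdsNE t h2, self_mem_nhdsWithin] with s h3 h4
      have h5 : 0 < s - t := sub_pos.2 h4
      rw [abs_of_pos h5] at h3
      rwa [slope_def_field, div_le_iff₀ h5]
  have h3 : Tendsto (fun ε : ℝ => (G + ε) * (sp (γ, t) + ε)) (𝓝[>] 0) (𝓝 ((G + 0) * (sp (γ, t) + 0))) :=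
    (Continuous.tendsto (by fun_prop) 0).mono_left nhdsWithin_le_nhds
  rw [add_zero, add_zero] at h3
  exact ge_of_tendsto h3 (eventually_mem_nhdsWithin.mono fun ε hε => key ε hε)

theorem w2_int {a : ℝ → ℝ≥0∞} (ha : Measurable a) (hfin : ∫⁻ r in Icc (0 : ℝ) 1, a r ≠ ⊤) :
    IntervalIntegrable (fun r => (a r).toReal) volume 0 1 :=
  (intervalIntegrable_iff_integrableOn_Icc_of_le zero_le_one).2
    (integrable_toReal_of_lintegral_ne_top ha.aemeasurable hfin)

theorem w2_A {a : ℝ → ℝ≥0∞} (ha : Measurable a) (hfin : ∫⁻ r in Icc (0 : ℝ) 1, a r ≠ ⊤) {s t : ℝ} (h0 : 0 ≤ s)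
    (hst : s ≤ t) (h1 : t ≤ 1) :
    ENNReal.ofReal |(∫ r in (0 : ℝ)..t, (a r).toReal) - ∫ r in (0 : ℝ)..s, (a r).toReal| = ∫⁻ r in Icc s t, a r := by
  have hi := w2_int ha hfin
  have h2 : ∫⁻ r in Icc s t, a r ≠ ⊤ := ne_top_of_le_ne_top hfin (lintegral_mono_set (Icc_subset_Icc h0 h1))
  have h3 : ∀ u, 0 ≤ u → u ≤ 1 → IntervalIntegrable (fun r => (a r).toReal) volume 0 u := fun u k0 k1 =>
    hi.mono_set (by rw [uIcc_of_le k0, uIcc_of_le zero_le_one]; exact Icc_subset_Icc le_rfl k1)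
  rw [intervalIntegral.integral_interval_sub_left (h3 t (h0.trans hst) h1) (h3 s h0 (hst.trans h1)),
    intervalIntegral.integral_of_le hst, ← integral_Icc_eq_integral_Ioc,
    integral_toReal ha.aemeasurable (ae_lt_top ha h2), abs_of_nonneg ENNReal.toReal_nonneg, ENNReal.ofReal_toReal h2]

theorem w2_dist {γ : UCurve X} {a : ℝ → ℝ≥0∞} (ha : Measurable a) (hfin : ∫⁻ r in Icc (0 : ℝ) 1, a r ≠ ⊤)
    {s t : unitInterval}
    (h : (s : ℝ) ≤ (t : ℝ) → edist (γ.toMap s) (γ.toMap t) ≤ ∫⁻ r in Icc (s : ℝ) (t : ℝ), a r)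
    (h' : (t : ℝ) ≤ (s : ℝ) → edist (γ.toMap t) (γ.toMap s) ≤ ∫⁻ r in Icc (t : ℝ) (s : ℝ), a r) :
    dist (γ.toMap s) (γ.toMap t) ≤ |(∫ r in (0 : ℝ)..t, (a r).toReal) - ∫ r in (0 : ℝ)..s, (a r).toReal| := by
  rcases le_total (s : ℝ) t with hst | hst
  · rw [← edist_le_ofReal (abs_nonneg _), w2_A ha hfin s.2.1 hst t.2.2]
    exact h hst
  · rw [← edist_le_ofReal (abs_nonneg _), abs_sub_comm, w2_A ha hfin t.2.1 hst s.2.2, edist_comm]
    exact h' hst

theorem w2_fin {a : ℝ → ℝ≥0∞} (h : (∫⁻ r in Icc (0 : ℝ) 1, a r ^ 2) < ⊤) : ∫⁻ r in Icc (0 : ℝ) 1, a r ≠ ⊤ := by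
  have h1 : ∀ r, a r ≤ a r ^ 2 + 1 := fun r => by
    rcases le_total (a r) 1 with h2 | h2
    · exact le_add_left h2
    · exact le_add_right (le_self_pow₀ h2 two_ne_zero)
  refine ne_top_of_le_ne_top ?_ (lintegral_mono h1)
  rw [lintegral_add_right _ measurable_const]
  simp [h.ne]

/-- Lebesgue differentiation of `∫ a` -/
theorem upperSpeed_le_of_edist_le {γ : UCurve X} {a : ℝ → ℝ≥0∞} (ha : Measurable a)
    (hfin : ∫⁻ r in Icc (0 : ℝ) 1, a r ≠ ⊤)
    (h : ∀ s t : unitInterval, (s : ℝ) ≤ (t : ℝ) →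
      edist (γ.toMap s) (γ.toMap t) ≤ ∫⁻ r in Icc (s : ℝ) (t : ℝ), a r) :
    ∀ᵐ t ∂I01, upperSpeed γ t ≤ a t := by
  refine (ae_restrict_iff' measurableSet_Icc).2 ?_
  filter_upwards [(w2_int ha hfin).ae_hasDerivAt_integral, Measure.ae_ne volume (0 : ℝ), Measure.ae_ne volume (1 : ℝ)]
    with t h1 h2 h3 ht
  rw [uIcc_of_le zero_le_one] at h1
  have h4 := (ENNReal.continuous_ofReal.tendsto _).comp (h1 ht 0 ⟨le_rfl, zero_le_one⟩).tendsto_slope.abs
  refine le_trans (limsup_le_limsup ?_) (h4.limsup_eq.trans_le ?_)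
  · filter_upwards [nhdsWithin_le_nhds (Icc_mem_nhds (lt_of_le_of_ne ht.1 h2.symm) (lt_of_le_of_ne ht.2 h3))]
      with s hs
    refine ENNReal.ofReal_le_ofReal ?_
    simp only [slope_def_field]
    rw [abs_div, ext_of_mem γ hs, ext_of_mem γ ht, dist_comm]
    exact div_le_div_of_nonneg_right (w2_dist ha hfin (h _ _) (h _ _)) (abs_nonneg _)
  · rw [abs_of_nonneg ENNReal.toReal_nonneg]
    exact ENNReal.ofReal_toReal_le

theorem l2speed_upperSpeed_ne_top {γ : UCurve X} (h : HasL2Speed γ) : ∀ᵐ t ∂I01, upperSpeed γ t ≠ ⊤ := by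
  obtain ⟨a, ha, h1, h2⟩ := h
  filter_upwards [upperSpeed_le_of_edist_le ha (w2_fin h1) h2, ae_lt_top ha (w2_fin h1)] with t h3 h4
  exact (h3.trans_lt h4).ne

/-- `f` is Lipschitz on the compact track; `dist (γ s) (γ t) ≤ |A t - A s|`, `A t = ∫ 0..t, (a r).toReal` -/
theorem l2speed_ac_comp {γ : UCurve X} (h : HasL2Speed γ) {f : X → ℝ} (hf : LocallyLipschitz f) :
    AbsolutelyContinuousOnInterval (fun t => f (γ.ext t)) 0 1 := by
  obtain ⟨a, ha, h1, h2⟩ := h
  obtain ⟨K, hK⟩ := (hf.locallyLipschitzOn (s := range γ.toMap)).exists_lipschitzOnWith_of_compact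
    (isCompact_range γ.toMap.continuous)
  refine ac_of_dist_le (K := K) ((w2_int ha (w2_fin h1)).absolutelyContinuousOnInterval_intervalIntegral
    left_mem_uIcc) fun s hs t ht => ?_
  rw [ext_of_mem γ hs, ext_of_mem γ ht, ← Real.dist_eq, dist_comm]
  exact (hK.dist_le_mul _ (mem_range_self _) _ (mem_range_self _)).trans
    (mul_le_mul_of_nonneg_left (w2_dist ha (w2_fin h1) (h2 _ _) (h2 _ _)) K.2)

/-- apply `ac_sub_le_lintegral`, `abs_deriv_le_speed` to `r ↦ dist (γ.ext r) (γ s)` -/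
theorem l2speed_edist_le {γ : UCurve X} (h : HasL2Speed γ) (s t : unitInterval) (hst : (s : ℝ) ≤ (t : ℝ)) :
    edist (γ.toMap s) (γ.toMap t) ≤ ∫⁻ r in Icc (s : ℝ) (t : ℝ), upperSpeed γ r := by
  have h1 := ac_sub_le_lintegral (l2speed_ac_comp h (LipschitzWith.dist_left (γ.toMap s)).locallyLipschitz)
    s.2.1 hst t.2.2
  simp only [ext_coe, dist_self, sub_zero, abs_dist] at h1
  rw [edist_comm, edist_dist]
  refine h1.trans (lintegral_mono_ae ?_)
  filter_upwards [ae_restrict_of_ae_restrict_of_subset (Icc_subset_Icc s.2.1 t.2.2) (l2speed_upperSpeed_ne_top h)]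
    with r hr
  have h2 := abs_deriv_le_speed (g := fun r => dist (γ.ext r) (γ.toMap s)) zero_le_one hr fun ε hε =>
    Eventually.of_forall fun u => by
      have h3 := dist_triangle (γ.ext u) (γ.ext r) (γ.toMap s)
      have h4 := mul_nonneg hε.le (dist_nonneg (x := γ.ext u) (y := γ.ext r))
      linarith
  rw [one_mul] at h2
  exact (ENNReal.ofReal_le_ofReal h2).trans ENNReal.ofReal_toReal_le

theorem w2_meas (γ : UCurve X) : Measurable (upperSpeed γ) := by
  have h := (measurable_upperSpeed (X := X)).comp (measurable_prodMk_left (x := γ))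
  simp only [Function.comp_def] at h
  exact h

theorem hasL2Speed_iff {γ : UCurve X} : HasL2Speed γ ↔
    (∫⁻ r in Icc (0 : ℝ) 1, upperSpeed γ r ^ 2) < ⊤ ∧ ∀ s t : unitInterval, (s : ℝ) ≤ (t : ℝ) →
      edist (γ.toMap s) (γ.toMap t) ≤ ∫⁻ r in Icc (s : ℝ) (t : ℝ), upperSpeed γ r := by
  refine ⟨fun h => ⟨?_, l2speed_edist_le h⟩, fun h => ⟨_, w2_meas γ, h.1, h.2⟩⟩
  obtain ⟨a, ha, h1, h2⟩ := h
  refine lt_of_le_of_lt (lintegral_mono_ae ?_) h1
  filter_upwards [upperSpeed_le_of_edist_le ha (w2_fin h1) h2] with t ht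
  exact pow_le_pow_left' ht 2

/-- in `hasL2Speed_iff` rational `s, t` suffice (continuity from above of the finite integral);
`Measurable.lintegral_prod_right'` -/
theorem measurableSet_hasL2Speed : MeasurableSet {γ : UCurve X | HasL2Speed γ} := by
  let u := TopologicalSpace.denseSeq unitInterval
  have e : {γ : UCurve X | HasL2Speed γ} = {γ | (∫⁻ r in Icc (0 : ℝ) 1, upperSpeed γ r ^ 2) < ⊤} ∩
      ⋂ i, ⋂ j, ⋂ _ : (u i : ℝ) ≤ u j,
        {γ | edist (γ.toMap (u i)) (γ.toMap (u j)) ≤ ∫⁻ r in Icc (u i : ℝ) (u j), upperSpeed γ r} := by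
    ext γ
    simp only [mem_ofPred_eq, mem_inter_iff, mem_iInter, hasL2Speed_iff]
    refine and_congr_right fun h1 => ⟨fun h i j => h _ _, fun h s t hst => ?_⟩
    have h2 := w2_fin h1
    have h3 : Continuous fun t : unitInterval => ∫ r in (0 : ℝ)..t, (upperSpeed γ r).toReal := by
      have := ((w2_int (w2_meas γ) h2).absolutelyContinuousOnInterval_intervalIntegral left_mem_uIcc).continuousOn
      rw [uIcc_of_le zero_le_one] at this
      exact this.domRestrict
    rw [← w2_A (w2_meas γ) h2 s.2.1 hst t.2.2, edist_le_ofReal (abs_nonneg _)]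
    refine (TopologicalSpace.denseRange_denseSeq unitInterval).induction_on₂ (p := fun s t : unitInterval =>
      dist (γ.toMap s) (γ.toMap t) ≤
        |(∫ r in (0 : ℝ)..t, (upperSpeed γ r).toReal) - ∫ r in (0 : ℝ)..s, (upperSpeed γ r).toReal|)
      (isClosed_le (by fun_prop) ((h3.comp continuous_snd).sub (h3.comp continuous_fst)).abs)
      (fun i j => w2_dist (w2_meas γ) h2 (h i j) (h j i)) s t
  rw [e]
  refine (measurableSet_lt (measurable_upperSpeed.pow_const 2).lintegral_prod_right' measurable_const).inter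
    (MeasurableSet.iInter fun i => MeasurableSet.iInter fun j => MeasurableSet.iInter fun _ => ?_)
  exact measurableSet_le ((continuous_at _).edist (continuous_at _)).measurable
    measurable_upperSpeed.lintegral_prod_right'

theorem upperSpeed_geodesic {γ : UCurve X} (h : IsCSGeodesic γ) {t : ℝ} (ht : t ∈ Icc (0 : ℝ) 1) :
    upperSpeed γ t = edist (γ.toMap 0) (γ.toMap 1) := by
  have hD : 0 ≤ dist (γ.toMap 0) (γ.toMap 1) := dist_nonneg
  rw [edist_dist]
  refine le_antisymm (limsup_le_of_le (h := Eventually.of_forall fun s => ENNReal.ofReal_le_ofReal ?_))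
    (le_limsup_of_frequently_le' ?_)
  · refine div_le_of_le_mul₀ (abs_nonneg _) hD ?_
    rw [UCurve.ext, UCurve.ext, h, mul_comm]
    exact mul_le_mul_of_nonneg_left (abs_projIcc_sub_projIcc _) hD
  · have h1 : ∃ᶠ s in 𝓝[≠] t, s ∈ Icc (0 : ℝ) 1 := by
      rcases ht.2.lt_or_eq with h2 | h2
      · exact ((eventually_of_mem (Ioo_mem_nhdsGT h2) fun s hs => ⟨ht.1.trans hs.1.le, hs.2.le⟩).frequently).filter_mono
          (nhdsGT_le_nhdsNE t)
      · exact ((eventually_of_mem (Ioo_mem_nhdsLT (h2 ▸ zero_lt_one : 0 < t)) fun s hs =>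
          ⟨hs.1.le, hs.2.le.trans ht.2⟩).frequently).filter_mono (nhdsLT_le_nhdsNE t)
    refine (h1.and_eventually self_mem_nhdsWithin).mono fun s hs => le_of_eq ?_
    rw [ext_of_mem γ hs.1, ext_of_mem γ ht, h ⟨s, hs.1⟩,
      mul_div_cancel_left₀ _ (abs_pos.2 (sub_ne_zero.2 hs.2)).ne']
theorem hasL2Speed_geodesic {γ : UCurve X} (h : IsCSGeodesic γ) : HasL2Speed γ := by
  refine ⟨fun _ => edist (γ.toMap 0) (γ.toMap 1), measurable_const, ?_, fun s t hst => le_of_eq ?_⟩
  · simp [edist_lt_top]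
  · rw [setLIntegral_const, Real.volume_Icc, edist_dist, h, edist_dist, abs_sub_comm, abs_of_nonneg (sub_nonneg.2 hst),
      mul_comm, ENNReal.ofReal_mul dist_nonneg]

end Crest.Agent.R242
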