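import Crest.Agent.R242.IIDefs
import Crest.Agent.R242.Wug2

/-! Row 242, part II: from local second differences to the distributional inequality (helper75). -/

set_option autoImplicit false
set_option linter.unusedSectionVars false
open MeasureTheory Filter Set Topology
open scoped ENNReal NNReal
open Crest.GeometryTopology.SyntheticRicci

namespace Crest.Agent.R242.II

theorem sd_taylor {φ φ' φ'' : ℝ → ℝ} {K : ℝ≥0} (h1 : ∀ s, HasDerivAt φ (φ' s) s) (h2 : ∀ s, HasDerivAt φ' (φ'' s) s)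
    (hK : LipschitzWith K φ'') (t : ℝ) {h : ℝ} (hh : 0 ≤ h) :
    |φ (t + h) + φ (t - h) - 2 * φ t - h ^ 2 * φ'' t| ≤ 2 * K * h * h * h := by
  have d2 : ∀ s, HasDerivAt (fun s => φ' (t + s) - φ' (t - s) - 2 * s * φ'' t)
      (φ'' (t + s) + φ'' (t - s) - 2 * φ'' t) s := fun s => by
    have a1 := (h2 (t + s)).comp s ((hasDerivAt_id s).const_add t)
    have a2 := (h2 (t - s)).comp s ((hasDerivAt_id s).const_sub t)
    have a3 := ((hasDerivAt_id s).const_mul 2).mul_const (φ'' t)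
    exact ((a1.fun_sub a2).fun_sub a3).congr_deriv (by ring)
  have d1 : ∀ s, HasDerivAt (fun s => φ (t + s) + φ (t - s) - 2 * φ t - s ^ 2 * φ'' t)
      (φ' (t + s) - φ' (t - s) - 2 * s * φ'' t) s := fun s => by
    have a1 := (h1 (t + s)).comp s ((hasDerivAt_id s).const_add t)
    have a2 := (h1 (t - s)).comp s ((hasDerivAt_id s).const_sub t)
    have a3 := (hasDerivAt_pow 2 s).mul_const (φ'' t)
    exact (((a1.fun_add a2).sub_const (2 * φ t)).fun_sub a3).congr_deriv (by simp; ring)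
  have b2 : ∀ s ∈ Icc 0 h, ‖φ'' (t + s) + φ'' (t - s) - 2 * φ'' t‖ ≤ 2 * K * h := fun s hs => by
    have e1 := hK.dist_le_mul (t + s) t
    have e2 := hK.dist_le_mul (t - s) t
    rw [Real.dist_eq, Real.dist_eq] at e1 e2
    rw [show t + s - t = s by ring, abs_of_nonneg hs.1] at e1
    rw [show t - s - t = -s by ring, abs_neg, abs_of_nonneg hs.1] at e2
    have e3 : (K : ℝ) * s ≤ K * h := mul_le_mul_of_nonneg_left hs.2 K.coe_nonneg
    rw [Real.norm_eq_abs, abs_le] at *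
    constructor <;> linarith [e1.1, e1.2, e2.1, e2.2]
  have b1 : ∀ s ∈ Icc 0 h, ‖φ' (t + s) - φ' (t - s) - 2 * s * φ'' t‖ ≤ 2 * K * h * h := fun s hs => by
    have := (convex_Icc 0 h).norm_image_sub_le_of_norm_hasDerivWithin_le
      (fun x _ => (d2 x).hasDerivWithinAt) b2 (left_mem_Icc.2 hh) hs
    simp only [add_zero, sub_zero, sub_self, mul_zero, zero_mul] at this
    refine this.trans (mul_le_mul_of_nonneg_left ?_ (by positivity))
    rw [Real.norm_eq_abs, abs_of_nonneg hs.1]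
    exact hs.2
  have := (convex_Icc 0 h).norm_image_sub_le_of_norm_hasDerivWithin_le
    (fun x _ => (d1 x).hasDerivWithinAt) b1 (left_mem_Icc.2 hh) (right_mem_Icc.2 hh)
  simp only [add_zero, sub_zero, Real.norm_eq_abs, abs_of_nonneg hh] at this
  convert this using 2
  ring

/-- the real variable statement -/
theorem sd_real {f g φ : ℝ → ℝ} {c : ℝ} (hf : Continuous f) (hg : Continuous g) (hc : 0 ≤ c)
    (h : ∀ ε : ℝ, 0 < ε → ∀ᶠ h in 𝓝 (0 : ℝ), ∀ t ∈ Icc (0 : ℝ) 1, 0 < h → 0 ≤ t - h → t + h ≤ 1 →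
      f (t + h) + f (t - h) - 2 * f t ≤ (g t + ε) * (c * h ^ 2))
    (hφ : ContDiff ℝ ((⊤ : ℕ∞) : WithTop ℕ∞) φ) (hs : HasCompactSupport φ) (hsub : tsupport φ ⊆ Ioo (0 : ℝ) 1)
    (h0 : ∀ t, 0 ≤ φ t) :
    ∫ t in Icc (0 : ℝ) 1, f t * iteratedDeriv 2 φ t ≤ c * ∫ t in Icc (0 : ℝ) 1, g t * φ t := by
  have e2 : iteratedDeriv 2 φ = deriv (deriv φ) := by
    rw [iteratedDeriv_succ, iteratedDeriv_one]
  have c1 : ContDiff ℝ ((⊤ : ℕ∞) : WithTop ℕ∞) (deriv φ) := (contDiff_infty_iff_deriv.1 hφ).2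
  have c2 : ContDiff ℝ ((⊤ : ℕ∞) : WithTop ℕ∞) (deriv (deriv φ)) := (contDiff_infty_iff_deriv.1 c1).2
  have h1 : ∀ s, HasDerivAt φ (deriv φ s) s := fun s => ((contDiff_infty_iff_deriv.1 hφ).1 s).hasDerivAt
  have h2 : ∀ s, HasDerivAt (deriv φ) (deriv (deriv φ) s) s := fun s =>
    ((contDiff_infty_iff_deriv.1 c1).1 s).hasDerivAt
  obtain ⟨K, hK⟩ := c2.lipschitzWith_of_hasCompactSupport hs.deriv.deriv (by simp)
  obtain ⟨M, hM⟩ := isCompact_Icc.exists_bound_of_continuousOn (hf.continuousOn (s := Icc (0 : ℝ) 1))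
  have hM0 : 0 ≤ M := (norm_nonneg _).trans (hM 0 (by simp))
  have cφ := hφ.continuous
  -- the support stays away from the end points
  have hev : ∀ᶠ h in 𝓝 (0 : ℝ), ∀ t ∈ tsupport φ, 0 < t - h ∧ t - h < 1 ∧ 0 < t + h ∧ t + h < 1 := by
    refine IsCompact.eventually_forall_of_forall_eventually hs fun t ht => ?_
    have a1 : ContinuousAt (fun z : ℝ × ℝ => z.2 - z.1) (0, t) := by fun_prop
    have a2 : ContinuousAt (fun z : ℝ × ℝ => z.2 + z.1) (0, t) := by fun_prop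
    have b := hsub ht
    filter_upwards [a1.eventually (isOpen_Ioo.mem_nhds (by simpa using b)),
      a2.eventually (isOpen_Ioo.mem_nhds (by simpa using b))] with z z1 z2
    exact ⟨z1.1, z1.2, z2.1, z2.2⟩
  have iφ : IntegrableOn φ (Icc (0 : ℝ) 1) := cφ.integrableOn_Icc
  have igφ : IntegrableOn (fun t => g t * φ t) (Icc (0 : ℝ) 1) := (hg.mul cφ).integrableOn_Icc
  rw [e2]
  have key : ∀ ε : ℝ, 0 < ε → ∀ᶠ h in 𝓝[>] (0 : ℝ), ∫ t in Icc (0 : ℝ) 1, f t * deriv (deriv φ) t ≤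
      c * (∫ t in Icc (0 : ℝ) 1, g t * φ t) + ε * (c * ∫ t in Icc (0 : ℝ) 1, φ t) + M * (2 * K) * h := by
    intro ε hε
    filter_upwards [nhdsWithin_le_nhds (h ε hε), nhdsWithin_le_nhds hev, self_mem_nhdsWithin] with h a1 a2 hh
    have hh : 0 < h := hh
    have z0 : ∀ t, t ∉ Icc (0 : ℝ) 1 → φ t = 0 := fun t ht =>
      image_eq_zero_of_notMem_tsupport fun h' => ht (Ioo_subset_Icc_self (hsub h'))
    have z1 : ∀ t, t ∉ Icc (0 : ℝ) 1 → φ (t + h) = 0 := fun t ht =>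
      image_eq_zero_of_notMem_tsupport fun h' => ht (by
        obtain ⟨b1, b2, -, -⟩ := a2 _ h'
        constructor <;> linarith)
    have z2 : ∀ t, t ∉ Icc (0 : ℝ) 1 → φ (t - h) = 0 := fun t ht =>
      image_eq_zero_of_notMem_tsupport fun h' => ht (by
        obtain ⟨-, -, b1, b2⟩ := a2 _ h'
        constructor <;> linarith)
    have s1 : ∫ t in Icc (0 : ℝ) 1, f t * φ (t + h) = ∫ t in Icc (0 : ℝ) 1, f (t - h) * φ t := by
      rw [setIntegral_eq_integral_of_forall_compl_eq_zero fun t ht => by rw [z1 t ht, mul_zero],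
        setIntegral_eq_integral_of_forall_compl_eq_zero fun t ht => by rw [z0 t ht, mul_zero],
        ← integral_add_right_eq_self (fun t => f (t - h) * φ t) h]
      simp only [add_sub_cancel_right]
    have s2 : ∫ t in Icc (0 : ℝ) 1, f t * φ (t - h) = ∫ t in Icc (0 : ℝ) 1, f (t + h) * φ t := by
      rw [setIntegral_eq_integral_of_forall_compl_eq_zero fun t ht => by rw [z2 t ht, mul_zero],
        setIntegral_eq_integral_of_forall_compl_eq_zero fun t ht => by rw [z0 t ht, mul_zero],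
        ← integral_sub_right_eq_self (fun t => f (t + h) * φ t) h]
      simp only [sub_add_cancel]
    have i1 : IntegrableOn (fun t => f t * φ (t + h)) (Icc (0 : ℝ) 1) := Continuous.integrableOn_Icc (by fun_prop)
    have i2 : IntegrableOn (fun t => f t * φ (t - h)) (Icc (0 : ℝ) 1) := Continuous.integrableOn_Icc (by fun_prop)
    have i3 : IntegrableOn (fun t => 2 * (f t * φ t)) (Icc (0 : ℝ) 1) := Continuous.integrableOn_Icc (by fun_prop)
    have i4 : IntegrableOn (fun t => f (t - h) * φ t) (Icc (0 : ℝ) 1) := Continuous.integrableOn_Icc (by fun_prop)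
    have i5 : IntegrableOn (fun t => f (t + h) * φ t) (Icc (0 : ℝ) 1) := Continuous.integrableOn_Icc (by fun_prop)
    have i6 : IntegrableOn (fun t => h ^ 2 * (f t * deriv (deriv φ) t)) (Icc (0 : ℝ) 1) :=
      Continuous.integrableOn_Icc (continuous_const.mul (hf.mul c2.continuous))
    have i7 : IntegrableOn (fun _ : ℝ => M * (2 * K * h * h * h)) (Icc (0 : ℝ) 1) := continuous_const.integrableOn_Icc
    have t1 : ∫ t in Icc (0 : ℝ) 1, h ^ 2 * (f t * deriv (deriv φ) t) ≤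
        ∫ t in Icc (0 : ℝ) 1, (f t * φ (t + h) + f t * φ (t - h) - 2 * (f t * φ t) + M * (2 * K * h * h * h)) := by
      refine setIntegral_mono_on i6 (((i1.add i2).sub i3).add i7) measurableSet_Icc fun t ht => ?_
      have b1 := sd_taylor h1 h2 hK t hh.le
      have b2 : |f t * (φ (t + h) + φ (t - h) - 2 * φ t - h ^ 2 * deriv (deriv φ) t)| ≤ M * (2 * K * h * h * h) := by
        rw [abs_mul]
        exact mul_le_mul (hM t ht) b1 (abs_nonneg _) hM0
      have b3 := (abs_le.1 b2).1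
      nlinarith
    have t2 : ∫ t in Icc (0 : ℝ) 1, (f (t - h) * φ t + f (t + h) * φ t - 2 * (f t * φ t)) ≤
        ∫ t in Icc (0 : ℝ) 1, (c * h ^ 2 * (g t * φ t) + ε * (c * h ^ 2) * φ t) := by
      refine setIntegral_mono_on ((i4.add i5).sub i3) ((igφ.const_mul _).add (iφ.const_mul _)) measurableSet_Icc
        fun t ht => ?_
      by_cases ht' : t ∈ tsupport φ
      · obtain ⟨b1, -, -, b2⟩ := a2 t ht'
        have b3 := mul_le_mul_of_nonneg_right (a1 t ht hh b1.le b2.le) (h0 t)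
        nlinarith
      · rw [image_eq_zero_of_notMem_tsupport ht']
        simp
    have i12 : IntegrableOn (fun t => f t * φ (t + h) + f t * φ (t - h)) (Icc (0 : ℝ) 1) := i1.add i2
    have i123 : IntegrableOn (fun t => f t * φ (t + h) + f t * φ (t - h) - 2 * (f t * φ t)) (Icc (0 : ℝ) 1) :=
      i12.sub i3
    have i45 : IntegrableOn (fun t => f (t - h) * φ t + f (t + h) * φ t) (Icc (0 : ℝ) 1) := i4.add i5
    rw [integral_const_mul, integral_add i123 i7, integral_sub i12 i3, integral_add i1 i2, s1, s2] at t1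
    rw [integral_sub i45 i3, integral_add i4 i5, integral_add (igφ.const_mul _) (iφ.const_mul _),
      integral_const_mul (c * h ^ 2), integral_const_mul (ε * (c * h ^ 2))] at t2
    have t3 : ∫ _ in Icc (0 : ℝ) 1, M * (2 * K * h * h * h) = M * (2 * K * h * h * h) := by simp
    rw [t3] at t1
    refine le_of_mul_le_mul_left ?_ (pow_pos hh 2)
    nlinarith
  have lim : ∀ ε : ℝ, 0 < ε → ∫ t in Icc (0 : ℝ) 1, f t * deriv (deriv φ) t ≤
      c * (∫ t in Icc (0 : ℝ) 1, g t * φ t) + ε * (c * ∫ t in Icc (0 : ℝ) 1, φ t) := fun ε hε => by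
    have : Tendsto (fun h : ℝ => c * (∫ t in Icc (0 : ℝ) 1, g t * φ t) + ε * (c * ∫ t in Icc (0 : ℝ) 1, φ t) +
        M * (2 * K) * h) (𝓝[>] 0) (𝓝 (c * (∫ t in Icc (0 : ℝ) 1, g t * φ t) + ε * (c * ∫ t in Icc (0 : ℝ) 1, φ t) +
        M * (2 * K) * 0)) := Tendsto.mono_left (Continuous.tendsto (by fun_prop) 0) nhdsWithin_le_nhds
    simpa using ge_of_tendsto this (key ε hε)
  have : Tendsto (fun ε : ℝ => c * (∫ t in Icc (0 : ℝ) 1, g t * φ t) + ε * (c * ∫ t in Icc (0 : ℝ) 1, φ t))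
      (𝓝[>] 0) (𝓝 (c * (∫ t in Icc (0 : ℝ) 1, g t * φ t) + 0 * (c * ∫ t in Icc (0 : ℝ) 1, φ t))) :=
    Tendsto.mono_left (Continuous.tendsto (by fun_prop) 0) nhdsWithin_le_nhds
  simpa using ge_of_tendsto this (eventually_mem_nhdsWithin.mono fun ε hε => lim ε hε)

variable {X : Type*} [MetricSpace X] {F G : X → ℝ}

theorem sd_geo {γ : UCurve X} (hγ : IsCSGeodesic γ) {s t : ℝ} (hs : s ∈ Icc (0 : ℝ) 1) (ht : t ∈ Icc (0 : ℝ) 1) :
    dist (γ.ext s) (γ.ext t) = |s - t| * dist (γ.toMap 0) (γ.toMap 1) := by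
  rw [ext_of_mem γ hs, ext_of_mem γ ht]
  exact hγ _ _

theorem SD.along (h : SD F G) (hF : Continuous F) (hG : Continuous G) (γ : UCurve X) (hγ : IsCSGeodesic γ) :
    SecondDerivAlongLe F G γ := by
  intro φ hφ hs hsub h0
  have cγ := continuous_ext γ
  refine sd_real (f := fun t => F (γ.ext t)) (g := fun t => G (γ.ext t)) (hF.comp cγ) (hG.comp cγ) (sq_nonneg _)
    (fun ε hε => ?_) hφ hs hsub h0
  set d := dist (γ.toMap 0) (γ.toMap 1) with hd
  have d0 : 0 ≤ d := dist_nonneg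
  refine IsCompact.eventually_forall_of_forall_eventually isCompact_Icc fun t₀ ht₀ => ?_
  obtain ⟨ρ, hρ, hb⟩ := Metric.continuous_iff.1 hG (γ.ext t₀) (ε / 2) (half_pos hε)
  obtain ⟨δ₀, hδ₀, hd₀⟩ := h (γ.ext t₀) ρ (G (γ.ext t₀) + ε / 2) hρ fun x hx => by
    have := hb x hx
    rw [Real.dist_eq] at this
    linarith [(abs_lt.1 this).2]
  have a1 : ContinuousAt (fun z : ℝ × ℝ => dist (γ.ext z.2) (γ.ext t₀)) (0, t₀) := by fun_prop
  have a2 : ContinuousAt (fun z : ℝ × ℝ => z.1 * d) (0, t₀) := by fun_prop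
  filter_upwards [a1.eventually (gt_mem_nhds (by simpa using hδ₀)), a1.eventually (gt_mem_nhds (by simpa using hρ)),
    a2.eventually (gt_mem_nhds (by simpa using hδ₀))] with z z1 z2 z3 hh b1 b2
  have m0 : z.2 ∈ Icc (0 : ℝ) 1 := ⟨by linarith, by linarith⟩
  have m1 : z.2 + z.1 ∈ Icc (0 : ℝ) 1 := ⟨by linarith, b2⟩
  have m2 : z.2 - z.1 ∈ Icc (0 : ℝ) 1 := ⟨b1, by linarith⟩
  have k := hd₀ (γ.ext (z.2 + z.1)) (γ.ext (z.2 - z.1)) (γ.ext z.2) (z.1 * d) z1 z3
    (by rw [sd_geo hγ m1 m0, add_sub_cancel_left, abs_of_pos hh])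
    (by rw [sd_geo hγ m2 m0, show z.2 - z.1 - z.2 = -z.1 by ring, abs_neg, abs_of_pos hh])
    (by rw [sd_geo hγ m1 m2, show z.2 + z.1 - (z.2 - z.1) = 2 * z.1 by ring, abs_of_pos (by linarith)]; ring)
  have k2 := hb _ z2
  rw [Real.dist_eq] at k2
  have k3 : G (γ.ext t₀) + ε / 2 ≤ G (γ.ext z.2) + ε := by linarith [(abs_lt.1 k2).1]
  have k4 := mul_le_mul_of_nonneg_right k3 (sq_nonneg (z.1 * d))
  calc _ ≤ _ := k
    _ ≤ _ := k4
    _ = _ := by ring

end Crest.Agent.R242.II
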