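import Crest.Agent.R242.IIDefs

/-! Row 242, part II (helper16), TASK IIV0: the test function `phi`.
Keep the statements; auxiliary names `iiv0_*`.  Definitions: `R242/IIDefs.lean`; paper proof: `R242/IIRead.lean`. -/

set_option autoImplicit false
set_option linter.unusedSectionVars false
set_option linter.unusedVariables false

open MeasureTheory Filter Set
open scoped ENNReal NNReal Topology

noncomputable section

namespace Crest.Agent.R242.II

variable {X : Type*} [MetricSpace X] [MeasurableSpace X] [BorelSpace X] [ProperSpace X]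


/-- cutoff: `1` on `ball z 1`, `0` off `ball z 2` -/
def cut (z x : X) : ℝ := max 0 (min 1 (2 - dist x z))

/-- the test function of the Varadhan argument -/
def phi (F : X → ℝ) (z y : X) (ρ t M : ℝ) (x : X) : ℝ :=
  cut z x * (min (dist x y ^ 2) (ρ ^ 2) / (4 * t) - F x / 2 + M)

theorem iiv0_mul {f g : X → ℝ} {Kf Kg : ℝ≥0} (hf : LipschitzWith Kf f) (hg : LipschitzWith Kg g) {A B : ℝ}
    (hA : ∀ x, |f x| ≤ A) (hB : ∀ x, |g x| ≤ B) : ∃ K : ℝ≥0, LipschitzWith K fun x => f x * g x := by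
  refine ⟨_, LipschitzWith.of_dist_le' (K := A * Kg + B * Kf) fun x y => ?_⟩
  have h1 := hf.dist_le_mul x y
  have h2 := hg.dist_le_mul x y
  rw [Real.dist_eq] at h1 h2 ⊢
  have e : f x * g x - f y * g y = f x * (g x - g y) + g y * (f x - f y) := by ring
  rw [e]
  refine (abs_add_le _ _).trans ?_
  rw [abs_mul, abs_mul]
  have a1 : |f x| * |g x - g y| ≤ A * (Kg * dist x y) :=
    mul_le_mul (hA x) h2 (abs_nonneg _) ((abs_nonneg _).trans (hA x))
  have a2 : |g y| * |f x - f y| ≤ B * (Kf * dist x y) :=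
    mul_le_mul (hB y) h1 (abs_nonneg _) ((abs_nonneg _).trans (hB y))
  linarith

theorem iiv0_cut_mem (z x : X) : 0 ≤ cut z x ∧ cut z x ≤ 1 :=
  ⟨le_max_left _ _, max_le zero_le_one (min_le_left _ _)⟩

theorem iiv0_cut_lip (z : X) : ∃ K : ℝ≥0, LipschitzWith K (cut z) := by
  have h1 : LipschitzWith 1 fun x : X => dist x z := LipschitzWith.dist_left z
  have h2 := (LipschitzWith.const (2 : ℝ)).sub h1
  exact ⟨_, (h2.const_min 1).const_max 0⟩

theorem iiv0_min_mem (x y : X) (ρ : ℝ) : 0 ≤ min (dist x y ^ 2) (ρ ^ 2) ∧ min (dist x y ^ 2) (ρ ^ 2) ≤ ρ ^ 2 :=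
  ⟨le_min (sq_nonneg _) (sq_nonneg _), min_le_right _ _⟩

theorem iiv0_min_lip (y : X) {ρ : ℝ} (hρ : 0 ≤ ρ) :
    ∃ K : ℝ≥0, LipschitzWith K fun x : X => min (dist x y ^ 2) (ρ ^ 2) := by
  have h1 : LipschitzWith 1 fun x : X => min (dist x y) ρ := (LipschitzWith.dist_left y).min_const ρ
  have hb : ∀ x : X, |min (dist x y) ρ| ≤ ρ := fun x => by
    rw [abs_of_nonneg (le_min dist_nonneg hρ)]
    exact min_le_right _ _
  obtain ⟨K, hK⟩ := iiv0_mul h1 h1 hb hb
  refine ⟨K, ?_⟩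
  convert hK using 2 with x
  have hd : 0 ≤ dist x y := dist_nonneg
  rcases le_total (dist x y) ρ with h | h
  · rw [min_eq_left h, min_eq_left (by nlinarith), sq]
  · rw [min_eq_right h, min_eq_right (by nlinarith), sq]

section phi
variable {F : X → ℝ} {LF : ℝ≥0} {MF ρ t M : ℝ}

theorem phi_lip (hF : LipschitzWith LF F) (hb : ∀ x, |F x| ≤ MF) (z y : X) (hρ : 0 ≤ ρ) (ht : 0 < t) (M : ℝ) :
    ∃ K : ℝ≥0, LipschitzWith K (phi F z y ρ t M) := by
  obtain ⟨K1, h1⟩ := iiv0_cut_lip z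
  obtain ⟨K2, h2⟩ := iiv0_min_lip y hρ
  have h3 : ∃ K : ℝ≥0, LipschitzWith K fun x : X => min (dist x y ^ 2) (ρ ^ 2) / (4 * t) - F x / 2 + M := by
    refine ⟨_, LipschitzWith.of_dist_le' (K := K2 / (4 * t) + LF / 2) fun a b => ?_⟩
    have e1 := h2.dist_le_mul a b
    have e2 := hF.dist_le_mul a b
    rw [Real.dist_eq] at e1 e2 ⊢
    have e : min (dist a y ^ 2) (ρ ^ 2) / (4 * t) - F a / 2 + M - (min (dist b y ^ 2) (ρ ^ 2) / (4 * t) - F b / 2 + M) =
        (min (dist a y ^ 2) (ρ ^ 2) - min (dist b y ^ 2) (ρ ^ 2)) / (4 * t) - (F a - F b) / 2 := by ring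
    rw [e]
    refine (abs_sub _ _).trans ?_
    rw [abs_div, abs_div, abs_of_pos (by positivity : (0 : ℝ) < 4 * t), abs_two]
    have e3 := div_le_div_of_nonneg_right e1 (by positivity : (0 : ℝ) ≤ 4 * t)
    have e4 : ((K2 : ℝ) / (4 * t) + LF / 2) * dist a b = K2 * dist a b / (4 * t) + LF * dist a b / 2 := by ring
    rw [e4]
    linarith
  obtain ⟨K3, h3⟩ := h3
  refine iiv0_mul h1 h3 (A := 1) (B := ρ ^ 2 / (4 * t) + MF / 2 + |M|) (fun x => ?_) fun x => ?_
  · rw [abs_of_nonneg (iiv0_cut_mem z x).1]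
    exact (iiv0_cut_mem z x).2
  · have m := iiv0_min_mem x y ρ
    have m1 : 0 ≤ min (dist x y ^ 2) (ρ ^ 2) / (4 * t) := div_nonneg m.1 (by positivity)
    have m2 := div_le_div_of_nonneg_right m.2 (by positivity : (0 : ℝ) ≤ 4 * t)
    have b := abs_le.1 (hb x)
    have := le_abs_self M
    have := neg_abs_le M
    exact abs_le.2 ⟨by linarith, by linarith⟩

theorem phi_mem (hb : ∀ x, |F x| ≤ MF) (z y : X) (ht : 0 < t) (hM : MF / 2 ≤ M) (x : X) :
    0 ≤ phi F z y ρ t M x ∧ phi F z y ρ t M x ≤ ρ ^ 2 / (4 * t) + 2 * M := by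
  have m := iiv0_min_mem x y ρ
  have m1 : 0 ≤ min (dist x y ^ 2) (ρ ^ 2) / (4 * t) := div_nonneg m.1 (by positivity)
  have m2 := div_le_div_of_nonneg_right m.2 (by positivity : (0 : ℝ) ≤ 4 * t)
  have b := abs_le.1 (hb x)
  have c := iiv0_cut_mem z x
  have g0 : 0 ≤ min (dist x y ^ 2) (ρ ^ 2) / (4 * t) - F x / 2 + M := by linarith
  refine ⟨mul_nonneg c.1 g0, ?_⟩
  have := mul_le_of_le_one_left g0 c.2
  unfold phi
  linarith

theorem phi_zero (z y x : X) (hx : x ∉ Metric.ball z 2) : phi F z y ρ t M x = 0 := by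
  have h : 2 ≤ dist x z := by simpa using hx
  have : cut z x = 0 := max_eq_left ((min_le_right _ _).trans (by linarith))
  unfold phi
  rw [this, zero_mul]

theorem phi_le (hb : ∀ x, |F x| ≤ MF) (z y : X) (ht : 0 < t) (hM : MF / 2 ≤ M) (x : X) :
    phi F z y ρ t M x ≤ min (dist x y ^ 2) (ρ ^ 2) / (4 * t) - F x / 2 + M := by
  have m := iiv0_min_mem x y ρ
  have m1 : 0 ≤ min (dist x y ^ 2) (ρ ^ 2) / (4 * t) := div_nonneg m.1 (by positivity)
  have b := abs_le.1 (hb x)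
  have c := iiv0_cut_mem z x
  have g0 : 0 ≤ min (dist x y ^ 2) (ρ ^ 2) / (4 * t) - F x / 2 + M := by linarith
  exact mul_le_of_le_one_left g0 c.2

theorem phi_add_ge (hF : LipschitzWith LF F) {z a b x : X} {δ ε : ℝ} (ht : 0 < t) (hab : dist a b = 2 * δ)
    (hε : ε ≤ 1) (hx : x ∈ Metric.ball z ε) :
    δ ^ 2 / (2 * t) - F z - LF * ε + 2 * M ≤ phi F z a (2 * δ) t M x + phi F z b (2 * δ) t M x := by
  have h : dist x z < ε := hx
  have hc : cut z x = 1 := by
    unfold cut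
    rw [min_eq_left (by linarith), max_eq_right zero_le_one]
  have hδ : 0 ≤ δ := by linarith [dist_nonneg (x := a) (y := b)]
  have tri : 2 * δ ≤ dist x a + dist x b := hab ▸ dist_triangle_left a b x
  have da : 0 ≤ dist x a := dist_nonneg
  have db : 0 ≤ dist x b := dist_nonneg
  have key : 2 * δ ^ 2 ≤ min (dist x a ^ 2) ((2 * δ) ^ 2) + min (dist x b ^ 2) ((2 * δ) ^ 2) := by
    have ma := iiv0_min_mem x a (2 * δ)
    have mb := iiv0_min_mem x b (2 * δ)
    rcases le_total (dist x a ^ 2) ((2 * δ) ^ 2) with h1 | h1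
    · rcases le_total (dist x b ^ 2) ((2 * δ) ^ 2) with h2 | h2
      · rw [min_eq_left h1, min_eq_left h2]
        nlinarith [sq_nonneg (dist x a - dist x b), mul_self_le_mul_self (by linarith) tri]
      · rw [min_eq_right h2]
        nlinarith [ma.1]
    · rw [min_eq_right h1]
      nlinarith [mb.1]
  have hF' : F x ≤ F z + LF * ε := by
    have e := hF.dist_le_mul x z
    rw [Real.dist_eq] at e
    have e2 := mul_le_mul_of_nonneg_left h.le LF.coe_nonneg
    linarith [le_abs_self (F x - F z)]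
  have k2 := div_le_div_of_nonneg_right key (by positivity : (0 : ℝ) ≤ 4 * t)
  have k3 : 2 * δ ^ 2 / (4 * t) = δ ^ 2 / (2 * t) := by
    field_simp
    ring
  unfold phi
  rw [hc, one_mul, one_mul]
  rw [add_div, k3] at k2
  linarith

end phi

end Crest.Agent.R242.II
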