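import Crest.Agent.R242.IIG

/-! Row 242, part II (helper16), TASK IIV1: integrated log-Harnack inequality; lower bound by the escape estimate.
Keep the statements; auxiliary names `iiv1_*`.  Definitions: `R242/IIDefs.lean`; paper proof: `R242/IIRead.lean`. -/

set_option autoImplicit false
set_option linter.unusedSectionVars false
set_option linter.unusedVariables false

open MeasureTheory Filter Set
open scoped ENNReal NNReal Topology

noncomputable section

namespace Crest.Agent.R242.II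

variable {X : Type*} [MetricSpace X] [MeasurableSpace X] [BorelSpace X] [ProperSpace X]
  {μ : Measure X} [IsFiniteMeasureOnCompacts μ] [μ.IsOpenPosMeasure] {D : Cal μ}
  {T R : ℝ → (X → ℝ) → X → ℝ} {u v w f g η ψ L : X → ℝ} {κ : X → ℝ} {κ₁ : ℝ}

/-- `WB.exists_rep` gives a continuous `W₀ ≥ 0` with `T r f = W₀` a.e.; for `g x ≠ 0` apply `WB.logHarnack` with
`V = log (1 + W₀)` along a geodesic from `x` to `z`: `exp (U z - c₀) ≤ 1 + W₀ x`; multiply by `g x`, integrate. -/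
theorem WB.harnack_avg (h : WB D T R κ κ₁) (hgeo : Geod X) (h1 : 0 ≤ κ₁) {z₀ z : X} {ρ r e κ₀ A M d : ℝ}
    {B₂ : Set X} (hB : MeasurableSet B₂) (hκ : ∀ x ∈ B₂, κ x ≤ κ₀) (h01 : κ₀ ≤ κ₁) (hr : 0 < r)
    (hκr : |κ₀| * r ≤ 1 / 2) (he : 0 ≤ e) (hesc : Esc μ T (Metric.ball z₀ ρ) B₂ r e) (hf : D.W f) (h0 : 0 ≤ A)
    (hA : ∀ᵐ x ∂μ, 0 ≤ f x ∧ f x ≤ A) (hM0 : 0 ≤ M) (hM : ∀ᵐ x ∂μ, D.Γ f f x ≤ M) {U : X → ℝ}
    (hU : Continuous U) (hU' : U =ᵐ[μ] T r fun x => Real.log (1 + f x)) (hd : dist z z₀ + d < ρ)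
    (hg : Integrable g μ) (hg2 : MemLp g 2 μ) (hg0 : ∀ x, 0 ≤ g x) (hgd : ∀ x, g x ≠ 0 → dist x z ≤ d) :
    Real.exp (U z - ((1 + κ₀ * r + 2 * (κ₀ * r) ^ 2) * d ^ 2 / (4 * r) +
        54 * (κ₁ - κ₀) * (Real.exp (8 * κ₁ * r) * M) * e * r ^ 2)) * ∫ x, g x ∂μ ≤
      ∫ x, g x ∂μ + ∫ x, g x * T r f x ∂μ := by
  have hAa : ∀ᵐ x ∂μ, |f x| ≤ A := hA.mono fun x hx => by rw [abs_of_nonneg hx.1]; exact hx.2
  obtain ⟨W₀, hW1, hW2⟩ := h.exists_rep h1 hf h0 hAa hM0 hM hr.le
  have hW0 : ∀ x, 0 ≤ W₀ x := fun x => le_of_ae_le_on (μ := μ) isOpen_univ continuous_const hW1.continuous (by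
    filter_upwards [hW2, h.flow.T_nonneg hr.le hf.2.1 (hA.mono fun x hx => hx.1)] with y e1 e2 _
    rwa [← e1]) x (mem_univ x)
  have hp : ∀ x, 0 < 1 + W₀ x := fun x => by linarith [hW0 x]
  have hV : Continuous fun x => Real.log (1 + W₀ x) :=
    (continuous_const.add hW1.continuous).log fun x => (hp x).ne'
  have i1 := integrable_mul2 hg2 (h.flow.T_mem r hr.le f hf.2.1)
  rw [← integral_const_mul, ← integral_add hg i1]
  refine integral_mono_ae (hg.const_mul _) (hg.add i1) (hW2.mono fun x hx => ?_)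
  beta_reduce
  by_cases hx0 : g x = 0
  · simp [hx0]
  obtain ⟨c, c0, c1, hc⟩ := hgeo x z
  have hxz := hgd x hx0
  have key := h.logHarnack h1 hB hκ h01 hr hκr he hesc hf h0 hA hM0 hM hU hV hU'
    (hW2.mono fun y hy => by simp only [hy]) (c := c) (fun s hs => ?_) (dist_nonneg.trans hxz)
    (fun s hs t ht => (hc s hs t ht).trans_le (mul_le_mul_of_nonneg_left hxz (abs_nonneg _)))
  · rw [c0, c1] at key
    have k2 := Real.exp_le_exp.2 (sub_le_iff_le_add.2 (key.trans_eq (add_assoc _ _ _)))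
    rw [Real.exp_log (hp x)] at k2
    rw [hx]
    nlinarith [mul_le_mul_of_nonneg_right k2 (hg0 x)]
  · have a1 := hc s hs 1 ⟨zero_le_one, le_rfl⟩
    rw [c1] at a1
    have a2 : |s - 1| ≤ 1 := abs_le.2 ⟨by linarith [hs.1], by linarith [hs.2]⟩
    have a3 := mul_le_mul_of_nonneg_right a2 (dist_nonneg (x := x) (y := z))
    rw [Metric.mem_ball]
    linarith [dist_triangle (c s) z z₀]

/-- for `η = 1_(ball z s)`, `s ≤ ε / 2`: `∫ η (U + V) = ∫ T r η (p + q) ≥ N ∫_(ball z ε) T r η ≥ N (1 - e) ∫ η`;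
then `le_of_avg` -/
theorem Flow.evi_low (h : Flow D T R) {z : X} {ε r e N : ℝ} {p q U V : X → ℝ} (hε : 0 < ε) (hr : 0 ≤ r)
    (hesc : Esc μ T (Metric.ball z (ε / 2)) (Metric.ball z ε) r e) (hp : MemLp p 2 μ) (hq : MemLp q 2 μ)
    (hN : 0 ≤ N) (h0 : ∀ x, 0 ≤ p x + q x) (h1 : ∀ x ∈ Metric.ball z ε, N ≤ p x + q x) (hU : Continuous U)
    (hV : Continuous V) (hU' : U =ᵐ[μ] T r p) (hV' : V =ᵐ[μ] T r q) : N * (1 - e) ≤ U z + V z := by
  refine le_of_avg (μ := μ) (f := fun x => U x + V x) (half_pos hε) (hU.add hV) fun s hs hs' => ?_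
  have hη := wt_indicator (B := Metric.ball z (ε / 2)) Metric.isOpen_ball.measurableSet (Metric.ball_subset_ball hs')
  set η : X → ℝ := (Metric.ball z s).indicator fun _ => (1 : ℝ) with hηd
  have hη2 : MemLp η 2 μ := hη.memLp
  have hT := h.T_mem r hr η hη2
  have e1 : ∫ x, η x ∂μ = (μ (Metric.ball z s)).toReal := by
    rw [hηd, integral_indicator Metric.isOpen_ball.measurableSet]
    simp [Measure.real]
  have e2 : ∫ x in Metric.ball z s, (U x + V x) ∂μ = ∫ x, T r η x * (p x + q x) ∂μ := by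
    simp only [mul_add]
    rw [integral_add (integrable_mul2 hT hp) (integrable_mul2 hT hq), h.T_symm r hr η p hη2 hp,
      h.T_symm r hr η q hη2 hq, ← integral_add (integrable_mul2 hη2 (h.T_mem r hr p hp))
        (integrable_mul2 hη2 (h.T_mem r hr q hq)), ← integral_indicator Metric.isOpen_ball.measurableSet]
    refine integral_congr_ae ?_
    filter_upwards [hU', hV'] with x a1 a2
    by_cases hx : x ∈ Metric.ball z s
    · simp only [hηd, indicator_of_mem hx, a1, a2, one_mul]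
    · simp only [hηd, indicator_of_notMem hx, zero_mul, add_zero]
  have e3 := mul_le_mul_of_nonneg_left (hesc η hη r ⟨hr, le_rfl⟩).1 hN
  rw [e2, ← e1, mul_assoc]
  refine e3.trans ?_
  rw [← integral_const_mul, ← integral_indicator Metric.isOpen_ball.measurableSet]
  refine integral_mono_ae ((integrable_indicator_iff Metric.isOpen_ball.measurableSet).2
    ((integrableOn_ball_of_memLp hT z ε).const_mul N)) (integrable_mul2 hT (hp.add hq)) ?_
  filter_upwards [h.T_nonneg hr hη2 (Eventually.of_forall fun x => (hη.mem x).1)] with x hx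
  by_cases hb : x ∈ Metric.ball z ε
  · rw [indicator_of_mem hb, mul_comm]
    exact mul_le_mul_of_nonneg_left (h1 x hb) hx
  · rw [indicator_of_notMem hb]
    exact mul_nonneg hx (h0 x)

end Crest.Agent.R242.II
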