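import Crest.Agent.R242.IIA4

/-! Row 242, part II (helper16), TASK IIW1: the weighted measure `wm m F l = exp (l F) m` and the calculus `C.re` for it.
Keep the statements; auxiliary names `iiw1_*`.  Definitions: `R242/IIDefs.lean`; paper proof: `R242/IIRead.lean`. -/

set_option autoImplicit false
set_option linter.unusedSectionVars false
set_option linter.unusedVariables false

open MeasureTheory Filter Set
open scoped ENNReal NNReal Topology

noncomputable section

namespace Crest.Agent.R242.II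

variable {X : Type*} [MetricSpace X] [MeasurableSpace X] [BorelSpace X] [ProperSpace X]
  {m : Measure X} [IsFiniteMeasureOnCompacts m] [m.IsOpenPosMeasure] {C : Cal m}
  {T R : ℝ → (X → ℝ) → X → ℝ} {F G u v f g η L : X → ℝ} {k MF MG l : ℝ} {LF : ℝ≥0}

theorem iiw1_meas (hF : Continuous F) (l : ℝ) : Measurable fun x => ENNReal.ofReal (Real.exp (l * F x)) :=
  (Real.continuous_exp.comp (continuous_const.mul hF)).measurable.ennreal_ofReal

theorem iiw1_ac (hF : Continuous F) (l : ℝ) : m ≪ wm m F l :=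
  withDensity_absolutelyContinuous' (iiw1_meas hF l).aemeasurable
    (Eventually.of_forall fun x => (ENNReal.ofReal_pos.2 (Real.exp_pos _)).ne')

theorem iiw1_abs (hb : ∀ x, |F x| ≤ MF) (l : ℝ) (x : X) : |l * F x| ≤ |l| * MF := by
  rw [abs_mul]
  exact mul_le_mul_of_nonneg_left (hb x) (abs_nonneg _)

theorem iiw1_le (hb : ∀ x, |F x| ≤ MF) (l : ℝ) : wm m F l ≤ ENNReal.ofReal (Real.exp (|l| * MF)) • m := by
  rw [wm, den, ← withDensity_const]
  exact withDensity_mono (Eventually.of_forall fun x =>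
    ENNReal.ofReal_le_ofReal (Real.exp_le_exp.2 (abs_le.1 (iiw1_abs hb l x)).2))

theorem iiw1_ge (hb : ∀ x, |F x| ≤ MF) (l : ℝ) : m ≤ ENNReal.ofReal (Real.exp (|l| * MF)) • wm m F l := by
  have h1 : ENNReal.ofReal (Real.exp (-(|l| * MF))) • m ≤ wm m F l := by
    rw [wm, den, ← withDensity_const]
    exact withDensity_mono (Eventually.of_forall fun x =>
      ENNReal.ofReal_le_ofReal (Real.exp_le_exp.2 (abs_le.1 (iiw1_abs hb l x)).1))
  intro s
  have h2 := h1 s
  simp only [Measure.smul_apply, smul_eq_mul] at h2 ⊢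
  calc m s = ENNReal.ofReal (Real.exp (|l| * MF)) * (ENNReal.ofReal (Real.exp (-(|l| * MF))) * m s) := by
        rw [← mul_assoc, ← ENNReal.ofReal_mul (Real.exp_pos _).le, ← Real.exp_add, add_neg_cancel, Real.exp_zero,
          ENNReal.ofReal_one, one_mul]
    _ ≤ _ := by gcongr

theorem iiw1_memLp {p : ℝ≥0∞} (hb : ∀ x, |F x| ≤ MF) (l : ℝ) : MemLp f p (wm m F l) ↔ MemLp f p m :=
  ⟨fun h => (h.smul_measure ENNReal.ofReal_ne_top).mono_measure (iiw1_ge hb l),
    fun h => (h.smul_measure ENNReal.ofReal_ne_top).mono_measure (iiw1_le hb l)⟩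

theorem ae_wm (hF : Continuous F) (l : ℝ) : ae (wm m F l) = ae m := by
  refine le_antisymm (Measure.ae_le_iff_absolutelyContinuous.2 (withDensity_absolutelyContinuous _ _))
    (Measure.ae_le_iff_absolutelyContinuous.2 (iiw1_ac hF l))

theorem wm_finite (hF : Continuous F) (l : ℝ) : IsFiniteMeasureOnCompacts (wm m F l) := by
  have hc : Continuous fun x => (Real.exp (l * F x)).toNNReal :=
    continuous_real_toNNReal.comp (Real.continuous_exp.comp (continuous_const.mul hF))
  have : IsLocallyFiniteMeasure (wm m F l) := IsLocallyFiniteMeasure.withDensity_coe hc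
  infer_instance

theorem wm_openPos (hF : Continuous F) (l : ℝ) : (wm m F l).IsOpenPosMeasure := by
  exact (iiw1_ac hF l).isOpenPosMeasure

theorem integral_wm (hF : Continuous F) (l : ℝ) (f : X → ℝ) :
    ∫ x, f x ∂(wm m F l) = ∫ x, Real.exp (l * F x) * f x ∂m := by
  rw [wm, den, integral_withDensity_eq_integral_toReal_smul (iiw1_meas hF l)
    (Eventually.of_forall fun x => ENNReal.ofReal_lt_top)]
  refine integral_congr_ae (Eventually.of_forall fun x => ?_)
  simp only [smul_eq_mul]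
  rw [ENNReal.toReal_ofReal (Real.exp_pos _).le]

theorem integrable_wm (hF : Continuous F) (hb : ∀ x, |F x| ≤ MF) (l : ℝ) :
    Integrable f (wm m F l) ↔ Integrable f m := by
  rw [← memLp_one_iff_integrable, ← memLp_one_iff_integrable, iiw1_memLp hb]

theorem memLp_wm (hF : Continuous F) (hb : ∀ x, |F x| ≤ MF) (l : ℝ) : MemLp f 2 (wm m F l) ↔ MemLp f 2 m := by
  exact iiw1_memLp hb l

theorem integral_wm_le (hF : Continuous F) (hb : ∀ x, |F x| ≤ MF) (l : ℝ) (hf : Integrable f m)
    (h0 : ∀ᵐ x ∂m, 0 ≤ f x) : ∫ x, f x ∂(wm m F l) ≤ Real.exp (|l| * MF) * ∫ x, f x ∂m := by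
  have h1 := (integrable_wm hF hb l).2 hf
  have h2 := integral_mono_measure (iiw1_le hb l (m := m)) (f := f)
    (Measure.ae_smul_measure h0 _) (hf.smul_measure ENNReal.ofReal_ne_top)
  rwa [integral_smul_measure, ENNReal.toReal_ofReal (Real.exp_pos _).le, smul_eq_mul] at h2

theorem n2_wm_le (hF : Continuous F) (hb : ∀ x, |F x| ≤ MF) (l : ℝ) (hf : MemLp f 2 m) :
    n2 (wm m F l) f ≤ Real.exp (|l| * MF) * n2 m f := by
  exact integral_wm_le hF hb l hf.integrable_sq (Eventually.of_forall fun x => sq_nonneg _)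

theorem W_re (hF : Continuous F) (hb : ∀ x, |F x| ≤ MF) (h : ae (wm m F l) = ae m) :
    (C.re (wm m F l) h).W u ↔ C.W u := by
  show C.S u ∧ MemLp u 2 (wm m F l) ∧ Integrable (C.Γ u u) (wm m F l) ↔ C.S u ∧ MemLp u 2 m ∧ Integrable (C.Γ u u) m
  rw [memLp_wm hF hb, integrable_wm hF hb]

theorem E_re_le (hF : Continuous F) (hb : ∀ x, |F x| ≤ MF) (h : ae (wm m F l) = ae m) (hu : C.W u) :
    (C.re (wm m F l) h).E u u ≤ Real.exp (|l| * MF) * C.E u u := by
  exact integral_wm_le hF hb l hu.2.2 (C.Γ_nonneg u hu.1)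

theorem SL.re (hs : SL C) {ν : Measure X} (h : ae ν = ae m) : SL (C.re ν h) := by
  refine ⟨fun u K hu hK => ?_, fun u K x y r hc hu hK hr => ?_⟩
  · rw [h] at hK ⊢
    exact hs.glob u K hu hK
  · rw [h] at hK
    exact hs.loc u K x y r hc hu hK hr

end Crest.Agent.R242.II
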