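import Crest.Agent.R242.IIA1
import Crest.Agent.R242.IIW1

/-! Row 242, part II (helper16), TASK IIW1b: chain rule for bounded functions, the weighted generator.
Keep the statements; auxiliary names `iiw1b_*`.  Definitions: `R242/IIDefs.lean`; paper proof: `R242/IIRead.lean`. -/

set_option autoImplicit false
set_option linter.unusedSectionVars false
set_option linter.unusedVariables false

open MeasureTheory Filter Set
open scoped ENNReal NNReal Topology

noncomputable section

namespace Crest.Agent.R242.II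

variable {X : Type*} [MetricSpace X] [MeasurableSpace X] [BorelSpace X] [ProperSpace X]
  {m : Measure X} [IsFiniteMeasureOnCompacts m] [m.IsOpenPosMeasure] {C : Cal m}
  {T R : ℝ → (X → ℝ) → X → ℝ} {F G u v f g η L : X → ℝ} {k MF MG l : ℝ} {LF : ℝ≥0}

/-- chain rule for bounded `u`: replace `φ'` by `φ' ∘ clamp` and `φ` by `φ 0 + ∫ 0..s` of it -/
theorem Cal.chain_bdd {φ φ' : ℝ → ℝ} {A : ℝ} (hu : C.S u) (hA : ∀ᵐ x ∂m, |u x| ≤ A)
    (h1 : ∀ s, HasDerivAt φ (φ' s) s) (h2 : Continuous φ') :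
    C.S (fun x => φ (u x)) ∧ ∀ v, C.S v → C.Γ (fun x => φ (u x)) v =ᵐ[m] fun x => φ' (u x) * C.Γ u v x := by
  set B : ℝ := |A| with hB
  have hB0 : 0 ≤ B := abs_nonneg A
  set cl : ℝ → ℝ := fun s => max (-B) (min B s) with hcl
  have hclc : Continuous cl := continuous_const.max (continuous_const.min continuous_id)
  have hclm : ∀ s, cl s ∈ Icc (-B) B := fun s =>
    ⟨le_max_left _ _, max_le (by linarith) (min_le_left _ _)⟩
  have hcle : ∀ s, |s| ≤ B → cl s = s := fun s hs => by
    have := abs_le.1 hs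
    simp only [hcl]
    rw [min_eq_right this.2, max_eq_right this.1]
  obtain ⟨K, hK⟩ := (isCompact_Icc (a := -B) (b := B)).exists_bound_of_continuousOn h2.continuousOn
  have hc : Continuous fun s => φ' (cl s) := h2.comp hclc
  have hd : ∀ s, HasDerivAt (fun s => φ 0 + ∫ r in (0 : ℝ)..s, φ' (cl r)) (φ' (cl s)) s := fun s =>
    ((hc.integral_hasStrictDerivAt 0 s).hasDerivAt).const_add _
  have he : ∀ s, |s| ≤ B → φ 0 + ∫ r in (0 : ℝ)..s, φ' (cl r) = φ s := fun s hs => by
    have h3 : ∫ r in (0 : ℝ)..s, φ' (cl r) = ∫ r in (0 : ℝ)..s, φ' r := by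
      refine intervalIntegral.integral_congr fun r hr => ?_
      have h4 : |r| ≤ B := by
        have := abs_le.1 hs
        rcases mem_uIcc.1 hr with h | h <;> exact abs_le.2 ⟨by linarith [h.1], by linarith [h.2]⟩
      simp only [hcle r h4]
    rw [h3, intervalIntegral.integral_eq_sub_of_hasDerivAt (fun r _ => h1 r) (h2.intervalIntegrable _ _)]
    ring
  obtain ⟨hS, hΓ⟩ := C.chain u _ _ K hu hd hc fun s => hK _ (hclm s)
  have hA' : ∀ᵐ x ∂m, |u x| ≤ B := hA.mono fun x hx => hx.trans (le_abs_self A)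
  have hae : (fun x => φ 0 + ∫ r in (0 : ℝ)..u x, φ' (cl r)) =ᵐ[m] fun x => φ (u x) :=
    hA'.mono fun x hx => he _ hx
  refine ⟨C.S_congr _ _ hS hae, fun v hv => ?_⟩
  filter_upwards [C.Γ_congr _ _ v hS hv hae, hΓ v hv, hA'] with x h3 h4 h5
  rw [← h3, h4, hcle _ h5]

theorem iiw1b_exp {a b M : ℝ} (ha : a ≤ M) (hb : b ≤ M) :
    |Real.exp a - Real.exp b| ≤ Real.exp M * |a - b| := by
  have key : ∀ a b : ℝ, a ≤ M → b ≤ a → Real.exp a - Real.exp b ≤ Real.exp M * (a - b) := by
    intro a b ha hab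
    have h1 : Real.exp b = Real.exp a * Real.exp (b - a) := by rw [← Real.exp_add]; congr 1; ring
    have h2 := Real.add_one_le_exp (b - a)
    have h3 := Real.exp_pos a
    have h4 := Real.exp_le_exp.2 ha
    rw [h1]
    nlinarith
  rcases le_total b a with h | h
  · rw [abs_of_nonneg (sub_nonneg.2 (Real.exp_le_exp.2 h)), abs_of_nonneg (sub_nonneg.2 h)]
    exact key a b ha h
  · rw [abs_sub_comm, abs_sub_comm a, abs_of_nonneg (sub_nonneg.2 (Real.exp_le_exp.2 h)),
      abs_of_nonneg (sub_nonneg.2 h)]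
    exact key b a hb h

theorem iiw1b_le (hb : ∀ x, |F x| ≤ MF) (l : ℝ) (x : X) : l * F x ≤ |l| * MF :=
  (le_abs_self _).trans (by rw [abs_mul]; exact mul_le_mul_of_nonneg_left (hb x) (abs_nonneg l))

theorem exp_lip (hF : LipschitzWith LF F) (hb : ∀ x, |F x| ≤ MF) (l : ℝ) :
    LipschitzWith (|l| * Real.exp (|l| * MF) * LF).toNNReal fun x => Real.exp (l * F x) := by
  refine LipschitzWith.of_dist_le_mul fun x y => ?_
  rw [Real.coe_toNNReal _ (by positivity), Real.dist_eq]
  refine (iiw1b_exp (iiw1b_le hb l x) (iiw1b_le hb l y)).trans ?_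
  have h1 := hF.dist_le_mul x y
  rw [Real.dist_eq] at h1
  rw [← mul_sub, abs_mul]
  calc Real.exp (|l| * MF) * (|l| * |F x - F y|) ≤ Real.exp (|l| * MF) * (|l| * (LF * dist x y)) := by
        gcongr
    _ = _ := by ring

theorem exp_bd (hb : ∀ x, |F x| ≤ MF) (l : ℝ) (x : X) : |Real.exp (l * F x)| ≤ Real.exp (|l| * MF) := by
  rw [abs_of_pos (Real.exp_pos _)]
  exact Real.exp_le_exp.2 (iiw1b_le hb l x)

/-- `Cal.mul_lip` and `chain_bdd` -/
theorem Γ_exp_mul (hF : LipschitzWith LF F) (hb : ∀ x, |F x| ≤ MF) (l : ℝ) (hu : C.S u) (hv : C.S v) :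
    C.Γ (fun x => Real.exp (l * F x) * u x) v =ᵐ[m]
      fun x => Real.exp (l * F x) * (C.Γ u v x + l * u x * C.Γ F v x) := by
  have h1 := (C.mul_lip _ u _ _ (exp_lip hF hb l) (exp_bd hb l) hu).2 v hv
  have h2 := (Cal.chain_bdd (C := C) (φ := fun s => Real.exp (l * s)) (φ' := fun s => Real.exp (l * s) * l)
    (C.lip F LF hF).1 (Eventually.of_forall hb)
    (fun s => by simpa using ((hasDerivAt_id s).const_mul l).exp) (by fun_prop)).2 v hv
  filter_upwards [h1, h2] with x h1 h2
  rw [h1, h2]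
  ring

theorem abs_ΓF_le (hF : LipschitzWith LF F) (hu : C.S u) :
    ∀ᵐ x ∂m, |C.Γ F u x| ≤ LF * Real.sqrt (C.Γ u u x) := by
  filter_upwards [Cal.abs_Γ_le (C.lip F LF hF).1 hu, (C.lip F LF hF).2] with x h1 h2
  refine h1.trans (mul_le_mul_of_nonneg_right ?_ (Real.sqrt_nonneg _))
  exact Real.sqrt_le_iff.2 ⟨LF.coe_nonneg, h2⟩

theorem iiw1b_Γ (hF : LipschitzWith LF F) (hb : ∀ x, |F x| ≤ MF) (l : ℝ) (hu : C.S u) (hv : C.S v) :
    C.Γ u (fun x => Real.exp (l * F x) * v x) =ᵐ[m]
      fun x => Real.exp (l * F x) * (C.Γ u v x + l * v x * C.Γ F u x) := by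
  have hS := (C.mul_lip _ v _ _ (exp_lip hF hb l) (exp_bd hb l) hv).1
  filter_upwards [C.Γ_comm _ _ hu hS, Γ_exp_mul hF hb l hv hu, C.Γ_comm _ _ hu hv] with x h1 h2 h3
  rw [h1, h2, h3]

/-- the weighted generator is `L + l Γ(F, ·)`: test with `exp (∓ l F) v` (`W.mul_lip`, `Γ_exp_mul`) -/
theorem Gen_re (hF : LipschitzWith LF F) (hb : ∀ x, |F x| ≤ MF) (h : ae (wm m F l) = ae m) :
    (C.re (wm m F l) h).Gen u L ↔ C.Gen u fun x => L x - l * C.Γ F u x := by
  have hc := hF.continuous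
  have hem : ∀ l : ℝ, AEStronglyMeasurable (fun x => Real.exp (l * F x)) m := fun l =>
    (exp_lip hF hb l).continuous.aestronglyMeasurable
  constructor
  · rintro ⟨h1, h2, h3⟩
    rw [W_re hc hb h] at h1
    rw [memLp_wm hc hb] at h2
    have h4 : MemLp (C.Γ F u) 2 m := h1.memLp_Γ (C.lip F LF hF).1 (C.lip F LF hF).2
    refine ⟨h1, h2.sub (h4.const_mul l), fun v hv => ?_⟩
    have hw : C.W fun x => Real.exp (-l * F x) * v x := hv.mul_lip (exp_lip hF hb (-l)) (exp_bd hb (-l))
    have h5 := h3 _ ((W_re hc hb h).2 hw)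
    have h6 : (C.re (wm m F l) h).E u (fun x => Real.exp (-l * F x) * v x) =
        ∫ x, (C.Γ u v x - l * (C.Γ F u x * v x)) ∂m := by
      change ∫ x, C.Γ u (fun x => Real.exp (-l * F x) * v x) x ∂(wm m F l) = _
      rw [integral_wm hc]
      refine integral_congr_ae ?_
      filter_upwards [iiw1b_Γ hF hb (-l) h1.1 hv.1] with x hx
      rw [hx, ← mul_assoc, ← Real.exp_add, show l * F x + -l * F x = 0 by ring, Real.exp_zero]
      ring
    have h7 : ∫ x, L x * (Real.exp (-l * F x) * v x) ∂(wm m F l) = ∫ x, L x * v x ∂m := by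
      rw [integral_wm hc]
      refine integral_congr_ae (Eventually.of_forall fun x => ?_)
      have : Real.exp (l * F x) * Real.exp (-l * F x) = 1 := by
        rw [← Real.exp_add, show l * F x + -l * F x = 0 by ring, Real.exp_zero]
      change Real.exp (l * F x) * (L x * (Real.exp (-l * F x) * v x)) = L x * v x
      linear_combination (L x * v x) * this
    have i1 := h1.integrable_Γ hv
    have i2 := (integrable_mul2 h4 hv.2.1).const_mul l
    have i3 := integrable_mul2 h2 hv.2.1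
    rw [h6, h7, integral_sub i1 i2] at h5
    have h8 : ∫ x, (L x - l * C.Γ F u x) * v x ∂m =
        ∫ x, L x * v x ∂m - ∫ x, l * (C.Γ F u x * v x) ∂m := by
      rw [← integral_sub i3 i2]
      exact integral_congr_ae (Eventually.of_forall fun x => by ring)
    rw [h8]
    unfold Cal.E
    linarith
  · rintro ⟨h1, h2, h3⟩
    have h4 : MemLp (C.Γ F u) 2 m := h1.memLp_Γ (C.lip F LF hF).1 (C.lip F LF hF).2
    have h2' : MemLp L 2 m := by
      refine (memLp_congr_ae (Eventually.of_forall fun x => ?_)).1 (h2.add (h4.const_mul l))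
      simp
    refine ⟨(W_re hc hb h).2 h1, (memLp_wm hc hb l).2 h2', fun v hv => ?_⟩
    rw [W_re hc hb h] at hv
    have hw : C.W fun x => Real.exp (l * F x) * v x := hv.mul_lip (exp_lip hF hb l) (exp_bd hb l)
    have h5 := h3 _ hw
    have i1 := h1.integrable_mul_Γ hv (hem l) (Eventually.of_forall (exp_bd hb l))
    have i2 := (integrable_mul2 h4 hw.2.1).const_mul l
    have i3 := integrable_mul2 h2' hw.2.1
    have h6 : C.E u (fun x => Real.exp (l * F x) * v x) = ∫ x, Real.exp (l * F x) * C.Γ u v x ∂m +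
        ∫ x, l * (C.Γ F u x * (Real.exp (l * F x) * v x)) ∂m := by
      rw [← integral_add i1 i2]
      refine integral_congr_ae ?_
      filter_upwards [iiw1b_Γ hF hb l h1.1 hv.1] with x hx
      rw [hx]
      ring
    have h8 : ∫ x, (L x - l * C.Γ F u x) * (Real.exp (l * F x) * v x) ∂m =
        ∫ x, L x * (Real.exp (l * F x) * v x) ∂m -
          ∫ x, l * (C.Γ F u x * (Real.exp (l * F x) * v x)) ∂m := by
      rw [← integral_sub i3 i2]
      exact integral_congr_ae (Eventually.of_forall fun x => by ring)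
    have h7 : ∫ x, Real.exp (l * F x) * (L x * v x) ∂m = ∫ x, L x * (Real.exp (l * F x) * v x) ∂m :=
      integral_congr_ae (Eventually.of_forall fun x => by ring)
    change ∫ x, C.Γ u v x ∂(wm m F l) = _
    rw [integral_wm hc, integral_wm hc, h7]
    rw [h6, h8] at h5
    linarith

end Crest.Agent.R242.II
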