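import Crest.Agent.R242.IIH
import Crest.Agent.R242.IIW1b

/-! Row 242, part II (helper16), TASK IIV2: the Davies-Gaffney bound for the weighted flow.
Keep the statements; auxiliary names `iiv2_*`.  Definitions: `R242/IIDefs.lean`; paper proof: `R242/IIRead.lean`. -/

set_option autoImplicit false
set_option linter.unusedSectionVars false
set_option linter.unusedVariables false

open MeasureTheory Filter Set
open scoped ENNReal NNReal Topology

noncomputable section

namespace Crest.Agent.R242.II

variable {X : Type*} [MetricSpace X] [MeasurableSpace X] [BorelSpace X] [ProperSpace X]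
  {m : Measure X} [IsFiniteMeasureOnCompacts m] [m.IsOpenPosMeasure] {C : Cal m}
  {T R : ℝ → (X → ℝ) → X → ℝ} {F G u v f g η L : X → ℝ} {k MF MG l : ℝ} {LF : ℝ≥0}

theorem iiv2_memLp (μ : Measure X) [IsFiniteMeasureOnCompacts μ] {φ : X → ℝ} (hφ : Continuous φ) (z : X)
    (r : ℝ) : MemLp ((Metric.ball z r).indicator φ) 2 μ := by
  rw [memLp_indicator_iff_restrict measurableSet_ball]
  have : IsFiniteMeasure (μ.restrict (Metric.ball z r)) :=
    ⟨by rw [Measure.restrict_apply_univ]; exact measure_ball_lt_top⟩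
  obtain ⟨B, hB⟩ := (isCompact_closedBall z r).exists_bound_of_continuousOn hφ.continuousOn
  refine MemLp.of_bound hφ.aestronglyMeasurable B ?_
  filter_upwards [ae_restrict_mem measurableSet_ball] with x hx using hB x (Metric.ball_subset_closedBall hx)

theorem iiv2_sqrt (hF : Continuous F) {φ : X → ℝ} (hφ : Continuous φ) (z : X) (r c : ℝ)
    (h : ∀ x ∈ Metric.ball z r, Real.exp (l * F x) * φ x ^ 2 ≤ Real.exp c ^ 2) :
    Real.sqrt (n2 (wm m F l) ((Metric.ball z r).indicator φ)) ≤
      Real.exp c * Real.sqrt (m (Metric.ball z r)).toReal := by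
  have h1 : n2 (wm m F l) ((Metric.ball z r).indicator φ) ≤ Real.exp c ^ 2 * (m (Metric.ball z r)).toReal := by
    unfold n2
    rw [integral_wm hF]
    have h2 : ∫ x, (Metric.ball z r).indicator (fun _ => Real.exp c ^ 2) x ∂m =
        Real.exp c ^ 2 * (m (Metric.ball z r)).toReal := by
      rw [integral_indicator measurableSet_ball, setIntegral_const, smul_eq_mul, mul_comm]
      rfl
    rw [← h2]
    refine integral_mono_of_nonneg (ae_of_all _ fun x => by positivity)
      ((integrable_indicator_iff measurableSet_ball).2 (integrableOn_const measure_ball_lt_top.ne))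
      (ae_of_all _ fun x => ?_)
    by_cases hx : x ∈ Metric.ball z r
    · simp only [indicator_of_mem hx]
      exact h x hx
    · simp [indicator_of_notMem hx]
  refine (Real.sqrt_le_sqrt h1).trans_eq ?_
  rw [Real.sqrt_mul (sq_nonneg _), Real.sqrt_sq (Real.exp_pos _).le]

/-- `Flow.dg_shell` with `f₁ = 1_(ball z ρK) exp (l (M - F / 2))`: `n2 f₁ = exp (2 l M) m (ball z ρK)`,
`n2 g = ∫_(ball y ε) exp (-l F) dm ≤ exp (-l (F y - LF ε)) m (ball y ε)` (`integral_wm`). -/
theorem Flow.dg_wm {D : Cal (wm m F l)} (h : Flow D T R) (hF : LipschitzWith LF F) (hb : ∀ x, |F x| ≤ MF)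
    {t ε ρ M ρK : ℝ} {y z : X} {p : X → ℝ} (ht : 0 < t) (hl : 0 < l) (hε : 0 < ε) (hρ : 0 ≤ ρ)
    (hp : Continuous p) (hp0 : ∀ x, 0 ≤ p x) (hpz : ∀ x, x ∉ Metric.ball z ρK → p x = 0)
    (hp1 : ∀ x, p x ≤ min (dist x y ^ 2) (ρ ^ 2) / (4 * t) - F x / 2 + M) :
    ∫ x, (Metric.ball y ε).indicator (fun x => Real.exp (-(l * F x))) x *
        T (t / l) (fun x => Real.exp (l * p x) - 1) x ∂(wm m F l) ≤
      (ρ / ε + 2) * Real.exp (l * ((4 * ρ * ε + 5 * ε ^ 2) / (4 * t) + M - F y / 2 + LF * ε / 2)) *
        (Real.sqrt (m (Metric.ball z ρK)).toReal * Real.sqrt (m (Metric.ball y ε)).toReal) := by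
  have hc : Continuous F := hF.continuous
  have i1 := wm_finite (m := m) hc l
  have i2 := wm_openPos (m := m) hc l
  have c1 : Continuous fun x => Real.exp (l * p x) - 1 := by fun_prop
  have c2 : Continuous fun x => Real.exp (l * (M - F x / 2)) := by fun_prop
  have c3 : Continuous fun x => Real.exp (-(l * F x)) := by fun_prop
  have hf : MemLp (fun x => Real.exp (l * p x) - 1) 2 (wm m F l) := by
    have e : (fun x => Real.exp (l * p x) - 1) =
        (Metric.ball z ρK).indicator fun x => Real.exp (l * p x) - 1 := by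
      funext x
      by_cases hx : x ∈ Metric.ball z ρK
      · rw [indicator_of_mem hx]
      · rw [indicator_of_notMem hx, hpz x hx]
        simp
    rw [e]
    exact iiv2_memLp _ c1 z ρK
  have h1 := h.dg_shell (y := y) ht hl hε hρ hf (iiv2_memLp _ c2 z ρK) (iiv2_memLp _ c3 y ε)
    (ae_of_all _ fun x => by
      by_cases hx : x ∈ Metric.ball z ρK
      · have h2 : 1 ≤ Real.exp (l * p x) := Real.one_le_exp (mul_nonneg hl.le (hp0 x))
        rw [indicator_of_mem hx, abs_of_nonneg (by linarith), abs_of_pos (Real.exp_pos _), ← Real.exp_add]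
        refine le_trans (by linarith) (Real.exp_le_exp.2 (?_ : l * p x ≤ _))
        rw [← mul_add]
        exact mul_le_mul_of_nonneg_left (by linarith [hp1 x]) hl.le
      · rw [hpz x hx]
        simp only [mul_zero, Real.exp_zero, sub_self, abs_zero]
        positivity)
    (fun x hx => indicator_of_notMem hx _)
  have h2 := iiv2_sqrt (m := m) (l := l) hc c2 z ρK (l * M) fun x _ => by
    rw [← Real.exp_nat_mul, ← Real.exp_nat_mul, ← Real.exp_add]
    exact Real.exp_le_exp.2 (le_of_eq (by push_cast; ring))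
  have h3 := iiv2_sqrt (m := m) (l := l) hc c3 y ε (l * (-(F y / 2) + LF * ε / 2)) fun x hx => by
    rw [← Real.exp_nat_mul, ← Real.exp_nat_mul, ← Real.exp_add]
    refine Real.exp_le_exp.2 ?_
    have h4 : F y - F x ≤ LF * ε := by
      have h5 := hF.dist_le_mul y x
      rw [Real.dist_eq, dist_comm] at h5
      exact (le_abs_self _).trans (h5.trans (mul_le_mul_of_nonneg_left (le_of_lt hx) LF.2))
    push_cast
    nlinarith [mul_le_mul_of_nonneg_left h4 hl.le]
  refine h1.trans ((mul_le_mul_of_nonneg_left (mul_le_mul h2 h3 (Real.sqrt_nonneg _) (by positivity))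
    (by positivity)).trans_eq ?_)
  rw [show l * ((4 * ρ * ε + 5 * ε ^ 2) / (4 * t) + M - F y / 2 + LF * ε / 2) =
    l * ((4 * ρ * ε + 5 * ε ^ 2) / (4 * t)) + l * M + l * (-(F y / 2) + LF * ε / 2) by ring,
    Real.exp_add, Real.exp_add]
  ring

end Crest.Agent.R242.II
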