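import Crest.Agent.R242.IIV1
import Crest.Agent.R242.IIV2

/-! Row 242, part II (helper16), TASK IIV2b: the upper bound of the Varadhan argument.
Keep the statements; auxiliary names `iiv2b_*`.  Definitions: `R242/IIDefs.lean`; paper proof: `R242/IIRead.lean`. -/

set_option autoImplicit false
set_option linter.unusedSectionVars false
set_option linter.unusedVariables false

open MeasureTheory Filter Set
open scoped ENNReal NNReal Topology

noncomputable section

namespace Crest.Agent.R242.II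

variable {X : Type*} [MetricSpace X] [MeasurableSpace X] [BorelSpace X] [ProperSpace X]
  {m : Measure X} [IsFiniteMeasureOnCompacts m] [m.IsOpenPosMeasure] {C : Cal m}
  {T R : ℝ → (X → ℝ) → X → ℝ} {F G u v f g η L : X → ℝ} {k MF MG l : ℝ} {LF : ℝ≥0}

theorem iiv2b_log {s a b c n : ℝ} (hb : 0 < b) (ha : 0 ≤ a) (hc : 0 ≤ c) (hn : 0 ≤ n)
    (h : Real.exp s * b ≤ b + c * Real.exp a * (Real.sqrt n * Real.sqrt b)) :
    s ≤ Real.log (1 + c * Real.sqrt (n / b)) + a := by
  have h1 : Real.sqrt n * Real.sqrt b = Real.sqrt (n / b) * b := by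
    rw [Real.sqrt_div hn, div_mul_eq_mul_div, mul_div_assoc, Real.div_sqrt]
  have h2 : 0 ≤ c * Real.sqrt (n / b) := by positivity
  rw [← sub_le_iff_le_add, Real.le_log_iff_exp_le (by positivity), Real.exp_sub, div_le_iff₀ (Real.exp_pos _)]
  refine le_of_mul_le_mul_right (h.trans ?_) hb
  rw [h1]
  nlinarith [mul_le_mul_of_nonneg_right (Real.one_le_exp ha) hb.le]

/-- `WB.harnack_avg` with `r = t / l`, `κ₀ = k + l g₀`, `f = exp (l p) - 1` (Lipschitz constant `l exp (l A) Kp`,
`exp_lip`; `log (1 + f) = l p`, `U' = l U` by `T_smul`), `g = 1_(ball y ε) exp (-l F)` (`∫ g dwm = m (ball y ε)`),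
`d = δ + ε`; then `dg_wm` and `1 + c exp a ≤ (1 + c) exp a` for `a ≥ 0`; take logarithms and divide by `l`. -/
theorem WB.evi_up {D : Cal (wm m F l)} (h : WB D T R (fun x => k + l * G x) (k + l * MG)) (hgeo : Geod X)
    (hk : 0 ≤ k) (hF : LipschitzWith LF F) (hb : ∀ x, |F x| ≤ MF) {z₀ z y : X} {ρ₀ ρ₁ g₀ t ε δ ρ M A e ρK : ℝ}
    {Kp : ℝ≥0} {p U : X → ℝ} (hl : 1 ≤ l) (hG : ∀ x ∈ Metric.ball z₀ ρ₀, G x ≤ g₀) (hg₀ : |g₀| ≤ MG)
    (ht : 0 < t) (htk : (k + MG) * t ≤ 1 / 2) (he : 0 ≤ e)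
    (hesc : Esc (wm m F l) T (Metric.ball z₀ ρ₁) (Metric.ball z₀ ρ₀) (t / l) e) (hε : 0 < ε) (hρ : 0 ≤ ρ)
    (hyz : dist y z ≤ δ) (hd : dist z z₀ + (δ + ε) < ρ₁) (hp : LipschitzWith Kp p)
    (hpA : ∀ x, 0 ≤ p x ∧ p x ≤ A) (hpz : ∀ x, x ∉ Metric.ball z ρK → p x = 0)
    (hp1 : ∀ x, p x ≤ min (dist x y ^ 2) (ρ ^ 2) / (4 * t) - F x / 2 + M) (hM : MF / 2 ≤ M)
    (hU : Continuous U) (hU' : U =ᵐ[wm m F l] T (t / l) p) :
    U z ≤ Real.log (1 + (ρ / ε + 2) *
          Real.sqrt ((m (Metric.ball z ρK)).toReal / (m (Metric.ball y ε)).toReal)) / l +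
        ((4 * ρ * ε + 5 * ε ^ 2) / (4 * t) + M - F y / 2 + LF * ε / 2) +
        (1 + (k / l + g₀) * t + 2 * ((k / l + g₀) * t) ^ 2) * (δ + ε) ^ 2 / (4 * t) +
        54 * (MG - g₀) * Real.exp (8 * (k + MG) * t) * (Kp : ℝ) ^ 2 * t ^ 2 * (Real.exp (2 * l * A) * e) := by
  have := wm_finite (m := m) hF.continuous l
  have := wm_openPos (m := m) hF.continuous l
  have l0 : 0 < l := by linarith
  have hr : 0 < t / l := div_pos ht l0
  obtain ⟨g1, g2⟩ := abs_le.1 hg₀
  have hkl : (k + l * MG) * (t / l) ≤ (k + MG) * t := by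
    rw [show (k + l * MG) * (t / l) = (k / l + MG) * t by field_simp]
    exact mul_le_mul_of_nonneg_right (add_le_add_left (div_le_self hk hl) _) ht.le
  have hout : ∀ x, x ∉ Metric.closedBall z ρK → p x = 0 := fun x hx =>
    hpz x fun h' => hx (Metric.ball_subset_closedBall h')
  have hlip := (exp_lip hp (fun x => (abs_of_nonneg (hpA x).1).trans_le (hpA x).2) l).sub (LipschitzWith.const 1)
  rw [add_zero, abs_of_pos l0] at hlip
  have hp2 : MemLp p 2 (wm m F l) :=
    hp.continuous.memLp_of_hasCompactSupport (HasCompactSupport.intro (isCompact_closedBall z ρK) hout)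
  have hgi : Integrable ((Metric.ball y ε).indicator fun x => Real.exp (-(l * F x))) (wm m F l) :=
    (integrable_indicator_iff measurableSet_ball).2 (integrableOn_ball_of_cont (by have := hF.continuous; fun_prop) y ε)
  have hgI : ∫ x, (Metric.ball y ε).indicator (fun x => Real.exp (-(l * F x))) x ∂(wm m F l) =
      (m (Metric.ball y ε)).toReal := by
    rw [integral_wm hF.continuous, ← Measure.real, ← integral_indicator_one measurableSet_ball]
    refine integral_congr_ae (ae_of_all _ fun x => ?_)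
    by_cases hx : x ∈ Metric.ball y ε <;> simp [hx, ← Real.exp_add]
  have H := h.harnack_avg (κ₀ := k + l * g₀) (A := Real.exp (l * A)) (U := fun x => l * U x) hgeo (by nlinarith)
    measurableSet_ball (fun x hx => by nlinarith [hG x hx]) (by nlinarith) hr
    ((mul_le_mul_of_nonneg_right (abs_le.2 ⟨by nlinarith, by nlinarith⟩) hr.le).trans (hkl.trans htk)) he hesc
    (D.W_of_lip hlip (HasCompactSupport.intro (isCompact_closedBall z ρK) fun x hx => by simp [hout x hx]))
    (Real.exp_pos _).le (ae_of_all _ fun x => ⟨sub_nonneg.2 (Real.one_le_exp (mul_nonneg l0.le (hpA x).1)),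
      (sub_le_self _ zero_le_one).trans (Real.exp_le_exp.2 (mul_le_mul_of_nonneg_left (hpA x).2 l0.le))⟩)
    (sq_nonneg _) (D.lip _ _ hlip).2 (by fun_prop) (by
      filter_upwards [hU', h.flow.T_smul hr.le l hp2] with x h1 h2
      simp only [add_sub_cancel, Real.log_exp, h1, h2]) hd hgi
    (memLp_of_bdd (A := Real.exp (|-l| * MF)) hgi (ae_of_all _ fun x => by
      by_cases hx : x ∈ Metric.ball y ε
      · simpa only [indicator_of_mem hx, neg_mul] using exp_bd hb (-l) x
      · simp [hx, (Real.exp_pos _).le]))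
    (fun x => indicator_nonneg (fun _ _ => (Real.exp_pos _).le) x) fun x hx => by
      have := Metric.mem_ball.1 (mem_of_indicator_ne_zero hx)
      linarith [dist_triangle x y z]
  have H2 := h.flow.dg_wm hF hb (y := y) ht l0 hε hρ hp.continuous (fun x => (hpA x).1) hpz hp1
  rw [hgI] at H
  have H3 := iiv2b_log (ball_pos m y hε) (mul_nonneg l0.le (by
    have : 0 ≤ (4 * ρ * ε + 5 * ε ^ 2) / (4 * t) := by positivity
    have : 0 ≤ LF * ε / 2 := by positivity
    linarith [(abs_le.1 (hb y)).2])) (by positivity) ENNReal.toReal_nonneg (H.trans (add_le_add_right H2 _))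
  rw [Real.coe_toNNReal _ (by positivity), show (k + l * g₀) * (t / l) = (k / l + g₀) * t by field_simp] at H3
  have H4 : 54 * (k + l * MG - (k + l * g₀)) * (Real.exp (8 * (k + l * MG) * (t / l)) * (l * Real.exp (l * A) * Kp) ^ 2) *
      e * (t / l) ^ 2 ≤ l * (54 * (MG - g₀) * Real.exp (8 * (k + MG) * t) * (Kp : ℝ) ^ 2 * t ^ 2 *
        (Real.exp (2 * l * A) * e)) := by
    have h0 : 0 ≤ l * (54 * (MG - g₀) * (Kp : ℝ) ^ 2 * t ^ 2 * (Real.exp (l * A) ^ 2 * e)) := by
      have := sub_nonneg.2 g2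
      positivity
    have := mul_le_mul_of_nonneg_left (Real.exp_le_exp.2 (show 8 * (k + l * MG) * (t / l) ≤ 8 * (k + MG) * t by
      linarith)) h0
    rw [show 2 * l * A = (2 : ℕ) * (l * A) by push_cast; ring, Real.exp_nat_mul]
    refine le_of_eq_of_le ?_ (this.trans_eq (by ring))
    field_simp
    ring
  refine le_of_mul_le_mul_left ?_ l0
  rw [mul_add, mul_add, mul_add, mul_div_cancel₀ _ l0.ne', ← mul_div_assoc l]
  rw [← mul_div_assoc, div_div_eq_mul_div, mul_comm _ l] at H3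
  linarith

end Crest.Agent.R242.II
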