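import Crest.Agent.R242.IIW2b

/-! Row 242, part II (helper16), TASK IIW3: regularisation by the weighted resolvent; `CB.wb`.
Keep the statements; auxiliary names `iiw3_*`.  Definitions: `R242/IIDefs.lean`; paper proof: `R242/IIRead.lean`. -/

set_option autoImplicit false
set_option linter.unusedSectionVars false
set_option linter.unusedVariables false

open MeasureTheory Filter Set
open scoped ENNReal NNReal Topology

noncomputable section

namespace Crest.Agent.R242.II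

variable {X : Type*} [MetricSpace X] [MeasurableSpace X] [BorelSpace X] [ProperSpace X]
  {m : Measure X} [IsFiniteMeasureOnCompacts m] [m.IsOpenPosMeasure] {C : Cal m}
  {T R : ℝ → (X → ℝ) → X → ℝ} {F G u v f g η L : X → ℝ} {k MF MG l : ℝ} {LF : ℝ≥0}

theorem iiw3_mem (hF : LipschitzWith LF F) (hf : MemLp f 2 m) (hu : C.W u) (c : ℝ) :
    MemLp (fun x => f x + c * C.Γ F u x) 2 m :=
  hf.add ((Cal.W.memLp_Γ hu (C.lip F LF hF).1 (C.lip F LF hF).2).const_mul c)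

/-- one step contracts the energy -/
theorem iiw3_contr {T₀ R₀ : ℝ → (X → ℝ) → X → ℝ} (h0 : Flow C T₀ R₀) (hF : LipschitzWith LF F) {s : ℝ} (hs : 0 < s)
    (hK : s * (l ^ 2 * (LF : ℝ) ^ 2) ≤ 2) (hf : MemLp f 2 m) (hu : C.W u) (hv : C.W v)
    (he : u =ᵐ[m] R₀ s fun x => f x + s * l * C.Γ F u x) :
    C.E (fun x => u x - R₀ s (fun x => f x + s * l * C.Γ F v x) x)
      (fun x => u x - R₀ s (fun x => f x + s * l * C.Γ F v x) x) ≤
      1 / 2 * C.E (fun x => u x - v x) fun x => u x - v x := by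
  have h1 := iiw3_mem hF hf hu (s * l)
  have h2 := iiw3_mem hF hf hv (s * l)
  have hFS := (C.lip F LF hF).1
  have hd : C.W fun x => u x - v x := hu.sub hv
  have h3 : MemLp (fun x => (f x + s * l * C.Γ F u x) - (f x + s * l * C.Γ F v x)) 2 m := h1.sub h2
  have h4 : (fun x => u x - R₀ s (fun x => f x + s * l * C.Γ F v x) x) =ᵐ[m]
      R₀ s fun x => (f x + s * l * C.Γ F u x) - (f x + s * l * C.Γ F v x) := by
    filter_upwards [he, h0.R_sub hs h1 h2] with x e1 e2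
    rw [e2, e1]
  have hW : C.W fun x => u x - R₀ s (fun x => f x + s * l * C.Γ F v x) x := hu.sub (h0.R_W hs h2)
  rw [Cal.E_congr hW.1 hW.1 h4 h4]
  have h5 := h0.R_energy0 hs h3
  have h6 : n2 m (fun x => (f x + s * l * C.Γ F u x) - (f x + s * l * C.Γ F v x)) ≤
      s ^ 2 * (l ^ 2 * (LF : ℝ) ^ 2) * C.E (fun x => u x - v x) fun x => u x - v x := by
    unfold n2 Cal.E
    rw [← integral_const_mul]
    refine integral_mono_ae h3.integrable_sq (hd.2.2.const_mul _) ?_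
    filter_upwards [Cal.Γ_sub_right hu.1 hv.1 hFS, Cal.Γ_sq_le hFS hd.1, (C.lip F LF hF).2,
      C.Γ_nonneg _ hd.1] with x e1 e2 e3 e4
    have e5 : f x + s * l * C.Γ F u x - (f x + s * l * C.Γ F v x) = s * l * C.Γ F (fun x => u x - v x) x := by
      rw [e1]; ring
    rw [e5]
    have e6 : C.Γ F (fun x => u x - v x) x ^ 2 ≤
        (LF : ℝ) ^ 2 * C.Γ (fun x => u x - v x) (fun x => u x - v x) x :=
      e2.trans (mul_le_mul_of_nonneg_right e3 e4)
    calc (s * l * C.Γ F (fun x => u x - v x) x) ^ 2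
        = (s * l) ^ 2 * C.Γ F (fun x => u x - v x) x ^ 2 := by ring
      _ ≤ (s * l) ^ 2 * ((LF : ℝ) ^ 2 * C.Γ (fun x => u x - v x) (fun x => u x - v x) x) :=
          mul_le_mul_of_nonneg_left e6 (sq_nonneg _)
      _ = _ := by ring
  have h7 := Cal.E_nonneg hd.1
  set a := C.E (R₀ s fun x => (f x + s * l * C.Γ F u x) - (f x + s * l * C.Γ F v x))
    (R₀ s fun x => (f x + s * l * C.Γ F u x) - (f x + s * l * C.Γ F v x))
  set b := C.E (fun x => u x - v x) fun x => u x - v x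
  have h8 : s ^ 2 * (l ^ 2 * (LF : ℝ) ^ 2) * b ≤ s * (2 * b) := by
    have : s * (l ^ 2 * (LF : ℝ) ^ 2) * b ≤ 2 * b := mul_le_mul_of_nonneg_right hK h7
    calc s ^ 2 * (l ^ 2 * (LF : ℝ) ^ 2) * b = s * (s * (l ^ 2 * (LF : ℝ) ^ 2) * b) := by ring
      _ ≤ s * (2 * b) := mul_le_mul_of_nonneg_left this hs.le
  have h9 : s * (4 * a) ≤ s * (2 * b) := by nlinarith
  have := le_of_mul_le_mul_left h9 hs
  linarith

/-- one step keeps the gradient bound -/
theorem iiw3_bd {T₀ R₀ : ℝ → (X → ℝ) → X → ℝ} (h0 : Flow C T₀ R₀) (hF : LipschitzWith LF F) {s C₀ A : ℝ}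
    (hs : 0 < s) (hC : 0 < C₀) (hK : C₀ * s * (l ^ 2 * (LF : ℝ) ^ 2) ≤ 1 / 4)
    (hB : ∀ (A : ℝ) (u L : X → ℝ), C.Gen u L → (∀ᵐ x ∂m, |u x - s * L x| ≤ A) →
      ∀ᵐ x ∂m, C.Γ u u x ≤ C₀ * A ^ 2 / s)
    (hf : MemLp f 2 m) (hA : ∀ᵐ x ∂m, |f x| ≤ A) (hv : C.W v)
    (hM : ∀ᵐ x ∂m, C.Γ v v x ≤ 4 * C₀ * A ^ 2 / s) :
    ∀ᵐ x ∂m, C.Γ (R₀ s fun x => f x + s * l * C.Γ F v x) (R₀ s fun x => f x + s * l * C.Γ F v x) x ≤
      4 * C₀ * A ^ 2 / s := by
  have h2 := iiw3_mem hF hf hv (s * l)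
  set M := 4 * C₀ * A ^ 2 / s with hMd
  have hM0 : 0 ≤ M := by positivity
  have h3 := hB (A + s * |l| * (LF * Real.sqrt M)) _ _ (h0.R_gen s hs _ h2) (by
    filter_upwards [hA, abs_ΓF_le hF hv.1, hM] with x e1 e2 e3
    have e4 : ∀ r g : ℝ, r - s * ((r - g) / s) = g := fun r g => by field_simp; ring
    rw [e4]
    have e5 : |C.Γ F v x| ≤ LF * Real.sqrt M :=
      e2.trans (mul_le_mul_of_nonneg_left (Real.sqrt_le_sqrt e3) LF.2)
    calc |f x + s * l * C.Γ F v x| ≤ |f x| + |s * l * C.Γ F v x| := abs_add_le _ _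
      _ = |f x| + s * |l| * |C.Γ F v x| := by rw [abs_mul, abs_mul, abs_of_pos hs]
      _ ≤ _ := add_le_add e1 (mul_le_mul_of_nonneg_left e5 (by positivity)))
  filter_upwards [h3] with x e
  refine e.trans ?_
  have q1 : Real.sqrt M ^ 2 = M := Real.sq_sqrt hM0
  have q2 : |l| ^ 2 = l ^ 2 := sq_abs l
  have q3 : (A + s * |l| * (LF * Real.sqrt M)) ^ 2 ≤ 2 * A ^ 2 + 2 * (s ^ 2 * (l ^ 2 * (LF : ℝ) ^ 2) * M) := by
    have : (s * |l| * (LF * Real.sqrt M)) ^ 2 = s ^ 2 * (l ^ 2 * (LF : ℝ) ^ 2) * M := by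
      rw [← q2]; nth_rewrite 2 [← q1]; ring
    nlinarith [sq_nonneg (A - s * |l| * (LF * Real.sqrt M))]
  have q4 : M * s = 4 * C₀ * A ^ 2 := by rw [hMd]; field_simp
  rw [div_le_iff₀ hs]
  have q5 : C₀ * s * (l ^ 2 * (LF : ℝ) ^ 2) * (M * s) ≤ 1 / 4 * (M * s) :=
    mul_le_mul_of_nonneg_right hK (by positivity)
  calc C₀ * (A + s * |l| * (LF * Real.sqrt M)) ^ 2
      ≤ C₀ * (2 * A ^ 2 + 2 * (s ^ 2 * (l ^ 2 * (LF : ℝ) ^ 2) * M)) := mul_le_mul_of_nonneg_left q3 hC.le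
    _ = 2 * C₀ * A ^ 2 + 2 * (C₀ * s * (l ^ 2 * (LF : ℝ) ^ 2) * (M * s)) := by ring
    _ ≤ M * s := by nlinarith

/-- an energy limit of functions with bounded gradient -/
theorem iiw3_lim {a : ℕ → X → ℝ} {M : ℝ} (hM0 : 0 ≤ M) (hu : C.W u) (ha : ∀ n, C.W (a n))
    (hM : ∀ n, ∀ᵐ x ∂m, C.Γ (a n) (a n) x ≤ M)
    (hE : Tendsto (fun n => C.E (fun x => u x - a n x) fun x => u x - a n x) atTop (𝓝 0)) :
    ∀ᵐ x ∂m, C.Γ u u x ≤ 2 * M := by
  have hi : Integrable (fun x => max (C.Γ u u x - 2 * M) 0) m := by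
    refine hu.2.2.mono' ((hu.2.2.1.sub aestronglyMeasurable_const).sup aestronglyMeasurable_const) ?_
    filter_upwards [C.Γ_nonneg _ hu.1] with x e
    rw [Real.norm_eq_abs, abs_of_nonneg (le_max_right _ _)]
    exact max_le (by linarith) e
  have h1 : ∀ n, ∫ x, max (C.Γ u u x - 2 * M) 0 ∂m ≤ 2 * C.E (fun x => u x - a n x) fun x => u x - a n x := by
    intro n
    have hd : C.W fun x => u x - a n x := hu.sub (ha n)
    unfold Cal.E
    rw [← integral_const_mul]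
    refine integral_mono_ae hi (hd.2.2.const_mul _) ?_
    filter_upwards [Cal.Γ_add_le (ha n).1 hd.1, hM n, C.Γ_nonneg _ hd.1] with x e1 e2 e3
    have e4 : (fun x => a n x + (u x - a n x)) = u := by funext y; ring
    rw [e4] at e1
    exact max_le (by linarith) (by linarith)
  have h2 : ∫ x, max (C.Γ u u x - 2 * M) 0 ∂m ≤ 0 := by
    have := hE.const_mul 2
    rw [mul_zero] at this
    exact ge_of_tendsto' this h1
  have h3 := (integral_eq_zero_iff_of_nonneg (fun x => le_max_right _ _) hi).1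
    (le_antisymm h2 (integral_nonneg fun x => le_max_right _ _))
  filter_upwards [h3] with x e
  have : C.Γ u u x - 2 * M ≤ max (C.Γ u u x - 2 * M) 0 := le_max_left _ _
  simp only [Pi.zero_apply] at e
  linarith

/-- `u = R s f` solves `u = R₀ s (f + s l Γ(F,u))` for the unweighted resolvent `R₀` of `CB.flow0` (`Gen_re`,
`Flow.R_uniq`).  Iterate `u 0 = 0`, `u (n+1) = R₀ s (f + s l Γ(F, u n))`.  With `C₀ s l² LF² ≤ 1/4`, `CB.B4` keeps
`Γ(u n, u n) ≤ 4 C₀ A² / s`; with `s l² LF² ≤ 2`, `Flow.R_energy0` halves `E(u - u n)`; so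
`Γ(u,u) ≤ 8 C₀ A² / s + 2 Γ(u - u n, u - u n)` (`Γ_add_le`) gives the bound. -/
theorem CB.reg (h : CB C k F G MF MG LF) (hae : ae (wm m F l) = ae m) (hT : Flow (C.re (wm m F l) hae) T R) :
    ∃ h₀ : ℝ, 0 < h₀ ∧ ∀ (s A : ℝ) (f : X → ℝ), 0 < s → s ≤ h₀ → MemLp f 2 (wm m F l) →
      (∀ᵐ x ∂(wm m F l), |f x| ≤ A) → ∃ M : ℝ, ∀ᵐ x ∂(wm m F l), C.Γ (R s f) (R s f) x ≤ M := by
  obtain ⟨T₀, R₀, h0⟩ := h.flow0
  obtain ⟨C₀, h₁, hC, hh₁, hB⟩ := h.B4
  have hK0 : 0 ≤ l ^ 2 * (LF : ℝ) ^ 2 := by positivity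
  set K := l ^ 2 * (LF : ℝ) ^ 2 with hKd
  refine ⟨min h₁ (min (1 / (4 * C₀ * K + 1)) (1 / (K + 1))), by positivity, fun s A f hs hle hf hA => ?_⟩
  have hs1 : s ≤ h₁ := hle.trans (min_le_left _ _)
  have hs2 : s * (4 * C₀ * K + 1) ≤ 1 := by
    have := hle.trans ((min_le_right _ _).trans (min_le_left _ _))
    rwa [le_div_iff₀ (by positivity)] at this
  have hs3 : s * (K + 1) ≤ 1 := by
    have := hle.trans ((min_le_right _ _).trans (min_le_right _ _))
    rwa [le_div_iff₀ (by positivity)] at this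
  have hk1 : C₀ * s * K ≤ 1 / 4 := by nlinarith
  have hk2 : s * K ≤ 2 := by nlinarith
  have hFc := h.F_lip.continuous
  have hf0 : MemLp f 2 m := (memLp_wm hFc h.F_bd l).1 hf
  rw [hae] at hA ⊢
  have hg := (Gen_re h.F_lip h.F_bd hae).1 (hT.R_gen s hs f hf)
  set u := R s f with hud
  have hu : C.W u := hg.1
  have he : u =ᵐ[m] R₀ s fun x => f x + s * l * C.Γ F u x := by
    refine h0.R_uniq hs (iiw3_mem h.F_lip hf0 hu (s * l)) (hg.congr (ae_eq_refl _) (ae_of_all _ fun x => ?_))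
    simp only
    field_simp
    ring
  let a : ℕ → X → ℝ := fun n => Nat.rec (fun _ => 0) (fun _ v => R₀ s fun x => f x + s * l * C.Γ F v x) n
  have ha0 : a 0 = fun _ => 0 := rfl
  have haS : ∀ n, a (n + 1) = R₀ s fun x => f x + s * l * C.Γ F (a n) x := fun n => rfl
  have hM0 : 0 ≤ 4 * C₀ * A ^ 2 / s := by positivity
  have hW : ∀ n, C.W (a n) := by
    intro n
    induction n with
    | zero => exact C.W_zero
    | succ n ih => rw [haS]; exact h0.R_W hs (iiw3_mem h.F_lip hf0 ih (s * l))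
  have hM : ∀ n, ∀ᵐ x ∂m, C.Γ (a n) (a n) x ≤ 4 * C₀ * A ^ 2 / s := by
    intro n
    induction n with
    | zero =>
      filter_upwards [Cal.Γ_const (D := C) 0 (hW 0).1] with x e
      rw [ha0] at e ⊢
      rw [e]; exact hM0
    | succ n ih =>
      rw [haS]
      exact iiw3_bd h0 h.F_lip hs hC hk1 (fun A u L => hB s A u L hs hs1) hf0 hA (hW n) ih
  have hE : ∀ n, C.E (fun x => u x - a n x) (fun x => u x - a n x) ≤
      (1 / 2) ^ n * C.E (fun x => u x - a 0 x) fun x => u x - a 0 x := by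
    intro n
    induction n with
    | zero => simp
    | succ n ih =>
      have := iiw3_contr h0 h.F_lip hs hk2 hf0 hu (hW n) he
      rw [← haS] at this
      rw [pow_succ]
      linarith
  refine ⟨2 * (4 * C₀ * A ^ 2 / s), iiw3_lim hM0 hu hW hM ?_⟩
  refine squeeze_zero (fun n => Cal.E_nonneg (hu.sub (hW n)).1) hE ?_
  have := (tendsto_pow_atTop_nhds_zero_of_lt_one (r := (1 / 2 : ℝ)) (by norm_num) (by norm_num)).mul_const
    (C.E (fun x => u x - a 0 x) fun x => u x - a 0 x)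
  rwa [zero_mul] at this

theorem CB.wb (h : CB C k F G MF MG LF) (hl : 0 ≤ l) (hae : ae (wm m F l) = ae m)
    (hT : Flow (C.re (wm m F l) hae) T R) :
    WB (C.re (wm m F l) hae) T R (fun x => k + l * G x) (k + l * MG) where
  flow := hT
  sl := h.sl.re hae
  κ_cont := continuous_const.add (continuous_const.mul h.G_cont)
  κ_le x := (abs_add_le _ _).trans (add_le_add (abs_of_nonneg h.k_nonneg).le
    (by rw [abs_mul, abs_of_nonneg hl]; exact mul_le_mul_of_nonneg_left (h.G_bd x) hl))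
  boch u L A hu hA hΓ := h.boch hl hae hu hA hΓ
  reg := h.reg hae hT

end Crest.Agent.R242.II
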