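import Crest.Agent.R242.IIV0
import Crest.Agent.R242.IIV2b
import Crest.Agent.R242.IIW3

/-! Row 242, part II (helper16), TASK IIV3: the limit `l → ∞`.
Keep the statements; auxiliary names `iiv3_*`.  Definitions: `R242/IIDefs.lean`; paper proof: `R242/IIRead.lean`. -/

set_option autoImplicit false
set_option linter.unusedSectionVars false
set_option linter.unusedVariables false

open MeasureTheory Filter Set
open scoped ENNReal NNReal Topology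

noncomputable section

namespace Crest.Agent.R242.II

variable {X : Type*} [MetricSpace X] [MeasurableSpace X] [BorelSpace X] [ProperSpace X]
  {m : Measure X} [IsFiniteMeasureOnCompacts m] [m.IsOpenPosMeasure] {C : Cal m}
  {T R : ℝ → (X → ℝ) → X → ℝ} {F G u v f g η L : X → ℝ} {k MF MG l : ℝ} {LF : ℝ≥0}

theorem iiv3_exp {c : ℝ} (hc : 0 < c) : Tendsto (fun l : ℝ => Real.exp (-(c * l))) atTop (𝓝 0) :=
  Real.tendsto_exp_neg_atTop_nhds_zero.comp (tendsto_id.const_mul_atTop hc)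

theorem iiv3_lim {c B k g₀ t d K A c₁ : ℝ} (hA : 2 * A < c₁ / t) :
    Tendsto (fun l : ℝ => c / l + B + (1 + (k / l + g₀) * t + 2 * ((k / l + g₀) * t) ^ 2) * d / (4 * t) +
      K * (Real.exp (2 * l * A) * Real.exp (-(c₁ * l / t)))) atTop
      (𝓝 (B + (1 + g₀ * t + 2 * (g₀ * t) ^ 2) * d / (4 * t))) := by
  have h1 : Tendsto (fun l : ℝ => c / l) atTop (𝓝 0) := tendsto_const_nhds.div_atTop tendsto_id
  have h2 : Tendsto (fun l : ℝ => (k / l + g₀) * t) atTop (𝓝 ((0 + g₀) * t)) :=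
    ((tendsto_const_nhds.div_atTop tendsto_id).add_const g₀).mul_const t
  have h3 : Tendsto (fun l : ℝ => Real.exp (2 * l * A) * Real.exp (-(c₁ * l / t))) atTop (𝓝 0) := by
    refine (iiv3_exp (sub_pos.2 hA)).congr fun l => ?_
    rw [← Real.exp_add]
    congr 1
    ring
  have h4 := ((h1.add_const B).add
    ((((h2.const_add 1).add ((h2.pow 2).const_mul 2)).mul_const d).div_const (4 * t))).add (h3.const_mul K)
  simpa only [zero_add, mul_zero, add_zero] using h4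

theorem iiv3_supp {z y : X} {ρ t M : ℝ} : HasCompactSupport (phi F z y ρ t M) :=
  HasCompactSupport.intro (isCompact_closedBall z 2) fun x hx =>
    phi_zero z y x fun h => hx (Metric.ball_subset_closedBall h)

theorem iiv3_rep {μ : Measure X} [IsFiniteMeasureOnCompacts μ] [μ.IsOpenPosMeasure] {D : Cal μ} {κ : X → ℝ}
    {κ₁ s A : ℝ} (h : WB D T R κ κ₁) (h1 : 0 ≤ κ₁) {p : X → ℝ} {K : ℝ≥0} (hp : LipschitzWith K p)
    (hc : HasCompactSupport p) (h0 : 0 ≤ A) (hA : ∀ x, 0 ≤ p x ∧ p x ≤ A) (hs : 0 ≤ s) :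
    ∃ U : X → ℝ, Continuous U ∧ U =ᵐ[μ] T s p := by
  obtain ⟨U, hU, hU'⟩ := h.exists_rep h1 (D.W_of_lip hp hc) h0
    (Eventually.of_forall fun x => by rw [abs_of_nonneg (hA x).1]; exact (hA x).2) (sq_nonneg (K : ℝ))
    (D.lip p K hp).2 hs
  exact ⟨U, hU.continuous, hU'.symm⟩

/-- For every `l ≥ 1`: flow from `CB.flow` (`ae_wm`), `CB.wb`, continuous representatives `Ua, Ub` of
`T (t/l) (phi F z a (2δ) t M)`, `T (t/l) (phi F z b (2δ) t M)` (`WB.exists_rep`, `W_of_lip`), `Flow.evi_low` with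
`N = δ²/(2t) - F z - LF ε' + 2M` and twice `WB.evi_up` with `A = δ²/t + 2M`, `ρK = 2`.  Let `l → ∞`. -/
theorem CB.evi_lim (h : CB C k F G MF MG LF) {z₀ z a b : X} {ρ₀ ρ₁ g₀ t ε ε' δ M c₁ c₂ : ℝ}
    (hG : ∀ x ∈ Metric.ball z₀ ρ₀, G x ≤ g₀) (hg₀ : |g₀| ≤ MG) (ht : 0 < t) (htk : (k + MG) * t ≤ 1 / 2)
    (hesc₁ : ∀ l : ℝ, 1 ≤ l → ∀ (hae : ae (wm m F l) = ae m) (T R : ℝ → (X → ℝ) → X → ℝ),
      Flow (C.re (wm m F l) hae) T R →
      Esc (wm m F l) T (Metric.ball z₀ ρ₁) (Metric.ball z₀ ρ₀) (t / l) (Real.exp (-(c₁ * l / t))))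
    (hc₂ : 0 < c₂)
    (hesc₂ : ∀ l : ℝ, 1 ≤ l → ∀ (hae : ae (wm m F l) = ae m) (T R : ℝ → (X → ℝ) → X → ℝ),
      Flow (C.re (wm m F l) hae) T R →
      Esc (wm m F l) T (Metric.ball z (ε' / 2)) (Metric.ball z ε') (t / l) (Real.exp (-(c₂ * l / t))))
    (hε : 0 < ε) (hε' : 0 < ε') (hε1 : ε' ≤ 1) (ha : dist a z = δ) (hb : dist b z = δ) (hab : dist a b = 2 * δ)
    (hd : dist z z₀ + (δ + ε) < ρ₁) (hM : MF + LF ≤ M) (hA : 2 * (δ ^ 2 / t + 2 * M) < c₁ / t) :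
    δ ^ 2 / (2 * t) - F z - LF * ε' ≤ -(F a + F b) / 2 + LF * ε + (8 * δ * ε + 5 * ε ^ 2) / (2 * t) +
      (1 + g₀ * t + 2 * (g₀ * t) ^ 2) * (δ + ε) ^ 2 / (2 * t) := by
  have hδ : 0 ≤ δ := ha ▸ dist_nonneg
  have hMF : 0 ≤ MF := (abs_nonneg _).trans (h.F_bd z)
  have hMG : 0 ≤ MG := (abs_nonneg _).trans hg₀
  have hLF : (0 : ℝ) ≤ LF := LF.coe_nonneg
  have hM2 : MF / 2 ≤ M := by linarith
  have hρ : 0 ≤ 2 * δ := by positivity
  have hFc := h.F_lip.continuous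
  obtain ⟨Ka, hKa⟩ := phi_lip h.F_lip h.F_bd z a hρ ht M
  obtain ⟨Kb, hKb⟩ := phi_lip h.F_lip h.F_bd z b hρ ht M
  obtain ⟨A, hAe⟩ : ∃ A : ℝ, A = (2 * δ) ^ 2 / (4 * t) + 2 * M := ⟨_, rfl⟩
  have hA' : 2 * A < c₁ / t := by
    have : (2 * δ) ^ 2 / (4 * t) = δ ^ 2 / t := by
      field_simp
      ring
    rwa [hAe, this]
  have hA0 : 0 ≤ A := by
    have : 0 ≤ (2 * δ) ^ 2 / (4 * t) := by positivity
    linarith
  have hpa : ∀ x, 0 ≤ phi F z a (2 * δ) t M x ∧ phi F z a (2 * δ) t M x ≤ A := fun x =>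
    hAe ▸ phi_mem h.F_bd z a ht hM2 x
  have hpb : ∀ x, 0 ≤ phi F z b (2 * δ) t M x ∧ phi F z b (2 * δ) t M x ≤ A := fun x =>
    hAe ▸ phi_mem h.F_bd z b ht hM2 x
  obtain ⟨N, hN⟩ : ∃ N : ℝ, N = δ ^ 2 / (2 * t) - F z - LF * ε' + 2 * M := ⟨_, rfl⟩
  have hN0 : 0 ≤ N := by
    have h1 : 0 ≤ δ ^ 2 / (2 * t) := by positivity
    have h2 := (abs_le.1 (h.F_bd z)).2
    have h3 : LF * ε' ≤ LF := mul_le_of_le_one_right hLF hε1
    linarith
  have hlow : Tendsto (fun l : ℝ => N * (1 - Real.exp (-(c₂ * l / t)))) atTop (𝓝 (N * (1 - 0))) := by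
    refine Tendsto.const_mul N (Tendsto.const_sub 1 ((iiv3_exp (div_pos hc₂ ht)).congr fun l => ?_))
    congr 1
    ring
  have hup := (iiv3_lim (c := Real.log (1 + (2 * δ / ε + 2) *
      Real.sqrt ((m (Metric.ball z 2)).toReal / (m (Metric.ball a ε)).toReal)))
      (B := (4 * (2 * δ) * ε + 5 * ε ^ 2) / (4 * t) + M - F a / 2 + LF * ε / 2) (k := k) (g₀ := g₀)
      (d := (δ + ε) ^ 2) (K := 54 * (MG - g₀) * Real.exp (8 * (k + MG) * t) * (Ka : ℝ) ^ 2 * t ^ 2) hA').add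
    (iiv3_lim (c := Real.log (1 + (2 * δ / ε + 2) *
      Real.sqrt ((m (Metric.ball z 2)).toReal / (m (Metric.ball b ε)).toReal)))
      (B := (4 * (2 * δ) * ε + 5 * ε ^ 2) / (4 * t) + M - F b / 2 + LF * ε / 2) (k := k) (g₀ := g₀)
      (d := (δ + ε) ^ 2) (K := 54 * (MG - g₀) * Real.exp (8 * (k + MG) * t) * (Kb : ℝ) ^ 2 * t ^ 2) hA')
  have key := le_of_tendsto_of_tendsto hlow hup (by
    filter_upwards [eventually_ge_atTop (1 : ℝ)] with l hl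
    have hl0 : 0 < l := by linarith
    have hae := ae_wm (m := m) hFc l
    have := wm_finite (m := m) hFc l
    have := wm_openPos (m := m) hFc l
    obtain ⟨T, R, hT⟩ := h.flow l hae
    have hwb := h.wb hl0.le hae hT
    have hκ : 0 ≤ k + l * MG := add_nonneg h.k_nonneg (mul_nonneg hl0.le hMG)
    have hs : 0 ≤ t / l := by positivity
    obtain ⟨Ua, hUa, hUa'⟩ := iiv3_rep hwb hκ hKa iiv3_supp hA0 hpa hs
    obtain ⟨Ub, hUb, hUb'⟩ := iiv3_rep hwb hκ hKb iiv3_supp hA0 hpb hs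
    have h1 := hT.evi_low hε' hs (hesc₂ l hl hae T R hT)
      (hKa.continuous.memLp_of_hasCompactSupport iiv3_supp)
      (hKb.continuous.memLp_of_hasCompactSupport iiv3_supp) hN0
      (fun x => add_nonneg (hpa x).1 (hpb x).1)
      (fun x hx => hN ▸ phi_add_ge h.F_lip ht hab hε1 hx) hUa hUb hUa' hUb'
    have h2 := hwb.evi_up h.geod h.k_nonneg h.F_lip h.F_bd hl hG hg₀ ht htk (Real.exp_pos _).le
      (hesc₁ l hl hae T R hT) hε hρ ha.le hd hKa hpa (phi_zero z a) (phi_le h.F_bd z a ht hM2) hM2 hUa hUa'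
    have h3 := hwb.evi_up h.geod h.k_nonneg h.F_lip h.F_bd hl hG hg₀ ht htk (Real.exp_pos _).le
      (hesc₁ l hl hae T R hT) hε hρ hb.le hd hKb hpb (phi_zero z b) (phi_le h.F_bd z b ht hM2) hM2 hUb hUb'
    exact h1.trans (add_le_add h2 h3))
  have e1 : (4 * (2 * δ) * ε + 5 * ε ^ 2) / (4 * t) = (8 * δ * ε + 5 * ε ^ 2) / (2 * t) / 2 := by
    field_simp
    ring
  have e2 : (1 + g₀ * t + 2 * (g₀ * t) ^ 2) * (δ + ε) ^ 2 / (4 * t) =
      (1 + g₀ * t + 2 * (g₀ * t) ^ 2) * (δ + ε) ^ 2 / (2 * t) / 2 := by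
    field_simp
    ring
  rw [e1, e2, hN] at key
  linarith

end Crest.Agent.R242.II
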