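import Crest.Agent.R242.IIW1b
import Crest.Agent.R242.IIE

/-! Row 242, part II (helper16), TASK IIW4: escape estimate for the weighted flow.
Keep the statements; auxiliary names `iiw4_*`.  Definitions: `R242/IIDefs.lean`; paper proof: `R242/IIRead.lean`. -/

set_option autoImplicit false
set_option linter.unusedSectionVars false
set_option linter.unusedVariables false

open MeasureTheory Filter Set
open scoped ENNReal NNReal Topology

noncomputable section

namespace Crest.Agent.R242.II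

variable {X : Type*} [MetricSpace X] [MeasurableSpace X] [BorelSpace X] [ProperSpace X]
  {m : Measure X} [IsFiniteMeasureOnCompacts m] [m.IsOpenPosMeasure] {C : Cal m}
  {T R : ℝ → (X → ℝ) → X → ℝ} {F G u v f g η L : X → ℝ} {k MF MG l : ℝ} {LF : ℝ≥0}

theorem Esc.mono {B₁ B₂ : Set X} {r e e' : ℝ} (h : Esc m T B₁ B₂ r e) (he : e ≤ e') : Esc m T B₁ B₂ r e' := by
  intro η hη w hw
  obtain ⟨h1, h2⟩ := h η hη w hw
  have h0 : 0 ≤ ∫ x, η x ∂m := integral_nonneg fun x => (hη.mem x).1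
  constructor
  · exact le_trans (mul_le_mul_of_nonneg_right (by linarith) h0) h1
  · exact h2.trans (mul_le_mul_of_nonneg_right he h0)

theorem iiw4_num {K a b t l : ℝ} (ha : 0 ≤ a) (hb : 0 ≤ b) (ht : 0 < t) (ht0 : t ≤ 1 / (4 * (a + b) + 1))
    (hl : 1 ≤ l) :
    -(1 / (2 * (K ^ 2 + 1)) * l / t) + t / l * (1 / (2 * (K ^ 2 + 1)) * l / t * (a + l * b) +
      (1 / (2 * (K ^ 2 + 1)) * l / t) ^ 2 * K ^ 2) ≤ -(1 / (2 * (K ^ 2 + 1)) / 4 * l / t) := by
  set θ : ℝ := 1 / (2 * (K ^ 2 + 1)) with hθ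
  have hθ0 : 0 < θ := by positivity
  have hθK : θ * K ^ 2 ≤ 1 / 2 := by
    rw [hθ, div_mul_eq_mul_div, div_le_iff₀ (by positivity)]
    nlinarith
  have hl0 : 0 < l := by linarith
  have e : t / l * (θ * l / t * (a + l * b) + (θ * l / t) ^ 2 * K ^ 2) =
      θ * (a + l * b) + θ * (l / t) * (θ * K ^ 2) := by
    field_simp
  have hq : 0 < l / t := by positivity
  have h1 : a + l * b ≤ l / t / 4 := by
    rw [le_div_iff₀ (by positivity)] at ht0
    rw [div_div, le_div_iff₀ (by positivity)]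
    have : (a + l * b) * (t * 4) ≤ l * ((a + b) * (t * 4)) := by
      have : a + l * b ≤ l * (a + b) := by nlinarith
      nlinarith
    nlinarith
  rw [e, mul_div_assoc θ l t, mul_div_assoc (θ / 4) l t]
  have h2 : θ * (l / t) * (θ * K ^ 2) ≤ θ * (l / t) * (1 / 2) :=
    mul_le_mul_of_nonneg_left hθK (by positivity)
  have h3 : θ * (a + l * b) ≤ θ * (l / t / 4) := mul_le_mul_of_nonneg_left h1 hθ0.le
  linarith

/-- `Flow.esc` with the cutoff `ζ` of `CB.B5`: weighted generator `Lζ + l Γ(F,ζ)` (`Gen_re`), bounded by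
`C₁ = |C₀| + l LF K`; `β = θ l / t`, `θ = 1 / (2 (K² + 1))`, `c = θ / 4`, `t₀ = 1 / (4 (|C₀| + LF K) + 1)`. -/
theorem CB.esc (h : CB C k F G MF MG LF) (z : X) {r₁ r₂ : ℝ} (h1 : 0 < r₁) (h2 : r₁ < r₂) :
    ∃ c t₀ : ℝ, 0 < c ∧ 0 < t₀ ∧ ∀ t : ℝ, 0 < t → t ≤ t₀ → ∀ l : ℝ, 1 ≤ l → ∀ (hae : ae (wm m F l) = ae m)
      (T R : ℝ → (X → ℝ) → X → ℝ), Flow (C.re (wm m F l) hae) T R →
      Esc (wm m F l) T (Metric.ball z r₁) (Metric.ball z r₂) (t / l) (Real.exp (-(c * l / t))) := by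
  obtain ⟨ζ, Lζ, K, C₀, hζ, h01, hone, hzero, hg, hC⟩ := h.B5 z r₁ r₂ h1 h2
  have hK : (0 : ℝ) ≤ K := K.2
  have hLF : (0 : ℝ) ≤ LF := LF.2
  refine ⟨1 / (2 * ((K : ℝ) ^ 2 + 1)) / 4, 1 / (4 * (|C₀| + LF * K) + 1), by positivity, by positivity, ?_⟩
  intro t ht ht0 l hl hae T R hT
  have hl0 : 0 < l := by linarith
  have := wm_finite (m := m) h.F_lip.continuous l
  have := wm_openPos (m := m) h.F_lip.continuous l
  have hg' : (C.re (wm m F l) hae).Gen ζ fun x => Lζ x + l * C.Γ F ζ x := by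
    rw [Gen_re h.F_lip h.F_bd hae]
    simpa using hg
  have hC' : ∀ᵐ x ∂(wm m F l), |Lζ x + l * C.Γ F ζ x| ≤ |C₀| + l * (LF * K) := by
    rw [hae]
    filter_upwards [hC, abs_ΓF_le (C := C) h.F_lip hg.1.1, (C.lip ζ K hζ).2] with x a1 a2 a3
    have a4 : Real.sqrt (C.Γ ζ ζ x) ≤ K := Real.sqrt_le_iff.2 ⟨hK, a3⟩
    refine (abs_add_le _ _).trans (add_le_add (a1.trans (le_abs_self _)) ?_)
    rw [abs_mul, abs_of_pos hl0]
    exact mul_le_mul_of_nonneg_left (a2.trans (mul_le_mul_of_nonneg_left a4 hLF)) hl0.le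
  have key := hT.esc (β := 1 / (2 * ((K : ℝ) ^ 2 + 1)) * l / t) (r := t / l) (ρ := r₁) (z := z)
    (B₂ := Metric.ball z r₂) measurableSet_ball hζ h01 (fun x hx => hone x (Metric.ball_subset_closedBall hx))
    hzero hg' (by positivity) hC' (by positivity)
  refine key.mono (Real.exp_le_exp.2 ?_)
  exact iiw4_num (abs_nonneg _) (by positivity) ht ht0 hl

end Crest.Agent.R242.II
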