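import Crest.Agent.R242.IIV3
import Crest.Agent.R242.IIW4

/-! Row 242, part II (helper16), TASK IIV4: the limits `ε → 0`, `t → 0`.
Keep the statements; auxiliary names `iiv4_*`.  Definitions: `R242/IIDefs.lean`; paper proof: `R242/IIRead.lean`. -/

set_option autoImplicit false
set_option linter.unusedSectionVars false
set_option linter.unusedVariables false

open MeasureTheory Filter Set
open scoped ENNReal NNReal Topology

noncomputable section

namespace Crest.Agent.R242.II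

variable {X : Type*} [MetricSpace X] [MeasurableSpace X] [BorelSpace X] [ProperSpace X]
  {m : Measure X} [IsFiniteMeasureOnCompacts m] [m.IsOpenPosMeasure] {C : Cal m}
  {T R : ℝ → (X → ℝ) → X → ℝ} {F G u v f g η L : X → ℝ} {k MF MG l : ℝ} {LF : ℝ≥0}

/-- Replace `g₀` by `min g₀ MG` (and `-MG ≤ G z₀ ≤ g₀`).  `CB.esc` at `(z₀, ρ/2, ρ)` gives `c₁, t₁`;
`δ₀ = min (ρ/8) (√c₁ / 2)`, `M = MF + LF + 1`.  For `0 < ε' ≤ 1`, `CB.esc` at `(z, ε'/2, ε')` gives `c₂, t₂`; for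
`t ≤ min t₁ t₂`, `t ≤ c₁ / (16 M)`, `(k + MG) t ≤ 1/2` and `ε ≤ ρ/8` use `evi_lim`; `ε → 0` gives
`F a + F b - 2 F z ≤ 2 LF ε' + g₀ δ² + 2 g₀² t δ²`; then `t → 0`, `ε' → 0`. -/
theorem CB.sd (h : CB C k F G MF MG LF) : SD F G := by
  intro z₀ ρ g₀ hρ hG
  have hMG : 0 ≤ MG := (abs_nonneg _).trans (h.G_bd z₀)
  have hMF : 0 ≤ MF := (abs_nonneg _).trans (h.F_bd z₀)
  have hLF : (0 : ℝ) ≤ LF := LF.2
  have hk := h.k_nonneg
  have hG' : ∀ x ∈ Metric.ball z₀ ρ, G x ≤ min g₀ MG := fun x hx =>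
    le_min (hG x hx) (abs_le.1 (h.G_bd x)).2
  have hg : |min g₀ MG| ≤ MG := abs_le.2
    ⟨(abs_le.1 (h.G_bd z₀)).1.trans (hG' z₀ (Metric.mem_ball_self hρ)), min_le_right _ _⟩
  have hgg : min g₀ MG ≤ g₀ := min_le_left _ _
  generalize min g₀ MG = g at hG' hg hgg
  obtain ⟨c₁, t₁, hc₁, ht₁, he₁⟩ := h.esc z₀ (half_pos hρ) (half_lt_self hρ)
  refine ⟨min (ρ / 8) (Real.sqrt c₁ / 2), lt_min (by positivity) (by positivity), ?_⟩
  intro a b z δ hz hδ ha hb hab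
  have hδ0 : 0 ≤ δ := ha ▸ dist_nonneg
  have hz' : dist z z₀ < ρ / 8 := hz.trans_le (min_le_left _ _)
  have hδ1 : δ < ρ / 8 := hδ.trans_le (min_le_left _ _)
  have hδ2 : δ ^ 2 ≤ c₁ / 4 := by
    have h1 : δ ≤ Real.sqrt c₁ / 2 := hδ.le.trans (min_le_right _ _)
    have h2 := Real.sq_sqrt hc₁.le
    have h3 := pow_le_pow_left₀ hδ0 h1 2
    rw [div_pow, h2] at h3
    linarith
  have hM : 0 < MF + LF + 1 := by positivity
  have key : ∀ ε' : ℝ, 0 < ε' → ε' ≤ 1 → F a + F b - 2 * F z ≤ 2 * LF * ε' + g * δ ^ 2 := by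
    intro ε' hε' hε1
    obtain ⟨c₂, t₂, hc₂, ht₂, he₂⟩ := h.esc z (half_pos hε') (half_lt_self hε')
    have step : ∀ t : ℝ, 0 < t → t ≤ t₁ → t ≤ t₂ → t ≤ c₁ / (16 * (MF + LF + 1)) → t ≤ 1 / (2 * (k + MG) + 1) →
        F a + F b - 2 * F z ≤ 2 * LF * ε' + g * δ ^ 2 + 2 * g ^ 2 * δ ^ 2 * t := by
      intro t ht h1 h2 h3 h4
      have htk : (k + MG) * t ≤ 1 / 2 := by
        rw [le_div_iff₀ (by positivity)] at h4
        nlinarith
      have hA : 2 * (δ ^ 2 / t + 2 * (MF + LF + 1)) < c₁ / t := by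
        rw [le_div_iff₀ (by positivity)] at h3
        rw [lt_div_iff₀ ht]
        have e : 2 * (δ ^ 2 / t + 2 * (MF + LF + 1)) * t = 2 * δ ^ 2 + 4 * (MF + LF + 1) * t := by
          field_simp
          ring
        rw [e]
        nlinarith
      have hlim : δ ^ 2 / (2 * t) - F z - LF * ε' ≤ -(F a + F b) / 2 + LF * 0 + (8 * δ * 0 + 5 * 0 ^ 2) / (2 * t) +
          (1 + g * t + 2 * (g * t) ^ 2) * (δ + 0) ^ 2 / (2 * t) := by
        have hc : Continuous fun ε : ℝ => -(F a + F b) / 2 + LF * ε + (8 * δ * ε + 5 * ε ^ 2) / (2 * t) +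
            (1 + g * t + 2 * (g * t) ^ 2) * (δ + ε) ^ 2 / (2 * t) := by fun_prop
        refine ge_of_tendsto ((hc.tendsto 0).mono_left (nhdsWithin_le_nhds (s := Ioi 0))) ?_
        filter_upwards [Ioc_mem_nhdsGT (show (0 : ℝ) < ρ / 8 by positivity)] with ε hε
        exact h.evi_lim hG' hg ht htk (he₁ t ht h1) hc₂ (he₂ t ht h2) hε.1 hε' hε1 ha hb hab
          (by linarith [hε.2]) (by linarith) hA
      have e : (1 + g * t + 2 * (g * t) ^ 2) * (δ + 0) ^ 2 / (2 * t) =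
          δ ^ 2 / (2 * t) + g * δ ^ 2 / 2 + g ^ 2 * δ ^ 2 * t := by
        field_simp
        ring
      rw [e] at hlim
      simp only [mul_zero, add_zero, ne_eq, OfNat.ofNat_ne_zero, not_false_eq_true, zero_pow, zero_div] at hlim
      linarith
    have hc : Continuous fun t : ℝ => 2 * LF * ε' + g * δ ^ 2 + 2 * g ^ 2 * δ ^ 2 * t := by fun_prop
    have hlim := (hc.tendsto 0).mono_left (nhdsWithin_le_nhds (s := Ioi 0))
    simp only [mul_zero, add_zero] at hlim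
    refine ge_of_tendsto hlim ?_
    filter_upwards [Ioc_mem_nhdsGT ht₁, Ioc_mem_nhdsGT ht₂,
      Ioc_mem_nhdsGT (show (0 : ℝ) < c₁ / (16 * (MF + LF + 1)) by positivity),
      Ioc_mem_nhdsGT (show (0 : ℝ) < 1 / (2 * (k + MG) + 1) by positivity)] with t h1 h2 h3 h4
    exact step t h1.1 h1.2 h2.2 h3.2 h4.2
  have hc : Continuous fun ε' : ℝ => 2 * LF * ε' + g * δ ^ 2 := by fun_prop
  have hlim := (hc.tendsto 0).mono_left (nhdsWithin_le_nhds (s := Ioi 0))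
  simp only [mul_zero, zero_add] at hlim
  have hfin : F a + F b - 2 * F z ≤ g * δ ^ 2 := by
    refine ge_of_tendsto hlim ?_
    filter_upwards [Ioc_mem_nhdsGT (show (0 : ℝ) < 1 by norm_num)] with ε' hε'
    exact key ε' hε'.1 hε'.2
  exact hfin.trans (mul_le_mul_of_nonneg_right hgg (sq_nonneg δ))

end Crest.Agent.R242.II
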