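import Crest.Agent.R242.IIW1b
import Crest.Agent.R242.IIA3

/-! Row 242, part II (helper16), TASK IIW2: the Bochner inequality for the weighted calculus, Lipschitz test functions.
Keep the statements; auxiliary names `iiw2_*`.  Definitions: `R242/IIDefs.lean`; paper proof: `R242/IIRead.lean`. -/

set_option autoImplicit false
set_option linter.unusedSectionVars false
set_option linter.unusedVariables false

open MeasureTheory Filter Set
open scoped ENNReal NNReal Topology

noncomputable section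

namespace Crest.Agent.R242.II

variable {X : Type*} [MetricSpace X] [MeasurableSpace X] [BorelSpace X] [ProperSpace X]
  {m : Measure X} [IsFiniteMeasureOnCompacts m] [m.IsOpenPosMeasure] {C : Cal m}
  {T R : ℝ → (X → ℝ) → X → ℝ} {F G u v f g η L : X → ℝ} {k MF MG l : ℝ} {LF : ℝ≥0}

theorem iiw2_lip {a b : X → ℝ} {Ka Kb : ℝ≥0} {A B : ℝ} (ha : LipschitzWith Ka a) (hb : LipschitzWith Kb b)
    (hA : ∀ x, |a x| ≤ A) (hB : ∀ x, |b x| ≤ B) :
    LipschitzWith (A.toNNReal * Kb + B.toNNReal * Ka) fun x => a x * b x := by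
  refine LipschitzWith.of_dist_le_mul fun x y => ?_
  have h1 := ha.dist_le_mul x y
  have h2 := hb.dist_le_mul x y
  rw [Real.dist_eq] at h1 h2 ⊢
  have h3 : |a x| * |b x - b y| ≤ A.toNNReal * (Kb * dist x y) :=
    mul_le_mul ((hA x).trans (Real.le_coe_toNNReal A)) h2 (abs_nonneg _) (NNReal.coe_nonneg _)
  have h4 : |b y| * |a x - a y| ≤ B.toNNReal * (Ka * dist x y) :=
    mul_le_mul ((hB y).trans (Real.le_coe_toNNReal B)) h1 (abs_nonneg _) (NNReal.coe_nonneg _)
  rw [show a x * b x - a y * b y = a x * (b x - b y) + b y * (a x - a y) by ring]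
  refine (abs_add_le _ _).trans ?_
  rw [abs_mul, abs_mul]
  push_cast
  linarith

/-- With `hh = exp (l F) * e` (Lipschitz, compact support, nonnegative) and `L₀ = L - l Γ(F,u)` (`Gen_re`) add
`CB.B2` and `l` times `CB.B3`; by `Γ_exp_mul`, `Γ(hh,w) = exp (l F) (Γ(e,w) + l e Γ(F,w))`, so
`hh L₀ + Γ(hh,u) = exp (l F) (e L + Γ(e,u))`; finish with `integral_wm`. -/
theorem CB.boch_lip (h : CB C k F G MF MG LF) (hl : 0 ≤ l) (hae : ae (wm m F l) = ae m) {e : X → ℝ} {A : ℝ}
    {K K' : ℝ≥0} (hu : (C.re (wm m F l) hae).Gen u L) (hA : ∀ x, |u x| ≤ A) (hK : LipschitzWith K u)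
    (he : LipschitzWith K' e) (hc : HasCompactSupport e) (h0 : ∀ x, 0 ≤ e x) :
    -(∫ x, (k + l * G x) * (e x * C.Γ u u x) ∂(wm m F l)) ≤
      -(1 / 2 * (C.re (wm m F l) hae).E e (C.Γ u u)) + ∫ x, L x * (e x * L x + C.Γ e u x) ∂(wm m F l) := by
  have hFc := h.F_lip.continuous
  have hg := (Gen_re h.F_lip h.F_bd hae).1 hu
  obtain ⟨B, hB⟩ := he.continuous.bounded_above_of_compact_support hc
  have hlip := iiw2_lip (exp_lip h.F_lip h.F_bd l) he (exp_bd h.F_bd l) hB
  have hcs : HasCompactSupport fun x => Real.exp (l * F x) * e x := hc.mul_left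
  have hpos : ∀ x, 0 ≤ Real.exp (l * F x) * e x := fun x => mul_nonneg (Real.exp_pos _).le (h0 x)
  have hbd : ∀ x, |Real.exp (l * F x) * e x| ≤ Real.exp (|l| * MF) * B := fun x => by
    rw [abs_mul]
    exact mul_le_mul (exp_bd h.F_bd l x) (hB x) (abs_nonneg _) (Real.exp_pos _).le
  have b1 := h.B1 u _ A K hg hA hK
  have b2 := h.B2 u _ _ A K _ hg hA hK hlip hcs hpos
  have b3 := mul_le_mul_of_nonneg_left (h.B3 u _ _ A K _ hg hA hK hlip hcs hpos) hl
  have hW := C.W_of_lip hlip hcs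
  obtain ⟨sF, gF⟩ := C.lip F LF h.F_lip
  obtain ⟨sh, gh⟩ := C.lip _ _ hlip
  have se := (C.lip e K' he).1
  have hm := C.S_meas _ sh
  have m1 : MemLp (C.Γ F u) 2 m := hg.1.memLp_Γ sF gF
  have m2 : MemLp (C.Γ F (C.Γ u u)) 2 m := b1.memLp_Γ sF gF
  have m3 : MemLp (fun x => Real.exp (l * F x) * e x * (L x - l * C.Γ F u x) +
      C.Γ (fun x => Real.exp (l * F x) * e x) u x) 2 m :=
    (memLp_mul_bdd hg.2.1 hm (Eventually.of_forall hbd)).add (hg.1.memLp_Γ sh gh)
  have i1 : Integrable (fun x => Real.exp (l * F x) * e x * C.Γ u u x) m :=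
    hg.1.integrable_mul_Γ hg.1 hm (Eventually.of_forall hbd)
  have i2 : Integrable (fun x => Real.exp (l * F x) * e x * G x * C.Γ u u x) m :=
    hg.1.integrable_mul_Γ (A := Real.exp (|l| * MF) * B * MG) hg.1 (hm.mul h.G_cont.aestronglyMeasurable)
      (Eventually.of_forall fun x => by
        rw [abs_mul]
        exact mul_le_mul (hbd x) (h.G_bd x) (abs_nonneg _) ((abs_nonneg _).trans (hbd x)))
  have i3 := hW.integrable_Γ b1
  have i4 := integrable_mul2 hW.2.1 m2
  have i5 := integrable_mul2 hg.2.1 m3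
  have i6 := integrable_mul2 m3 m1
  have e1 : ∫ x, (k + l * G x) * (e x * C.Γ u u x) ∂(wm m F l) =
      k * ∫ x, Real.exp (l * F x) * e x * C.Γ u u x ∂m +
        l * ∫ x, Real.exp (l * F x) * e x * G x * C.Γ u u x ∂m := by
    rw [integral_wm hFc, ← integral_const_mul, ← integral_const_mul,
      ← integral_add (i1.const_mul k) (i2.const_mul l)]
    exact integral_congr_ae (Eventually.of_forall fun x => by ring)
  have e2 : (C.re (wm m F l) hae).E e (C.Γ u u) =
      ∫ x, C.Γ (fun x => Real.exp (l * F x) * e x) (C.Γ u u) x ∂m -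
        l * ∫ x, Real.exp (l * F x) * e x * C.Γ F (C.Γ u u) x ∂m := by
    rw [Cal.E, integral_wm hFc, ← integral_const_mul, ← integral_sub i3 (i4.const_mul l)]
    refine integral_congr_ae ?_
    filter_upwards [Γ_exp_mul h.F_lip h.F_bd l se b1.1] with x hx
    rw [hx]
    change Real.exp (l * F x) * C.Γ e (C.Γ u u) x = _
    ring
  have e3 : ∫ x, L x * (e x * L x + C.Γ e u x) ∂(wm m F l) =
      ∫ x, (L x - l * C.Γ F u x) * (Real.exp (l * F x) * e x * (L x - l * C.Γ F u x) +
        C.Γ (fun x => Real.exp (l * F x) * e x) u x) ∂m +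
      l * ∫ x, (C.Γ (fun x => Real.exp (l * F x) * e x) u x +
        Real.exp (l * F x) * e x * (L x - l * C.Γ F u x)) * C.Γ F u x ∂m := by
    have i7 : Integrable (fun x => (C.Γ (fun x => Real.exp (l * F x) * e x) u x +
        Real.exp (l * F x) * e x * (L x - l * C.Γ F u x)) * C.Γ F u x) m :=
      i6.congr (Eventually.of_forall fun x => by ring)
    rw [integral_wm hFc, ← integral_const_mul, ← integral_add i5 (i7.const_mul l)]
    refine integral_congr_ae ?_
    filter_upwards [Γ_exp_mul h.F_lip h.F_bd l se hg.1.1] with x hx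
    rw [hx]
    ring
  rw [e1, e2, e3]
  linarith

end Crest.Agent.R242.II
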