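import Crest.Agent.R242.IIW2

/-! Row 242, part II (helper16), TASK IIW2b: the Bochner inequality for the weighted calculus.
Keep the statements; auxiliary names `iiw2b_*`.  Definitions: `R242/IIDefs.lean`; paper proof: `R242/IIRead.lean`. -/

set_option autoImplicit false
set_option linter.unusedSectionVars false
set_option linter.unusedVariables false

open MeasureTheory Filter Set
open scoped ENNReal NNReal Topology

noncomputable section

namespace Crest.Agent.R242.II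

variable {X : Type*} [MetricSpace X] [MeasurableSpace X] [BorelSpace X] [ProperSpace X]
  {m : Measure X} [IsFiniteMeasureOnCompacts m] [m.IsOpenPosMeasure] {C : Cal m}
  {T R : ℝ → (X → ℝ) → X → ℝ} {F G u v f g η L : X → ℝ} {k MF MG l : ℝ} {LF : ℝ≥0}

/-- passage to the limit in the test function (`tendsto_int_mul`, `tendsto_int_mul_bdd`, `abs_E_le`,
`Γ(e n - η, u) ^ 2 ≤ A Γ(e n - η, e n - η)`) -/
theorem boch_lim {κ : X → ℝ} {e : ℕ → X → ℝ} {A A' κ₁ : ℝ} (hκ : Continuous κ) (hκ₁ : ∀ x, |κ x| ≤ κ₁)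
    (hu : C.Gen u L) (hA : ∀ᵐ x ∂m, C.Γ u u x ≤ A) (hW : C.W (C.Γ u u)) (hη : C.W η)
    (hA' : ∀ᵐ x ∂m, 0 ≤ η x ∧ η x ≤ A') (he : ∀ n, C.W (e n)) (heA : ∀ n x, 0 ≤ e n x ∧ e n x ≤ A')
    (h1 : Tendsto (fun n => n2 m fun x => e n x - η x) atTop (𝓝 0))
    (h2 : Tendsto (fun n => C.E (fun y => e n y - η y) fun y => e n y - η y) atTop (𝓝 0))
    (h3 : ∀ n, -(∫ x, κ x * (e n x * C.Γ u u x) ∂m) ≤
      -(1 / 2 * C.E (e n) (C.Γ u u)) + ∫ x, L x * (e n x * L x + C.Γ (e n) u x) ∂m) :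
    -(∫ x, κ x * (η x * C.Γ u u x) ∂m) ≤
      -(1 / 2 * C.E η (C.Γ u u)) + ∫ x, L x * (η x * L x + C.Γ η u x) ∂m := by
  have hz : ∀ w : X → ℝ, Tendsto (fun _ : ℕ => n2 m fun x => w x - w x) atTop (𝓝 0) := fun w => by
    simp [n2]
  have huS : C.S u := hu.1.1
  have hL : MemLp L 2 m := hu.2.1
  have hd : ∀ n, C.W fun y => e n y - η y := fun n => (he n).sub hη
  have hmem : ∀ {w : X → ℝ}, C.W w → MemLp (C.Γ w u) 2 m := fun hw =>
    (hw.memLp_Γ huS hA).ae_eq (C.Γ_comm _ _ huS hw.1)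
  have ta : Tendsto (fun n => ∫ x, κ x * (e n x * C.Γ u u x) ∂m) atTop (𝓝 (∫ x, κ x * (η x * C.Γ u u x) ∂m)) := by
    have hg : MemLp (fun x => κ x * C.Γ u u x) 2 m :=
      memLp_mul_bdd hW.2.1 hκ.aestronglyMeasurable (Eventually.of_forall hκ₁)
    have := tendsto_int_mul (b := fun _ : ℕ => fun x => κ x * C.Γ u u x) (Eventually.of_forall fun n => (he n).2.1)
      (Eventually.of_forall fun _ => hg) hη.2.1 hg h1 (hz _)
    simpa only [mul_left_comm] using this
  have tb : Tendsto (fun n => C.E (e n) (C.Γ u u)) atTop (𝓝 (C.E η (C.Γ u u))) := by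
    rw [tendsto_iff_norm_sub_tendsto_zero]
    have h4 := (h2.sqrt).mul_const (Real.sqrt (C.E (C.Γ u u) (C.Γ u u)))
    rw [Real.sqrt_zero, zero_mul] at h4
    refine squeeze_zero (fun n => norm_nonneg _) (fun n => ?_) h4
    rw [Real.norm_eq_abs, ← Cal.E_sub (he n) hη hW]
    exact Cal.abs_E_le (hd n) hW
  have hLL : Integrable (fun x => L x * L x) m := integrable_mul2 hL hL
  have tc1 : Tendsto (fun n => ∫ x, e n x * (L x * L x) ∂m) atTop (𝓝 (∫ x, η x * (L x * L x) ∂m)) :=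
    tendsto_int_mul_bdd (A := A') (b := fun _ : ℕ => fun x => L x * L x)
      (Eventually.of_forall fun n => ⟨(he n).2.1, Eventually.of_forall fun x => by
        rw [abs_of_nonneg (heA n x).1]; exact (heA n x).2⟩) hη.2.1
      (hA'.mono fun x hx => by rw [abs_of_nonneg hx.1]; exact hx.2) (Eventually.of_forall fun _ => hLL) hLL h1
      (by simp)
  have tc2 : Tendsto (fun n => ∫ x, L x * C.Γ (e n) u x ∂m) atTop (𝓝 (∫ x, L x * C.Γ η u x ∂m)) := by
    refine tendsto_int_mul (a := fun _ : ℕ => L) (Eventually.of_forall fun _ => hL)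
      (Eventually.of_forall fun n => hmem (he n)) hL (hmem hη) (hz _) ?_
    have h4 := h2.const_mul A
    rw [mul_zero] at h4
    refine squeeze_zero (fun n => n2_nonneg _ _) (fun n => ?_) h4
    rw [← n2_congr (Cal.Γ_sub (he n).1 hη.1 huS), Cal.E, ← integral_const_mul, n2]
    refine integral_mono_ae (hmem (hd n)).integrable_sq ((hd n).2.2.const_mul A) ?_
    filter_upwards [Cal.Γ_sq_le (hd n).1 huS, C.Γ_nonneg _ (hd n).1, hA] with x h5 h6 h7
    rw [mul_comm A]
    exact h5.trans (mul_le_mul_of_nonneg_left h7 h6)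
  have hsplit : ∀ {w : X → ℝ}, C.W w → (∀ᵐ x ∂m, 0 ≤ w x ∧ w x ≤ A') →
      ∫ x, L x * (w x * L x + C.Γ w u x) ∂m = ∫ x, w x * (L x * L x) ∂m + ∫ x, L x * C.Γ w u x ∂m := by
    intro w hw hb
    have h5 : MemLp (fun x => w x * L x) 2 m :=
      memLp_mul_bdd (A := A') hL hw.2.1.1 (hb.mono fun x hx => by rw [abs_of_nonneg hx.1]; exact hx.2)
    have h6 : Integrable (fun x => w x * (L x * L x)) m := by
      simpa only [mul_assoc] using integrable_mul2 h5 hL
    rw [← integral_add h6 (integrable_mul2 hL (hmem hw))]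
    exact integral_congr_ae (Eventually.of_forall fun x => by ring)
  rw [hsplit hη hA']
  refine le_of_tendsto_of_tendsto' ta.neg ((tb.const_mul (1 / 2)).neg.add (tc1.add tc2)) fun n => ?_
  rw [← hsplit (he n) (Eventually.of_forall (heA n))]
  exact h3 n

/-- the field `WB.boch`: Lipschitz representative of `u` (`SL.glob`, bounded everywhere by `le_of_ae_le_on`),
`CB.B1`, `CB.B6`, `boch_lip`, and `boch_lim` for the measure `wm m F l` (`wm_finite`, `wm_openPos`,
`n2_wm_le`, `E_re_le`). -/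
theorem CB.boch (h : CB C k F G MF MG LF) (hl : 0 ≤ l) (hae : ae (wm m F l) = ae m) {A : ℝ}
    (hu : (C.re (wm m F l) hae).Gen u L) (hA : ∀ᵐ x ∂(wm m F l), |u x| ≤ A)
    (hΓ : ∀ᵐ x ∂(wm m F l), C.Γ u u x ≤ A) :
    (C.re (wm m F l) hae).W (C.Γ u u) ∧ ∀ (η : X → ℝ) (A' : ℝ), (C.re (wm m F l) hae).W η →
      (∀ᵐ x ∂(wm m F l), 0 ≤ η x ∧ η x ≤ A') →
      -(∫ x, (k + l * G x) * (η x * C.Γ u u x) ∂(wm m F l)) ≤
        -(1 / 2 * (C.re (wm m F l) hae).E η (C.Γ u u)) +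
          ∫ x, L x * (η x * L x + C.Γ η u x) ∂(wm m F l) := by
  have hF : Continuous F := h.F_lip.continuous
  have i1 := wm_finite (m := m) hF l
  have i2 := wm_openPos (m := m) hF l
  set D := C.re (wm m F l) hae with hD
  have huS : D.S u := hu.1.1
  obtain ⟨v, hv, huv⟩ := (h.sl.re hae).glob u ⟨Real.sqrt A, Real.sqrt_nonneg A⟩ huS (hΓ.mono fun x hx =>
    hx.trans (by
      show A ≤ Real.sqrt A ^ 2
      rw [Real.sq_sqrt']
      exact le_max_left _ _))
  have hvA : ∀ x, |v x| ≤ A := fun x =>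
    le_of_ae_le_on (μ := wm m F l) isOpen_univ hv.continuous.abs continuous_const (by
      filter_upwards [hA, huv] with y h1 h2 _
      rwa [← h2]) x (mem_univ x)
  have hvG : D.Gen v L := hu.congr huv EventuallyEq.rfl
  have hvS : D.S v := hvG.1.1
  have hΓΓ : D.Γ v v =ᵐ[wm m F l] D.Γ u u := Cal.Γ_congr₂ hvS hvS huv.symm huv.symm
  have hWv : D.W (D.Γ v v) :=
    (W_re hF h.F_bd hae).2 (h.B1 v _ A _ ((Gen_re h.F_lip h.F_bd hae).1 hvG) hvA hv)
  have hWu : D.W (D.Γ u u) := hWv.congr hΓΓ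
  refine ⟨hWu, fun η A' hη hA' => ?_⟩
  have hη' : C.W η := (W_re hF h.F_bd hae).1 hη
  obtain ⟨e, he, h1, h2⟩ := h.B6 η A' hη' (by rwa [← hae])
  have heW : ∀ n, C.W (e n) := fun n => by
    obtain ⟨⟨K, hK⟩, hc, -⟩ := he n
    exact C.W_of_lip hK hc
  have hκ : Continuous fun x => k + l * G x := continuous_const.add (h.G_cont.const_mul l)
  refine boch_lim (C := D) (κ := fun x => k + l * G x) (κ₁ := |k| + |l| * MG) (e := e) hκ (fun x => ?_) hu hΓ hWu hη hA'
    (fun n => (W_re hF h.F_bd hae).2 (heW n)) (fun n => (he n).2.2) ?_ ?_ fun n => ?_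
  · refine (abs_add_le _ _).trans (add_le_add le_rfl ?_)
    rw [abs_mul]
    exact mul_le_mul_of_nonneg_left (h.G_bd x) (abs_nonneg l)
  · have h4 := h1.const_mul (Real.exp (|l| * MF))
    rw [mul_zero] at h4
    exact squeeze_zero (fun n => n2_nonneg _ _)
      (fun n => n2_wm_le hF h.F_bd l ((heW n).sub hη').2.1) h4
  · have h4 := h2.const_mul (Real.exp (|l| * MF))
    rw [mul_zero] at h4
    exact squeeze_zero (fun n => Cal.E_nonneg (D := D) ((heW n).sub hη').1)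
      (fun n => E_re_le hF h.F_bd hae ((heW n).sub hη')) h4
  · obtain ⟨⟨K, hK⟩, hc, h0⟩ := he n
    have h5 := h.boch_lip hl hae hvG hvA hv hK hc fun x => (h0 x).1
    have heS : D.S (e n) := (heW n).1
    have e1 : ∫ x, (k + l * G x) * (e n x * C.Γ v v x) ∂(wm m F l) =
        ∫ x, (k + l * G x) * (e n x * D.Γ u u x) ∂(wm m F l) :=
      integral_congr_ae (hΓΓ.mono fun x hx => by
        have hx' : C.Γ v v x = D.Γ u u x := hx
        simp only [hx'])
    have e2 : D.E (e n) (C.Γ v v) = D.E (e n) (D.Γ u u) := Cal.E_congr heS hWv.1 EventuallyEq.rfl hΓΓ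
    have e3 : ∫ x, L x * (e n x * L x + C.Γ (e n) v x) ∂(wm m F l) =
        ∫ x, L x * (e n x * L x + D.Γ (e n) u x) ∂(wm m F l) :=
      integral_congr_ae ((Cal.Γ_congr₂ heS hvS EventuallyEq.rfl huv.symm).mono fun x hx => by
        have hx' : C.Γ (e n) v x = D.Γ (e n) u x := hx
        simp only [hx'])
    rw [e1, e2, e3] at h5
    exact h5

end Crest.Agent.R242.II
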