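import Crest.Agent.R226.OT
import Crest.Prelude.Def_SyntheticRicci

/-!
# R242 / Kan : Kantorovich duality without gap (Hahn-Banach + Riesz), quadratic cost on a proper space
-/

set_option autoImplicit false
set_option linter.unusedSectionVars false

namespace Crest.Agent.R242

open MeasureTheory Set Filter Topology
open scoped NNReal ENNReal BoundedContinuousFunction CompactlySupported
open Crest.Agent.R226.OT
open Crest.GeometryTopology.SyntheticRicci

/-- a sublinear functional has a supporting linear functional at every point -/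
theorem kan_support {E : Type*} [AddCommGroup E] [Module ℝ E] (N : E → ℝ)
    (hh : ∀ c : ℝ, 0 < c → ∀ x, N (c • x) = c * N x) (ha : ∀ x y, N (x + y) ≤ N x + N y) (x₀ : E) :
    ∃ g : E →ₗ[ℝ] ℝ, g x₀ = N x₀ ∧ ∀ x, g x ≤ N x := by
  have h0 : N 0 = 0 := by
    have := hh 2 two_pos 0
    rw [smul_zero] at this
    linarith
  have H : ∀ c : ℝ, c • x₀ = 0 → (RingHom.id ℝ) c • N x₀ = 0 := fun c hc => by
    rcases eq_or_ne c 0 with rfl | h
    · simp
    · have : x₀ = 0 := by simpa [h] using congrArg (c⁻¹ • ·) hc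
      simp [this, h0]
  obtain ⟨g, hg1, hg2⟩ := exists_extension_of_le_sublinear (LinearPMap.mkSpanSingleton' x₀ (N x₀) H) N hh ha
    (by
      rintro ⟨x, hx⟩
      obtain ⟨t, rfl⟩ := Submodule.mem_span_singleton.1 hx
      rw [LinearPMap.mkSpanSingleton'_apply]
      simp only [RingHom.id_apply, smul_eq_mul]
      rcases lt_trichotomy t 0 with h | rfl | h
      · have h1 := ha (t • x₀) ((-t) • x₀)
        rw [← add_smul, add_neg_cancel, zero_smul, h0, hh (-t) (by linarith)] at h1
        linarith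
      · simp [h0]
      · exact (hh t h x₀).ge)
  refine ⟨g, ?_, hg2⟩
  have := hg1 ⟨x₀, Submodule.mem_span_singleton_self x₀⟩
  rwa [LinearPMap.mkSpanSingleton'_apply_self] at this

section compact

variable {X Y : Type*} [MetricSpace X] [MetricSpace Y] [CompactSpace X] [Nonempty X] [CompactSpace Y]
  [Nonempty Y] [MeasurableSpace X] [BorelSpace X] [MeasurableSpace Y] [BorelSpace Y]

/-- admissible values of the dual problem -/
def kanS (μ : Measure X) (ν : Measure Y) (u : C(X × Y, ℝ)) : Set ℝ :=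
  {r | ∃ (φ : X → ℝ) (ψ : Y → ℝ), Continuous φ ∧ Continuous ψ ∧ (∀ x y, u (x, y) ≤ φ x + ψ y) ∧
    r = ∫ x, φ x ∂μ + ∫ y, ψ y ∂ν}

variable (μ : Measure X) (ν : Measure Y) [IsProbabilityMeasure μ] [IsProbabilityMeasure ν]

theorem kanS_ne (u : C(X × Y, ℝ)) : (kanS μ ν u).Nonempty :=
  ⟨_, fun _ => ‖u‖, fun _ => 0, continuous_const, continuous_const,
    fun x y => by simpa using (le_abs_self _).trans (u.norm_coe_le_norm (x, y)), rfl⟩

theorem kanS_bdd (u : C(X × Y, ℝ)) : BddBelow (kanS μ ν u) := by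
  refine ⟨-‖u‖, ?_⟩
  rintro r ⟨φ, ψ, hφ, hψ, h, rfl⟩
  have h1 : ∀ x, -‖u‖ - ∫ y, ψ y ∂ν ≤ φ x := fun x => by
    have : ∫ _y, (-‖u‖ - φ x) ∂ν ≤ ∫ y, ψ y ∂ν :=
      integral_mono (integrable_const _) (int_cont hψ) fun y => by
        have h2 := h x y
        have h3 := (neg_abs_le _).trans' (neg_le_neg (u.norm_coe_le_norm (x, y)))
        show -‖u‖ - φ x ≤ ψ y
        linarith
    simp only [integral_const, probReal_univ, one_smul] at this
    linarith
  have : ∫ _x, (-‖u‖ - ∫ y, ψ y ∂ν) ∂μ ≤ ∫ x, φ x ∂μ := integral_mono (integrable_const _) (int_cont hφ) h1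
  simp only [integral_const, probReal_univ, one_smul] at this
  linarith

theorem kanS_smul (u : C(X × Y, ℝ)) {c : ℝ} (hc : 0 < c) : sInf (kanS μ ν (c • u)) ≤ c * sInf (kanS μ ν u) := by
  rw [← div_le_iff₀' hc]
  refine le_csInf (kanS_ne μ ν u) ?_
  rintro r ⟨φ, ψ, hφ, hψ, h, rfl⟩
  rw [div_le_iff₀' hc]
  refine csInf_le (kanS_bdd μ ν _) ⟨fun x => c * φ x, fun y => c * ψ y, by fun_prop, by fun_prop,
    fun x y => ?_, ?_⟩
  · have := mul_le_mul_of_nonneg_left (h x y) hc.le
    simpa [mul_add] using this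
  · rw [integral_const_mul, integral_const_mul, mul_add]

theorem kan_compact {L : ℝ≥0} {c : X → Y → ℝ} (hc : LipCost L c) :
    ∃ (Φ : X → ℝ) (Ψ : Y → ℝ), Conj c Φ Ψ ∧ ∃ q : Measure (X × Y), IsProbabilityMeasure q ∧
      q.map Prod.fst = μ ∧ q.map Prod.snd = ν ∧ ∫ p, c p.1 p.2 ∂q = ∫ x, Φ x ∂μ + ∫ y, Ψ y ∂ν := by
  obtain ⟨Φ, Ψ, hC, hmax⟩ := exists_dual μ ν hc
  have hΦ := (hC.lip_left hc).continuous
  have hΨ := (hC.lip_right hc).continuous
  let N : C(X × Y, ℝ) → ℝ := fun u => sInf (kanS μ ν u)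
  have hh : ∀ t : ℝ, 0 < t → ∀ u, N (t • u) = t * N u := fun t ht u => by
    refine le_antisymm (kanS_smul μ ν u ht) ?_
    have := kanS_smul μ ν (t • u) (inv_pos.2 ht)
    rw [smul_smul, inv_mul_cancel₀ ht.ne', one_smul, ← div_eq_inv_mul, le_div_iff₀' ht] at this
    exact this
  have ha : ∀ u v, N (u + v) ≤ N u + N v := fun u v => by
    rw [← sub_le_iff_le_add]
    refine le_csInf (kanS_ne μ ν u) ?_
    rintro r ⟨φ, ψ, hφ, hψ, h, rfl⟩
    rw [sub_le_comm]
    refine le_csInf (kanS_ne μ ν v) ?_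
    rintro r ⟨φ', ψ', hφ', hψ', h', rfl⟩
    rw [sub_le_iff_le_add]
    refine csInf_le (kanS_bdd μ ν _) ⟨fun x => φ x + φ' x, fun y => ψ y + ψ' y, by fun_prop, by fun_prop,
      fun x y => ?_, ?_⟩
    · have h1 := h x y
      have h2 := h' x y
      simp only [ContinuousMap.add_apply]
      linarith
    · rw [integral_add (int_cont hφ) (int_cont hφ'), integral_add (int_cont hψ) (int_cont hψ')]
      ring
  let c' : C(X × Y, ℝ) := ⟨fun p => c p.1 p.2, hc.cont⟩
  obtain ⟨g, hg0, hg⟩ := kan_support N hh ha (-c')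
  have hle : ∀ (u : C(X × Y, ℝ)) (φ : X → ℝ) (ψ : Y → ℝ), Continuous φ → Continuous ψ →
      (∀ x y, u (x, y) ≤ φ x + ψ y) → g u ≤ ∫ x, φ x ∂μ + ∫ y, ψ y ∂ν := fun u φ ψ hφ hψ h =>
    (hg u).trans (csInf_le (kanS_bdd μ ν _) ⟨φ, ψ, hφ, hψ, h, rfl⟩)
  let l : C_c(X × Y, ℝ) →ₗ[ℝ] ℝ :=
    { toFun := fun f => g f.toContinuousMap
      map_add' := fun f f' => by rw [← map_add]; rfl
      map_smul' := fun a f => by rw [← map_smul]; rfl }
  let Λ : C_c(X × Y, ℝ) →ₚ[ℝ] ℝ := PositiveLinearMap.mk₀ l fun f hf => by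
    have := hle (-f.toContinuousMap) (fun _ => 0) (fun _ => 0) continuous_const continuous_const fun x y => by
      have := hf (x, y)
      simpa using this
    simp only [map_neg, integral_zero, add_zero] at this
    show 0 ≤ g f.toContinuousMap
    linarith
  have hq : ∀ u : C(X × Y, ℝ), ∫ p, u p ∂(RealRMK.rieszMeasure Λ) = g u := fun u =>
    RealRMK.integral_rieszMeasure Λ ⟨u, HasCompactSupport.of_compactSpace u⟩
  have heq : ∀ (u : C(X × Y, ℝ)) (φ : X → ℝ) (ψ : Y → ℝ), Continuous φ → Continuous ψ →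
      (∀ x y, u (x, y) = φ x + ψ y) → g u = ∫ x, φ x ∂μ + ∫ y, ψ y ∂ν := fun u φ ψ hφ hψ h => by
    refine le_antisymm (hle u φ ψ hφ hψ fun x y => (h x y).le) ?_
    have := hle (-u) (fun x => -φ x) (fun y => -ψ y) hφ.neg hψ.neg fun x y => by
      simp only [ContinuousMap.neg_apply, h x y]
      linarith
    rw [map_neg, integral_neg, integral_neg] at this
    linarith
  have h1 : (RealRMK.rieszMeasure Λ).map Prod.fst = μ := by
    refine ext_of_forall_integral_eq_of_IsFiniteMeasure fun f => ?_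
    rw [integral_map measurable_fst.aemeasurable f.continuous.aestronglyMeasurable]
    have := heq ⟨fun p => f p.1, by fun_prop⟩ f (fun _ => 0) f.continuous continuous_const fun x y => by simp
    rw [← hq] at this
    simpa using this
  have h2 : (RealRMK.rieszMeasure Λ).map Prod.snd = ν := by
    refine ext_of_forall_integral_eq_of_IsFiniteMeasure fun f => ?_
    rw [integral_map measurable_snd.aemeasurable f.continuous.aestronglyMeasurable]
    have := heq ⟨fun p => f p.2, by fun_prop⟩ (fun _ => 0) f continuous_const f.continuous fun x y => by simp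
    rw [← hq] at this
    simpa using this
  have hp : IsProbabilityMeasure (RealRMK.rieszMeasure Λ) := ⟨by
    have := congrArg (fun m : Measure X => m univ) h1
    simpa [Measure.map_apply measurable_fst] using this⟩
  refine ⟨Φ, Ψ, hC, _, hp, h1, h2, ?_⟩
  have e : ∫ p, c p.1 p.2 ∂(RealRMK.rieszMeasure Λ) = g c' := hq c'
  rw [e]
  have e2 : g c' = -N (-c') := by rw [← hg0, map_neg, neg_neg]
  apply le_antisymm
  · rw [e2, neg_le]
    refine le_csInf (kanS_ne μ ν _) ?_
    rintro r ⟨φ, ψ, hφ, hψ, h, rfl⟩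
    have := hmax (fun x => -φ x) (fun y => -ψ y) hφ.neg hψ.neg fun x y => by
      have := h x y
      simp only [ContinuousMap.neg_apply, c', ContinuousMap.coe_mk] at this
      linarith
    rw [integral_neg, integral_neg] at this
    linarith
  · have := hle (-c') (fun x => -Φ x) (fun y => -Ψ y) hΦ.neg hΨ.neg fun x y => by
      have := hC.le x y
      simp only [ContinuousMap.neg_apply, c', ContinuousMap.coe_mk]
      linarith
    rw [map_neg, integral_neg, integral_neg] at this
    linarith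

end compact

end Crest.Agent.R242
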