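import Crest.Agent.R242.MainCB
import Crest.Agent.R242.IISD
import Crest.Agent.R242.IIV4
import Crest.Agent.R242.BeGlue
import Crest.Agent.R242.GeMain
import Crest.Agent.R242.Ev9
import Crest.Agent.R242.GSp
import Crest.Agent.R242.DfHeat

/-! Row 242: assembly. -/

set_option autoImplicit false
open MeasureTheory Filter Set Topology
open scoped ENNReal NNReal
open Crest.GeometryTopology.SyntheticRicci

namespace Crest.Agent.R242

theorem main242 {X : Type*} [MetricSpace X] [CompleteSpace X] [TopologicalSpace.SeparableSpace X]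
    [MeasurableSpace X] [BorelSpace X] {m : Measure X} [m.IsOpenPosMeasure] (hfin : IsFiniteOnBalls m)
    {K N : ℝ} (hN : 1 < N) (hRCD : IsRCD m K N) {F G : X → ℝ} (hFb : ∃ B : ℝ, ∀ x, |F x| ≤ B)
    (hFl : ∃ L : ℝ≥0, LipschitzWith L F) (hGb : ∃ B : ℝ, ∀ x, |G x| ≤ B) (hGc : Continuous G)
    (hH : HasWeakHessLe m F G) (γ : UCurve X) (hγ : IsCSGeodesic γ) : SecondDerivAlongLe F G γ := by
  haveI : ProperSpace X := proper_of_cd hfin hN hRCD.1
  haveI : Fact (IsFiniteOnBalls m) := ⟨hfin⟩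
  haveI : Nonempty X := ⟨γ.toMap 0⟩
  obtain ⟨κ, β, hS⟩ := sp_of_rcd hfin hN hRCD
  obtain ⟨MF, hFb⟩ := hFb
  obtain ⟨LF, hFl⟩ := hFl
  obtain ⟨MG, hGb⟩ := hGb
  have hh := heat_of_sp hS
  have hB : II.Base m κ := Be.base_of_ge hS.κ_nonneg hS.hilb hh (ge_of_contr hS hh (contr_of_sp hS hh))
    (s2l_of_sp hS) (s2lloc_of_sp hS) (geod_of_cd hfin hRCD.1)
  exact (cb_of_base hS.hilb hB hFb hFl hGb hGc hH).sd.along hFl.continuous hGc γ hγ

end Crest.Agent.R242
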