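import Crest.Agent.R242.Wug9
import Crest.Agent.R242.Wug10
import Crest.Agent.R242.DfDefs

/-! Row 242, I-b: the Dirichlet form `dfOf hH : DF m` of an infinitesimally Hilbertian space (helper26). -/

set_option autoImplicit false
set_option linter.unusedSectionVars false
open MeasureTheory Filter Set Topology
open scoped ENNReal NNReal
open Crest.GeometryTopology.SyntheticRicci

namespace Crest.Agent.R242

variable {X : Type*} [MetricSpace X] [MeasurableSpace X] [BorelSpace X] {m : Measure X} {f g u v : X → ℝ}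
  [Fact (IsFiniteOnBalls m)]

theorem lip_of_deriv_le {φ : ℝ → ℝ} {C : ℝ} (hφ : ContDiff ℝ 1 φ) (h : ∀ r, |deriv φ r| ≤ C) :
    LipschitzWith C.toNNReal φ :=
  lipschitzWith_of_nnnorm_deriv_le (hφ.differentiable one_ne_zero) fun r => by
    rw [← NNReal.coe_le_coe, coe_nnnorm, Real.norm_eq_abs]
    exact (h r).trans (Real.le_coe_toNNReal C)

theorem gr_le_of_gam_le (hf : IsSobolevLoc m f) {C : ℝ} (h : ∀ᵐ x ∂m, |gradPairing m f f x| ≤ C) :
    ∀ᵐ x ∂m, |minWeakGrad m f x| ≤ Real.sqrt C := by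
  filter_upwards [h, gam_self hf] with x h1 h2
  exact Real.abs_le_sqrt (h2 ▸ (le_abs_self _).trans h1)

theorem sl_mul_bdd (hf : IsSobolevLoc m f) (hg : IsSobolevLoc m g) (hb : Bdd m f)
    (h : Bdd m g ∨ Bdd m (gradPairing m f f)) : IsSobolevLoc m fun x => f x * g x := by
  obtain ⟨C, hC⟩ := hb
  rcases h with ⟨C', hC'⟩ | ⟨C', hC'⟩
  · exact sl_mul hf hg (bddB_of_bound hC) (bddB_of_bound hC')
  · refine sl_mul' hf hg (l2b_mul (sl_aemeasurable hf) (bddB_of_bound hC) hg.1)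
      (l2b_mul (sl_aemeasurable hf) (bddB_of_bound hC) (gr_l2b m g)) ?_
    simpa only [mul_comm] using l2b_mul (gr_aemeasurable m f) (bddB_of_bound (gr_le_of_gam_le hf hC')) hg.1

theorem integral_gam_self (hf : IsSobolevLoc m f) :
    ∫ x, gradPairing m f f x ∂m = ∫ x, minWeakGrad m f x ^ 2 ∂m := integral_congr_ae (gam_self hf)

/-- the Dirichlet form of the space -/
noncomputable def dfOf (hH : IsInfHilbertian m) : DF m where
  S := IsSobolevLoc m
  Γ := gradPairing m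
  fin := (Fact.out : IsFiniteOnBalls m)
  S_loc hf o R := ⟨hf.1 o R, gam_integrableOn hf hf o R⟩
  S_meas hf := (sl_aemeasurable hf).aestronglyMeasurable
  S_congr := sl_congr
  S_add := sl_add
  S_smul := sl_const_mul
  S_lip := sl_lip
  S_comp hf hφ h := sl_comp (lip_of_deriv_le hφ h) hf
  S_mul := sl_mul_bdd
  Γ_meas _ _ := (gam_aemeasurable m _ _).aestronglyMeasurable
  Γ_congr hf hg h := gam_congr hf hg h EventuallyEq.rfl
  Γ_symm := gam_symm
  Γ_add := gam_add hH
  Γ_smul := gam_const_mul hH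
  Γ_nonneg := gam_self_nonneg
  Γ_lip hf := by
    filter_upwards [gam_self (sl_lip (m := m) hf), gr_le_lip (m := m) hf, gr_nonneg m _] with x h1 h2 h3
    rw [h1]
    exact pow_le_pow_left₀ h3 h2 2
  Γ_comp hf hk hφ h := gam_comp_contDiff hH hφ hf (sl_comp (lip_of_deriv_le hφ h) hf) hk
  Γ_mul hf hg hk hb h := by
    filter_upwards [gam_mul hH hf hg (sl_mul_bdd hf hg hb h) hk] with x hx
    rw [hx, add_comm]
  Γ_zero hf := gam_level hf hf 0
  closed := ⟨1, fun F g C hF hg ht hC => by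
    obtain ⟨h1, h2⟩ := sob_lsc (fun n => sob_iff.2 (hF n)) hg ht
      fun n => (integral_gam_self (hF n).1).symm.le.trans (hC n)
    exact ⟨⟨h1.2.1, gam_integrable h1 h1⟩, by rw [one_mul, integral_gam_self h1.2.1]; exact h2⟩⟩

variable {hH : IsInfHilbertian m}

theorem dfOf_S : (dfOf hH).S f ↔ IsSobolevLoc m f := Iff.rfl
theorem dfOf_Γ : (dfOf hH).Γ = gradPairing m := rfl
theorem dfOf_W : (dfOf hH).W f ↔ IsSobolev m f :=
  ⟨fun h => sob_iff.2 ⟨h.s, h.mem, h.int⟩, fun h => ⟨h.2.1, h.1, gam_integrable h h⟩⟩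
theorem dfOf_Gen : (dfOf hH).Gen u g ↔ IsWeakLaplacian m u g :=
  ⟨fun h => ⟨dfOf_W.1 h.w, h.mem, fun v hv => h.eq v (dfOf_W.2 hv)⟩,
    fun h => ⟨dfOf_W.2 h.1, h.2.1, fun v hv => h.2.2 v (dfOf_W.1 hv)⟩⟩

omit [BorelSpace X] [Fact (IsFiniteOnBalls m)] in
theorem isWeakLaplacian_weakLaplacian (h : ∃ L, IsWeakLaplacian m u L) :
    IsWeakLaplacian m u (weakLaplacian m u) := by
  rw [weakLaplacian, dif_pos h]
  exact h.choose_spec

/-- the weak Laplacian is unique -/
theorem weakLaplacian_unique {L L' : X → ℝ} (h : IsWeakLaplacian m u L) (h' : IsWeakLaplacian m u L') :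
    L =ᵐ[m] L' := by
  have hi : ∀ (o : X) (R : ℝ), IntegrableOn (fun x => L x - L' x) (Metric.ball o R) m := fun o R =>
    ((h.2.1.sub h'.2.1).restrict _).integrable one_le_two
  have := ae_zero_of_lip hi fun χ ⟨K, hK⟩ hs _ => by
    have hχ := sob_lip_supp (m := m) (lipB_of_lipschitz hK) hs
    have e := (h.2.2 χ hχ).symm.trans (h'.2.2 χ hχ)
    have e' := integral_sub (h.2.1.integrable_mul hχ.1) (h'.2.1.integrable_mul hχ.1)
    simp only [Pi.mul_apply] at e'
    rw [neg_inj.1 e, sub_self] at e'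
    rw [← e']
    exact integral_congr_ae (Eventually.of_forall fun x => by ring)
  filter_upwards [this] with x hx using sub_eq_zero.1 hx

theorem weakLaplacian_eq {L : X → ℝ} (h : IsWeakLaplacian m u L) : weakLaplacian m u =ᵐ[m] L :=
  weakLaplacian_unique (isWeakLaplacian_weakLaplacian ⟨L, h⟩) h

theorem dfOf_L : (dfOf hH).L u =ᵐ[m] weakLaplacian m u := by
  by_cases h : ∃ g, (dfOf hH).Gen u g
  · rw [DF.L, dif_pos h]
    exact (weakLaplacian_eq (dfOf_Gen.1 h.choose_spec)).symm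
  · rw [DF.L, dif_neg h, weakLaplacian, dif_neg fun ⟨L, hL⟩ => h ⟨L, dfOf_Gen.2 hL⟩]

end Crest.Agent.R242
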