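import Crest.Agent.R242.DfII
import Crest.Agent.R242.WugDF

/-! Row 242: from `II.Base` to `II.CB` for the Dirichlet form of `m`. -/

set_option autoImplicit false
set_option linter.unusedSectionVars false
open MeasureTheory Filter Set Topology
open scoped ENNReal NNReal
open Crest.GeometryTopology.SyntheticRicci

namespace Crest.Agent.R242

variable {X : Type*} [MetricSpace X] [ProperSpace X] [MeasurableSpace X] [BorelSpace X] {m : Measure X}
  [Fact (IsFiniteOnBalls m)] [m.IsOpenPosMeasure]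

theorem mcb_W {hH : IsInfHilbertian m} {u : X → ℝ} : (dfOf hH).cal.W u ↔ IsSobolev m u :=
  DF.cal_W.trans dfOf_W

theorem mcb_Gen {hH : IsInfHilbertian m} {u L : X → ℝ} : (dfOf hH).cal.Gen u L ↔ IsWeakLaplacian m u L :=
  DF.cal_Gen.trans dfOf_Gen

theorem mcb_gr {u : X → ℝ} (hu : IsSobolevLoc m u) (K : ℝ≥0) :
    ∀ᵐ x ∂m, gradPairing m u u x ≤ (K : ℝ) ^ 2 → minWeakGrad m u x ≤ K := by
  filter_upwards [gam_self hu] with x h1 h2
  rw [h1] at h2
  exact (le_abs_self _).trans (abs_le_of_sq_le_sq' h2 K.coe_nonneg |> fun h => abs_le.2 h)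

theorem cb_of_base (hH : IsInfHilbertian m) {k : ℝ} (hB : II.Base m k) {F G : X → ℝ} {MF MG : ℝ} {LF : ℝ≥0}
    (hFb : ∀ x, |F x| ≤ MF) (hFl : LipschitzWith LF F) (hGb : ∀ x, |G x| ≤ MG) (hGc : Continuous G)
    (hHess : HasWeakHessLe m F G) : II.CB (dfOf hH).cal k F G MF MG LF where
  k_nonneg := hB.k_nonneg
  geod := hB.geod
  sl :=
    { glob := fun u K hu h => hB.s2l u K hu (by
        filter_upwards [mcb_gr (m := m) hu K, h] with x h1 h2 using h1 h2)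
      loc := fun u K x y r hc hu h hr => hB.s2lloc u K x y r hc hu (by
        filter_upwards [mcb_gr (m := m) hu K, h] with x h1 h2 h3 using h1 (h2 h3)) hr }
  F_bd := hFb
  F_lip := hFl
  G_bd := hGb
  G_cont := hGc
  flow l h := (dfOf hH).flow_wm hFl.continuous.measurable hFb l h
  flow0 := ⟨_, _, (dfOf hH).flow⟩
  B1 u L A K hu hA hK := mcb_W.2 (hB.B1 u L A K (mcb_Gen.1 hu) hA hK)
  B2 u L h A K K' hu := hB.B2 u L h A K K' (mcb_Gen.1 hu)
  B3 u L h A K K' hu := hB.B3 F G ⟨MF, hFb⟩ ⟨LF, hFl⟩ ⟨MG, hGb⟩ hGc hHess u L h A K K' (mcb_Gen.1 hu)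
  B4 := by
    obtain ⟨C, h₀, h1, h2, h3⟩ := hB.B4
    exact ⟨C, h₀, h1, h2, fun h A u L a b hu => h3 h A u L a b (mcb_Gen.1 hu)⟩
  B5 z r₁ r₂ h1 h2 := by
    obtain ⟨ζ, Lζ, K, C, a, b, c, d, e, f⟩ := hB.B5 z r₁ r₂ h1 h2
    exact ⟨ζ, Lζ, K, C, a, b, c, d, mcb_Gen.2 e, f⟩
  B6 η A hη := hB.B6 η A (mcb_W.1 hη)

end Crest.Agent.R242
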