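import Crest.Agent.R242.WugDef

/-! Row 242, I-b, TASK Wug1: one-dimensional lemmas (keep the statements; aux names `w1_*`).
Mathlib: `AbsolutelyContinuousOnInterval` (`.ae_differentiableAt`, `.integral_deriv_eq_sub`, `.continuousOn`,
`IntervalIntegrable.absolutelyContinuousOnInterval_intervalIntegral`), Lebesgue differentiation
`IntervalIntegrable.ae_hasDerivAt_integral` / `LocallyIntegrable.ae_hasDerivAt_integral`. -/

set_option autoImplicit false
set_option linter.unusedSectionVars false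
open MeasureTheory Filter Set Topology
open scoped ENNReal NNReal
open Crest.GeometryTopology.SyntheticRicci

namespace Crest.Agent.R242

/-- increments dominated by those of an AC function -/
theorem ac_of_dist_le {g A : ℝ → ℝ} {K : ℝ} (hA : AbsolutelyContinuousOnInterval A 0 1)
    (h : ∀ s ∈ Icc (0 : ℝ) 1, ∀ t ∈ Icc (0 : ℝ) 1, |g t - g s| ≤ K * |A t - A s|) :
    AbsolutelyContinuousOnInterval g 0 1 := by
  have h1 := Tendsto.const_mul K hA
  rw [mul_zero] at h1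
  refine squeeze_zero' (Eventually.of_forall fun _ => Finset.sum_nonneg fun _ _ => dist_nonneg) ?_ h1
  rw [eventually_inf_principal]
  refine Eventually.of_forall fun E hE => ?_
  rw [Finset.mul_sum]
  refine Finset.sum_le_sum fun i hi => ?_
  have h2 := hE.1 i hi
  rw [uIcc_of_le zero_le_one] at h2
  exact h _ h2.2 _ h2.1

theorem w1_deriv_le {g A : ℝ → ℝ} {K a t : ℝ} (hK : 0 ≤ K) (hA : HasDerivAt A a t)
    (h : ∀ᶠ s in 𝓝 t, |g s - g t| ≤ K * |A s - A t|) : |deriv g t| ≤ K * |a| := by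
  by_cases hg : DifferentiableAt ℝ g t
  · have h1 := (hasDerivAt_iff_tendsto_slope.1 hg.hasDerivAt).abs
    have h2 := (hasDerivAt_iff_tendsto_slope.1 hA).abs.const_mul K
    refine le_of_tendsto_of_tendsto h1 h2 ?_
    filter_upwards [nhdsWithin_le_nhds h] with s hs
    rw [slope_def_field, slope_def_field, abs_div, abs_div, ← mul_div_assoc]
    exact div_le_div_of_nonneg_right hs (abs_nonneg _)
  · rw [deriv_zero_of_not_differentiableAt hg, abs_zero]
    positivity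

theorem w1_ae_Ioo : ∀ᵐ t ∂I01, t ∈ Ioo (0 : ℝ) 1 := by
  rw [I01, ← restrict_Ioo_eq_restrict_Icc]
  exact ae_restrict_mem measurableSet_Ioo

theorem w1_ae {p : ℝ → Prop} (h : ∀ᵐ t : ℝ, t ∈ uIcc (0 : ℝ) 1 → p t) : ∀ᵐ t ∂I01, p t := by
  rw [uIcc_of_le zero_le_one] at h
  exact (ae_restrict_iff' measurableSet_Icc).2 h

/-- McShane: `g t = ⨅ q ∈ ℚ ∩ [0,1], h q + |A t - A q|` with `A t = ∫ 0..t, a`; then
`|g t - g s| ≤ |A t - A s|`, `g t = h t` at the good `t` (continuity of `A`, density of `ℚ`),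
`A' = a` a.e. -/
theorem exists_ac_of_rat {h a : ℝ → ℝ} (ha : IntegrableOn a (Icc 0 1)) (ha0 : ∀ᵐ t ∂I01, 0 ≤ a t)
    (hq : ∀ p q : ℚ, (p : ℝ) ∈ Icc (0 : ℝ) 1 → (q : ℝ) ∈ Icc (0 : ℝ) 1 →
      |h q - h p| ≤ |∫ r in (p : ℝ)..(q : ℝ), a r|) :
    ∃ g : ℝ → ℝ, AbsolutelyContinuousOnInterval g 0 1 ∧
      (∀ t ∈ Icc (0 : ℝ) 1, (∀ p : ℚ, (p : ℝ) ∈ Icc (0 : ℝ) 1 → |h t - h p| ≤ |∫ r in (p : ℝ)..t, a r|) →
        g t = h t) ∧
      ∀ᵐ t ∂I01, |deriv g t| ≤ a t := by
  have hi : IntervalIntegrable a volume 0 1 := (intervalIntegrable_iff_integrableOn_Icc_of_le zero_le_one).2 ha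
  have hi' : ∀ t ∈ Icc (0 : ℝ) 1, IntervalIntegrable a volume 0 t := fun t ht =>
    hi.mono_set (by rw [uIcc_of_le ht.1, uIcc_of_le zero_le_one]; exact Icc_subset_Icc_right ht.2)
  obtain ⟨A, hA⟩ : ∃ A : ℝ → ℝ, A = fun t => ∫ r in (0 : ℝ)..t, a r := ⟨_, rfl⟩
  have hs : ∀ s ∈ Icc (0 : ℝ) 1, ∀ t ∈ Icc (0 : ℝ) 1, ∫ r in s..t, a r = A t - A s := fun s hs t ht => by
    rw [hA]
    exact (intervalIntegral.integral_interval_sub_left (hi' t ht) (hi' s hs)).symm
  have hac : AbsolutelyContinuousOnInterval A 0 1 :=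
    hA ▸ hi.absolutelyContinuousOnInterval_intervalIntegral left_mem_uIcc
  have h00 : ((0 : ℚ) : ℝ) ∈ Icc (0 : ℝ) 1 := by simp
  have : Nonempty {q : ℚ // (q : ℝ) ∈ Icc (0 : ℝ) 1} := ⟨⟨0, h00⟩⟩
  have hb : ∀ t, BddBelow (range fun q : {q : ℚ // (q : ℝ) ∈ Icc (0 : ℝ) 1} => h q.1 + |A t - A q.1|) := by
    intro t
    refine ⟨h (0 : ℚ) - |A t - A (0 : ℚ)|, ?_⟩
    rintro _ ⟨q, rfl⟩
    have h1 := hq 0 q.1 h00 q.2
    rw [hs _ h00 _ q.2] at h1
    have h2 := abs_sub_le (A q.1) (A t) (A (0 : ℚ))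
    rw [abs_sub_comm (A q.1) (A t)] at h2
    have h3 := (abs_le.1 h1).1
    show _ ≤ h q.1 + |A t - A q.1|
    linarith
  obtain ⟨g, hg⟩ : ∃ g : ℝ → ℝ, ∀ t, g t = ⨅ q : {q : ℚ // (q : ℝ) ∈ Icc (0 : ℝ) 1}, (h q.1 + |A t - A q.1|) :=
    ⟨_, fun _ => rfl⟩
  have g1 : ∀ t (q : ℚ), (q : ℝ) ∈ Icc (0 : ℝ) 1 → g t ≤ h q + |A t - A q| := fun t q hq' => by
    rw [hg]
    exact ciInf_le (hb t) ⟨q, hq'⟩
  have g2 : ∀ s t, g t - |A t - A s| ≤ g s := fun s t => by
    rw [hg s]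
    refine le_ciInf fun q => ?_
    linarith [g1 t q.1 q.2, abs_sub_le (A t) (A s) (A q.1)]
  have g3 : ∀ s t, |g t - g s| ≤ 1 * |A t - A s| := fun s t => by
    have h1 := g2 s t
    have h2 := g2 t s
    rw [abs_sub_comm] at h2
    rw [one_mul]
    exact abs_le.2 ⟨by linarith, by linarith⟩
  refine ⟨g, ac_of_dist_le hac fun s _ t _ => g3 s t, fun t ht H => le_antisymm ?_ ?_, ?_⟩
  · refine le_of_forall_pos_le_add fun ε hε => ?_
    have hc := hac.continuousOn
    rw [uIcc_of_le zero_le_one] at hc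
    obtain ⟨δ, hδ, hδ'⟩ := Metric.continuousWithinAt_iff.1 (hc t ht) (ε / 2) (half_pos hε)
    obtain ⟨q, q1, q2⟩ := exists_rat_btwn (show max 0 (t - δ) < min 1 (t + δ) by
      rw [max_lt_iff, lt_min_iff, lt_min_iff]
      exact ⟨⟨one_pos, by linarith [ht.1]⟩, by linarith [ht.2], by linarith⟩)
    rw [max_lt_iff] at q1
    rw [lt_min_iff] at q2
    have hq' : (q : ℝ) ∈ Icc (0 : ℝ) 1 := ⟨q1.1.le, q2.1.le⟩
    have h1 := hδ' hq' (by rw [Real.dist_eq, abs_lt]; constructor <;> linarith [q1.2, q2.2])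
    rw [Real.dist_eq, abs_sub_comm] at h1
    have h2 := H q hq'
    rw [hs _ hq' _ ht] at h2
    linarith [g1 t q hq', (abs_le.1 h2).1]
  · rw [hg]
    refine le_ciInf fun q => ?_
    have h2 := H q.1 q.2
    rw [hs _ q.2 _ ht] at h2
    linarith [(abs_le.1 h2).2]
  · filter_upwards [w1_ae hi.ae_hasDerivAt_integral, ha0] with t h1 h2
    have h3 := w1_deriv_le zero_le_one (hA ▸ h1 0 left_mem_uIcc : HasDerivAt A (a t) t)
      (Eventually.of_forall fun s => g3 t s)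
    rwa [one_mul, abs_of_nonneg h2] at h3

/-- two functions continuous on `[0,1]` and a.e. equal agree on `[0,1]`, so their derivatives agree on `(0,1)` -/
theorem deriv_ae_eq_of_ae_eq {g g' : ℝ → ℝ} (hg : ContinuousOn g (Icc 0 1)) (hg' : ContinuousOn g' (Icc 0 1))
    (h : ∀ᵐ t ∂I01, g t = g' t) : (∀ t ∈ Icc (0 : ℝ) 1, g t = g' t) ∧ ∀ᵐ t ∂I01, deriv g t = deriv g' t := by
  have h1 := Measure.eqOn_Icc_of_ae_eq volume zero_ne_one h hg hg'
  refine ⟨h1, ?_⟩
  filter_upwards [w1_ae_Ioo] with t ht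
  exact (h1.eventuallyEq_of_mem (Icc_mem_nhds ht.1 ht.2)).deriv_eq

/-- The isolated points of a set of reals are countable; at an accumulation point of the level set the
derivative (if it exists) vanishes. -/
theorem deriv_zero_on_level (g : ℝ → ℝ) (c : ℝ) : ∀ᵐ t : ℝ, g t = c → deriv g t = 0 := by
  filter_upwards [(countable_setOfPred_isolated_right_within (s := {t : ℝ | g t = c})).ae_notMem volume] with t ht hc
  refine deriv_zero_of_frequently_const (c := c) ?_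
  by_contra hf
  refine ht ⟨hc, eventually_false_iff_eq_bot.1 ?_⟩
  filter_upwards [nhdsWithin_mono t (show {t : ℝ | g t = c} ∩ Ioi t ⊆ {t}ᶜ from fun y hy => ne_of_gt hy.2)
    (not_frequently.1 hf), self_mem_nhdsWithin] with y h1 h2 using h1 h2.1

/-- `φ` is Lipschitz on the compact range of `g` (`LocallyLipschitzOn.exists_lipschitzOnWith_of_compact`) -/
theorem ac_comp_lip {g φ : ℝ → ℝ} (hg : AbsolutelyContinuousOnInterval g 0 1) (hφ : LocallyLipschitz φ) :
    AbsolutelyContinuousOnInterval (fun t => φ (g t)) 0 1 := by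
  have hc := hg.continuousOn
  rw [uIcc_of_le zero_le_one] at hc
  obtain ⟨K, hK⟩ := hφ.locallyLipschitzOn.exists_lipschitzOnWith_of_compact (isCompact_Icc.image_of_continuousOn hc)
  exact ac_of_dist_le (K := K) hg fun s hs t ht => hK.dist_le_mul _ (mem_image_of_mem g ht) _ (mem_image_of_mem g hs)

/-- chain rule with countably many kinks: `φ` is Lipschitz on the compact range of `g`; off the kinks the usual
chain rule, on `g ⁻¹' C` both sides vanish a.e. (`deriv_zero_on_level`; `g' t = 0` and `φ` Lipschitz near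
`g t` give `(φ ∘ g)' t = 0`). -/
theorem ac_comp {g φ φ' : ℝ → ℝ} {C : Set ℝ} (hg : AbsolutelyContinuousOnInterval g 0 1)
    (hφ : LocallyLipschitz φ) (hC : C.Countable) (hd : ∀ s, s ∉ C → HasDerivAt φ (φ' s) s) :
    AbsolutelyContinuousOnInterval (fun t => φ (g t)) 0 1 ∧
      ∀ᵐ t ∂I01, deriv (fun t => φ (g t)) t = φ' (g t) * deriv g t := by
  refine ⟨ac_comp_lip hg hφ, ?_⟩
  filter_upwards [w1_ae hg.ae_differentiableAt,
    ae_restrict_of_ae ((ae_ball_iff hC).2 fun c _ => deriv_zero_on_level g c)] with t h1 h2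
  by_cases hc : g t ∈ C
  · obtain ⟨K, U, hU, hK⟩ := hφ (g t)
    have h3 := w1_deriv_le (g := fun t => φ (g t)) K.coe_nonneg h1.hasDerivAt (by
      filter_upwards [h1.continuousAt hU] with s hs using hK.dist_le_mul _ hs _ (mem_of_mem_nhds hU))
    rw [h2 _ hc rfl] at h3 ⊢
    simpa using h3
  · exact ((hd _ hc).comp t h1.hasDerivAt).deriv

/-- `|g b - g a| ≤ ∫⁻_[a,b] |g'|` -/
theorem ac_sub_le_lintegral {g : ℝ → ℝ} (hg : AbsolutelyContinuousOnInterval g 0 1) {a b : ℝ} (h0 : 0 ≤ a)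
    (hab : a ≤ b) (h1 : b ≤ 1) :
    ENNReal.ofReal |g b - g a| ≤ ∫⁻ t in Icc a b, ENNReal.ofReal |deriv g t| := by
  have h2 := (hg.mono (c := a) (d := b)
    (by rw [uIcc_of_le hab, uIcc_of_le zero_le_one]; exact Icc_subset_Icc h0 h1)).integral_deriv_eq_sub
  rw [← h2, intervalIntegral.integral_of_le hab, ← Real.enorm_eq_ofReal_abs]
  simp only [← Real.enorm_eq_ofReal_abs]
  exact (enorm_integral_le_lintegral_enorm _).trans (lintegral_mono_set Ioc_subset_Icc_self)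

/-- distance to the nearest integer (`round_le`, `abs_sub_round`) -/
noncomputable def saw (s : ℝ) : ℝ := |s - round s|

theorem saw_lip : LipschitzWith 1 saw := by
  refine LipschitzWith.of_le_add fun x y => (round_le x (round y)).trans ?_
  rw [saw, Real.dist_eq, add_comm]
  exact abs_sub_le _ _ _
theorem abs_saw_le (s : ℝ) : |saw s| ≤ 1 := by
  rw [saw, abs_abs]
  linarith [abs_sub_round s]
/-- off `ℤ/2`, `round` is locally constant -/
theorem saw_deriv : ∃ (C : Set ℝ) (σ : ℝ → ℝ), C.Countable ∧ Measurable σ ∧ (∀ s, σ s = 1 ∨ σ s = -1) ∧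
    ∀ s, s ∉ C → HasDerivAt saw (σ s) s := by
  refine ⟨range fun k : ℤ => (k : ℝ) / 2, fun s => if ((⌊s + 1 / 2⌋ : ℤ) : ℝ) ≤ s then 1 else -1, countable_range _,
    Measurable.ite (measurableSet_le (by fun_prop) measurable_id) measurable_const measurable_const,
    fun s => by beta_reduce; split_ifs <;> simp, fun s hs => ?_⟩
  beta_reduce
  rw [← round_eq]
  obtain ⟨n, hn⟩ : ∃ n, round s = n := ⟨_, rfl⟩
  have h1 := round_eq_iff.1 hn
  have h2 : s ≠ n := fun h => hs ⟨2 * n, by push_cast; linarith⟩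
  have h3 : s ≠ n - 1 / 2 := fun h => hs ⟨2 * n - 1, by push_cast; linarith⟩
  rw [hn]
  split_ifs with h
  · refine ((hasDerivAt_id s).sub_const (n : ℝ)).congr_of_eventuallyEq ?_
    filter_upwards [Ioo_mem_nhds (lt_of_le_of_ne h h2.symm) h1.2] with y hy
    rw [saw, round_eq_iff.2 ⟨by linarith [hy.1], hy.2⟩, abs_of_pos (sub_pos.2 hy.1), id]
  · refine ((hasDerivAt_id s).const_sub (n : ℝ)).congr_of_eventuallyEq ?_
    filter_upwards [Ioo_mem_nhds (lt_of_le_of_ne h1.1 h3.symm) (not_le.1 h)] with y hy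
    rw [saw, round_eq_iff.2 ⟨hy.1.le, by linarith [hy.2]⟩, abs_of_neg (sub_neg.2 hy.2), id, neg_sub]

end Crest.Agent.R242
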