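import Crest.Agent.R242.Wug2

/-! Row 242, I-b, TASK Wug3: plans, restriction in time and to sets of curves (keep the statements; aux names
`w3_*`). -/

set_option autoImplicit false
set_option linter.unusedSectionVars false
open MeasureTheory Filter Set Topology
open scoped ENNReal NNReal
open Crest.GeometryTopology.SyntheticRicci

namespace Crest.Agent.R242

variable {X : Type*} [MetricSpace X]

/-- the curve `r ↦ γ (s + r (t - s))` -/
noncomputable def restr (s t : ℝ) (γ : UCurve X) : UCurve X :=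
  ⟨⟨fun r => γ.ext (s + r * (t - s)), (continuous_ext γ).comp (by fun_prop)⟩⟩

theorem restr_toMap (s t : ℝ) (γ : UCurve X) (r : unitInterval) :
    (restr s t γ).toMap r = γ.ext (s + r * (t - s)) := rfl
theorem continuous_restr (s t : ℝ) : Continuous (restr s t : UCurve X → UCurve X) := by
  let φ : C(unitInterval, unitInterval) :=
    ⟨fun r => projIcc (0 : ℝ) 1 zero_le_one (s + r * (t - s)), continuous_projIcc.comp (by fun_prop)⟩
  exact continuous_induced_rng.2 ((ContinuousMap.continuous_precomp φ).comp continuous_toMap)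
theorem restr_ext (s t : ℝ) (γ : UCurve X) {r : ℝ} (hr : r ∈ Icc (0 : ℝ) 1) :
    (restr s t γ).ext r = γ.ext (s + r * (t - s)) := by
  rw [ext_of_mem _ hr, restr_toMap]

/-- the affine reparametrisation -/
noncomputable def w3_aff {s t : ℝ} (hst : s < t) : ℝ ≃ₜ ℝ :=
  (Homeomorph.mulRight₀ (t - s) (sub_pos.2 hst).ne').trans (Homeomorph.addLeft s)

theorem w3_aff_apply {s t : ℝ} (hst : s < t) (r : ℝ) : w3_aff hst r = s + r * (t - s) := rfl

theorem w3_mem {s t r : ℝ} (h0 : 0 ≤ s) (hst : s ≤ t) (h1 : t ≤ 1) (hr : r ∈ Icc (0 : ℝ) 1) :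
    s + r * (t - s) ∈ Icc (0 : ℝ) 1 := by
  have h2 := mul_nonneg hr.1 (sub_nonneg.2 hst)
  have h3 := mul_le_of_le_one_left (sub_nonneg.2 hst) hr.2
  constructor <;> linarith

theorem upperSpeed_restr {s t : ℝ} (hst : s < t) (γ : UCurve X) {r : ℝ} (hr : r ∈ Ioo (0 : ℝ) 1) :
    upperSpeed (restr s t γ) r = ENNReal.ofReal (t - s) * upperSpeed γ (s + r * (t - s)) := by
  have hp := sub_pos.2 hst
  unfold upperSpeed
  rw [← w3_aff_apply hst r, ← (w3_aff hst).map_punctured_nhds_eq r, ← Filter.limsup_comp,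
    ← ENNReal.limsup_const_mul_of_ne_top ENNReal.ofReal_ne_top]
  refine Filter.limsup_congr ?_
  filter_upwards [mem_nhdsWithin_of_mem_nhds (Ioo_mem_nhds hr.1 hr.2), self_mem_nhdsWithin]
    with u hu hur
  have hur' : |u - r| ≠ 0 := abs_ne_zero.2 (sub_ne_zero.2 hur)
  rw [restr_ext s t γ (Ioo_subset_Icc_self hu), restr_ext s t γ (Ioo_subset_Icc_self hr),
    Function.comp_apply, ← ENNReal.ofReal_mul hp.le, w3_aff_apply, w3_aff_apply,
    show s + u * (t - s) - (s + r * (t - s)) = (u - r) * (t - s) by ring, abs_mul, abs_of_pos hp]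
  congr 1
  field_simp

theorem w3_affine {s t : ℝ} (hst : s < t) (F : ℝ → ℝ≥0∞) (a b : ℝ) :
    ∫⁻ r in Icc a b, ENNReal.ofReal (t - s) * F (s + r * (t - s)) =
      ∫⁻ r in Icc (s + a * (t - s)) (s + b * (t - s)), F r := by
  have hp := sub_pos.2 hst
  have h1 : MeasurePreserving (fun r : ℝ => r * (t - s)) (ENNReal.ofReal (t - s) • volume) volume :=
    ⟨by fun_prop, by
      rw [Measure.map_smul]
      have := Real.smul_map_volume_mul_right hp.ne'
      rwa [abs_of_pos hp] at this⟩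
  have h2 : MeasurePreserving (w3_aff hst) (ENNReal.ofReal (t - s) • volume) volume :=
    (measurePreserving_add_left volume s).comp h1
  have h3 := h2.setLIntegral_comp_preimage_emb (w3_aff hst).measurableEmbedding F
    (Icc (s + a * (t - s)) (s + b * (t - s)))
  have h4 : w3_aff hst ⁻¹' Icc (s + a * (t - s)) (s + b * (t - s)) = Icc a b := by
    ext r
    simp only [mem_preimage, w3_aff_apply, mem_Icc, add_le_add_iff_left, mul_le_mul_iff_left₀ hp]
  rw [← h3, h4, Measure.restrict_smul, lintegral_smul_measure,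
    lintegral_const_mul' _ _ ENNReal.ofReal_ne_top]
  rfl

/-- affine change of variables (no measurability needed: `MeasurableEquiv`, `lintegral_map_equiv`) -/
theorem lintegral_affine {s t : ℝ} (hst : s < t) (F : ℝ → ℝ≥0∞) :
    ∫⁻ r in Icc (0 : ℝ) 1, ENNReal.ofReal (t - s) * F (s + r * (t - s)) = ∫⁻ r in Icc s t, F r := by
  rw [w3_affine hst]
  simp

theorem w3_sq {s t : ℝ} (h0 : 0 ≤ s) (hst : s < t) (h1 : t ≤ 1) (a : ℝ → ℝ≥0∞) :
    ∫⁻ r in Icc (0 : ℝ) 1, (ENNReal.ofReal (t - s) * a (s + r * (t - s))) ^ 2 ≤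
      ENNReal.ofReal (t - s) * ∫⁻ r in Icc (0 : ℝ) 1, a r ^ 2 := by
  have e : ∀ r, (ENNReal.ofReal (t - s) * a (s + r * (t - s))) ^ 2 =
      ENNReal.ofReal (t - s) * (ENNReal.ofReal (t - s) * a (s + r * (t - s)) ^ 2) := fun r => by ring
  simp only [e]
  rw [lintegral_const_mul' _ _ ENNReal.ofReal_ne_top, lintegral_affine hst fun r => a r ^ 2]
  exact mul_le_mul_right (lintegral_mono_set (Icc_subset_Icc h0 h1)) _

theorem hasL2Speed_restr {s t : ℝ} (h0 : 0 ≤ s) (hst : s < t) (h1 : t ≤ 1) {γ : UCurve X} (h : HasL2Speed γ) :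
    HasL2Speed (restr s t γ) := by
  obtain ⟨a, ha, hfin, hd⟩ := h
  refine ⟨fun r => ENNReal.ofReal (t - s) * a (s + r * (t - s)),
    (ha.comp (by fun_prop)).const_mul _,
    (w3_sq h0 hst h1 a).trans_lt (ENNReal.mul_lt_top ENNReal.ofReal_lt_top hfin), fun p q hpq => ?_⟩
  have hp := w3_mem h0 hst.le h1 p.2
  have hq := w3_mem h0 hst.le h1 q.2
  rw [restr_toMap, restr_toMap, ext_of_mem _ hp, ext_of_mem _ hq, w3_affine hst]
  refine hd ⟨_, hp⟩ ⟨_, hq⟩ ?_
  have := mul_le_mul_of_nonneg_right hpq (sub_pos.2 hst).le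
  simpa using this
theorem isCSGeodesic_restr {s t : ℝ} (h0 : 0 ≤ s) (hst : s ≤ t) (h1 : t ≤ 1) {γ : UCurve X}
    (h : IsCSGeodesic γ) : IsCSGeodesic (restr s t γ) := by
  have key : ∀ p q : unitInterval, dist ((restr s t γ).toMap p) ((restr s t γ).toMap q) =
      |(p : ℝ) - q| * ((t - s) * dist (γ.toMap 0) (γ.toMap 1)) := by
    intro p q
    have hp := w3_mem h0 hst h1 p.2
    have hq := w3_mem h0 hst h1 q.2
    rw [restr_toMap, restr_toMap, ext_of_mem _ hp, ext_of_mem _ hq, h]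
    simp only
    rw [show s + p * (t - s) - (s + q * (t - s)) = (p - q) * (t - s) by ring, abs_mul,
      abs_of_nonneg (sub_nonneg.2 hst), mul_assoc]
  intro p q
  rw [key p q, key 0 1]
  simp

variable [MeasurableSpace X] [BorelSpace X] {m : Measure X} {P : Measure (UCurve X)}

theorem measurable_ev : Measurable (ev : UCurve X × ℝ → X) := continuous_ev.measurable
theorem measurable_at (t : unitInterval) : Measurable fun γ : UCurve X => γ.toMap t :=
  (continuous_at t).measurable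
theorem measurable_restr (s t : ℝ) : Measurable (restr s t : UCurve X → UCurve X) :=
  (continuous_restr s t).measurable

theorem w3_ae_Ioo : ∀ᵐ r ∂I01, r ∈ Ioo (0 : ℝ) 1 := by
  rw [I01, ← Measure.restrict_congr_set Ioo_ae_eq_Icc]
  exact ae_restrict_mem measurableSet_Ioo

instance w3_prob : IsProbabilityMeasure I01 := ⟨by simp⟩

/-- `lintegral_map_le`, `ae_map_iff` with `measurableSet_hasL2Speed` and a closed set for the tracks -/
theorem Plan.map_restr (h : Plan m P) {s t : ℝ} (h0 : 0 ≤ s) (hst : s < t) (h1 : t ≤ 1) :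
    Plan m (P.map (restr s t)) := by
  obtain ⟨⟨hP, ⟨C, hC⟩, hL, hE⟩, o, R, hR⟩ := h
  have hm : AEMeasurable (restr s t : UCurve X → UCurve X) P := (measurable_restr s t).aemeasurable
  refine ⟨⟨Measure.isProbabilityMeasure_map hm, ⟨C, fun r => ?_⟩, ?_, ?_⟩, o, R, ?_⟩
  · have hr := w3_mem h0 hst.le h1 r.2
    have e : timeMarginal (P.map (restr s t)) r = timeMarginal P ⟨_, hr⟩ := by
      unfold timeMarginal
      rw [Measure.map_map (measurable_at r) (measurable_restr s t)]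
      congr 1
      funext γ
      exact ext_of_mem γ hr
    rw [e]
    exact hC _
  · exact (ae_map_iff hm measurableSet_hasL2Speed).2 (hL.mono fun γ => hasL2Speed_restr h0 hst h1)
  · refine (lintegral_map_le _ _).trans_lt (lt_of_le_of_lt (lintegral_mono fun γ => ?_)
      (lt_of_eq_of_lt (lintegral_const_mul' (ENNReal.ofReal (t - s)) _ ENNReal.ofReal_ne_top)
        (ENNReal.mul_lt_top ENNReal.ofReal_lt_top hE)))
    refine le_of_eq_of_le (lintegral_congr_ae ?_) (w3_sq h0 hst h1 (upperSpeed γ))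
    filter_upwards [w3_ae_Ioo] with r hr
    rw [upperSpeed_restr hst γ hr]
  · have hc : IsClosed {γ : UCurve X | ∀ r : unitInterval, γ.toMap r ∈ Metric.closedBall o R} := by
      rw [setOf_forall]
      exact isClosed_iInter fun r => Metric.isClosed_closedBall.preimage (continuous_at r)
    exact (ae_map_iff hm hc.measurableSet).2 (hR.mono fun γ hγ r => hγ _)

theorem w3_of_le (h : Plan m P) {Q : Measure (UCurve X)} [IsProbabilityMeasure Q] {c : ℝ≥0}
    (hQ : Q ≤ (c : ℝ≥0∞) • P) : Plan m Q := by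
  obtain ⟨⟨hP, ⟨C, hC⟩, hL, hE⟩, o, R, hR⟩ := h
  have hac : Q ≪ P := Measure.absolutelyContinuous_of_le_smul hQ
  refine ⟨⟨inferInstance, ⟨c * C, fun r => ?_⟩, hac.ae_le hL, ?_⟩, o, R, hac.ae_le hR⟩
  · refine (Measure.map_mono hQ (measurable_at r)).trans ?_
    rw [Measure.map_smul, ENNReal.coe_mul, mul_smul]
    refine Measure.le_iff'.2 fun S => ?_
    rw [Measure.smul_apply, Measure.smul_apply (c : ℝ≥0∞), smul_eq_mul, smul_eq_mul]
    exact mul_le_mul_right (Measure.le_iff'.1 (hC r) S) _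
  · refine (lintegral_mono' hQ le_rfl).trans_lt ?_
    rw [lintegral_smul_measure, smul_eq_mul]
    exact ENNReal.mul_lt_top ENNReal.coe_lt_top hE

theorem Plan.cond (h : Plan m P) {S : Set (UCurve X)} (hS : P S ≠ 0) : Plan m ((P S)⁻¹ • P.restrict S) := by
  have := h.1.1
  have : IsProbabilityMeasure ((P S)⁻¹ • P.restrict S) :=
    ProbabilityTheory.cond_isProbabilityMeasure hS
  refine w3_of_le h (c := ((P S)⁻¹).toNNReal) ?_
  rw [ENNReal.coe_toNNReal (ENNReal.inv_ne_top.2 hS)]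
  refine Measure.le_iff'.2 fun A => ?_
  rw [Measure.smul_apply, Measure.smul_apply, smul_eq_mul, smul_eq_mul]
  exact mul_le_mul_right (Measure.le_iff'.1 Measure.restrict_le_self A) _
/-- a probability measure below a multiple of a plan is a plan -/
theorem Plan.of_le (h : Plan m P) {Q : Measure (UCurve X)} [IsProbabilityMeasure Q] {c : ℝ≥0}
    (hQ : Q ≤ (c : ℝ≥0∞) • P) : Plan m Q := w3_of_le h hQ
theorem plan_of_geodesic [IsProbabilityMeasure P] (hg : ∀ᵐ γ ∂P, IsCSGeodesic γ) {C : ℝ≥0}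
    (hC : ∀ t, timeMarginal P t ≤ (C : ℝ≥0∞) • m) (hb : HasBoundedTracks P) : Plan m P := by
  refine ⟨⟨inferInstance, ⟨C, hC⟩, hg.mono fun γ => hasL2Speed_geodesic, ?_⟩, hb⟩
  obtain ⟨o, R, hR⟩ := hb
  have : ∀ᵐ γ ∂P, (∫⁻ t in Icc (0 : ℝ) 1, upperSpeed γ t ^ 2) ≤ ENNReal.ofReal (R + R) ^ 2 := by
    filter_upwards [hg, hR] with γ h1 h2
    have e : ∫⁻ t in Icc (0 : ℝ) 1, upperSpeed γ t ^ 2 =
        ∫⁻ _ in Icc (0 : ℝ) 1, edist (γ.toMap 0) (γ.toMap 1) ^ 2 :=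
      setLIntegral_congr_fun measurableSet_Icc fun t ht => by
        simp only [upperSpeed_geodesic h1 ht]
    rw [e, lintegral_const, measure_univ, mul_one, edist_dist]
    gcongr
    exact (dist_triangle_right _ _ o).trans (add_le_add (h2 0) (h2 1))
  refine (lintegral_mono_ae this).trans_lt ?_
  rw [lintegral_const, measure_univ, mul_one]
  exact ENNReal.pow_lt_top ENNReal.ofReal_lt_top

theorem Plan.ae_at (h : Plan m P) {p : X → Prop} (hp : ∀ᵐ x ∂m, p x) (t : ℝ) : ∀ᵐ γ ∂P, p (γ.ext t) := by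
  obtain ⟨C, hC⟩ := h.1.2.1
  exact ae_of_ae_map (measurable_at (projIcc (0 : ℝ) 1 zero_le_one t)).aemeasurable
    ((Measure.absolutelyContinuous_of_le_smul (hC _)).ae_le hp)

theorem w3_ae_prod (h : Plan m P) {p : X → Prop} (hp : ∀ᵐ x ∂m, p x) :
    ∀ᵐ z ∂(P.prod I01), p (ev z) := by
  have := h.1.1
  obtain ⟨N, hN, hNm, hN0⟩ := exists_measurable_superset_of_null (ae_iff.1 hp)
  have hm : MeasurableSet {z : UCurve X × ℝ | ev z ∉ N} := measurable_ev hNm.compl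
  have h1 : ∀ᵐ z ∂(P.prod I01), ev z ∉ N := by
    rw [Measure.ae_prod_iff_ae_ae hm,
      Measure.ae_ae_comm (p := fun (γ : UCurve X) (t : ℝ) => ev (γ, t) ∉ N) hm]
    exact Eventually.of_forall fun t => h.ae_at (measure_eq_zero_iff_ae_notMem.1 hN0) t
  exact h1.mono fun z hz => by_contra fun hn => hz (hN hn)

/-- enlarge the null set to a measurable one, then `Measure.ae_ae_comm` -/
theorem Plan.ae_ae (h : Plan m P) {p : X → Prop} (hp : ∀ᵐ x ∂m, p x) :
    ∀ᵐ γ ∂P, ∀ᵐ t ∂I01, p (γ.ext t) := Measure.ae_ae_of_ae_prod (w3_ae_prod h hp)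
theorem Plan.ae_prod (h : Plan m P) {p : X → Prop} (hp : ∀ᵐ x ∂m, p x) :
    ∀ᵐ z ∂(P.prod I01), p (ev z) := w3_ae_prod h hp
/-- bounded compression and bounded tracks -/
theorem Plan.exists_bound (h : Plan m P) : ∃ (C : ℝ≥0) (o : X) (R : ℝ),
    (∀ᵐ γ ∂P, ∀ t, γ.ext t ∈ Metric.ball o R) ∧ ∀ F : X → ℝ≥0∞, AEMeasurable F m →
      (∀ t, ∫⁻ γ, F (γ.ext t) ∂P ≤ C * ∫⁻ x in Metric.ball o R, F x ∂m) ∧
      ∫⁻ γ, ∫⁻ t in Icc (0 : ℝ) 1, F (γ.ext t) ∂volume ∂P ≤ C * ∫⁻ x in Metric.ball o R, F x ∂m := by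
  have := h.1.1
  obtain ⟨C, hC⟩ := h.1.2.1
  obtain ⟨o, R, hR⟩ := h.2
  have hR' : ∀ᵐ γ ∂P, ∀ t, γ.ext t ∈ Metric.ball o (R + 1) :=
    hR.mono fun γ hγ t => Metric.closedBall_subset_ball (lt_add_one R) (hγ _)
  refine ⟨C, o, R + 1, hR', fun F hF => ?_⟩
  obtain ⟨G, hG, hFG⟩ := hF
  have h1 : ∀ t, ∫⁻ γ, G (γ.ext t) ∂P ≤ C * ∫⁻ x in Metric.ball o (R + 1), F x ∂m := by
    intro t
    have hi : Measurable ((Metric.ball o (R + 1)).indicator G) := hG.indicator measurableSet_ball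
    calc ∫⁻ γ, G (γ.ext t) ∂P = ∫⁻ γ, (Metric.ball o (R + 1)).indicator G (γ.ext t) ∂P :=
          lintegral_congr_ae (hR'.mono fun γ hγ => (indicator_of_mem (hγ t) G).symm)
      _ = ∫⁻ x, (Metric.ball o (R + 1)).indicator G x
            ∂(timeMarginal P (projIcc (0 : ℝ) 1 zero_le_one t)) :=
          (lintegral_map hi (measurable_at _)).symm
      _ ≤ ∫⁻ x, (Metric.ball o (R + 1)).indicator G x ∂((C : ℝ≥0∞) • m) :=
          lintegral_mono' (hC _) le_rfl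
      _ = C * ∫⁻ x in Metric.ball o (R + 1), F x ∂m := by
          rw [lintegral_smul_measure, smul_eq_mul, lintegral_indicator measurableSet_ball,
            lintegral_congr_ae (ae_restrict_of_ae hFG)]
  refine ⟨fun t => le_of_eq_of_le (lintegral_congr_ae (h.ae_at hFG t)) (h1 t), ?_⟩
  calc ∫⁻ γ, ∫⁻ t in Icc (0 : ℝ) 1, F (γ.ext t) ∂volume ∂P
      = ∫⁻ γ, ∫⁻ t, G (γ.ext t) ∂I01 ∂P :=
        lintegral_congr_ae ((h.ae_ae hFG).mono fun γ hγ => lintegral_congr_ae hγ)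
    _ = ∫⁻ t, ∫⁻ γ, G (γ.ext t) ∂P ∂I01 :=
        lintegral_lintegral_swap (hG.comp measurable_ev).aemeasurable
    _ ≤ ∫⁻ _, C * ∫⁻ x in Metric.ball o (R + 1), F x ∂m ∂I01 := lintegral_mono h1
    _ = _ := by rw [lintegral_const, measure_univ, mul_one]
/-- Cauchy-Schwarz on `P.prod I01` (`ENNReal.lintegral_mul_le_Lp_mul_Lq`), `K = (C * kinetic energy)^(1/2)` -/
theorem Plan.exists_cs (h : Plan m P) : ∃ (K : ℝ≥0) (o : X) (R : ℝ), ∀ F : X → ℝ≥0∞, AEMeasurable F m →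
    ∫⁻ γ, ∫⁻ t in Icc (0 : ℝ) 1, F (γ.ext t) * upperSpeed γ t ∂volume ∂P ≤
      K * (∫⁻ x in Metric.ball o R, F x ^ 2 ∂m) ^ (1 / 2 : ℝ) := by
  have := h.1.1
  obtain ⟨C, o, R, -, hb⟩ := h.exists_bound
  have hE := h.1.2.2.2
  set En := ∫⁻ γ, (∫⁻ t in Icc (0 : ℝ) 1, upperSpeed γ t ^ 2) ∂P with hEn
  have hK : ((C : ℝ≥0∞) * En) ^ (1 / 2 : ℝ) ≠ ⊤ :=
    ENNReal.rpow_ne_top_of_nonneg (by norm_num) (ENNReal.mul_ne_top ENNReal.coe_ne_top hE.ne)
  refine ⟨(((C : ℝ≥0∞) * En) ^ (1 / 2 : ℝ)).toNNReal, o, R, fun F hF => ?_⟩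
  rw [ENNReal.coe_toNNReal hK]
  have h2 := (hb (fun x => F x ^ 2) (hF.pow_const 2)).2
  obtain ⟨G, hG, hFG⟩ := hF
  have hm1 : Measurable fun z : UCurve X × ℝ => G (ev z) := hG.comp measurable_ev
  have hm2 : Measurable fun z : UCurve X × ℝ => upperSpeed z.1 z.2 := measurable_upperSpeed
  have cs := ENNReal.lintegral_mul_le_Lp_mul_Lq (P.prod I01) Real.HolderConjugate.two_two
    hm1.aemeasurable hm2.aemeasurable
  simp only [ENNReal.rpow_two, Pi.mul_apply] at cs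
  rw [lintegral_prod _ (hm1.fun_mul hm2).aemeasurable, lintegral_prod _ (hm1.pow_const 2).aemeasurable,
    lintegral_prod _ (hm2.pow_const 2).aemeasurable] at cs
  have e1 : ∫⁻ γ, ∫⁻ t in Icc (0 : ℝ) 1, F (γ.ext t) * upperSpeed γ t ∂volume ∂P =
      ∫⁻ γ, ∫⁻ t, G (ev (γ, t)) * upperSpeed γ t ∂I01 ∂P :=
    lintegral_congr_ae ((h.ae_ae hFG).mono fun γ hγ =>
      lintegral_congr_ae (hγ.mono fun t ht => congrArg (· * upperSpeed γ t) ht))
  have e2 : ∫⁻ γ, ∫⁻ t in Icc (0 : ℝ) 1, F (γ.ext t) ^ 2 ∂volume ∂P =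
      ∫⁻ γ, ∫⁻ t, G (ev (γ, t)) ^ 2 ∂I01 ∂P :=
    lintegral_congr_ae ((h.ae_ae hFG).mono fun γ hγ =>
      lintegral_congr_ae (hγ.mono fun t ht => congrArg (· ^ 2) ht))
  rw [e2] at h2
  rw [e1]
  refine cs.trans ?_
  calc (∫⁻ γ, ∫⁻ t, G (ev (γ, t)) ^ 2 ∂I01 ∂P) ^ (1 / 2 : ℝ) * En ^ (1 / 2 : ℝ)
      ≤ (C * ∫⁻ x in Metric.ball o R, F x ^ 2 ∂m) ^ (1 / 2 : ℝ) * En ^ (1 / 2 : ℝ) := by
        gcongr
    _ = _ := by
        rw [ENNReal.mul_rpow_of_nonneg _ _ (by norm_num), ENNReal.mul_rpow_of_nonneg _ _ (by norm_num)]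
        ring

theorem cf_at {p : X → Prop} (hp : ∀ᵐ x ∂m, p x) (t : ℝ) : ∀ᶠ γ in cf m, p (γ.ext t) :=
  eventually_cf.2 fun _ h => h.ae_at hp t
theorem pf_ev {p : X → Prop} (hp : ∀ᵐ x ∂m, p x) : ∀ᶠ z in pf m, p (ev z) :=
  eventually_pf.2 (eventually_cf.2 fun _ h => h.ae_ae hp)
theorem cf_l2speed : ∀ᶠ γ in cf m, HasL2Speed γ := eventually_cf.2 fun _ h => h.1.2.2.1
theorem pf_speed_ne_top : ∀ᶠ z in pf m, upperSpeed z.1 z.2 ≠ ⊤ :=
  eventually_pf.2 (cf_l2speed.mono fun _ h => l2speed_upperSpeed_ne_top h)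

end Crest.Agent.R242
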