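import Crest.Agent.R242.Wug4

/-! Row 242, I-b, TASK Wug5: calculus of `cd` along curves (keep the statements; aux names `w5_*`).
Pattern: `eventually_pf.2`, `filter_upwards` on `cf m` to get the representatives, build the new
representative, `Rep.cd_eq`, `.ac.ae_differentiableAt`. -/

set_option autoImplicit false
set_option linter.unusedSectionVars false
open MeasureTheory Filter Set Topology
open scoped ENNReal NNReal
open Crest.GeometryTopology.SyntheticRicci

namespace Crest.Agent.R242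

variable {X : Type*} [MetricSpace X] [MeasurableSpace X] [BorelSpace X] {m : Measure X} {f g u v D : X → ℝ}

theorem w5_diff {γ : UCurve X} {G : ℝ → ℝ} (h : Rep f γ G) : ∀ᵐ t ∂I01, DifferentiableAt ℝ G t := by
  have h1 := h.ac.ae_differentiableAt
  rw [uIcc_of_le zero_le_one] at h1
  exact (ae_restrict_iff' measurableSet_Icc).2 h1

theorem w5_congr (hf : Reg m f) (h : f =ᵐ[m] g) : ∀ᶠ γ in cf m, ∃ G, Rep f γ G ∧ Rep g γ G := by
  filter_upwards [hf, cf_at h 0, cf_at h 1, eventually_pf.1 (pf_ev h)] with γ ⟨G, hG⟩ h0 h1 h2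
  rw [ext_zero] at h0
  rw [ext_one] at h1
  refine ⟨G, hG, hG.ac, hG.h0.trans h0, hG.h1.trans h1, ?_⟩
  filter_upwards [hG.ae, h2] with t a b using a.trans b

theorem w5_const (c : ℝ) (γ : UCurve X) : Rep (fun _ : X => c) γ fun _ => c :=
  ⟨((LipschitzWith.const c).lipschitzOnWith).absolutelyContinuousOnInterval, rfl, rfl,
    Eventually.of_forall fun _ => rfl⟩

theorem w5_add {γ : UCurve X} {F G : ℝ → ℝ} (hF : Rep f γ F) (hG : Rep g γ G) :
    Rep (fun x => f x + g x) γ fun t => F t + G t :=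
  ⟨hF.ac.add hG.ac, by rw [hF.h0, hG.h0], by rw [hF.h1, hG.h1], by
    filter_upwards [hF.ae, hG.ae] with t a b using by rw [a, b]⟩

theorem w5_mul {γ : UCurve X} {F G : ℝ → ℝ} (hF : Rep f γ F) (hG : Rep g γ G) :
    Rep (fun x => f x * g x) γ fun t => F t * G t :=
  ⟨hF.ac.mul hG.ac, by rw [hF.h0, hG.h0], by rw [hF.h1, hG.h1], by
    filter_upwards [hF.ae, hG.ae] with t a b using by rw [a, b]⟩

theorem w5_comp {γ : UCurve X} {F φ : ℝ → ℝ} (hφ : LocallyLipschitz φ) (hF : Rep f γ F) :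
    Rep (fun x => φ (f x)) γ fun t => φ (F t) :=
  ⟨ac_comp_lip hF.ac hφ, by rw [hF.h0], by rw [hF.h1], by
    filter_upwards [hF.ae] with t a using by rw [a]⟩

theorem w5_lip {γ : UCurve X} (h : HasL2Speed γ) (hf : LocallyLipschitz f) : Rep f γ fun t => f (γ.ext t) :=
  ⟨l2speed_ac_comp h hf, by rw [ext_zero], by rw [ext_one], Eventually.of_forall fun _ => rfl⟩

theorem Reg.congr (hf : Reg m f) (h : f =ᵐ[m] g) : Reg m g :=
  (w5_congr hf h).mono fun _ ⟨G, _, hG⟩ => ⟨G, hG⟩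
theorem cd_congr (hf : Reg m f) (h : f =ᵐ[m] g) : ∀ᶠ z in pf m, cd f z = cd g z := by
  refine eventually_pf.2 ((w5_congr hf h).mono fun γ ⟨G, h1, h2⟩ => ?_)
  filter_upwards [h1.cd_eq, h2.cd_eq] with t a b using a.trans b.symm
theorem reg_const (c : ℝ) : Reg m fun _ => c :=
  Eventually.of_forall fun γ => ⟨_, w5_const c γ⟩
theorem cd_const (c : ℝ) : ∀ᶠ z in pf m, cd (fun _ : X => c) z = 0 := by
  refine eventually_pf.2 (Eventually.of_forall fun γ => ?_)
  filter_upwards [(w5_const c γ).cd_eq] with t a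
  rw [a, deriv_const]
theorem Reg.add (hf : Reg m f) (hg : Reg m g) : Reg m fun x => f x + g x := by
  filter_upwards [hf, hg] with γ ⟨F, hF⟩ ⟨G, hG⟩ using ⟨_, w5_add hF hG⟩
theorem cd_add (hf : Reg m f) (hg : Reg m g) :
    ∀ᶠ z in pf m, cd (fun x => f x + g x) z = cd f z + cd g z := by
  refine eventually_pf.2 ?_
  filter_upwards [hf, hg] with γ ⟨F, hF⟩ ⟨G, hG⟩
  filter_upwards [(w5_add hF hG).cd_eq, hF.cd_eq, hG.cd_eq, w5_diff hF, w5_diff hG] with t a b c d e
  rw [a, b, c, deriv_fun_add d e]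
theorem Reg.mul (hf : Reg m f) (hg : Reg m g) : Reg m fun x => f x * g x := by
  filter_upwards [hf, hg] with γ ⟨F, hF⟩ ⟨G, hG⟩ using ⟨_, w5_mul hF hG⟩
theorem cd_mul (hf : Reg m f) (hg : Reg m g) :
    ∀ᶠ z in pf m, cd (fun x => f x * g x) z = g (ev z) * cd f z + f (ev z) * cd g z := by
  refine eventually_pf.2 ?_
  filter_upwards [hf, hg] with γ ⟨F, hF⟩ ⟨G, hG⟩
  filter_upwards [(w5_mul hF hG).cd_eq, hF.cd_eq, hG.cd_eq, w5_diff hF, w5_diff hG, hF.ae, hG.ae]
    with t a b c d e h1 h2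
  rw [a, b, c, deriv_fun_mul d e, h1, h2, mul_comm]
  rfl
theorem Reg.const_mul (c : ℝ) (hf : Reg m f) : Reg m fun x => c * f x :=
  (reg_const c).mul hf
theorem cd_const_mul (c : ℝ) (hf : Reg m f) : ∀ᶠ z in pf m, cd (fun x => c * f x) z = c * cd f z := by
  filter_upwards [cd_mul (reg_const c) hf, cd_const (m := m) c] with z a b
  rw [a, b, mul_zero, zero_add]
theorem Reg.neg (hf : Reg m f) : Reg m fun x => - f x := by
  simpa using hf.const_mul (-1)
theorem cd_neg (hf : Reg m f) : ∀ᶠ z in pf m, cd (fun x => - f x) z = - cd f z := by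
  simpa using cd_const_mul (-1) hf
theorem Reg.sub (hf : Reg m f) (hg : Reg m g) : Reg m fun x => f x - g x := by
  simpa only [sub_eq_add_neg] using hf.add hg.neg
theorem cd_sub (hf : Reg m f) (hg : Reg m g) :
    ∀ᶠ z in pf m, cd (fun x => f x - g x) z = cd f z - cd g z := by
  filter_upwards [cd_add hf hg.neg, cd_neg hg] with z a b
  simp only [sub_eq_add_neg]
  rw [a, b]
theorem reg_sum {ι : Type*} (s : Finset ι) {F : ι → X → ℝ} (h : ∀ i ∈ s, Reg m (F i)) :
    Reg m fun x => ∑ i ∈ s, F i x := by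
  classical
  induction s using Finset.induction_on with
  | empty => simpa using reg_const (m := m) 0
  | insert a s ha ih =>
    simp only [Finset.sum_insert ha]
    exact (h a (Finset.mem_insert_self _ _)).add (ih fun i hi => h i (Finset.mem_insert_of_mem hi))
theorem cd_sum {ι : Type*} (s : Finset ι) {F : ι → X → ℝ} (h : ∀ i ∈ s, Reg m (F i)) :
    ∀ᶠ z in pf m, cd (fun x => ∑ i ∈ s, F i x) z = ∑ i ∈ s, cd (F i) z := by
  classical
  induction s using Finset.induction_on with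
  | empty => simpa using cd_const (m := m) 0
  | insert a s ha ih =>
    have h' := fun i hi => h i (Finset.mem_insert_of_mem hi)
    simp only [Finset.sum_insert ha]
    filter_upwards [cd_add (h a (Finset.mem_insert_self _ _)) (reg_sum s h'), ih h'] with z h1 h2
    rw [h1, h2]
theorem Reg.comp {φ : ℝ → ℝ} (hφ : LocallyLipschitz φ) (hf : Reg m f) : Reg m fun x => φ (f x) :=
  hf.mono fun _ ⟨_, hF⟩ => ⟨_, w5_comp hφ hF⟩
theorem cd_comp {φ φ' : ℝ → ℝ} {C : Set ℝ} (hφ : LocallyLipschitz φ) (hC : C.Countable)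
    (hd : ∀ s, s ∉ C → HasDerivAt φ (φ' s) s) (hf : Reg m f) :
    ∀ᶠ z in pf m, cd (fun x => φ (f x)) z = φ' (f (ev z)) * cd f z := by
  refine eventually_pf.2 (hf.mono fun γ ⟨F, hF⟩ => ?_)
  filter_upwards [(w5_comp hφ hF).cd_eq, hF.cd_eq, (ac_comp hF.ac hφ hC hd).2, hF.ae] with t a b c d
  rw [a, b, c, d]
  rfl
/-- `|cd (φ ∘ f)| ≤ L |cd f|` for any `L`-Lipschitz `φ` (compare difference quotients where `f ∘ γ` is
differentiable) -/
theorem abs_cd_comp_le {φ : ℝ → ℝ} {L : ℝ≥0} (hφ : LipschitzWith L φ) (hf : Reg m f) :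
    ∀ᶠ z in pf m, |cd (fun x => φ (f x)) z| ≤ L * |cd f z| := by
  refine eventually_pf.2 (hf.mono fun γ ⟨F, hF⟩ => ?_)
  have h1 := w5_comp hφ.locallyLipschitz hF
  filter_upwards [h1.cd_eq, hF.cd_eq, w5_diff h1, w5_diff hF] with t a b c d
  rw [a, b]
  refine le_of_tendsto_of_tendsto' (hasDerivAt_iff_tendsto_slope.1 c.hasDerivAt).abs
    ((hasDerivAt_iff_tendsto_slope.1 d.hasDerivAt).abs.const_mul (L : ℝ)) fun s => ?_
  have h2 := hφ.dist_le_mul (F s) (F t)
  rw [Real.dist_eq, Real.dist_eq] at h2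
  rw [slope_def_field, slope_def_field, abs_div, abs_div, ← mul_div_assoc]
  exact div_le_div_of_nonneg_right h2 (abs_nonneg _)
theorem cd_level (hf : Reg m f) (c : ℝ) : ∀ᶠ z in pf m, f (ev z) = c → cd f z = 0 := by
  refine eventually_pf.2 (hf.mono fun γ ⟨F, hF⟩ => ?_)
  filter_upwards [hF.cd_eq, hF.ae, ae_restrict_of_ae (deriv_zero_on_level F c)] with t a b d h
  rw [a]
  exact d (b.trans h)
theorem cd_local (hf : Reg m f) (hg : Reg m g) : ∀ᶠ z in pf m, f (ev z) = g (ev z) → cd f z = cd g z := by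
  filter_upwards [cd_sub hf hg, cd_level (hf.sub hg) 0] with z a b h
  exact sub_eq_zero.1 (a.symm.trans (b (sub_eq_zero.2 h)))
theorem reg_lip (hf : LocallyLipschitz f) : Reg m f :=
  cf_l2speed.mono fun _ h => ⟨_, w5_lip h hf⟩
/-- ascending slope bound (`abs_deriv_le_speed`) -/
theorem abs_cd_le_slope (hf : LocallyLipschitz f) : ∀ᶠ z in pf m, ∀ G : ℝ, 0 ≤ G →
    (∀ ε : ℝ, 0 < ε → ∀ᶠ y in 𝓝 (ev z), f y - f (ev z) ≤ (G + ε) * dist y (ev z)) →
    |cd f z| ≤ G * sp z := by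
  refine eventually_pf.2 (cf_l2speed.mono fun γ h => ?_)
  filter_upwards [(w5_lip h hf).cd_eq, l2speed_upperSpeed_ne_top h] with t a b G hG hs
  rw [a]
  exact abs_deriv_le_speed hG b fun ε hε => (continuous_ext γ).continuousAt.eventually (hs ε hε)
theorem LipB.locallyLipschitz (h : LipB f) : LocallyLipschitz f := by
  intro x
  obtain ⟨K, hK⟩ := h x 1
  exact ⟨K, _, Metric.ball_mem_nhds x one_pos, hK⟩
theorem lipB_of_lipschitz {L : ℝ≥0} (h : LipschitzWith L f) : LipB f := fun _ _ => ⟨L, h.lipschitzOnWith⟩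

end Crest.Agent.R242
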