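import Crest.Agent.R242.Wug5

/-! Row 242, I-b, TASK Wug6: existence of the minimal weak upper gradient, comparison principle, measure lemmas
(keep the statements; aux names `w6_*`). -/

set_option autoImplicit false
set_option linter.unusedSectionVars false
open MeasureTheory Filter Set Topology
open scoped ENNReal NNReal
open Crest.GeometryTopology.SyntheticRicci

namespace Crest.Agent.R242

variable {X : Type*} [MetricSpace X] [MeasurableSpace X] [BorelSpace X] {m : Measure X} {f g u v D : X → ℝ}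

instance (priority := 100) sigmaFinite_of_fb [h : Fact (IsFiniteOnBalls m)] : SigmaFinite m := by
  rcases isEmpty_or_nonempty X with _ | ⟨⟨o⟩⟩
  · rw [Measure.eq_zero_of_isEmpty m]
    infer_instance
  · exact ⟨⟨⟨fun n => Metric.ball o n, fun _ => trivial, fun n => h.out o n, Metric.iUnion_ball_nat o⟩⟩⟩
instance (priority := 100) locFin_of_fb [h : Fact (IsFiniteOnBalls m)] : IsLocallyFiniteMeasure m :=
  ⟨fun x => ⟨Metric.ball x 1, Metric.ball_mem_nhds x one_pos, h.out x 1⟩⟩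
instance isFiniteMeasure_ball [h : Fact (IsFiniteOnBalls m)] (o : X) (R : ℝ) :
    IsFiniteMeasure (m.restrict (Metric.ball o R)) := isFiniteMeasure_restrict.2 (h.out o R).ne

theorem l2b_of_memLp (h : MemLp f 2 m) : IsL2OnBalls m f :=
  fun _ _ => h.restrict _
theorem l2b_of_le (hg : IsL2OnBalls m g) (hf : AEMeasurable f m) (h : ∀ᵐ x ∂m, |f x| ≤ g x) :
    IsL2OnBalls m f :=
  fun o R => (hg o R).mono' hf.aestronglyMeasurable.restrict (ae_restrict_of_ae h)
theorem l2b_add (hf : IsL2OnBalls m f) (hg : IsL2OnBalls m g) : IsL2OnBalls m fun x => f x + g x :=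
  fun o R => (hf o R).add (hg o R)
theorem l2b_const_mul (c : ℝ) (hf : IsL2OnBalls m f) : IsL2OnBalls m fun x => c * f x :=
  fun o R => (hf o R).const_mul c
theorem l2b_abs (hf : IsL2OnBalls m f) : IsL2OnBalls m fun x => |f x| :=
  fun o R => (hf o R).norm
theorem l2b_mul (hf : AEMeasurable f m) (hb : BddB m f) (hg : IsL2OnBalls m g) :
    IsL2OnBalls m fun x => f x * g x := by
  intro o R
  obtain ⟨C, hC⟩ := hb o R
  refine (hg o R).of_le_mul (c := C) (hf.aestronglyMeasurable.restrict.mul (hg o R).1) ?_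
  rw [ae_restrict_iff' measurableSet_ball]
  filter_upwards [hC] with x hx hxo
  rw [norm_mul]
  exact mul_le_mul_of_nonneg_right (hx hxo) (norm_nonneg _)
theorem l2b_memLp (hf : IsL2OnBalls m f) {o : X} {R : ℝ} (h : ∀ᵐ x ∂m, x ∉ Metric.ball o R → f x = 0) :
    MemLp f 2 m := by
  refine ((memLp_indicator_iff_restrict measurableSet_ball).2 (hf o R)).ae_eq ?_
  filter_upwards [h] with x hx
  by_cases hxo : x ∈ Metric.ball o R
  · exact indicator_of_mem hxo _
  · rw [indicator_of_notMem hxo, hx hxo]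
theorem bddB_of_bound {C : ℝ} (h : ∀ᵐ x ∂m, |f x| ≤ C) : BddB m f :=
  fun _ _ => ⟨C, h.mono fun _ hx _ => hx⟩
theorem LipB.bddB (h : LipB f) : BddB m f := by
  intro o R
  obtain ⟨K, hK⟩ := h o R
  refine ⟨|f o| + K * R, ae_of_all _ fun x hx => ?_⟩
  have h1 := hK.dist_le_mul x hx o (Metric.mem_ball_self (Metric.pos_of_mem_ball hx))
  have h2 := mul_le_mul_of_nonneg_left (Metric.mem_ball.1 hx).le K.coe_nonneg
  have h3 := abs_sub_abs_le_abs_sub (f x) (f o)
  rw [Real.dist_eq] at h1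
  linarith
theorem wug_mono {D' : X → ℝ} (h : IsWUGLoc m f D) (hD' : IsL2OnBalls m D') (hle : ∀ᵐ x ∂m, D x ≤ D' x) :
    IsWUGLoc m f D' := by
  refine ⟨hD', by filter_upwards [h.2.1, hle] with x h1 h2 using h1.trans h2, fun P h1 h2 =>
    (h.2.2 P h1 h2).trans (lintegral_mono_ae ?_)⟩
  filter_upwards [Plan.ae_ae ⟨h1, h2⟩ hle] with γ hγ
  exact lintegral_mono_ae (hγ.mono fun t ht => mul_le_mul_left (ENNReal.ofReal_le_ofReal ht) _)

variable [Fact (IsFiniteOnBalls m)]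

theorem l2b_of_bddB (hf : AEMeasurable f m) (hb : BddB m f) : IsL2OnBalls m f := by
  intro o R
  obtain ⟨C, hC⟩ := hb o R
  exact MemLp.of_bound hf.aestronglyMeasurable.restrict C ((ae_restrict_iff' measurableSet_ball).2 hC)
theorem l2b_const (c : ℝ) : IsL2OnBalls m fun _ => c :=
  fun _ _ => memLp_const c

omit [Fact (IsFiniteOnBalls m)] in
theorem w6_of_le {D' : X → ℝ} (hf : AEMeasurable f m) (h : IsWUGLoc m f D) (hD' : AEMeasurable D' m)
    (h0 : ∀ᵐ x ∂m, 0 ≤ D' x) (hle : ∀ᵐ x ∂m, D' x ≤ D x) (hc : ∀ᶠ z in pf m, |cd f z| ≤ D' (ev z) * sp z) :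
    IsWUGLoc m f D' :=
  UG.wug ⟨(wug_ug hf h).1, hc⟩
    (l2b_of_le h.1 hD' (by filter_upwards [h0, hle] with x h1 h2 using (abs_of_nonneg h1).trans_le h2)) h0

/-- Take `w > 0` with `∫⁻ w < ⊤` (`exists_pos_lintegral_lt_of_sigmaFinite`) and minimise
`∫⁻ w * ofReal (arctan D)` over the WUGs: the infimum `D₀` of a minimising sequence is a WUG (`wug_ug`,
countable intersection in `pf m`, `UG.wug`), and so is `min D₀ D'`. -/
theorem exists_minWUG (hf : AEMeasurable f m) (h : IsWUGLoc m f D) : ∃ D', IsMinWUGLoc m f D' := by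
  obtain ⟨w, hw0, hwm, hw⟩ := exists_pos_lintegral_lt_of_sigmaFinite m one_ne_zero
  obtain ⟨J, hJ⟩ : ∃ J : (X → ℝ) → ℝ≥0∞, J = fun D' => ∫⁻ x, w x * ENNReal.ofReal (Real.sigmoid (D' x)) ∂m := ⟨_, rfl⟩
  have hp : ∀ (x : X) {a b : ℝ}, a ≤ b →
      w x * ENNReal.ofReal (Real.sigmoid a) ≤ w x * ENNReal.ofReal (Real.sigmoid b) := fun x _ _ hab =>
    mul_le_mul_right (ENNReal.ofReal_le_ofReal (Real.sigmoid_monotone hab)) _
  obtain ⟨u, -, hu, hu'⟩ := exists_seq_tendsto_sInf (S := J '' {D' | IsWUGLoc m f D'}) ⟨_, D, h, rfl⟩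
    (OrderBot.bddBelow _)
  choose E hE hEu using hu'
  have h0 : ∀ᵐ x ∂m, ∀ n, 0 ≤ E n x := ae_all_iff.2 fun n => (hE n).2.1
  have h1 : ∀ n, ∀ᵐ x ∂m, ⨅ k, E k x ≤ E n x := fun n => h0.mono fun x hx =>
    ciInf_le ⟨0, forall_mem_range.2 hx⟩ n
  have h2 : IsWUGLoc m f fun x => ⨅ k, E k x := by
    refine w6_of_le hf (hE 0) (.iInf fun k => l2b_aemeasurable (hE k).1) (h0.mono fun x hx => le_ciInf hx) (h1 0) ?_
    filter_upwards [eventually_countable_forall.2 fun k => (wug_ug hf (hE k)).2] with z hz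
    rw [Real.iInf_mul_of_nonneg (sp_nonneg z)]
    exact le_ciInf hz
  refine ⟨_, h2, fun D' hD' => ?_⟩
  have h3 : IsWUGLoc m f fun x => min (⨅ k, E k x) (D' x) := by
    refine w6_of_le hf hD' ((l2b_aemeasurable h2.1).min (l2b_aemeasurable hD'.1)) ?_
      (ae_of_all _ fun x => min_le_right _ _) ?_
    · filter_upwards [h2.2.1, hD'.2.1] with x a b using le_min a b
    · filter_upwards [(wug_ug hf h2).2, (wug_ug hf hD').2] with z a b
      rw [min_mul_of_nonneg _ _ (sp_nonneg z)]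
      exact le_min a b
  have h4 : J (fun x => ⨅ k, E k x) ≤ J fun x => min (⨅ k, E k x) (D' x) := by
    refine le_trans (ge_of_tendsto' hu fun n => ?_) (sInf_le ⟨_, h3, rfl⟩)
    rw [← hEu n, hJ]
    exact lintegral_mono_ae ((h1 n).mono fun x hx => hp x hx)
  rw [hJ] at h4
  have h5 := ae_eq_of_ae_le_of_lintegral_le (ae_of_all _ fun x => hp x (min_le_left _ _))
    (ne_top_of_le_ne_top (hw.trans ENNReal.one_lt_top).ne (lintegral_mono fun x =>
      mul_le_of_le_one_right' (ENNReal.ofReal_le_one.2 (Real.sigmoid_le_one _))))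
    (hwm.coe_nnreal_ennreal.aemeasurable.mul
      (continuous_sigmoid.measurable.comp_aemeasurable (l2b_aemeasurable h2.1)).ennreal_ofReal) h4
  filter_upwards [h5] with x hx
  rw [ENNReal.mul_right_inj (ENNReal.coe_ne_zero.2 (hw0 x).ne') ENNReal.coe_ne_top,
    ENNReal.ofReal_eq_ofReal_iff (Real.sigmoid_nonneg _) (Real.sigmoid_nonneg _), Real.sigmoid_inj] at hx
  exact min_eq_left_iff.1 hx

omit [Fact (IsFiniteOnBalls m)] in
theorem w6_closed {P : X → ℝ} {k : ℕ} (hk : k ≠ 0) (hP : ∀ (o : X) (R : ℝ), IntegrableOn P (Metric.ball o R) m)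
    (h : ∀ χ : X → ℝ, (∃ L, LipschitzWith L χ) → BddSupp χ → (∀ x, 0 ≤ χ x ∧ χ x ≤ 1) →
      0 ≤ ∫ x, χ x ^ k * P x ∂m) {C : Set X} (hC : IsClosed C) {o : X} {R : ℝ} (hCo : C ⊆ Metric.ball o R) :
    0 ≤ ∫ x in C, P x ∂m := by
  have hδ : ∀ n : ℕ, (0 : ℝ) < 1 / (n + 1) := fun n => by positivity
  have hL : ∀ n, LipschitzWith _ fun x => (thickenedIndicator (hδ n) C x : ℝ) := fun n =>
    NNReal.isometry_coe.lipschitz.comp (lipschitzWith_thickenedIndicator (hδ n) C)
  have h0 : ∀ n x, x ∉ Metric.ball o (1 + R) → (thickenedIndicator (hδ n) C x : ℝ) = 0 := fun n x hx => by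
    rw [thickenedIndicator_zero (hδ n) C fun hx' => hx ?_, NNReal.coe_zero]
    obtain ⟨z, hz, hxz⟩ := Metric.mem_thickening_iff.1 hx'
    have h1 : (1 : ℝ) / (n + 1) ≤ 1 := div_le_one_of_le₀ (by simp) (by positivity)
    have h2 := Metric.mem_ball.1 (hCo hz)
    exact Metric.mem_ball.2 ((dist_triangle x z o).trans_lt (by linarith))
  have h1 : ∀ n x, 0 ≤ (thickenedIndicator (hδ n) C x : ℝ) ∧ (thickenedIndicator (hδ n) C x : ℝ) ≤ 1 := fun n x =>
    ⟨NNReal.coe_nonneg _, thickenedIndicator_le_one (hδ n) C x⟩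
  have h2 := tendsto_integral_of_dominated_convergence (μ := m.restrict (Metric.ball o (1 + R)))
    (F := fun n x => (thickenedIndicator (hδ n) C x : ℝ) ^ k * P x) (f := C.indicator P) (fun x => ‖P x‖)
    (fun n => ((hL n).continuous.pow k).aestronglyMeasurable.mul (hP o _).1) (hP o _).norm
    (fun n => ae_of_all _ fun x => by
      rw [norm_mul]
      refine mul_le_of_le_one_left (norm_nonneg _) ?_
      rw [norm_pow, Real.norm_of_nonneg (h1 n x).1]
      exact pow_le_one₀ (h1 n x).1 (h1 n x).2)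
    (ae_of_all _ fun x => by
      have h3 := ((NNReal.tendsto_coe.2 (tendsto_pi_nhds.1 (thickenedIndicator_tendsto_indicator_closure hδ
        tendsto_one_div_add_atTop_nhds_zero_nat C) x)).pow k).mul_const (P x)
      rw [hC.closure_eq] at h3
      convert h3 using 2
      by_cases hx : x ∈ C <;> simp [hx, hk])
  rw [integral_indicator hC.measurableSet, Measure.restrict_restrict hC.measurableSet,
    inter_eq_left.2 (hCo.trans (Metric.ball_subset_ball (by linarith)))] at h2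
  refine ge_of_tendsto' h2 fun n => ?_
  rw [setIntegral_eq_integral_of_forall_compl_eq_zero fun x hx => by rw [h0 n x hx, zero_pow hk, zero_mul]]
  exact h _ ⟨_, hL n⟩ ⟨o, 1 + R, h0 n⟩ (h1 n)

theorem w6_core {P : X → ℝ} {k : ℕ} (hk : k ≠ 0) (hP : ∀ (o : X) (R : ℝ), IntegrableOn P (Metric.ball o R) m)
    (h : ∀ χ : X → ℝ, (∃ L, LipschitzWith L χ) → BddSupp χ → (∀ x, 0 ≤ χ x ∧ χ x ≤ 1) →
      0 ≤ ∫ x, χ x ^ k * P x ∂m) : ∀ᵐ x ∂m, 0 ≤ P x := by
  rcases isEmpty_or_nonempty X with _ | ⟨⟨o⟩⟩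
  · exact ae_of_all _ fun x => isEmptyElim x
  rw [← Measure.restrict_univ (μ := m), ← Metric.iUnion_ball_nat o, ae_restrict_iUnion_iff]
  intro n
  obtain ⟨t, hts, ht, hte⟩ := (nullMeasurableSet_lt (hP o n).1.aemeasurable
    (aemeasurable_const (b := (0 : ℝ)))).exists_measurable_subset_ae_eq
  rw [ae_iff]
  simp only [not_le]
  rw [← measure_congr hte]
  by_contra h1
  obtain ⟨C, hC, hCc, hC0⟩ := (ht.inter (measurableSet_ball (x := o) (ε := n))).exists_lt_isClosed_of_ne_top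
    (μ := m.restrict (Metric.ball o n)) (measure_ne_top _ _) (r := 0) (by
      rwa [Measure.restrict_apply (ht.inter measurableSet_ball), inter_assoc, inter_self,
        ← Measure.restrict_apply ht, pos_iff_ne_zero])
  have hCo : C ⊆ Metric.ball o n := hC.trans inter_subset_right
  have h2 := w6_closed hk hP h hCc hCo
  have h3 : ∀ x ∈ C, 0 < -P x := fun x hx => neg_pos.2 (hts (hC hx).1)
  have h4 := (setIntegral_pos_iff_support_of_nonneg_ae (f := fun x => -P x)
    ((ae_restrict_iff' hCc.measurableSet).2 (ae_of_all _ fun x hx => (h3 x hx).le))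
    ((hP o n).mono_set hCo).neg).2 (hC0.trans_le ((Measure.restrict_apply_le _ _).trans
      (measure_mono fun x hx => ⟨(h3 x hx).ne', hx⟩)))
  rw [integral_neg] at h4
  linarith

/-- `χ_n = max 0 (1 - n * infDist x C)` for closed bounded `C`, dominated convergence, inner regularity of the
finite measure `m.restrict (ball o R)` by closed sets -/
theorem ae_nonneg_of_lip_sq {P : X → ℝ} (hP : ∀ (o : X) (R : ℝ), IntegrableOn P (Metric.ball o R) m)
    (h : ∀ χ : X → ℝ, (∃ L, LipschitzWith L χ) → BddSupp χ → (∀ x, 0 ≤ χ x ∧ χ x ≤ 1) →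
      0 ≤ ∫ x, χ x ^ 2 * P x ∂m) : ∀ᵐ x ∂m, 0 ≤ P x :=
  w6_core two_ne_zero hP h
theorem ae_nonneg_of_lip {P : X → ℝ} (hP : ∀ (o : X) (R : ℝ), IntegrableOn P (Metric.ball o R) m)
    (h : ∀ χ : X → ℝ, (∃ L, LipschitzWith L χ) → BddSupp χ → (∀ x, 0 ≤ χ x ∧ χ x ≤ 1) →
      0 ≤ ∫ x, χ x * P x ∂m) : ∀ᵐ x ∂m, 0 ≤ P x :=
  w6_core one_ne_zero hP (by simpa only [pow_one] using h)
theorem ae_zero_of_lip {P : X → ℝ} (hP : ∀ (o : X) (R : ℝ), IntegrableOn P (Metric.ball o R) m)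
    (h : ∀ χ : X → ℝ, (∃ L, LipschitzWith L χ) → BddSupp χ → (∀ x, 0 ≤ χ x ∧ χ x ≤ 1) →
      ∫ x, χ x * P x ∂m = 0) : ∀ᵐ x ∂m, P x = 0 := by
  filter_upwards [ae_nonneg_of_lip hP fun χ a b c => (h χ a b c).ge,
    ae_nonneg_of_lip (P := fun x => -P x) (fun o R => (hP o R).neg) fun χ a b c => by
      simp only [mul_neg, integral_neg, h χ a b c, neg_zero, le_refl]] with x h1 h2
  linarith

end Crest.Agent.R242
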