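import Crest.Agent.R242.Wug6

/-! Row 242, I-b, TASK Wug7: locally Sobolev functions and `minWeakGrad` (keep the statements; aux names
`w7_*`).  Everything follows from `sl_of_cd`, `gr_le_on` and the `cd` calculus. -/

set_option autoImplicit false
set_option linter.unusedSectionVars false
open MeasureTheory Filter Set Topology
open scoped ENNReal NNReal
open Crest.GeometryTopology.SyntheticRicci

namespace Crest.Agent.R242

variable {X : Type*} [MetricSpace X] [MeasurableSpace X] [BorelSpace X] {m : Measure X} {f g u v D : X → ℝ}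

theorem sl_min (hf : IsSobolevLoc m f) : IsMinWUGLoc m f (minWeakGrad m f) := by
  unfold minWeakGrad
  rw [dif_pos hf.2]
  exact Classical.choose_spec hf.2
theorem gr_nonneg (m : Measure X) (f : X → ℝ) : ∀ᵐ x ∂m, 0 ≤ minWeakGrad m f x := by
  unfold minWeakGrad
  split_ifs with h
  · exact (Classical.choose_spec h).1.2.1
  · exact Eventually.of_forall fun _ => le_rfl
theorem w7_l2b (m : Measure X) (f : X → ℝ) : IsL2OnBalls m (minWeakGrad m f) := by
  unfold minWeakGrad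
  split_ifs with h
  · exact (Classical.choose_spec h).1.1
  · exact fun _ _ => MemLp.zero
theorem gr_aemeasurable (m : Measure X) (f : X → ℝ) : AEMeasurable (minWeakGrad m f) m :=
  l2b_aemeasurable (w7_l2b m f)
theorem gr_l2b (m : Measure X) (f : X → ℝ) : IsL2OnBalls m (minWeakGrad m f) := w7_l2b m f
theorem sl_aemeasurable (hf : IsSobolevLoc m f) : AEMeasurable f m := l2b_aemeasurable hf.1
theorem sl_wug (hf : IsSobolevLoc m f) : IsWUGLoc m f (minWeakGrad m f) := (sl_min hf).1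
theorem sl_reg (hf : IsSobolevLoc m f) : Reg m f := (wug_ug (sl_aemeasurable hf) (sl_wug hf)).1
theorem abs_cd_le (hf : IsSobolevLoc m f) : ∀ᶠ z in pf m, |cd f z| ≤ minWeakGrad m f (ev z) * sp z :=
  (wug_ug (sl_aemeasurable hf) (sl_wug hf)).2
theorem gr_le_of_wug (hf : IsSobolevLoc m f) (h : IsWUGLoc m f D) : ∀ᵐ x ∂m, minWeakGrad m f x ≤ D x :=
  (sl_min hf).2 D h
/-- comparison principle: `min (gr f) G` on `A`, `gr f` off `A`, is a WUG -/
theorem gr_le_on (hf : IsSobolevLoc m f) {G : X → ℝ} (hG : AEMeasurable G m) {A : Set X}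
    (hA : NullMeasurableSet A m) (h0 : ∀ᵐ x ∂m, x ∈ A → 0 ≤ G x)
    (h : ∀ᶠ z in pf m, ev z ∈ A → |cd f z| ≤ G (ev z) * sp z) :
    ∀ᵐ x ∂m, x ∈ A → minWeakGrad m f x ≤ G x := by
  set D' : X → ℝ := fun x => minWeakGrad m f x -
    A.indicator (fun x => minWeakGrad m f x - min (minWeakGrad m f x) (G x)) x with hD'
  have e1 : ∀ x, x ∈ A → D' x = min (minWeakGrad m f x) (G x) := fun x hx => by
    simp only [hD', indicator_of_mem hx]
    ring
  have e2 : ∀ x, x ∉ A → D' x = minWeakGrad m f x := fun x hx => by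
    simp only [hD', indicator_of_notMem hx, sub_zero]
  have hm : AEMeasurable D' m := (gr_aemeasurable m f).sub
    (((gr_aemeasurable m f).sub ((gr_aemeasurable m f).min hG)).indicator₀ hA)
  have hb : ∀ᵐ x ∂m, 0 ≤ D' x ∧ D' x ≤ minWeakGrad m f x := by
    filter_upwards [h0, gr_nonneg m f] with x h1 h2
    by_cases hx : x ∈ A
    · rw [e1 x hx]
      exact ⟨le_min h2 (h1 hx), min_le_left _ _⟩
    · rw [e2 x hx]
      exact ⟨h2, le_rfl⟩
  have hU : UG m f D' := ⟨sl_reg hf, by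
    filter_upwards [h, abs_cd_le hf] with z h1 h2
    by_cases hx : ev z ∈ A
    · rw [e1 _ hx]
      rcases le_total (minWeakGrad m f (ev z)) (G (ev z)) with h3 | h3
      · rwa [min_eq_left h3]
      · rw [min_eq_right h3]
        exact h1 hx
    · rwa [e2 _ hx]⟩
  have hW := hU.wug (l2b_of_le (gr_l2b m f) hm (hb.mono fun x hx => by
    rw [abs_of_nonneg hx.1]; exact hx.2)) (hb.mono fun x hx => hx.1)
  filter_upwards [gr_le_of_wug hf hW] with x h1 hx
  rw [e1 x hx] at h1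
  exact h1.trans (min_le_right _ _)
theorem gr_le (hf : IsSobolevLoc m f) {G : X → ℝ} (hG : AEMeasurable G m) (h0 : ∀ᵐ x ∂m, 0 ≤ G x)
    (h : ∀ᶠ z in pf m, |cd f z| ≤ G (ev z) * sp z) : ∀ᵐ x ∂m, minWeakGrad m f x ≤ G x :=
  (gr_le_on hf hG (A := univ) nullMeasurableSet_univ (h0.mono fun _ hx _ => hx)
    (h.mono fun _ hz _ => hz)).mono fun x hx => hx (mem_univ x)
theorem w7_local (hf : IsSobolevLoc m f) (hg : IsSobolevLoc m g) :
    ∀ᵐ x ∂m, f x = g x → minWeakGrad m f x ≤ minWeakGrad m g x :=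
  gr_le_on hf (gr_aemeasurable m g) (A := {x | f x = g x})
    (nullMeasurableSet_eq_fun (sl_aemeasurable hf) (sl_aemeasurable hg))
    ((gr_nonneg m g).mono fun _ hx _ => hx) (by
      filter_upwards [cd_local (sl_reg hf) (sl_reg hg), abs_cd_le hg] with z h1 h2 hz
      rw [h1 hz]
      exact h2)
theorem gr_local (hf : IsSobolevLoc m f) (hg : IsSobolevLoc m g) :
    ∀ᵐ x ∂m, f x = g x → minWeakGrad m f x = minWeakGrad m g x := by
  filter_upwards [w7_local hf hg, w7_local hg hf] with x h1 h2 hx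
  exact le_antisymm (h1 hx) (h2 hx.symm)
theorem gr_level (hf : IsSobolevLoc m f) (c : ℝ) : ∀ᵐ x ∂m, f x = c → minWeakGrad m f x = 0 := by
  have h := gr_le_on hf (G := fun _ => 0) aemeasurable_const (A := {x | f x = c})
    (nullMeasurableSet_eq_fun (sl_aemeasurable hf) aemeasurable_const)
    (Eventually.of_forall fun _ _ => le_rfl) (by
      filter_upwards [cd_level (sl_reg hf) c] with z h1 hz
      rw [h1 hz]
      simp)
  filter_upwards [h, gr_nonneg m f] with x h1 h2 hx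
  exact le_antisymm (h1 hx) h2
/-- if `cd u = a * cd f` then `gr u = |a| gr f` (for `≥` use `gr_le_on` on `{a ≠ 0}` with `G = gr u / |a|`) -/
theorem gr_of_cd_eq (hu : IsSobolevLoc m u) (hf : IsSobolevLoc m f) {a : X → ℝ} (ha : AEMeasurable a m)
    (h : ∀ᶠ z in pf m, cd u z = a (ev z) * cd f z) :
    ∀ᵐ x ∂m, minWeakGrad m u x = |a x| * minWeakGrad m f x := by
  have h1 := gr_le hu (G := fun x => |a x| * minWeakGrad m f x)
    ((continuous_abs.measurable.comp_aemeasurable ha).mul (gr_aemeasurable m f))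
    ((gr_nonneg m f).mono fun x hx => mul_nonneg (abs_nonneg _) hx) (by
      filter_upwards [h, abs_cd_le hf] with z h1 h2
      rw [h1, abs_mul, mul_assoc]
      exact mul_le_mul_of_nonneg_left h2 (abs_nonneg _))
  have h2 := gr_le_on hf (G := fun x => minWeakGrad m u x / |a x|)
    ((gr_aemeasurable m u).div (continuous_abs.measurable.comp_aemeasurable ha))
    (A := {x | a x = 0}ᶜ) (nullMeasurableSet_eq_fun ha aemeasurable_const).compl
    ((gr_nonneg m u).mono fun x hx _ => div_nonneg hx (abs_nonneg _)) (by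
      filter_upwards [h, abs_cd_le hu] with z h1 h2 hz
      have h3 : 0 < |a (ev z)| := abs_pos.2 hz
      rw [h1, abs_mul] at h2
      rw [div_mul_eq_mul_div, le_div_iff₀ h3, mul_comm]
      exact h2)
  filter_upwards [h1, h2, gr_nonneg m u] with x h3 h4 h5
  refine le_antisymm h3 ?_
  by_cases hx : a x = 0
  · simpa [hx] using h5
  · have h6 := h4 hx
    rwa [le_div_iff₀ (abs_pos.2 hx), mul_comm] at h6

variable [Fact (IsFiniteOnBalls m)]

theorem sl_of_wug (hf : IsL2OnBalls m f) (h : IsWUGLoc m f D) : IsSobolevLoc m f :=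
  ⟨hf, exists_minWUG (l2b_aemeasurable hf) h⟩
theorem sl_of_cd (hf : IsL2OnBalls m f) (hr : Reg m f) (hD : IsL2OnBalls m D)
    (h : ∀ᶠ z in pf m, |cd f z| ≤ D (ev z) * sp z) : IsSobolevLoc m f :=
  sl_of_wug hf (UG.wug (D := fun x => |D x|) ⟨hr, h.mono fun z hz =>
    hz.trans (mul_le_mul_of_nonneg_right (le_abs_self _) (sp_nonneg z))⟩ (l2b_abs hD)
    (Eventually.of_forall fun _ => abs_nonneg _))
theorem sl_congr (hf : IsSobolevLoc m f) (h : f =ᵐ[m] g) : IsSobolevLoc m g :=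
  sl_of_cd (fun o R => (hf.1 o R).ae_eq (ae_restrict_of_ae h)) ((sl_reg hf).congr h) (gr_l2b m f) (by
    filter_upwards [cd_congr (sl_reg hf) h, abs_cd_le hf] with z h1 h2
    rwa [← h1])
theorem gr_congr (hf : IsSobolevLoc m f) (h : f =ᵐ[m] g) : minWeakGrad m f =ᵐ[m] minWeakGrad m g := by
  filter_upwards [gr_local hf (sl_congr hf h), h] with x h1 h2
  exact h1 h2
theorem sl_const (c : ℝ) : IsSobolevLoc m fun _ => c :=
  sl_of_cd (l2b_const c) (reg_const c) (l2b_const 0) (by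
    filter_upwards [cd_const (m := m) c] with z h1
    rw [h1]
    simp)
theorem gr_const (c : ℝ) : ∀ᵐ x ∂m, minWeakGrad m (fun _ => c) x = 0 :=
  (gr_level (sl_const (m := m) c) c).mono fun _ hx => hx rfl
omit [Fact (IsFiniteOnBalls m)] in
theorem w7_add (hf : IsSobolevLoc m f) (hg : IsSobolevLoc m g) : ∀ᶠ z in pf m,
    |cd (fun x => f x + g x) z| ≤ (minWeakGrad m f (ev z) + minWeakGrad m g (ev z)) * sp z := by
  filter_upwards [cd_add (sl_reg hf) (sl_reg hg), abs_cd_le hf, abs_cd_le hg] with z h1 h2 h3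
  rw [h1, add_mul]
  exact (abs_add_le _ _).trans (add_le_add h2 h3)
omit [Fact (IsFiniteOnBalls m)] in
theorem w7_sub (hf : IsSobolevLoc m f) (hg : IsSobolevLoc m g) : ∀ᶠ z in pf m,
    |cd (fun x => f x - g x) z| ≤ (minWeakGrad m f (ev z) + minWeakGrad m g (ev z)) * sp z := by
  filter_upwards [cd_sub (sl_reg hf) (sl_reg hg), abs_cd_le hf, abs_cd_le hg] with z h1 h2 h3
  rw [h1, add_mul]
  exact (abs_sub _ _).trans (add_le_add h2 h3)
omit [Fact (IsFiniteOnBalls m)] in
theorem w7_add_nonneg (m : Measure X) (f g : X → ℝ) :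
    ∀ᵐ x ∂m, 0 ≤ minWeakGrad m f x + minWeakGrad m g x := by
  filter_upwards [gr_nonneg m f, gr_nonneg m g] with x h1 h2
  exact add_nonneg h1 h2
theorem sl_add (hf : IsSobolevLoc m f) (hg : IsSobolevLoc m g) : IsSobolevLoc m fun x => f x + g x :=
  sl_of_cd (l2b_add hf.1 hg.1) ((sl_reg hf).add (sl_reg hg)) (l2b_add (gr_l2b m f) (gr_l2b m g))
    (w7_add hf hg)
theorem gr_add_le (hf : IsSobolevLoc m f) (hg : IsSobolevLoc m g) :
    ∀ᵐ x ∂m, minWeakGrad m (fun x => f x + g x) x ≤ minWeakGrad m f x + minWeakGrad m g x :=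
  gr_le (sl_add hf hg) ((gr_aemeasurable m f).add (gr_aemeasurable m g)) (w7_add_nonneg m f g)
    (w7_add hf hg)
theorem sl_const_mul (c : ℝ) (hf : IsSobolevLoc m f) : IsSobolevLoc m fun x => c * f x :=
  sl_of_cd (l2b_const_mul c hf.1) ((sl_reg hf).const_mul c) (l2b_const_mul |c| (gr_l2b m f)) (by
    filter_upwards [cd_const_mul c (sl_reg hf), abs_cd_le hf] with z h1 h2
    rw [h1, abs_mul, mul_assoc]
    exact mul_le_mul_of_nonneg_left h2 (abs_nonneg _))
theorem gr_const_mul (c : ℝ) (hf : IsSobolevLoc m f) :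
    ∀ᵐ x ∂m, minWeakGrad m (fun x => c * f x) x = |c| * minWeakGrad m f x :=
  gr_of_cd_eq (sl_const_mul c hf) hf (a := fun _ => c) aemeasurable_const (cd_const_mul c (sl_reg hf))
theorem sl_neg (hf : IsSobolevLoc m f) : IsSobolevLoc m fun x => - f x := by
  simpa using sl_const_mul (-1) hf
theorem gr_neg (hf : IsSobolevLoc m f) : ∀ᵐ x ∂m, minWeakGrad m (fun x => - f x) x = minWeakGrad m f x := by
  simpa using gr_const_mul (-1) hf
theorem sl_sub (hf : IsSobolevLoc m f) (hg : IsSobolevLoc m g) : IsSobolevLoc m fun x => f x - g x :=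
  sl_of_cd (fun o R => (hf.1 o R).sub (hg.1 o R)) ((sl_reg hf).sub (sl_reg hg))
    (l2b_add (gr_l2b m f) (gr_l2b m g)) (w7_sub hf hg)
theorem gr_sub_le (hf : IsSobolevLoc m f) (hg : IsSobolevLoc m g) :
    ∀ᵐ x ∂m, minWeakGrad m (fun x => f x - g x) x ≤ minWeakGrad m f x + minWeakGrad m g x :=
  gr_le (sl_sub hf hg) ((gr_aemeasurable m f).add (gr_aemeasurable m g)) (w7_add_nonneg m f g)
    (w7_sub hf hg)
theorem abs_gr_sub_gr_le (hf : IsSobolevLoc m f) (hg : IsSobolevLoc m g) :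
    ∀ᵐ x ∂m, |minWeakGrad m f x - minWeakGrad m g x| ≤ minWeakGrad m (fun x => f x - g x) x := by
  have hs := sl_sub hf hg
  have h1 := gr_add_le hs hg
  have h2 := gr_sub_le hf hs
  simp only [sub_add_cancel] at h1
  simp only [sub_sub_cancel] at h2
  filter_upwards [h1, h2] with x h3 h4
  rw [abs_le]
  constructor
  · have : minWeakGrad m g x ≤ minWeakGrad m f x + minWeakGrad m (fun x => f x - g x) x := h4
    linarith
  · have : minWeakGrad m f x ≤ minWeakGrad m (fun x => f x - g x) x + minWeakGrad m g x := h3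
    linarith
theorem sl_sum {ι : Type*} (s : Finset ι) {F : ι → X → ℝ} (h : ∀ i ∈ s, IsSobolevLoc m (F i)) :
    IsSobolevLoc m fun x => ∑ i ∈ s, F i x := by
  classical
  induction s using Finset.induction_on with
  | empty => simpa using sl_const (m := m) 0
  | insert i s hi ih =>
    simp only [Finset.sum_insert hi]
    exact sl_add (h i (Finset.mem_insert_self _ _)) (ih fun j hj => h j (Finset.mem_insert_of_mem hj))
omit [Fact (IsFiniteOnBalls m)] in
theorem w7_comp {φ : ℝ → ℝ} {L : ℝ≥0} (hφ : LipschitzWith L φ) (hf : IsSobolevLoc m f) : ∀ᶠ z in pf m,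
    |cd (fun x => φ (f x)) z| ≤ (L * minWeakGrad m f (ev z)) * sp z := by
  filter_upwards [abs_cd_comp_le hφ (sl_reg hf), abs_cd_le hf] with z h1 h2
  rw [mul_assoc]
  exact h1.trans (mul_le_mul_of_nonneg_left h2 L.2)
theorem sl_comp {φ : ℝ → ℝ} {L : ℝ≥0} (hφ : LipschitzWith L φ) (hf : IsSobolevLoc m f) :
    IsSobolevLoc m fun x => φ (f x) := by
  refine sl_of_cd ?_ ((sl_reg hf).comp hφ.locallyLipschitz) (l2b_const_mul L (gr_l2b m f)) (w7_comp hφ hf)
  refine l2b_of_le (l2b_add (l2b_const |φ 0|) (l2b_const_mul L (l2b_abs hf.1)))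
    (hφ.continuous.measurable.comp_aemeasurable (sl_aemeasurable hf)) (Eventually.of_forall fun x => ?_)
  have h1 := hφ.dist_le_mul (f x) 0
  rw [Real.dist_eq, Real.dist_eq, sub_zero] at h1
  have h2 := abs_add_le (φ 0) (φ (f x) - φ 0)
  rw [add_sub_cancel] at h2
  linarith
theorem gr_comp_le {φ : ℝ → ℝ} {L : ℝ≥0} (hφ : LipschitzWith L φ) (hf : IsSobolevLoc m f) :
    ∀ᵐ x ∂m, minWeakGrad m (fun x => φ (f x)) x ≤ L * minWeakGrad m f x :=
  gr_le (sl_comp hφ hf) ((gr_aemeasurable m f).const_mul _)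
    ((gr_nonneg m f).mono fun _ hx => mul_nonneg L.2 hx) (w7_comp hφ hf)
/-- locally Lipschitz `φ`, integrability assumed -/
theorem sl_comp' {φ φ' : ℝ → ℝ} {C : Set ℝ} (hφ : LocallyLipschitz φ) (hC : C.Countable)
    (hd : ∀ s, s ∉ C → HasDerivAt φ (φ' s) s) (hf : IsSobolevLoc m f) (h1 : IsL2OnBalls m fun x => φ (f x))
    (h2 : IsL2OnBalls m fun x => φ' (f x) * minWeakGrad m f x) : IsSobolevLoc m fun x => φ (f x) :=
  sl_of_cd h1 ((sl_reg hf).comp hφ) (l2b_abs h2) (by
    filter_upwards [cd_comp hφ hC hd (sl_reg hf), abs_cd_le hf] with z h3 h4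
    rw [h3, abs_mul, abs_mul, mul_assoc]
    exact mul_le_mul_of_nonneg_left
      (h4.trans (mul_le_mul_of_nonneg_right (le_abs_self _) (sp_nonneg z))) (abs_nonneg _))
omit [Fact (IsFiniteOnBalls m)] in
theorem w7_bddB_comp {ψ : ℝ → ℝ} (hψ : Continuous ψ) (hb : BddB m f) : BddB m fun x => ψ (f x) := by
  intro o R
  obtain ⟨C, hC⟩ := hb o R
  obtain ⟨B, hB⟩ := (isCompact_Icc (a := -C) (b := C)).exists_bound_of_continuousOn hψ.continuousOn
  exact ⟨B, hC.mono fun x hx hx' => hB _ (abs_le.1 (hx hx'))⟩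
/-- `C¹` function of a function bounded on balls -/
theorem sl_comp_bddB {φ : ℝ → ℝ} (hφ : ContDiff ℝ 1 φ) (hf : IsSobolevLoc m f) (hb : BddB m f) :
    IsSobolevLoc m fun x => φ (f x) := by
  have hd : Continuous (deriv φ) := hφ.continuous_deriv le_rfl
  exact sl_comp' (φ' := deriv φ) (C := ∅) hφ.locallyLipschitz countable_empty
    (fun s _ => (hφ.differentiable one_ne_zero s).hasDerivAt) hf
    (l2b_of_bddB (hφ.continuous.measurable.comp_aemeasurable (sl_aemeasurable hf))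
      (w7_bddB_comp hφ.continuous hb))
    (l2b_mul (hd.measurable.comp_aemeasurable (sl_aemeasurable hf)) (w7_bddB_comp hd hb) (gr_l2b m f))
theorem gr_comp {φ φ' : ℝ → ℝ} {C : Set ℝ} (hφ : LocallyLipschitz φ) (hC : C.Countable)
    (hd : ∀ s, s ∉ C → HasDerivAt φ (φ' s) s) (hφ' : Measurable φ') (hf : IsSobolevLoc m f)
    (hs : IsSobolevLoc m fun x => φ (f x)) :
    ∀ᵐ x ∂m, minWeakGrad m (fun x => φ (f x)) x = |φ' (f x)| * minWeakGrad m f x :=
  gr_of_cd_eq hs hf (a := fun x => φ' (f x)) (hφ'.comp_aemeasurable (sl_aemeasurable hf))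
    (cd_comp hφ hC hd (sl_reg hf))
omit [Fact (IsFiniteOnBalls m)] in
theorem w7_mul (hf : IsSobolevLoc m f) (hg : IsSobolevLoc m g) : ∀ᶠ z in pf m,
    |cd (fun x => f x * g x) z| ≤
      (|f (ev z)| * minWeakGrad m g (ev z) + |g (ev z)| * minWeakGrad m f (ev z)) * sp z := by
  filter_upwards [cd_mul (sl_reg hf) (sl_reg hg), abs_cd_le hf, abs_cd_le hg] with z h1 h2 h3
  rw [h1, add_mul, add_comm]
  refine (abs_add_le _ _).trans ?_
  rw [abs_mul, abs_mul, mul_assoc, mul_assoc]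
  exact add_le_add (mul_le_mul_of_nonneg_left h3 (abs_nonneg _))
    (mul_le_mul_of_nonneg_left h2 (abs_nonneg _))
theorem sl_mul' (hf : IsSobolevLoc m f) (hg : IsSobolevLoc m g) (h1 : IsL2OnBalls m fun x => f x * g x)
    (h2 : IsL2OnBalls m fun x => f x * minWeakGrad m g x) (h3 : IsL2OnBalls m fun x => g x * minWeakGrad m f x) :
    IsSobolevLoc m fun x => f x * g x :=
  sl_of_cd h1 ((sl_reg hf).mul (sl_reg hg)) (l2b_add (l2b_abs h2) (l2b_abs h3)) (by
    filter_upwards [w7_mul hf hg] with z hz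
    refine hz.trans (mul_le_mul_of_nonneg_right ?_ (sp_nonneg z))
    rw [abs_mul, abs_mul]
    exact add_le_add (mul_le_mul_of_nonneg_left (le_abs_self _) (abs_nonneg _))
      (mul_le_mul_of_nonneg_left (le_abs_self _) (abs_nonneg _)))
theorem sl_mul (hf : IsSobolevLoc m f) (hg : IsSobolevLoc m g) (hfb : BddB m f) (hgb : BddB m g) :
    IsSobolevLoc m fun x => f x * g x :=
  sl_mul' hf hg (l2b_mul (sl_aemeasurable hf) hfb hg.1) (l2b_mul (sl_aemeasurable hf) hfb (gr_l2b m g))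
    (l2b_mul (sl_aemeasurable hg) hgb (gr_l2b m f))
theorem gr_mul_le (hf : IsSobolevLoc m f) (hg : IsSobolevLoc m g) (hs : IsSobolevLoc m fun x => f x * g x) :
    ∀ᵐ x ∂m, minWeakGrad m (fun x => f x * g x) x ≤
      |f x| * minWeakGrad m g x + |g x| * minWeakGrad m f x :=
  gr_le hs (((continuous_abs.measurable.comp_aemeasurable (sl_aemeasurable hf)).mul
      (gr_aemeasurable m g)).add ((continuous_abs.measurable.comp_aemeasurable
      (sl_aemeasurable hg)).mul (gr_aemeasurable m f)))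
    (by
      filter_upwards [gr_nonneg m f, gr_nonneg m g] with x h1 h2
      positivity) (w7_mul hf hg)
omit [Fact (IsFiniteOnBalls m)] in
theorem w7_slope {U : Set X} (hU : IsOpen U) {L : ℝ≥0} (hL : LipschitzOnWith L f U) {x : X} (hx : x ∈ U)
    {ε : ℝ} (hε : 0 < ε) : ∀ᶠ y in 𝓝 x, f y - f x ≤ (L + ε) * dist y x := by
  filter_upwards [hU.mem_nhds hx] with y hy
  have h1 := hL.dist_le_mul y hy x hx
  rw [Real.dist_eq] at h1
  have h2 : 0 ≤ ε * dist y x := mul_nonneg hε.le dist_nonneg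
  have h3 := le_abs_self (f y - f x)
  linarith
omit [Fact (IsFiniteOnBalls m)] in
theorem w7_grad (m : Measure X) (hf : LipB f) : ∃ D : X → ℝ, Measurable D ∧ BddB m D ∧
    ∀ x, 0 ≤ D x ∧ ∀ ε : ℝ, 0 < ε → ∀ᶠ y in 𝓝 x, f y - f x ≤ (D x + ε) * dist y x := by
  rcases isEmpty_or_nonempty X with hX | ⟨⟨o⟩⟩
  · exact ⟨0, measurable_const, fun o => isEmptyElim o, fun x => isEmptyElim x⟩
  choose K hK using fun n : ℕ => hf o n
  refine ⟨fun x => (K (⌊dist x o⌋₊ + 2) : ℝ), ?_, fun o' R => ?_, fun x => ⟨(K _).2, fun ε hε => ?_⟩⟩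
  · exact (measurable_of_countable fun n : ℕ => (K (n + 2) : ℝ)).comp
      (Nat.measurable_floor.comp (continuous_id.dist continuous_const).measurable)
  · refine ⟨∑ n ∈ Finset.range (⌊R + dist o' o⌋₊ + 1), (K (n + 2) : ℝ),
      Eventually.of_forall fun x hx => ?_⟩
    refine (abs_of_nonneg (K (⌊dist x o⌋₊ + 2)).2).le.trans ?_
    refine Finset.single_le_sum (f := fun n => (K (n + 2) : ℝ)) (fun n _ => (K _).2)
      (Finset.mem_range.2 (Nat.lt_succ_of_le (Nat.floor_le_floor ?_)))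
    have h1 := dist_triangle x o' o
    have h2 : dist x o' < R := hx
    linarith
  · refine w7_slope Metric.isOpen_ball (hK _) ?_ hε
    have h1 := Nat.lt_floor_add_one (dist x o)
    rw [Metric.mem_ball]
    push_cast
    linarith
/-- upper gradient `x ↦ K (⌊dist x o⌋₊ + 2)`, `K n` a Lipschitz constant on `ball o n` -/
theorem sl_lipB (hf : LipB f) : IsSobolevLoc m f := by
  obtain ⟨D, h1, h2, h3⟩ := w7_grad m hf
  refine sl_of_cd (l2b_of_bddB hf.locallyLipschitz.continuous.measurable.aemeasurable hf.bddB)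
    (reg_lip hf.locallyLipschitz) (l2b_of_bddB h1.aemeasurable h2) ?_
  filter_upwards [abs_cd_le_slope (m := m) hf.locallyLipschitz] with z hz
  exact hz _ (h3 _).1 (h3 _).2
theorem sl_lip {L : ℝ≥0} (hf : LipschitzWith L f) : IsSobolevLoc m f := sl_lipB (lipB_of_lipschitz hf)
theorem gr_le_slope (hf : LipB f) {G : X → ℝ} (hG : AEMeasurable G m)
    (h : ∀ᵐ x ∂m, 0 ≤ G x ∧ ∀ ε : ℝ, 0 < ε → ∀ᶠ y in 𝓝 x, f y - f x ≤ (G x + ε) * dist y x) :
    ∀ᵐ x ∂m, minWeakGrad m f x ≤ G x :=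
  gr_le (sl_lipB hf) hG (h.mono fun _ hx => hx.1) (by
    filter_upwards [abs_cd_le_slope (m := m) hf.locallyLipschitz, pf_ev h] with z hz h1
    exact hz _ h1.1 h1.2)
theorem gr_le_lipOn (hf : LipB f) {U : Set X} (hU : IsOpen U) {L : ℝ≥0} (hL : LipschitzOnWith L f U) :
    ∀ᵐ x ∂m, x ∈ U → minWeakGrad m f x ≤ L :=
  gr_le_on (sl_lipB hf) (G := fun _ => (L : ℝ)) aemeasurable_const hU.measurableSet.nullMeasurableSet
    (Eventually.of_forall fun _ _ => L.2) (by
      filter_upwards [abs_cd_le_slope (m := m) hf.locallyLipschitz] with z hz h1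
      exact hz _ L.2 fun ε hε => w7_slope hU hL h1 hε)
theorem gr_le_lip {L : ℝ≥0} (hf : LipschitzWith L f) : ∀ᵐ x ∂m, minWeakGrad m f x ≤ L :=
  (gr_le_lipOn (lipB_of_lipschitz hf) isOpen_univ hf.lipschitzOnWith).mono fun x hx => hx (mem_univ x)
theorem LipB.bddB_gr (hf : LipB f) : BddB m (minWeakGrad m f) := by
  obtain ⟨D, h1, h2, h3⟩ := w7_grad m hf
  intro o R
  obtain ⟨C, hC⟩ := h2 o R
  refine ⟨C, ?_⟩
  filter_upwards [hC, gr_le_slope hf h1.aemeasurable (Eventually.of_forall h3), gr_nonneg m f]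
    with x a1 a2 a3 hx
  rw [abs_of_nonneg a3]
  exact a2.trans ((le_abs_self _).trans (a1 hx))
theorem sl_lipB_mul (hf : LipB f) (hg : IsSobolevLoc m g) : IsSobolevLoc m fun x => f x * g x := by
  have h1 := sl_aemeasurable (sl_lipB (m := m) hf)
  refine sl_mul' (sl_lipB hf) hg (l2b_mul h1 hf.bddB hg.1) (l2b_mul h1 hf.bddB (gr_l2b m g)) ?_
  simpa only [mul_comm] using l2b_mul (gr_aemeasurable m f) hf.bddB_gr hg.1

end Crest.Agent.R242
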