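import Crest.Agent.R242.Wug7

/-! Row 242, I-b, TASK Wug8: the class `W^{1,2}` (`IsSobolev`)
(keep the statements; aux names `w8_*`). -/

set_option autoImplicit false
set_option linter.unusedSectionVars false
open MeasureTheory Filter Set Topology
open scoped ENNReal NNReal
open Crest.GeometryTopology.SyntheticRicci

namespace Crest.Agent.R242

instance (priority := 90) fb_of_proper {X : Type*} [MetricSpace X] [MeasurableSpace X] [ProperSpace X]
    {m : Measure X} [IsFiniteMeasureOnCompacts m] : Fact (IsFiniteOnBalls m) :=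
  ⟨fun o R => (measure_mono Metric.ball_subset_closedBall).trans_lt (isCompact_closedBall o R).measure_lt_top⟩

variable {X : Type*} [MetricSpace X] [MeasurableSpace X] [BorelSpace X] {m : Measure X} {f g u v D : X → ℝ}
  [Fact (IsFiniteOnBalls m)]

omit [Fact (IsFiniteOnBalls m)] in
theorem w8_le (hg : MemLp g 2 m) (hf : AEMeasurable f m) (h : ∀ᵐ x ∂m, |f x| ≤ g x) : MemLp f 2 m :=
  hg.of_le hf.aestronglyMeasurable (h.mono fun _ hx => hx.trans (le_abs_self _))

omit [Fact (IsFiniteOnBalls m)] in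
theorem w8_mul (hf : AEMeasurable f m) {C : ℝ} (hb : ∀ᵐ x ∂m, |f x| ≤ C) (hg : MemLp g 2 m) :
    MemLp (fun x => f x * g x) 2 m :=
  w8_le (hg.abs.const_mul C) (hf.mul hg.1.aemeasurable) (hb.mono fun x hx => by
    rw [abs_mul]
    exact mul_le_mul_of_nonneg_right hx (abs_nonneg _))

theorem w8_prod (hf : IsSobolevLoc m f) (hg : IsSobolevLoc m g) (h1 : MemLp (fun x => f x * g x) 2 m)
    (h2 : MemLp (fun x => f x * minWeakGrad m g x) 2 m) (h3 : MemLp (fun x => g x * minWeakGrad m f x) 2 m) :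
    IsSobolev m fun x => f x * g x := by
  have hs := sl_mul' hf hg (l2b_of_memLp h1) (l2b_of_memLp h2) (l2b_of_memLp h3)
  refine ⟨h1, hs, w8_le (h2.abs.add h3.abs) (gr_aemeasurable _ _) ?_⟩
  filter_upwards [gr_mul_le hf hg hs, gr_nonneg m f, gr_nonneg m g, gr_nonneg m fun x => f x * g x]
    with x a b c d
  simp only [Pi.add_apply, Pi.abs_apply]
  rwa [abs_of_nonneg d, abs_mul, abs_mul, abs_of_nonneg b, abs_of_nonneg c]

theorem sob_of_le (hf : MemLp f 2 m) (hs : IsSobolevLoc m f) (hD : MemLp D 2 m)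
    (h : ∀ᵐ x ∂m, minWeakGrad m f x ≤ D x) : IsSobolev m f := by
  refine ⟨hf, hs, w8_le hD (gr_aemeasurable _ _) ?_⟩
  filter_upwards [h, gr_nonneg m f] with x a b
  rwa [abs_of_nonneg b]
theorem sob_congr (hf : IsSobolev m f) (h : f =ᵐ[m] g) : IsSobolev m g :=
  ⟨hf.1.ae_eq h, sl_congr hf.2.1 h, hf.2.2.ae_eq (gr_congr hf.2.1 h)⟩
theorem sob_zero : IsSobolev m fun _ => 0 :=
  sob_of_le MemLp.zero (sl_const 0) MemLp.zero ((gr_const 0).mono fun _ h => h.le)
theorem sob_add (hf : IsSobolev m f) (hg : IsSobolev m g) : IsSobolev m fun x => f x + g x :=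
  sob_of_le (hf.1.add hg.1) (sl_add hf.2.1 hg.2.1) (hf.2.2.add hg.2.2) (gr_add_le hf.2.1 hg.2.1)
theorem sob_const_mul (c : ℝ) (hf : IsSobolev m f) : IsSobolev m fun x => c * f x :=
  sob_of_le (hf.1.const_mul c) (sl_const_mul c hf.2.1) (hf.2.2.const_mul |c|)
    ((gr_const_mul c hf.2.1).mono fun _ h => h.le)
theorem sob_neg (hf : IsSobolev m f) : IsSobolev m fun x => - f x := by
  simpa using sob_const_mul (-1) hf
theorem sob_sub (hf : IsSobolev m f) (hg : IsSobolev m g) : IsSobolev m fun x => f x - g x := by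
  simpa only [sub_eq_add_neg] using sob_add hf (sob_neg hg)
theorem sob_sum {ι : Type*} (s : Finset ι) {F : ι → X → ℝ} (h : ∀ i ∈ s, IsSobolev m (F i)) :
    IsSobolev m fun x => ∑ i ∈ s, F i x := by
  classical
  induction s using Finset.induction_on with
  | empty => simpa using sob_zero (m := m)
  | insert i s hi ih =>
    simp only [Finset.sum_insert hi]
    exact sob_add (h i (Finset.mem_insert_self _ _)) (ih fun j hj => h j (Finset.mem_insert_of_mem hj))
theorem sob_comp {φ : ℝ → ℝ} {L : ℝ≥0} (hφ : LipschitzWith L φ) (h0 : φ 0 = 0) (hf : IsSobolev m f) :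
    IsSobolev m fun x => φ (f x) :=
  sob_of_le (hφ.comp_memLp h0 hf.1) (sl_comp hφ hf.2.1) (hf.2.2.const_mul L) (gr_comp_le hφ hf.2.1)
/-- product of bounded `W^{1,2}` functions -/
theorem sob_mul (hf : IsSobolev m f) (hg : IsSobolev m g) {C C' : ℝ} (hfb : ∀ᵐ x ∂m, |f x| ≤ C)
    (hgb : ∀ᵐ x ∂m, |g x| ≤ C') : IsSobolev m fun x => f x * g x :=
  w8_prod hf.2.1 hg.2.1 (w8_mul (sl_aemeasurable hf.2.1) hfb hg.1) (w8_mul (sl_aemeasurable hf.2.1) hfb hg.2.2)
    (w8_mul (sl_aemeasurable hg.2.1) hgb hf.2.2)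
/-- multiplier: bounded with bounded gradient -/
theorem sob_mul_bdd (hf : IsSobolevLoc m f) {C C' : ℝ} (hfb : ∀ᵐ x ∂m, |f x| ≤ C)
    (hfg : ∀ᵐ x ∂m, minWeakGrad m f x ≤ C') (hg : IsSobolev m g) : IsSobolev m fun x => f x * g x := by
  refine w8_prod hf hg.2.1 (w8_mul (sl_aemeasurable hf) hfb hg.1) (w8_mul (sl_aemeasurable hf) hfb hg.2.2) ?_
  have h1 : ∀ᵐ x ∂m, |minWeakGrad m f x| ≤ C' := by
    filter_upwards [hfg, gr_nonneg m f] with x a b
    rwa [abs_of_nonneg b]
  simpa only [mul_comm] using w8_mul (gr_aemeasurable m f) h1 hg.1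
theorem sob_lip_mul {L : ℝ≥0} (hf : LipschitzWith L f) {C : ℝ} (hfb : ∀ x, |f x| ≤ C) (hg : IsSobolev m g) :
    IsSobolev m fun x => f x * g x :=
  sob_mul_bdd (sl_lip hf) (Eventually.of_forall hfb) (gr_le_lip hf) hg
/-- locally Sobolev and vanishing outside a ball (`gr_level`, `l2b_memLp`) -/
theorem sob_of_supp (hf : IsSobolevLoc m f) {o : X} {R : ℝ} (h : ∀ᵐ x ∂m, x ∉ Metric.ball o R → f x = 0) :
    IsSobolev m f := by
  refine ⟨l2b_memLp hf.1 h, hf, l2b_memLp (o := o) (R := R) (gr_l2b m f) ?_⟩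
  filter_upwards [h, gr_level hf 0] with x a b hx using b (a hx)
theorem sob_cutoff {χ : X → ℝ} (hχ : LipB χ) (hs : BddSupp χ) (hf : IsSobolevLoc m f) :
    IsSobolev m fun x => χ x * f x := by
  obtain ⟨o, R, h⟩ := hs
  exact sob_of_supp (o := o) (R := R) (sl_lipB_mul hχ hf)
    (Eventually.of_forall fun x hx => by rw [h x hx, zero_mul])
theorem sob_lip_supp {χ : X → ℝ} (hχ : LipB χ) (hs : BddSupp χ) : IsSobolev m χ := by
  obtain ⟨o, R, h⟩ := hs
  exact sob_of_supp (sl_lipB hχ) (Eventually.of_forall h)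
theorem bddSupp_of_compact [Nonempty X] (h : HasCompactSupport f) : BddSupp f := by
  obtain ⟨o⟩ := ‹Nonempty X›
  obtain ⟨R, hR⟩ := h.isCompact.isBounded.subset_ball o
  exact ⟨o, R, fun x hx => image_eq_zero_of_notMem_tsupport fun h' => hx (hR h')⟩
/-- a cut-off that is `1` on `ball o R` and `0` off `ball o (R+1)` -/
theorem exists_cutoff (o : X) (R : ℝ) : ∃ χ : X → ℝ, LipschitzWith 1 χ ∧ (∀ x, 0 ≤ χ x ∧ χ x ≤ 1) ∧
    (∀ x ∈ Metric.ball o R, χ x = 1) ∧ ∀ x, x ∉ Metric.ball o (R + 1) → χ x = 0 := by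
  refine ⟨fun x => max 0 (min 1 (R + 1 - dist x o)), ?_, fun x => ⟨le_max_left _ _,
    max_le zero_le_one (min_le_left _ _)⟩, fun x hx => ?_, fun x hx => ?_⟩
  · refine LipschitzWith.const_max (LipschitzWith.const_min (LipschitzWith.of_dist_le_mul fun x y => ?_) 1) 0
    rw [Real.dist_eq, show R + 1 - dist x o - (R + 1 - dist y o) = -(dist x o - dist y o) by ring, abs_neg]
    simpa using abs_dist_sub_le x y o
  · have : dist x o < R := hx
    show max 0 (min 1 (R + 1 - dist x o)) = 1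
    rw [min_eq_left (by linarith), max_eq_right zero_le_one]
  · have : R + 1 ≤ dist x o := not_lt.1 hx
    exact max_eq_left ((min_le_right _ _).trans (by linarith))

/-- the hypothesis in Bochner-integral form -/
theorem hilb_integral (hH : IsInfHilbertian m) (hf : IsSobolev m f) (hg : IsSobolev m g) :
    ∫ x, (minWeakGrad m (fun y => f y + g y) x ^ 2 + minWeakGrad m (fun y => f y - g y) x ^ 2 -
      2 * minWeakGrad m f x ^ 2 - 2 * minWeakGrad m g x ^ 2) ∂m = 0 := by
  have key : ∀ {h : X → ℝ}, MemLp h 2 m →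
      ∫⁻ x, ENNReal.ofReal (h x ^ 2) ∂m = ENNReal.ofReal (∫ x, h x ^ 2 ∂m) := fun hh =>
    (ofReal_integral_eq_lintegral_ofReal hh.integrable_sq (Eventually.of_forall fun _ => sq_nonneg _)).symm
  have nn : ∀ h : X → ℝ, 0 ≤ ∫ x, h x ^ 2 ∂m := fun h => integral_nonneg fun _ => sq_nonneg _
  have h1 := (sob_add hf hg).2.2
  have h2 := (sob_sub hf hg).2.2
  have h := hH f g hf hg
  rw [key h1, key h2, key hf.2.2, key hg.2.2] at h
  have h' := congrArg ENNReal.toReal h
  rw [ENNReal.toReal_add ENNReal.ofReal_ne_top ENNReal.ofReal_ne_top,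
    ENNReal.toReal_add (ENNReal.mul_ne_top (by simp) ENNReal.ofReal_ne_top)
      (ENNReal.mul_ne_top (by simp) ENNReal.ofReal_ne_top), ENNReal.toReal_mul, ENNReal.toReal_mul,
    ENNReal.toReal_ofReal (nn _), ENNReal.toReal_ofReal (nn _), ENNReal.toReal_ofReal (nn _),
    ENNReal.toReal_ofReal (nn _), ENNReal.toReal_ofNat] at h'
  have i1 := h1.integrable_sq.fun_add h2.integrable_sq
  have i2 := hf.2.2.integrable_sq.const_mul 2
  have i3 := hg.2.2.integrable_sq.const_mul 2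
  rw [integral_sub (i1.sub' i2) i3, integral_sub i1 i2, integral_add h1.integrable_sq h2.integrable_sq,
    integral_const_mul, integral_const_mul]
  linarith

end Crest.Agent.R242
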