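import Crest.Prelude.Def_SyntheticRicci

/-! Row 242, part I-b (helper26): definitions for the calculus of weak upper gradients along curves.
`cf m` = "for every test plan with bounded tracks, for almost every curve"; `pf m` = "... and almost every time".
`cd f (γ, t)` = derivative at `t` of the absolutely continuous representative of `f ∘ γ`. -/

set_option autoImplicit false
open MeasureTheory Filter Set Topology
open scoped ENNReal NNReal
open Crest.GeometryTopology.SyntheticRicci

namespace Crest.Agent.R242

/-- Lebesgue measure on `[0,1]` -/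
noncomputable abbrev I01 : Measure ℝ := volume.restrict (Icc (0 : ℝ) 1)

variable {X : Type*} [MetricSpace X]

/-- position at `z = (curve, time)` -/
noncomputable def ev (z : UCurve X × ℝ) : X := z.1.ext z.2

/-- real speed at `z = (curve, time)` -/
noncomputable def sp (z : UCurve X × ℝ) : ℝ := (upperSpeed z.1 z.2).toReal

/-- `g` is the absolutely continuous representative of `f ∘ γ` -/
structure Rep (f : X → ℝ) (γ : UCurve X) (g : ℝ → ℝ) : Prop where
  ac : AbsolutelyContinuousOnInterval g 0 1
  h0 : g 0 = f (γ.toMap 0)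
  h1 : g 1 = f (γ.toMap 1)
  ae : ∀ᵐ t ∂I01, g t = f (γ.ext t)

open Classical in
/-- derivative of `f` along the curve `z.1` at time `z.2` -/
noncomputable def cd (f : X → ℝ) (z : UCurve X × ℝ) : ℝ :=
  if h : ∃ g, Rep f z.1 g then deriv h.choose z.2 else 0

/-- Lipschitz on every ball -/
def LipB (f : X → ℝ) : Prop := ∀ (o : X) (R : ℝ), ∃ K : ℝ≥0, LipschitzOnWith K f (Metric.ball o R)

/-- vanishes outside a ball -/
def BddSupp (f : X → ℝ) : Prop := ∃ (o : X) (R : ℝ), ∀ x, x ∉ Metric.ball o R → f x = 0

variable [MeasurableSpace X]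

/-- essentially bounded on every ball -/
def BddB (m : Measure X) (f : X → ℝ) : Prop :=
  ∀ (o : X) (R : ℝ), ∃ C : ℝ, ∀ᵐ x ∂m, x ∈ Metric.ball o R → |f x| ≤ C

/-- test plan with bounded tracks -/
def Plan (m : Measure X) (P : Measure (UCurve X)) : Prop := IsTestPlan2 m P ∧ HasBoundedTracks P

/-- for every plan, for almost every curve -/
def cf (m : Measure X) : Filter (UCurve X) := ⨆ P : {P // Plan m P}, ae P.1

theorem eventually_cf {m : Measure X} {p : UCurve X → Prop} :
    (∀ᶠ γ in cf m, p γ) ↔ ∀ P, Plan m P → ∀ᵐ γ ∂P, p γ := by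
  simp [cf, eventually_iSup]

instance (m : Measure X) : CountableInterFilter (cf m) := ⟨fun S hS h => by
  refine eventually_cf.2 fun P hP => ?_
  exact (countable_sInter_mem hS).2 fun s hs => eventually_cf.1 (h s hs) P hP⟩

/-- for every plan, for almost every curve and almost every time -/
noncomputable def pf (m : Measure X) : Filter (UCurve X × ℝ) := (cf m).curry (ae I01)

theorem eventually_pf {m : Measure X} {p : UCurve X × ℝ → Prop} :
    (∀ᶠ z in pf m, p z) ↔ ∀ᶠ γ in cf m, ∀ᵐ t ∂I01, p (γ, t) := eventually_curry_iff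

instance (m : Measure X) : CountableInterFilter (pf m) := by unfold pf; infer_instance

/-- `f` has an absolutely continuous representative along almost every curve -/
def Reg (m : Measure X) (f : X → ℝ) : Prop := ∀ᶠ γ in cf m, ∃ g, Rep f γ g

/-- `D` is an upper gradient of `f` along almost every curve -/
def UG (m : Measure X) (f D : X → ℝ) : Prop :=
  Reg m f ∧ ∀ᶠ z in pf m, |cd f z| ≤ D (ev z) * sp z

omit [MeasurableSpace X] in
theorem sp_nonneg (z : UCurve X × ℝ) : 0 ≤ sp z := ENNReal.toReal_nonneg

end Crest.Agent.R242
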