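import Crest.Agent.R242.Wug8

/-! Row 242, I-b: pointwise parallelogram identity (helper26; aux names `wp_*`). -/

set_option autoImplicit false
set_option linter.unusedSectionVars false
open MeasureTheory Filter Set Topology
open scoped ENNReal NNReal
open Crest.GeometryTopology.SyntheticRicci

namespace Crest.Agent.R242

variable {X : Type*} [MetricSpace X] [MeasurableSpace X] [BorelSpace X] {m : Measure X} {f g u v D : X → ℝ}
  [Fact (IsFiniteOnBalls m)]

theorem wp_cmp {w χ b : X → ℝ} (hu : IsSobolevLoc m u) (hw : IsSobolevLoc m w) (hχ : AEMeasurable χ m)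
    (hb : AEMeasurable b m) (hχ0 : ∀ x, 0 ≤ χ x) (hb0 : ∀ᵐ x ∂m, 0 ≤ b x) {A : Set X}
    (hA : NullMeasurableSet A m)
    (h : ∀ᶠ z in pf m, ev z ∈ A → |(|cd u z| - χ (ev z) * |cd w z|)| ≤ b (ev z) * sp z) :
    ∀ᵐ x ∂m, x ∈ A → |minWeakGrad m u x - χ x * minWeakGrad m w x| ≤ b x := by
  have h1 := gr_le_on hu ((hχ.mul (gr_aemeasurable m w)).add hb) hA
    (by filter_upwards [hb0, gr_nonneg m w] with x h1 h2 _ using add_nonneg (mul_nonneg (hχ0 x) h2) h1)
    (by
      filter_upwards [h, abs_cd_le hw] with z h1 h2 hz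
      have h3 := (abs_le.1 (h1 hz)).2
      have h4 := mul_le_mul_of_nonneg_left h2 (hχ0 (ev z))
      simp only [Pi.add_apply, Pi.mul_apply]
      nlinarith)
  have hA' : NullMeasurableSet (A ∩ {x | 0 < χ x}) m :=
    hA.inter (nullMeasurableSet_lt aemeasurable_const hχ)
  have h2 := gr_le_on hw (((gr_aemeasurable m u).add hb).div hχ) hA'
    (by filter_upwards [hb0, gr_nonneg m u] with x h1 h2 _ using div_nonneg (add_nonneg h2 h1) (hχ0 x))
    (by
      filter_upwards [h, abs_cd_le hu] with z h1 h2 hz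
      have h3 := (abs_le.1 (h1 hz.1)).1
      have hp : 0 < χ (ev z) := hz.2
      simp only [Pi.add_apply, Pi.div_apply]
      rw [div_mul_eq_mul_div, le_div_iff₀ hp]
      nlinarith)
  filter_upwards [h1, h2, hb0, gr_nonneg m u] with x h1 h2 h3 h4 hx
  have h1 := h1 hx
  simp only [Pi.add_apply, Pi.mul_apply, Pi.div_apply] at h1 h2
  refine abs_le.2 ⟨?_, by linarith⟩
  rcases (hχ0 x).eq_or_lt with h0 | h0
  · rw [← h0]; linarith
  · have := (le_div_iff₀ h0).1 (h2 ⟨hx, h0⟩)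
    nlinarith

theorem wp_abs {p q c a e : ℝ} (hc : 0 ≤ c) (ha : a = 1 ∨ a = -1) (h : p = c * (a * q) + e) :
    |(|p| - c * |q|)| ≤ |e| := by
  have h1 : c * |q| = |c * (a * q)| := by
    rcases ha with rfl | rfl <;> simp [abs_mul, abs_of_nonneg hc]
  rw [h1]
  refine (abs_abs_sub_abs_le_abs_sub _ _).trans (le_of_eq ?_)
  rw [h]; congr 1; ring

theorem wp_sq {p q b : ℝ} (hq : 0 ≤ q) (h : |p - q| ≤ b) : |p ^ 2 - q ^ 2| ≤ b * (2 * q + b) := by
  have hb : 0 ≤ b := (abs_nonneg _).trans h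
  have : p ^ 2 - q ^ 2 = (p - q) * (2 * q + (p - q)) := by ring
  rw [this, abs_mul]
  refine mul_le_mul h ((abs_add_le _ _).trans ?_) (abs_nonneg _) hb
  rw [abs_of_nonneg (by linarith)]
  linarith

/-- the rescaled sawtooth -/
theorem wp_saw {k : ℝ} (hk : 1 ≤ k) : ∃ (φ σ : ℝ → ℝ) (C : Set ℝ), LipschitzWith 1 φ ∧ C.Countable ∧
    Measurable σ ∧ (∀ s, σ s = 1 ∨ σ s = -1) ∧ (∀ s, s ∉ C → HasDerivAt φ (σ s) s) ∧ ∀ s, |φ s| ≤ 1 / k := by
  obtain ⟨C, σ, hC, hσ, h1, hd⟩ := saw_deriv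
  have hk0 : 0 < k := by linarith
  refine ⟨fun s => saw (k * s) / k, fun s => σ (k * s), (fun s => k * s) ⁻¹' C, ?_,
    hC.preimage (mul_right_injective₀ hk0.ne'), hσ.comp (measurable_const_mul k), fun s => h1 _, fun s hs => ?_,
    fun s => ?_⟩
  · refine LipschitzWith.of_dist_le_mul fun s t => ?_
    have := saw_lip.dist_le_mul (k * s) (k * t)
    rw [Real.dist_eq, Real.dist_eq, ← mul_sub, abs_mul, abs_of_pos hk0] at this
    rw [Real.dist_eq, Real.dist_eq, ← sub_div, abs_div, abs_of_pos hk0, div_le_iff₀ hk0]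
    simp only [NNReal.coe_one, one_mul] at this ⊢
    linarith
  · have := ((hd _ hs).comp s ((hasDerivAt_id s).const_mul k)).div_const k
    have e : σ (k * s) * (k * 1) / k = σ (k * s) := by field_simp
    rw [e] at this
    exact this
  · rw [abs_div, abs_of_pos hk0]
    exact div_le_div_of_nonneg_right (abs_saw_le _) hk0.le

theorem wp_est (hf : IsSobolevLoc m f) (hg : IsSobolevLoc m g) {χ : X → ℝ} {L : ℝ≥0} (hL : LipschitzWith L χ)
    (hs : BddSupp χ) (h0 : ∀ x, 0 ≤ χ x) {k : ℝ} (hk : 1 ≤ k) :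
    ∃ u v : X → ℝ, IsSobolev m u ∧ IsSobolev m v ∧ ∀ᵐ x ∂m,
      |(minWeakGrad m (fun y => u y + v y) x ^ 2 + minWeakGrad m (fun y => u y - v y) x ^ 2 -
          2 * minWeakGrad m u x ^ 2 - 2 * minWeakGrad m v x ^ 2) -
        χ x ^ 2 * (minWeakGrad m (fun y => f y + g y) x ^ 2 + minWeakGrad m (fun y => f y - g y) x ^ 2 -
          2 * minWeakGrad m f x ^ 2 - 2 * minWeakGrad m g x ^ 2)| ≤
      1 / k * (4 * (minWeakGrad m χ x * (χ x * (minWeakGrad m (fun y => f y + g y) x +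
        minWeakGrad m (fun y => f y - g y) x + 2 * minWeakGrad m f x + 2 * minWeakGrad m g x))) +
        24 * minWeakGrad m χ x ^ 2) := by
  obtain ⟨φ, σ, C, hφ, hC, hσ, h1, hd, hb⟩ := wp_saw hk
  have hk0 : 0 < k := by linarith
  have hχ := sl_lip (m := m) hL
  have hu := sob_cutoff (lipB_of_lipschitz hL) hs (sl_comp hφ hf)
  have hv := sob_cutoff (lipB_of_lipschitz hL) hs (sl_comp hφ hg)
  refine ⟨_, _, hu, hv, ?_⟩
  have hcu := cd_mul (sl_reg hχ) (sl_reg (sl_comp hφ hf))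
  have hcv := cd_mul (sl_reg hχ) (sl_reg (sl_comp hφ hg))
  have hcf := cd_comp hφ.locallyLipschitz hC hd (sl_reg hf)
  have hcg := cd_comp hφ.locallyLipschitz hC hd (sl_reg hg)
  have hp := cd_add (sl_reg hu.2.1) (sl_reg hv.2.1)
  have hm := cd_sub (sl_reg hu.2.1) (sl_reg hv.2.1)
  have hp' := cd_add (sl_reg hf) (sl_reg hg)
  have hm' := cd_sub (sl_reg hf) (sl_reg hg)
  have hcχ := abs_cd_le hχ
  set b : X → ℝ := fun x => 2 / k * minWeakGrad m χ x with hbdef
  have hbm : AEMeasurable b m := (gr_aemeasurable m χ).const_mul _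
  have hb0 : ∀ᵐ x ∂m, 0 ≤ b x := by
    filter_upwards [gr_nonneg m χ] with x hx using mul_nonneg (by positivity) hx
  have herr : ∀ᶠ z in pf m, ∀ e : ℝ, |e| ≤ 2 / k → |e * cd χ z| ≤ b (ev z) * sp z := by
    filter_upwards [hcχ] with z hz e he
    rw [abs_mul, hbdef, mul_assoc]
    exact mul_le_mul he hz (abs_nonneg _) (by positivity)
  have e1 : ∀ s, |φ s| ≤ 2 / k := fun s => (hb s).trans (div_le_div_of_nonneg_right one_le_two hk0.le)
  have e2 : ∀ s t, |φ s + φ t| ≤ 2 / k := fun s t => (abs_add_le _ _).trans (by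
    have := hb s; have := hb t; have : 2 / k = 1 / k + 1 / k := by ring
    linarith)
  have e3 : ∀ s t, |φ s - φ t| ≤ 2 / k := fun s t => (abs_sub _ _).trans (by
    have := hb s; have := hb t; have : 2 / k = 1 / k + 1 / k := by ring
    linarith)
  have hχm := sl_aemeasurable hχ
  set A : Set X := {x | σ (f x) = σ (g x)} with hA
  have hAm : NullMeasurableSet A m :=
    nullMeasurableSet_eq_fun (hσ.comp_aemeasurable (sl_aemeasurable hf))
      (hσ.comp_aemeasurable (sl_aemeasurable hg))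
  have hAc : ∀ x, x ∈ Aᶜ → σ (g x) = - σ (f x) := fun x hx => by
    have hx' : σ (f x) ≠ σ (g x) := hx
    rcases h1 (f x) with h | h <;> rcases h1 (g x) with h' | h' <;> simp_all
  have c1 := wp_cmp hu.2.1 hf hχm hbm h0 hb0 (A := univ) nullMeasurableSet_univ (by
    filter_upwards [hcu, hcf, herr] with z h2 h3 h4 _
    exact (wp_abs (h0 _) (h1 (f (ev z))) (by rw [h2, h3]; ring)).trans (h4 _ (e1 (f (ev z)))))
  have c2 := wp_cmp hv.2.1 hg hχm hbm h0 hb0 (A := univ) nullMeasurableSet_univ (by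
    filter_upwards [hcv, hcg, herr] with z h2 h3 h4 _
    exact (wp_abs (h0 _) (h1 (g (ev z))) (by rw [h2, h3]; ring)).trans (h4 _ (e1 (g (ev z)))))
  have c3 := wp_cmp (sl_add hu.2.1 hv.2.1) (sl_add hf hg) hχm hbm h0 hb0 hAm (by
    filter_upwards [hcu, hcf, hcv, hcg, hp, hp', herr] with z h2 h3 h2' h3' h5 h6 h4 hz
    have hz' : σ (f (ev z)) = σ (g (ev z)) := hz
    exact (wp_abs (h0 _) (h1 (f (ev z))) (by rw [h5, h6, h2, h3, h2', h3', ← hz']; ring)).trans
      (h4 _ (e2 (f (ev z)) (g (ev z)))))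
  have c4 := wp_cmp (sl_sub hu.2.1 hv.2.1) (sl_sub hf hg) hχm hbm h0 hb0 hAm (by
    filter_upwards [hcu, hcf, hcv, hcg, hm, hm', herr] with z h2 h3 h2' h3' h5 h6 h4 hz
    have hz' : σ (f (ev z)) = σ (g (ev z)) := hz
    exact (wp_abs (h0 _) (h1 (f (ev z))) (by rw [h5, h6, h2, h3, h2', h3', ← hz']; ring)).trans
      (h4 _ (e3 (f (ev z)) (g (ev z)))))
  have c5 := wp_cmp (sl_add hu.2.1 hv.2.1) (sl_sub hf hg) hχm hbm h0 hb0 hAm.compl (by
    filter_upwards [hcu, hcf, hcv, hcg, hp, hm', herr] with z h2 h3 h2' h3' h5 h6 h4 hz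
    exact (wp_abs (h0 _) (h1 (f (ev z))) (by rw [h5, h6, h2, h3, h2', h3', hAc _ hz]; ring)).trans
      (h4 _ (e2 (f (ev z)) (g (ev z)))))
  have c6 := wp_cmp (sl_sub hu.2.1 hv.2.1) (sl_add hf hg) hχm hbm h0 hb0 hAm.compl (by
    filter_upwards [hcu, hcf, hcv, hcg, hm, hp', herr] with z h2 h3 h2' h3' h5 h6 h4 hz
    exact (wp_abs (h0 _) (h1 (f (ev z))) (by rw [h5, h6, h2, h3, h2', h3', hAc _ hz]; ring)).trans
      (h4 _ (e3 (f (ev z)) (g (ev z)))))
  filter_upwards [c1, c2, c3, c4, c5, c6, gr_nonneg m χ, gr_nonneg m f, gr_nonneg m g,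
    gr_nonneg m fun y => f y + g y, gr_nonneg m fun y => f y - g y] with x c1 c2 c3 c4 c5 c6 n0 n1 n2 n3 n4
  have d1 := abs_le.1 (wp_sq (mul_nonneg (h0 x) n1) (c1 trivial))
  have d2 := abs_le.1 (wp_sq (mul_nonneg (h0 x) n2) (c2 trivial))
  have hbx : b x = 2 * (1 / k) * minWeakGrad m χ x := by rw [hbdef]; ring
  have hk1 : 1 / k ≤ 1 := by rw [div_le_one hk0]; exact hk
  have hk2 : 0 ≤ 1 / k := by positivity
  have hsq : b x * b x ≤ 4 * (1 / k) * minWeakGrad m χ x ^ 2 := by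
    rw [hbx]
    have : (1 / k) * (1 / k) ≤ 1 / k := by nlinarith
    nlinarith [sq_nonneg (minWeakGrad m χ x)]
  by_cases hx : x ∈ A
  · have d3 := abs_le.1 (wp_sq (mul_nonneg (h0 x) n3) (c3 hx))
    have d4 := abs_le.1 (wp_sq (mul_nonneg (h0 x) n4) (c4 hx))
    rw [hbx] at d1 d2 d3 d4 hsq
    refine abs_le.2 ⟨?_, ?_⟩ <;> nlinarith [d1.1, d1.2, d2.1, d2.2, d3.1, d3.2, d4.1, d4.2]
  · have d3 := abs_le.1 (wp_sq (mul_nonneg (h0 x) n4) (c5 hx))
    have d4 := abs_le.1 (wp_sq (mul_nonneg (h0 x) n3) (c6 hx))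
    rw [hbx] at d1 d2 d3 d4 hsq
    refine abs_le.2 ⟨?_, ?_⟩ <;> nlinarith [d1.1, d1.2, d2.1, d2.2, d3.1, d3.2, d4.1, d4.2]

theorem wp_int (hu : IsSobolev m u) : Integrable (fun x => minWeakGrad m u x ^ 2) m :=
  hu.2.2.integrable_sq

theorem wp_zero (hH : IsInfHilbertian m) (hf : IsSobolevLoc m f) (hg : IsSobolevLoc m g) {χ : X → ℝ} {L : ℝ≥0}
    (hL : LipschitzWith L χ) (hs : BddSupp χ) (h0 : ∀ x, 0 ≤ χ x) :
    ∫ x, χ x ^ 2 * (minWeakGrad m (fun y => f y + g y) x ^ 2 + minWeakGrad m (fun y => f y - g y) x ^ 2 -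
      2 * minWeakGrad m f x ^ 2 - 2 * minWeakGrad m g x ^ 2) ∂m = 0 := by
  set Q : X → ℝ := fun x => χ x ^ 2 * (minWeakGrad m (fun y => f y + g y) x ^ 2 +
    minWeakGrad m (fun y => f y - g y) x ^ 2 - 2 * minWeakGrad m f x ^ 2 - 2 * minWeakGrad m g x ^ 2) with hQ
  set H : X → ℝ := fun x => 4 * (minWeakGrad m χ x * (χ x * (minWeakGrad m (fun y => f y + g y) x +
    minWeakGrad m (fun y => f y - g y) x + 2 * minWeakGrad m f x + 2 * minWeakGrad m g x))) +
    24 * minWeakGrad m χ x ^ 2 with hH'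
  have hχ := sob_lip_supp (m := m) (lipB_of_lipschitz hL) hs
  have hT : MemLp (fun x => χ x * (minWeakGrad m (fun y => f y + g y) x +
      minWeakGrad m (fun y => f y - g y) x + 2 * minWeakGrad m f x + 2 * minWeakGrad m g x)) 2 m := by
    obtain ⟨o, R, hR⟩ := hs
    refine l2b_memLp (l2b_mul hL.continuous.measurable.aemeasurable (lipB_of_lipschitz hL).bddB
      (l2b_add (l2b_add (l2b_add (gr_l2b m _) (gr_l2b m _)) (l2b_const_mul 2 (gr_l2b m _)))
        (l2b_const_mul 2 (gr_l2b m _)))) (o := o) (R := R) (Eventually.of_forall fun x hx => ?_)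
    rw [hR x hx, zero_mul]
  have hHi : Integrable H m := ((hχ.2.2.integrable_mul hT).const_mul 4).add ((wp_int hχ).const_mul 24)
  have hQm : AEStronglyMeasurable Q m := by
    have := gr_aemeasurable m
    have := hL.continuous.measurable.aemeasurable (μ := m)
    refine AEMeasurable.aestronglyMeasurable ?_
    rw [hQ]
    fun_prop
  have key : ∀ k : ℝ, 1 ≤ k → |∫ x, Q x ∂m| ≤ 1 / k * ∫ x, H x ∂m := fun k hk => by
    obtain ⟨u, v, hu, hv, h⟩ := wp_est hf hg hL hs h0 hk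
    have hi : Integrable (fun x => minWeakGrad m (fun y => u y + v y) x ^ 2 +
        minWeakGrad m (fun y => u y - v y) x ^ 2 - 2 * minWeakGrad m u x ^ 2 - 2 * minWeakGrad m v x ^ 2) m :=
      (((wp_int (sob_add hu hv)).add (wp_int (sob_sub hu hv))).sub ((wp_int hu).const_mul 2)).sub
        ((wp_int hv).const_mul 2)
    have hd : Integrable (fun x => (minWeakGrad m (fun y => u y + v y) x ^ 2 +
        minWeakGrad m (fun y => u y - v y) x ^ 2 - 2 * minWeakGrad m u x ^ 2 - 2 * minWeakGrad m v x ^ 2) -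
        Q x) m := (hHi.const_mul (1 / k)).mono' (hi.1.sub hQm) h
    have hQi : Integrable Q m := by
      refine (hi.sub hd).congr (Eventually.of_forall fun x => ?_)
      simp only [Pi.sub_apply]
      ring
    have e := integral_sub hi hQi
    rw [hilb_integral hH hu hv, zero_sub] at e
    rw [← abs_neg, ← e, ← integral_const_mul]
    rw [← Real.norm_eq_abs]
    exact norm_integral_le_of_norm_le (hHi.const_mul _) (h.mono fun x hx => hx)
  have ht : Tendsto (fun n : ℕ => 1 / ((n : ℝ) + 1) * ∫ x, H x ∂m) atTop (𝓝 0) := by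
    simpa using tendsto_one_div_add_atTop_nhds_zero_nat.mul_const (∫ x, H x ∂m)
  exact abs_nonpos_iff.1 (ge_of_tendsto' ht fun n => key _ (by have := n.cast_nonneg (α := ℝ); linarith))

/-- Oscillation trick.  Let `Q(f,g)` be the left side minus the right side; it does not change under
`f → ±f`, `g → ±g`.  For a cut-off `χ` and `k ≥ 1` put `u = χ * saw (k f) / k`, `v = χ * saw (k g) / k`
(in `W^{1,2}`).  With `σ, τ = ±1` (`saw_deriv`): `cd u = χ σ cd f + (saw (k f)/k) cd χ`; on each of the four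
sets where `(σ, τ)` is constant `gr_le_on` gives
`|gr (u ± v) - χ gr (σ f ± τ g)| ≤ (2/k) gr χ`, `|gr u - χ gr f| ≤ gr χ / k`.  So `Q(u,v) → χ² Q(f,g)` with
dominated convergence, `∫ χ² Q(f,g) = 0`, and `ae_nonneg_of_lip_sq` for `±Q`. -/
theorem gr_par (hH : IsInfHilbertian m) (hf : IsSobolevLoc m f) (hg : IsSobolevLoc m g) :
    ∀ᵐ x ∂m, minWeakGrad m (fun y => f y + g y) x ^ 2 + minWeakGrad m (fun y => f y - g y) x ^ 2 =
      2 * minWeakGrad m f x ^ 2 + 2 * minWeakGrad m g x ^ 2 := by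
  have hi : ∀ (o : X) (R : ℝ), IntegrableOn (fun x => minWeakGrad m (fun y => f y + g y) x ^ 2 +
      minWeakGrad m (fun y => f y - g y) x ^ 2 - 2 * minWeakGrad m f x ^ 2 - 2 * minWeakGrad m g x ^ 2)
      (Metric.ball o R) m := fun o R =>
    (((gr_l2b m _ o R).integrable_sq.add (gr_l2b m _ o R).integrable_sq).sub
      ((gr_l2b m _ o R).integrable_sq.const_mul 2)).sub ((gr_l2b m _ o R).integrable_sq.const_mul 2)
  have h1 := ae_nonneg_of_lip_sq hi fun χ ⟨L, hL⟩ hs h0 => (wp_zero hH hf hg hL hs fun x => (h0 x).1).ge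
  have h2 := ae_nonneg_of_lip_sq (fun o R => (hi o R).neg) fun χ ⟨L, hL⟩ hs h0 => by
    have := wp_zero hH hf hg hL hs fun x => (h0 x).1
    simp only [Pi.neg_apply, mul_neg, integral_neg, this, neg_zero, le_refl]
  filter_upwards [h1, h2] with x h1 h2
  simp only [Pi.neg_apply] at h2
  linarith

end Crest.Agent.R242
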